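import Mathlib

/-!
# Row 109: definitions for the finite (Marcus–Spielman–Srivastava) part.

`pp sg Y φ z` is the average, over independent uniform choices `f v ∈ φ v` of a set of copies for each vertex,
of `∏ₖ det (diag z - sg k • Y)` restricted to the vertices present in copy `k`.  A vertex is deleted when
`φ v = {∅}`.  Along the line `t ↦ hts β σ ℓ t` of heights the polynomial has real roots `λ`; the potential is
`Pi = ∑ exp λ`, and `P u` is the share of the vertex `u`.
-/

set_option autoImplicit false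

namespace Crest.Agent.R109

open Matrix Finset
open scoped Real

section Poly

variable {V K : Type*} [Fintype V] [DecidableEq V] [Fintype K] [DecidableEq K]

/-- `diag z - e • Y` (off-diagonal part of `Y`) on `S`, padded by the identity -/
def mat (S : Finset V) (e : ℂ) (Y : Matrix V V ℂ) (z : V → ℂ) : Matrix V V ℂ :=
  Matrix.of fun u v => if u = v then (if u ∈ S then z u else 1)
    else (if u ∈ S ∧ v ∈ S then -(e * Y u v) else 0)

/-- product of the determinants of the copies -/
noncomputable def pf (sg : K → ℂ) (Y : Matrix V V ℂ) (z : V → ℂ) (f : V → Finset K) : ℂ :=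
  ∏ k, (mat (univ.filter fun v => k ∈ f v) (sg k) Y z).det

/-- the averaged polynomial -/
noncomputable def pp (sg : K → ℂ) (Y : Matrix V V ℂ) (φ : V → Finset (Finset K)) (z : V → ℂ) : ℂ :=
  (∏ v, ((φ v).card : ℂ))⁻¹ * ∑ f ∈ Fintype.piFinset φ, pf sg Y z f

/-- a non-empty family of single copies -/
def Sing (Φ : Finset (Finset K)) : Prop := Φ.Nonempty ∧ ∀ S ∈ Φ, S.card = 1

/-- admissible families: one set of copies, or single copies -/
def Adm (Φ : Finset (Finset K)) : Prop := Φ.card = 1 ∨ Sing Φ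

/-- signs -/
def Sgn (sg : K → ℂ) : Prop := ∀ k, sg k = 1 ∨ sg k = -1

/-- `‖Y‖ ≤ 1` on `ℓ²` -/
def Contr (Y : Matrix V V ℂ) : Prop := ∀ x : V → ℂ, ∑ u, ‖(Y *ᵥ x) u‖ ^ 2 ≤ ∑ u, ‖x u‖ ^ 2

/-- row sums -/
def Rows (Y : Matrix V V ℂ) (K₀ : ℝ) : Prop := ∀ u, ∑ v, ‖Y u v‖ ≤ K₀

/-- all single copies -/
def uncF (K : Type*) [Fintype K] [DecidableEq K] : Finset (Finset K) := univ.image fun k => {k}

end Poly

/-- states of a vertex -/
inductive Stt (r : ℕ) where
  | del : Stt r
  | unc : Stt r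
  | col (c : Fin r) : Stt r
  | one (c : Fin r) (s : Bool) : Stt r

noncomputable instance (r : ℕ) : DecidableEq (Stt r) := Classical.decEq _

/-- the family of a state -/
def fam {r : ℕ} : Stt r → Finset (Finset (Fin r × Bool))
  | .del => {∅}
  | .unc => uncF (Fin r × Bool)
  | .col c => {{(c, true)}, {(c, false)}}
  | .one c s => {{(c, s)}}

/-- slopes of the heights -/
def slope {r : ℕ} : Stt r → ℝ
  | .del => 1
  | .unc => 1
  | .col _ => 160
  | .one _ _ => 320

/-- the equation lemmas are generated once, here -/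
theorem stt_eqns : True := by
  have := @fam.eq_def
  have := @fam.eq_1
  have := @fam.eq_2
  have := @fam.eq_3
  have := @fam.eq_4
  have := @slope.eq_def
  have := @slope.eq_1
  have := @slope.eq_2
  have := @slope.eq_3
  have := @slope.eq_4
  trivial

/-- sign of a Boolean -/
def bsg (s : Bool) : ℂ := if s then 1 else -1

/-- signs of the copies -/
def sgn {r : ℕ} (k : Fin r × Bool) : ℂ := bsg k.2

/-- the barrier -/
noncomputable def bar (r : ℕ) : ℝ := 4 / √(r : ℝ)

section Pot

variable {V : Type*} [Fintype V] [DecidableEq V] {r : ℕ}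

/-- heights -/
noncomputable def hts (β : ℝ) (σ : V → Stt r) (ℓ : V → ℝ) (t : ℂ) : V → ℂ :=
  fun v => (slope (σ v) : ℂ) * ((bar r : ℂ) + (β : ℂ) * (t - (ℓ v : ℂ)))

/-- the polynomial along the line of heights -/
noncomputable def pS (β : ℝ) (σ : V → Stt r) (Y : Matrix V V ℂ) (ℓ : V → ℝ) (t : ℂ) : ℂ :=
  pp sgn Y (fun v => fam (σ v)) (hts β σ ℓ t)

/-- the share of `u` in the logarithmic derivative -/
noncomputable def Gf (β : ℝ) (σ : V → Stt r) (Y : Matrix V V ℂ) (ℓ : V → ℝ) (u : V) (t : ℂ) : ℂ :=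
  if σ u = .del then 0
  else (slope (σ u) : ℂ) * (β : ℂ) * pS β (Function.update σ u .del) Y ℓ t / pS β σ Y ℓ t

/-- a radius enclosing all roots -/
noncomputable def rad (r : ℕ) (β : ℝ) (Y : Matrix V V ℂ) (ℓ : V → ℝ) : ℝ :=
  (∑ u, ∑ v, ‖Y u v‖ + bar r + 1) / β + ∑ v, |ℓ v|

/-- the share of `u` in the potential -/
noncomputable def Pu (β : ℝ) (σ : V → Stt r) (Y : Matrix V V ℂ) (ℓ : V → ℝ) (u : V) : ℝ :=
  ((2 * π * Complex.I)⁻¹ * ∮ t in C(0, rad r β Y ℓ), Complex.exp t * Gf β σ Y ℓ u t).re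

/-- the potential -/
noncomputable def Pot (β : ℝ) (σ : V → Stt r) (Y : Matrix V V ℂ) (ℓ : V → ℝ) : ℝ :=
  ∑ u, Pu β σ Y ℓ u

/-- averaged residues of a state -/
noncomputable def kav {J : Type*} (s : Stt r) (κ : Fin r × Bool → J → ℝ) (j : J) : ℝ :=
  ((fam s).card : ℝ)⁻¹ * ∑ S ∈ fam s, ∑ k ∈ S, κ k j

/-- the locality error -/
noncomputable def err (r : ℕ) (β K₀ T Rl : ℝ) (ρ : ℕ) : ℝ :=
  640 * β * (((K₀ * T + 1 + bar r) / β + Rl) * Real.exp ((K₀ * T + 1 + bar r) / β + Rl)) / T ^ ρ

/-- the matrix `1 - b ± Y^c / 320` whose moments control the paving -/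
noncomputable def zM (Y : Matrix V V ℂ) (c : V → Fin r) (s : Bool) : Matrix V V ℂ :=
  Matrix.of fun u v => if u = v then 1 - (bar r : ℂ)
    else if c u = c v then bsg s * Y u v / 320 else 0

end Pot

section Arrow

variable {J : Type*} [Fintype J] [DecidableEq J]

/-- arrowhead matrices -/
noncomputable def arrow (m : ℝ) (κ τ : J → ℝ) : Matrix (Option J) (Option J) ℝ :=
  Matrix.of fun i j => Option.elim i (Option.elim j m fun j => √(κ j))
    fun i => Option.elim j (√(κ i)) fun j => if i = j then τ i else 0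

theorem arrow_herm (m : ℝ) (κ τ : J → ℝ) : (arrow m κ τ).IsHermitian := by
  ext i j
  rcases i with _ | i <;> rcases j with _ | j <;> simp [arrow, conjTranspose_apply]
  by_cases h : i = j
  · simp [h]
  · simp [h, Ne.symm h]

/-- eigenvalues of the arrowhead matrix -/
noncomputable def aev (m : ℝ) (κ τ : J → ℝ) : Option J → ℝ := (arrow_herm m κ τ).eigenvalues

/-- the spectral shift of the exponential -/
noncomputable def SS (m : ℝ) (κ τ : J → ℝ) : ℝ :=
  ∑ i, Real.exp (aev m κ τ i) - ∑ j, Real.exp (τ j)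

/-- convolution of two exponentials -/
noncomputable def cv (τ m s : ℝ) : ℝ := ∫ y in (0 : ℝ)..s, Real.exp (τ * (s - y)) * Real.exp (m * y)

/-- entries of `exp (s M)` -/
noncomputable def Ex {n : Type*} [Fintype n] [DecidableEq n] {M : Matrix n n ℝ} (hM : M.IsHermitian)
    (s : ℝ) (i j : n) : ℝ :=
  ∑ a, Real.exp (s * hM.eigenvalues a) * (hM.eigenvectorUnitary : Matrix n n ℝ) i a *
    (hM.eigenvectorUnitary : Matrix n n ℝ) j a

end Arrow

end Crest.Agent.R109
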