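import Crest.Agent.R109.Defs
import Crest.Agent.R109.FDefs

/-!
# Row 109: the local model.

`AM`: a compact space `X` of "base points" with a probability measure; the points of the orbit of `χ` within
distance `R` lie in different classes `k : Fin J`; `d χ k` is the distance to the point `pt χ k` of class `k`
(`> R`: there is none), `Y χ` the matrix of the operator on this ball, `ℓ χ k` the logarithm of the
Radon–Nikodym cocycle.  `Gel`, `act`, `Gen`, `gw`, …: the model attached to a finite family of groupoid elements.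
-/

set_option autoImplicit false

namespace Crest.Agent.R109

open scoped ComplexConjugate ComplexOrder
open MeasureTheory Finset

universe u

/-- the abstract local model -/
structure AM (X : Type u) [TopologicalSpace X] [MeasurableSpace X] (μ : Measure X) (J R : ℕ)
    (K₀ Λ : ℝ) (D : ℕ) where
  cl : X → Fin J
  d : X → Fin J → ℕ
  pt : X → Fin J → X
  Y : X → Matrix (Fin J) (Fin J) ℂ
  ℓ : X → Fin J → ℝ
  ed : ∀ F : X → ℝ, Continuous F → IsOpen (closure {χ | 0 < F χ})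
  cl_lc : IsLocallyConstant cl
  d_lc : ∀ k, IsLocallyConstant fun χ => d χ k
  pt_cont : ∀ k, Continuous fun χ => pt χ k
  Y_cont : ∀ k l, Continuous fun χ => Y χ k l
  ℓ_cont : ∀ k, Continuous fun χ => ℓ χ k
  d_self : ∀ χ, d χ (cl χ) = 0
  pt_self : ∀ χ, pt χ (cl χ) = χ
  ℓ_self : ∀ χ, ℓ χ (cl χ) = 0
  cl_pt : ∀ χ k, d χ k ≤ R → cl (pt χ k) = k
  d_symm : ∀ χ k, d χ k ≤ R → d (pt χ k) (cl χ) = d χ k
  pt_symm : ∀ χ k, d χ k ≤ R → pt (pt χ k) (cl χ) = χ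
  tri : ∀ χ k l, d χ k ≤ R → d (pt χ k) l + d χ k ≤ R → d χ l ≤ d (pt χ k) l + d χ k
  pt_pt : ∀ χ k l, d χ k ≤ R → d χ l ≤ R → d (pt χ k) l ≤ R → pt (pt χ k) l = pt χ l
  ℓ_pt : ∀ χ k l, d χ k ≤ R → d χ l ≤ R → d (pt χ k) l ≤ R → ℓ (pt χ k) l = ℓ χ l - ℓ χ k
  gauge : ∀ χ k, d χ k ≤ R → ∃ g : Fin J → ℂ, (∀ l, ‖g l‖ = 1) ∧ ∀ l l', d χ l ≤ R → d χ l' ≤ R →
    d (pt χ k) l ≤ R → d (pt χ k) l' ≤ R → Y (pt χ k) l l' = conj (g l) * Y χ l l' * g l'
  adj : ∀ χ k l l', d χ k ≤ R → Y χ l l' ≠ 0 → d (pt χ k) l < R → d (pt χ k) l' ≤ d (pt χ k) l + 1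
  herm : ∀ χ, (Y χ).IsHermitian
  diag : ∀ χ k, Y χ k k = 0
  supp : ∀ χ k l, Y χ k l ≠ 0 → d χ k ≤ R
  contr : ∀ χ, Contr (Y χ)
  rows : ∀ χ, Rows (Y χ) K₀
  ℓ_le : ∀ χ k, d χ k ≤ R → |ℓ χ k| ≤ Λ * d χ k
  count : ∀ χ, (univ.filter fun k => d χ k ≤ R).card ≤ D ^ R
  transport : ∀ (j k : Fin J) (F : X → ℝ), Continuous F →
    ∫ χ, (if cl χ = j ∧ d χ k ≤ R then Real.exp (ℓ χ k) * F (pt χ k) else 0) ∂μ =
      ∫ χ, (if cl χ = k ∧ d χ j ≤ R then F χ else 0) ∂μ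

namespace AM

variable {X : Type u} [TopologicalSpace X] [MeasurableSpace X] {μ : Measure X} {J R : ℕ}
  {K₀ Λ : ℝ} {D r : ℕ} (am : AM X μ J R K₀ Λ D)

/-- invariant, locally constant linear orders of the balls -/
structure Ord (lt : X → Fin J → Fin J → Prop) : Prop where
  lc : ∀ k l, IsClopen {χ | lt χ k l}
  irrefl : ∀ χ k, ¬ lt χ k k
  trans : ∀ χ k l m, lt χ k l → lt χ l m → lt χ k m
  total : ∀ χ k l, k ≠ l → lt χ k l ∨ lt χ l k
  cons : ∀ χ k l l', am.d χ k ≤ R → am.d χ l ≤ R → am.d χ l' ≤ R → am.d (am.pt χ k) l ≤ R →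
    am.d (am.pt χ k) l' ≤ R → (lt (am.pt χ k) l l' ↔ lt χ l l')

/-- a field of states seen from `χ` -/
def lst (σ : X → Stt r) (χ : X) : Fin J → Stt r :=
  fun k => if am.d χ k ≤ R then σ (am.pt χ k) else .del

open Classical in
/-- hybrid states: `σ₁` before `z` (and at `z` if `b`), `σ₀` after -/
noncomputable def hyb (σ₀ σ₁ : X → Stt r) (lt : X → Fin J → Fin J → Prop) (χ : X) (z : Fin J)
    (b : Bool) : Fin J → Stt r :=
  fun k => if am.d χ k ≤ R then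
    (if lt χ k z ∨ (b = true ∧ k = z) then σ₁ (am.pt χ k) else σ₀ (am.pt χ k)) else .del

/-- density of the potential -/
noncomputable def dens (β : ℝ) (σ : X → Stt r) (χ : X) : ℝ :=
  Pu β (am.lst σ χ) (am.Y χ) (am.ℓ χ) (am.cl χ)

/-- the cost of the move at the base point -/
def Step (β : ℝ) (σ₀ σ₁ : X → Stt r) (lt : X → Fin J → Fin J → Prop) (c : ℝ) : Prop :=
  ∀ χ, Pot β (am.hyb σ₀ σ₁ lt χ (am.cl χ) true) (am.Y χ) (am.ℓ χ) ≤
    Pot β (am.hyb σ₀ σ₁ lt χ (am.cl χ) false) (am.Y χ) (am.ℓ χ) + c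

end AM

/-- colourings driven by labels -/
structure LCol {X : Type u} [TopologicalSpace X] {ι : Type u} [DecidableEq ι] (cell : X → ι) {m r : ℕ}
    (N : ℕ) (col : (ι → Fin m) → X → Fin r) (dep : X → Finset ι) : Prop where
  lc : ∀ l, IsLocallyConstant (col l)
  dep_lc : IsLocallyConstant dep
  card : ∀ χ, (dep χ).card ≤ N
  junta : ∀ χ l l', (∀ e ∈ dep χ, l e = l' e) → col l χ = col l' χ
  inj : ∀ χ l (i i' : Fin m), i ≠ i' →
    col (Function.update l (cell χ) i) χ ≠ col (Function.update l (cell χ) i') χ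

section VN

variable {H : Type u} [NormedAddCommGroup H] [InnerProductSpace ℂ H] [CompleteSpace H]

/-- Gelfand picture of `(A, ω)` -/
structure Gel (A : StarSubalgebra ℂ (H →L[ℂ] H)) (ω : (H →L[ℂ] H) →ₗ[ℂ] ℂ) (X : Type u)
    [TopologicalSpace X] [CompactSpace X] [MeasurableSpace X] (μ : Measure X) where
  Φ : C(X, ℂ) →⋆ₐ[ℂ] (H →L[ℂ] H)
  ev : (H →L[ℂ] H) →ₗ[ℂ] C(X, ℂ)
  mem : ∀ F, Φ F ∈ A
  Φ_ev : ∀ a ∈ A, Φ (ev a) = a
  ev_Φ : ∀ F, ev (Φ F) = F
  int : ∀ F, ω (Φ F) = ∫ χ, F χ ∂μ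
  ed : ∀ F : X → ℝ, Continuous F → IsOpen (closure {χ | 0 < F χ})

/-- words in the generators -/
noncomputable def wd {n : ℕ} (u : Fin n → H →L[ℂ] H) (w : List (Fin n)) : H →L[ℂ] H := (w.map u).prod

/-- a symmetric family of generators for `x'` -/
structure Gen (M : VonNeumannAlgebra H) (A : StarSubalgebra ℂ (H →L[ℂ] H))
    (ω : (H →L[ℂ] H) →ₗ[ℂ] ℂ) (E : (H →L[ℂ] H) →ₗ[ℂ] (H →L[ℂ] H)) (Λ K₀ : ℝ) {n : ℕ}
    (u b : Fin n → H →L[ℂ] H) (x' : H →L[ℂ] H) : Prop where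
  nonneg : 0 ≤ Λ
  gb : ∀ i, Gb M A ω Λ (u i)
  mem : ∀ i, b i ∈ A
  symm : ∀ i, ∃ i', u i' = star (u i)
  eq : x' = ∑ i, u i * b i
  sa : IsSelfAdjoint x'
  E_eq : E x' = 0
  norm_le : ‖x'‖ ≤ 1
  sum_le : ∑ i, ‖b i‖ ≤ K₀

/-- the classes separate points at distance `≤ 3 R + 1` -/
def Proper (A : StarSubalgebra ℂ (H →L[ℂ] H)) {n J : ℕ} (u : Fin n → H →L[ℂ] H)
    (e : Fin J → H →L[ℂ] H) (R : ℕ) : Prop :=
  ∀ w : List (Fin n), w.length ≤ 3 * R + 1 → ∀ j, e j * wd u w * e j ∈ A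

open Classical in
/-- a Radon–Nikodym derivative -/
noncomputable def rho (M : VonNeumannAlgebra H) (A : StarSubalgebra ℂ (H →L[ℂ] H))
    (ω : (H →L[ℂ] H) →ₗ[ℂ] ℂ) (v : H →L[ℂ] H) : H →L[ℂ] H :=
  if h : ∃ ρ Λ, RNd M A ω Λ v ρ then h.choose else 1

open Classical in
/-- selection of a word from a set of words -/
noncomputable def sel {α : Type*} (S : Set (List α)) : List α :=
  if [] ∈ S then [] else if h : S.Nonempty then h.some else []

open Classical in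
/-- minimal length in a set of words -/
noncomputable def mlen {α : Type*} (R : ℕ) (S : Set (List α)) : ℕ :=
  if S.Nonempty then sInf (List.length '' S) else R + 1

namespace Gel

variable {A : StarSubalgebra ℂ (H →L[ℂ] H)} {ω : (H →L[ℂ] H) →ₗ[ℂ] ℂ} {X : Type u}
  [TopologicalSpace X] [CompactSpace X] [MeasurableSpace X] {μ : Measure X} (g : Gel A ω X μ)

/-- the domain of a groupoid element -/
def dom (v : H →L[ℂ] H) (χ : X) : Prop := g.ev (star v * v) χ = 1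

open Classical in
/-- the action of a groupoid element -/
noncomputable def act (v : H →L[ℂ] H) (χ : X) : X :=
  if h : ∃ χ', ∀ a ∈ A, g.ev a χ' = g.ev (star v * a * v) χ then h.choose else χ

/-- the state `y ↦ (E y)(χ)` -/
noncomputable def st (E : (H →L[ℂ] H) →ₗ[ℂ] (H →L[ℂ] H)) (χ : X) : (H →L[ℂ] H) →ₗ[ℂ] ℂ where
  toFun y := g.ev (E y) χ
  map_add' y z := by simp
  map_smul' c y := by simp

variable {n J : ℕ} (u : Fin n → H →L[ℂ] H) (e : Fin J → H →L[ℂ] H) (R : ℕ)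

/-- words leading from `χ` to the class `k` -/
def gw (χ : X) (k : Fin J) : Set (List (Fin n)) :=
  {w | w.length ≤ R ∧ g.dom (wd u w) χ ∧ g.ev (e k) (g.act (wd u w) χ) = 1}

/-- the chosen groupoid element leading from `χ` to the class `k` -/
noncomputable def W (χ : X) (k : Fin J) : H →L[ℂ] H := wd u (sel (g.gw u e R χ k))

/-- distance to the class `k` -/
noncomputable def dd (χ : X) (k : Fin J) : ℕ := mlen R (g.gw u e R χ k)

/-- the point of class `k` -/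
noncomputable def ptt (χ : X) (k : Fin J) : X := g.act (g.W u e R χ k) χ

/-- logarithm of the cocycle -/
noncomputable def ll (M : VonNeumannAlgebra H) (χ : X) (k : Fin J) : ℝ :=
  Real.log (g.ev (rho M A ω (g.W u e R χ k)) χ).re

/-- the local matrix -/
noncomputable def YY (E : (H →L[ℂ] H) →ₗ[ℂ] (H →L[ℂ] H)) (x' : H →L[ℂ] H) (χ : X) :
    Matrix (Fin J) (Fin J) ℂ :=
  Matrix.of fun k l => if g.dd u e R χ k ≤ R ∧ g.dd u e R χ l ≤ R then
    g.st E χ (star (g.W u e R χ k) * x' * g.W u e R χ l) else 0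

end Gel

/-- all the data and hypotheses of the construction of the local model -/
structure Set0 (M : VonNeumannAlgebra H) (A : StarSubalgebra ℂ (H →L[ℂ] H))
    (ω : (H →L[ℂ] H) →ₗ[ℂ] ℂ) (E : (H →L[ℂ] H) →ₗ[ℂ] (H →L[ℂ] H)) {X : Type u}
    [TopologicalSpace X] [CompactSpace X] [MeasurableSpace X] {μ : Measure X} (g : Gel A ω X μ)
    (Λ K₀ : ℝ) {n J : ℕ} (u b : Fin n → H →L[ℂ] H) (x' : H →L[ℂ] H) (e : Fin J → H →L[ℂ] H) (R : ℕ)
    (cl : X → Fin J) : Prop where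
  st : St M A ω
  ce : CE M A ω E
  gen : Gen M A ω E Λ K₀ u b x'
  part : IsPartOf A 1 e
  proper : Proper A u e R
  cl_iff : ∀ χ j, cl χ = j ↔ g.ev (e j) χ = 1

end VN

end Crest.Agent.R109
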