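import Crest.Agent.R109.FDefs

/-!
# Row 109, task R109-AH1

Characteristic polynomial of an arrowhead matrix.  PLAN.  `∏ (ζ - aev i) = det (ζ - M)` (spectral theorem
`Matrix.IsHermitian.spectral_theorem` mapped to `ℂ`, or `charpoly_eq`), reindex `Option J ≃ J ⊕ Unit`, Schur complement
`det_fromBlocks₁₁` with the invertible diagonal block (or row reduction).
-/

set_option autoImplicit false
set_option linter.unusedSectionVars false
set_option linter.unusedVariables false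

namespace Crest.Agent.R109

open Matrix Finset

variable {J : Type*} [Fintype J] [DecidableEq J]

namespace AH1A

theorem prod_eq_det (m : ℝ) (κ τ : J → ℝ) (ζ : ℂ) :
    ∏ i, (ζ - (aev m κ τ i : ℂ)) =
      (Matrix.scalar (Option J) ζ - (arrow m κ τ).map (algebraMap ℝ ℂ)).det := by
  rw [← Matrix.eval_charpoly, Matrix.charpoly_map, (arrow_herm m κ τ).charpoly_eq,
    Polynomial.map_prod, Polynomial.eval_prod]
  refine Finset.prod_congr rfl (fun i _ => ?_)
  simp [aev]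

end AH1A

theorem aev_prod (m : ℝ) {κ : J → ℝ} (hκ : ∀ j, 0 ≤ κ j) (τ : J → ℝ) (ζ : ℂ)
    (hζ : ∀ j, ζ ≠ (τ j : ℂ)) :
    ∏ i, (ζ - (aev m κ τ i : ℂ)) =
      (∏ j, (ζ - (τ j : ℂ))) * (ζ - (m : ℂ) - ∑ j, (κ j : ℂ) / (ζ - (τ j : ℂ))) := by
  have hne : ∀ j, ζ - (τ j : ℂ) ≠ 0 := fun j => sub_ne_zero.2 (hζ j)
  rw [AH1A.prod_eq_det, ← Matrix.det_submatrix_equiv_self (Equiv.optionEquivSumPUnit.{0} J).symm]
  have e : (Matrix.scalar (Option J) ζ - (arrow m κ τ).map (algebraMap ℝ ℂ)).submatrix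
        (Equiv.optionEquivSumPUnit.{0} J).symm (Equiv.optionEquivSumPUnit.{0} J).symm
      = Matrix.fromBlocks 1 0 (Matrix.of fun _ j => -((√(κ j) : ℝ) : ℂ) / (ζ - (τ j : ℂ))) 1 *
        Matrix.fromBlocks (Matrix.diagonal fun j => ζ - (τ j : ℂ))
          (Matrix.of fun j _ => -((√(κ j) : ℝ) : ℂ)) 0
          (Matrix.of fun _ _ => ζ - (m : ℂ) - ∑ j, (κ j : ℂ) / (ζ - (τ j : ℂ))) := by
    rw [Matrix.fromBlocks_multiply]
    ext (i | i) (j | j)
    · by_cases h : i = j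
      · subst h
        simp [arrow]
      · simp [arrow, h]
    · simp [arrow]
    · simp [arrow, hne j]
    · have : ∀ j, -((√(κ j) : ℝ) : ℂ) / (ζ - (τ j : ℂ)) * -((√(κ j) : ℝ) : ℂ)
          = (κ j : ℂ) / (ζ - (τ j : ℂ)) := by
        intro j
        rw [div_mul_eq_mul_div, neg_mul_neg, ← Complex.ofReal_mul, Real.mul_self_sqrt (hκ j)]
      simp only [Matrix.fromBlocks_apply₂₂, Matrix.add_apply, Matrix.mul_apply, Matrix.of_apply, this]
      simp [arrow]
  rw [e, Matrix.det_mul, Matrix.det_fromBlocks_zero₁₂, Matrix.det_fromBlocks_zero₂₁]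
  simp

end Crest.Agent.R109
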