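import Crest.Agent.R109.FDefs

/-!
# Row 109, task R109-AH2

Interlacing by dimension counting.  PLAN.  `sum_exp_le_of_count`: induction on the cardinality, removing a
maximum on both sides (or layer cake).  `count_ge`: otherwise the span of the `w i` meets the span of the
eigenvectors with eigenvalue `< t` non-trivially (a linear map from `I → ℝ` to `{a | t ≤ λ a} → ℝ` has a non-zero
kernel vector).  `SS_le_top`: apply `count_ge` to `-M` (or state the mirror version) and the basis vectors
`e_j`, `τ j < t`: `#{λ < t} ≥ #{τ < t}`, so `τ` together with `t₁` dominates `λ`.  `SS_ge_low`: `λ` together with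
`t₀` dominates `τ` together with `t₁`; for `t₀ < t ≤ t₁` use the vectors `e_j` (`τ j ≥ t`, hence `κ j = 0`) and
`x = (1, √κ j / (t₁ - τ j))` (zero where `κ j = 0`), for which `x ⬝ (M - t₁) x > 0`.
-/

set_option autoImplicit false
set_option linter.unusedSectionVars false
set_option linter.unusedVariables false

namespace Crest.Agent.R109

open Matrix Finset

variable {J : Type*} [Fintype J] [DecidableEq J]

theorem sum_exp_le_of_count {I I' : Type*} [Fintype I] [Fintype I'] (α : I → ℝ) (β : I' → ℝ)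
    (h : ∀ t : ℝ, (univ.filter fun j => t ≤ β j).card ≤ (univ.filter fun i => t ≤ α i).card) :
    ∑ j, Real.exp (β j) ≤ ∑ i, Real.exp (α i) := by
  have hint : ∀ c : ℝ, MeasureTheory.Integrable (Set.indicator (Set.Iic c) Real.exp) := fun c =>
    (integrableOn_exp_Iic c).integrable_indicator measurableSet_Iic
  have hval : ∀ c : ℝ, Real.exp c = ∫ t, Set.indicator (Set.Iic c) Real.exp t := fun c => by
    rw [MeasureTheory.integral_indicator measurableSet_Iic, integral_exp_Iic]
  have hsum : ∀ {K : Type _} [Fintype K] (f : K → ℝ) (t : ℝ),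
      ∑ k, Set.indicator (Set.Iic (f k)) Real.exp t
        = ((univ.filter fun k => t ≤ f k).card : ℝ) * Real.exp t := by
    intro K _ f t
    simp only [Set.indicator, Set.mem_Iic]
    rw [← Finset.sum_filter, Finset.sum_const, nsmul_eq_mul]
  have hsum' : ∀ {K : Type _} [Fintype K] (f : K → ℝ) (t : ℝ),
      ∑ k, Set.indicator (Set.Iic (f k)) Real.exp t
        = ((univ.filter fun k => t ≤ f k).card : ℝ) * Real.exp t := by
    intro K _ f t
    simp only [Set.indicator, Set.mem_Iic]
    rw [← Finset.sum_filter, Finset.sum_const, nsmul_eq_mul]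
  calc ∑ j, Real.exp (β j) = ∑ j, ∫ t, Set.indicator (Set.Iic (β j)) Real.exp t :=
        Finset.sum_congr rfl fun j _ => hval _
    _ = ∫ t, ∑ j, Set.indicator (Set.Iic (β j)) Real.exp t :=
        (MeasureTheory.integral_finsetSum _ fun j _ => hint _).symm
    _ ≤ ∫ t, ∑ i, Set.indicator (Set.Iic (α i)) Real.exp t := by
        refine MeasureTheory.integral_mono (MeasureTheory.integrable_finsetSum _ fun j _ => hint _)
          (MeasureTheory.integrable_finsetSum _ fun j _ => hint _) fun t => ?_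
        simp only []
        rw [hsum, hsum']
        exact mul_le_mul_of_nonneg_right (by exact_mod_cast h t) (Real.exp_pos t).le
    _ = ∑ i, ∫ t, Set.indicator (Set.Iic (α i)) Real.exp t :=
        MeasureTheory.integral_finsetSum _ fun j _ => hint _
    _ = ∑ i, Real.exp (α i) := Finset.sum_congr rfl fun j _ => (hval _).symm

namespace AH2A

theorem card_le_of_inj {n ι : Type*} [Fintype n] [Fintype ι] (f : ι → (n → ℝ) →ₗ[ℝ] ℝ)
    (h : ∀ x, (∀ i, f i x = 0) → x = 0) : Fintype.card n ≤ Fintype.card ι := by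
  have hinj : Function.Injective (LinearMap.pi f) := by
    rw [← LinearMap.ker_eq_bot, LinearMap.ker_eq_bot']
    intro x hx
    exact h x fun i => congrFun hx i
  have := LinearMap.finrank_le_finrank_of_injective hinj
  simpa using this

theorem exists_coord {n : Type*} [Fintype n] [DecidableEq n] {M : Matrix n n ℝ}
    (hM : M.IsHermitian) : ∃ L : (n → ℝ) →ₗ[ℝ] (n → ℝ), (∀ x, x ⬝ᵥ x = ∑ a, L x a ^ 2) ∧
      ∀ x, x ⬝ᵥ (M *ᵥ x) = ∑ a, hM.eigenvalues a * L x a ^ 2 := by
  set U : Matrix n n ℝ := (hM.eigenvectorUnitary : Matrix n n ℝ) with hU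
  have h1 : U * star U = 1 := Unitary.coe_mul_star_self hM.eigenvectorUnitary
  have h2 : M = U * diagonal hM.eigenvalues * star U := by
    have := hM.spectral_theorem
    rw [Unitary.conjStarAlgAut_apply] at this
    simpa using this
  have h3 : star U = Uᵀ := by
    ext i j; simp [star_apply]
  have key : ∀ (D : Matrix n n ℝ) (x : n → ℝ),
      x ⬝ᵥ ((U * D * star U) *ᵥ x) = (star U *ᵥ x) ⬝ᵥ (D *ᵥ (star U *ᵥ x)) := by
    intro D x
    rw [← mulVec_mulVec, ← mulVec_mulVec, dotProduct_mulVec x U, h3, mulVec_transpose]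
  refine ⟨(star U).mulVecLin, fun x => ?_, fun x => ?_⟩
  · have := key 1 x
    rw [mul_one, h1, one_mulVec, one_mulVec] at this
    rw [this]
    simp only [dotProduct, mulVecLin_apply, sq]
  · have := key (diagonal hM.eigenvalues) x
    rw [← h2] at this
    rw [this]
    simp only [dotProduct, mulVecLin_apply, mulVec_diagonal]
    exact Finset.sum_congr rfl fun a _ => by ring

theorem zero_of {n : Type*} [Fintype n] {ev y : n → ℝ} {t : ℝ}
    (h : t * ∑ a, y a ^ 2 ≤ ∑ a, ev a * y a ^ 2) (h0 : ∀ a, t ≤ ev a → y a = 0) :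
    ∑ a, y a ^ 2 = 0 := by
  have h1 : ∀ a ∈ (univ : Finset n), 0 ≤ (t - ev a) * y a ^ 2 := by
    intro a _
    by_cases ha : t ≤ ev a
    · rw [h0 a ha]; simp
    · exact mul_nonneg (by linarith [not_le.1 ha]) (sq_nonneg _)
  have h2 : ∑ a, (t - ev a) * y a ^ 2 = 0 := by
    refine le_antisymm ?_ (Finset.sum_nonneg h1)
    simp only [sub_mul, Finset.sum_sub_distrib, ← Finset.mul_sum]
    linarith
  have h3 := (Finset.sum_eq_zero_iff_of_nonneg h1).1 h2
  refine Finset.sum_eq_zero fun a ha => ?_
  by_cases hb : t ≤ ev a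
  · rw [h0 a hb]; simp
  · rcases mul_eq_zero.1 (h3 a ha) with h4 | h4
    · exact absurd (by linarith) hb
    · exact h4

theorem ge_of {n : Type*} [Fintype n] {ev y : n → ℝ} {t : ℝ} (h0 : ∀ a, ev a < t → y a = 0) :
    t * ∑ a, y a ^ 2 ≤ ∑ a, ev a * y a ^ 2 := by
  rw [Finset.mul_sum]
  refine Finset.sum_le_sum fun a _ => ?_
  by_cases ha : ev a < t
  · rw [h0 a ha]; simp
  · exact mul_le_mul_of_nonneg_right (not_lt.1 ha) (sq_nonneg _)

theorem quad_arrow (m : ℝ) (κ τ : J → ℝ) (x : Option J → ℝ) :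
    x ⬝ᵥ (arrow m κ τ *ᵥ x)
      = m * x none ^ 2 + ∑ j, (2 * x none * √(κ j) * x (some j) + τ j * x (some j) ^ 2) := by
  simp only [dotProduct, mulVec, Fintype.sum_option, arrow, of_apply, Option.elim, ite_mul, zero_mul,
    mul_ite, mul_zero, Finset.sum_ite_eq, Finset.mem_univ, if_true, mul_add, Finset.mul_sum, Finset.sum_add_distrib]
  have : ∑ j, 2 * x none * √(κ j) * x (some j)
      = ∑ j, x none * (√(κ j) * x (some j)) + ∑ j, x (some j) * (√(κ j) * x none) := by
    rw [← Finset.sum_add_distrib]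
    exact Finset.sum_congr rfl fun j _ => by ring
  have h2 : ∑ j, x (some j) * (τ j * x (some j)) = ∑ j, τ j * x (some j) ^ 2 :=
    Finset.sum_congr rfl fun j _ => by ring
  rw [this, h2]
  ring

theorem dot_opt (x : Option J → ℝ) : x ⬝ᵥ x = x none ^ 2 + ∑ j, x (some j) ^ 2 := by
  simp only [dotProduct, Fintype.sum_option, sq]

theorem card_opt {I : Type*} [Fintype I] (a t : ℝ) (f : I → ℝ) :
    (univ.filter fun o : Option I => t ≤ o.elim a f).card
      = (if t ≤ a then 1 else 0) + (univ.filter fun i => t ≤ f i).card := by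
  simp only [Finset.card_filter, Fintype.sum_option, Option.elim]

theorem card_split {I : Type*} [Fintype I] (t : ℝ) (f : I → ℝ) :
    (univ.filter fun i => t ≤ f i).card + (univ.filter fun i => f i < t).card = Fintype.card I := by
  have := Finset.card_filter_add_card_filter_not (s := (univ : Finset I)) (fun i => t ≤ f i)
  simpa only [not_le, Finset.card_univ] using this

/-- `#{λ ≥ t} ≤ 1 + #{τ ≥ t}` -/
theorem inter_up (m : ℝ) (κ τ : J → ℝ) (t : ℝ) :
    (univ.filter fun i => t ≤ aev m κ τ i).card ≤ 1 + (univ.filter fun j => t ≤ τ j).card := by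
  obtain ⟨L, h1, h2⟩ := exists_coord (arrow_herm m κ τ)
  have := card_le_of_inj (n := Option J)
    (ι := Option {j // t ≤ τ j} ⊕ {a // aev m κ τ a < t})
    (Sum.elim (fun o => LinearMap.proj (o.map Subtype.val))
      (fun a => (LinearMap.proj a.1) ∘ₗ L)) (by
      intro x hx
      have x0 : x none = 0 := hx (Sum.inl none)
      have xj : ∀ j, t ≤ τ j → x (some j) = 0 := fun j hj => hx (Sum.inl (some ⟨j, hj⟩))
      have hL : ∀ a, aev m κ τ a < t → L x a = 0 := fun a ha => hx (Sum.inr ⟨a, ha⟩)
      have g := ge_of hL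
      unfold aev at g
      rw [← h1, ← h2, quad_arrow, dot_opt, x0] at g
      have g' : t * ∑ j, x (some j) ^ 2 ≤ ∑ j, τ j * x (some j) ^ 2 := by simpa using g
      have z := zero_of g' xj
      rw [← dotProduct_self_eq_zero, dot_opt, x0, z]; simp)
  rw [Fintype.card_sum, Fintype.card_option, Fintype.card_option, Fintype.card_subtype,
    Fintype.card_subtype] at this
  have h3 := card_split t (aev m κ τ)
  rw [Fintype.card_option] at h3
  omega

/-- `#{τ ≥ t} ≤ #{λ ≥ t}` -/
theorem inter_down (m : ℝ) (κ τ : J → ℝ) (t : ℝ) :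
    (univ.filter fun j => t ≤ τ j).card ≤ (univ.filter fun i => t ≤ aev m κ τ i).card := by
  obtain ⟨L, h1, h2⟩ := exists_coord (arrow_herm m κ τ)
  have := card_le_of_inj (n := Option J)
    (ι := Option {j // τ j < t} ⊕ {a // t ≤ aev m κ τ a})
    (Sum.elim (fun o => LinearMap.proj (o.map Subtype.val))
      (fun a => (LinearMap.proj a.1) ∘ₗ L)) (by
      intro x hx
      have x0 : x none = 0 := hx (Sum.inl none)
      have xj : ∀ j, τ j < t → x (some j) = 0 := fun j hj => hx (Sum.inl (some ⟨j, hj⟩))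
      have hL : ∀ a, t ≤ aev m κ τ a → L x a = 0 := fun a ha => hx (Sum.inr ⟨a, ha⟩)
      have g := ge_of xj
      have g' : t * ∑ a, L x a ^ 2 ≤ ∑ a, aev m κ τ a * L x a ^ 2 := by
        unfold aev
        rw [← h1, ← h2, quad_arrow, dot_opt, x0]
        simpa using g
      have z := zero_of g' hL
      rw [← dotProduct_self_eq_zero, h1, z])
  rw [Fintype.card_sum, Fintype.card_option, Fintype.card_option, Fintype.card_subtype,
    Fintype.card_subtype] at this
  have h3 := card_split t τ
  omega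

theorem inter_mid (m : ℝ) {κ : J → ℝ} (hκ : ∀ j, 0 ≤ κ j) (τ : J → ℝ) {t₀ t₁ t : ℝ} (ht0 : t₀ < t)
    (ht1 : t ≤ t₁) (hτ : ∀ j, κ j ≠ 0 → τ j ≤ t₀) (h : t₁ - m < ∑ j, κ j / (t₁ - τ j)) :
    1 + (univ.filter fun j => t ≤ τ j).card ≤ (univ.filter fun i => t ≤ aev m κ τ i).card := by
  obtain ⟨L, h1, h2⟩ := exists_coord (arrow_herm m κ τ)
  have := card_le_of_inj (n := Option J)
    (ι := {j // τ j < t} ⊕ {a // t ≤ aev m κ τ a})
    (Sum.elim (fun j => LinearMap.proj (some j.1) -
        (√(κ j.1) / (t₁ - τ j.1)) • LinearMap.proj none)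
      (fun a => (LinearMap.proj a.1) ∘ₗ L)) (by
      intro x hx
      have xj : ∀ j, τ j < t → x (some j) = √(κ j) / (t₁ - τ j) * x none := by
        intro j hj
        have := hx (Sum.inl ⟨j, hj⟩)
        simp only [Sum.elim_inl, LinearMap.sub_apply, LinearMap.smul_apply, LinearMap.proj_apply,
          smul_eq_mul] at this
        linarith
      have hL : ∀ a, t ≤ aev m κ τ a → L x a = 0 := fun a ha => hx (Sum.inr ⟨a, ha⟩)
      have g' : t * ∑ a, L x a ^ 2 ≤ ∑ a, aev m κ τ a * L x a ^ 2 := by
        unfold aev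
        rw [← h1, ← h2, quad_arrow, dot_opt]
        have b : ∀ j, x none ^ 2 * (κ j / (t₁ - τ j)) + t * x (some j) ^ 2
            ≤ 2 * x none * √(κ j) * x (some j) + τ j * x (some j) ^ 2 := by
          intro j
          by_cases hj : τ j < t
          · have hd : 0 < t₁ - τ j := by linarith
            have hs : √(κ j) * √(κ j) = κ j := Real.mul_self_sqrt (hκ j)
            set v := √(κ j) / (t₁ - τ j) with hv
            have hv1 : √(κ j) = v * (t₁ - τ j) := by rw [hv]; field_simp
            have hv2 : κ j / (t₁ - τ j) = v ^ 2 * (t₁ - τ j) := by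
              rw [div_eq_iff hd.ne', ← hs, hv1]; ring
            have hxj : x (some j) = v * x none := xj j hj
            rw [hxj, hv2, hv1]
            have : 0 ≤ (t₁ - t) * (v * x none) ^ 2 := mul_nonneg (by linarith) (sq_nonneg _)
            nlinarith
          · have hk : κ j = 0 := by
              by_contra hk
              have := hτ j hk
              exact hj (by linarith)
            rw [hk]
            have : t * x (some j) ^ 2 ≤ τ j * x (some j) ^ 2 :=
              mul_le_mul_of_nonneg_right (not_lt.1 hj) (sq_nonneg _)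
            simpa using this
        have b2 := Finset.sum_le_sum fun j (_ : j ∈ (univ : Finset J)) => b j
        rw [Finset.sum_add_distrib, ← Finset.mul_sum, ← Finset.mul_sum] at b2
        have b3 : x none ^ 2 * (t - m) ≤ x none ^ 2 * ∑ j, κ j / (t₁ - τ j) :=
          mul_le_mul_of_nonneg_left (by linarith) (sq_nonneg _)
        nlinarith
      have z := zero_of g' hL
      rw [← dotProduct_self_eq_zero, h1, z])
  rw [Fintype.card_sum, Fintype.card_option, Fintype.card_subtype, Fintype.card_subtype] at this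
  have h3 := card_split t τ
  omega

end AH2A

theorem count_ge {n I : Type*} [Fintype n] [DecidableEq n] [Fintype I] {M : Matrix n n ℝ}
    (hM : M.IsHermitian) (t : ℝ) (w : I → n → ℝ) (hw : LinearIndependent ℝ w)
    (h : ∀ c : I → ℝ, t * ((∑ i, c i • w i) ⬝ᵥ (∑ i, c i • w i)) ≤
      (∑ i, c i • w i) ⬝ᵥ (M *ᵥ ∑ i, c i • w i)) :
    Fintype.card I ≤ (univ.filter fun a => t ≤ hM.eigenvalues a).card := by
  obtain ⟨L, h1, h2⟩ := AH2A.exists_coord hM
  have := AH2A.card_le_of_inj (n := I) (ι := {a // t ≤ hM.eigenvalues a})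
    (fun a => (LinearMap.proj a.1) ∘ₗ L ∘ₗ Fintype.linearCombination ℝ w) (by
      intro c hc
      have hL : ∀ a, t ≤ hM.eigenvalues a → L (∑ i, c i • w i) a = 0 := fun a ha => hc ⟨a, ha⟩
      have g := h c
      rw [h1, h2] at g
      have z := AH2A.zero_of g hL
      rw [← h1, dotProduct_self_eq_zero] at z
      funext i
      exact Fintype.linearIndependent_iff.1 hw c z i)
  rwa [Fintype.card_subtype] at this

theorem SS_le_top (m : ℝ) (κ τ : J → ℝ) {t₁ : ℝ} (h : ∀ i, aev m κ τ i ≤ t₁) :
    SS m κ τ ≤ Real.exp t₁ := by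
  have := sum_exp_le_of_count (fun o : Option J => o.elim t₁ τ) (aev m κ τ) (by
    intro t
    rw [AH2A.card_opt]
    by_cases ht : t ≤ t₁
    · rw [if_pos ht]; exact AH2A.inter_up m κ τ t
    · have : (univ.filter fun i => t ≤ aev m κ τ i) = ∅ :=
        Finset.filter_eq_empty_iff.2 fun i _ hi => ht (hi.trans (h i))
      rw [this]; simp)
  rw [Fintype.sum_option (fun o : Option J => Real.exp (o.elim t₁ τ))] at this
  simp only [Option.elim] at this
  unfold SS
  linarith

theorem SS_ge_low (m : ℝ) {κ : J → ℝ} (hκ : ∀ j, 0 ≤ κ j) (τ : J → ℝ) {t₀ t₁ : ℝ} (ht : t₀ < t₁)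
    (hτ : ∀ j, κ j ≠ 0 → τ j ≤ t₀) (h : t₁ - m < ∑ j, κ j / (t₁ - τ j)) :
    Real.exp t₁ - Real.exp t₀ ≤ SS m κ τ := by
  have := sum_exp_le_of_count (fun o : Option (Option J) => o.elim t₀ (aev m κ τ))
    (fun o : Option J => o.elim t₁ τ) (by
    intro t
    rw [AH2A.card_opt, AH2A.card_opt]
    have h1 := AH2A.inter_down m κ τ t
    by_cases ht0 : t ≤ t₀
    · rw [if_pos ht0, if_pos (ht0.trans ht.le)]; omega
    · rw [if_neg ht0]
      by_cases ht1 : t ≤ t₁
      · rw [if_pos ht1]
        have := AH2A.inter_mid m hκ τ (not_le.1 ht0) ht1 hτ h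
        omega
      · rw [if_neg ht1]; omega)
  rw [Fintype.sum_option (fun o : Option J => Real.exp (o.elim t₁ τ)),
    Fintype.sum_option (fun o : Option (Option J) => Real.exp (o.elim t₀ (aev m κ τ)))] at this
  simp only [Option.elim] at this
  unfold SS
  linarith

end Crest.Agent.R109
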