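import Mathlib

/-!
# Row 109, task R109-Ren

Triangle Fubini, variation of constants, and a renewal inequality.  PLAN.  `tri_swap`: both sides are
integrals of an indicator over the square (`MeasureTheory.integral_integral_swap`), or differentiate in `s`.
`var_const`: differentiate `exp (-a s) g s` and use `intervalIntegral.integral_eq_sub_of_hasDerivAt`.
`renewal`: `I = ∫₀¹ v ≤ B + B I` by `tri_swap`, so `I ≤ 1`; at a maximum point of `s v s` on `[0,1]`:
`s v s = s f s + ∫ ((s - x) f (s - x)) v x + ∫ f (s - x) (x v x) ≤ A + A I + B max`.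
-/

set_option autoImplicit false
set_option linter.unusedSectionVars false
set_option linter.unusedVariables false

namespace Crest.Agent.R109


open intervalIntegral

theorem tri_swap {F : ℝ → ℝ → ℝ} (hF : Continuous fun p : ℝ × ℝ => F p.1 p.2) {s : ℝ} (hs : 0 ≤ s) :
    ∫ y in (0 : ℝ)..s, ∫ x in (0 : ℝ)..y, F x y = ∫ x in (0 : ℝ)..s, ∫ y in x..s, F x y := by
  open MeasureTheory Set in
  have hint : Integrable (Function.uncurry fun y x : ℝ => (Iic y).indicator (fun x => F x y) x)
      ((volume.restrict (Ioc 0 s)).prod (volume.restrict (Ioc 0 s))) := by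
    have h1 : (Function.uncurry fun y x : ℝ => (Iic y).indicator (fun x => F x y) x) =
        {p : ℝ × ℝ | p.2 ≤ p.1}.indicator (fun p => F p.2 p.1) := by
      ext ⟨y, x⟩
      simp only [Function.uncurry, indicator, mem_Iic, mem_setOf_eq]
    rw [h1, Measure.prod_restrict]
    refine Integrable.indicator ?_ (measurableSet_le measurable_snd measurable_fst)
    have h2 : Continuous fun p : ℝ × ℝ => F p.2 p.1 := hF.comp continuous_swap
    exact (h2.continuousOn.integrableOn_compact (isCompact_Icc.prod isCompact_Icc)).mono_set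
      (prod_mono Ioc_subset_Icc_self Ioc_subset_Icc_self)
  have hsw := MeasureTheory.integral_integral_swap hint
  rw [integral_of_le hs, integral_of_le hs]
  refine Eq.trans ?_ (hsw.trans ?_)
  · refine MeasureTheory.setIntegral_congr_fun measurableSet_Ioc fun y hy => ?_
    rw [MeasureTheory.setIntegral_indicator measurableSet_Iic, Set.Ioc_inter_Iic,
      min_eq_right hy.2, integral_of_le hy.1.le]
  · refine MeasureTheory.setIntegral_congr_fun measurableSet_Ioc fun x hx => ?_
    have h3 : (fun y => (Set.Iic y).indicator (fun x => F x y) x) =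
        (Set.Ici x).indicator (fun y => F x y) := by
      ext y
      simp only [Set.indicator, Set.mem_Iic, Set.mem_Ici]
    have h4 : Set.Ioc 0 s ∩ Set.Ici x = Set.Icc x s := by
      ext y
      simp only [Set.mem_inter_iff, Set.mem_Ioc, Set.mem_Ici, Set.mem_Icc]
      exact ⟨fun h => ⟨h.2, h.1.2⟩, fun h => ⟨⟨hx.1.trans_le h.1, h.2⟩, h.1⟩⟩
    rw [h3, MeasureTheory.setIntegral_indicator measurableSet_Ici, h4,
      MeasureTheory.integral_Icc_eq_integral_Ioc, integral_of_le hx.2]

theorem var_const {g h : ℝ → ℝ} {a : ℝ} (hh : Continuous h) (hg : ∀ s, HasDerivAt g (a * g s + h s) s)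
    (s : ℝ) : g s = Real.exp (a * s) * g 0 + ∫ y in (0 : ℝ)..s, Real.exp (a * (s - y)) * h y := by
  have hd : ∀ y ∈ Set.uIcc (0 : ℝ) s, HasDerivAt (fun y => Real.exp (a * (s - y)) * g y)
      (Real.exp (a * (s - y)) * h y) y := by
    intro y _
    have h1 : HasDerivAt (fun y => a * (s - y)) (a * (0 - 1)) y :=
      ((hasDerivAt_const y s).sub (hasDerivAt_id y)).const_mul a
    have h2 := h1.exp.mul (hg y)
    refine h2.congr_deriv ?_
    ring
  have hc : Continuous fun y => Real.exp (a * (s - y)) * h y := by fun_prop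
  rw [integral_eq_sub_of_hasDerivAt hd (hc.intervalIntegrable _ _)]
  simp

theorem renewal {f v : ℝ → ℝ} (hf : Continuous f) (hv : Continuous v)
    (hf0 : ∀ s ∈ Set.Icc (0 : ℝ) 1, 0 ≤ f s) (hv0 : ∀ s ∈ Set.Icc (0 : ℝ) 1, 0 ≤ v s)
    (he : ∀ s ∈ Set.Icc (0 : ℝ) 1, v s = f s + ∫ x in (0 : ℝ)..s, f (s - x) * v x) {A : ℝ}
    (hA : ∀ s ∈ Set.Icc (0 : ℝ) 1, s * f s ≤ A) (hB : ∫ s in (0 : ℝ)..1, f s ≤ 1 / 2) :
    v 1 ≤ 4 * A := by
  have hA0 : 0 ≤ A := by simpa using hA 0 ⟨le_rfl, zero_le_one⟩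
  have hI0 : 0 ≤ ∫ x in (0 : ℝ)..1, v x := integral_nonneg zero_le_one hv0
  -- partial integrals of `f` and `v`
  have hpart : ∀ {u : ℝ → ℝ}, Continuous u → (∀ s ∈ Set.Icc (0 : ℝ) 1, 0 ≤ u s) →
      ∀ t ∈ Set.Icc (0 : ℝ) 1, ∫ x in (0 : ℝ)..t, u x ≤ ∫ x in (0 : ℝ)..1, u x := by
    intro u hu hu0 t ht
    rw [← integral_add_adjacent_intervals (hu.intervalIntegrable 0 t) (hu.intervalIntegrable t 1)]
    have : 0 ≤ ∫ x in t..1, u x := integral_nonneg ht.2 fun x hx => hu0 x ⟨ht.1.trans hx.1, hx.2⟩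
    linarith
  have hI : ∫ x in (0 : ℝ)..1, v x ≤ 1 := by
    have hc : Continuous fun p : ℝ × ℝ => f (p.2 - p.1) * v p.1 := by fun_prop
    have hc2 : Continuous fun s : ℝ => ∫ x in (0 : ℝ)..s, f (s - x) * v x :=
      continuous_parametric_intervalIntegral_of_continuous
        (f := fun s x => f (s - x) * v x) (by fun_prop) continuous_id
    have e1 : ∫ s in (0 : ℝ)..1, v s =
        (∫ s in (0 : ℝ)..1, f s) + ∫ s in (0 : ℝ)..1, ∫ x in (0 : ℝ)..s, f (s - x) * v x := by
      rw [← integral_add (hf.intervalIntegrable _ _) (hc2.intervalIntegrable _ _)]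
      refine integral_congr fun s hs => he s ?_
      rwa [Set.uIcc_of_le zero_le_one] at hs
    have e2 := tri_swap (F := fun x y => f (y - x) * v x) hc zero_le_one
    have e3 : ∀ x : ℝ, ∫ y in x..1, f (y - x) * v x = (∫ y in (0 : ℝ)..(1 - x), f y) * v x := by
      intro x
      rw [integral_mul_const, integral_comp_sub_right f x, sub_self]
    have hc3 : Continuous fun x : ℝ => (∫ y in (0 : ℝ)..(1 - x), f y) * v x :=
      ((continuous_primitive (fun a b => hf.intervalIntegrable a b) 0).comp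
        (continuous_const.sub continuous_id)).mul hv
    have e4 : ∫ x in (0 : ℝ)..1, (∫ y in (0 : ℝ)..(1 - x), f y) * v x ≤
        ∫ x in (0 : ℝ)..1, 1 / 2 * v x := by
      refine integral_mono_on zero_le_one (hc3.intervalIntegrable _ _)
        ((continuous_const.mul hv).intervalIntegrable _ _) fun x hx => ?_
      exact mul_le_mul_of_nonneg_right
        ((hpart hf hf0 (1 - x) ⟨by linarith [hx.2], by linarith [hx.1]⟩).trans hB) (hv0 x hx)
    rw [integral_const_mul] at e4
    simp only [e3] at e2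
    rw [e2] at e1
    linarith
  obtain ⟨s, hs, hmax⟩ := isCompact_Icc.exists_isMaxOn (Set.nonempty_Icc.mpr zero_le_one)
    (f := fun s : ℝ => s * v s) (continuous_id.mul hv).continuousOn
  have hm0 : 0 ≤ s * v s := mul_nonneg hs.1 (hv0 s hs)
  have h1 : s * ∫ x in (0 : ℝ)..s, f (s - x) * v x ≤
      ∫ x in (0 : ℝ)..s, (A * v x + s * v s * f (s - x)) := by
    rw [← integral_const_mul]
    refine integral_mono_on hs.1 ((by fun_prop : Continuous _).intervalIntegrable _ _)
      ((by fun_prop : Continuous _).intervalIntegrable _ _) fun x hx => ?_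
    have hx' : x ∈ Set.Icc (0 : ℝ) 1 := ⟨hx.1, hx.2.trans hs.2⟩
    have hsx : s - x ∈ Set.Icc (0 : ℝ) 1 := ⟨by linarith [hx.2], by linarith [hx.1, hs.2]⟩
    have a1 := mul_le_mul_of_nonneg_right (hA _ hsx) (hv0 x hx')
    have a2 : x * v x ≤ s * v s := hmax hx'
    have a3 := mul_le_mul_of_nonneg_right a2 (hf0 _ hsx)
    nlinarith
  rw [integral_add ((by fun_prop : Continuous _).intervalIntegrable _ _)
    ((by fun_prop : Continuous _).intervalIntegrable _ _), integral_const_mul, integral_const_mul,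
    integral_comp_sub_left f s, sub_self, sub_zero] at h1
  have h2 := mul_le_mul_of_nonneg_left ((hpart hv hv0 s hs).trans hI) hA0
  have h3 := mul_le_mul_of_nonneg_left ((hpart hf hf0 s hs).trans hB) hm0
  have h4 := hA s hs
  have h5 : s * v s = s * f s + s * ∫ x in (0 : ℝ)..s, f (s - x) * v x := by
    rw [← mul_add, ← he s hs]
  have h6 : (1 : ℝ) * v 1 ≤ s * v s := hmax ⟨zero_le_one, le_rfl⟩
  linarith

end Crest.Agent.R109
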