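import Crest.Agent.R109.Ex
import Crest.Agent.R109.Ren

/-!
# Row 109, task R109-AHT

Time-domain bounds for arrowhead matrices.  `u s = Ex s none none`, `g j s = Ex s (some j) none`,
`v = ∑ √κ j g j`.  PLAN.  `g j' = τ j g j + √κ j u`, `u' = m u + v` (`Ex_hasDerivAt`), so by `var_const`
`g j s = √κ j ∫ exp (τ j (s - y)) u y`, `u y = exp (m y) + ∫ exp (m (y - x)) v x`; `tri_swap` and a substitution give
`v s = a s + ∫ a (s - x) v x`, `a s = ∑ κ j cv (τ j) m s`.  Multiply by `exp (-t₀ s)` and apply `renewal`: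
`v 1 ≤ exp t₀ / 2`.  `klein` from `arrow m κ τ` to `arrow m 0 τ`: `SS ≤ exp m + 2 v 1`.  Lower bound: `klein` from
`arrow m (κ/4) τ` to `arrow m κ τ`, `SS_mono`, and `u ≥ exp (m ·)` since `v ≥ 0` (`Ex_nonneg`).
-/

set_option autoImplicit false
set_option linter.unusedSectionVars false
set_option linter.unusedVariables false

namespace Crest.Agent.R109

open Matrix Finset

variable {J : Type*} [Fintype J] [DecidableEq J]

namespace AHTA

noncomputable def uu (m : ℝ) (κ τ : J → ℝ) (s : ℝ) : ℝ := Ex (arrow_herm m κ τ) s none none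

noncomputable def gg (m : ℝ) (κ τ : J → ℝ) (j : J) (s : ℝ) : ℝ := Ex (arrow_herm m κ τ) s (some j) none

noncomputable def vv (m : ℝ) (κ τ : J → ℝ) (s : ℝ) : ℝ := ∑ j, √(κ j) * gg m κ τ j s

theorem uu_deriv (m : ℝ) (κ τ : J → ℝ) (s : ℝ) :
    HasDerivAt (uu m κ τ) (m * uu m κ τ s + vv m κ τ s) s := by
  have h := Ex_hasDerivAt (arrow_herm m κ τ) s none none
  rw [Fintype.sum_option] at h
  exact h

theorem gg_deriv (m : ℝ) (κ τ : J → ℝ) (j : J) (s : ℝ) :
    HasDerivAt (gg m κ τ j) (τ j * gg m κ τ j s + √(κ j) * uu m κ τ s) s := by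
  have h := Ex_hasDerivAt (arrow_herm m κ τ) s (some j) none
  rw [Fintype.sum_option] at h
  have e : ∑ k : J, arrow m κ τ (some j) (some k) * Ex (arrow_herm m κ τ) s (some k) none
      = τ j * gg m κ τ j s := by
    rw [Finset.sum_eq_single j]
    · simp [arrow, gg]
    · intro b _ hb
      simp [arrow, Ne.symm hb]
    · simp
  rw [e, add_comm] at h
  exact h

theorem uu_cont (m : ℝ) (κ τ : J → ℝ) : Continuous (uu m κ τ) :=
  continuous_iff_continuousAt.2 fun s => (uu_deriv m κ τ s).continuousAt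

theorem gg_cont (m : ℝ) (κ τ : J → ℝ) (j : J) : Continuous (gg m κ τ j) :=
  continuous_iff_continuousAt.2 fun s => (gg_deriv m κ τ j s).continuousAt

theorem vv_cont (m : ℝ) (κ τ : J → ℝ) : Continuous (vv m κ τ) :=
  continuous_finset_sum _ fun j _ => continuous_const.mul (gg_cont m κ τ j)

theorem off (m : ℝ) (κ τ : J → ℝ) (i j : Option J) (h : i ≠ j) : 0 ≤ arrow m κ τ i j := by
  rcases i with _ | i <;> rcases j with _ | j
  · exact absurd rfl h
  · simp [arrow]
  · simp [arrow]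
  · have : i ≠ j := fun e => h (by rw [e])
    simp [arrow, this]

theorem vv_nonneg (m : ℝ) (κ τ : J → ℝ) {s : ℝ} (hs : 0 ≤ s) : 0 ≤ vv m κ τ s :=
  Finset.sum_nonneg fun j _ => mul_nonneg (Real.sqrt_nonneg _) (Ex_nonneg _ (off m κ τ) hs _ _)

theorem uu_eq (m : ℝ) (κ τ : J → ℝ) (y : ℝ) :
    uu m κ τ y = Real.exp (m * y) + ∫ x in (0 : ℝ)..y, Real.exp (m * (y - x)) * vv m κ τ x := by
  have h := var_const (vv_cont m κ τ) (uu_deriv m κ τ) y
  have h0 : uu m κ τ 0 = 1 := by simp [uu, Ex_zero]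
  rw [h0, mul_one] at h
  exact h

theorem gg_eq (m : ℝ) (κ τ : J → ℝ) (j : J) (s : ℝ) :
    gg m κ τ j s = √(κ j) * ∫ y in (0 : ℝ)..s, Real.exp (τ j * (s - y)) * uu m κ τ y := by
  have h := var_const (h := fun s => √(κ j) * uu m κ τ s) (continuous_const.mul (uu_cont m κ τ))
    (gg_deriv m κ τ j) s
  have h0 : gg m κ τ j 0 = 0 := by simp [gg, Ex_zero]
  rw [h0, mul_zero, zero_add] at h
  rw [h, ← intervalIntegral.integral_const_mul]
  refine intervalIntegral.integral_congr fun y _ => ?_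
  ring

theorem uu_ge (m : ℝ) (κ τ : J → ℝ) {y : ℝ} (hy : 0 ≤ y) : Real.exp (m * y) ≤ uu m κ τ y := by
  rw [uu_eq]
  have : 0 ≤ ∫ x in (0 : ℝ)..y, Real.exp (m * (y - x)) * vv m κ τ x :=
    intervalIntegral.integral_nonneg hy fun x hx =>
      mul_nonneg (Real.exp_pos _).le (vv_nonneg m κ τ hx.1)
  linarith

theorem cv_cont (t m : ℝ) : Continuous (cv t m) := by
  unfold cv
  refine intervalIntegral.continuous_parametric_intervalIntegral_of_continuous
    (f := fun s y => Real.exp (t * (s - y)) * Real.exp (m * y)) ?_ continuous_id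
  unfold Function.uncurry
  fun_prop

theorem cv_nonneg (t m : ℝ) {s : ℝ} (hs : 0 ≤ s) : 0 ≤ cv t m s :=
  intervalIntegral.integral_nonneg hs fun _ _ => mul_nonneg (Real.exp_pos _).le (Real.exp_pos _).le

theorem cv_shift (t m s x : ℝ) :
    ∫ y in x..s, Real.exp (t * (s - y)) * Real.exp (m * (y - x)) = cv t m (s - x) := by
  have h := intervalIntegral.integral_comp_add_right (a := 0) (b := s - x)
    (fun y => Real.exp (t * (s - y)) * Real.exp (m * (y - x))) x
  rw [zero_add, sub_add_cancel] at h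
  rw [← h]
  unfold cv
  refine intervalIntegral.integral_congr fun y _ => ?_
  try simp only
  congr 2 <;> ring

theorem int_eq (m : ℝ) (κ τ : J → ℝ) (t : ℝ) {s : ℝ} (hs : 0 ≤ s) :
    ∫ y in (0 : ℝ)..s, Real.exp (t * (s - y)) * uu m κ τ y
      = cv t m s + ∫ x in (0 : ℝ)..s, cv t m (s - x) * vv m κ τ x := by
  have hv := vv_cont m κ τ
  have hF : Continuous fun p : ℝ × ℝ =>
      Real.exp (t * (s - p.2)) * Real.exp (m * (p.2 - p.1)) * vv m κ τ p.1 := by fun_prop
  have h1 := tri_swap (F := fun x y => Real.exp (t * (s - y)) * Real.exp (m * (y - x)) * vv m κ τ x)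
    hF hs
  have h2 : ∫ x in (0 : ℝ)..s, cv t m (s - x) * vv m κ τ x
      = ∫ x in (0 : ℝ)..s, ∫ y in x..s,
        Real.exp (t * (s - y)) * Real.exp (m * (y - x)) * vv m κ τ x := by
    refine intervalIntegral.integral_congr fun x _ => ?_
    try simp only
    rw [intervalIntegral.integral_mul_const, cv_shift]
  rw [h2, ← h1]
  have hc : Continuous fun y : ℝ => ∫ x in (0 : ℝ)..y,
      Real.exp (t * (s - y)) * Real.exp (m * (y - x)) * vv m κ τ x := by
    refine intervalIntegral.continuous_parametric_intervalIntegral_of_continuous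
      (f := fun y x => Real.exp (t * (s - y)) * Real.exp (m * (y - x)) * vv m κ τ x) ?_ continuous_id
    unfold Function.uncurry
    fun_prop
  unfold cv
  rw [← intervalIntegral.integral_add (Continuous.intervalIntegrable (by fun_prop) _ _)
    (hc.intervalIntegrable _ _)]
  refine intervalIntegral.integral_congr fun y _ => ?_
  try simp only
  rw [uu_eq, mul_add, ← intervalIntegral.integral_const_mul]
  congr 1
  refine intervalIntegral.integral_congr fun x _ => ?_
  try simp only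
  ring

theorem vv_eq (m : ℝ) {κ : J → ℝ} (hκ : ∀ j, 0 ≤ κ j) (τ : J → ℝ) {s : ℝ} (hs : 0 ≤ s) :
    vv m κ τ s = (∑ j, κ j * cv (τ j) m s) +
      ∫ x in (0 : ℝ)..s, (∑ j, κ j * cv (τ j) m (s - x)) * vv m κ τ x := by
  have hv := vv_cont m κ τ
  have e : ∫ x in (0 : ℝ)..s, (∑ j, κ j * cv (τ j) m (s - x)) * vv m κ τ x
      = ∑ j, κ j * ∫ x in (0 : ℝ)..s, cv (τ j) m (s - x) * vv m κ τ x := by
    simp_rw [← intervalIntegral.integral_const_mul]
    rw [← intervalIntegral.integral_finsetSum]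
    · refine intervalIntegral.integral_congr fun x _ => ?_
      try simp only
      rw [Finset.sum_mul]
      exact Finset.sum_congr rfl fun j _ => by ring
    · intro j _
      have := cv_cont (τ j) m
      exact Continuous.intervalIntegrable (by fun_prop) _ _
  rw [e, ← Finset.sum_add_distrib]
  conv_lhs => unfold vv
  refine Finset.sum_congr rfl fun j _ => ?_
  rw [gg_eq, int_eq m κ τ (τ j) hs, ← mul_assoc, Real.mul_self_sqrt (hκ j), mul_add]

theorem klein_arrow (m : ℝ) (κ κ' τ : J → ℝ) :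
    SS m κ τ + 2 * ∑ j, gg m κ τ j 1 * (√(κ' j) - √(κ j)) ≤ SS m κ' τ := by
  have h := klein (arrow_herm m κ τ) (arrow_herm m κ' τ)
  have e : ∑ i, ∑ j, Ex (arrow_herm m κ τ) 1 i j * (arrow m κ' τ i j - arrow m κ τ i j)
      = 2 * ∑ j, gg m κ τ j 1 * (√(κ' j) - √(κ j)) := by
    rw [Fintype.sum_option, Fintype.sum_option]
    simp_rw [Fintype.sum_option]
    have e1 : ∀ j : J, Ex (arrow_herm m κ τ) 1 none (some j) = gg m κ τ j 1 := fun j =>
      Ex_symm _ _ _ _
    have e2 : ∀ j : J, Ex (arrow_herm m κ τ) 1 (some j) none = gg m κ τ j 1 := fun j => rfl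
    simp_rw [e1, e2]
    simp [arrow, two_mul]
  rw [e] at h
  unfold SS aev
  linarith

end AHTA

open AHTA

theorem SS_zero (m : ℝ) (τ : J → ℝ) : SS m (fun _ => 0) τ = Real.exp m := by
  have h := trexp_diag (arrow_herm m (fun _ : J => (0 : ℝ)) τ) (fun i j hij => by
    rcases i with _ | i <;> rcases j with _ | j
    · exact absurd rfl hij
    · simp [arrow]
    · simp [arrow]
    · have : i ≠ j := fun e => hij (by rw [e])
      simp [arrow, this])
  unfold SS aev
  rw [h, Fintype.sum_option]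
  simp [arrow]

theorem SS_mono (m : ℝ) {κ κ' : J → ℝ} (h : ∀ j, κ j ≤ κ' j) (τ : J → ℝ) : SS m κ τ ≤ SS m κ' τ := by
  have h1 := trexp_mono (arrow_herm m κ τ) (arrow_herm m κ' τ) (off m κ τ) (fun i j => by
    rcases i with _ | i <;> rcases j with _ | j
    · simp [arrow]
    · simpa [arrow] using Real.sqrt_le_sqrt (h j)
    · simpa [arrow] using Real.sqrt_le_sqrt (h i)
    · simp [arrow])
  unfold SS aev
  linarith

theorem SS_lower (m : ℝ) {κ : J → ℝ} (hκ : ∀ j, 0 ≤ κ j) (τ : J → ℝ) :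
    Real.exp m + 1 / 2 * ∑ j, κ j * cv (τ j) m 1 ≤ SS m κ τ := by
  have h1 := klein_arrow m (fun j => κ j / 4) κ τ
  have h2 := SS_mono m (κ := fun _ => 0) (κ' := fun j => κ j / 4)
    (fun j => div_nonneg (hκ j) (by norm_num)) τ
  rw [SS_zero] at h2
  have h3 : 1 / 2 * ∑ j, κ j * cv (τ j) m 1
      ≤ 2 * ∑ j, gg m (fun j => κ j / 4) τ j 1 * (√(κ j) - √(κ j / 4)) := by
    rw [Finset.mul_sum, Finset.mul_sum]
    refine Finset.sum_le_sum fun j _ => ?_
    have hs : √(κ j / 4) = √(κ j) / 2 := by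
      rw [Real.sqrt_div (hκ j), show (4 : ℝ) = 2 ^ 2 by norm_num, Real.sqrt_sq (by norm_num)]
    have hu := uu_cont m (fun j => κ j / 4) τ
    have hi : cv (τ j) m 1 ≤ ∫ y in (0 : ℝ)..1,
        Real.exp (τ j * (1 - y)) * uu m (fun j => κ j / 4) τ y := by
      unfold cv
      refine intervalIntegral.integral_mono_on zero_le_one
        (Continuous.intervalIntegrable (by fun_prop) _ _)
        (Continuous.intervalIntegrable (by fun_prop) _ _) fun y hy => ?_
      exact mul_le_mul_of_nonneg_left (uu_ge _ _ _ hy.1) (Real.exp_pos _).le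
    rw [gg_eq]
    try simp only
    rw [hs]
    have e := Real.mul_self_sqrt (hκ j)
    set I := ∫ y in (0 : ℝ)..1, Real.exp (τ j * (1 - y)) * uu m (fun j => κ j / 4) τ y
    have : 2 * (√(κ j) / 2 * I * (√(κ j) - √(κ j) / 2)) = 1 / 2 * (√(κ j) * √(κ j) * I) := by ring
    rw [this, e]
    exact mul_le_mul_of_nonneg_left (mul_le_mul_of_nonneg_left hi (hκ j)) (by norm_num)
  linarith

theorem SS_upper (m : ℝ) {κ : J → ℝ} (hκ : ∀ j, 0 ≤ κ j) (τ : J → ℝ) (t₀ : ℝ) (γ : J → ℝ)
    (h1 : ∀ j, ∫ s in (0 : ℝ)..1, Real.exp (-t₀ * s) * cv (τ j) m s ≤ γ j)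
    (h2 : ∀ j, ∀ s ∈ Set.Icc (0 : ℝ) 1, s * (Real.exp (-t₀ * s) * cv (τ j) m s) ≤ γ j)
    (h : ∑ j, κ j * γ j ≤ 1 / 8) : SS m κ τ ≤ Real.exp m + Real.exp t₀ := by
  have h3 := klein_arrow m κ (fun _ => 0) τ
  rw [SS_zero] at h3
  have e : ∑ j, gg m κ τ j 1 * (√0 - √(κ j)) = -vv m κ τ 1 := by
    unfold vv
    rw [← Finset.sum_neg_distrib]
    exact Finset.sum_congr rfl fun j _ => by rw [Real.sqrt_zero]; ring
  rw [e] at h3
  have hv := vv_cont m κ τ
  have hc : ∀ j, Continuous (cv (τ j) m) := fun j => cv_cont _ _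
  have ha : Continuous fun s => ∑ j, κ j * cv (τ j) m s :=
    continuous_finset_sum _ fun j _ => continuous_const.mul (hc j)
  have ef : ∀ s, Real.exp (-t₀ * s) * ∑ j, κ j * cv (τ j) m s
      = ∑ j, κ j * (Real.exp (-t₀ * s) * cv (τ j) m s) := fun s => by
    rw [Finset.mul_sum]; exact Finset.sum_congr rfl fun j _ => by ring
  have hr := renewal (f := fun s => Real.exp (-t₀ * s) * ∑ j, κ j * cv (τ j) m s)
    (v := fun s => Real.exp (-t₀ * s) * vv m κ τ s) (by fun_prop) (by fun_prop)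
    (fun s hs => mul_nonneg (Real.exp_pos _).le
      (Finset.sum_nonneg fun j _ => mul_nonneg (hκ j) (cv_nonneg _ _ hs.1)))
    (fun s hs => mul_nonneg (Real.exp_pos _).le (vv_nonneg m κ τ hs.1))
    (fun s hs => by
      try simp only
      rw [vv_eq m hκ τ hs.1, mul_add, ← intervalIntegral.integral_const_mul]
      congr 1
      refine intervalIntegral.integral_congr fun x _ => ?_
      try simp only
      rw [show -t₀ * s = -t₀ * (s - x) + -t₀ * x by ring, Real.exp_add]
      ring) (A := 1 / 8)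
    (fun s hs => by
      try simp only
      rw [ef, Finset.mul_sum]
      refine le_trans (Finset.sum_le_sum fun j _ => ?_) h
      have := mul_le_mul_of_nonneg_left (h2 j s hs) (hκ j)
      linarith)
    (by
      simp only [ef]
      rw [intervalIntegral.integral_finsetSum (fun j _ => by
        have := hc j
        exact Continuous.intervalIntegrable (by fun_prop) _ _)]
      refine le_trans (le_trans (Finset.sum_le_sum fun j _ => ?_) h) (by norm_num)
      rw [intervalIntegral.integral_const_mul]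
      exact mul_le_mul_of_nonneg_left (h1 j) (hκ j))
  try simp only at hr
  have e2 : Real.exp t₀ * Real.exp (-t₀ * 1) = 1 := by rw [← Real.exp_add]; simp
  have h4 : vv m κ τ 1 ≤ Real.exp t₀ * (4 * (1 / 8)) := by
    have := mul_le_mul_of_nonneg_left hr (Real.exp_pos t₀).le
    rwa [← mul_assoc, e2, one_mul] at this
  linarith

end Crest.Agent.R109
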