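import Crest.Agent.R109.PRep

/-!
# Row 109, task R109-FinMom

The final state controls moments.  PLAN.  Let `W = (zM Y c s - 1)/β + diagonal ℓ` (Hermitian; deleted vertices
are decoupled), with eigenvalues `λ a`, eigenvectors `U`.  For `‖t‖ = rad`: `Gf t = ((t - W)⁻¹) u u =
∑ |U u a|² / (t - λ a)`.  (Only the copy `k = (c u, s)` matters in the quotient: `Gf = 320 β det (mat (S.erase u)) /
det (mat S)` with `S = {v non-deleted, c v = c u}`; let `x` solve `(t - W) x = e_u`; its restriction `x'` to `S` solves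
`mat S x' = 320 β e_u`, and Cramer's rule (`Matrix.cramer`, `mat_det_update`-type row/column replacement) gives
`x u`.)  `Pu_eq_of_rep` gives `Pu = ∑ |U u a|² exp (λ a)`; `(1 + β x)^k ≤ 1 + exp x` for real `x`, odd `k`, `k β ≤ 1`;
so `re ((zM + β diagonal ℓ)^k u u) ≤ 1 + Pu`.  Compare `x n = zM^n e_u`, `y n = (zM + β diagonal ℓ)^n e_u`: both
supported in `dist ≤ n`, `ℓ¹` norms `≤ (1 + K₀ + Λ)^n`, `‖x n - y n‖₁ ≤ n β Λ k (1 + K₀ + Λ)^(n-1)`.
-/

set_option autoImplicit false
set_option linter.unusedSectionVars false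
set_option linter.unusedVariables false

namespace Crest.Agent.R109

open Matrix Finset Function
open scoped ComplexConjugate Real

variable {V : Type*} [Fintype V] [DecidableEq V] {r : ℕ} {β : ℝ} {σ : V → Stt r} {Y : Matrix V V ℂ}
  {ℓ : V → ℝ}

namespace FinMomA

theorem scalar (hβ : 0 ≤ β) {k : ℕ} (hk : Odd k) (hkβ : (k : ℝ) * β ≤ 1) (x : ℝ) :
    (1 + β * x) ^ k ≤ 1 + Real.exp x := by
  have he := Real.exp_pos x
  rcases le_or_gt (1 + β * x) 0 with h | h
  · have := hk.pow_nonpos h
    linarith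
  · have h1 : (1 + β * x) ^ k ≤ Real.exp (β * x) ^ k :=
      pow_le_pow_left₀ h.le (by linarith [Real.add_one_le_exp (β * x)]) k
    rw [← Real.exp_nat_mul, ← mul_assoc] at h1
    have hk0 : 0 ≤ (k : ℝ) * β := by positivity
    rcases le_total 0 x with hx | hx
    · have : Real.exp (k * β * x) ≤ Real.exp x := Real.exp_le_exp.mpr (by nlinarith)
      linarith
    · have : Real.exp (k * β * x) ≤ 1 := Real.exp_le_one_iff.mpr (by nlinarith)
      linarith

theorem spec {W : Matrix V V ℂ} (hW : W.IsHermitian) (u : V) :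
    ∃ α lam : V → ℝ, (∀ a, 0 ≤ α a) ∧ ∑ a, α a = 1 ∧ (∀ a, ∃ v, |lam a| ≤ ∑ w, ‖W v w‖) ∧
      (∀ t : ℂ, (∀ a, t ≠ (lam a : ℂ)) → ∃ x : V → ℂ,
        (t • (1 : Matrix V V ℂ) - W) *ᵥ x = Pi.single u 1 ∧ x u = ∑ a, (α a : ℂ) / (t - (lam a : ℂ))) ∧
      ∀ (b : ℝ) (k : ℕ), ((1 + (b : ℂ) • W) ^ k) u u = ((∑ a, α a * (1 + b * lam a) ^ k : ℝ) : ℂ) := by
  set U : Matrix V V ℂ := (hW.eigenvectorUnitary : Matrix V V ℂ) with hU
  have hU1 : U * star U = 1 := Unitary.coe_mul_star_self _
  have hU2 : star U * U = 1 := Unitary.coe_star_mul_self _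
  set lam := hW.eigenvalues with hlam
  let Φ : (V → ℂ) → Matrix V V ℂ := fun d => U * diagonal d * star U
  have hWd : W = Φ fun a => (lam a : ℂ) := by
    have := hW.spectral_theorem
    rw [Unitary.conjStarAlgAut_apply] at this
    exact this
  have hmul : ∀ d d', Φ d * Φ d' = Φ fun a => d a * d' a := by
    intro d d'
    show U * diagonal d * star U * (U * diagonal d' * star U) = U * diagonal _ * star U
    rw [← diagonal_mul_diagonal]
    calc U * diagonal d * star U * (U * diagonal d' * star U)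
        = U * diagonal d * (star U * U) * diagonal d' * star U := by simp only [Matrix.mul_assoc]
      _ = _ := by rw [hU2, Matrix.mul_one]; simp only [Matrix.mul_assoc]
  have hone : Φ (fun _ => 1) = 1 := by
    show U * diagonal (fun _ => 1) * star U = 1
    rw [diagonal_one, Matrix.mul_one, hU1]
  have hlin : ∀ (p q : ℂ), p • (1 : Matrix V V ℂ) + q • W = Φ fun a => p + q * (lam a : ℂ) := by
    intro p q
    have e : diagonal (fun a => p + q * (lam a : ℂ))
        = p • diagonal (fun _ : V => (1 : ℂ)) + q • diagonal (fun a => (lam a : ℂ)) := by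
      ext i j
      by_cases h : i = j
      · subst h
        simp
      · simp [h]
    conv_lhs => rw [hWd, ← hone]
    show p • (U * diagonal (fun _ => 1) * star U) + q • (U * diagonal (fun a => (lam a : ℂ)) * star U)
      = U * diagonal (fun a => p + q * (lam a : ℂ)) * star U
    rw [e, Matrix.mul_add, Matrix.add_mul, Matrix.mul_smul, Matrix.mul_smul, Matrix.smul_mul,
      Matrix.smul_mul]
  have hpow : ∀ d (k : ℕ), Φ d ^ k = Φ fun a => d a ^ k := by
    intro d k
    induction k with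
    | zero => simp only [pow_zero, hone]
    | succ k ih => simp only [pow_succ, ih, hmul]
  have hent : ∀ d, Φ d u u = ∑ a, ((‖U u a‖ ^ 2 : ℝ) : ℂ) * d a := by
    intro d
    show (U * diagonal d * star U) u u = _
    rw [Matrix.mul_apply]
    refine Finset.sum_congr rfl fun a _ => ?_
    rw [mul_diagonal, star_apply, Complex.star_def, ← Complex.normSq_eq_norm_sq,
      ← Complex.mul_conj]
    ring
  refine ⟨fun a => ‖U u a‖ ^ 2, lam, fun a => sq_nonneg _, ?_, fun a => ?_, fun t ht => ?_,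
    fun b k => ?_⟩
  · have := hent fun _ => 1
    rw [hone, one_apply_eq] at this
    simp only [mul_one] at this
    exact_mod_cast this.symm
  · obtain ⟨v, -, hv⟩ := Finset.exists_max_image Finset.univ (fun v => ‖U v a‖) ⟨a, Finset.mem_univ a⟩
    refine ⟨v, ?_⟩
    have hpos : 0 < ‖U v a‖ := by
      by_contra h
      have h0 : ∀ w, U w a = 0 := fun w =>
        norm_le_zero_iff.mp ((hv w (Finset.mem_univ w)).trans (not_lt.mp h))
      have := congrFun (congrFun hU2 a) a
      rw [Matrix.mul_apply, one_apply_eq] at this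
      simp [h0] at this
    have hWU : W * U = U * diagonal fun a => (lam a : ℂ) := by
      conv_lhs => rw [hWd]
      show U * diagonal _ * star U * U = _
      rw [Matrix.mul_assoc, hU2, Matrix.mul_one]
    have e := congrFun (congrFun hWU v) a
    rw [Matrix.mul_apply, mul_diagonal] at e
    have e2 : ‖U v a‖ * |lam a| ≤ ‖U v a‖ * ∑ w, ‖W v w‖ := by
      calc ‖U v a‖ * |lam a| = ‖∑ w, W v w * U w a‖ := by
            rw [e, norm_mul, Complex.norm_real, Real.norm_eq_abs]
        _ ≤ ∑ w, ‖W v w * U w a‖ := norm_sum_le _ _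
        _ ≤ ∑ w, ‖U v a‖ * ‖W v w‖ := Finset.sum_le_sum fun w _ => by
            rw [norm_mul, mul_comm]
            exact mul_le_mul_of_nonneg_right (hv w (Finset.mem_univ w)) (norm_nonneg _)
        _ = _ := by rw [Finset.mul_sum]
    exact le_of_mul_le_mul_left e2 hpos
  · refine ⟨Φ (fun a => (t - (lam a : ℂ))⁻¹) *ᵥ Pi.single u 1, ?_, ?_⟩
    · have e := hlin t (-1)
      rw [neg_one_smul, ← sub_eq_add_neg] at e
      rw [mulVec_mulVec, e, hmul]
      have : (fun a => (t + -1 * (lam a : ℂ)) * (t - (lam a : ℂ))⁻¹) = fun _ => 1 := by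
        funext a
        rw [neg_one_mul, ← sub_eq_add_neg, mul_inv_cancel₀ (sub_ne_zero.mpr (ht a))]
      rw [this, hone, one_mulVec]
    · rw [mulVec_single_one, col_apply, hent]
      rfl
  · have e := hlin 1 b
    rw [one_smul] at e
    rw [e, hpow, hent]
    push_cast
    rfl

/-- the matrix `(zM - 1) / β + diag ℓ` -/
noncomputable def WW (β : ℝ) (Y : Matrix V V ℂ) (ℓ : V → ℝ) (c : V → Fin r) (s : Bool) :
    Matrix V V ℂ :=
  Matrix.of fun v w => if v = w then ((ℓ v - bar r / β : ℝ) : ℂ)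
    else if c v = c w then bsg s * Y v w / (320 * β) else 0

theorem WW_herm (hY : Y.IsHermitian) (β : ℝ) (ℓ : V → ℝ) (c : V → Fin r) (s : Bool) :
    (WW β Y ℓ c s).IsHermitian := by
  ext v w
  rw [conjTranspose_apply]
  by_cases h : v = w
  · subst h
    simp only [WW, of_apply, if_true]
    exact Complex.conj_ofReal _
  · have hs : star (bsg s) = bsg s := by cases s <;> simp [bsg]
    by_cases h2 : c v = c w
    · simp only [WW, of_apply, if_neg h, if_neg (Ne.symm h), if_pos h2, if_pos h2.symm]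
      rw [star_div₀, star_mul', hs, hY.apply v w]
      simp
    · simp only [WW, of_apply, if_neg h, if_neg (Ne.symm h), if_neg h2, if_neg (Ne.symm h2), star_zero]

theorem norm_bsg (s : Bool) : ‖bsg s‖ = 1 := by cases s <;> simp [bsg]

theorem WW_row (hβ : 0 < β) (Y : Matrix V V ℂ) (ℓ : V → ℝ) (c : V → Fin r) (s : Bool) (v : V) :
    ∑ w, ‖WW β Y ℓ c s v w‖ < rad r β Y ℓ := by
  have hb0 : 0 ≤ bar r := by unfold bar; positivity
  have h1 : ∀ w, ‖WW β Y ℓ c s v w‖
      ≤ (if v = w then |ℓ v| + bar r / β else 0) + ‖Y v w‖ / β := by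
    intro w
    have hy : 0 ≤ ‖Y v w‖ / β := by positivity
    by_cases h : v = w
    · simp only [WW, of_apply, if_pos h]
      rw [Complex.norm_real, Real.norm_eq_abs]
      have := abs_sub (ℓ v) (bar r / β)
      rw [abs_of_nonneg (show 0 ≤ bar r / β by positivity)] at this
      linarith
    · by_cases h2 : c v = c w
      · simp only [WW, of_apply, if_neg h, if_pos h2, zero_add]
        rw [norm_div, norm_mul, norm_bsg, one_mul, norm_mul, Complex.norm_real, Real.norm_eq_abs,
          abs_of_pos hβ]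
        refine div_le_div_of_nonneg_left (norm_nonneg _) hβ ?_
        have : ‖(320 : ℂ)‖ = 320 := by simp
        rw [this]
        linarith
      · simp only [WW, of_apply, if_neg h, if_neg h2, zero_add, norm_zero]
        exact hy
  refine (Finset.sum_le_sum fun w _ => h1 w).trans_lt ?_
  rw [Finset.sum_add_distrib, Finset.sum_ite_eq, if_pos (Finset.mem_univ v), ← Finset.sum_div]
  have h2 : |ℓ v| ≤ ∑ v, |ℓ v| :=
    Finset.single_le_sum (f := fun v => |ℓ v|) (fun _ _ => abs_nonneg _) (Finset.mem_univ v)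
  have h3 : ∑ w, ‖Y v w‖ ≤ ∑ u, ∑ w, ‖Y u w‖ :=
    Finset.single_le_sum (f := fun u => ∑ w, ‖Y u w‖)
      (fun _ _ => Finset.sum_nonneg fun _ _ => norm_nonneg _) (Finset.mem_univ v)
  have h4 := div_le_div_of_nonneg_right h3 hβ.le
  have h5 : 0 < 1 / β := by positivity
  unfold rad
  rw [add_div, add_div]
  linarith

theorem one_add_WW (hβ : 0 < β) (Y : Matrix V V ℂ) (ℓ : V → ℝ) (c : V → Fin r) (s : Bool) :
    1 + (β : ℂ) • WW β Y ℓ c s = zM Y c s + diagonal fun v => ((β * ℓ v : ℝ) : ℂ) := by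
  have hβ' : (β : ℂ) ≠ 0 := by exact_mod_cast hβ.ne'
  ext v w
  by_cases h : v = w
  · subst h
    simp only [WW, zM, Matrix.add_apply, Matrix.smul_apply, of_apply, if_true, one_apply_eq, diagonal_apply_eq,
      smul_eq_mul]
    push_cast
    field_simp
    ring
  · simp only [WW, zM, Matrix.add_apply, Matrix.smul_apply, of_apply, if_neg h, one_apply_ne h,
      diagonal_apply_ne _ h, smul_eq_mul, zero_add, add_zero]
    split_ifs
    · field_simp
    · simp

theorem zM_row (hb : bar r ≤ 1) {K₀ : ℝ} (hK : Rows Y K₀) (c : V → Fin r) (s : Bool) (v : V) :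
    ∑ w, ‖zM Y c s v w‖ ≤ 1 + K₀ := by
  have hb0 : 0 ≤ bar r := by unfold bar; positivity
  have h1 : ∀ w, ‖zM Y c s v w‖ ≤ (if v = w then 1 else 0) + ‖Y v w‖ := by
    intro w
    have hy := norm_nonneg (Y v w)
    by_cases h : v = w
    · simp only [zM, of_apply, if_pos h]
      have : (1 : ℂ) - (bar r : ℂ) = ((1 - bar r : ℝ) : ℂ) := by push_cast; rfl
      rw [this, Complex.norm_real, Real.norm_eq_abs, abs_of_nonneg (by linarith)]
      linarith
    · by_cases h2 : c v = c w
      · simp only [zM, of_apply, if_neg h, if_pos h2, zero_add]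
        rw [norm_div, norm_mul, norm_bsg, one_mul]
        have : ‖(320 : ℂ)‖ = 320 := by simp
        rw [this]
        linarith
      · simp only [zM, of_apply, if_neg h, if_neg h2, zero_add, norm_zero]
        exact hy
  refine (Finset.sum_le_sum fun w _ => h1 w).trans ?_
  rw [Finset.sum_add_distrib, Finset.sum_ite_eq, if_pos (Finset.mem_univ v)]
  linarith [hK v]

theorem row_mul (P Q : Matrix V V ℂ) (u : V) {A : ℝ} (hQ : ∀ v, P u v ≠ 0 → ∑ w, ‖Q v w‖ ≤ A) :
    ∑ w, ‖(P * Q) u w‖ ≤ (∑ v, ‖P u v‖) * A := by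
  calc ∑ w, ‖(P * Q) u w‖ ≤ ∑ w, ∑ v, ‖P u v‖ * ‖Q v w‖ := by
        refine Finset.sum_le_sum fun w _ => ?_
        rw [Matrix.mul_apply]
        exact (norm_sum_le _ _).trans (Finset.sum_le_sum fun v _ => (norm_mul _ _).le)
    _ = ∑ v, ‖P u v‖ * ∑ w, ‖Q v w‖ := by
        rw [Finset.sum_comm]
        simp only [Finset.mul_sum]
    _ ≤ _ := by
        rw [Finset.sum_mul]
        refine Finset.sum_le_sum fun v _ => ?_
        by_cases h : P u v = 0
        · simp [h]
        · exact mul_le_mul_of_nonneg_left (hQ v h) (norm_nonneg _)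

theorem row_diag (d : V → ℂ) (v : V) : ∑ w, ‖diagonal d v w‖ = ‖d v‖ := by
  rw [Finset.sum_eq_single v]
  · rw [diagonal_apply_eq]
  · intro w _ hw
    rw [diagonal_apply_ne _ (Ne.symm hw), norm_zero]
  · intro h
    exact absurd (Finset.mem_univ v) h

theorem compare (Z : Matrix V V ℂ) (d : V → ℂ) (u : V) (dist : V → ℕ) (h0 : dist u = 0) (k : ℕ)
    {L ε A : ℝ} (hL : 1 ≤ L) (hε : 0 ≤ ε) (hAL : A + ε ≤ L) (hZ : ∀ v, ∑ w, ‖Z v w‖ ≤ A)
    (hd : ∀ v, dist v ≤ k → ‖d v‖ ≤ ε)
    (hlip : ∀ v w, Z v w ≠ 0 → dist v < k → dist w ≤ dist v + 1) (n : ℕ) (hn : n ≤ k) :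
    (∀ w, ((Z + diagonal d) ^ n) u w ≠ 0 → dist w ≤ n) ∧
      ∑ w, ‖((Z + diagonal d) ^ n) u w‖ ≤ L ^ n ∧
      ∑ w, ‖(Z ^ n - (Z + diagonal d) ^ n) u w‖ ≤ n * ε * L ^ n := by
  induction n with
  | zero =>
    refine ⟨fun w hw => ?_, ?_, ?_⟩
    · rw [pow_zero] at hw
      by_cases h : u = w
      · rw [← h, h0]
      · exact absurd (one_apply_ne h) hw
    · rw [pow_zero, pow_zero, ← diagonal_one, row_diag, norm_one]
    · simp
  | succ n ih =>
    obtain ⟨i1, i2, i3⟩ := ih (Nat.le_of_succ_le hn)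
    have hLn : 0 ≤ L ^ n := by positivity
    have hA0 : 0 ≤ A := (Finset.sum_nonneg fun _ _ => norm_nonneg _).trans (hZ u)
    refine ⟨fun w hw => ?_, ?_, ?_⟩
    · rw [pow_succ, Matrix.mul_apply] at hw
      obtain ⟨v, -, hv⟩ := Finset.exists_ne_zero_of_sum_ne_zero hw
      have a1 := i1 v (left_ne_zero_of_mul hv)
      by_cases h : v = w
      · rw [← h]
        omega
      · have a2 := right_ne_zero_of_mul hv
        rw [Matrix.add_apply, diagonal_apply_ne _ h, add_zero] at a2
        have := hlip v w a2 (by omega)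
        omega
    · rw [pow_succ, pow_succ]
      refine (row_mul _ _ u (A := L) fun v hv => ?_).trans
        (mul_le_mul_of_nonneg_right i2 (by linarith))
      have a1 := hd v ((i1 v hv).trans (by omega))
      calc ∑ w, ‖(Z + diagonal d) v w‖ ≤ ∑ w, (‖Z v w‖ + ‖diagonal d v w‖) :=
            Finset.sum_le_sum fun w _ => norm_add_le _ _
        _ ≤ L := by
            rw [Finset.sum_add_distrib, row_diag]
            linarith [hZ v]
    · have e : Z ^ (n + 1) - (Z + diagonal d) ^ (n + 1)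
          = (Z ^ n - (Z + diagonal d) ^ n) * Z - (Z + diagonal d) ^ n * diagonal d := by
        rw [pow_succ, pow_succ, Matrix.mul_add, Matrix.sub_mul]
        abel
      have a1 := row_mul (Z ^ n - (Z + diagonal d) ^ n) Z u fun v _ => hZ v
      have a2 := row_mul ((Z + diagonal d) ^ n) (diagonal d) u (A := ε) fun v hv => by
        rw [row_diag]
        exact hd v ((i1 v hv).trans (by omega))
      have a3 : ∑ w, ‖(Z ^ (n + 1) - (Z + diagonal d) ^ (n + 1)) u w‖
          ≤ ∑ w, ‖((Z ^ n - (Z + diagonal d) ^ n) * Z) u w‖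
            + ∑ w, ‖((Z + diagonal d) ^ n * diagonal d) u w‖ := by
        rw [e, ← Finset.sum_add_distrib]
        exact Finset.sum_le_sum fun w _ => norm_sub_le _ _
      have a4 := mul_le_mul i3 (show A ≤ L by linarith) hA0 (by positivity)
      have a5 := mul_le_mul_of_nonneg_right i2 hε
      have a6 : L ^ n * ε ≤ L ^ n * ε * L := le_mul_of_one_le_right (by positivity) hL
      push_cast
      rw [pow_succ L]
      nlinarith

theorem pp_single {K : Type*} [Fintype K] [DecidableEq K] (sg : K → ℂ) (Y : Matrix V V ℂ)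
    (f : V → Finset K) (z : V → ℂ) : pp sg Y (fun v => {f v}) z = pf sg Y z f := by
  unfold pp
  rw [Fintype.piFinset_singleton, Finset.sum_singleton]
  simp

theorem mat_congr (S : Finset V) (e : ℂ) (Y : Matrix V V ℂ) {z z' : V → ℂ}
    (h : ∀ v ∈ S, z v = z' v) : mat S e Y z = mat S e Y z' := by
  ext v w
  by_cases hv : v ∈ S
  · simp only [mat, of_apply, h v hv]
  · simp only [mat, of_apply, if_neg hv]

theorem det_row_col (M : Matrix V V ℂ) (u : V) (h : ∀ j, M j u = (Pi.single u 1 : V → ℂ) j) :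
    (M.updateRow u (Pi.single u 1)).det = M.det := by
  have e := congrFun (congrFun (adjugate_mul M) u) u
  rw [Matrix.mul_apply, Matrix.smul_apply, one_apply_eq, smul_eq_mul, mul_one,
    Finset.sum_eq_single u] at e
  · rw [h u, Pi.single_eq_same, mul_one, adjugate_apply] at e
    exact e
  · intro j _ hj
    rw [h j, Pi.single_eq_of_ne hj, mul_zero]
  · intro h
    exact absurd (Finset.mem_univ u) h

theorem cramer_mat (S : Finset V) (e : ℂ) (Y : Matrix V V ℂ) (z : V → ℂ) {u : V} {x : V → ℂ} {κ : ℂ}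
    (hx : mat S e Y z *ᵥ x = κ • Pi.single u 1) :
    (mat S e Y z).det * x u = κ * (mat (S.erase u) e Y z).det := by
  have e1 : cramer (mat S e Y z) (mat S e Y z *ᵥ x) = (mat S e Y z).det • x := by
    rw [cramer_eq_adjugate_mulVec, mulVec_mulVec, adjugate_mul, smul_mulVec, one_mulVec]
  have e2 := congrFun e1 u
  rw [hx, map_smul, Pi.smul_apply, Pi.smul_apply, smul_eq_mul, smul_eq_mul, cramer_apply] at e2
  rw [← e2, ← det_row_col _ u fun j => by rw [updateCol_self]]
  congr 2
  ext v w
  by_cases hv : v = u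
  · subst hv
    rw [updateRow_self]
    by_cases hw : w = v
    · subst hw
      simp [mat]
    · simp [mat, hw, Ne.symm hw]
  · rw [updateRow_ne hv]
    by_cases hw : w = u
    · subst hw
      rw [updateCol_self]
      simp [mat, hv]
    · rw [updateCol_ne hw]
      simp [mat, hv, hw]

theorem Gf_eq (hβ : 0 < β) (hY : Y.IsHermitian) (c : V → Fin r) (s : Bool)
    (hσ : ∀ v, σ v = .one (c v) s ∨ (σ v = .del ∧ ∀ w, Y v w = 0)) {u : V}
    (hu : σ u = .one (c u) s) {t : ℂ} (ht : pS β σ Y ℓ t ≠ 0) {x : V → ℂ}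
    (hx : (t • (1 : Matrix V V ℂ) - WW β Y ℓ c s) *ᵥ x = Pi.single u 1) :
    Gf β σ Y ℓ u t = x u := by
  have hβ' : (β : ℂ) ≠ 0 := by exact_mod_cast hβ.ne'
  have hud : σ u ≠ .del := by rw [hu]; exact fun h => nomatch h
  let f : V → Finset (Fin r × Bool) := fun v => if σ v = .del then ∅ else {(c v, s)}
  have hf : (fun v => fam (σ v)) = fun v => {f v} := by
    funext v
    rcases hσ v with h | h
    · have : σ v ≠ .del := by rw [h]; exact fun h => nomatch h
      simp only [f, if_neg this]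
      rw [h]
      rfl
    · simp only [f, if_pos h.1]
      rw [h.1]
      rfl
  have hf' : (fun v => fam (update σ u .del v)) = fun v => {update f u ∅ v} := by
    funext v
    by_cases h : v = u
    · subst h
      rw [update_self, update_self]
      rfl
    · rw [update_of_ne h, update_of_ne h]
      exact congrFun hf v
  set z := hts β σ ℓ t with hz
  set S : Finset V := univ.filter fun v => (c u, s) ∈ f v with hS
  have hSm : ∀ v, v ∈ S ↔ σ v ≠ .del ∧ c u = c v := by
    intro v
    by_cases h : σ v = .del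
    · simp [hS, f, h]
    · simp [hS, f, h]
  have huS : u ∈ S := (hSm u).mpr ⟨hud, rfl⟩
  set R : ℂ := ∏ k ∈ univ.erase (c u, s), (mat (univ.filter fun v => k ∈ f v) (sgn k) Y z).det with hR
  have e1 : pS β σ Y ℓ t = (mat S (bsg s) Y z).det * R := by
    unfold pS
    rw [hf, pp_single, pf, ← Finset.mul_prod_erase univ _ (Finset.mem_univ (c u, s))]
    rfl
  have hzz : ∀ v, v ≠ u → hts β (update σ u .del) ℓ t v = z v := by
    intro v hv
    simp only [hz, hts, update_of_ne hv]
  have e2 : pS β (update σ u .del) Y ℓ t = (mat (S.erase u) (bsg s) Y z).det * R := by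
    unfold pS
    rw [hf', pp_single, pf, ← Finset.mul_prod_erase univ _ (Finset.mem_univ (c u, s))]
    have hfil : ∀ k, (univ.filter fun v => k ∈ update f u ∅ v)
        = (univ.filter fun v => k ∈ f v).erase u := by
      intro k
      ext v
      by_cases h : v = u
      · subst h
        simp
      · simp [h]
    congr 1
    · rw [hfil, mat_congr _ _ _ fun v hv => hzz v (Finset.ne_of_mem_erase hv)]
      rfl
    · refine Finset.prod_congr rfl fun k hk => ?_
      rw [hfil, mat_congr _ _ _ fun v hv => hzz v (Finset.ne_of_mem_erase hv),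
        Finset.erase_eq_of_notMem]
      have := Finset.ne_of_mem_erase hk
      simp [f, hud, this]
  have hsol : mat S (bsg s) Y z *ᵥ (fun v => if v ∈ S then x v else 0)
      = (320 * β : ℂ) • Pi.single u 1 := by
    funext v
    by_cases hv : v ∈ S
    · rw [← hx, Pi.smul_apply, smul_eq_mul]
      simp only [mulVec, dotProduct, Finset.mul_sum]
      refine Finset.sum_congr rfl fun w _ => ?_
      obtain ⟨hv1, hv2⟩ := (hSm v).mp hv
      have hσv : σ v = .one (c v) s := (hσ v).resolve_right fun h => hv1 h.1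
      by_cases hw : v = w
      · subst hw
        have hsl : slope (σ v) = 320 := by rw [hσv]; rfl
        simp only [mat, of_apply, if_true, if_pos hv, hz, hts, hsl, Matrix.sub_apply, Matrix.smul_apply,
          one_apply_eq, smul_eq_mul, WW]
        push_cast
        field_simp
        ring
      · by_cases hwS : w ∈ S
        · have hc : c v = c w := hv2.symm.trans ((hSm w).mp hwS).2
          simp only [mat, of_apply, if_neg hw, if_pos hwS, if_pos (And.intro hv hwS), Matrix.sub_apply,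
            Matrix.smul_apply, one_apply_ne hw, smul_eq_mul, WW, if_pos hc]
          field_simp
          ring
        · simp only [if_neg hwS, mul_zero, Matrix.sub_apply, Matrix.smul_apply, one_apply_ne hw, smul_eq_mul, WW,
            of_apply, if_neg hw]
          by_cases hc : c v = c w
          · have hd : σ w = .del := by
              by_contra hd
              exact hwS ((hSm w).mpr ⟨hd, hv2.trans hc⟩)
            have hY0 : Y w v = 0 := by
              rcases hσ w with h | h
              · rw [hd] at h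
                exact nomatch h
              · exact h.2 v
            have hY1 : Y v w = 0 := by rw [← hY.apply v w, hY0, star_zero]
            simp [hY1]
          · simp [hc]
    · have hvu : v ≠ u := fun h => hv (h ▸ huS)
      rw [Pi.smul_apply, Pi.single_eq_of_ne hvu, smul_zero]
      simp only [mulVec, dotProduct]
      refine Finset.sum_eq_zero fun w _ => ?_
      by_cases hw : v = w
      · subst hw
        rw [if_neg hv, mul_zero]
      · simp [mat, hw, hv]
  have e3 := cramer_mat S (bsg s) Y z hsol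
  simp only [if_pos huS] at e3
  have hsl : slope (σ u) = 320 := by rw [hu]; rfl
  unfold Gf
  rw [if_neg hud, div_eq_iff ht, e1, e2, hsl]
  push_cast
  linear_combination -R * e3

end FinMomA

theorem fin_mom (hr : 0 < r) (hb : bar r ≤ 1) (hβ : 0 < β) (hY : Y.IsHermitian) {K₀ Λ : ℝ}
    (hK : Rows Y K₀) (hΛ : 0 ≤ Λ) {k : ℕ} (hk : Odd k) (hkβ : (k : ℝ) * β ≤ 1) (c : V → Fin r)
    (s : Bool) (hσ : ∀ v, σ v = .one (c v) s ∨ (σ v = .del ∧ ∀ w, Y v w = 0)) {u : V}
    (hu : σ u ≠ .del) (dist : V → ℕ) (h0 : dist u = 0)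
    (hlip : ∀ v w, Y v w ≠ 0 → dist v < k → dist w ≤ dist v + 1)
    (hℓ : ∀ v, dist v ≤ k → |ℓ v| ≤ Λ * dist v) :
    ((zM Y c s ^ k) u u).re ≤ 1 + Pu β σ Y ℓ u + β * k ^ 2 * Λ * (2 + K₀ + Λ) ^ k := by
  have hus : σ u = .one (c u) s := (hσ u).resolve_right fun h => hu h.1
  have hK0 : 0 ≤ K₀ := (Finset.sum_nonneg fun _ _ => norm_nonneg _).trans (hK u)
  have hb0 : 0 ≤ bar r := by unfold bar; positivity
  set W := FinMomA.WW β Y ℓ c s with hW
  obtain ⟨α, lam, hα0, hα1, hlam, hres, hpow⟩ := FinMomA.spec (FinMomA.WW_herm hY β ℓ c s) u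
  have hrad : ∀ a, |lam a| < rad r β Y ℓ := by
    intro a
    obtain ⟨v, hv⟩ := hlam a
    exact hv.trans_lt (FinMomA.WW_row hβ Y ℓ c s v)
  have hP : Pu β σ Y ℓ u = ∑ a, α a * Real.exp (lam a) := by
    refine Pu_eq_of_rep hβ u α lam hrad fun t ht => ?_
    obtain ⟨x, hx, hxu⟩ := hres t fun a h => by
      have := hrad a
      rw [← ht, h, Complex.norm_real, Real.norm_eq_abs] at this
      exact lt_irrefl _ this
    rw [← hxu]
    exact FinMomA.Gf_eq hβ hY c s hσ hus (pS_ne hr hβ ht.ge) hx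
  have hN : 1 + (β : ℂ) • W = zM Y c s + diagonal fun v => ((β * ℓ v : ℝ) : ℂ) :=
    FinMomA.one_add_WW hβ Y ℓ c s
  have h1 : (((1 + (β : ℂ) • W) ^ k) u u).re ≤ 1 + Pu β σ Y ℓ u := by
    rw [hpow β k, hP, Complex.ofReal_re]
    conv_rhs => rw [← hα1, ← Finset.sum_add_distrib]
    refine Finset.sum_le_sum fun a _ => ?_
    have := mul_le_mul_of_nonneg_left (FinMomA.scalar hβ.le hk hkβ (lam a)) (hα0 a)
    linarith
  have hZ : ∀ v, ∑ w, ‖zM Y c s v w‖ ≤ 1 + K₀ := FinMomA.zM_row hb hK c s
  have hD : ∀ v, dist v ≤ k → ‖((β * ℓ v : ℝ) : ℂ)‖ ≤ β * Λ * k := by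
    intro v hv
    rw [Complex.norm_real, Real.norm_eq_abs, abs_mul, abs_of_pos hβ, mul_assoc]
    refine mul_le_mul_of_nonneg_left ((hℓ v hv).trans ?_) hβ.le
    exact mul_le_mul_of_nonneg_left (by exact_mod_cast hv) hΛ
  have hε : β * Λ * k ≤ Λ := by nlinarith
  have h2 := FinMomA.compare (zM Y c s) (fun v => ((β * ℓ v : ℝ) : ℂ)) u dist h0 k
    (L := 2 + K₀ + Λ) (ε := β * Λ * k) (A := 1 + K₀) (by linarith) (by positivity) (by linarith)
    hZ hD (fun v w hvw hv => by
      by_cases e : v = w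
      · subst e
        exact Nat.le_succ _
      · refine hlip v w (fun h => hvw ?_) hv
        simp [zM, e, h]) k le_rfl
  rw [← hN] at h2
  have h3 : ‖(zM Y c s ^ k - (1 + (β : ℂ) • W) ^ k) u u‖
      ≤ ∑ w, ‖(zM Y c s ^ k - (1 + (β : ℂ) • W) ^ k) u w‖ :=
    Finset.single_le_sum (f := fun w => ‖(zM Y c s ^ k - (1 + (β : ℂ) • W) ^ k) u w‖)
      (fun _ _ => norm_nonneg _) (Finset.mem_univ u)
  have h4 := Complex.re_le_norm ((zM Y c s ^ k - (1 + (β : ℂ) • W) ^ k) u u)
  rw [Matrix.sub_apply, Complex.sub_re] at h4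
  rw [Matrix.sub_apply] at h3
  have h5 : (k : ℝ) * (β * Λ * k) * (2 + K₀ + Λ) ^ k = β * k ^ 2 * Λ * (2 + K₀ + Λ) ^ k := by ring
  linarith [h2.2.2]

end Crest.Agent.R109
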