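import Crest.Agent.R109.ADefs

/-!
# Row 109, task R109-Ord

Invariant orders.  PLAN.  Weight order: `O k l = closure {χ | 0 < ℓ χ l - ℓ χ k}` is clopen (`ed`);
`lt χ k l := χ ∈ O k l ∨ (χ ∉ O k l ∧ χ ∉ O l k ∧ k < l)`.  The set `G` of `χ` with `χ ∈ O k l ↔ ℓ χ k < ℓ χ l` for all
`k, l` contains the finite intersection of the dense open sets `(frontier {ℓ k < ℓ l})ᶜ`, so it is dense; on `G`
the relation is the lexicographic order; each order axiom (for fixed `k l m`) defines a clopen set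
containing `G`, hence holds everywhere.  `cons`: on the clopen set `U` of `χ'` with the same `cl`, `d χ' ·` and
`d (pt χ' k) ·` as `χ`, the map `θ = pt · k` is a homeomorphism onto a clopen neighbourhood of `pt χ k` with inverse
`pt · (cl χ)` (`pt_symm`, `d_symm`, `cl_pt`) and `ℓ (θ χ') l' - ℓ (θ χ') l = ℓ χ' l' - ℓ χ' l` (`ℓ_pt`); membership in a closure is
local (`mem_closure_iff_frequently`/`nhds`, transport by the continuous maps in both directions).
-/

set_option autoImplicit false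
set_option linter.unusedSectionVars false
set_option linter.unusedVariables false

namespace Crest.Agent.R109

open scoped ComplexConjugate
open MeasureTheory Finset Function

universe u

variable {X : Type u} [TopologicalSpace X] [CompactSpace X] [MeasurableSpace X] [BorelSpace X]
  {μ : Measure X} [IsProbabilityMeasure μ] {J R : ℕ} {K₀ Λ : ℝ} {D r : ℕ}

namespace OrdA

theorem dense_biInter {Y ι : Type*} [TopologicalSpace Y] (s : Finset ι) {W : ι → Set Y}
    (ho : ∀ i, IsOpen (W i)) (hd : ∀ i, Dense (W i)) : Dense (⋂ i ∈ s, W i) := by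
  classical
  induction s using Finset.induction_on with
  | empty => simp
  | insert a s _ ih =>
    rw [Finset.set_biInter_insert]
    exact (hd a).inter_of_isOpen_left ih (ho a)

variable (am : AM X μ J R K₀ Λ D)

/-- where `ℓ k < ℓ l` -/
def U (k l : Fin J) : Set X := {χ | 0 < am.ℓ χ l - am.ℓ χ k}

theorem U_open (k l : Fin J) : IsOpen (U am k l) :=
  isOpen_lt continuous_const ((am.ℓ_cont l).sub (am.ℓ_cont k))

theorem O_clopen (k l : Fin J) : IsClopen (closure (U am k l)) :=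
  ⟨isClosed_closure, am.ed _ ((am.ℓ_cont l).sub (am.ℓ_cont k))⟩

theorem generic (χ : X) :
    ∃ a : Fin J → ℝ, ∀ k l, χ ∈ closure (U am k l) ↔ a k < a l := by
  have hd : Dense (⋂ q ∈ (Finset.univ : Finset (Fin J × Fin J)), (frontier (U am q.1 q.2))ᶜ) := by
    refine dense_biInter _ (fun q => isClosed_frontier.isOpen_compl) fun q => ?_
    rw [← interior_eq_empty_iff_dense_compl, ← frontier_compl]
    exact interior_frontier (U_open am q.1 q.2).isClosed_compl
  have hV : ∀ᶠ χ' in nhds χ, ∀ q : Fin J × Fin J,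
      (χ' ∈ closure (U am q.1 q.2) ↔ χ ∈ closure (U am q.1 q.2)) := by
    refine Filter.eventually_all.2 fun q => ?_
    by_cases h : χ ∈ closure (U am q.1 q.2)
    · filter_upwards [(O_clopen am q.1 q.2).isOpen.mem_nhds h] with χ' h' using iff_of_true h' h
    · filter_upwards [(O_clopen am q.1 q.2).isClosed.isOpen_compl.mem_nhds h] with χ' h'
        using iff_of_false h' h
  obtain ⟨χ', h1, h2⟩ := hd.inter_nhds_nonempty hV
  refine ⟨am.ℓ χ', fun k l => ?_⟩
  rw [← h2 (k, l), ← sub_pos]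
  have h3 := Set.mem_iInter₂.1 h1 (k, l) (Finset.mem_univ _)
  rw [(U_open am k l).frontier_eq] at h3
  constructor
  · intro h
    by_contra h'
    exact h3 ⟨h, h'⟩
  · intro h
    exact subset_closure h

theorem O_pt {χ : X} {k l l' : Fin J} (hk : am.d χ k ≤ R) (hl : am.d χ l ≤ R) (hl' : am.d χ l' ≤ R)
    (h1 : am.d (am.pt χ k) l ≤ R) (h2 : am.d (am.pt χ k) l' ≤ R) (h : χ ∈ closure (U am l l')) :
    am.pt χ k ∈ closure (U am l l') := by
  refine mem_closure_of_frequently_of_tendsto ?_ (am.pt_cont k).continuousAt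
  refine (mem_closure_iff_frequently.1 h).mp ?_
  filter_upwards [(am.d_lc k).eventually_eq χ, (am.d_lc l).eventually_eq χ,
    (am.d_lc l').eventually_eq χ, ((am.d_lc l).comp_continuous (am.pt_cont k)).eventually_eq χ,
    ((am.d_lc l').comp_continuous (am.pt_cont k)).eventually_eq χ] with χ' e1 e2 e3 e4 e5 h'
  simp only [Function.comp] at e4 e5
  have a1 := am.ℓ_pt χ' k l (e1 ▸ hk) (e2 ▸ hl) (e4 ▸ h1)
  have a2 := am.ℓ_pt χ' k l' (e1 ▸ hk) (e3 ▸ hl') (e5 ▸ h2)
  simp only [U, Set.mem_ofPred_eq] at h' ⊢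
  rw [a1, a2]
  linarith

theorem O_pt_iff {χ : X} {k l l' : Fin J} (hk : am.d χ k ≤ R) (hl : am.d χ l ≤ R)
    (hl' : am.d χ l' ≤ R) (h1 : am.d (am.pt χ k) l ≤ R) (h2 : am.d (am.pt χ k) l' ≤ R) :
    am.pt χ k ∈ closure (U am l l') ↔ χ ∈ closure (U am l l') := by
  refine ⟨fun h => ?_, O_pt am hk hl hl' h1 h2⟩
  have e := am.pt_symm χ k hk
  have := O_pt am (k := am.cl χ) (by rwa [am.d_symm χ k hk]) h1 h2 (by rwa [e]) (by rwa [e]) h
  rwa [e] at this

end OrdA

open OrdA

theorem ord_class (am : AM X μ J R K₀ Λ D) : am.Ord fun _ k l => k < l := by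
  refine ⟨fun k l => ⟨isClosed_const, isOpen_const⟩, fun _ k => lt_irrefl k, fun _ _ _ _ => lt_trans,
    fun _ _ _ => lt_or_gt_of_ne, fun _ _ _ _ _ _ _ _ _ => Iff.rfl⟩

theorem ord_weight (am : AM X μ J R K₀ Λ D) :
    ∃ lt, am.Ord lt ∧ ∀ χ k l, lt χ k l → am.ℓ χ k ≤ am.ℓ χ l := by
  refine ⟨fun χ k l => χ ∈ closure (U am k l) ∨
    (χ ∉ closure (U am k l) ∧ χ ∉ closure (U am l k) ∧ k < l), ⟨fun k l => ?_, fun χ k => ?_,
      fun χ k l m => ?_, fun χ k l => ?_, fun χ k l l' hk hl hl' h1 h2 => ?_⟩, fun χ k l h => ?_⟩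
  · exact (O_clopen am k l).union ((O_clopen am k l).compl.inter
      ((O_clopen am l k).compl.inter ⟨isClosed_const (p := k < l), isOpen_const (p := k < l)⟩))
  · obtain ⟨a, ha⟩ := generic am χ
    simp only [ha, lt_irrefl, and_false, or_false, not_false_eq_true]
  · obtain ⟨a, ha⟩ := generic am χ
    simp only [ha, not_lt]
    rintro (h | ⟨h1, h2, h3⟩) (h' | ⟨h1', h2', h3'⟩)
    · exact Or.inl (h.trans h')
    · exact Or.inl (h.trans_le h2')
    · exact Or.inl (h2.trans_lt h')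
    · exact Or.inr ⟨h1'.trans h1, h2.trans h2', h3.trans h3'⟩
  · obtain ⟨a, ha⟩ := generic am χ
    simp only [ha, not_lt]
    intro hkl
    rcases lt_trichotomy (a k) (a l) with h | h | h
    · exact Or.inl (Or.inl h)
    · rcases lt_or_gt_of_ne hkl with h' | h'
      · exact Or.inl (Or.inr ⟨h.ge, h.le, h'⟩)
      · exact Or.inr (Or.inr ⟨h.le, h.ge, h'⟩)
    · exact Or.inr (Or.inl h)
  · rw [O_pt_iff am hk hl hl' h1 h2, O_pt_iff am hk hl' hl h2 h1]
  · rcases h with h | ⟨-, h, -⟩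
    · have hc : IsClosed {χ | am.ℓ χ k ≤ am.ℓ χ l} := isClosed_le (am.ℓ_cont k) (am.ℓ_cont l)
      exact closure_minimal (fun χ (h : 0 < am.ℓ χ l - am.ℓ χ k) => (sub_pos.1 h).le) hc h
    · by_contra h'
      exact h (subset_closure (sub_pos.2 (not_le.1 h')))

end Crest.Agent.R109
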