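import Crest.Agent.R109.Cst
import Crest.Agent.R109.Ord
import Crest.Agent.R109.FinMom

/-!
# Row 109, task R109-AMain

Main theorem of the local model.  PLAN.  Choose `β > 0` with `k β ≤ 1`, `β k² Λ (2 + K₀ + Λ)^k ≤ 1`; `exists_rho` with
`T = 2 D² exp (10 Λ) + 1` (`x ≤ exp x`, geometric decay).  Chain of `transport_main`: deleted → uncoloured
(`ord_weight`, `step_init`, `c = 1`; `dens` of the deleted state is `0` by `Pu_del`), uncoloured → coloured
(`exists_col`, `ord_class`, `c = 2`), coloured → `one` (`step_fin`, `c = 0`); then `fin_mom` pointwise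
(`dist = d χ`, `adj`, `supp`, `ℓ_le`), and integrate (`integral_mono_of_nonneg` is not available as the left side may be
negative: prove continuity of the left side, or use `integral_mono` with integrability from continuity).
-/

set_option autoImplicit false
set_option linter.unusedSectionVars false
set_option linter.unusedVariables false

namespace Crest.Agent.R109

open scoped ComplexConjugate
open MeasureTheory Finset Function

universe u

variable {X : Type u} [TopologicalSpace X] [CompactSpace X] [MeasurableSpace X] [BorelSpace X]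
  {μ : Measure X} [IsProbabilityMeasure μ] {J R : ℕ} {K₀ Λ : ℝ} {D r : ℕ}

namespace AMainA

theorem cont_lc {X S Z : Type*} [TopologicalSpace X] [TopologicalSpace Z] {s : X → S}
    (hs : IsLocallyConstant s) {F : S → X → Z} (hF : ∀ a, Continuous (F a)) :
    Continuous fun χ => F (s χ) χ := by
  refine continuous_iff_continuousAt.mpr fun χ => ?_
  refine (hF (s χ)).continuousAt.congr ?_
  filter_upwards [hs.eventually_eq χ] with y hy
  rw [hy]

theorem hyb_true (am : AM X μ J R K₀ Λ D) (σ₀ σ₁ : X → Stt r) (lt : X → Fin J → Fin J → Prop)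
    (χ : X) : am.hyb σ₀ σ₁ lt χ (am.cl χ) true =
      update (am.hyb σ₀ σ₁ lt χ (am.cl χ) false) (am.cl χ) (σ₁ χ) := by
  funext k
  by_cases h : k = am.cl χ
  · subst h
    simp [AM.hyb, am.d_self, am.pt_self]
  · rw [update_of_ne h]
    unfold AM.hyb
    by_cases h1 : am.d χ k ≤ R
    · by_cases h2 : lt χ k (am.cl χ)
      · rw [if_pos h1, if_pos h1, if_pos (Or.inl h2), if_pos (Or.inl h2)]
      · rw [if_pos h1, if_pos h1, if_neg (fun h' => h'.elim h2 fun h'' => h h''.2),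
          if_neg (fun h' => h'.elim h2 fun h'' => h h''.2)]
    · rw [if_neg h1, if_neg h1]

theorem hyb_false (am : AM X μ J R K₀ Λ D) (σ₀ σ₁ : X → Stt r) {lt : X → Fin J → Fin J → Prop}
    (ho : am.Ord lt) (χ : X) : am.hyb σ₀ σ₁ lt χ (am.cl χ) false =
      update (am.hyb σ₀ σ₁ lt χ (am.cl χ) false) (am.cl χ) (σ₀ χ) := by
  funext k
  by_cases h : k = am.cl χ
  · subst h
    simp [AM.hyb, am.d_self, am.pt_self, ho.irrefl]
  · simp [h]

end AMainA

theorem exists_rho (r : ℕ) {β K₀ Λ : ℝ} (hβ : 0 < β) (hK : 0 ≤ K₀) (hΛ : 0 ≤ Λ) (D k : ℕ) :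
    ∃ (T : ℝ) (ρ : ℕ), 1 ≤ T ∧ k ≤ 2 * ρ ∧
      5 * (D : ℝ) ^ (2 * ρ) * Real.exp (Λ * (2 * ρ : ℕ)) * err r β K₀ T (2 * Λ * (2 * ρ : ℕ)) ρ ≤ 1 := by
  obtain ⟨T, hT⟩ : ∃ T : ℝ, T = 2 * ((D : ℝ) ^ 2 * Real.exp (10 * Λ)) + 1 := ⟨_, rfl⟩
  have hq0 : 0 ≤ (D : ℝ) ^ 2 * Real.exp (10 * Λ) := by positivity
  have hT1 : 1 ≤ T := by linarith
  have hT0 : 0 < T := by linarith
  obtain ⟨a, ha⟩ : ∃ a : ℝ, a = (K₀ * T + 1 + bar r) / β := ⟨_, rfl⟩
  have hC : 0 < 3200 * β * Real.exp (2 * a) := by positivity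
  obtain ⟨n, hn⟩ := exists_pow_lt_of_lt_one (inv_pos.mpr hC) (by norm_num : (1 / 2 : ℝ) < 1)
  refine ⟨T, n + k, hT1, by omega, ?_⟩
  obtain ⟨ρ, hρ⟩ : ∃ ρ : ℕ, ρ = n + k := ⟨_, rfl⟩
  rw [← hρ]
  have h1 : (1 / 2 : ℝ) ^ ρ ≤ (1 / 2) ^ n :=
    pow_le_pow_of_le_one (by norm_num) (by norm_num) (by omega)
  have h2 : 3200 * β * Real.exp (2 * a) * (1 / 2) ^ ρ ≤ 1 := by
    have := mul_le_mul_of_nonneg_left (h1.trans hn.le) hC.le
    rwa [mul_inv_cancel₀ hC.ne'] at this
  refine le_trans ?_ h2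
  rw [err, ← ha]
  obtain ⟨x, hx⟩ : ∃ x : ℝ, x = a + 2 * Λ * (2 * ρ : ℕ) := ⟨_, rfl⟩
  rw [← hx]
  have h3 : x * Real.exp x ≤ Real.exp x * Real.exp x :=
    mul_le_mul_of_nonneg_right (by linarith [Real.add_one_le_exp x]) (Real.exp_pos _).le
  have h4 : ((D : ℝ) ^ 2 * Real.exp (10 * Λ)) ^ ρ / T ^ ρ ≤ (1 / 2) ^ ρ := by
    rw [← div_pow]
    refine pow_le_pow_left₀ (by positivity) ?_ _
    rw [div_le_iff₀ hT0]
    linarith
  have h5 : Real.exp (Λ * (2 * ρ : ℕ)) * (Real.exp x * Real.exp x) =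
      Real.exp (2 * a) * Real.exp (10 * Λ) ^ ρ := by
    rw [← Real.exp_nat_mul, ← Real.exp_add, ← Real.exp_add, ← Real.exp_add, hx]
    congr 1
    push_cast
    ring
  calc 5 * (D : ℝ) ^ (2 * ρ) * Real.exp (Λ * (2 * ρ : ℕ)) * (640 * β * (x * Real.exp x) / T ^ ρ)
      ≤ 5 * (D : ℝ) ^ (2 * ρ) * Real.exp (Λ * (2 * ρ : ℕ)) *
          (640 * β * (Real.exp x * Real.exp x) / T ^ ρ) := by gcongr
    _ = 3200 * β * ((D : ℝ) ^ (2 * ρ) *
          (Real.exp (Λ * (2 * ρ : ℕ)) * (Real.exp x * Real.exp x)) / T ^ ρ) := by ring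
    _ = 3200 * β * Real.exp (2 * a) * (((D : ℝ) ^ 2 * Real.exp (10 * Λ)) ^ ρ / T ^ ρ) := by
        rw [h5, mul_pow, pow_mul]; ring
    _ ≤ _ := mul_le_mul_of_nonneg_left h4 hC.le

theorem zM_continuous (am : AM X μ J R K₀ Λ D) {c : X → Fin r} (hc : IsLocallyConstant c) (s : Bool)
    (k : ℕ) : Continuous fun χ =>
      (zM (am.Y χ) (fun j => c (am.pt χ j)) s ^ k) (am.cl χ) (am.cl χ) := by
  have h1 : IsLocallyConstant fun χ => fun j => c (am.pt χ j) := by
    rw [IsLocallyConstant.iff_eventually_eq]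
    intro χ
    have : ∀ᶠ y in nhds χ, ∀ j, c (am.pt y j) = c (am.pt χ j) :=
      Filter.eventually_all.mpr fun j => (hc.comp_continuous (am.pt_cont j)).eventually_eq χ
    filter_upwards [this] with y hy
    exact funext hy
  refine AMainA.cont_lc (h1.prodMk am.cl_lc)
    (F := fun a χ => (zM (am.Y χ) a.1 s ^ k) a.2 a.2) fun a => ?_
  have h2 : Continuous fun χ => zM (am.Y χ) a.1 s := by
    refine continuous_matrix fun u v => ?_
    simp only [zM, Matrix.of_apply]
    split_ifs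
    · exact continuous_const
    · exact (continuous_const.mul (am.Y_cont u v)).div_const _
    · exact continuous_const
  exact (h2.pow k).matrix_elem _ _

theorem am_main (hr : 16 ≤ r) (hK : 0 ≤ K₀) (hΛ : 0 ≤ Λ) (D : ℕ) {k : ℕ} (hk : Odd k) :
    ∃ R : ℕ, k ≤ R ∧ ∀ (X : Type u) [TopologicalSpace X] [CompactSpace X] [MeasurableSpace X]
      [BorelSpace X] (μ : Measure X) [IsProbabilityMeasure μ] (J : ℕ) (am : AM X μ J R K₀ Λ D)
      (ι : Type u) [DecidableEq ι] (cell : X → ι), IsLocallyConstant cell →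
      (∀ χ χ', cell χ = cell χ' → am.cl χ = am.cl χ') →
      ∃ (col : (ι → Fin (r / 2)) → X → Fin r) (dep : X → Finset ι), LCol cell (2 ^ J) col dep ∧
        ∀ l s, ∫ χ, ((zM (am.Y χ) (fun j => col l (am.pt χ j)) s ^ k) (am.cl χ) (am.cl χ)).re ∂μ ≤ 10 := by
  have hr0 : 0 < r := by omega
  have hb : bar r ≤ 1 := by
    have h16 : (16 : ℝ) ≤ r := by exact_mod_cast hr
    have h4 : 4 ≤ √(r : ℝ) := Real.le_sqrt_of_sq_le (by linarith)
    rw [bar, div_le_one (by linarith)]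
    exact h4
  obtain ⟨B, hB⟩ : ∃ B : ℝ, B = (k : ℝ) ^ 2 * Λ * (2 + K₀ + Λ) ^ k := ⟨_, rfl⟩
  have hB0 : 0 ≤ B := by rw [hB]; positivity
  have hk0 : (0 : ℝ) ≤ k := Nat.cast_nonneg k
  obtain ⟨β, hβd⟩ : ∃ β : ℝ, β = 1 / (k + B + 1) := ⟨_, rfl⟩
  have hβ : 0 < β := by rw [hβd]; positivity
  have hβ1 : β * (k + B + 1) = 1 := by rw [hβd]; field_simp
  have hkβ : (k : ℝ) * β ≤ 1 := by nlinarith
  have hBβ : β * k ^ 2 * Λ * (2 + K₀ + Λ) ^ k ≤ 1 := by
    have : β * k ^ 2 * Λ * (2 + K₀ + Λ) ^ k = β * B := by rw [hB]; ring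
    nlinarith
  obtain ⟨T, ρ, hT, hkρ, herr⟩ := exists_rho r hβ hK hΛ D k
  refine ⟨2 * ρ, hkρ, fun X _ _ _ _ μ _ J am ι _ cell hlc hcell => ?_⟩
  obtain ⟨lt, ho, hlt⟩ := ord_weight am
  obtain ⟨col, dep, hcol, hstep⟩ := exists_col am hr0 hβ cell hlc hcell
  refine ⟨col, dep, hcol, fun l s => ?_⟩
  have lc1 : IsLocallyConstant fun χ => (Stt.col (col l χ) : Stt r) := (hcol.lc l).comp Stt.col
  have lc2 : IsLocallyConstant fun χ => (Stt.one (col l χ) s : Stt r) :=
    (hcol.lc l).comp fun c => Stt.one c s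
  have s1 : am.Step β (fun _ => (Stt.del : Stt r)) (fun _ => .unc) lt 1 := by
    intro χ
    rw [AMainA.hyb_true]
    conv_rhs => rw [AMainA.hyb_false am _ _ ho]
    refine (step_init hr0 hβ (am.herm χ) (am.contr χ) (am.diag χ) (fun w => ?_) _
      (fun w hw => ?_)).trans ?_
    · simp only [AM.hyb]
      split_ifs
      · exact Or.inr rfl
      · exact Or.inl rfl
      · exact Or.inl rfl
    · refine hlt χ _ _ ?_
      by_contra h
      exact hw (by simp [AM.hyb, h])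
    · rw [am.ℓ_self, Real.exp_zero]
  have s3 : am.Step β (fun χ => (Stt.col (col l χ) : Stt r)) (fun χ => .one (col l χ) s)
      (fun _ k k' => k < k') 0 := by
    intro χ
    rw [AMainA.hyb_true, add_zero]
    conv_rhs => rw [AMainA.hyb_false am _ _ (ord_class am)]
    exact step_fin hr0 hβ (am.herm χ) _ _ s
  have t1 := transport_main am hr0 hβ hΛ hK hT (IsLocallyConstant.const _)
    (IsLocallyConstant.const _) ho s1
  have t2 := transport_main am hr0 hβ hΛ hK hT (IsLocallyConstant.const _) lc1 (ord_class am)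
    (hstep l)
  have t3 := transport_main am hr0 hβ hΛ hK hT lc1 lc2 (ord_class am) s3
  have t0 : ∫ χ, am.dens β (const X (Stt.del : Stt r)) χ ∂μ = 0 := by
    have : ∀ χ, am.dens β (const X (Stt.del : Stt r)) χ = 0 := fun χ =>
      Pu_del (by simp [AM.lst])
    simp [this]
  have hint : ∀ {F : X → ℝ}, Continuous F → Integrable F μ := fun hF =>
    hF.integrable_of_hasCompactSupport (HasCompactSupport.of_compactSpace _)
  have hc1 := hint (Complex.continuous_re.comp (zM_continuous am (hcol.lc l) s k))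
  have hc2 := hint (dens_continuous am hr0 hβ lc2)
  have hpt : ∀ χ, ((zM (am.Y χ) (fun j => col l (am.pt χ j)) s ^ k) (am.cl χ) (am.cl χ)).re ≤
      am.dens β (fun χ => (Stt.one (col l χ) s : Stt r)) χ + 2 := by
    intro χ
    have hd : am.d χ (am.cl χ) ≤ 2 * ρ := by rw [am.d_self]; exact Nat.zero_le _
    have := fin_mom (σ := am.lst (fun χ => (Stt.one (col l χ) s : Stt r)) χ) (ℓ := am.ℓ χ) hr0 hb hβ
      (am.herm χ) (am.rows χ) hΛ hk hkβ (fun j => col l (am.pt χ j)) s (fun v => ?_)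
      (u := am.cl χ) (by simp [AM.lst, hd]) (am.d χ) (am.d_self χ) (fun v w hvw hv => ?_)
      (fun v hv => am.ℓ_le χ v (hv.trans hkρ))
    · rw [AM.dens]
      linarith
    · by_cases h : am.d χ v ≤ 2 * ρ
      · left; simp [AM.lst, h]
      · right
        refine ⟨by simp [AM.lst, h], fun w => ?_⟩
        by_contra h'
        exact h (am.supp χ v w h')
    · have := am.adj χ (am.cl χ) v w hd hvw (by rw [am.pt_self]; omega)
      rwa [am.pt_self] at this
  have hfin := integral_mono hc1 (hc2.add (integrable_const (2 : ℝ))) hpt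
  rw [integral_add' hc2 (integrable_const _), integral_const, probReal_univ, one_smul] at hfin
  refine le_trans hfin ?_
  linarith

end Crest.Agent.R109
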