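import Crest.Agent.R109.CE

/-!
# Row 109, task R109-Gb

The normaliser groupoid.  PLAN.  `v⋆ v, v v⋆` are projections of `A`; `v a = (v a v⋆) v`.
`RNd.star`: `ρ⁻¹ ∈ A` (`cfc`), `ρ' = v ρ⁻¹ v⋆ + (1 - v v⋆)`: from `ω (v y) = ω (y v ρ)` with `y := ρ⁻¹ y` get
`ω (y v) = ω (v ρ⁻¹ y)`, conjugate.  `RNd.mul`: `ρ = (w⋆ ρ_v w + 1 - w⋆ w) ρ_w`.  `RNd.uniq`: faithfulness,
`ω (y v (ρ - ρ')) = 0` for all `y`.  `InN.star`: `(v a)⋆ = v⋆ (v a⋆ v⋆)`; `InN.mul`:
`v a w b = (v w) ((w⋆ a w) b)`.  `InN.flat`: for `y = v a`, `y♭ = a⋆ v⋆ ρ_{v⋆}`.  `InN.decomp`: for `y = v a` let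
`ρ' = v⋆ ρ_{v⋆} v ≥ 0`, `c = -i (1 + ρ')⁻¹ a`, `b = i ρ' c`, `z = v b + (v b)⋆`, `w = v c + (v c)♭`; note
`(v c)♭ = c⋆ v⋆ ρ_{v⋆} = c⋆ ρ' v⋆`, `y ↦ y♭` is conjugate linear, additive and involutive (by faithfulness or
directly), and `b⋆ v⋆ + i c⋆ ρ' v⋆ = 0`, `v b + i v c = v a`.
-/

set_option autoImplicit false
set_option linter.unusedSectionVars false
set_option linter.unusedVariables false

namespace Crest.Agent.R109

open scoped InnerProductSpace ComplexOrder ComplexConjugate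
open Filter Topology

universe u

variable {H : Type u} [NormedAddCommGroup H] [InnerProductSpace ℂ H] [CompleteSpace H]
  {M : VonNeumannAlgebra H} {A : StarSubalgebra ℂ (H →L[ℂ] H)}
  {ω φ : (H →L[ℂ] H) →ₗ[ℂ] ℂ} {E : (H →L[ℂ] H) →ₗ[ℂ] (H →L[ℂ] H)}
  {v w y z : H →L[ℂ] H}

theorem Gr.src (hv : Gr M A v) : PA A (star v * v) := by
  refine ⟨by simpa using hv.1.2.2 1 (one_mem A), ?_, IsSelfAdjoint.star_mul_self v⟩
  show star v * v * (star v * v) = star v * v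
  calc star v * v * (star v * v) = star v * (v * star v * v) := by noncomm_ring
    _ = _ := by rw [hv.2]

theorem Gr.rng (hv : Gr M A v) : PA A (v * star v) := by
  refine ⟨by simpa using hv.1.2.1 1 (one_mem A), ?_, IsSelfAdjoint.mul_star_self v⟩
  show v * star v * (v * star v) = v * star v
  calc v * star v * (v * star v) = (v * star v * v) * star v := by noncomm_ring
    _ = _ := by rw [hv.2]

theorem Gr.norm_le (hv : Gr M A v) : ‖v‖ ≤ 1 := by
  have h1 := hv.src.norm_le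
  rw [CStarRing.norm_star_mul_self] at h1
  nlinarith [norm_nonneg v]

theorem Gr.adj (hv : Gr M A v) : Gr M A (star v) := by
  refine ⟨⟨star_mem hv.1.1, fun a ha => ?_, fun a ha => ?_⟩, ?_⟩
  · rw [star_star]; exact hv.1.2.2 a ha
  · rw [star_star]; exact hv.1.2.1 a ha
  · have := congrArg star hv.2
    rw [star_mul, star_mul, star_star, ← mul_assoc] at this
    rw [star_star]; exact this

theorem Gr.mul (hA : Masa M A) (hv : Gr M A v) (hw : Gr M A w) : Gr M A (v * w) := by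
  refine ⟨⟨mul_mem hv.1.1 hw.1.1, fun a ha => ?_, fun a ha => ?_⟩, ?_⟩
  · have := hv.1.2.1 _ (hw.1.2.1 a ha)
    rwa [show v * (w * a * star w) * star v = v * w * a * star (v * w) by
      rw [star_mul]; noncomm_ring] at this
  · have := hw.1.2.2 _ (hv.1.2.2 a ha)
    rwa [show star w * (star v * a * v) * w = star (v * w) * a * (v * w) by
      rw [star_mul]; noncomm_ring] at this
  · have h1 := hA.comm _ hw.rng.1 _ hv.src.1
    calc v * w * star (v * w) * (v * w) = v * (w * star w * (star v * v)) * w := by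
          rw [star_mul]; noncomm_ring
      _ = (v * star v * v) * (w * star w * w) := by rw [h1]; noncomm_ring
      _ = v * w := by rw [hv.2, hw.2]

theorem PA.gr (hA : Masa M A) {f : H →L[ℂ] H} (hf : PA A f) : Gr M A f := by
  refine ⟨⟨hA.le f hf.1, fun a ha => mul_mem (mul_mem hf.1 ha) (star_mem hf.1),
    fun a ha => mul_mem (mul_mem (star_mem hf.1) ha) hf.1⟩, ?_⟩
  rw [hf.2.isSelfAdjoint.star_eq, hf.2.isIdempotentElem.eq, hf.2.isIdempotentElem.eq]

theorem Gr.mul_eq (hA : Masa M A) (hv : Gr M A v) {a : H →L[ℂ] H} (ha : a ∈ A) :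
    v * a = (v * a * star v) * v := by
  have h1 := hA.comm _ ha _ hv.src.1
  calc v * a = v * star v * v * a := by rw [hv.2]
    _ = v * (star v * v * a) := by noncomm_ring
    _ = _ := by rw [← h1]; noncomm_ring

theorem Gr.mul_eq' (hA : Masa M A) (hv : Gr M A v) {a : H →L[ℂ] H} (ha : a ∈ A) :
    a * v = v * (star v * a * v) := by
  have h1 := hA.comm _ ha _ hv.rng.1
  calc a * v = a * (v * star v * v) := by rw [hv.2]
    _ = (a * (v * star v)) * v := by noncomm_ring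
    _ = _ := by rw [h1]; noncomm_ring

theorem Gr.conj_pa (hA : Masa M A) (hv : Gr M A v) {f : H →L[ℂ] H} (hf : PA A f) :
    PA A (star v * f * v) := by
  refine ⟨hv.1.2.2 f hf.1, ?_, ?_⟩
  · show star v * f * v * (star v * f * v) = star v * f * v
    calc star v * f * v * (star v * f * v) = star v * f * (v * (star v * f * v)) := by noncomm_ring
      _ = star v * (f * f) * v := by rw [← hv.mul_eq' hA hf.1]; noncomm_ring
      _ = _ := by rw [hf.2.isIdempotentElem.eq]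
  · exact hf.2.isSelfAdjoint.conjugate' v

theorem Gr.conj_mul (hA : Masa M A) (hv : Gr M A v) {a b : H →L[ℂ] H} (ha : a ∈ A) (hb : b ∈ A) :
    star v * (a * b) * v = (star v * a * v) * (star v * b * v) := by
  calc star v * (a * b) * v = star v * a * (b * v) := by noncomm_ring
    _ = _ := by rw [hv.mul_eq' hA hb]; noncomm_ring

namespace GbA

theorem smul_mono {c c' : ℝ} (h : c ≤ c') {x : H →L[ℂ] H} (hx : 0 ≤ x) : c • x ≤ c' • x := by
  rw [← sub_nonneg, ← sub_smul]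
  exact smul_nonneg (sub_nonneg.mpr h) hx

theorem nonneg_of_le {c : ℝ} (hc : 0 ≤ c) {x : H →L[ℂ] H} (h : c • (1 : H →L[ℂ] H) ≤ x) :
    0 ≤ x := (smul_nonneg hc zero_le_one).trans h

theorem conj_bounds (hw : Gr M A w) {Λ : ℝ} (hΛ : 0 ≤ Λ) {ρ : H →L[ℂ] H}
    (h1 : Real.exp (-Λ) • (1 : H →L[ℂ] H) ≤ ρ) (h2 : ρ ≤ Real.exp Λ • (1 : H →L[ℂ] H)) :
    Real.exp (-Λ) • (1 : H →L[ℂ] H) ≤ star w * ρ * w + (1 - star w * w) ∧
      star w * ρ * w + (1 - star w * w) ≤ Real.exp Λ • (1 : H →L[ℂ] H) := by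
  have h3 := star_left_conjugate_le_conjugate h1 w
  have h4 := star_left_conjugate_le_conjugate h2 w
  rw [mul_smul_comm, mul_one, smul_mul_assoc] at h3 h4
  have h0 : 0 ≤ 1 - star w * w := hw.src.2.one_sub_nonneg
  have h5 := smul_mono (show Real.exp (-Λ) ≤ 1 from Real.exp_le_one_iff.mpr (by linarith)) h0
  have h6 := smul_mono (show 1 ≤ Real.exp Λ from Real.one_le_exp hΛ) h0
  rw [one_smul] at h5 h6
  constructor
  · have := add_le_add h3 h5
    rwa [← smul_add, add_sub_cancel] at this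
  · have := add_le_add h4 h6
    rwa [← smul_add, add_sub_cancel] at this

theorem mul_bounds {a b : H →L[ℂ] H} (hab : a * b = b * a) {α β α' β' : ℝ} (hα : 0 ≤ α)
    (hα' : 0 ≤ α') (hβ : 0 ≤ β) (h1 : α • (1 : H →L[ℂ] H) ≤ a) (h2 : a ≤ β • (1 : H →L[ℂ] H))
    (h3 : α' • (1 : H →L[ℂ] H) ≤ b) (h4 : b ≤ β' • (1 : H →L[ℂ] H)) :
    (α * α') • (1 : H →L[ℂ] H) ≤ a * b ∧ a * b ≤ (β * β') • (1 : H →L[ℂ] H) := by
  have hb := nonneg_of_le hα' h3
  have hc : ∀ c : ℝ, Commute (c • (1 : H →L[ℂ] H)) b := fun c =>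
    (Commute.one_left b).smul_left c
  have hab' : Commute a b := hab
  constructor
  · have e1 := Commute.mul_nonneg (sub_nonneg.mpr h1) hb (hab'.sub_left (hc α))
    have e2 := smul_nonneg hα (sub_nonneg.mpr h3)
    have := add_nonneg e1 e2
    rwa [sub_mul, smul_mul_assoc, one_mul, smul_sub, smul_smul, sub_add_sub_cancel,
      sub_nonneg] at this
  · have e1 := Commute.mul_nonneg (sub_nonneg.mpr h2) hb ((hc β).sub_left hab')
    have e2 := smul_nonneg hβ (sub_nonneg.mpr h4)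
    have := add_nonneg e2 e1
    rwa [sub_mul, smul_mul_assoc, one_mul, smul_sub, smul_smul, sub_add_sub_cancel,
      sub_nonneg] at this

theorem exists_inv (hA : Masa M A) {ρ : H →L[ℂ] H} (hρ : ρ ∈ A) {α : ℝ} (hα : 0 < α)
    (h1 : α • (1 : H →L[ℂ] H) ≤ ρ) : ∃ τ ∈ A, 0 ≤ τ ∧ τ * ρ = 1 ∧ ρ * τ = 1 := by
  have h0 := nonneg_of_le hα.le h1
  have hs : ∀ x ∈ spectrum ℝ ρ, α ≤ x := by
    rw [← Algebra.algebraMap_eq_smul_one] at h1
    exact (algebraMap_le_iff_le_spectrum h0.isSelfAdjoint).mp h1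
  have hcont : ContinuousOn (fun x : ℝ => x⁻¹) (spectrum ℝ ρ) :=
    continuousOn_inv₀.mono fun x hx => (hα.trans_le (hs x hx)).ne'
  have hA' := hA.cfc_mem hρ (fun x : ℝ => x⁻¹)
  have e : cfc (fun x : ℝ => x⁻¹) ρ * ρ = 1 := by
    nth_rewrite 2 [← cfc_id ℝ ρ h0.isSelfAdjoint]
    rw [← cfc_mul _ _ ρ hcont, ← cfc_const_one ℝ ρ h0.isSelfAdjoint]
    exact cfc_congr fun x hx => inv_mul_cancel₀ (hα.trans_le (hs x hx)).ne'
  exact ⟨_, hA', cfc_nonneg fun x hx => inv_nonneg.mpr (hα.le.trans (hs x hx)), e,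
    by rw [hA.comm _ hρ _ hA', e]⟩

/-- the conjugate form of the Radon–Nikodym identity -/
theorem rnd_conj (h : St M A ω) (hv : v ∈ M) {Λ : ℝ} {ρ : H →L[ℂ] H} (h1 : RNd M A ω Λ v ρ)
    {x : H →L[ℂ] H} (hx : x ∈ M) : ω (x * star v) = ω (ρ * star v * x) := by
  have hρM := h.masa.le ρ h1.1
  have hsa : star ρ = ρ := (nonneg_of_le (Real.exp_pos _).le h1.2.1).isSelfAdjoint.star_eq
  have e := congrArg conj (h1.2.2.2 (star x) (star_mem hx))
  rw [← h.npos.pos.map_star (mul_mem hv (star_mem hx)),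
    ← h.npos.pos.map_star (mul_mem (mul_mem (star_mem hx) hv) hρM), star_mul, star_mul, star_mul,
    star_star, hsa, ← mul_assoc] at e
  exact e

end GbA

open GbA

theorem RNd.mono {Λ Λ' : ℝ} {ρ : H →L[ℂ] H} (h : RNd M A ω Λ v ρ) (hΛ : Λ ≤ Λ') :
    RNd M A ω Λ' v ρ := by
  exact ⟨h.1, (smul_mono (Real.exp_le_exp.mpr (by linarith)) zero_le_one).trans h.2.1,
    h.2.2.1.trans (smul_mono (Real.exp_le_exp.mpr hΛ) zero_le_one), h.2.2.2⟩

theorem RNd.uniq (h : St M A ω) (hv : v ∈ M) {Λ Λ' : ℝ} {ρ ρ' : H →L[ℂ] H} (h1 : RNd M A ω Λ v ρ)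
    (h2 : RNd M A ω Λ' v ρ') : v * ρ = v * ρ' := by
  have hd : v * ρ - v * ρ' ∈ M :=
    sub_mem (mul_mem hv (h.masa.le _ h1.1)) (mul_mem hv (h.masa.le _ h2.1))
  refine sub_eq_zero.mp (h.faith _ hd ?_)
  rw [mul_sub, map_sub, ← mul_assoc, ← mul_assoc, ← h1.2.2.2 _ (star_mem hd),
    ← h2.2.2.2 _ (star_mem hd), sub_self]

theorem RNd.mul (h : St M A ω) (hv : Gr M A v) (hw : Gr M A w) {Λ Λ' : ℝ} (hΛ : 0 ≤ Λ)
    {ρ ρ' : H →L[ℂ] H} (h1 : RNd M A ω Λ v ρ) (h2 : RNd M A ω Λ' w ρ') :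
    RNd M A ω (Λ + Λ') (v * w) ((star w * ρ * w + (1 - star w * w)) * ρ') := by
  have hσ : star w * ρ * w + (1 - star w * w) ∈ A :=
    add_mem (hw.1.2.2 ρ h1.1) (sub_mem (one_mem A) hw.src.1)
  obtain ⟨b1, b2⟩ := conj_bounds hw hΛ h1.2.1 h1.2.2.1
  obtain ⟨c1, c2⟩ := mul_bounds (h.masa.comm _ hσ _ h2.1) (Real.exp_pos _).le (Real.exp_pos _).le
    (Real.exp_pos _).le b1 b2 h2.2.1 h2.2.2.1
  rw [← Real.exp_add] at c1 c2
  refine ⟨mul_mem hσ h2.1, by rwa [neg_add], c2, fun y hy => ?_⟩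
  have e : w * (star w * ρ * w + (1 - star w * w)) = ρ * w := by
    rw [mul_add, ← hw.mul_eq' h.masa h1.1, mul_sub, ← mul_assoc, hw.2, mul_one, sub_self, add_zero]
  have hρM := h.masa.le ρ h1.1
  calc ω (v * w * y) = ω (w * (y * v * ρ)) := by
        rw [mul_assoc, h1.2.2.2 _ (mul_mem hw.1.1 hy)]; simp only [mul_assoc]
    _ = ω (y * v * (ρ * w) * ρ') := by
        rw [h2.2.2.2 _ (mul_mem (mul_mem hy hv.1.1) hρM)]; simp only [mul_assoc]
    _ = _ := by rw [← e]; simp only [mul_assoc]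

theorem RNd.mul_mem (h : St M A ω) (hv : v ∈ M) {Λ : ℝ} {ρ a : H →L[ℂ] H} (h1 : RNd M A ω Λ v ρ)
    (ha : a ∈ A) : RNd M A ω Λ (v * a) ρ := by
  refine ⟨h1.1, h1.2.1, h1.2.2.1, fun y hy => ?_⟩
  have haM := h.masa.le a ha
  have hρM := h.masa.le ρ h1.1
  calc ω (v * a * y) = ω (a * (y * v * ρ)) := by
        rw [mul_assoc, h1.2.2.2 _ (MulMemClass.mul_mem haM hy)]; simp only [mul_assoc]
    _ = ω (y * v * (ρ * a)) := by
        rw [h.cent a ha _ (MulMemClass.mul_mem (MulMemClass.mul_mem hy hv) hρM)]; simp only [mul_assoc]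
    _ = _ := by rw [h.masa.comm _ h1.1 _ ha]; simp only [mul_assoc]

theorem RNd.of_mem (h : St M A ω) {a : H →L[ℂ] H} (ha : a ∈ A) : RNd M A ω 0 a 1 := by
  refine ⟨one_mem A, by simp, by simp, fun y hy => ?_⟩
  rw [mul_one, h.cent a ha y hy]

theorem Gb.mono {Λ Λ' : ℝ} (hv : Gb M A ω Λ v) (hΛ : Λ ≤ Λ') : Gb M A ω Λ' v := by
  obtain ⟨h1, ρ, h2⟩ := hv
  exact ⟨h1, ρ, h2.mono hΛ⟩

theorem Gb.adj (h : St M A ω) {Λ : ℝ} (hΛ : 0 ≤ Λ) (hv : Gb M A ω Λ v) : Gb M A ω Λ (star v) := by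
  obtain ⟨hv, ρ, h1⟩ := hv
  obtain ⟨τ, hτ, hτ0, e1, e2⟩ := exists_inv h.masa h1.1 (Real.exp_pos _) h1.2.1
  have hc : ∀ c : ℝ, Commute τ (c • (1 : H →L[ℂ] H)) := fun c =>
    (Commute.one_right τ).smul_right c
  have hτρ : Commute τ ρ := e1.trans e2.symm
  have b1 : Real.exp (-Λ) • (1 : H →L[ℂ] H) ≤ τ := by
    have := Commute.mul_nonneg hτ0 (sub_nonneg.mpr h1.2.2.1) ((hc _).sub_right hτρ)
    have := smul_nonneg (Real.exp_pos (-Λ)).le this
    rwa [mul_sub, e1, mul_smul_comm, mul_one, smul_sub, smul_smul, ← Real.exp_add, neg_add_cancel,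
      Real.exp_zero, one_smul, sub_nonneg] at this
  have b2 : τ ≤ Real.exp Λ • (1 : H →L[ℂ] H) := by
    have := Commute.mul_nonneg hτ0 (sub_nonneg.mpr h1.2.1) (hτρ.sub_right (hc _))
    have := smul_nonneg (Real.exp_pos Λ).le this
    rwa [mul_sub, e1, mul_smul_comm, mul_one, smul_sub, smul_smul, ← Real.exp_add, add_neg_cancel,
      Real.exp_zero, one_smul, sub_nonneg] at this
  have hw := hv.adj
  obtain ⟨c1, c2⟩ := conj_bounds hw hΛ b1 b2
  refine ⟨hw, _, add_mem (hw.1.2.2 τ hτ) (sub_mem (one_mem A) hw.src.1), c1, c2, fun y hy => ?_⟩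
  have e : star v * (star (star v) * τ * star v + (1 - star (star v) * star v)) = τ * star v := by
    rw [mul_add, ← hw.mul_eq' h.masa hτ, mul_sub, ← mul_assoc, hw.2, mul_one, sub_self, add_zero]
  have hτM := h.masa.le τ hτ
  rw [mul_assoc, e, ← mul_assoc, rnd_conj h hv.1.1 h1 (mul_mem hy hτM), mul_assoc,
    h.cent ρ h1.1 _ (mul_mem hw.1.1 (mul_mem hy hτM)), mul_assoc, mul_assoc, e1, mul_one]

theorem Gb.mul (h : St M A ω) {Λ Λ' : ℝ} (hΛ : 0 ≤ Λ) (hv : Gb M A ω Λ v) (hw : Gb M A ω Λ' w) :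
    Gb M A ω (Λ + Λ') (v * w) := by
  obtain ⟨hv, ρ, h1⟩ := hv
  obtain ⟨hw, ρ', h2⟩ := hw
  exact ⟨hv.mul h.masa hw, _, RNd.mul h hv hw hΛ h1 h2⟩

theorem PA.gb (h : St M A ω) {f : H →L[ℂ] H} (hf : PA A f) : Gb M A ω 0 f := by
  exact ⟨hf.gr h.masa, 1, RNd.of_mem h hf.1⟩

theorem InN.mem (h : St M A ω) (hy : InN M A ω y) : y ∈ M := by
  obtain ⟨n, Λ, v, a, -, h1, rfl⟩ := hy
  exact sum_mem fun i _ => mul_mem (h1 i).1.1.1.1 (h.masa.le _ (h1 i).2)

theorem InN.of_gb {Λ : ℝ} (hv : Gb M A ω Λ v) {a : H →L[ℂ] H} (ha : a ∈ A) : InN M A ω (v * a) := by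
  exact ⟨1, max Λ 0, fun _ => v, fun _ => a, le_max_right _ _,
    fun _ => ⟨hv.mono (le_max_left _ _), ha⟩, by simp⟩

theorem InN.of_mem (h : St M A ω) {a : H →L[ℂ] H} (ha : a ∈ A) : InN M A ω a := by
  have := InN.of_gb (PA.gb h PA.one) ha
  rwa [one_mul] at this

theorem InN.add (hy : InN M A ω y) (hz : InN M A ω z) : InN M A ω (y + z) := by
  obtain ⟨n, Λ, v, a, hΛ, h1, rfl⟩ := hy
  obtain ⟨n', Λ', v', a', hΛ', h2, rfl⟩ := hz
  refine ⟨n + n', max Λ Λ', Fin.append v v', Fin.append a a', le_max_of_le_left hΛ, fun i => ?_, ?_⟩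
  · refine Fin.addCases (fun i => ?_) (fun i => ?_) i
    · rw [Fin.append_left, Fin.append_left]
      exact ⟨(h1 i).1.mono (le_max_left _ _), (h1 i).2⟩
    · rw [Fin.append_right, Fin.append_right]
      exact ⟨(h2 i).1.mono (le_max_right _ _), (h2 i).2⟩
  · rw [Fin.sum_univ_add]
    simp only [Fin.append_left, Fin.append_right]

theorem InN.smul (hy : InN M A ω y) (c : ℂ) : InN M A ω (c • y) := by
  obtain ⟨n, Λ, v, a, hΛ, h1, rfl⟩ := hy
  refine ⟨n, Λ, v, fun i => c • a i, hΛ, fun i => ⟨(h1 i).1, A.smul_mem (h1 i).2 c⟩, ?_⟩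
  simp only [Finset.smul_sum, mul_smul_comm]

theorem GbA.zero : InN M A ω 0 :=
  ⟨0, 0, Fin.elim0, Fin.elim0, le_rfl, fun i => i.elim0, by simp⟩

theorem GbA.induct {P : (H →L[ℂ] H) → Prop} (h0 : P 0)
    (h1 : ∀ Λ v a, 0 ≤ Λ → Gb M A ω Λ v → a ∈ A → P (v * a))
    (h2 : ∀ y z, InN M A ω y → InN M A ω z → P y → P z → P (y + z)) (hy : InN M A ω y) : P y := by
  obtain ⟨n, Λ, v, a, hΛ, hv, rfl⟩ := hy
  exact (Finset.sum_induction _ (fun y => InN M A ω y ∧ P y)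
    (fun y z hy hz => ⟨hy.1.add hz.1, h2 y z hy.1 hz.1 hy.2 hz.2⟩) ⟨GbA.zero, h0⟩
    (fun i _ => ⟨InN.of_gb (hv i).1 (hv i).2, h1 Λ _ _ hΛ (hv i).1 (hv i).2⟩)).2

theorem InN.adj (h : St M A ω) (hy : InN M A ω y) : InN M A ω (star y) := by
  refine GbA.induct (P := fun y => InN M A ω (star y)) (by simpa using GbA.zero) ?_ ?_ hy
  · intro Λ v a hΛ hv ha
    have hw := hv.adj h hΛ
    rw [star_mul, hw.1.mul_eq' h.masa (star_mem ha)]
    exact InN.of_gb hw (hw.1.1.2.2 _ (star_mem ha))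
  · intro y z _ _ h1 h2
    rw [star_add]; exact h1.add h2

theorem InN.mul (h : St M A ω) (hy : InN M A ω y) (hz : InN M A ω z) : InN M A ω (y * z) := by
  refine GbA.induct (P := fun y => InN M A ω (y * z)) (by simpa using GbA.zero) ?_ ?_ hy
  · intro Λ v a hΛ hv ha
    refine GbA.induct (P := fun z => InN M A ω (v * a * z)) (by simpa using GbA.zero) ?_ ?_ hz
    · intro Λ' w b hΛ' hw hb
      have e : v * a * (w * b) = v * w * (star w * a * w * b) := by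
        calc v * a * (w * b) = v * (a * w) * b := by noncomm_ring
          _ = _ := by rw [hw.1.mul_eq' h.masa ha]; noncomm_ring
      rw [e]
      exact InN.of_gb (hv.mul h hΛ hw) (mul_mem (hw.1.1.2.2 a ha) hb)
    · intro y z _ _ h1 h2
      rw [mul_add]; exact h1.add h2
  · intro y y' _ _ h1 h2
    rw [add_mul]; exact h1.add h2

/-- right multiplication by `y` is bounded on `L²` and has an adjoint of the same kind -/
theorem InN.flat (h : St M A ω) (hy : InN M A ω y) :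
    (∃ C : ℝ, ∀ m ∈ M, n2 ω (m * y) ≤ C * n2 ω m) ∧
      ∃ y', InN M A ω y' ∧ ∀ m ∈ M, ω (star y * m) = ω (m * y') := by
  refine GbA.induct (P := fun y => (∃ C : ℝ, ∀ m ∈ M, n2 ω (m * y) ≤ C * n2 ω m) ∧
      ∃ y', InN M A ω y' ∧ ∀ m ∈ M, ω (star y * m) = ω (m * y')) ?_ ?_ ?_ hy
  · exact ⟨⟨0, fun m _ => by simp [n2]⟩, 0, GbA.zero, fun m _ => by simp⟩
  · intro Λ v a hΛ hv ha
    have hw := hv.adj h hΛ
    obtain ⟨hw', ρ, hρ⟩ := id hw
    have hvM := hv.1.1.1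
    have haM := h.masa.le a ha
    constructor
    · have hb : v * star v * ρ ∈ A := mul_mem hv.1.rng.1 hρ.1
      refine ⟨‖a‖ * √‖v * star v * ρ‖, fun m hm => ?_⟩
      have h1 := h.n2_mul_right ha (mul_mem hm hvM)
      have h2 : n2 ω (m * v) ≤ √‖v * star v * ρ‖ * n2 ω m := by
        have h3 := h.npos.pos.n2_sq (mul_mem hm hvM)
        have h4 := h.npos.pos.cs hm (mul_mem hm (h.masa.le _ hb))
        have h5 := h.n2_mul_right hb hm
        have e : ω (star (m * v) * (m * v)) = ω (star m * (m * (v * star v * ρ))) := by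
          rw [star_mul, mul_assoc, hρ.2.2.2 _ (mul_mem (star_mem hm) (mul_mem hm hvM))]
          simp only [mul_assoc]
        rw [e] at h3
        have h6 := Complex.re_le_norm (ω (star m * (m * (v * star v * ρ))))
        refine OmegaA.le_of_sq_le_sq' ?_ (mul_nonneg (Real.sqrt_nonneg _) (n2_nonneg _))
        rw [mul_pow, Real.sq_sqrt (norm_nonneg _), h3]
        have h7 := mul_le_mul_of_nonneg_left h5 (n2_nonneg (φ := ω) m)
        nlinarith
      rw [← mul_assoc, mul_assoc ‖a‖]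
      exact h1.trans (mul_le_mul_of_nonneg_left h2 (norm_nonneg _))
    · refine ⟨star a * (star v * ρ), (InN.of_mem h (star_mem ha)).mul h (InN.of_gb hw hρ.1),
        fun m hm => ?_⟩
      rw [star_mul, mul_assoc, h.cent _ (star_mem ha) _ (mul_mem hw'.1.1 hm), mul_assoc,
        hρ.2.2.2 _ (mul_mem hm (star_mem haM))]
      simp only [mul_assoc]
  · rintro y z hy hz ⟨⟨C, h1⟩, y', h2, h3⟩ ⟨⟨C', h4⟩, z', h5, h6⟩
    refine ⟨⟨C + C', fun m hm => ?_⟩, y' + z', h2.add h5, fun m hm => ?_⟩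
    · rw [mul_add, add_mul]
      exact (h.npos.pos.n2_add_le (mul_mem hm (hy.mem h)) (mul_mem hm (hz.mem h))).trans
        (add_le_add (h1 m hm) (h4 m hm))
    · rw [star_add, add_mul, mul_add, map_add, map_add, h3 m hm, h6 m hm]

/-- the density condition of Rieffel and van Daele holds algebraically -/
theorem InN.decomp (h : St M A ω) (hy : InN M A ω y) :
    ∃ z w, InN M A ω z ∧ IsSelfAdjoint z ∧ InN M A ω w ∧ (∀ m ∈ M, ω (star w * m) = ω (m * w)) ∧
      y = z + Complex.I • w := by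
  refine GbA.induct (P := fun y => ∃ z w, InN M A ω z ∧ IsSelfAdjoint z ∧ InN M A ω w ∧
      (∀ m ∈ M, ω (star w * m) = ω (m * w)) ∧ y = z + Complex.I • w) ?_ ?_ ?_ hy
  · exact ⟨0, 0, GbA.zero, .zero _, GbA.zero, fun m _ => by simp, by simp⟩
  · intro Λ v a hΛ hv ha
    have hw := hv.adj h hΛ
    obtain ⟨hw', ρ, hρ⟩ := id hw
    have hvM := hv.1.1.1
    have hρ0 : 0 ≤ ρ := nonneg_of_le (Real.exp_pos _).le hρ.2.1
    obtain ⟨r, hr⟩ : ∃ r, r = star v * ρ * v := ⟨_, rfl⟩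
    have hrA : r ∈ A := hr ▸ hv.1.1.2.2 ρ hρ.1
    have hr0 : 0 ≤ r := hr ▸ star_left_conjugate_nonneg hρ0 v
    have hrs : star r = r := hr0.isSelfAdjoint.star_eq
    have e1 : star v * ρ = r * star v := by
      have := hw'.mul_eq h.masa hρ.1
      rwa [star_star, ← hr] at this
    have e2 : ρ * v = v * r := by rw [hr]; exact hv.1.mul_eq' h.masa hρ.1
    obtain ⟨τ, hτ, -, -, e3⟩ := exists_inv h.masa (add_mem (one_mem A) hrA) one_pos
      (by rw [one_smul]; exact le_add_of_nonneg_right hr0)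
    obtain ⟨d, hd⟩ : ∃ d, d = τ * a := ⟨_, rfl⟩
    have hdA : d ∈ A := hd ▸ mul_mem hτ ha
    have hdM := h.masa.le d hdA
    have e4 : d + r * d = a := by
      calc d + r * d = (1 + r) * τ * a := by rw [hd]; noncomm_ring
        _ = a := by rw [e3, one_mul]
    have i1 : InN M A ω (v * (r * d)) := InN.of_gb hv (mul_mem hrA hdA)
    have i2 : InN M A ω (v * d) := InN.of_gb hv hdA
    refine ⟨v * (r * d) + star (v * (r * d)),
      (-Complex.I) • (v * d + (-1 : ℂ) • star (v * (r * d))), i1.add (i1.adj h),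
      IsSelfAdjoint.add_star_self _, (i2.add ((i1.adj h).smul _)).smul _, fun m hm => ?_, ?_⟩
    · have f1 : ω (star (v * d) * m) = ω (m * star (v * (r * d))) := by
        rw [star_mul, mul_assoc, h.cent _ (star_mem hdA) _ (mul_mem hw'.1.1 hm), mul_assoc,
          hρ.2.2.2 _ (mul_mem hm (star_mem hdM)), star_mul, star_mul, hrs, mul_assoc, e1]
        simp only [mul_assoc]
      have f2 : ω (v * (r * d) * m) = ω (m * (v * d)) := by
        have := rnd_conj h hw'.1.1 hρ (mul_mem hdM hm)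
        rw [star_star, e2, mul_assoc, h.cent d hdA _ (mul_mem hm hvM)] at this
        rw [← mul_assoc m, this]
        simp only [mul_assoc]
      simp only [star_smul, star_add, star_star, smul_mul_assoc, add_mul, mul_smul_comm, mul_add,
        map_smul, map_add, smul_eq_mul, f1, f2, star_neg, star_one, Complex.star_def,
        Complex.conj_I]
      ring
    · rw [smul_smul, mul_neg, Complex.I_mul_I, neg_neg, one_smul, neg_one_smul, ← e4, mul_add]
      abel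
  · rintro y y' - - ⟨z, w, h1, h2, h3, h4, rfl⟩ ⟨z', w', h5, h6, h7, h8, rfl⟩
    refine ⟨z + z', w + w', h1.add h5, h2.add h6, h3.add h7, fun m hm => ?_, ?_⟩
    · rw [star_add, add_mul, mul_add, map_add, map_add, h4 m hm, h8 m hm]
    · rw [smul_add]; abel

end Crest.Agent.R109
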