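import Crest.Agent.R109.ADefs
import Crest.Agent.R109.Gb

/-!
# Row 109, task R109-Act

Evaluation and the action of the groupoid on `X`.  PLAN.  `ev` is a `⋆`-homomorphism on `A` (apply the injective `Φ`).
`‖ev a χ‖ ≤ ‖a‖`: `Φ` is an injective `⋆`-homomorphism, hence isometric (`NonUnitalStarAlgHom.norm_map`).  `ev_nonneg`:
`a = c⋆ c` in `A`.  `act_spec`: `F ↦ ev (v⋆ Φ F v) χ` is an algebra homomorphism `C(X, ℂ) →ₐ ℂ` (`Gr.conj_mul`), hence an
evaluation (`WeakDual.CharacterSpace.continuousMapEval_bijective`, `CharacterSpace.equivAlgHom`).  `act_contOn`: the topology of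
`X` is induced by `C(X, ℝ)` (compact Hausdorff; e.g. `CompletelyRegularSpace.isInducing_stoneCechUnit`-type lemma or
Urysohn `exists_continuous_zero_one_of_isClosed`).  `E_conj`: for `a ∈ A`, with `ρ` the derivative of `v⋆`:
`ω (a v⋆ y v) = ω (v⋆ (v a v⋆) y v) = ω (y c)`, `c = v v⋆ ρ (v a v⋆) ∈ A`, same for `E y`; `CE.eq_zero`.
`fix_of_ne`: `c = E v`, `a' c = E (a' v) = E (v (v⋆ a' v)) = c (v⋆ a' v)`.  `germ_phase`: `f' = f (v⋆ v) (v⋆ (w w⋆) v)`, `c = w⋆ v f'`,
`c⋆ c = f'`.
-/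

set_option autoImplicit false
set_option linter.unusedSectionVars false
set_option linter.unusedVariables false

namespace Crest.Agent.R109

open scoped InnerProductSpace ComplexOrder ComplexConjugate
open Filter Topology

universe u

variable {H : Type u} [NormedAddCommGroup H] [InnerProductSpace ℂ H] [CompleteSpace H]
  {M : VonNeumannAlgebra H} {A : StarSubalgebra ℂ (H →L[ℂ] H)}
  {ω φ : (H →L[ℂ] H) →ₗ[ℂ] ℂ} {E : (H →L[ℂ] H) →ₗ[ℂ] (H →L[ℂ] H)}
  {X : Type u} [TopologicalSpace X] [CompactSpace X] [T2Space X] [MeasurableSpace X] [BorelSpace X]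
  {μ : MeasureTheory.Measure X} [MeasureTheory.IsProbabilityMeasure μ] {g : Gel A ω X μ} {χ χ' : X}
  {v w a b f y : H →L[ℂ] H}

open MeasureTheory Finset

namespace Gel

theorem ev_mul (g : Gel A ω X μ) (ha : a ∈ A) (hb : b ∈ A) (χ : X) :
    g.ev (a * b) χ = g.ev a χ * g.ev b χ := by
  have h : g.ev (a * b) = g.ev a * g.ev b := by
    rw [← g.ev_Φ (g.ev a * g.ev b), map_mul g.Φ, g.Φ_ev a ha, g.Φ_ev b hb]
  rw [h, ContinuousMap.mul_apply]

theorem ev_one (g : Gel A ω X μ) (χ : X) : g.ev 1 χ = 1 := by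
  have h : g.ev 1 = 1 := by rw [← g.ev_Φ 1, map_one g.Φ]
  rw [h, ContinuousMap.one_apply]

theorem ev_star (g : Gel A ω X μ) (ha : a ∈ A) (χ : X) : g.ev (star a) χ = conj (g.ev a χ) := by
  have h : g.ev (star a) = star (g.ev a) := by
    rw [← g.ev_Φ (star (g.ev a)), map_star g.Φ, g.Φ_ev a ha]
  rw [h]; rfl

theorem norm_ev_le (g : Gel A ω X μ) (ha : a ∈ A) (χ : X) : ‖g.ev a χ‖ ≤ ‖a‖ := by
  have hinj : Function.Injective g.Φ := Function.LeftInverse.injective (g := g.ev) g.ev_Φ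
  have h := NonUnitalStarAlgHom.norm_map g.Φ hinj (g.ev a)
  rw [g.Φ_ev a ha] at h
  rw [h]
  exact (g.ev a).norm_coe_le_norm χ

theorem ev_ext (g : Gel A ω X μ) (ha : a ∈ A) (hb : b ∈ A) (h : ∀ χ, g.ev a χ = g.ev b χ) : a = b := by
  rw [← g.Φ_ev a ha, ← g.Φ_ev b hb, ContinuousMap.ext h]

theorem ev_nonneg (g : Gel A ω X μ) (hA : Masa M A) (ha : a ∈ A) (h0 : 0 ≤ a) (χ : X) :
    0 ≤ g.ev a χ := by
  have hc : cfc Real.sqrt a ∈ A := hA.cfc_mem ha _
  have hs : star (cfc Real.sqrt a) = cfc Real.sqrt a := (cfc_predicate Real.sqrt a).star_eq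
  have e : star (cfc Real.sqrt a) * cfc Real.sqrt a = a := by
    rw [hs, ← cfc_mul _ _ a]
    conv_rhs => rw [← cfc_id' ℝ a]
    exact cfc_congr fun x hx => Real.mul_self_sqrt (spectrum_nonneg_of_nonneg h0 hx)
  rw [← e, g.ev_mul (star_mem hc) hc, g.ev_star hc]
  exact star_mul_self_nonneg _

theorem ev_pa (g : Gel A ω X μ) (hf : PA A f) (χ : X) : g.ev f χ = 0 ∨ g.ev f χ = 1 := by
  have h := g.ev_mul hf.1 hf.1 χ
  rw [hf.2.isIdempotentElem.eq] at h
  by_cases h0 : g.ev f χ = 0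
  · exact Or.inl h0
  · exact Or.inr (mul_left_cancel₀ h0 (by rw [← h, mul_one]))

theorem clopen_pa (g : Gel A ω X μ) (hf : PA A f) : IsClopen {χ | g.ev f χ = 1} := by
  refine ⟨isClosed_eq (g.ev f).continuous continuous_const, ?_⟩
  have e : {χ | g.ev f χ = 1} = {χ | g.ev f χ ≠ 0} := by
    ext χ
    rcases g.ev_pa hf χ with h | h <;> simp [h]
  rw [e]
  exact isOpen_ne_fun (g.ev f).continuous continuous_const

theorem int_ev (g : Gel A ω X μ) (ha : a ∈ A) : ω a = ∫ χ, g.ev a χ ∂μ := by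
  rw [← g.int, g.Φ_ev a ha]

/-- indicator projections -/
theorem exists_ind (g : Gel A ω X μ) {U : Set X} [DecidablePred (· ∈ U)] (hU : IsClopen U) :
    ∃ f, PA A f ∧ ∀ χ, g.ev f χ = if χ ∈ U then 1 else 0 := by
  let F : C(X, ℂ) := ⟨fun χ => if χ ∈ U then 1 else 0, by
    refine continuous_if (fun x hx => ?_) continuousOn_const continuousOn_const
    have h : frontier U = ∅ := hU.frontier_eq
    exact absurd (h ▸ hx : x ∈ (∅ : Set X)) (Set.notMem_empty x)⟩
  have h1 : F * F = F := by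
    ext χ
    by_cases h : χ ∈ U <;> simp [F, h]
  have h2 : star F = F := by
    ext χ
    by_cases h : χ ∈ U <;> simp [F, h]
  refine ⟨g.Φ F, ⟨g.mem F, ?_, ?_⟩, fun χ => by rw [g.ev_Φ]; rfl⟩
  · change g.Φ F * g.Φ F = g.Φ F
    rw [← map_mul, h1]
  · change star (g.Φ F) = g.Φ F
    rw [← map_star, h2]

/-- the partition attached to a locally constant map -/
theorem exists_ind_part (g : Gel A ω X μ) {ι : Type*} [Fintype ι] [DecidableEq ι] {c : X → ι}
    (hc : IsLocallyConstant c) :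
    ∃ p : ι → H →L[ℂ] H, IsPartOf A 1 p ∧ ∀ χ i, g.ev (p i) χ = if c χ = i then 1 else 0 := by
  classical
  choose p hp he using fun i => g.exists_ind (U := {χ | c χ = i}) (hc.isClopen_fiber i)
  have he' : ∀ χ i, g.ev (p i) χ = if c χ = i then 1 else 0 := fun χ i => by
    rw [he]; simp
  refine ⟨p, ⟨hp, fun i j hij => ?_, ?_⟩, he'⟩
  · refine g.ev_ext (mul_mem (hp i).1 (hp j).1) (zero_mem A) fun χ => ?_
    rw [g.ev_mul (hp i).1 (hp j).1, he', he', map_zero, ContinuousMap.zero_apply]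
    split_ifs with h1 h2
    · exact absurd (h1.symm.trans h2) hij
    all_goals simp
  · refine g.ev_ext (sum_mem fun i _ => (hp i).1) (one_mem A) fun χ => ?_
    rw [map_sum, ContinuousMap.sum_apply, g.ev_one]
    simp [he']

/-- the locally constant map attached to a partition -/
theorem exists_cell (g : Gel A ω X μ) {ι : Type*} [Fintype ι] {p : ι → H →L[ℂ] H}
    (hp : IsPartOf A 1 p) : ∃ c : X → ι, IsLocallyConstant c ∧ ∀ χ i, c χ = i ↔ g.ev (p i) χ = 1 := by
  have hex : ∀ χ, ∃ i, g.ev (p i) χ = 1 := by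
    intro χ
    by_contra hn
    have h0 : ∀ i, g.ev (p i) χ = 0 := fun i =>
      (g.ev_pa (hp.pa i) χ).resolve_right fun h => hn ⟨i, h⟩
    have h1 := g.ev_one χ
    rw [← hp.sum, map_sum, ContinuousMap.sum_apply] at h1
    simp [h0] at h1
  choose c hc using hex
  have hiff : ∀ χ i, c χ = i ↔ g.ev (p i) χ = 1 := by
    intro χ i
    refine ⟨fun h => h ▸ hc χ, fun h => ?_⟩
    by_contra hne
    have h1 := g.ev_mul (hp.pa (c χ)).1 (hp.pa i).1 χ
    rw [hp.orth _ _ hne, hc, h] at h1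
    simp at h1
  refine ⟨c, IsLocallyConstant.iff_isOpen_fiber.2 fun i => ?_, hiff⟩
  have e : c ⁻¹' {i} = {χ | g.ev (p i) χ = 1} := Set.ext fun χ => hiff χ i
  rw [e]
  exact (g.clopen_pa (hp.pa i)).isOpen

theorem pt_ext (g : Gel A ω X μ) (h : ∀ a ∈ A, g.ev a χ = g.ev a χ') : χ = χ' := by
  refine (WeakDual.CharacterSpace.continuousMapEval_bijective X ℂ).1 ?_
  ext F
  have := h _ (g.mem F)
  rw [g.ev_Φ] at this
  exact this

theorem st_pos (g : Gel A ω X μ) (h : St M A ω) (hE : CE M A ω E) (χ : X) : Pos M (g.st E χ) := by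
  intro y hy
  exact g.ev_nonneg h.masa (hE.mem _ (mul_mem (star_mem hy) hy))
    (hE.pos _ (star_mul_self_nonneg y)) χ

theorem st_of_mem (g : Gel A ω X μ) (hE : CE M A ω E) (ha : a ∈ A) (χ : X) :
    g.st E χ a = g.ev a χ := by
  change g.ev (E a) χ = _
  rw [hE.of_mem ha]

theorem st_mul_left (g : Gel A ω X μ) (hE : CE M A ω E) (ha : a ∈ A) (hy : y ∈ M) (χ : X) :
    g.st E χ (a * y) = g.ev a χ * g.st E χ y := by
  change g.ev (E (a * y)) χ = g.ev a χ * g.ev (E y) χ
  rw [hE.left a ha, g.ev_mul ha (hE.mem y hy)]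

theorem st_mul_right (g : Gel A ω X μ) (hE : CE M A ω E) (ha : a ∈ A) (hy : y ∈ M) (χ : X) :
    g.st E χ (y * a) = g.st E χ y * g.ev a χ := by
  change g.ev (E (y * a)) χ = g.ev (E y) χ * g.ev a χ
  rw [hE.right a ha, g.ev_mul (hE.mem y hy) ha]

theorem int_st (g : Gel A ω X μ) (hE : CE M A ω E) (hy : y ∈ M) : ω y = ∫ χ, g.st E χ y ∂μ := by
  rw [← hE.inv y hy, g.int_ev (hE.mem y hy)]
  rfl

theorem act_spec (hA : Masa M A) (hv : Gr M A v) (hd : g.dom v χ) (ha : a ∈ A) :
    g.ev a (g.act v χ) = g.ev (star v * a * v) χ := by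
  have hex : ∃ χ', ∀ a ∈ A, g.ev a χ' = g.ev (star v * a * v) χ := by
    let L : C(X, ℂ) →ₗ[ℂ] ℂ :=
      { toFun := fun F => g.ev (star v * g.Φ F * v) χ
        map_add' := fun F G => by simp [mul_add, add_mul]
        map_smul' := fun c F => by simp }
    let ψ : C(X, ℂ) →ₐ[ℂ] ℂ := AlgHom.ofLinearMap L (by
        change g.ev (star v * g.Φ 1 * v) χ = 1
        rw [map_one, mul_one]; exact hd) (by
        intro F G
        change g.ev (star v * g.Φ (F * G) * v) χ =
          g.ev (star v * g.Φ F * v) χ * g.ev (star v * g.Φ G * v) χ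
        rw [map_mul g.Φ, hv.conj_mul hA (g.mem F) (g.mem G),
          g.ev_mul (hv.1.2.2 _ (g.mem F)) (hv.1.2.2 _ (g.mem G))])
    obtain ⟨x, hx⟩ := (WeakDual.CharacterSpace.continuousMapEval_bijective X ℂ).2
      (WeakDual.CharacterSpace.equivAlgHom.symm ψ)
    refine ⟨x, fun a ha => ?_⟩
    have h1 : g.ev a x = ψ (g.ev a) := by
      rw [← WeakDual.CharacterSpace.equivAlgHom_symm_coe, ← hx]; rfl
    rw [h1]
    change g.ev (star v * g.Φ (g.ev a) * v) χ = _
    rw [g.Φ_ev a ha]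
  unfold act
  rw [dif_pos hex]
  exact hex.choose_spec a ha

theorem dom_clopen (g : Gel A ω X μ) (hv : Gr M A v) : IsClopen {χ | g.dom v χ} := by
  exact g.clopen_pa hv.src

theorem act_contOn (g : Gel A ω X μ) (hA : Masa M A) (hv : Gr M A v) :
    ContinuousOn (g.act v) {χ | g.dom v χ} := by
  rw [continuousOn_iff_continuous_restrict,
    (WeakDual.CharacterSpace.homeoEval X ℂ).isInducing.continuous_iff]
  refine continuous_induced_rng.2 (WeakDual.continuous_of_continuous_eval fun F => ?_)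
  have e : ∀ x : {χ | g.dom v χ}, F (g.act v x) = g.ev (star v * g.Φ F * v) x := fun x => by
    rw [← act_spec hA hv x.2 (g.mem F), g.ev_Φ]
  exact ((g.ev (star v * g.Φ F * v)).continuous.comp continuous_subtype_val).congr
    fun x => (e x).symm

theorem dom_one (g : Gel A ω X μ) (χ : X) : g.dom 1 χ := by
  unfold dom
  rw [star_one, mul_one, g.ev_one]

theorem act_one (g : Gel A ω X μ) (χ : X) : g.act 1 χ = χ := by
  have hex : ∃ χ', ∀ a ∈ A, g.ev a χ' = g.ev (star 1 * a * 1) χ := ⟨χ, fun a _ => by simp⟩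
  unfold act
  rw [dif_pos hex]
  refine g.pt_ext fun a ha => ?_
  rw [hex.choose_spec a ha, star_one, one_mul, mul_one]

theorem dom_mul (hA : Masa M A) (hv : Gr M A v) (hw : Gr M A w) :
    g.dom (v * w) χ ↔ g.dom w χ ∧ g.dom v (g.act w χ) := by
  have e : star (v * w) * (v * w) = star w * (star v * v) * w := by
    rw [star_mul]; noncomm_ring
  have hs := hw.1.2.2 _ hv.src.1
  constructor
  · intro h
    have h1 : g.ev (star w * (star v * v) * w) χ = 1 := e ▸ h
    have e2 : star w * (star v * v) * w = star w * w * (star w * (star v * v) * w) := by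
      have h2 := hw.adj.2
      rw [star_star] at h2
      calc _ = (star w * w * star w) * (star v * v) * w := by rw [h2]
        _ = _ := by noncomm_ring
    have h3 := g.ev_mul hw.src.1 hs χ
    rw [← e2, h1, mul_one] at h3
    have hd : g.dom w χ := h3.symm
    exact ⟨hd, (act_spec hA hw hd hv.src.1).trans h1⟩
  · rintro ⟨h1, h2⟩
    unfold dom
    rw [e, ← act_spec hA hw h1 hv.src.1]
    exact h2

theorem act_mul (hA : Masa M A) (hv : Gr M A v) (hw : Gr M A w) (hd : g.dom (v * w) χ) :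
    g.act (v * w) χ = g.act v (g.act w χ) := by
  obtain ⟨h1, h2⟩ := (dom_mul hA hv hw).1 hd
  refine g.pt_ext fun a ha => ?_
  rw [act_spec hA (hv.mul hA hw) hd ha, act_spec hA hv h2 ha, act_spec hA hw h1 (hv.1.2.2 a ha),
    star_mul]
  simp only [mul_assoc]

theorem dom_star (hA : Masa M A) (hv : Gr M A v) (hd : g.dom v χ) : g.dom (star v) (g.act v χ) := by
  unfold dom
  rw [star_star, act_spec hA hv hd hv.rng.1,
    show star v * (v * star v) * v = star v * (v * star v * v) by noncomm_ring, hv.2]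
  exact hd

theorem act_star (hA : Masa M A) (hv : Gr M A v) (hd : g.dom v χ) :
    g.act (star v) (g.act v χ) = χ := by
  refine g.pt_ext fun a ha => ?_
  have hd' : g.ev (star v * v) χ = 1 := hd
  rw [act_spec hA hv.adj (dom_star hA hv hd) ha, star_star, act_spec hA hv hd (hv.1.2.1 a ha),
    show star v * (v * a * star v) * v = star v * v * a * (star v * v) by noncomm_ring,
    g.ev_mul (mul_mem hv.src.1 ha) hv.src.1, g.ev_mul hv.src.1 ha, hd', one_mul, mul_one]

theorem act_of_germ (hA : Masa M A) (hv : Gr M A v) (hd : g.dom v χ) (hf : PA A f)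
    (h1 : g.ev f χ = 1) (hm : v * f ∈ A) : g.act v χ = χ := by
  refine g.pt_ext fun a ha => ?_
  have hd' : g.ev (star v * v) χ = 1 := hd
  have hfs : star f = f := hf.2.isSelfAdjoint.star_eq
  have key : ∀ b ∈ A, g.ev (star v * b * v) χ =
      g.ev (star (v * f)) χ * g.ev b χ * g.ev (v * f) χ := by
    intro b hb
    have hs := hv.1.2.2 b hb
    rw [← g.ev_mul (star_mem hm) hb, ← g.ev_mul (mul_mem (star_mem hm) hb) hm,
      show star (v * f) * b * (v * f) = f * (star v * b * v) * f by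
        rw [star_mul, hfs]; noncomm_ring,
      g.ev_mul (mul_mem hf.1 hs) hf.1, g.ev_mul hf.1 hs, h1, one_mul, mul_one]
  have h2 := key 1 (one_mem A)
  rw [mul_one, hd', g.ev_one, mul_one] at h2
  rw [act_spec hA hv hd ha, key a ha]
  linear_combination -(g.ev a χ) * h2

theorem germ_phase (hA : Masa M A) (hv : Gr M A v) (hw : Gr M A w) (hdv : g.dom v χ)
    (hdw : g.dom w χ) (he : g.act v χ = g.act w χ) (hf : PA A f) (h1 : g.ev f χ = 1)
    (hm : star w * v * f ∈ A) :
    ∃ f' c, PA A f' ∧ g.ev f' χ = 1 ∧ c ∈ A ∧ ‖g.ev c χ‖ = 1 ∧ v * f' = w * c := by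
  set q := star v * (w * star w) * v with hq
  have hqp : PA A q := hv.conj_pa hA hw.rng
  have hf' : PA A (f * q) := PA.mul hA hf hqp
  have hq1 : g.ev q χ = 1 := by
    have h2 := dom_star hA hw hdw
    unfold dom at h2
    rw [star_star, ← he, act_spec hA hv hdv hw.rng.1] at h2
    exact h2
  have hf1 : g.ev (f * q) χ = 1 := by rw [g.ev_mul hf.1 hqp.1, h1, hq1, mul_one]
  have hc : star w * v * (f * q) ∈ A := by
    rw [← mul_assoc]; exact mul_mem hm hqp.1
  refine ⟨f * q, star w * v * (f * q), hf', hf1, hc, ?_, ?_⟩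
  · have e : star (star w * v * (f * q)) * (star w * v * (f * q)) = f * q * q * (f * q) := by
      rw [star_mul, hf'.2.isSelfAdjoint.star_eq, star_mul, star_star]
      conv_rhs => rw [mul_assoc (f * q) q, hq]
      rw [← hq]
      nth_rewrite 4 [hq]
      noncomm_ring
    have h2 := g.ev_mul (star_mem hc) hc χ
    rw [e, g.ev_mul (mul_mem hf'.1 hqp.1) hf'.1, g.ev_mul hf'.1 hqp.1, hf1, hq1, g.ev_star hc,
      Complex.conj_mul'] at h2
    have h3 : ‖g.ev (star w * v * (f * q)) χ‖ ^ 2 = 1 := by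
      have : ((‖g.ev (star w * v * (f * q)) χ‖ ^ 2 : ℝ) : ℂ) = 1 := by
        push_cast; rw [← h2]; simp
      exact_mod_cast this
    nlinarith [norm_nonneg (g.ev (star w * v * (f * q)) χ)]
  · have e1 : w * star w * v = v * q := hv.mul_eq' hA hw.rng.1
    have e2 : q * (f * q) = f * q := by
      rw [← mul_assoc, hA.comm _ hqp.1 _ hf.1, mul_assoc, hqp.2.isIdempotentElem.eq]
    calc v * (f * q) = v * q * (f * q) := by rw [mul_assoc, e2]
      _ = _ := by rw [← e1]; noncomm_ring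

theorem fix_of_ne (hA : Masa M A) (hE : CE M A ω E) (hv : Gr M A v) (hne : g.st E χ v ≠ 0) :
    g.dom v χ ∧ g.act v χ = χ := by
  have hc := hE.mem v hv.1.1
  have hne' : g.ev (E v) χ ≠ 0 := hne
  have key : ∀ a ∈ A, g.ev a χ = g.ev (star v * a * v) χ := by
    intro a ha
    have hs := hv.1.2.2 a ha
    have e : a * E v = E v * (star v * a * v) := by
      rw [← hE.left a ha, ← hE.right _ hs, ← hv.mul_eq' hA ha]
    have h1 := g.ev_mul ha hc χ
    rw [e, g.ev_mul hc hs, mul_comm] at h1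
    exact (mul_right_cancel₀ hne' h1).symm
  have hd : g.dom v χ := by
    have := key 1 (one_mem A)
    rw [mul_one, g.ev_one] at this
    exact this.symm
  exact ⟨hd, g.pt_ext fun a ha => by rw [act_spec hA hv hd ha, key a ha]⟩

end Gel

theorem E_conj (h : St M A ω) (hE : CE M A ω E) {Λ : ℝ} (hΛ : 0 ≤ Λ) (hv : Gb M A ω Λ v)
    (hy : y ∈ M) : E (star v * y * v) = star v * E y * v := by
  obtain ⟨hw, ρ, hρ⟩ := hv.adj h hΛ
  have hv' := hv.1
  have hEy := hE.mem y hy
  have hz : y - E y ∈ M := sub_mem hy (h.masa.le _ hEy)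
  have hEz : E (y - E y) = 0 := by rw [map_sub, hE.of_mem hEy, sub_self]
  have h0 : ∀ c ∈ A, ω ((y - E y) * c) = 0 := fun c hc => by
    rw [← hE.inv _ (mul_mem hz (h.masa.le c hc)), hE.right c hc, hEz, zero_mul, map_zero]
  have h1 : E (star v * (y - E y) * v) = 0 := by
    refine hE.eq_zero h (mul_mem (mul_mem hw.1.1 hz) hv'.1.1) fun a ha => ?_
    have ha' := star_mem ha
    have hb := hv'.1.2.1 _ ha'
    have hbM := h.masa.le _ hb
    have e := hw.mul_eq' h.masa ha'
    rw [star_star] at e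
    calc ω (star a * (star v * (y - E y) * v))
        = ω (star v * (v * star a * star v * ((y - E y) * v))) := by
          rw [← mul_assoc (star v), ← e]; simp only [mul_assoc]
      _ = ω (v * star a * star v * ((y - E y) * (v * star v * ρ))) := by
          rw [hρ.2.2.2 _ (mul_mem hbM (mul_mem hz hv'.1.1))]; simp only [mul_assoc]
      _ = ω ((y - E y) * (v * star v * ρ * (v * star a * star v))) := by
          rw [h.cent _ hb _ (mul_mem hz (h.masa.le _ (mul_mem hv'.rng.1 hρ.1)))]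
          simp only [mul_assoc]
      _ = 0 := h0 _ (mul_mem (mul_mem hv'.rng.1 hρ.1) hb)
  rw [mul_sub, sub_mul, map_sub, hE.of_mem (hv'.1.2.2 _ hEy), sub_eq_zero] at h1
  exact h1

theorem Gel.st_act (h : St M A ω) (hE : CE M A ω E) {Λ : ℝ} (hΛ : 0 ≤ Λ) (hv : Gb M A ω Λ v)
    (hd : g.dom v χ) (hy : y ∈ M) : g.st E (g.act v χ) y = g.st E χ (star v * y * v) := by
  change g.ev (E y) (g.act v χ) = g.ev (E (star v * y * v)) χ
  rw [E_conj h hE hΛ hv hy, Gel.act_spec h.masa hv.1 hd (hE.mem y hy)]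

end Crest.Agent.R109
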