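import Crest.Agent.R109.UAC

/-!
# Row 109, task R109-Corner

Reduction to a corner.  PLAN.  `K = range s` (closed submodule, `s = K.starProjection`), `ι = K.subtypeL`,
`π = K.orthogonalProjection`, `ext T = ι T π`, `res y = π y ι`.  `M_s = {T | ext T ∈ M}` is a von Neumann
algebra on `K`: if `T` is in the double centraliser and `m' ∈ M'`, then `m'` commutes with `s`, `res m'`
commutes with `M_s`, so `T` commutes with `res m'` and `ext T` with `m'`.  `A_s = {T | ext T ∈ A}` is a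
MASA (`a y = a s y`).  `ext` is an isometric `⋆`-homomorphism with `ext 1 = s`, `ext (res y) = s y s`.
State: `ω' = φ ∘ ext` (normality: use the vectors `π ξ i`).  For `pavC_ne`, a normal central `φ'` on `M_s`
gives `φ = φ' ∘ res` (positivity/normality: `res (y⋆ y) = z⋆ z` with `z = sqrt (res (y⋆ y)) ∈ M_s`,
`‖z ξ‖ = ‖y ι ξ‖`).  Apply the hypothesis to `res x`, `F.image π`; `p i = ext (p' i)` etc.
-/

set_option autoImplicit false
set_option linter.unusedSectionVars false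
set_option linter.unusedVariables false

namespace Crest.Agent.R109

open scoped InnerProductSpace ComplexOrder ComplexConjugate
open Filter Topology

universe u

variable {H : Type u} [NormedAddCommGroup H] [InnerProductSpace ℂ H] [CompleteSpace H]
  {M : VonNeumannAlgebra H} {A : StarSubalgebra ℂ (H →L[ℂ] H)}
  {ω φ : (H →L[ℂ] H) →ₗ[ℂ] ℂ} {E : (H →L[ℂ] H) →ₗ[ℂ] (H →L[ℂ] H)}

namespace CornerA

open ContinuousLinearMap

/-- an isometric embedding with range projection `s` -/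
structure Emb (s : H →L[ℂ] H) (K : Type u) [NormedAddCommGroup K] [InnerProductSpace ℂ K]
    [CompleteSpace K] where
  i : K →L[ℂ] H
  j : H →L[ℂ] K
  adj : ContinuousLinearMap.adjoint i = j
  ji : ∀ v, j (i v) = v
  ij : ∀ w, i (j w) = s w

variable {s : H →L[ℂ] H} {K : Type u} [NormedAddCommGroup K] [InnerProductSpace ℂ K]
  [CompleteSpace K] (e : Emb s K)

namespace Emb

theorem adj' : ContinuousLinearMap.adjoint e.j = e.i := by
  rw [← e.adj, adjoint_adjoint]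

theorem norm_i (v : K) : ‖e.i v‖ = ‖v‖ := by
  have h : ⟪e.i v, e.i v⟫_ℂ = ⟪v, v⟫_ℂ := by
    rw [← adjoint_inner_right, e.adj, e.ji]
  have h2 := congrArg (fun z : ℂ => z.re) h
  have a := @inner_self_eq_norm_sq ℂ H _ _ _ (e.i v)
  have b := @inner_self_eq_norm_sq ℂ K _ _ _ v
  simp only [RCLike.re_to_complex] at a b h2
  rw [a, b] at h2
  exact (sq_eq_sq₀ (norm_nonneg _) (norm_nonneg _)).1 h2

theorem opn_i : ‖e.i‖ ≤ 1 := opNorm_le_bound _ zero_le_one fun v => by rw [e.norm_i, one_mul]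

theorem opn_j : ‖e.j‖ ≤ 1 := by
  rw [← e.adj, LinearIsometryEquiv.norm_map]; exact e.opn_i

theorem s_i (v : K) : s (e.i v) = e.i v := by rw [← e.ij, e.ji]

theorem j_s (w : H) : e.j (s w) = e.j w := by rw [← e.ij, e.ji]

/-- extension by zero -/
noncomputable def ex : (K →L[ℂ] K) →ₗ[ℂ] (H →L[ℂ] H) where
  toFun T := e.i ∘L T ∘L e.j
  map_add' T T' := by ext w; simp
  map_smul' c T := by ext w; simp

/-- compression -/
noncomputable def rs : (H →L[ℂ] H) →ₗ[ℂ] (K →L[ℂ] K) where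
  toFun y := e.j ∘L y ∘L e.i
  map_add' T T' := by ext w; simp
  map_smul' c T := by ext w; simp

theorem ex_apply (T : K →L[ℂ] K) (w : H) : e.ex T w = e.i (T (e.j w)) := rfl

theorem rs_apply (y : H →L[ℂ] H) (v : K) : e.rs y v = e.j (y (e.i v)) := rfl

theorem ex_mul (T T' : K →L[ℂ] K) : e.ex (T * T') = e.ex T * e.ex T' := by
  ext w; simp [ex_apply, e.ji]

theorem ex_one : e.ex 1 = s := by
  ext w; simp [ex_apply, e.ij]

theorem ex_star (T : K →L[ℂ] K) : e.ex (star T) = star (e.ex T) := by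
  show e.i ∘L star T ∘L e.j = star (e.i ∘L T ∘L e.j)
  rw [star_eq_adjoint, star_eq_adjoint, adjoint_comp, adjoint_comp, e.adj, e.adj']
  rfl

theorem rs_star (y : H →L[ℂ] H) : e.rs (star y) = star (e.rs y) := by
  show e.j ∘L star y ∘L e.i = star (e.j ∘L y ∘L e.i)
  rw [star_eq_adjoint, star_eq_adjoint, adjoint_comp, adjoint_comp, e.adj, e.adj']
  rfl

theorem ex_rs (y : H →L[ℂ] H) : e.ex (e.rs y) = s * y * s := by
  ext w; simp [ex_apply, rs_apply, e.ij]

theorem rs_ex (T : K →L[ℂ] K) : e.rs (e.ex T) = T := by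
  ext w; simp [ex_apply, rs_apply, e.ji]

theorem ex_inj {T T' : K →L[ℂ] K} (h : e.ex T = e.ex T') : T = T' := by
  rw [← e.rs_ex T, h, e.rs_ex]

theorem s_ex (T : K →L[ℂ] K) : s * e.ex T = e.ex T := by
  ext w; simp [ex_apply, e.s_i]

theorem ex_s (T : K →L[ℂ] K) : e.ex T * s = e.ex T := by
  ext w; simp [ex_apply, e.j_s]

theorem rs_ex_mul (T : K →L[ℂ] K) (y : H →L[ℂ] H) : e.rs (e.ex T * y) = T * e.rs y := by
  ext w; simp [ex_apply, rs_apply, e.ji]

theorem rs_mul_ex (T : K →L[ℂ] K) (y : H →L[ℂ] H) : e.rs (y * e.ex T) = e.rs y * T := by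
  ext w; simp [ex_apply, rs_apply, e.ji]

theorem ex_mul_ex (T T' : K →L[ℂ] K) (y : H →L[ℂ] H) :
    e.ex T * y * e.ex T' = e.ex (T * e.rs y * T') := by
  ext w; simp [ex_apply, rs_apply]

theorem rs_s : e.rs s = 1 := by
  ext w; simp [rs_apply, e.s_i, e.ji]

theorem rs_mul_left {a : H →L[ℂ] H} (h : a * s = s * a) (y : H →L[ℂ] H) :
    e.rs (a * y) = e.rs a * e.rs y := by
  ext w
  have h1 : a (s (y (e.i w))) = s (a (y (e.i w))) := congrArg (fun T : H →L[ℂ] H => T (y (e.i w))) h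
  simp [rs_apply, e.ij, h1, e.j_s]

theorem rs_mul_right {a : H →L[ℂ] H} (h : a * s = s * a) (y : H →L[ℂ] H) :
    e.rs (y * a) = e.rs y * e.rs a := by
  ext w
  have h1 : a (s (e.i w)) = s (a (e.i w)) := congrArg (fun T : H →L[ℂ] H => T (e.i w)) h
  rw [e.s_i] at h1
  simp [rs_apply, e.ij, ← h1]

theorem norm_ex_le (T : K →L[ℂ] K) : ‖e.ex T‖ ≤ ‖T‖ := by
  refine opNorm_le_bound _ (norm_nonneg _) fun w => ?_
  rw [ex_apply, e.norm_i]
  refine (T.le_opNorm _).trans (mul_le_mul_of_nonneg_left ?_ (norm_nonneg _))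
  exact (e.j.le_opNorm _).trans (mul_le_of_le_one_left (norm_nonneg _) e.opn_j)

theorem norm_rs_le (y : H →L[ℂ] H) : ‖e.rs y‖ ≤ ‖y‖ := by
  refine opNorm_le_bound _ (norm_nonneg _) fun w => ?_
  rw [rs_apply]
  refine (e.j.le_opNorm _).trans ((mul_le_of_le_one_left (norm_nonneg _) e.opn_j).trans ?_)
  refine (y.le_opNorm _).trans ?_
  rw [e.norm_i]

theorem comm_ex {m : H →L[ℂ] H} (hm : m * s = s * m) {T : K →L[ℂ] K}
    (h : e.rs m * T = T * e.rs m) : m * e.ex T = e.ex T * m := by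
  ext w
  have h1 : ∀ v, m (s v) = s (m v) := fun v => congrArg (fun T : H →L[ℂ] H => T v) hm
  have h2 : e.j (m (e.i (T (e.j w)))) = T (e.j (m (e.i (e.j w)))) :=
    congrArg (fun T : K →L[ℂ] K => T (e.j w)) h
  rw [e.ij, h1, e.j_s] at h2
  show m (e.i (T (e.j w))) = e.i (T (e.j (m w)))
  rw [← h2, e.ij, ← h1, e.s_i]

theorem sa_ex {T : K →L[ℂ] K} (h : IsSelfAdjoint T) : IsSelfAdjoint (e.ex T) := by
  rw [IsSelfAdjoint, ← e.ex_star, h.star_eq]

theorem sa_rs {y : H →L[ℂ] H} (h : IsSelfAdjoint y) : IsSelfAdjoint (e.rs y) := by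
  rw [IsSelfAdjoint, ← e.rs_star, h.star_eq]

theorem proj_ex {T : K →L[ℂ] K} (h : IsStarProjection T) : IsStarProjection (e.ex T) :=
  ⟨by rw [IsIdempotentElem, ← e.ex_mul, h.isIdempotentElem.eq], e.sa_ex h.isSelfAdjoint⟩

/-- the corner of a star subalgebra -/
noncomputable def cA (B : StarSubalgebra ℂ (H →L[ℂ] H)) (hs : s ∈ B) :
    StarSubalgebra ℂ (K →L[ℂ] K) where
  carrier := {T | e.ex T ∈ B}
  mul_mem' {a b} ha hb := by
    show e.ex (a * b) ∈ B
    rw [e.ex_mul]; exact mul_mem ha hb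
  add_mem' {a b} ha hb := by
    show e.ex (a + b) ∈ B
    rw [map_add]; exact add_mem ha hb
  algebraMap_mem' c := by
    show e.ex (algebraMap ℂ _ c) ∈ B
    rw [Algebra.algebraMap_eq_smul_one, map_smul, e.ex_one]; exact B.smul_mem hs c
  star_mem' {a} ha := by
    show e.ex (star a) ∈ B
    rw [e.ex_star]; exact star_mem ha

theorem mem_cA {B : StarSubalgebra ℂ (H →L[ℂ] H)} {hs : s ∈ B} {T : K →L[ℂ] K} :
    T ∈ e.cA B hs ↔ e.ex T ∈ B := Iff.rfl

/-- the corner of a von Neumann algebra -/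
noncomputable def cM (M : VonNeumannAlgebra H) (hs : s ∈ M) : VonNeumannAlgebra K where
  toStarSubalgebra := e.cA M.toStarSubalgebra hs
  centralizer_centralizer' := by
    refine Set.Subset.antisymm ?_ Set.subset_centralizer_centralizer
    intro T hT
    show e.ex T ∈ (M : Set (H →L[ℂ] H))
    rw [← M.centralizer_centralizer]
    intro m hm
    refine e.comm_ex (hm s hs).symm (hT _ ?_)
    intro T' hT'
    have : e.ex T' * m = m * e.ex T' := hm _ hT'
    rw [← e.rs_ex_mul, this, e.rs_mul_ex]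

theorem mem_cM {hs : s ∈ M} {T : K →L[ℂ] K} : T ∈ e.cM M hs ↔ e.ex T ∈ M := Iff.rfl

theorem rs_memM {hs : s ∈ M} {y : H →L[ℂ] H} (hy : y ∈ M) : e.rs y ∈ e.cM M hs := by
  rw [mem_cM, e.ex_rs]; exact mul_mem (mul_mem hs hy) hs

theorem rs_memA {hs : s ∈ A} {y : H →L[ℂ] H} (hy : y ∈ A) : e.rs y ∈ e.cA A hs := by
  rw [mem_cA, e.ex_rs]; exact mul_mem (mul_mem hs hy) hs

theorem masa (hA : Masa M A) (hs : s ∈ A) : Masa (e.cM M (hA.le s hs)) (e.cA A hs) where
  le a ha := hA.le _ ha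
  comm a ha b hb := e.ex_inj (by rw [e.ex_mul, e.ex_mul]; exact hA.comm _ ha _ hb)
  max y hy h := by
    refine hA.max _ hy fun a ha => ?_
    exact e.comm_ex (hA.comm a ha s hs) (h _ (e.rs_memA ha))

theorem st (hA : Masa M A) (hs : s ∈ A) (hφ : NPos M φ) (hc : Cent M A φ) (h1 : φ s = 1)
    (hf : ∀ y ∈ M, s * y * s = y → φ (star y * y) = 0 → y = 0) :
    St (e.cM M (hA.le s hs)) (e.cA A hs) (φ ∘ₗ e.ex) where
  masa := e.masa hA hs
  npos := by
    constructor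
    · intro y hy
      show 0 ≤ φ (e.ex (star y * y))
      rw [e.ex_mul, e.ex_star]
      exact hφ.pos _ hy
    · intro η hη
      obtain ⟨m, ξ, h⟩ := hφ.nrm η hη
      refine ⟨m, fun i => e.j (ξ i), fun y hy => ?_⟩
      show (φ (e.ex (star y * y))).re ≤ _
      rw [e.ex_mul, e.ex_star]
      refine (h _ hy).trans (add_le_add (le_of_eq ?_) ?_)
      · refine Finset.sum_congr rfl fun i _ => ?_
        rw [ex_apply, e.norm_i]
      · refine mul_le_mul_of_nonneg_left ?_ hη.le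
        exact pow_le_pow_left₀ (norm_nonneg _) (e.norm_ex_le y) 2
  cent := by
    intro a ha y hy
    show φ (e.ex (a * y)) = φ (e.ex (y * a))
    rw [e.ex_mul, e.ex_mul]
    exact hc _ ha _ hy
  one := by
    show φ (e.ex 1) = 1
    rw [e.ex_one, h1]
  faith := by
    intro y hy h
    have h' : φ (e.ex (star y * y)) = 0 := h
    rw [e.ex_mul, e.ex_star] at h'
    have := hf _ hy (by rw [e.s_ex, e.ex_s]) h'
    exact e.ex_inj (by rw [this, map_zero])

theorem rs_nonneg (y : H →L[ℂ] H) : 0 ≤ e.rs (star y * y) := by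
  rw [ContinuousLinearMap.nonneg_iff_isPositive]
  have := isPositive_adjoint_comp_self (y ∘L e.i)
  rw [adjoint_comp, e.adj] at this
  exact this

theorem noC (hA : Masa M A) (hs : s ∈ A) (h0 : ∀ φ, NPos M φ → Cent M A φ → φ s = 0) :
    NoC (e.cM M (hA.le s hs)) (e.cA A hs) := by
  intro φ' hφ hc
  have key : ∀ y ∈ M, ∃ z ∈ e.cM M (hA.le s hs), star z * z = e.rs (star y * y) := by
    intro y hy
    have hm : e.rs (star y * y) ∈ e.cM M (hA.le s hs) := e.rs_memM (mul_mem (star_mem hy) hy)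
    have hn := e.rs_nonneg y
    refine ⟨cfc Real.sqrt (e.rs (star y * y)), cfc_memM hm _, ?_⟩
    have hsa : IsSelfAdjoint (cfc Real.sqrt (e.rs (star y * y))) := cfc_predicate _ _
    rw [hsa.star_eq, ← cfc_mul _ _ _ Real.continuous_sqrt.continuousOn
      Real.continuous_sqrt.continuousOn]
    have hsa' : IsSelfAdjoint (e.rs (star y * y)) := IsSelfAdjoint.of_nonneg hn
    conv_rhs => rw [← cfc_id' ℝ (e.rs (star y * y)) hsa']
    refine cfc_congr fun t ht => ?_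
    exact Real.mul_self_sqrt (spectrum_nonneg_of_nonneg hn ht)
  have := h0 (φ' ∘ₗ e.rs) ⟨?_, ?_⟩ ?_
  · have h' : φ' (e.rs s) = 0 := this
    rwa [e.rs_s] at h'
  · intro y hy
    obtain ⟨z, hz, hzz⟩ := key y hy
    show 0 ≤ φ' (e.rs (star y * y))
    rw [← hzz]
    exact hφ.pos _ hz
  · intro η hη
    obtain ⟨m, ξ, h⟩ := hφ.nrm η hη
    refine ⟨m, fun i => e.i (ξ i), fun y hy => ?_⟩
    obtain ⟨z, hz, hzz⟩ := key y hy
    show (φ' (e.rs (star y * y))).re ≤ _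
    rw [← hzz]
    refine (h _ hz).trans (add_le_add (le_of_eq ?_) ?_)
    · refine Finset.sum_congr rfl fun i _ => ?_
      have a1 : ⟪z (ξ i), z (ξ i)⟫_ℂ = ⟪y (e.i (ξ i)), y (e.i (ξ i))⟫_ℂ := by
        have b1 : ⟪z (ξ i), z (ξ i)⟫_ℂ = ⟪ξ i, (star z * z) (ξ i)⟫_ℂ := by
          rw [star_eq_adjoint]
          exact (adjoint_inner_right z _ _).symm
        rw [b1, hzz, rs_apply, ← e.adj, adjoint_inner_right, star_eq_adjoint]
        exact adjoint_inner_right y _ _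
      have h2 := congrArg (fun z : ℂ => z.re) a1
      have a := @inner_self_eq_norm_sq ℂ K _ _ _ (z (ξ i))
      have b := @inner_self_eq_norm_sq ℂ H _ _ _ (y (e.i (ξ i)))
      simp only [RCLike.re_to_complex] at a b h2
      rw [a, b] at h2
      exact h2
    · refine mul_le_mul_of_nonneg_left ?_ hη.le
      rw [sq, sq, ← CStarRing.norm_star_mul_self, ← CStarRing.norm_star_mul_self, hzz]
      exact e.norm_rs_le _
  · intro a ha y hy
    show φ' (e.rs (a * y)) = φ' (e.rs (y * a))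
    rw [e.rs_mul_left (hA.comm a ha s hs), e.rs_mul_right (hA.comm a ha s hs)]
    exact hc _ (e.rs_memA ha) _ (e.rs_memM hy)

theorem part {hs : s ∈ A} {r : ℕ} {p : Fin r → K →L[ℂ] K} (hp : IsPartOf (e.cA A hs) 1 p) :
    IsPartOf A s (fun i => e.ex (p i)) where
  pa i := ⟨(hp.pa i).1, e.proj_ex (hp.pa i).2⟩
  orth i j hij := by rw [← e.ex_mul, hp.orth i j hij, map_zero]
  sum := by rw [← map_sum, hp.sum, e.ex_one]

theorem pin_ex {r : ℕ} (p : Fin r → K →L[ℂ] K) (x : H →L[ℂ] H) :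
    pin (fun i => e.ex (p i)) x = e.ex (pin p (e.rs x)) := by
  unfold pin
  rw [map_sum]
  exact Finset.sum_congr rfl fun i _ => e.ex_mul_ex _ _ _

theorem pavC {r : ℕ} {ε : ℝ} {hM : s ∈ M} {hs : s ∈ A} (h : PavC (e.cM M hM) (e.cA A hs) 1 r ε) :
    PavC M A s r ε := by
  classical
  intro x hx hsa hn F δ hδ
  obtain ⟨p, hp, a, ha, hasa, han, -, q, hq, hqp, -, hqF, hb⟩ :=
    h (e.rs x) (e.rs_memM hx) (e.sa_rs hsa) ((e.norm_rs_le x).trans hn) (F.image e.j) δ hδ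
  refine ⟨fun i => e.ex (p i), e.part hp, e.ex a, ha, e.sa_ex hasa, (e.norm_ex_le a).trans han,
    e.s_ex a, e.ex q, hq, e.proj_ex hqp, e.s_ex q, fun ξ hξ => ?_, ?_⟩
  · have h1 : s - e.ex q = e.ex (1 - q) := by rw [map_sub, e.ex_one]
    rw [h1, ex_apply, e.norm_i]
    exact hqF _ (Finset.mem_image_of_mem _ hξ)
  · rw [e.pin_ex, ← map_sub, ← e.ex_mul, ← e.ex_mul]
    exact (e.norm_ex_le _).trans hb

theorem apC {r : ℕ} {ε : ℝ} {hM : s ∈ M} {hs : s ∈ A} (h : ApC (e.cM M hM) (e.cA A hs) 1 r ε) :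
    ApC M A s r ε := by
  classical
  intro x hx hsa hn F δ hδ
  obtain ⟨p, hp, a, ha, hasa, han, -, w, hw, hwsa, -, hwn, hwF, hb⟩ :=
    h (e.rs x) (e.rs_memM hx) (e.sa_rs hsa) ((e.norm_rs_le x).trans hn) (F.image e.j) δ hδ
  refine ⟨fun i => e.ex (p i), e.part hp, e.ex a, ha, e.sa_ex hasa, (e.norm_ex_le a).trans han,
    e.s_ex a, e.ex w, hw, e.sa_ex hwsa, e.s_ex w, (e.norm_ex_le w).trans hwn, fun ξ hξ => ?_, ?_⟩
  · rw [ex_apply, e.norm_i]
    exact hwF _ (Finset.mem_image_of_mem _ hξ)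
  · rw [e.pin_ex, map_sub, e.rs_ex, ← map_sub]
    exact (e.norm_ex_le _).trans hb

end Emb

theorem exists_emb {s : H →L[ℂ] H} (hs : IsStarProjection s) :
    ∃ (K : Type u) (_ : NormedAddCommGroup K) (_ : InnerProductSpace ℂ K) (_ : CompleteSpace K),
      Nonempty (Emb s K) := by
  obtain ⟨U, hU, rfl⟩ := isStarProjection_iff_eq_starProjection.1 hs
  have hc : CompleteSpace U := by
    have : IsClosed (U : Set H) := by
      rw [← U.orthogonal_orthogonal]
      exact Submodule.isClosed_orthogonal _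
    exact this.completeSpace_coe
  refine ⟨U, inferInstance, inferInstance, hc, ⟨⟨U.subtypeL, U.orthogonalProjectionOnto,
    U.adjoint_subtypeL, fun v => ?_, fun w => rfl⟩⟩⟩
  simp

end CornerA

theorem pavC_exp {r : ℕ} {ε : ℝ}
    (hyp : ∀ (K : Type u) [NormedAddCommGroup K] [InnerProductSpace ℂ K] [CompleteSpace K]
      (M' : VonNeumannAlgebra K) (A' : StarSubalgebra ℂ (K →L[ℂ] K))
      (ω' : (K →L[ℂ] K) →ₗ[ℂ] ℂ), St M' A' ω' → PavC M' A' 1 r ε)
    (hA : Masa M A) {s : H →L[ℂ] H} (hs : PA A s) (hφ : NPos M φ) (hc : Cent M A φ) (h1 : φ s = 1)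
    (hf : ∀ y ∈ M, s * y * s = y → φ (star y * y) = 0 → y = 0) : PavC M A s r ε := by
  obtain ⟨K, _, _, _, ⟨e⟩⟩ := CornerA.exists_emb hs.2
  exact e.pavC (hyp K _ _ _ (e.st hA hs.1 hφ hc h1 hf))

theorem pavC_ne {r : ℕ} {ε : ℝ}
    (hyp : ∀ (K : Type u) [NormedAddCommGroup K] [InnerProductSpace ℂ K] [CompleteSpace K]
      (M' : VonNeumannAlgebra K) (A' : StarSubalgebra ℂ (K →L[ℂ] K)),
      Masa M' A' → NoC M' A' → PavC M' A' 1 r ε)
    (hA : Masa M A) {s : H →L[ℂ] H} (hs : PA A s)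
    (h0 : ∀ φ, NPos M φ → Cent M A φ → φ s = 0) : PavC M A s r ε := by
  obtain ⟨K, _, _, _, ⟨e⟩⟩ := CornerA.exists_emb hs.2
  exact e.pavC (hyp K _ _ (e.masa hA hs.1) (e.noC hA hs.1 h0))

theorem apC_exp {r : ℕ} {ε : ℝ}
    (hyp : ∀ (K : Type u) [NormedAddCommGroup K] [InnerProductSpace ℂ K] [CompleteSpace K]
      (M' : VonNeumannAlgebra K) (A' : StarSubalgebra ℂ (K →L[ℂ] K))
      (ω' : (K →L[ℂ] K) →ₗ[ℂ] ℂ), St M' A' ω' → ApC M' A' 1 r ε)
    (hA : Masa M A) {s : H →L[ℂ] H} (hs : PA A s) (hφ : NPos M φ) (hc : Cent M A φ) (h1 : φ s = 1)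
    (hf : ∀ y ∈ M, s * y * s = y → φ (star y * y) = 0 → y = 0) : ApC M A s r ε := by
  obtain ⟨K, _, _, _, ⟨e⟩⟩ := CornerA.exists_emb hs.2
  exact e.apC (hyp K _ _ _ (e.st hA hs.1 hφ hc h1 hf))

theorem apC_ne {r : ℕ} {ε : ℝ}
    (hyp : ∀ (K : Type u) [NormedAddCommGroup K] [InnerProductSpace ℂ K] [CompleteSpace K]
      (M' : VonNeumannAlgebra K) (A' : StarSubalgebra ℂ (K →L[ℂ] K)),
      Masa M' A' → NoC M' A' → ApC M' A' 1 r ε)
    (hA : Masa M A) {s : H →L[ℂ] H} (hs : PA A s)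
    (h0 : ∀ φ, NPos M φ → Cent M A φ → φ s = 0) : ApC M A s r ε := by
  obtain ⟨K, _, _, _, ⟨e⟩⟩ := CornerA.exists_emb hs.2
  exact e.apC (hyp K _ _ (e.masa hA hs.1) (e.noC hA hs.1 h0))

end Crest.Agent.R109
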