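import Crest.Agent.R109.Part

/-!
# Row 109, task R109-Glue3

Gluing the three corners.  PLAN.  Concatenate the families (`Fin.append`/`Fin.addCases`, the last colour is
`1 - s - t`); `a = a₁ + a₂`, `q = q₁ + q₂`; `q (pin - a) q = q₁ (pin₁ - a₁) q₁ + q₂ (pin₂ - a₂) q₂`, a sum of
operators in orthogonal corners, whose norm is the maximum.  `1 - q = (s - q₁) + (t - q₂) + (1 - s - t)`.
-/

set_option autoImplicit false
set_option linter.unusedSectionVars false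
set_option linter.unusedVariables false

namespace Crest.Agent.R109

open scoped InnerProductSpace ComplexOrder ComplexConjugate
open Filter Topology

universe u

variable {H : Type u} [NormedAddCommGroup H] [InnerProductSpace ℂ H] [CompleteSpace H]
  {M : VonNeumannAlgebra H} {A : StarSubalgebra ℂ (H →L[ℂ] H)}
  {ω φ : (H →L[ℂ] H) →ₗ[ℂ] ℂ} {E : (H →L[ℂ] H) →ₗ[ℂ] (H →L[ℂ] H)}

namespace Glue3A

theorem pa_star {f : H →L[ℂ] H} (hf : PA A f) : star f = f := hf.2.isSelfAdjoint.star_eq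

theorem pa_idem {f : H →L[ℂ] H} (hf : PA A f) : f * f = f := hf.2.isIdempotentElem

theorem right_of_left {s X : H →L[ℂ] H} (hs : IsSelfAdjoint s) (hX : IsSelfAdjoint X)
    (h : s * X = X) : X * s = X := by
  have := congrArg star h
  rwa [star_mul, hs.star_eq, hX.star_eq] at this

theorem zero_symm {s t : H →L[ℂ] H} (hs : IsSelfAdjoint s) (ht : IsSelfAdjoint t)
    (h : s * t = 0) : t * s = 0 := by
  have := congrArg star h
  rwa [star_mul, hs.star_eq, ht.star_eq, star_zero] at this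

theorem mul_zero_of {s t X Y : H →L[ℂ] H} (hst : s * t = 0) (hX : X * s = X) (hY : t * Y = Y) :
    X * Y = 0 := by
  rw [← hX, ← hY, mul_assoc, ← mul_assoc s, hst, zero_mul, mul_zero]

theorem norm_add_le_of {s t X Y : H →L[ℂ] H} (hs : IsSelfAdjoint s) (ht : IsSelfAdjoint t)
    (hst : s * t = 0) (sX : s * X = X) (Xs : X * s = X) (tY : t * Y = Y) (Yt : Y * t = Y) {c : ℝ}
    (hX : ‖X‖ ≤ c) (hY : ‖Y‖ ≤ c) : ‖X + Y‖ ≤ c := by
  have hc : 0 ≤ c := (norm_nonneg _).trans hX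
  have a1 : star X * s = star X := by rw [← hs.star_eq, ← star_mul, sX]
  have a2 : star Y * t = star Y := by rw [← ht.star_eq, ← star_mul, tY]
  have a3 : t * star Y = star Y := by rw [← ht.star_eq, ← star_mul, Yt]
  have b1 : star X * Y = 0 := mul_zero_of hst a1 tY
  have b2 : star Y * X = 0 := mul_zero_of (zero_symm hs ht hst) a2 sX
  have b3 : star X * X * (star Y * Y) = 0 :=
    mul_zero_of hst (by rw [mul_assoc, Xs]) (by rw [← mul_assoc, a3])
  have e : star (X + Y) * (X + Y) = star X * X + star Y * Y := by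
    rw [star_add, add_mul, mul_add, mul_add, b1, b2, add_zero, zero_add]
  have h1 : ‖X + Y‖ * ‖X + Y‖ ≤ c * c := by
    rw [← CStarRing.norm_star_mul_self, e,
      (IsSelfAdjoint.star_mul_self X).norm_add_eq_max (IsSelfAdjoint.star_mul_self Y) b3,
      CStarRing.norm_star_mul_self, CStarRing.norm_star_mul_self]
    exact max_le (mul_self_le_mul_self (norm_nonneg _) hX) (mul_self_le_mul_self (norm_nonneg _) hY)
  exact (mul_self_le_mul_self_iff (norm_nonneg _) hc).2 h1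

section
variable {ι : Type*} [Fintype ι] {p : ι → H →L[ℂ] H} {s : H →L[ℂ] H}

theorem top_mul (hp : IsPartOf A s p) (i : ι) : s * p i = p i := by
  rw [← hp.sum, Finset.sum_mul, Finset.sum_eq_single i]
  · exact pa_idem (hp.pa i)
  · exact fun j _ hj => hp.orth j i hj
  · exact fun h => absurd (Finset.mem_univ i) h

theorem mul_top (hp : IsPartOf A s p) (i : ι) : p i * s = p i :=
  right_of_left hp.pa_top.2.isSelfAdjoint (hp.pa i).2.isSelfAdjoint (top_mul hp i)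

theorem top_mul_pin (hp : IsPartOf A s p) (y : H →L[ℂ] H) : s * pin p y = pin p y := by
  unfold pin
  rw [Finset.mul_sum]
  exact Finset.sum_congr rfl fun i _ => by rw [← mul_assoc, ← mul_assoc, top_mul hp]

theorem pin_mul_top (hp : IsPartOf A s p) (y : H →L[ℂ] H) : pin p y * s = pin p y := by
  unfold pin
  rw [Finset.sum_mul]
  exact Finset.sum_congr rfl fun i _ => by rw [mul_assoc, mul_top hp]

theorem pin_eq_zero (hp : IsPartOf A s p) {z : H →L[ℂ] H} (h : s * z = 0) : pin p z = 0 := by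
  unfold pin
  refine Finset.sum_eq_zero fun i _ => ?_
  rw [← mul_top hp i, mul_assoc (p i) s, h, mul_zero, zero_mul]

end

theorem part_append {s t : H →L[ℂ] H} (hst : s * t = 0) {r₁ r₂ : ℕ} {p : Fin r₁ → H →L[ℂ] H}
    {p' : Fin r₂ → H →L[ℂ] H} (hp : IsPartOf A s p) (hp' : IsPartOf A t p') :
    IsPartOf A (s + t) (Fin.append p p') := by
  have hts := zero_symm hp.pa_top.2.isSelfAdjoint hp'.pa_top.2.isSelfAdjoint hst
  refine ⟨fun i => ?_, fun i j => ?_, ?_⟩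
  · refine Fin.addCases (fun i => ?_) (fun i => ?_) i
    · rw [Fin.append_left]; exact hp.pa i
    · rw [Fin.append_right]; exact hp'.pa i
  · refine Fin.addCases (fun i => ?_) (fun i => ?_) i <;>
      refine Fin.addCases (fun j => ?_) (fun j => ?_) j <;> intro hij <;>
      simp only [Fin.append_left, Fin.append_right]
    · exact hp.orth i j fun e => hij (by rw [e])
    · exact mul_zero_of hst (mul_top hp i) (top_mul hp' j)
    · exact mul_zero_of hts (mul_top hp' i) (top_mul hp j)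
    · exact hp'.orth i j fun e => hij (by rw [e])
  · rw [Fin.sum_univ_add]
    simp only [Fin.append_left, Fin.append_right]
    rw [hp.sum, hp'.sum]

theorem pin_append {r₁ r₂ : ℕ} (p : Fin r₁ → H →L[ℂ] H) (p' : Fin r₂ → H →L[ℂ] H)
    (y : H →L[ℂ] H) : pin (Fin.append p p') y = pin p y + pin p' y := by
  unfold pin
  rw [Fin.sum_univ_add]
  simp only [Fin.append_left, Fin.append_right]

theorem part_one {g : H →L[ℂ] H} (hg : PA A g) : IsPartOf A g fun _ : Fin 1 => g :=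
  ⟨fun _ => hg, fun i j h => absurd (Subsingleton.elim i j) h, by simp⟩

theorem pin_one (g y : H →L[ℂ] H) : pin (fun _ : Fin 1 => g) y = g * y * g := by simp [pin]

theorem rest_pa {s t : H →L[ℂ] H} (hs : PA A s) (ht : PA A t) (hst : s * t = 0) :
    PA A (1 - s - t) := by
  rw [sub_sub]; exact (PA.add hs ht hst).compl

theorem s_rest {s t : H →L[ℂ] H} (hs : PA A s) (hst : s * t = 0) : s * (1 - s - t) = 0 := by
  rw [mul_sub, mul_sub, mul_one, pa_idem hs, hst, sub_self, sub_zero]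

theorem t_rest {s t : H →L[ℂ] H} (ht : PA A t) (hts : t * s = 0) : t * (1 - s - t) = 0 := by
  rw [mul_sub, mul_sub, mul_one, pa_idem ht, hts, sub_zero, sub_self]

theorem part3 {s t : H →L[ℂ] H} (hs : PA A s) (ht : PA A t) (hst : s * t = 0) {r₁ r₂ : ℕ}
    {p : Fin r₁ → H →L[ℂ] H} {p' : Fin r₂ → H →L[ℂ] H} (hp : IsPartOf A s p)
    (hp' : IsPartOf A t p') :
    IsPartOf A 1 (Fin.append (Fin.append p p') fun _ : Fin 1 => 1 - s - t) := by
  have hts := zero_symm hs.2.isSelfAdjoint ht.2.isSelfAdjoint hst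
  have h := part_append (s := s + t) (t := 1 - s - t)
    (by rw [add_mul, s_rest hs hst, t_rest ht hts, add_zero]) (part_append hst hp hp')
    (part_one (rest_pa hs ht hst))
  have e : s + t + (1 - s - t) = 1 := by abel
  rwa [e] at h

theorem part_zero (r : ℕ) : IsPartOf A 0 fun _ : Fin r => (0 : H →L[ℂ] H) :=
  ⟨fun _ => PA.zero, fun _ _ _ => mul_zero _, by simp⟩

end Glue3A

open Glue3A

theorem pavC_zero (hA : Masa M A) (r : ℕ) {ε : ℝ} (hε : 0 ≤ ε) : PavC M A 0 r ε := by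
  intro x _ _ _ F δ hδ
  refine ⟨fun _ => 0, part_zero r, 0, zero_mem _, IsSelfAdjoint.zero _, by simp, by simp,
    0, zero_mem _, IsStarProjection.zero _, by simp, fun ξ _ => by simpa using hδ, by simpa using hε⟩

theorem glue3 (hA : Masa M A) {s t : H →L[ℂ] H} (hs : PA A s) (ht : PA A t) (hst : s * t = 0)
    {r₁ r₂ : ℕ} {ε : ℝ} (h₁ : PavC M A s r₁ ε) (h₂ : PavC M A t r₂ ε)
    {x : H →L[ℂ] H} (hxM : x ∈ M) (hx : IsSelfAdjoint x) (hn : ‖x‖ ≤ 1) (F : Finset H) {δ : ℝ}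
    (hδ : 0 < δ) (hF : ∀ ξ ∈ F, ‖(1 - s - t) ξ‖ < δ / 3) :
    ∃ p : Fin (r₁ + r₂ + 1) → H →L[ℂ] H, IsPartOf A 1 p ∧
      ∃ a ∈ A, IsSelfAdjoint a ∧ ‖a‖ ≤ 1 ∧
        ∃ q ∈ M, IsStarProjection q ∧ (∀ ξ ∈ F, ‖(1 - q) ξ‖ < δ) ∧ ‖q * (pin p x - a) * q‖ ≤ ε := by
  obtain ⟨p₁, hp₁, a₁, ha₁, sa₁, na₁, la₁, q₁, hq₁, pq₁, lq₁, F₁, N₁⟩ :=
    h₁ x hxM hx hn F (δ / 3) (by linarith)
  obtain ⟨p₂, hp₂, a₂, ha₂, sa₂, na₂, la₂, q₂, hq₂, pq₂, lq₂, F₂, N₂⟩ :=
    h₂ x hxM hx hn F (δ / 3) (by linarith)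
  have ss := hs.2.isSelfAdjoint
  have st := ht.2.isSelfAdjoint
  have hts := zero_symm ss st hst
  have ra₁ := right_of_left ss sa₁ la₁
  have ra₂ := right_of_left st sa₂ la₂
  have rq₁ := right_of_left ss pq₁.isSelfAdjoint lq₁
  have rq₂ := right_of_left st pq₂.isSelfAdjoint lq₂
  refine ⟨_, part3 hs ht hst hp₁ hp₂, a₁ + a₂, add_mem ha₁ ha₂, sa₁.add sa₂,
    norm_add_le_of ss st hst la₁ ra₁ la₂ ra₂ na₁ na₂, q₁ + q₂, add_mem hq₁ hq₂,
    pq₁.add pq₂ (mul_zero_of hst rq₁ lq₂), fun ξ hξ => ?_, ?_⟩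
  · have e : 1 - (q₁ + q₂) = (s - q₁) + (t - q₂) + (1 - s - t) := by abel
    rw [e, ContinuousLinearMap.add_apply, ContinuousLinearMap.add_apply]
    have := norm_add₃_le (a := (s - q₁) ξ) (b := (t - q₂) ξ) (c := (1 - s - t) ξ)
    linarith [F₁ ξ hξ, F₂ ξ hξ, hF ξ hξ]
  · rw [pin_append, pin_append, pin_one]
    set X := pin p₁ x - a₁ with hX
    set Y := pin p₂ x - a₂ with hY
    set g := 1 - s - t with hg
    have lX : s * X = X := by rw [hX, mul_sub, top_mul_pin hp₁, la₁]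
    have rX : X * s = X := by rw [hX, sub_mul, pin_mul_top hp₁, ra₁]
    have lY : t * Y = Y := by rw [hY, mul_sub, top_mul_pin hp₂, la₂]
    have rY : Y * t = Y := by rw [hY, sub_mul, pin_mul_top hp₂, ra₂]
    have z1 : q₂ * X = 0 := mul_zero_of hts rq₂ lX
    have z2 : q₁ * Y = 0 := mul_zero_of hst rq₁ lY
    have z3 : X * q₂ = 0 := mul_zero_of hst rX lq₂
    have z4 : Y * q₁ = 0 := mul_zero_of hts rY lq₁
    have z5 : q₁ * g = 0 := by rw [← rq₁, mul_assoc, s_rest hs hst, mul_zero]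
    have z6 : q₂ * g = 0 := by rw [← rq₂, mul_assoc, t_rest ht hts, mul_zero]
    have e1 : pin p₁ x + pin p₂ x + g * x * g - (a₁ + a₂) = X + Y + g * x * g := by
      rw [hX, hY]; abel
    have e2 : (q₁ + q₂) * (X + Y + g * x * g) * (q₁ + q₂) = q₁ * X * q₁ + q₂ * Y * q₂ := by
      have : (q₁ + q₂) * (X + Y + g * x * g) * (q₁ + q₂) = q₁ * X * q₁ + q₂ * Y * q₂ +
          (q₁ * (X * q₂) + q₂ * (Y * q₁) + (q₂ * X + q₁ * Y) * (q₁ + q₂) +
            (q₁ * g + q₂ * g) * x * g * (q₁ + q₂)) := by noncomm_ring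
      rw [this, z1, z2, z3, z4, z5, z6]; simp
    rw [e1, e2]
    refine norm_add_le_of ss st hst ?_ ?_ ?_ ?_ N₁ N₂
    · rw [← mul_assoc, ← mul_assoc, lq₁]
    · rw [mul_assoc, rq₁]
    · rw [← mul_assoc, ← mul_assoc, lq₂]
    · rw [mul_assoc, rq₂]

theorem apC_zero (hA : Masa M A) (r : ℕ) {ε : ℝ} (hε : 0 ≤ ε) : ApC M A 0 r ε := by
  intro x _ _ _ F δ hδ
  refine ⟨fun _ => 0, part_zero r, 0, zero_mem _, IsSelfAdjoint.zero _, by simp, by simp,
    0, zero_mem _, IsSelfAdjoint.zero _, by simp, by simp, fun ξ _ => by simpa using hδ,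
    by simpa [pin] using hε⟩

/-- the same for approximate paving: `w = w₁ + w₂ + g x g`, `g = 1 - s - t` -/
theorem glue3_ap (hA : Masa M A) {s t : H →L[ℂ] H} (hs : PA A s) (ht : PA A t) (hst : s * t = 0)
    {r₁ r₂ : ℕ} {ε : ℝ} (h₁ : ApC M A s r₁ ε) (h₂ : ApC M A t r₂ ε)
    {x : H →L[ℂ] H} (hxM : x ∈ M) (hx : IsSelfAdjoint x) (hn : ‖x‖ ≤ 1) (F : Finset H) {δ : ℝ}
    (hδ : 0 < δ) (hF : ∀ ξ ∈ F, ‖(1 - s - t) ξ‖ < δ / 3) :
    ∃ p : Fin (r₁ + r₂ + 1) → H →L[ℂ] H, IsPartOf A 1 p ∧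
      ∃ a ∈ A, IsSelfAdjoint a ∧ ‖a‖ ≤ 1 ∧
        ∃ w ∈ M, IsSelfAdjoint w ∧ ‖w‖ ≤ 2 ∧ (∀ ξ ∈ F, ‖w ξ‖ < δ) ∧ ‖pin p (x - w) - a‖ ≤ ε := by
  obtain ⟨p₁, hp₁, a₁, ha₁, sa₁, na₁, la₁, w₁, hw₁, sw₁, lw₁, nw₁, F₁, N₁⟩ :=
    h₁ x hxM hx hn F (δ / 3) (by linarith)
  obtain ⟨p₂, hp₂, a₂, ha₂, sa₂, na₂, la₂, w₂, hw₂, sw₂, lw₂, nw₂, F₂, N₂⟩ :=
    h₂ x hxM hx hn F (δ / 3) (by linarith)
  have ss := hs.2.isSelfAdjoint
  have st := ht.2.isSelfAdjoint
  have hts := zero_symm ss st hst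
  have ra₁ := right_of_left ss sa₁ la₁
  have ra₂ := right_of_left st sa₂ la₂
  have rw₁ := right_of_left ss sw₁ lw₁
  have rw₂ := right_of_left st sw₂ lw₂
  have hg := rest_pa hs ht hst
  have sg := s_rest hs hst
  have tg := t_rest ht hts
  set g := 1 - s - t with hgdef
  have gs := zero_symm ss hg.2.isSelfAdjoint sg
  have gt := zero_symm st hg.2.isSelfAdjoint tg
  have hgM : g ∈ M := hA.le _ hg.1
  have ngx : ‖g * x‖ ≤ 1 := (norm_mul_le _ _).trans
    (mul_le_one₀ hg.norm_le (norm_nonneg _) hn)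
  refine ⟨_, part3 hs ht hst hp₁ hp₂, a₁ + a₂, add_mem ha₁ ha₂, sa₁.add sa₂,
    norm_add_le_of ss st hst la₁ ra₁ la₂ ra₂ na₁ na₂, w₁ + w₂ + g * x * g,
    add_mem (add_mem hw₁ hw₂) (mul_mem (mul_mem hgM hxM) hgM), (sw₁.add sw₂).add ?_, ?_,
    fun ξ hξ => ?_, ?_⟩
  · have := hx.conjugate g
    rwa [pa_star hg] at this
  · refine norm_add_le_of (ss.add st) hg.2.isSelfAdjoint (by rw [add_mul, sg, tg, add_zero])
      ?_ ?_ ?_ ?_ (norm_add_le_of ss st hst lw₁ rw₁ lw₂ rw₂ nw₁ nw₂) ?_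
    · rw [add_mul, mul_add, mul_add, lw₁, lw₂, mul_zero_of (X := s) hst (pa_idem hs) lw₂,
        mul_zero_of (X := t) hts (pa_idem ht) lw₁, add_zero, zero_add]
    · rw [add_mul, mul_add, mul_add, rw₁, rw₂, mul_zero_of hst rw₁ (pa_idem ht),
        mul_zero_of hts rw₂ (pa_idem hs), add_zero, zero_add]
    · rw [← mul_assoc, ← mul_assoc, pa_idem hg]
    · rw [mul_assoc, pa_idem hg]
    · exact (norm_mul_le _ _).trans ((mul_le_one₀ ngx (norm_nonneg _) hg.norm_le).trans one_le_two)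
  · rw [ContinuousLinearMap.add_apply, ContinuousLinearMap.add_apply]
    have h1 := norm_add₃_le (a := w₁ ξ) (b := w₂ ξ) (c := (g * x * g) ξ)
    have h2 : ‖(g * x * g) ξ‖ ≤ ‖g ξ‖ := by
      rw [ContinuousLinearMap.mul_apply]
      exact ((g * x).le_opNorm _).trans (mul_le_of_le_one_left (norm_nonneg _) ngx)
    linarith [F₁ ξ hξ, F₂ ξ hξ, hF ξ hξ]
  · rw [pin_append, pin_append, pin_one]
    have e1 : pin p₁ (x - (w₁ + w₂ + g * x * g)) = pin p₁ (x - w₁) := by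
      have : x - (w₁ + w₂ + g * x * g) = x - w₁ - (w₂ + g * x * g) := by abel
      rw [this, pin_sub (x - w₁), pin_eq_zero hp₁ (z := w₂ + g * x * g), sub_zero]
      rw [mul_add, mul_zero_of (X := s) hst (pa_idem hs) lw₂, ← mul_assoc, ← mul_assoc, sg]
      simp
    have e2 : pin p₂ (x - (w₁ + w₂ + g * x * g)) = pin p₂ (x - w₂) := by
      have : x - (w₁ + w₂ + g * x * g) = x - w₂ - (w₁ + g * x * g) := by abel
      rw [this, pin_sub (x - w₂), pin_eq_zero hp₂ (z := w₁ + g * x * g), sub_zero]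
      rw [mul_add, mul_zero_of (X := t) hts (pa_idem ht) lw₁, ← mul_assoc, ← mul_assoc, tg]
      simp
    have e3 : g * (x - (w₁ + w₂ + g * x * g)) * g = 0 := by
      have : g * (x - (w₁ + w₂ + g * x * g)) * g =
          g * x * g - (g * g) * x * (g * g) - (g * w₁ + g * w₂) * g := by noncomm_ring
      rw [this, pa_idem hg, mul_zero_of (X := g) gs (pa_idem hg) lw₁,
        mul_zero_of (X := g) gt (pa_idem hg) lw₂]
      simp
    rw [e1, e2, e3]
    have e4 : pin p₁ (x - w₁) + pin p₂ (x - w₂) + 0 - (a₁ + a₂) =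
        (pin p₁ (x - w₁) - a₁) + (pin p₂ (x - w₂) - a₂) := by abel
    rw [e4]
    refine norm_add_le_of ss st hst ?_ ?_ ?_ ?_ N₁ N₂
    · rw [mul_sub, top_mul_pin hp₁, la₁]
    · rw [sub_mul, pin_mul_top hp₁, ra₁]
    · rw [mul_sub, top_mul_pin hp₂, la₂]
    · rw [sub_mul, pin_mul_top hp₂, ra₂]

end Crest.Agent.R109
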