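import Crest.Agent.R109.MinMax

/-!
# Row 109, task R109-NEAp

Approximate paving without normal central functionals.  PLAN.  `q₀, P₀` from `lemmaS` with a tiny `δ'`.  For a
uniformly random `c : P₀.cells → Fin r`, `p j = ∑_{c e = j} e`, `w j = p j - 1/r = ∑_e (1[c e = j] - 1/r) e` has
`av ‖q₀ w j ξ‖² ≤ ∑_e ‖q₀ e ξ‖² ≤ δ' ‖ξ‖²` (independent centred coefficients, `sum_norm_sq_le`); fix a good `c`.
`h = ∑_j (q₀ w j q₀)²`, `g` from `spec_proj h (1/r²)` (commutes with `q₀`), `q = q₀ g`: `‖q w j q‖ ≤ 1/r`, so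
`‖q p j‖² = ‖q p j q‖ ≤ 2/r`, and `‖(1 - g) ξ‖² ≤ r² ⟪ξ, h ξ⟫` is small.  Take `a = 0`, `w = (1 - q) x (1 - q)`:
`x - w = x q + q x (1 - q)`, `‖p j (x - w) p j‖ ≤ 2 ‖q p j‖`, and the norm of `pin` is the maximum over `j`.
-/

set_option autoImplicit false
set_option linter.unusedSectionVars false
set_option linter.unusedVariables false

namespace Crest.Agent.R109

open scoped InnerProductSpace ComplexOrder ComplexConjugate
open Filter Topology

universe u

variable {H : Type u} [NormedAddCommGroup H] [InnerProductSpace ℂ H] [CompleteSpace H]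
  {M : VonNeumannAlgebra H} {A : StarSubalgebra ℂ (H →L[ℂ] H)}
  {ω φ : (H →L[ℂ] H) →ₗ[ℂ] ℂ} {E : (H →L[ℂ] H) →ₗ[ℂ] (H →L[ℂ] H)}

namespace NEApA

/-- derandomised colouring -/
theorem exists_col {ι κ : Type*} {r : ℕ} (hr : 0 < r) (F : Finset κ) (v : ι → κ → H) (s : Finset ι) :
    ∃ c : ι → Fin r, ∑ ξ ∈ F, ∑ j : Fin r,
      ‖∑ e ∈ s, ((if c e = j then (1 : ℝ) else 0) - (r : ℝ)⁻¹) • v e ξ‖ ^ 2 ≤
        ∑ ξ ∈ F, ∑ e ∈ s, ‖v e ξ‖ ^ 2 := by
  classical
  have hrR : (0 : ℝ) < r := by exact_mod_cast hr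
  induction s using Finset.induction_on with
  | empty => exact ⟨fun _ => ⟨0, hr⟩, by simp⟩
  | insert a s ha ih =>
    obtain ⟨c, hc⟩ := ih
    set S : κ → Fin r → H := fun ξ j =>
      ∑ e ∈ s, ((if c e = j then (1 : ℝ) else 0) - (r : ℝ)⁻¹) • v e ξ with hS
    set α : Fin r → ℝ := fun j => ∑ ξ ∈ F, RCLike.re ⟪v a ξ, S ξ j⟫_ℂ with hα
    obtain ⟨i, hi⟩ : ∃ i : Fin r, α i ≤ (r : ℝ)⁻¹ * ∑ j, α j := by
      have : Nonempty (Fin r) := ⟨⟨0, hr⟩⟩
      obtain ⟨i, -, hi⟩ := Finset.exists_le_of_sum_le (s := Finset.univ) (f := α)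
        (g := fun _ => (r : ℝ)⁻¹ * ∑ j, α j) Finset.univ_nonempty (by
          rw [Finset.sum_const, Finset.card_univ, Fintype.card_fin, nsmul_eq_mul, ← mul_assoc,
            mul_inv_cancel₀ hrR.ne', one_mul])
      exact ⟨i, hi⟩
    refine ⟨Function.update c a i, ?_⟩
    have e1 : ∀ ξ j, ∑ e ∈ insert a s,
        ((if Function.update c a i e = j then (1 : ℝ) else 0) - (r : ℝ)⁻¹) • v e ξ =
        ((if i = j then (1 : ℝ) else 0) - (r : ℝ)⁻¹) • v a ξ + S ξ j := by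
      intro ξ j
      rw [Finset.sum_insert ha, Function.update_self]
      congr 1
      refine Finset.sum_congr rfl fun e he => ?_
      rw [Function.update_of_ne (fun h : e = a => ha (h ▸ he))]
    have e2 : ∀ (t : ℝ) (x y : H), ‖t • x + y‖ ^ 2 =
        t ^ 2 * ‖x‖ ^ 2 + 2 * (t * RCLike.re ⟪x, y⟫_ℂ) + ‖y‖ ^ 2 := by
      intro t x y
      rw [@norm_add_sq ℂ, norm_smul, mul_pow, Real.norm_eq_abs, sq_abs,
        RCLike.real_smul_eq_coe_smul (K := ℂ), inner_smul_left]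
      simp
    have e3 : ∑ j : Fin r, ((if i = j then (1 : ℝ) else 0) - (r : ℝ)⁻¹) ^ 2 ≤ 1 := by
      have : ∀ j : Fin r, ((if i = j then (1 : ℝ) else 0) - (r : ℝ)⁻¹) ^ 2 =
          (if i = j then (1 - 2 * (r : ℝ)⁻¹) else 0) + (r : ℝ)⁻¹ ^ 2 := by
        intro j; split_ifs <;> ring
      simp only [this, Finset.sum_add_distrib, Finset.sum_ite_eq, Finset.mem_univ, if_true,
        Finset.sum_const, Finset.card_univ, Fintype.card_fin, nsmul_eq_mul]
      have h1 : (r : ℝ) * (r : ℝ)⁻¹ ^ 2 = (r : ℝ)⁻¹ := by field_simp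
      have h2 : (0 : ℝ) < (r : ℝ)⁻¹ := by positivity
      rw [h1]; linarith
    have e4 : ∑ ξ ∈ F, ∑ j : Fin r, ((if i = j then (1 : ℝ) else 0) - (r : ℝ)⁻¹) *
        RCLike.re ⟪v a ξ, S ξ j⟫_ℂ = α i - (r : ℝ)⁻¹ * ∑ j, α j := by
      rw [Finset.sum_comm]
      simp only [← Finset.mul_sum]
      change ∑ j : Fin r, ((if i = j then (1 : ℝ) else 0) - (r : ℝ)⁻¹) * α j = _
      simp only [sub_mul, Finset.sum_sub_distrib, ite_mul, one_mul, zero_mul, Finset.sum_ite_eq,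
        Finset.mem_univ, if_true, Finset.mul_sum]
    simp only [e1, e2, Finset.sum_insert ha, Finset.sum_add_distrib, ← Finset.mul_sum,
      ← Finset.sum_mul]
    rw [e4]
    have h5 : 0 ≤ ∑ ξ ∈ F, ‖v a ξ‖ ^ 2 := Finset.sum_nonneg fun _ _ => by positivity
    have h6 := mul_le_mul_of_nonneg_right e3 h5
    linarith

theorem vec_le {a b : H →L[ℂ] H} (h : a ≤ b) (ξ : H) :
    RCLike.re ⟪ξ, a ξ⟫_ℂ ≤ RCLike.re ⟪ξ, b ξ⟫_ℂ := by
  have h1 := ((ContinuousLinearMap.le_def a b).1 h).re_inner_nonneg_right ξ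
  rw [_root_.sub_apply, inner_sub_right, map_sub] at h1
  linarith

theorem vec_sq (y : H →L[ℂ] H) (ξ : H) : RCLike.re ⟪ξ, (star y * y) ξ⟫_ℂ = ‖y ξ‖ ^ 2 := by
  rw [ContinuousLinearMap.apply_norm_sq_eq_inner_adjoint_right]; rfl

/-- the norm of a pinching is the maximum of the norms of the blocks -/
theorem pin_norm {ι : Type*} [Fintype ι] {p : ι → H →L[ℂ] H} (hp : IsPartOf A 1 p)
    (y : H →L[ℂ] H) {ε : ℝ} (hε : 0 ≤ ε) (h : ∀ i, ‖p i * y * p i‖ ≤ ε) : ‖pin p y‖ ≤ ε := by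
  classical
  have hs : ∀ i, star (p i) = p i := fun i => (hp.pa i).2.isSelfAdjoint.star_eq
  have hi : ∀ i, p i * p i = p i := fun i => (hp.pa i).2.isIdempotentElem
  have e1 : star (pin p y) * pin p y = ∑ i, star (p i * y * p i) * (p i * y * p i) := by
    rw [pin, star_sum, Finset.sum_mul]
    refine Finset.sum_congr rfl fun i _ => ?_
    rw [Finset.mul_sum, Finset.sum_eq_single i]
    · intro j _ hj
      have : p i * p j = 0 := hp.orth i j hj.symm
      calc star (p i * y * p i) * (p j * y * p j)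
          = p i * star y * (p i * p j) * y * p j := by simp only [star_mul, hs, mul_assoc]
        _ = 0 := by rw [this]; simp
    · simp
  have h2 : ∀ i, star (p i * y * p i) * (p i * y * p i) ≤ (ε ^ 2) • p i := by
    intro i
    set T := p i * y * p i with hT
    have hTp : T * p i = T := by rw [hT, mul_assoc, hi]
    have h3 : star T * T ≤ algebraMap ℝ (H →L[ℂ] H) (ε ^ 2) := by
      refine (IsSelfAdjoint.le_algebraMap_norm_self (IsSelfAdjoint.star_mul_self T)).trans ?_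
      rw [CStarRing.norm_star_mul_self, Algebra.algebraMap_eq_smul_one,
        Algebra.algebraMap_eq_smul_one]
      refine smul_le_smul_of_nonneg_right ?_ zero_le_one
      rw [sq]; exact mul_self_le_mul_self (norm_nonneg _) (h i)
    have h4 := star_left_conjugate_le_conjugate h3 (p i)
    rw [Algebra.algebraMap_eq_smul_one, mul_smul_comm, smul_mul_assoc, mul_one, hs, hi] at h4
    have e : p i * (star T * T) * p i = star T * T := by
      calc p i * (star T * T) * p i = star (T * p i) * (T * p i) := by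
            simp only [star_mul, hs, mul_assoc]
        _ = _ := by rw [hTp]
    rwa [e] at h4
  have h5 : star (pin p y) * pin p y ≤ (ε ^ 2) • (1 : H →L[ℂ] H) := by
    rw [e1, ← hp.sum, Finset.smul_sum]
    exact Finset.sum_le_sum fun i _ => h2 i
  have h6 := ProjA.norm_le_of_le (by positivity) (IsStarProjection.one _) (star_mul_self_nonneg _) h5
  rw [CStarRing.norm_star_mul_self] at h6
  exact (abs_le_of_sq_le_sq' (by rw [sq]; exact h6) hε).2

/-- merging the cells of a partition -/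
theorem merge {ι : Type*} [Fintype ι] {e : ι → H →L[ℂ] H} (he : IsPartOf A 1 e) {r : ℕ}
    (c : ι → Fin r) : IsPartOf A 1 fun j => ∑ i ∈ Finset.univ.filter (fun i => c i = j), e i := by
  refine ⟨fun j => PA.sum _ (fun i _ => he.pa i) fun i _ k _ hik => he.orth i k hik,
    fun j k hjk => ?_, ?_⟩
  · rw [Finset.sum_mul_sum]
    refine Finset.sum_eq_zero fun i hi => Finset.sum_eq_zero fun l hl => he.orth i l ?_
    rintro rfl
    exact hjk ((Finset.mem_filter.1 hi).2.symm.trans (Finset.mem_filter.1 hl).2)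
  · rw [Finset.sum_fiberwise, he.sum]

/-- a large projection that is almost orthogonal to every cell -/
theorem exists_q {r : ℕ} (hr : 0 < r) (hA : Masa M A) (hN : NoC M A) (F : Finset H) {δ : ℝ}
    (hδ : 0 < δ) : ∃ p : Fin r → H →L[ℂ] H, IsPartOf A 1 p ∧ ∃ q ∈ M, IsStarProjection q ∧
      (∀ ξ ∈ F, ‖(1 - q) ξ‖ < δ) ∧ ∀ j, ‖p j * q‖ ^ 2 ≤ 2 / r := by
  classical
  have hrR : (0 : ℝ) < r := by exact_mod_cast hr
  set B : ℝ := ∑ ξ ∈ F, ‖ξ‖ ^ 2 with hB
  have hB0 : 0 ≤ B := Finset.sum_nonneg fun _ _ => by positivity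
  set δ' : ℝ := min (δ / 4) (δ ^ 2 / (4 * (r ^ 2 * B + 1))) with hδ'
  have hδ'0 : 0 < δ' := lt_min (by positivity) (by positivity)
  obtain ⟨q₀, hq₀M, hq₀, hF, P₀, hP₀⟩ := lemmaS hA hN F hδ'0
  have he := P₀.isPartOf
  rw [EP_eq_pin] at hP₀
  set e : P₀.cells → H →L[ℂ] H := fun p => (p : H →L[ℂ] H) with hed
  have hq₀s : star q₀ = q₀ := hq₀.isSelfAdjoint.star_eq
  have hq₀i : q₀ * q₀ = q₀ := hq₀.isIdempotentElem
  obtain ⟨c, hc⟩ := exists_col hr F (fun i ξ => q₀ (e i (q₀ ξ))) Finset.univ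
  have hp := merge he c
  set p : Fin r → H →L[ℂ] H := fun j => ∑ i ∈ Finset.univ.filter (fun i => c i = j), e i with hpd
  set y : Fin r → H →L[ℂ] H := fun j => q₀ * p j * q₀ - (r : ℝ)⁻¹ • q₀ with hy
  have hyv : ∀ j ξ, y j ξ =
      ∑ i, ((if c i = j then (1 : ℝ) else 0) - (r : ℝ)⁻¹) • q₀ (e i (q₀ ξ)) := by
    intro j ξ
    have h1 : y j = ∑ i, ((if c i = j then (1 : ℝ) else 0) - (r : ℝ)⁻¹) • (q₀ * e i * q₀) := by
      simp only [sub_smul, Finset.sum_sub_distrib, ← Finset.smul_sum, ← Finset.sum_mul,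
        ← Finset.mul_sum, he.sum, mul_one, hq₀i, hy, hpd]
      congr 1
      rw [Finset.sum_filter, Finset.mul_sum, Finset.sum_mul]
      refine Finset.sum_congr rfl fun i _ => ?_
      split_ifs <;> simp
    rw [h1, _root_.sum_apply]
    rfl
  have hsum : ∑ ξ ∈ F, ∑ j, ‖y j ξ‖ ^ 2 ≤ δ' * B := by
    simp only [hyv]
    refine hc.trans ?_
    rw [hB, Finset.mul_sum]
    refine Finset.sum_le_sum fun ξ _ => (he.sum_norm_sq_le q₀ (q₀ ξ)).trans ?_
    rw [hq₀s, hq₀i]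
    refine mul_le_mul hP₀ (pow_le_pow_left₀ (norm_nonneg _) ?_ 2) (by positivity) hδ'0.le
    exact (q₀.le_opNorm ξ).trans (mul_le_of_le_one_left (norm_nonneg _) (hq₀.norm_le q₀))
  have hyM : ∀ j, y j ∈ M := fun j => sub_mem
    (mul_mem (mul_mem hq₀M (hA.le _ (hp.pa j).1)) hq₀M) (by
      rw [RCLike.real_smul_eq_coe_smul (K := ℂ)]; exact M.toStarSubalgebra.smul_mem hq₀M _)
  have hyq : ∀ j, y j * q₀ = y j := fun j => by
    simp only [hy, sub_mul, mul_assoc, hq₀i, smul_mul_assoc]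
  have hqy : ∀ j, q₀ * y j = y j := fun j => by
    simp only [hy, mul_sub, ← mul_assoc, hq₀i, mul_smul_comm]
  have hqy' : ∀ j, q₀ * star (y j) = star (y j) := fun j => by
    have := congrArg star (hyq j)
    rwa [star_mul, hq₀s] at this
  set h : H →L[ℂ] H := ∑ j, star (y j) * y j with hh
  have hh0 : 0 ≤ h := Finset.sum_nonneg fun j _ => star_mul_self_nonneg _
  have hhM : h ∈ M := sum_mem fun j _ => mul_mem (star_mem (hyM j)) (hyM j)
  obtain ⟨g, hg, hgc, hg1, hg2⟩ := spec_proj (IsSelfAdjoint.of_nonneg hh0) ((r : ℝ)⁻¹ ^ 2)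
  have hgM : g ∈ M := mem_of_comm hhM hgc
  have hgs : star g = g := hg.isSelfAdjoint.star_eq
  have hgi : g * g = g := hg.isIdempotentElem
  have hqg : q₀ * g = g * q₀ := hgc q₀ (by
    rw [hh, Finset.mul_sum, Finset.sum_mul]
    exact Finset.sum_congr rfl fun j _ => by rw [← mul_assoc, hqy', mul_assoc, hyq])
  have hhg : h * g = g * h := hgc h rfl
  have hq : IsStarProjection (q₀ * g) := hq₀.mul hg hqg
  refine ⟨p, hp, q₀ * g, mul_mem hq₀M hgM, hq, fun ξ hξ => ?_, fun j => ?_⟩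
  · have h1 : (r : ℝ)⁻¹ ^ 2 • (star (1 - g) * (1 - g)) ≤ h := by
      rw [hg.one_sub.isSelfAdjoint.star_eq, hg.one_sub.isIdempotentElem]
      refine hg2.trans ?_
      have e1 : (1 - g) * h * (1 - g) = h - g * h * g := by
        have e2 : g * h * g = h * g := by rw [← hhg, mul_assoc, hgi]
        rw [sub_mul, one_mul, mul_sub, mul_one, sub_mul, e2, sub_self, sub_zero, hhg]
      rw [e1]
      exact sub_le_self _ (hg.isSelfAdjoint.conjugate_nonneg hh0)
    have h2 := vec_le h1 ξ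
    rw [hh, _root_.sum_apply, inner_sum, map_sum, _root_.smul_apply,
      RCLike.real_smul_eq_coe_smul (K := ℂ), inner_smul_right, RCLike.re_ofReal_mul, vec_sq] at h2
    simp only [vec_sq] at h2
    have h3 : ∑ j, ‖y j ξ‖ ^ 2 ≤ δ' * B :=
      (Finset.single_le_sum (f := fun ξ => ∑ j, ‖y j ξ‖ ^ 2)
        (fun _ _ => Finset.sum_nonneg fun _ _ => by positivity) hξ).trans hsum
    have h4 : ‖(1 - g) ξ‖ ^ 2 ≤ (δ / 2) ^ 2 := by
      have h5 : ‖(1 - g) ξ‖ ^ 2 ≤ r ^ 2 * (δ' * B) := by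
        have := mul_le_mul_of_nonneg_left (h2.trans h3) (by positivity : (0 : ℝ) ≤ r ^ 2)
        rwa [← mul_assoc, ← mul_pow, mul_inv_cancel₀ hrR.ne', one_pow, one_mul] at this
      have h6 : δ' ≤ δ ^ 2 / (4 * (r ^ 2 * B + 1)) := min_le_right _ _
      rw [le_div_iff₀ (by positivity)] at h6
      nlinarith
    have h7 : ‖(1 - g) ξ‖ ≤ δ / 2 := (abs_le_of_sq_le_sq' h4 (by positivity)).2
    have e3 : (1 - q₀ * g) ξ = (1 - q₀) ξ + q₀ ((1 - g) ξ) := by
      have : 1 - q₀ * g = (1 - q₀) + q₀ * (1 - g) := by noncomm_ring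
      rw [this]; rfl
    have h8 : ‖q₀ ((1 - g) ξ)‖ ≤ ‖(1 - g) ξ‖ :=
      (q₀.le_opNorm _).trans (mul_le_of_le_one_left (norm_nonneg _) (hq₀.norm_le q₀))
    have h9 : δ' ≤ δ / 4 := min_le_left _ _
    have h10 := hF ξ hξ
    rw [e3]
    refine (norm_add_le _ _).trans_lt ?_
    linarith
  · have hps : star (p j) = p j := (hp.pa j).2.isSelfAdjoint.star_eq
    have hpi : p j * p j = p j := (hp.pa j).2.isIdempotentElem
    have h1 : star (y j * g) * (y j * g) ≤ (r : ℝ)⁻¹ ^ 2 • g := by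
      refine le_trans ?_ hg1
      have h2 : star (y j) * y j ≤ h :=
        Finset.single_le_sum (f := fun j => star (y j) * y j)
          (fun _ _ => star_mul_self_nonneg _) (Finset.mem_univ j)
      have h3 := hg.isSelfAdjoint.conjugate_le_conjugate h2
      rw [star_mul, hgs]
      simpa only [mul_assoc] using h3
    have h2 := ProjA.norm_le_of_le (by positivity) hg (star_mul_self_nonneg _) h1
    rw [CStarRing.norm_star_mul_self] at h2
    have h3 : ‖y j * g‖ ≤ (r : ℝ)⁻¹ :=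
      (abs_le_of_sq_le_sq' (by rw [sq]; exact h2) (by positivity)).2
    have e1 : star (p j * (q₀ * g)) * (p j * (q₀ * g)) =
        g * (y j * g) + (r : ℝ)⁻¹ • (q₀ * g) := by
      have e2 : g * (q₀ * g) = q₀ * g := by rw [← mul_assoc, ← hqg, mul_assoc, hgi]
      simp only [star_mul, hps, hq₀s, hgs, hy, sub_mul, mul_sub, smul_mul_assoc, mul_smul_comm, e2,
        sub_add_cancel, mul_assoc]
      rw [← mul_assoc (p j), hpi]
    rw [sq, ← CStarRing.norm_star_mul_self, e1]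
    refine (norm_add_le _ _).trans ?_
    have h4 : ‖g * (y j * g)‖ ≤ (r : ℝ)⁻¹ :=
      (norm_mul_le _ _).trans ((mul_le_of_le_one_left (norm_nonneg _) (hg.norm_le g)).trans h3)
    have h5 : ‖(r : ℝ)⁻¹ • (q₀ * g)‖ ≤ (r : ℝ)⁻¹ := by
      rw [norm_smul, Real.norm_of_nonneg (by positivity)]
      exact mul_le_of_le_one_right (by positivity) (hq.norm_le _)
    rw [div_eq_mul_inv]
    linarith

end NEApA

theorem ne_ap {r : ℕ} {ε : ℝ} (hε : 0 < ε) (hr : 8 / ε ^ 2 ≤ r) (hA : Masa M A) (hN : NoC M A) :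
    ApC M A 1 r ε := by
  intro x hxM hxs hx1 F δ hδ
  have hrR : (0 : ℝ) < r := lt_of_lt_of_le (by positivity) hr
  have hr0 : 0 < r := by exact_mod_cast hrR
  obtain ⟨p, hp, q, hqM, hq, hF, hpq⟩ := NEApA.exists_q hr0 hA hN F hδ
  have hq' : ‖1 - q‖ ≤ 1 := hq.one_sub.norm_le _
  have hqx : ‖(1 - q) * x‖ ≤ 1 :=
    (norm_mul_le _ _).trans (mul_le_one₀ hq' (norm_nonneg _) hx1)
  refine ⟨p, hp, 0, zero_mem _, .zero _, by simp, by simp, (1 - q) * x * (1 - q),
    mul_mem (mul_mem (sub_mem (one_mem _) hqM) hxM) (sub_mem (one_mem _) hqM), ?_, one_mul _, ?_,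
    fun ξ hξ => ?_, ?_⟩
  · rw [IsSelfAdjoint, star_mul, star_mul, hq.one_sub.isSelfAdjoint.star_eq, hxs.star_eq, mul_assoc]
  · exact ((norm_mul_le _ _).trans (mul_le_one₀ hqx (norm_nonneg _) hq')).trans one_le_two
  · refine lt_of_le_of_lt ?_ (hF ξ hξ)
    exact (((1 - q) * x).le_opNorm ((1 - q) ξ)).trans (mul_le_of_le_one_left (norm_nonneg _) hqx)
  · rw [sub_zero]
    refine NEApA.pin_norm hp _ hε.le fun j => ?_
    have hp1 : ‖p j‖ ≤ 1 := (hp.pa j).norm_le
    have h1 : ‖p j * q‖ ≤ ε / 2 := by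
      refine (abs_le_of_sq_le_sq' ((hpq j).trans ?_) (by positivity)).2
      rw [div_le_iff₀ (by positivity)] at hr
      rw [div_le_iff₀ hrR]
      nlinarith
    have h2 : ‖q * p j‖ ≤ ε / 2 := by
      rw [← norm_star, star_mul, hq.isSelfAdjoint.star_eq, (hp.pa j).2.isSelfAdjoint.star_eq]
      exact h1
    have e : p j * (x - (1 - q) * x * (1 - q)) * p j =
        p j * x * (q * p j) + p j * q * (x * ((1 - q) * p j)) := by noncomm_ring
    rw [e]
    refine (norm_add_le _ _).trans ?_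
    have h3 : ‖p j * x * (q * p j)‖ ≤ ε / 2 :=
      (norm_mul_le _ _).trans ((mul_le_of_le_one_left (norm_nonneg _)
        ((norm_mul_le _ _).trans (mul_le_one₀ hp1 (norm_nonneg _) hx1))).trans h2)
    have h4 : ‖p j * q * (x * ((1 - q) * p j))‖ ≤ ε / 2 :=
      (norm_mul_le _ _).trans ((mul_le_of_le_one_right (norm_nonneg _)
        ((norm_mul_le _ _).trans (mul_le_one₀ hx1 (norm_nonneg _)
          ((norm_mul_le _ _).trans (mul_le_one₀ hq' (norm_nonneg _) hp1))))).trans h1)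
    linarith

end Crest.Agent.R109
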