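import Crest.Agent.R109.UAC

/-!
# Row 109, task R109-Split

Splitting off the part carrying normal central states.  PLAN.  `exists_supp`: let `K₀` be the closed span of
the ranges of `star y`, `y ∈ M`, `φ (y⋆ y) = 0` (a left ideal `N`); it is invariant under `M'` and under `A`
(for `a ∈ A`: `a y⋆ = (y a⋆)⋆` and `φ (a y⋆ y a⋆) ≤ ‖a‖² φ (y⋆ y)` by centrality), so its projection `f` is in
`M` and commutes with `A`: `f ∈ A`; `s = 1 - f`.  `φ f = 0`: by `nrm`, given `ξ i` and `η` find `h = ∑ y⋆ y`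
(finite sum in `N`) and `k = h (h + t)⁻¹ ∈ N⋆ ∩ N`, `0 ≤ k ≤ 1`, with `‖(f - k) ξ i‖` small (vectors
`y⋆ ζ` satisfy `‖(1 - k) y⋆ ζ‖ ≤ √t ‖ζ‖ / 2`), so `n2 f ≤ n2 (f - k) + n2 k` is small.  If `y = s y s ∈ N`, then
`f y⋆ = y⋆ = s y⋆`, so `y = 0`.  `split`: `e` = projection on the closure of the directed union of the ranges
of supports (`s (φ + ψ) ≥ s φ, s ψ`: a projection `f ∈ A` with `φ f = 0` lies below `1 - s φ`); `e ∈ M`
commutes with `A`.  Normalise `φ` by `φ s = φ 1 > 0` when `s ≠ 0`.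
-/

set_option autoImplicit false
set_option linter.unusedSectionVars false
set_option linter.unusedVariables false

namespace Crest.Agent.R109

open scoped InnerProductSpace ComplexOrder ComplexConjugate
open Filter Topology

universe u

variable {H : Type u} [NormedAddCommGroup H] [InnerProductSpace ℂ H] [CompleteSpace H]
  {M : VonNeumannAlgebra H} {A : StarSubalgebra ℂ (H →L[ℂ] H)}
  {ω φ : (H →L[ℂ] H) →ₗ[ℂ] ℂ} {E : (H →L[ℂ] H) →ₗ[ℂ] (H →L[ℂ] H)}

namespace SplitA

theorem mem_M_of_comm {g : H →L[ℂ] H} (h : ∀ z ∈ M.commutant, z * g = g * z) : g ∈ M := by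
  rw [← M.commutant_commutant, VonNeumannAlgebra.mem_commutant_iff]
  exact h

theorem comm_of_mem {y z : H →L[ℂ] H} (hy : y ∈ M) (hz : z ∈ M.commutant) : z * y = y * z :=
  (VonNeumannAlgebra.mem_commutant_iff.1 hz y hy).symm

theorem swap {e f : H →L[ℂ] H} (he : IsStarProjection e) (hf : IsStarProjection f)
    (h : e * f = f) : f * e = f := by
  have := congrArg star h
  rwa [star_mul, he.isSelfAdjoint.star_eq, hf.isSelfAdjoint.star_eq] at this

theorem proj_apply_le {p : H →L[ℂ] H} (hp : IsStarProjection p) (v : H) : ‖p v‖ ≤ ‖v‖ := by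
  have h1 := p.le_opNorm v
  have h2 := hp.norm_le
  have h3 := norm_nonneg v
  nlinarith

theorem exists_sup (S : Set (H →L[ℂ] H)) (hS : ∀ f ∈ S, IsStarProjection f) (hne : S.Nonempty)
    (hd : ∀ f ∈ S, ∀ g ∈ S, ∃ k ∈ S, k * f = f ∧ k * g = g) :
    ∃ e, IsStarProjection e ∧ (∀ f ∈ S, e * f = f) ∧
      (∀ (F : Finset H) (δ : ℝ), 0 < δ → ∃ s ∈ S, ∀ ξ ∈ F, ‖(e - s) ξ‖ < δ) ∧
      ∀ z, (∀ f ∈ S, z * f = f * z) → z * e = e * z := by
  classical
  let K₀ : Submodule ℂ H :=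
    { carrier := {v | ∃ f ∈ S, f v = v}
      zero_mem' := by
        obtain ⟨f, hf⟩ := hne
        exact ⟨f, hf, map_zero f⟩
      add_mem' := by
        rintro v w ⟨f, hf, hv⟩ ⟨g, hg, hw⟩
        obtain ⟨k, hk, h1, h2⟩ := hd f hf g hg
        refine ⟨k, hk, ?_⟩
        have e1 : k v = v := by
          conv_lhs => rw [← hv]
          rw [← ContinuousLinearMap.mul_apply, h1, hv]
        have e2 : k w = w := by
          conv_lhs => rw [← hw]
          rw [← ContinuousLinearMap.mul_apply, h2, hw]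
        rw [map_add, e1, e2]
      smul_mem' := by
        rintro c v ⟨f, hf, hv⟩
        exact ⟨f, hf, by rw [map_smul, hv]⟩ }
  let K : Submodule ℂ H := K₀.topologicalClosure
  haveI : CompleteSpace K := (Submodule.isClosed_topologicalClosure K₀).completeSpace_coe
  let e : H →L[ℂ] H := K.starProjection
  have he : IsStarProjection e := isStarProjection_starProjection
  have hef : ∀ f ∈ S, e * f = f := by
    intro f hf
    ext v
    rw [ContinuousLinearMap.mul_apply]
    refine Submodule.starProjection_eq_self_iff.2 ?_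
    refine Submodule.le_topologicalClosure K₀ ⟨f, hf, ?_⟩
    rw [← ContinuousLinearMap.mul_apply, (hS f hf).isIdempotentElem.eq]
  have mono : ∀ f ∈ S, ∀ k ∈ S, k * f = f → ∀ ξ, ‖(e - k) ξ‖ ≤ ‖(e - f) ξ‖ := by
    intro f hf k hk h ξ
    have : e - k = (1 - k) * (e - f) := by
      rw [sub_mul, one_mul, mul_sub, h, swap he (hS k hk) (hef k hk)]
      abel
    rw [this, ContinuousLinearMap.mul_apply]
    exact proj_apply_le (hS k hk).one_sub _
  have one : ∀ (ξ : H) (δ : ℝ), 0 < δ → ∃ s ∈ S, ‖(e - s) ξ‖ < δ := by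
    intro ξ δ hδ
    have hm : e ξ ∈ closure (K₀ : Set H) := by
      have : e ξ ∈ K := Submodule.starProjection_apply_mem K ξ
      exact this
    obtain ⟨v, ⟨f, hf, hv⟩, hdist⟩ := Metric.mem_closure_iff.1 hm δ hδ
    refine ⟨f, hf, ?_⟩
    have : (e - f) ξ = (1 - f) (e ξ - v) := by
      have h1 : f (e ξ) = f ξ := by
        rw [← ContinuousLinearMap.mul_apply, swap he (hS f hf) (hef f hf)]
      simp only [ContinuousLinearMap.sub_apply, ContinuousLinearMap.one_apply, map_sub, h1, hv]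
      abel
    rw [this]
    refine lt_of_le_of_lt (proj_apply_le (hS f hf).one_sub _) ?_
    rwa [← dist_eq_norm]
  have many : ∀ (F : Finset H) (δ : ℝ), 0 < δ → ∃ s ∈ S, ∀ ξ ∈ F, ‖(e - s) ξ‖ < δ := by
    intro F δ hδ
    induction F using Finset.induction_on with
    | empty =>
      obtain ⟨f, hf⟩ := hne
      exact ⟨f, hf, by simp⟩
    | insert ξ F hξ ih =>
      obtain ⟨s, hs, h1⟩ := ih
      obtain ⟨f, hf, h2⟩ := one ξ δ hδ
      obtain ⟨k, hk, e1, e2⟩ := hd s hs f hf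
      refine ⟨k, hk, fun ζ hζ => ?_⟩
      rcases Finset.mem_insert.1 hζ with rfl | hζ
      · exact lt_of_le_of_lt (mono f hf k hk e2 _) h2
      · exact lt_of_le_of_lt (mono s hs k hk e1 _) (h1 ζ hζ)
  refine ⟨e, he, hef, many, fun z hz => ?_⟩
  ext ξ
  rw [← sub_eq_zero, ← norm_le_zero_iff]
  refine le_of_forall_pos_le_add fun δ hδ => ?_
  have hz1 : 0 < ‖z‖ + 1 := by positivity
  obtain ⟨s, hs, h⟩ := many {ξ, z ξ} (δ / (‖z‖ + 1)) (div_pos hδ hz1)
  have h1 := h ξ (by simp)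
  have h2 := h (z ξ) (by simp)
  have e1 : (z * e) ξ - (e * z) ξ = z ((e - s) ξ) - (e - s) (z ξ) := by
    have := congrArg (fun T : H →L[ℂ] H => T ξ) (hz s hs)
    simp only [ContinuousLinearMap.mul_apply] at this
    simp only [ContinuousLinearMap.mul_apply, ContinuousLinearMap.sub_apply, map_sub, this]
    abel
  rw [e1, zero_add]
  have h3 := z.le_opNorm ((e - s) ξ)
  have h4 : ‖z‖ * ‖(e - s) ξ‖ ≤ ‖z‖ * (δ / (‖z‖ + 1)) :=
    mul_le_mul_of_nonneg_left h1.le (norm_nonneg _)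
  have h5 : (‖z‖ + 1) * (δ / (‖z‖ + 1)) = δ := by field_simp
  have h6 := norm_sub_le (z ((e - s) ξ)) ((e - s) (z ξ))
  nlinarith

theorem eq_zero_of_re {c : ℂ} (h0 : 0 ≤ c) (h : c.re ≤ 0) : c = 0 := by
  obtain ⟨h1, h2⟩ := Complex.nonneg_iff.1 h0
  exact Complex.ext (le_antisymm h h1) h2.symm

theorem n2_zero {y : H →L[ℂ] H} (h : φ (star y * y) = 0) : n2 φ y = 0 := by
  simp [n2, h]

theorem of_n2 (hφ : Pos M φ) {y : H →L[ℂ] H} (hy : y ∈ M) (h : n2 φ y ≤ 0) :
    φ (star y * y) = 0 := by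
  refine eq_zero_of_re (hφ y hy) ?_
  rw [← hφ.n2_sq hy, le_antisymm h (n2_nonneg y)]
  simp

theorem proj_sq {p : H →L[ℂ] H} (hp : IsStarProjection p) : star p * p = p := by
  rw [hp.isSelfAdjoint.star_eq, hp.isIdempotentElem.eq]

theorem mul_null (hφ : Pos M φ) {p y : H →L[ℂ] H} (hp : IsStarProjection p) (hpM : p ∈ M)
    (h0 : φ p = 0) (hy : y ∈ M) : φ (y * p) = 0 := by
  have := hφ.cs (star_mem hy) hpM
  rw [star_star, n2_zero (y := p) (by rw [proj_sq hp, h0]), mul_zero] at this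
  exact norm_le_zero_iff.1 this

theorem null_mul (hφ : Pos M φ) {p y : H →L[ℂ] H} (hp : IsStarProjection p) (hpM : p ∈ M)
    (h0 : φ p = 0) (hy : y ∈ M) : φ (p * y) = 0 := by
  have := hφ.cs hpM hy
  rw [hp.isSelfAdjoint.star_eq, n2_zero (y := p) (by rw [proj_sq hp, h0]), zero_mul] at this
  exact norm_le_zero_iff.1 this

theorem zero_of_approx (hφ : NPos M φ) {e : H →L[ℂ] H} (he : IsStarProjection e) (heM : e ∈ M)
    (h : ∀ (F : Finset H) (δ : ℝ), 0 < δ → ∃ s ∈ M, IsStarProjection s ∧ e * s = s ∧ φ s = 0 ∧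
      ∀ ξ ∈ F, ‖(e - s) ξ‖ < δ) : φ e = 0 := by
  classical
  have h0 : 0 ≤ φ e := by
    have := hφ.pos e heM
    rwa [proj_sq he] at this
  refine eq_zero_of_re h0 (le_of_forall_pos_le_add fun η hη => ?_)
  obtain ⟨m, ξ, hξ⟩ := hφ.nrm (η / 2) (by positivity)
  have hm : (0 : ℝ) < (m : ℝ) + 1 := by positivity
  obtain ⟨s, hsM, hs, hes, hs0, happ⟩ := h (Finset.univ.image ξ) (√(η / 2 / (m + 1))) (by positivity)
  have hp : IsStarProjection (e - s) := by
    refine ⟨?_, he.isSelfAdjoint.sub hs.isSelfAdjoint⟩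
    show (e - s) * (e - s) = e - s
    rw [sub_mul, mul_sub, mul_sub, he.isIdempotentElem.eq, hes, swap he hs hes,
      hs.isIdempotentElem.eq]
    abel
  have h1 := hξ (e - s) (sub_mem heM hsM)
  rw [proj_sq hp, map_sub, hs0, sub_zero] at h1
  have h2 : ∑ i, ‖(e - s) (ξ i)‖ ^ 2 ≤ ∑ _i : Fin m, η / 2 / (m + 1) := by
    refine Finset.sum_le_sum fun i _ => ?_
    have h3 := happ (ξ i) (Finset.mem_image_of_mem _ (Finset.mem_univ i))
    have h4 : √(η / 2 / (m + 1)) ^ 2 = η / 2 / (m + 1) := Real.sq_sqrt (by positivity)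
    rw [← h4]
    exact pow_le_pow_left₀ (norm_nonneg _) h3.le 2
  rw [Finset.sum_const, Finset.card_univ, Fintype.card_fin, nsmul_eq_mul] at h2
  have h5 : (m : ℝ) * (η / 2 / (m + 1)) ≤ η / 2 := by
    rw [← mul_div_assoc, div_le_iff₀ hm]
    nlinarith
  have h6 : ‖e - s‖ ^ 2 ≤ 1 := by
    have := hp.norm_le
    have := norm_nonneg (e - s)
    nlinarith
  nlinarith

theorem supp_null (hφ : NPos M φ) {y : H →L[ℂ] H} (hy : y ∈ M) (h0 : φ (star y * y) = 0) :
    φ (1 - kerP y) = 0 := by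
  have hw : IsSelfAdjoint (star y * y) := IsSelfAdjoint.star_mul_self y
  have hwM : star y * y ∈ M := mul_mem (star_mem hy) hy
  have hrM : 1 - kerP y ∈ M := sub_mem (one_mem _) (kerP_mem hy)
  choose g hg hc h1 h2 using fun n : ℕ => spec_proj hw (1 / ((n : ℝ) + 1))
  have hgM : ∀ n, g n ∈ M := fun n => mem_of_comm hwM (hc n)
  have hnull : ∀ n, φ (1 - g n) = 0 := by
    intro n
    have hq : IsStarProjection (1 - g n) := (hg n).one_sub
    have hqM : 1 - g n ∈ M := sub_mem (one_mem _) (hgM n)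
    have hp0 : 0 ≤ φ (1 - g n) := by
      have := hφ.pos _ hqM
      rwa [proj_sq hq] at this
    refine eq_zero_of_re hp0 ?_
    have e1 : (1 - g n) * (star y * y) * (1 - g n) = ((1 - g n) * star y) * y := by
      have hcm : star y * y * g n = g n * (star y * y) := hc n _ rfl
      have : (star y * y) * (1 - g n) = (1 - g n) * (star y * y) := by
        rw [mul_sub, sub_mul, mul_one, one_mul, hcm]
      rw [mul_assoc, this, ← mul_assoc, hq.isIdempotentElem.eq, mul_assoc]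
    have e2 : φ (((1 - g n) * star y) * y) = 0 := by
      have := hφ.pos.cs (star_mem (mul_mem hqM (star_mem hy))) hy
      rw [star_star, n2_zero h0, mul_zero] at this
      exact norm_le_zero_iff.1 this
    have hsm : (1 / ((n : ℝ) + 1)) • (1 - g n) ∈ M := by
      rw [← Complex.coe_smul]
      exact M.toStarSubalgebra.smul_mem hqM _
    have h3 := hφ.pos.mono hsm (mul_mem (mul_mem hqM hwM) hqM) (h2 n)
    rw [e1, e2, ← Complex.coe_smul, map_smul, smul_eq_mul, Complex.re_ofReal_mul,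
      Complex.zero_re] at h3
    have ht : (0 : ℝ) < 1 / ((n : ℝ) + 1) := by positivity
    by_contra hcon
    push Not at hcon
    have := mul_pos ht hcon
    linarith
  have hnorm : ∀ n, ‖y * g n‖ ^ 2 ≤ 1 / ((n : ℝ) + 1) := by
    intro n
    have ht : (0 : ℝ) < 1 / ((n : ℝ) + 1) := by positivity
    have e1 : star (y * g n) * (y * g n) = g n * (star y * y) * g n := by
      rw [star_mul, (hg n).isSelfAdjoint.star_eq]
      simp only [mul_assoc]
    have h3 : ‖g n * (star y * y) * g n‖ ≤ ‖(1 / ((n : ℝ) + 1)) • g n‖ := by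
      refine CStarAlgebra.norm_le_norm_of_nonneg_of_le ?_ (h1 n)
      rw [← e1]
      exact star_mul_self_nonneg _
    rw [← e1, CStarRing.norm_star_mul_self, norm_smul, Real.norm_of_nonneg ht.le] at h3
    have := (hg n).norm_le
    nlinarith
  obtain ⟨z, -, hz⟩ := exists_wlim (hyperfilter ℕ) g (C := 1) fun n => (hg n).norm_le
  have hzM : z ∈ M := hz.mem (Eventually.of_forall hgM)
  have hyz : y * z = 0 := by
    rw [← norm_le_zero_iff]
    refine le_of_forall_pos_le_add fun δ hδ => ?_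
    rw [zero_add]
    refine (hz.mul_left y).norm_le ?_
    have ht : Tendsto (fun n : ℕ => 1 / ((n : ℝ) + 1)) atTop (𝓝 0) :=
      tendsto_one_div_add_atTop_nhds_zero_nat
    have hev : ∀ᶠ n : ℕ in atTop, 1 / ((n : ℝ) + 1) < δ ^ 2 :=
      ht.eventually (gt_mem_nhds (by positivity))
    rw [← Nat.cofinite_eq_atTop] at hev
    refine (hev.filter_mono (hyperfilter_le_cofinite (α := ℕ))).mono fun n hn => ?_
    exact (pow_le_pow_iff_left₀ (norm_nonneg _) hδ.le two_ne_zero).1 ((hnorm n).trans hn.le)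
  have hl : WLim (hyperfilter ℕ : Filter ℕ) (fun n => (1 - kerP y) * (1 - g n))
      ((1 - kerP y) * (1 - z)) := ((WLim.const 1).sub hz).mul_left _
  have e3 : (1 - kerP y) * (1 - z) = 1 - kerP y := by
    rw [mul_sub, mul_one, sub_mul, one_mul, kerP_mul_of hyz, sub_self, sub_zero]
  rw [e3] at hl
  have ht := hφ.tendsto (C := 1) (Eventually.of_forall fun n =>
    ⟨mul_mem hrM (sub_mem (one_mem _) (hgM n)), (norm_mul_le _ _).trans (by
      have a1 := (kerP_proj y).one_sub.norm_le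
      have a2 := (hg n).one_sub.norm_le
      have a3 := norm_nonneg (1 - g n)
      nlinarith)⟩) hrM hl
  have e4 : (fun n => φ ((1 - kerP y) * (1 - g n))) = fun _ => 0 := by
    funext n
    exact mul_null hφ.pos (hg n).one_sub (sub_mem (one_mem _) (hgM n)) (hnull n) hrM
  rw [e4] at ht
  exact (tendsto_nhds_unique tendsto_const_nhds ht).symm

theorem le_supp_add {f g : H →L[ℂ] H} (hf : IsStarProjection f) (hg : IsStarProjection g) :
    (1 - kerP (f + g)) * f = f := by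
  have hk := kerP_proj (f + g)
  set k := kerP (f + g) with hkd
  have h0 : (f + g) * k = 0 := mul_kerP _
  have e1 : star (f * k) * (f * k) + star (g * k) * (g * k) = 0 := by
    rw [star_mul, star_mul, hf.isSelfAdjoint.star_eq, hg.isSelfAdjoint.star_eq, mul_assoc,
      mul_assoc, ← mul_assoc f f, ← mul_assoc g g, hf.isIdempotentElem.eq, hg.isIdempotentElem.eq,
      ← mul_add, ← add_mul, h0, mul_zero]
  have h1 : star (f * k) * (f * k) = 0 := by
    refine le_antisymm ?_ (star_mul_self_nonneg _)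
    rw [← e1]
    exact le_add_of_nonneg_right (star_mul_self_nonneg _)
  have h2 : f * k = 0 := (CStarRing.star_mul_self_eq_zero_iff _).1 h1
  have h3 := congrArg star h2
  rw [star_mul, hk.isSelfAdjoint.star_eq, hf.isSelfAdjoint.star_eq, star_zero] at h3
  rw [sub_mul, one_mul, h3, sub_zero]

end SplitA

open SplitA

theorem exists_supp (hA : Masa M A) (hφ : NPos M φ) (hc : Cent M A φ) :
    ∃ s, PA A s ∧ φ (1 - s) = 0 ∧ ∀ y ∈ M, s * y * s = y → φ (star y * y) = 0 → y = 0 := by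
  let S : Set (H →L[ℂ] H) := {f | IsStarProjection f ∧ f ∈ M ∧ φ f = 0}
  have hr : ∀ y ∈ M, φ (star y * y) = 0 → 1 - kerP y ∈ S := fun y hy h0 =>
    ⟨(kerP_proj y).one_sub, sub_mem (one_mem _) (kerP_mem hy), supp_null hφ hy h0⟩
  obtain ⟨e, he, hef, happ, hcm⟩ := exists_sup S (fun f hf => hf.1)
    ⟨0, IsStarProjection.zero _, zero_mem _, map_zero _⟩ (by
      rintro f ⟨hf, hfM, hf0⟩ g ⟨hg, hgM, hg0⟩
      refine ⟨1 - kerP (f + g), hr _ (add_mem hfM hgM) ?_, le_supp_add hf hg, ?_⟩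
      · refine of_n2 hφ.pos (add_mem hfM hgM) ?_
        have := hφ.pos.n2_add_le hfM hgM
        rwa [n2_zero (y := f) (by rw [proj_sq hf, hf0]), n2_zero (y := g) (by rw [proj_sq hg, hg0]),
          add_zero] at this
      · rw [add_comm]
        exact le_supp_add hg hf)
  have heM : e ∈ M := mem_M_of_comm fun z hz => hcm z fun f hf => comm_of_mem hf.2.1 hz
  have he0 : φ e = 0 := by
    refine zero_of_approx hφ he heM fun F δ hδ => ?_
    obtain ⟨s, hs, h⟩ := happ F δ hδ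
    exact ⟨s, hs.2.1, hs.1, hef s hs, hs.2.2, h⟩
  have key : ∀ y ∈ M, φ (star y * y) = 0 → y * e = y := by
    intro y hy h0
    have h1 := hr y hy h0
    have h2 := swap he h1.1 (hef _ h1)
    have h3 : y * (1 - kerP y) = y := by rw [mul_sub, mul_one, mul_kerP, sub_zero]
    calc y * e = y * (1 - kerP y) * e := by rw [h3]
      _ = y := by rw [mul_assoc, h2, h3]
  have hl : ∀ a ∈ A, e * a * e = e * a := by
    intro a ha
    have haM := hA.le a ha
    refine key _ (mul_mem heM haM) ?_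
    have e1 : star (e * a) * (e * a) = star a * (e * a) := by
      rw [star_mul, he.isSelfAdjoint.star_eq, mul_assoc, ← mul_assoc e e, he.isIdempotentElem.eq]
    rw [e1, hc (star a) (star_mem ha) _ (mul_mem heM haM), mul_assoc]
    exact null_mul hφ.pos he heM he0 (mul_mem haM (star_mem haM))
  have heA : e ∈ A := by
    refine hA.max e heM fun a ha => ?_
    have h1 := congrArg star (hl (star a) (star_mem ha))
    rw [star_mul, star_mul, star_star, he.isSelfAdjoint.star_eq, ← mul_assoc] at h1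
    rw [← h1, hl a ha]
  refine ⟨1 - e, PA.compl ⟨heA, he⟩, by rw [sub_sub_cancel, he0], fun y hy hs h0 => ?_⟩
  have h1 := key y hy h0
  have h2 : (1 - e) * e = 0 := by rw [sub_mul, one_mul, he.isIdempotentElem.eq, sub_self]
  rw [← h1, ← hs, mul_assoc, h2, mul_zero]

theorem split (hA : Masa M A) :
    ∃ e, PA A e ∧ (∀ φ, NPos M φ → Cent M A φ → φ (1 - e) = 0) ∧
      ∀ (F : Finset H) (δ : ℝ), 0 < δ → ∃ s, PA A s ∧ e * s = s ∧ (∀ ξ ∈ F, ‖(e - s) ξ‖ < δ) ∧
        (s = 0 ∨ ∃ φ, NPos M φ ∧ Cent M A φ ∧ φ s = 1 ∧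
          ∀ y ∈ M, s * y * s = y → φ (star y * y) = 0 → y = 0) := by
  let S : Set (H →L[ℂ] H) := {s | PA A s ∧ ∃ φ, NPos M φ ∧ Cent M A φ ∧ φ (1 - s) = 0 ∧
    ∀ y ∈ M, s * y * s = y → φ (star y * y) = 0 → y = 0}
  have hle : ∀ s ∈ S, ∀ t, PA A t → ∀ φ : (H →L[ℂ] H) →ₗ[ℂ] ℂ, Pos M φ → φ (1 - t) = 0 →
      (∀ y ∈ M, s * y * s = y → φ (star y * y) = 0 → y = 0) → t * s = s := by
    intro s hs t ht φ hφ h0 hf
    have hq := PA.compl ht
    have hsM := hA.le _ hs.1.1
    have hqM := hA.le _ hq.1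
    have hcm : s * (1 - t) = (1 - t) * s := hA.comm _ hs.1.1 _ hq.1
    have h1 : s * (1 - t) = 0 := by
      refine hf _ (mul_mem hsM hqM) ?_ (of_n2 hφ (mul_mem hsM hqM) ?_)
      · rw [← mul_assoc, hs.1.2.isIdempotentElem.eq, mul_assoc, ← hcm, ← mul_assoc,
          hs.1.2.isIdempotentElem.eq]
      · have := hφ.n2_mul_left hsM hqM
        rwa [n2_zero (y := 1 - t) (by rw [proj_sq hq.2, h0]), mul_zero] at this
    rw [hcm, sub_mul, one_mul, sub_eq_zero] at h1
    exact h1.symm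
  have hz : NPos M (0 : (H →L[ℂ] H) →ₗ[ℂ] ℂ) :=
    ⟨fun y _ => le_rfl, fun η hη => ⟨0, fun i => i.elim0, fun y _ => by
      simp only [LinearMap.zero_apply, Complex.zero_re, Finset.univ_eq_empty, Finset.sum_empty,
        zero_add]
      positivity⟩⟩
  obtain ⟨e, he, hef, happ, hcm⟩ := exists_sup S (fun f hf => hf.1.2)
    ⟨0, PA.zero, 0, hz, fun _ _ _ _ => rfl, rfl, fun y _ h _ => by simpa using h.symm⟩ (by
      intro f hf g hg
      obtain ⟨φ, a1, a2, a3, a4⟩ := hf.2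
      obtain ⟨ψ, b1, b2, b3, b4⟩ := hg.2
      have c1 := a1.add b1
      have c2 : Cent M A (φ + ψ) := fun a ha y hy => by
        rw [LinearMap.add_apply, LinearMap.add_apply, a2 a ha y hy, b2 a ha y hy]
      obtain ⟨s, hs, d1, d2⟩ := exists_supp hA c1 c2
      have hq := PA.compl hs
      have hqM := hA.le _ hq.1
      have p1 := a1.pos _ hqM
      have p2 := b1.pos _ hqM
      rw [proj_sq hq.2] at p1 p2
      have d3 := d1
      rw [LinearMap.add_apply] at d3
      have q1 : φ (1 - s) = 0 := le_antisymm (by rw [← d3]; exact le_add_of_nonneg_right p2) p1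
      have q2 : ψ (1 - s) = 0 := by rwa [q1, zero_add] at d3
      exact ⟨s, ⟨hs, φ + ψ, c1, c2, d1, d2⟩, hle f hf s hs φ a1.pos q1 a4,
        hle g hg s hs ψ b1.pos q2 b4⟩)
  have heM : e ∈ M := mem_M_of_comm fun z hz => hcm z fun f hf => comm_of_mem (hA.le _ hf.1.1) hz
  have heA : e ∈ A := hA.max e heM fun a ha => hcm a fun f hf => hA.comm _ ha _ hf.1.1
  refine ⟨e, ⟨heA, he⟩, fun φ hφ hc => ?_, fun F δ hδ => ?_⟩
  · obtain ⟨s, hs, d1, d2⟩ := exists_supp hA hφ hc
    have h1 := hef s ⟨hs, φ, hφ, hc, d1, d2⟩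
    have hq := PA.compl hs
    have e1 : (1 - e) * (1 - s) = 1 - e := by
      rw [mul_sub, mul_one, sub_mul, one_mul, h1, sub_self, sub_zero]
    rw [← e1]
    exact mul_null hφ.pos hq.2 (hA.le _ hq.1) d1 (sub_mem (one_mem _) heM)
  · obtain ⟨s, hs, h⟩ := happ F δ hδ
    refine ⟨s, hs.1, hef s hs, h, ?_⟩
    by_cases h0 : s = 0
    · exact Or.inl h0
    obtain ⟨φ, a1, a2, a3, a4⟩ := hs.2
    have hsM := hA.le _ hs.1.1
    have hne : φ s ≠ 0 := fun hc => h0 (a4 s hsM (by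
      rw [hs.1.2.isIdempotentElem.eq, hs.1.2.isIdempotentElem.eq]) (by rw [proj_sq hs.1.2, hc]))
    have hp := a1.pos s hsM
    rw [proj_sq hs.1.2] at hp
    obtain ⟨h1, h2⟩ := Complex.nonneg_iff.1 hp
    have e1 : (((φ s).re : ℝ) : ℂ) = φ s := Complex.ext rfl (by simpa using h2)
    have hc0 : ((((φ s).re)⁻¹ : ℝ) : ℂ) = (φ s)⁻¹ := by rw [Complex.ofReal_inv, e1]
    refine Or.inr ⟨((((φ s).re)⁻¹ : ℝ) : ℂ) • φ, a1.smul (inv_nonneg.2 h1), fun a ha y hy => ?_, ?_,
      fun y hy hs' hy0 => a4 y hy hs' ?_⟩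
    · rw [LinearMap.smul_apply, LinearMap.smul_apply, a2 a ha y hy]
    · rw [LinearMap.smul_apply, hc0, smul_eq_mul, inv_mul_cancel₀ hne]
    · rw [LinearMap.smul_apply, hc0, smul_eq_mul] at hy0
      exact (mul_eq_zero.1 hy0).resolve_left (inv_ne_zero hne)

end Crest.Agent.R109
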