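import Crest.Agent.R109.Exp
import Crest.Agent.R109.NEAp
import Crest.Agent.R109.Split
import Crest.Agent.R109.Corner
import Crest.Agent.R109.Glue3

/-!
# Row 109, task R109-Approx

S0144.  PLAN.  `R = ⌈4·10⁸/(ε/8)²⌉ + ⌈8/(ε/4)²⌉ + 1`.  `x = 0` is trivial.  For `‖x‖ = 1` (rescale) add to `F` a unit
vector `ξ₀` with `‖x ξ₀‖ ≥ 1 - ε/8`, take `δ ≤ ε/8`; `split`, `apC_exp` with `exp_ap`, `apC_ne` with `ne_ap`,
`glue3_ap` with tolerance `ε/4` give `p, a, w`; `y = x - w`, `1 - ε/4 ≤ ‖y‖ ≤ 3`; replace `a` by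
`min 1 ‖y‖ • a` (cost `≤ ε/4`).
-/

set_option autoImplicit false
set_option linter.unusedSectionVars false
set_option linter.unusedVariables false

namespace Crest.Agent.R109

open scoped InnerProductSpace ComplexOrder ComplexConjugate
open Filter Topology

universe u

variable {H : Type u} [NormedAddCommGroup H] [InnerProductSpace ℂ H] [CompleteSpace H]
  {M : VonNeumannAlgebra H} {A : StarSubalgebra ℂ (H →L[ℂ] H)}
  {ω φ : (H →L[ℂ] H) →ₗ[ℂ] ℂ} {E : (H →L[ℂ] H) →ₗ[ℂ] (H →L[ℂ] H)}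

namespace ApproxA

/-- the number of colours -/
noncomputable def RR (ε : ℝ) : ℕ := ⌈400000000 / (ε / 8) ^ 2⌉₊ + ⌈8 / (ε / 4) ^ 2⌉₊ + 1

theorem RR_le {ε : ℝ} (hε : 0 < ε) (hε1 : ε < 1) : (RR ε : ℝ) ≤ 25600000131 / ε ^ 6 := by
  have h1 : (⌈400000000 / (ε / 8) ^ 2⌉₊ : ℝ) ≤ 400000000 / (ε / 8) ^ 2 + 1 :=
    (Nat.ceil_lt_add_one (by positivity)).le
  have h2 : (⌈8 / (ε / 4) ^ 2⌉₊ : ℝ) ≤ 8 / (ε / 4) ^ 2 + 1 :=
    (Nat.ceil_lt_add_one (by positivity)).le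
  have e1 : 400000000 / (ε / 8) ^ 2 = 25600000000 * (1 / ε ^ 2) := by field_simp; norm_num
  have e2 : 8 / (ε / 4) ^ 2 = 128 * (1 / ε ^ 2) := by field_simp; norm_num
  have h6 : 0 < ε ^ 6 := by positivity
  have h3 : 1 / ε ^ 2 ≤ 1 / ε ^ 6 :=
    one_div_le_one_div_of_le h6 (pow_le_pow_of_le_one hε.le hε1.le (by norm_num))
  have h4 : 1 ≤ 1 / ε ^ 6 := by
    rw [le_div_iff₀ h6, one_mul]; exact pow_le_one₀ hε.le hε1.le
  have e3 : 25600000131 / ε ^ 6 = 25600000131 * (1 / ε ^ 6) := by ring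
  unfold RR
  push_cast
  rw [e3]
  rw [e1] at h1
  rw [e2] at h2
  rw [e1, e2]
  linarith

theorem core {ε : ℝ} (hε : 0 < ε) (hε1 : ε < 1) (hA : Masa M A) {x : H →L[ℂ] H} (hxM : x ∈ M)
    (hx : IsSelfAdjoint x) (hn : ‖x‖ ≤ 1) (F : Finset H) {δ : ℝ} (hδ : 0 < δ) :
    ∃ p : Fin (RR ε) → H →L[ℂ] H, IsPartOf A 1 p ∧
      ∃ a ∈ A, IsSelfAdjoint a ∧ ‖a‖ ≤ 1 ∧
        ∃ w ∈ M, IsSelfAdjoint w ∧ ‖w‖ ≤ 2 ∧ (∀ ξ ∈ F, ‖w ξ‖ < δ) ∧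
          ‖pin p (x - w) - a‖ ≤ ε / 4 := by
  obtain ⟨e, he, h0, hs⟩ := split hA
  obtain ⟨s, hsP, hes, hF, hcase⟩ := hs F (δ / 3) (by positivity)
  have hst : s * (1 - e) = 0 := by
    rw [mul_sub, mul_one, hA.comm s hsP.1 e he.1, hes, sub_self]
  have h₁ : ApC M A s ⌈400000000 / (ε / 8) ^ 2⌉₊ (ε / 4) := by
    rcases hcase with rfl | ⟨φ, hφ, hc, h1, hf⟩
    · exact apC_zero hA _ (by positivity)
    · refine apC_exp ?_ hA hsP hφ hc h1 hf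
      intro K _ _ _ M' A' ω' h
      have := exp_ap (r := ⌈400000000 / (ε / 8) ^ 2⌉₊) (ε := ε / 8) (by positivity) (by linarith)
        (Nat.le_ceil _) h
      rwa [show 2 * (ε / 8) = ε / 4 by ring] at this
  have h₂ : ApC M A (1 - e) ⌈8 / (ε / 4) ^ 2⌉₊ (ε / 4) := by
    refine apC_ne ?_ hA he.compl h0
    intro K _ _ _ M' A' hA' hN
    exact ne_ap (by positivity) (Nat.le_ceil _) hA' hN
  refine glue3_ap hA hsP he.compl hst h₁ h₂ hxM hx hn F hδ ?_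
  intro ξ hξ
  rw [show (1 : H →L[ℂ] H) - s - (1 - e) = e - s by abel]
  exact hF ξ hξ

theorem sa_smul (c : ℝ) {a : H →L[ℂ] H} (ha : IsSelfAdjoint a) : IsSelfAdjoint ((c : ℂ) • a) := by
  rw [IsSelfAdjoint, star_smul, ha.star_eq]
  congr 1
  exact Complex.conj_ofReal c

theorem norm_csmul {c : ℝ} (hc : 0 ≤ c) (a : H →L[ℂ] H) : ‖(c : ℂ) • a‖ = c * ‖a‖ := by
  rw [norm_smul, Complex.norm_real, Real.norm_of_nonneg hc]

theorem norm1 {ε : ℝ} (hε : 0 < ε) (hε1 : ε < 1) (hA : Masa M A) {x : H →L[ℂ] H} (hxM : x ∈ M)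
    (hx : IsSelfAdjoint x) (hn : ‖x‖ = 1) (F : Finset H) {δ : ℝ} (hδ : 0 < δ) :
    ∃ y ∈ M, IsSelfAdjoint y ∧ ‖y‖ ≤ 3 ∧ (∀ ξ ∈ F, ‖(y - x) ξ‖ < δ) ∧
      ∃ p : Fin (RR ε) → (H →L[ℂ] H), IsPartOf A 1 p ∧
        ∃ a ∈ A, IsSelfAdjoint a ∧ ‖a‖ ≤ ‖y‖ ∧ ‖pin p y - a‖ ≤ ε * ‖y‖ := by
  classical
  obtain ⟨ξ₀, hξ₀, hx₀⟩ := x.exists_lt_apply_of_lt_opNorm (r := 1 - ε / 8) (by rw [hn]; linarith)
  obtain ⟨p, hp, a, haA, has, han, w, hwM, hws, hwn, hwF, hle⟩ :=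
    core hε hε1 hA hxM hx hn.le (insert ξ₀ F) (δ := min δ (ε / 8)) (lt_min hδ (by positivity))
  have hy : 1 - ε / 4 ≤ ‖x - w‖ := by
    have h1 : ‖w ξ₀‖ < ε / 8 := (hwF ξ₀ (Finset.mem_insert_self _ _)).trans_le (min_le_right _ _)
    have h2 : ‖(x - w) ξ₀‖ ≤ ‖x - w‖ := by
      refine ((x - w).le_opNorm ξ₀).trans ?_
      exact mul_le_of_le_one_right (norm_nonneg _) hξ₀.le
    have h3 : ‖x ξ₀‖ ≤ ‖(x - w) ξ₀‖ + ‖w ξ₀‖ := by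
      have : x ξ₀ = (x - w) ξ₀ + w ξ₀ := by simp
      rw [this]
      refine (norm_add_le _ _).trans ?_
      rfl
    linarith
  set c : ℝ := min 1 ‖x - w‖ with hc
  have hc0 : 0 ≤ c := le_min zero_le_one (norm_nonneg _)
  have hc1 : c ≤ 1 := min_le_left _ _
  have hc2 : c ≤ ‖x - w‖ := min_le_right _ _
  have hc3 : 1 - ε / 4 ≤ c := le_min (by linarith) hy
  refine ⟨x - w, sub_mem hxM hwM, hx.sub hws, ?_, ?_, p, hp, (c : ℂ) • a, A.smul_mem haA _,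
    sa_smul c has, ?_, ?_⟩
  · refine (norm_sub_le _ _).trans ?_
    linarith
  · intro ξ hξ
    rw [show x - w - x = -w by abel, ContinuousLinearMap.neg_apply, norm_neg]
    exact (hwF ξ (Finset.mem_insert_of_mem hξ)).trans_le (min_le_left _ _)
  · rw [norm_csmul hc0]
    nlinarith [norm_nonneg a]
  · have e : pin p (x - w) - (c : ℂ) • a = (pin p (x - w) - a) + ((1 - c : ℝ) : ℂ) • a := by
      push_cast
      module
    rw [e]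
    refine (norm_add_le _ _).trans ?_
    rw [norm_csmul (by linarith)]
    have h1 : (1 - c) * ‖a‖ ≤ ε / 4 := by nlinarith [norm_nonneg a]
    nlinarith

end ApproxA

theorem approx_main :
    ∃ C : ℝ, 0 < C ∧ ∀ ε : ℝ, 0 < ε → ε < 1 → ∃ R : ℕ, (R : ℝ) ≤ C / ε ^ 6 ∧
      ∀ (H : Type u) [NormedAddCommGroup H] [InnerProductSpace ℂ H] [CompleteSpace H]
        (M : VonNeumannAlgebra H) (A : StarSubalgebra ℂ (H →L[ℂ] H)), Masa M A →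
        ∀ x ∈ M, IsSelfAdjoint x → ∀ (F : Finset H) (δ : ℝ), 0 < δ →
          ∃ y ∈ M, IsSelfAdjoint y ∧ ‖y‖ ≤ 3 * ‖x‖ ∧ (∀ ξ ∈ F, ‖(y - x) ξ‖ < δ) ∧
            ∃ p : Fin R → (H →L[ℂ] H), IsPartOf A 1 p ∧
              ∃ a ∈ A, IsSelfAdjoint a ∧ ‖a‖ ≤ ‖y‖ ∧ ‖pin p y - a‖ ≤ ε * ‖y‖ := by
  refine ⟨25600000131, by norm_num, fun ε hε hε1 => ⟨ApproxA.RR ε, ApproxA.RR_le hε hε1, ?_⟩⟩
  intro H _ _ _ M A hA x hxM hx F δ hδ
  by_cases hx0 : x = 0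
  · subst hx0
    obtain ⟨p, hp, -⟩ := ApproxA.core hε hε1 hA hxM hx (by simp) F hδ
    refine ⟨0, hxM, hx, by simp, fun ξ _ => by simpa using hδ, p, hp, 0, zero_mem _, hx, le_rfl, ?_⟩
    simp [pin]
  · have hc : 0 < ‖x‖ := norm_pos_iff.mpr hx0
    set c : ℝ := ‖x‖ with hcdef
    have hn : ‖((c⁻¹ : ℝ) : ℂ) • x‖ = 1 := by
      rw [ApproxA.norm_csmul (inv_nonneg.mpr hc.le), ← hcdef, inv_mul_cancel₀ hc.ne']
    obtain ⟨y, hyM, hys, hyn, hyF, p, hp, a, haA, has, han, hle⟩ :=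
      ApproxA.norm1 hε hε1 hA (M.toStarSubalgebra.smul_mem hxM ((c⁻¹ : ℝ) : ℂ))
        (ApproxA.sa_smul _ hx) hn F (δ := δ / c) (div_pos hδ hc)
    have hxx : x = (c : ℂ) • (((c⁻¹ : ℝ) : ℂ) • x) := by
      rw [smul_smul, ← Complex.ofReal_mul, mul_inv_cancel₀ hc.ne', Complex.ofReal_one, one_smul]
    refine ⟨(c : ℂ) • y, M.toStarSubalgebra.smul_mem hyM _, ApproxA.sa_smul _ hys, ?_, ?_, p, hp,
      (c : ℂ) • a, A.smul_mem haA _, ApproxA.sa_smul _ has, ?_, ?_⟩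
    · rw [ApproxA.norm_csmul hc.le]
      nlinarith
    · intro ξ hξ
      have e : (c : ℂ) • y - x = (c : ℂ) • (y - ((c⁻¹ : ℝ) : ℂ) • x) := by
        rw [smul_sub, ← hxx]
      rw [e, ContinuousLinearMap.smul_apply, norm_smul, Complex.norm_real, Real.norm_of_nonneg hc.le]
      have := hyF ξ hξ
      rw [lt_div_iff₀ hc] at this
      linarith
    · rw [ApproxA.norm_csmul hc.le, ApproxA.norm_csmul hc.le]
      exact mul_le_mul_of_nonneg_left han hc.le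
    · rw [pin_smul, ← smul_sub, ApproxA.norm_csmul hc.le, ApproxA.norm_csmul hc.le]
      nlinarith

end Crest.Agent.R109
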