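import Crest.Agent.R109.CE

/-!
# Row 109, task R109-AtomC

Atoms of fibre measures, II: the graph part.  Let `T' = e T f`, `μ p = E (T'⋆ p T')`, `μ 1 ≤ 3γ/2`.
PLAN.  `θ p = f (1 - kerP (μ p - γ)⁺)` for projections `p ∈ A`; `γ θ p ≤ μ p θ p`; `θ` is monotone;
`θ p θ q = 0` if `p q = 0` (`μ p + μ q ≤ 3γ/2 < 2γ`); for a partition `Q`, `∑ θ p = f` (otherwise
`f' = f - ∑ θ p ≠ 0` contradicts `Big`, as `(μ p - γ)⁺ f' = 0`).  `Π_Q y = ∑_{p ∈ Q} p y θ p` is contractive,
`Π_Q Π_P = Π_Q = Π_P Π_Q` for `P ≤ Q`.  `W` = weak limit of `Π_Q T'` along `Ultrafilter.of atTop`; `Π_P W = W`;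
`e' W = W θ e'` (`exists_two`).  `orth1`: `ω (W⋆ a T b) = ω ((Π_Q W)⋆ a T b) = ω (W⋆ a (Π_Q T') b) → ω (W⋆ a W b)`
(`W = e W f`, centrality); `orth2` similarly.  `W ≠ 0`: `ω (W⋆ T') = lim ∑ ω (θ p μ p) ≥ γ ω f > 0`.
-/

set_option autoImplicit false
set_option linter.unusedSectionVars false
set_option linter.unusedVariables false

namespace Crest.Agent.R109

open scoped InnerProductSpace ComplexOrder ComplexConjugate
open Filter Topology

universe u

variable {H : Type u} [NormedAddCommGroup H] [InnerProductSpace ℂ H] [CompleteSpace H]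
  {M : VonNeumannAlgebra H} {A : StarSubalgebra ℂ (H →L[ℂ] H)}
  {ω φ : (H →L[ℂ] H) →ₗ[ℂ] ℂ} {E : (H →L[ℂ] H) →ₗ[ℂ] (H →L[ℂ] H)}

namespace AtomCA

/-- the data of the maps `θ` -/
structure Th (A : StarSubalgebra ℂ (H →L[ℂ] H)) (f : H →L[ℂ] H)
    (θ : (H →L[ℂ] H) → H →L[ℂ] H) : Prop where
  pa : ∀ p, PA A p → PA A (θ p)
  orth : ∀ p q, PA A p → PA A q → p * q = 0 → θ p * θ q = 0
  sum : ∀ Q : Part A, ∑ p ∈ Q.cells, θ p = f

/-- the twisted pinching -/
noncomputable def Pi' (θ : (H →L[ℂ] H) → H →L[ℂ] H) (Q : Part A) (y : H →L[ℂ] H) : H →L[ℂ] H :=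
  ∑ q ∈ Q.cells, q * y * θ q

theorem pa_idem {p : H →L[ℂ] H} (hp : PA A p) : p * p = p := hp.2.isIdempotentElem

theorem pa_star {p : H →L[ℂ] H} (hp : PA A p) : star p = p := hp.2.isSelfAdjoint

theorem pa_nonneg {p : H →L[ℂ] H} (hp : PA A p) : 0 ≤ p := hp.2.nonneg

theorem conj_le {k x y : H →L[ℂ] H} (hk : PA A k) (h : x ≤ y) : k * x * k ≤ k * y * k := by
  have := star_left_conjugate_le_conjugate h k
  rwa [pa_star hk] at this

theorem eq_zero_of_smul_le {k : H →L[ℂ] H} (hk : PA A k) {s t : ℝ} (hst : s < t)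
    (h : t • k ≤ s • k) : k = 0 := by
  have h1 : (t - s) • k ≤ 0 := by rw [sub_smul]; exact sub_nonpos.2 h
  have h2 : 0 ≤ (t - s) • k := smul_nonneg (by linarith) (pa_nonneg hk)
  have h3 : (t - s) • k = 0 := le_antisymm h1 h2
  rcases smul_eq_zero.1 h3 with h4 | h4
  · linarith
  · exact h4

variable {f : H →L[ℂ] H} {θ : (H →L[ℂ] H) → H →L[ℂ] H}

theorem Th.refine (hθ : Th A f θ) {P Q : Part A} {p q : H →L[ℂ] H} (hp : p ∈ P.cells)
    (hq : q ∈ Q.cells) (e : p * q = q) : θ q * θ p = θ q := by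
  have hf : θ q * f = θ q := by
    rw [← hθ.sum Q, Finset.mul_sum, Finset.sum_eq_single q]
    · exact pa_idem (hθ.pa q (Q.pa q hq))
    · intro b hb hne
      exact hθ.orth q b (Q.pa q hq) (Q.pa b hb) (Q.orth q hq b hb (Ne.symm hne))
    · intro h; exact absurd hq h
  have : θ q * f = θ q * θ p := by
    rw [← hθ.sum P, Finset.mul_sum, Finset.sum_eq_single p]
    · intro b hb hne
      apply hθ.orth q b (Q.pa q hq) (P.pa b hb)
      have h1 : b * q = 0 := by rw [← e, ← mul_assoc, P.orth b hb p hp hne, zero_mul]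
      have h2 := congrArg star h1
      rwa [star_mul, pa_star (Q.pa q hq), pa_star (P.pa b hb), star_zero] at h2
    · intro h; exact absurd hp h
  rw [← this, hf]

theorem Th.mul_f (hθ : Th A f θ) {Q : Part A} {q : H →L[ℂ] H} (hq : q ∈ Q.cells) :
    f * θ q = θ q := by
  rw [← hθ.sum Q, Finset.sum_mul, Finset.sum_eq_single q]
  · exact pa_idem (hθ.pa q (Q.pa q hq))
  · intro b hb hne
    exact hθ.orth b q (Q.pa b hb) (Q.pa q hq) (Q.orth b hb q hq hne)
  · intro h; exact absurd hq h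

theorem Th.pi_pi (hθ : Th A f θ) {P Q : Part A} (hPQ : P ≤ Q) (y : H →L[ℂ] H) :
    Pi' θ P (Pi' θ Q y) = Pi' θ Q y := by
  unfold Pi'
  simp only [Finset.mul_sum, Finset.sum_mul]
  rw [Finset.sum_comm]
  refine Finset.sum_congr rfl fun q hq => ?_
  obtain ⟨p, hp, e⟩ := hPQ q hq
  rw [Finset.sum_eq_single p]
  · have : p * (q * y * θ q) * θ p = (p * q) * y * (θ q * θ p) := by simp only [mul_assoc]
    rw [this, e, hθ.refine hp hq e]
  · intro b hb hne
    have h1 : b * q = 0 := by rw [← e, ← mul_assoc, P.orth b hb p hp hne, zero_mul]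
    have : b * (q * y * θ q) * θ b = (b * q) * y * (θ q * θ b) := by simp only [mul_assoc]
    rw [this, h1, zero_mul, zero_mul]
  · intro h; exact absurd hp h

theorem Th.pi_mem (hA : Masa M A) (hθ : Th A f θ) (Q : Part A) {y : H →L[ℂ] H} (hy : y ∈ M) :
    Pi' θ Q y ∈ M := by
  unfold Pi'
  exact sum_mem fun q hq => mul_mem (mul_mem (hA.le _ (Q.pa q hq).1) hy)
    (hA.le _ (hθ.pa q (Q.pa q hq)).1)

theorem Th.pi_norm (hθ : Th A f θ) (hf : PA A f) (Q : Part A) (y : H →L[ℂ] H) :
    ‖Pi' θ Q y‖ ≤ ‖y‖ := by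
  have h1 : star (Pi' θ Q y) * Pi' θ Q y = ∑ q ∈ Q.cells, θ q * (star y * q * y) * θ q := by
    unfold Pi'
    rw [star_sum, Finset.sum_mul]
    refine Finset.sum_congr rfl fun q hq => ?_
    rw [Finset.mul_sum, Finset.sum_eq_single q]
    · rw [star_mul, star_mul, pa_star (Q.pa q hq), pa_star (hθ.pa q (Q.pa q hq))]
      have : θ q * (star y * q) * (q * y * θ q) = θ q * (star y * (q * q) * y) * θ q := by
        simp only [mul_assoc]
      rw [this, pa_idem (Q.pa q hq)]
    · intro b hb hne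
      rw [star_mul, star_mul, pa_star (Q.pa q hq), pa_star (hθ.pa q (Q.pa q hq))]
      have : θ q * (star y * q) * (b * y * θ b) = θ q * (star y * (q * b) * y) * θ b := by
        simp only [mul_assoc]
      rw [this, Q.orth q hq b hb (Ne.symm hne)]
      simp
    · intro h; exact absurd hq h
  have h2 : star (Pi' θ Q y) * Pi' θ Q y ≤ (‖y‖ ^ 2) • f := by
    rw [h1, ← hθ.sum Q, Finset.smul_sum]
    refine Finset.sum_le_sum fun q hq => ?_
    have a1 : star y * q * y ≤ star y * 1 * y :=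
      star_left_conjugate_le_conjugate (Q.pa q hq).2.le_one y
    have a2 : star y * y ≤ algebraMap ℝ _ (‖y‖ ^ 2) := CStarAlgebra.star_mul_le_algebraMap_norm_sq
    rw [mul_one] at a1
    have a3 := conj_le (hθ.pa q (Q.pa q hq)) (a1.trans a2)
    rw [Algebra.algebraMap_eq_smul_one] at a3
    simpa [pa_idem (hθ.pa q (Q.pa q hq))] using a3
  have h3 : ‖star (Pi' θ Q y) * Pi' θ Q y‖ ≤ ‖(‖y‖ ^ 2) • f‖ :=
    CStarAlgebra.norm_le_norm_of_nonneg_of_le (star_mul_self_nonneg _) h2
  rw [CStarRing.norm_star_mul_self, norm_smul, Real.norm_of_nonneg (by positivity)] at h3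
  have h4 := hf.norm_le
  have h5 : ‖Pi' θ Q y‖ ^ 2 ≤ ‖y‖ ^ 2 := by nlinarith [sq_nonneg ‖y‖]
  exact (pow_le_pow_iff_left₀ (norm_nonneg _) (norm_nonneg _) two_ne_zero).1 h5

theorem wlim_sum {ι κ : Type*} {l : Filter ι} (s : Finset κ) {y : κ → ι → H →L[ℂ] H}
    {z : κ → H →L[ℂ] H} (h : ∀ k ∈ s, WLim l (y k) (z k)) :
    WLim l (fun i => ∑ k ∈ s, y k i) (∑ k ∈ s, z k) := by
  classical
  induction s using Finset.induction_on with
  | empty => simpa using WLim.const (l := l) (0 : H →L[ℂ] H)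
  | insert a s ha ih =>
    simp only [Finset.sum_insert ha]
    exact (h a (Finset.mem_insert_self _ _)).add
      (ih fun k hk => h k (Finset.mem_insert_of_mem hk))

theorem wlim_pi {ι : Type*} {l : Filter ι} (P : Part A) {y : ι → H →L[ℂ] H} {z : H →L[ℂ] H}
    (h : WLim l y z) : WLim l (fun i => Pi' θ P (y i)) (Pi' θ P z) := by
  unfold Pi'
  exact wlim_sum P.cells (y := fun q i => q * y i * θ q) fun q _ => (h.mul_left q).mul_right (θ q)

/-- existence of `θ` -/
theorem exists_th (h : St M A ω) (hE : CE M A ω E) {S : H →L[ℂ] H} (hS : S ∈ M) {γ : ℝ}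
    (hγ : 0 < γ) (hSf : S * f = S) (hb : Big A E S γ f)
    (hr : ‖E (star S * S)‖ ≤ 3 / 2 * γ) :
    ∃ θ, Th A f θ ∧ ∀ p, PA A p → γ • θ p ≤ E (star S * p * S) * θ p := by
  have hA := h.masa
  have hf := hb.1
  have hmem : ∀ p, PA A p → E (star S * p * S) ∈ A := fun p hp =>
    hE.mem _ (mul_mem (mul_mem (star_mem hS) (hA.le _ hp.1)) hS)
  have hpos : ∀ p, PA A p → 0 ≤ E (star S * p * S) := fun p hp =>
    hE.pos _ (star_left_conjugate_nonneg (pa_nonneg hp) S)
  have hex : ∀ p : H →L[ℂ] H, ∃ g, PA A p → (PA A g ∧ ‖E (star S * p * S) * (1 - g)‖ ≤ γ ∧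
      γ • g ≤ E (star S * p * S) * g) := by
    intro p
    by_cases hp : PA A p
    · obtain ⟨g, h1, h2, h3, -⟩ := exists_cut hA (hmem p hp) (hpos p hp) hγ
      exact ⟨g, fun _ => ⟨h1, h2, h3⟩⟩
    · exact ⟨0, fun h => absurd h hp⟩
  choose θ hθ using hex
  have key : ∀ p k, PA A p → PA A k → θ p * k = k → γ • k ≤ k * E (star S * p * S) * k := by
    intro p k hp hk e
    have a1 := conj_le hk (hθ p hp).2.2
    have e' : k * θ p = k := by rw [hA.comm _ hk.1 _ (hθ p hp).1.1, e]
    rw [mul_smul_comm, smul_mul_assoc, e', pa_idem hk] at a1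
    have : k * (E (star S * p * S) * θ p) * k = k * E (star S * p * S) * (θ p * k) := by
      simp only [mul_assoc]
    rwa [this, e] at a1
  have horth : ∀ p q, PA A p → PA A q → p * q = 0 → θ p * θ q = 0 := by
    intro p q hp hq e
    have hk : PA A (θ p * θ q) := PA.mul hA (hθ p hp).1 (hθ q hq).1
    have a1 := key p _ hp hk (by rw [← mul_assoc, pa_idem (hθ p hp).1])
    have a2 := key q _ hq hk (by
      rw [hA.comm _ (hθ p hp).1.1 _ (hθ q hq).1.1, ← mul_assoc, pa_idem (hθ q hq).1])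
    have a3 : E (star S * p * S) + E (star S * q * S) ≤ (3 / 2 * γ) • (1 : H →L[ℂ] H) := by
      rw [← map_add, ← add_mul, ← mul_add]
      have b1 : star S * (p + q) * S ≤ star S * 1 * S :=
        star_left_conjugate_le_conjugate (PA.add hp hq e).2.le_one S
      rw [mul_one] at b1
      refine (hE.mono b1).trans ?_
      have b2 : IsSelfAdjoint (E (star S * S)) :=
        IsSelfAdjoint.of_nonneg (hE.pos _ (star_mul_self_nonneg S))
      refine b2.le_algebraMap_norm_self.trans ?_
      rw [Algebra.algebraMap_eq_smul_one]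
      exact smul_le_smul_of_nonneg_right hr zero_le_one
    have a4 := conj_le hk a3
    rw [mul_add, add_mul, mul_smul_comm, smul_mul_assoc, mul_one, pa_idem hk] at a4
    have a5 := (add_le_add a1 a2).trans a4
    rw [← add_smul] at a5
    exact eq_zero_of_smul_le hk (by linarith) a5
  have hle : ∀ p, PA A p → f * θ p = θ p := by
    intro p hp
    have hk : PA A (θ p * (1 - f)) := PA.mul hA (hθ p hp).1 hf.compl
    have a1 := key p _ hp hk (by rw [← mul_assoc, pa_idem (hθ p hp).1])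
    have a2 : E (star S * p * S) * (1 - f) = 0 := by
      rw [← hE.right _ hf.compl.1, mul_assoc, mul_sub, mul_one, hSf, sub_self, mul_zero, map_zero]
    have a3 : θ p * (1 - f) * E (star S * p * S) * (θ p * (1 - f)) = (0 : ℝ) • (θ p * (1 - f)) := by
      rw [zero_smul, mul_assoc (θ p), hA.comm _ hf.compl.1 _ (hmem p hp), a2, mul_zero, zero_mul]
    rw [a3] at a1
    have a4 := eq_zero_of_smul_le hk hγ a1
    rw [mul_sub, mul_one, sub_eq_zero] at a4
    rw [hA.comm _ hf.1 _ (hθ p hp).1.1, ← a4]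
  refine ⟨θ, ⟨fun p hp => (hθ p hp).1, horth, fun Q => ?_⟩, fun p hp => (hθ p hp).2.2⟩
  set s := ∑ p ∈ Q.cells, θ p with hs
  have hsp : PA A s := PA.sum Q.cells (fun p hp => (hθ p (Q.pa p hp)).1)
    fun p hp q hq hne => horth p q (Q.pa p hp) (Q.pa q hq) (Q.orth p hp q hq hne)
  have hfs : f * s = s := by
    rw [hs, Finset.mul_sum]
    exact Finset.sum_congr rfl fun p hp => hle p (Q.pa p hp)
  by_contra hne
  have hk : PA A (f * (1 - s)) := PA.mul hA hf hsp.compl
  have hk0 : f * (1 - s) ≠ 0 := by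
    rw [mul_sub, mul_one, hfs, sub_ne_zero]
    exact Ne.symm hne
  obtain ⟨p, hp, hlt⟩ := hb.2.2 Q _ hk hk0 (by rw [← mul_assoc, pa_idem hf])
  have hp' := Q.pa p hp
  have a1 : θ p * s = θ p := by
    rw [hs, Finset.mul_sum, Finset.sum_eq_single p]
    · exact pa_idem (hθ p hp').1
    · intro b hb hne
      exact horth p b hp' (Q.pa b hb) (Q.orth p hp b hb (Ne.symm hne))
    · intro h; exact absurd hp h
  have a2 : (1 - θ p) * (f * (1 - s)) = f * (1 - s) := by
    rw [sub_mul, one_mul, ← mul_assoc, hA.comm _ (hθ p hp').1.1 _ hf.1, hle p hp', mul_sub (θ p),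
      mul_one, a1, sub_self, sub_zero]
  have a3 : ‖E (star S * p * S) * (f * (1 - s))‖ ≤ γ := by
    rw [← a2, ← mul_assoc]
    refine (norm_mul_le _ _).trans ?_
    have := hk.norm_le
    have h2 := (hθ p hp').2.1
    nlinarith [norm_nonneg (E (star S * p * S) * (1 - θ p)), norm_nonneg (f * (1 - s))]
  linarith

end AtomCA

open AtomCA in
theorem graph_part (h : St M A ω) (hE : CE M A ω E) {T e f : H →L[ℂ] H} (hT : T ∈ M) {γ : ℝ}
    (hγ : 0 < γ) (he : PA A e) (hb : Big A E (e * T * f) γ f)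
    (hr : ‖E (star (e * T * f) * (e * T * f))‖ ≤ 3 / 2 * γ) : ∃ W, SubG M A ω T W := by
  classical
  have hA := h.masa
  have hf := hb.1
  set S := e * T * f with hSdef
  have hS : S ∈ M := mul_mem (mul_mem (hA.le _ he.1) hT) (hA.le _ hf.1)
  have hSf : S * f = S := by rw [hSdef, mul_assoc, pa_idem hf]
  have heS : e * S = S := by rw [hSdef, ← mul_assoc, ← mul_assoc, pa_idem he]
  clear_value S
  obtain ⟨θ, hθ, hγθ⟩ := exists_th h hE hS hγ hSf hb hr
  have := hA.neBot
  have := hA.directed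
  let U : Ultrafilter (Part A) := Ultrafilter.of atTop
  have hU : (U : Filter (Part A)) ≤ atTop := Ultrafilter.of_le _
  obtain ⟨W, -, hW⟩ := exists_wlim U (fun Q => Pi' θ Q S) (C := ‖S‖) fun Q => hθ.pi_norm hf Q S
  have hmem : ∀ Q, Pi' θ Q S ∈ M := fun Q => hθ.pi_mem hA Q hS
  have hWM : W ∈ M := hW.mem (Eventually.of_forall hmem)
  have hfix : ∀ P : Part A, Pi' θ P W = W := by
    intro P
    refine (wlim_pi (θ := θ) P hW).unique (hW.congr' ?_)
    filter_upwards [hU (eventually_ge_atTop P)] with Q hQ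
    exact (hθ.pi_pi hQ S).symm
  have heW : e * W = W := by
    refine (hW.mul_left e).unique (hW.congr' (Eventually.of_forall fun Q => ?_))
    unfold Pi'
    rw [Finset.mul_sum]
    refine Finset.sum_congr rfl fun q hq => ?_
    rw [← mul_assoc e, ← mul_assoc e, hA.comm _ he.1 _ (Q.pa q hq).1, mul_assoc q e, heS]
  have hWe : star W * e = star W := by
    have := congrArg star heW
    rwa [star_mul, pa_star he] at this
  -- limits of `ω (x * Π_Q S * y)`
  have hlim : ∀ x ∈ M, ∀ y ∈ M, 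
      Tendsto (fun Q : Part A => ω (x * Pi' θ Q S * y)) U (𝓝 (ω (x * W * y))) := by
    intro x hx y hy
    refine h.npos.tendsto (C := ‖x‖ * ‖S‖ * ‖y‖) (Eventually.of_forall fun Q => ⟨?_, ?_⟩)
      (mul_mem (mul_mem hx hWM) hy) ((hW.mul_left x).mul_right y)
    · exact mul_mem (mul_mem hx (hmem Q)) hy
    · refine (norm_mul_le _ _).trans ?_
      gcongr
      refine (norm_mul_le _ _).trans ?_
      gcongr
      exact hθ.pi_norm hf Q S
  have hlim' : Tendsto (fun Q : Part A => ω (W * star (Pi' θ Q S))) U (𝓝 (ω (W * star W))) := by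
    refine h.npos.tendsto (C := ‖W‖ * ‖S‖) (Eventually.of_forall fun Q => ⟨?_, ?_⟩)
      (mul_mem hWM (star_mem hWM)) (hW.star.mul_left W)
    · exact mul_mem hWM (star_mem (hmem Q))
    · refine (norm_mul_le _ _).trans ?_
      rw [norm_star]
      gcongr
      exact hθ.pi_norm hf Q S
  refine ⟨W, hWM, ?_, ?_, ?_, ?_, ?_, ?_⟩
  · -- `W ≠ 0`
    intro h0
    have a1 := hlim (star S) (star_mem hS) 1 (one_mem _)
    rw [h0, mul_zero, zero_mul, map_zero] at a1
    have a2 : Tendsto (fun Q : Part A => (ω (star S * Pi' θ Q S * 1)).re) U (𝓝 0) :=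
      (Complex.continuous_re.tendsto 0).comp a1
    have a3 : ∀ Q : Part A, γ * (ω f).re ≤ (ω (star S * Pi' θ Q S * 1)).re := by
      intro Q
      unfold Pi'
      rw [mul_one, Finset.mul_sum, map_sum, Complex.re_sum, ← hθ.sum Q, map_sum, Complex.re_sum,
        Finset.mul_sum]
      refine Finset.sum_le_sum fun q hq => ?_
      have hq' := Q.pa q hq
      have hθq := hθ.pa q hq'
      have b0 : star S * q * S ∈ M := mul_mem (mul_mem (star_mem hS) (hA.le _ hq'.1)) hS
      have b1 : ω (star S * (q * S * θ q)) = ω (E (star S * q * S) * θ q) := by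
        rw [← hE.right _ hθq.1, hE.inv _ (mul_mem b0 (hA.le _ hθq.1))]
        simp only [mul_assoc]
      have b2 : γ • θ q ∈ M := by
        rw [← Complex.coe_smul]
        exact hA.le _ (SMulMemClass.smul_mem _ hθq.1)
      have b3 := h.npos.pos.mono b2 (mul_mem (hA.le _ (hE.mem _ b0)) (hA.le _ hθq.1)) (hγθ q hq')
      rw [← Complex.coe_smul, map_smul, smul_eq_mul, Complex.re_ofReal_mul] at b3
      rwa [b1]
    have a4 : γ * (ω f).re ≤ 0 := ge_of_tendsto' a2 a3
    have a5 : (ω f).re ≤ 0 := by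
      by_contra hc
      push Not at hc
      nlinarith [mul_pos hγ hc]
    exact hb.2.1 (h.eq_zero_of_nonneg (hA.le _ hf.1) (pa_nonneg hf) a5)
  · -- `left`
    intro e' he'
    obtain ⟨P, hP, -⟩ := exists_two he'
    refine ⟨∑ p ∈ P.cells.filter (fun p => e' * p = p), θ p, ?_, ?_⟩
    · refine PA.sum _ (fun p hp => hθ.pa p (P.pa p (Finset.mem_filter.1 hp).1)) ?_
      intro p hp q hq hne
      have hp' := (Finset.mem_filter.1 hp).1
      have hq' := (Finset.mem_filter.1 hq).1
      exact hθ.orth p q (P.pa p hp') (P.pa q hq') (P.orth p hp' q hq' hne)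
    · rw [← hfix P]
      unfold Pi'
      rw [Finset.mul_sum, Finset.sum_mul]
      refine Finset.sum_congr rfl fun q hq => ?_
      rw [mul_assoc (q * W), Finset.mul_sum, ← mul_assoc, ← mul_assoc]
      by_cases hc : e' * q = q
      · rw [hc, Finset.sum_eq_single q, pa_idem (hθ.pa q (P.pa q hq))]
        · intro b hb hne
          have hb' := (Finset.mem_filter.1 hb).1
          exact hθ.orth q b (P.pa q hq) (P.pa b hb') (P.orth q hq b hb' (Ne.symm hne))
        · intro hn; exact (hn (by simp [hq, hc])).elim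
      · have c1 : e' * q = 0 := by
          rcases hP q hq with c | c
          · exact absurd (by rw [c, pa_idem he']) hc
          · rw [c, mul_sub, mul_one, pa_idem he', sub_self]
        rw [c1, zero_mul, zero_mul, Finset.sum_eq_zero, mul_zero]
        intro b hb
        have hb' := Finset.mem_filter.1 hb
        have hne : q ≠ b := fun c => hc (c ▸ hb'.2)
        exact hθ.orth q b (P.pa q hq) (P.pa b hb'.1) (P.orth q hq b hb'.1 hne)
  · -- `inh`
    intro c hc d hd hcd
    have a1 : S * c = d * S := by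
      rw [hSdef, mul_assoc, hA.comm _ hf.1 _ hc, ← mul_assoc, mul_assoc e, hcd, ← mul_assoc,
        hA.comm _ he.1 _ hd]
      simp only [mul_assoc]
    refine (hW.mul_right c).unique ((hW.mul_left d).congr' (Eventually.of_forall fun Q => ?_))
    unfold Pi'
    rw [Finset.mul_sum, Finset.sum_mul]
    refine Finset.sum_congr rfl fun q hq => ?_
    rw [mul_assoc (q * S), hA.comm _ (hθ.pa q (Q.pa q hq)).1 _ hc, ← mul_assoc (q * S),
      mul_assoc q S c, a1, ← mul_assoc q, hA.comm _ (Q.pa q hq).1 _ hd]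
    simp only [mul_assoc]
  · -- `orth1`
    intro a ha b hb'
    have a1 := hlim (star W * a) (mul_mem (star_mem hWM) (hA.le _ ha)) b (hA.le _ hb')
    have a2 : ∀ Q : Part A, ω (star W * a * Pi' θ Q S * b) = ω (star W * a * T * b) := by
      intro Q
      conv_rhs => rw [← hfix Q]
      unfold Pi'
      rw [star_sum]
      simp only [Finset.mul_sum, Finset.sum_mul, map_sum]
      refine Finset.sum_congr rfl fun q hq => ?_
      have hq' := Q.pa q hq
      have hθq := hθ.pa q hq'
      rw [star_mul, star_mul, pa_star hq', pa_star hθq]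
      have b1 : θ q * (star W * q) * a * T * b = θ q * (star W * q * a * T * b) := by
        simp only [mul_assoc]
      rw [b1, h.cent _ hθq.1 _ (mul_mem (mul_mem (mul_mem (mul_mem (star_mem hWM) (hA.le _ hq'.1))
        (hA.le _ ha)) hT) (hA.le _ hb'))]
      congr 1
      have b2 : a * q * e = e * (q * a) := by
        rw [hA.comm _ ha _ hq'.1, hA.comm _ (mul_mem hq'.1 ha) _ he.1]
      calc star W * a * (q * S * θ q) * b
          = star W * (a * q * e) * T * (f * θ q * b) := by rw [hSdef]; simp only [mul_assoc]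
        _ = star W * e * (q * a) * T * (b * θ q) := by
          rw [b2, hθ.mul_f hq, hA.comm _ hθq.1 _ hb']; simp only [mul_assoc]
        _ = star W * q * a * T * b * θ q := by rw [hWe]; simp only [mul_assoc]
    simp only [a2] at a1
    have a3 := tendsto_nhds_unique a1 tendsto_const_nhds
    rw [mul_sub, sub_mul, map_sub, a3, sub_self]
  · -- `orth2`
    have a2 : ∀ Q : Part A, ω (W * star (Pi' θ Q S)) = ω (W * star T) := by
      intro Q
      conv_rhs => rw [← hfix Q]
      unfold Pi'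
      rw [star_sum]
      simp only [Finset.mul_sum, Finset.sum_mul, map_sum]
      refine Finset.sum_congr rfl fun q hq => ?_
      have hq' := Q.pa q hq
      have hθq := hθ.pa q hq'
      have b0 : θ q * f = θ q := by rw [hA.comm _ hθq.1 _ hf.1, hθ.mul_f hq]
      have b1 : q * W * θ q * star T = (q * e) * (W * θ q * star T) := by
        conv_lhs => rw [← heW]
        simp only [mul_assoc]
      rw [b1, h.cent _ (mul_mem hq'.1 he.1) _ (mul_mem (mul_mem hWM (hA.le _ hθq.1)) (star_mem hT))]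
      congr 1
      rw [hSdef, star_mul, star_mul, star_mul, star_mul, pa_star hq', pa_star hθq, pa_star he,
        pa_star hf, hA.comm _ hq'.1 _ he.1]
      conv_rhs => rw [← b0]
      simp only [mul_assoc]
    simp only [a2] at hlim'
    have a3 := tendsto_nhds_unique hlim' tendsto_const_nhds
    rw [star_sub, mul_sub, map_sub, a3, sub_self]
  · -- `lim`
    intro z hz hz0
    have a1 := hlim 1 (one_mem _) z hz
    have a2 : ∀ Q : Part A, ω (1 * Pi' θ Q S * z) = 0 := by
      intro Q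
      unfold Pi'
      rw [one_mul, Finset.sum_mul, map_sum]
      refine Finset.sum_eq_zero fun q hq => ?_
      have hq' := Q.pa q hq
      have hθq := hθ.pa q hq'
      have b1 : q * S * θ q * z = (q * e) * (T * (f * θ q) * z) := by
        rw [hSdef]; simp only [mul_assoc]
      rw [b1, h.cent _ (mul_mem hq'.1 he.1) _
        (mul_mem (mul_mem hT (hA.le _ (mul_mem hf.1 hθq.1))) hz)]
      exact hz0 _ (mul_mem hf.1 hθq.1) _ (mul_mem hq'.1 he.1)
    simp only [a2] at a1
    have a3 := tendsto_nhds_unique a1 tendsto_const_nhds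
    rwa [one_mul] at a3

end Crest.Agent.R109
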