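import Crest.Agent.R109.Gb

/-!
# Row 109, task R109-RN

Radon–Nikodym.  PLAN.  `hahn`: `ν = t ω - φ` attains its maximum on `{a ∈ A | 0 ≤ a ≤ 1}` (maximising
sequence, `exists_wlim` along `hyperfilter ℕ`, `NPos.tendsto`) at `a₀`; then `ν (b a₀) ≥ 0`,
`ν (b (1 - a₀)) ≤ 0` for `0 ≤ b ≤ 1` in `A`; `f = 1[a₀ ≥ 1/2]` (`spec_proj`/`exists_cut`): a projection
`p ≤ f` is `2 b a₀`, a projection `p ≤ 1 - f` is `2 b (1 - a₀)`.  `rn_dom`: `ρ_P = ∑_{p ∈ P} (φ (p f) / ω (p f)) p f`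
lies between `c f` and `C f`; weak limit `ρ` along `Ultrafilter.of atTop`; `ω (ρ p) = φ (p f)` for projections
(`exists_two`), then `Masa.ext_proj`.  `rn_cut`: `φ = ω (v · v⋆)` is normal and central
(`v a = (v a v⋆) v`), `ψ = ω (e · e)`, `e = v⋆ v`.  `hahn` twice: `f₁` with `φ ≤ t ω`, `ω (1 - f₁) ≤ 1/t`;
for the other direction apply `hahn` symmetrically (state `hahn` for two normal functionals):
`ψ ≤ t φ` below `f₂`, `φ (1 - f₂) ≤ 1/t`, so `ω (e (1 - f₂)) = ω (v⋆ (v (1 - f₂) v⋆) v)` is small by `uac_mul`.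
`f = f₁ f₂ e`, and `ω (v f y) = φ (f y v) = φ (E (f y v)) = ω (E (f y v) ρ) = ω (y v f ρ)`; use `ρ + (1 - f)`.
-/

set_option autoImplicit false
set_option linter.unusedSectionVars false
set_option linter.unusedVariables false

namespace Crest.Agent.R109

open scoped InnerProductSpace ComplexOrder ComplexConjugate
open Filter Topology

universe u

variable {H : Type u} [NormedAddCommGroup H] [InnerProductSpace ℂ H] [CompleteSpace H]
  {M : VonNeumannAlgebra H} {A : StarSubalgebra ℂ (H →L[ℂ] H)}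
  {ω φ : (H →L[ℂ] H) →ₗ[ℂ] ℂ} {E : (H →L[ℂ] H) →ₗ[ℂ] (H →L[ℂ] H)}

namespace RNA

theorem rsmul_mem {a : H →L[ℂ] H} (ha : a ∈ A) (c : ℝ) : c • a ∈ A := by
  rw [← Complex.coe_smul]
  exact A.smul_mem ha _

theorem map_rsmul (φ : (H →L[ℂ] H) →ₗ[ℂ] ℂ) (c : ℝ) (a : H →L[ℂ] H) :
    φ (c • a) = (c : ℂ) * φ a := by
  rw [← Complex.coe_smul, map_smul, smul_eq_mul]

theorem re_rsmul (φ : (H →L[ℂ] H) →ₗ[ℂ] ℂ) (c : ℝ) (a : H →L[ℂ] H) :
    (φ (c • a)).re = c * (φ a).re := by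
  rw [map_rsmul, Complex.re_ofReal_mul]

theorem pa_le {p f : H →L[ℂ] H} (hp : PA A p) (hf : PA A f) (e : f * p = p) : p ≤ f :=
  (hp.2.le_iff_mul_eq_right hf.2).2 e

theorem pa_le_one {p : H →L[ℂ] H} (hp : PA A p) : p ≤ 1 := pa_le hp PA.one (one_mul p)

theorem pa_idem {p : H →L[ℂ] H} (hp : PA A p) : p * p = p := hp.2.isIdempotentElem

theorem pa_star {p : H →L[ℂ] H} (hp : PA A p) : star p = p := hp.2.isSelfAdjoint.star_eq

theorem rsmul_le_rsmul {a b : H →L[ℂ] H} (h : a ≤ b) {c : ℝ} (hc : 0 ≤ c) : c • a ≤ c • b :=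
  smul_le_smul_of_nonneg_left h hc

theorem rsmul_le_rsmul' {a : H →L[ℂ] H} (h : 0 ≤ a) {c d : ℝ} (hc : c ≤ d) : c • a ≤ d • a := by
  rw [← sub_nonneg, ← sub_smul]
  exact smul_nonneg (sub_nonneg.2 hc) h

theorem exists_max (hA : Masa M A) {ψ : (H →L[ℂ] H) →ₗ[ℂ] ℂ} (hφ : NPos M φ) (hψ : NPos M ψ)
    (t : ℝ) : ∃ z ∈ A, 0 ≤ z ∧ z ≤ 1 ∧ ∀ a ∈ A, 0 ≤ a → a ≤ 1 →
      t * (ψ a).re - (φ a).re ≤ t * (ψ z).re - (φ z).re := by
  set S : Set ℝ := {r | ∃ a ∈ A, 0 ≤ a ∧ a ≤ 1 ∧ r = t * (ψ a).re - (φ a).re} with hS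
  have hne : S.Nonempty := ⟨_, 0, zero_mem _, le_rfl, zero_le_one, rfl⟩
  have hbdd : BddAbove S := by
    refine ⟨|t| * (ψ 1).re, ?_⟩
    rintro r ⟨a, ha, h0, h1, rfl⟩
    have haM := hA.le a ha
    have e1 : 0 ≤ (φ a).re := (Complex.nonneg_iff.1 (hφ.pos.nonneg haM h0)).1
    have e2 : 0 ≤ (ψ a).re := (Complex.nonneg_iff.1 (hψ.pos.nonneg haM h0)).1
    have e3 : (ψ a).re ≤ (ψ 1).re := hψ.pos.mono haM (one_mem _) h1
    have e4 : t * (ψ a).re ≤ |t| * (ψ 1).re := mul_le_mul (le_abs_self t) e3 e2 (abs_nonneg t)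
    linarith
  obtain ⟨u, -, hu, huS⟩ := exists_seq_tendsto_sSup hne hbdd
  choose a haA ha0 ha1 hau using huS
  have hn : ∀ n, ‖a n‖ ≤ 1 := fun n => (CStarAlgebra.norm_le_one_iff_of_nonneg (a n) (ha0 n)).2 (ha1 n)
  obtain ⟨z, -, hz⟩ := exists_wlim (hyperfilter ℕ) a hn
  have hzA : z ∈ A := hz.memA hA (Eventually.of_forall haA)
  have hz0 : 0 ≤ z := hz.nonneg (Eventually.of_forall ha0)
  have hz1 : z ≤ 1 := sub_nonneg.1 (((WLim.const 1).sub hz).nonneg
    (Eventually.of_forall (fun n => sub_nonneg.2 (ha1 n))))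
  refine ⟨z, hzA, hz0, hz1, fun b hb hb0 hb1 => ?_⟩
  have hev : ∀ᶠ n in (hyperfilter ℕ : Filter ℕ), a n ∈ M ∧ ‖a n‖ ≤ 1 :=
    Eventually.of_forall (fun n => ⟨hA.le _ (haA n), hn n⟩)
  have t1 := (Complex.continuous_re.tendsto _).comp (hφ.tendsto hev (hA.le z hzA) hz)
  have t2 := (Complex.continuous_re.tendsto _).comp (hψ.tendsto hev (hA.le z hzA) hz)
  have t3 : Tendsto u (hyperfilter ℕ : Filter ℕ) (𝓝 (t * (ψ z).re - (φ z).re)) := by
    have := (t2.const_mul t).sub t1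
    refine this.congr (fun n => ?_)
    rw [hau n]; rfl
  have e : sSup S = t * (ψ z).re - (φ z).re :=
    tendsto_nhds_unique (hu.mono_left Nat.hyperfilter_le_atTop) t3
  rw [← e]
  exact le_csSup hbdd ⟨b, hb, hb0, hb1, rfl⟩

end RNA

open RNA in
theorem hahn (hA : Masa M A) {ψ : (H →L[ℂ] H) →ₗ[ℂ] ℂ} (hφ : NPos M φ) (hψ : NPos M ψ) {t : ℝ}
    (ht : 0 < t) : ∃ f, PA A f ∧ (∀ p, PA A p → f * p = p → (φ p).re ≤ t * (ψ p).re) ∧
      t * (ψ (1 - f)).re ≤ (φ (1 - f)).re := by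
  obtain ⟨z, hzA, hz0, hz1, hmax⟩ := exists_max hA hφ hψ t
  obtain ⟨g, hg, hgc, hg1, hg2⟩ := spec_proj (IsSelfAdjoint.of_nonneg hz0) (1 / 2 : ℝ)
  have hgA : PA A g := ⟨hA.mem_of_comm hzA hgc, hg⟩
  have hgz : z * g = g * z := hgc z rfl
  have hgg : g * g = g := pa_idem hgA
  have hdec : z = g * z * g + (1 - g) * z * (1 - g) := by
    have : g * z * g = z * g := by rw [← hgz, mul_assoc, hgg]
    have e2 : (1 - g) * z * (1 - g) = z - z * g - g * z + g * z * g := by noncomm_ring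
    rw [e2, this, ← hgz]; abel
  have p1 : 0 ≤ g * z * g := hg.isSelfAdjoint.conjugate_nonneg hz0
  have p2 : (1 - g) * z * (1 - g) ≤ 1 - g := by
    have := hg.one_sub.isSelfAdjoint.conjugate_le_conjugate hz1
    rwa [mul_one, pa_idem hgA.compl] at this
  refine ⟨1 - g, hgA.compl, fun p hp e => ?_, ?_⟩
  · have hp1 : p ≤ 1 - g := pa_le hp hgA.compl e
    have q0 : 0 ≤ z - (1 / 2 : ℝ) • p := by
      rw [sub_nonneg]
      calc (1 / 2 : ℝ) • p ≤ (1 / 2 : ℝ) • (1 - g) := rsmul_le_rsmul hp1 (by norm_num)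
        _ ≤ (1 - g) * z * (1 - g) := hg2
        _ ≤ g * z * g + (1 - g) * z * (1 - g) := le_add_of_nonneg_left p1
        _ = z := hdec.symm
    have q1 : z - (1 / 2 : ℝ) • p ≤ 1 :=
      (sub_le_self _ (smul_nonneg (by norm_num) hp.2.nonneg)).trans hz1
    have := hmax _ (sub_mem hzA (rsmul_mem hp.1 _)) q0 q1
    rw [map_sub, map_sub, Complex.sub_re, Complex.sub_re, re_rsmul, re_rsmul] at this
    linarith
  · rw [sub_sub_cancel]
    have q0 : 0 ≤ z + (1 / 2 : ℝ) • g := add_nonneg hz0 (smul_nonneg (by norm_num) hg.nonneg)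
    have q1 : z + (1 / 2 : ℝ) • g ≤ 1 := by
      calc z + (1 / 2 : ℝ) • g = g * z * g + (1 - g) * z * (1 - g) + (1 / 2 : ℝ) • g := by
            rw [← hdec]
        _ ≤ (1 / 2 : ℝ) • g + (1 - g) + (1 / 2 : ℝ) • g := by gcongr
        _ = 1 := by module
    have := hmax _ (add_mem hzA (rsmul_mem hgA.1 _)) q0 q1
    rw [map_add, map_add, Complex.add_re, Complex.add_re, re_rsmul, re_rsmul] at this
    linarith

namespace RNA

theorem eq_re (h : Pos M φ) {y : H →L[ℂ] H} (hy : y ∈ M) (h0 : 0 ≤ y) : φ y = ((φ y).re : ℂ) := by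
  have := Complex.nonneg_iff.1 (h.nonneg hy h0)
  exact Complex.ext (by simp) (by simp [this.2.symm])

/-- the step-function approximation of the density -/
noncomputable def rho (ω φ : (H →L[ℂ] H) →ₗ[ℂ] ℂ) (f : H →L[ℂ] H) (P : Part A) : H →L[ℂ] H :=
  ∑ p ∈ P.cells, ((φ (p * f)).re / (ω (p * f)).re) • (p * f)

theorem sum_cells (P : Part A) (f : H →L[ℂ] H) : ∑ p ∈ P.cells, p * f = f := by
  rw [← Finset.sum_mul, P.sum, one_mul]

theorem cell_bound (h : St M A ω) {g : H →L[ℂ] H} (hg : PA A g) {c C r : ℝ}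
    (h1 : c * (ω g).re ≤ r) (h2 : r ≤ C * (ω g).re) :
    c • g ≤ (r / (ω g).re) • g ∧ (r / (ω g).re) • g ≤ C • g := by
  by_cases h0 : (ω g).re ≤ 0
  · have : g = 0 := h.eq_zero_of_nonneg (h.masa.le _ hg.1) hg.2.nonneg h0
    subst this
    simp
  · have hp : 0 < (ω g).re := not_le.1 h0
    exact ⟨rsmul_le_rsmul' hg.2.nonneg ((le_div_iff₀ hp).2 h1),
      rsmul_le_rsmul' hg.2.nonneg ((div_le_iff₀ hp).2 h2)⟩

theorem cell_val (h : St M A ω) (hφ : NPos M φ) {g : H →L[ℂ] H} (hg : PA A g) :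
    ω (((φ g).re / (ω g).re) • g) = φ g := by
  have hgM := h.masa.le _ hg.1
  by_cases h0 : (ω g).re ≤ 0
  · have : g = 0 := h.eq_zero_of_nonneg hgM hg.2.nonneg h0
    subst this
    simp
  · have hp : 0 < (ω g).re := not_le.1 h0
    rw [map_rsmul, eq_re hφ.pos hgM hg.2.nonneg, Complex.ofReal_re]
    conv_lhs => rw [eq_re h.npos.pos hgM hg.2.nonneg]
    rw [Complex.ofReal_re, ← Complex.ofReal_mul, div_mul_cancel₀ _ hp.ne']

end RNA

open RNA in
theorem rn_dom (h : St M A ω) (hφ : NPos M φ) {f : H →L[ℂ] H} (hf : PA A f) {c C : ℝ} (hc : 0 ≤ c)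
    (hcC : c ≤ C)
    (hd : ∀ p, PA A p → f * p = p → c * (ω p).re ≤ (φ p).re ∧ (φ p).re ≤ C * (ω p).re) :
    ∃ ρ ∈ A, c • f ≤ ρ ∧ ρ ≤ C • f ∧ ∀ a ∈ A, φ (a * f) = ω (a * ρ) := by
  have hA := h.masa
  have := hA.neBot
  have hcell : ∀ (P : Part A), ∀ p ∈ P.cells, PA A (p * f) ∧ f * (p * f) = p * f := by
    intro P p hp
    refine ⟨(P.pa p hp).mul hA hf, ?_⟩
    rw [← mul_assoc, hA.comm f hf.1 p (P.pa p hp).1, mul_assoc, pa_idem hf]
  have hlo : ∀ P : Part A, c • f ≤ rho ω φ f P := by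
    intro P
    conv_lhs => rw [← sum_cells P f, Finset.smul_sum]
    refine Finset.sum_le_sum (fun p hp => ?_)
    obtain ⟨h1, h2⟩ := hd _ (hcell P p hp).1 (hcell P p hp).2
    exact (cell_bound h (hcell P p hp).1 h1 h2).1
  have hhi : ∀ P : Part A, rho ω φ f P ≤ C • f := by
    intro P
    conv_rhs => rw [← sum_cells P f, Finset.smul_sum]
    refine Finset.sum_le_sum (fun p hp => ?_)
    obtain ⟨h1, h2⟩ := hd _ (hcell P p hp).1 (hcell P p hp).2
    exact (cell_bound h (hcell P p hp).1 h1 h2).2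
  have hmem : ∀ P : Part A, rho ω φ f P ∈ A := fun P =>
    sum_mem (fun p hp => rsmul_mem (hcell P p hp).1.1 _)
  have hn : ∀ P : Part A, ‖rho ω φ f P‖ ≤ ‖C • f‖ := fun P =>
    CStarAlgebra.norm_le_norm_of_nonneg_of_le ((smul_nonneg hc hf.2.nonneg).trans (hlo P)) (hhi P)
  obtain ⟨ρ, -, hρ⟩ := exists_wlim (Ultrafilter.of (atTop : Filter (Part A))) (rho ω φ f) hn
  have hρA : ρ ∈ A := hρ.memA hA (Eventually.of_forall hmem)
  refine ⟨ρ, hρA, sub_nonneg.1 ((hρ.sub (WLim.const _)).nonneg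
      (Eventually.of_forall (fun P => sub_nonneg.2 (hlo P)))),
    sub_nonneg.1 (((WLim.const _).sub hρ).nonneg
      (Eventually.of_forall (fun P => sub_nonneg.2 (hhi P)))), ?_⟩
  have hproj : ∀ e, PA A e → φ (e * f) = ω (e * ρ) := by
    intro e he
    obtain ⟨P₀, -, hP₀⟩ := exists_two he
    have t1 : Tendsto (fun P => ω (e * rho ω φ f P)) (Ultrafilter.of (atTop : Filter (Part A)))
        (𝓝 (ω (e * ρ))) :=
      h.npos.tendsto (C := ‖e‖ * ‖C • f‖) (Eventually.of_forall (fun P =>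
        ⟨hA.le _ (mul_mem he.1 (hmem P)),
          (norm_mul_le _ _).trans (mul_le_mul_of_nonneg_left (hn P) (norm_nonneg _))⟩))
        (hA.le _ (mul_mem he.1 hρA)) (hρ.mul_left e)
    have t2 : ∀ᶠ P in (Ultrafilter.of (atTop : Filter (Part A)) : Filter (Part A)),
        ω (e * rho ω φ f P) = φ (e * f) := by
      refine Filter.Eventually.filter_mono (Ultrafilter.of_le _) ?_
      filter_upwards [eventually_ge_atTop P₀] with P hP
      conv_rhs => rw [← sum_cells P f, Finset.mul_sum, map_sum]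
      rw [rho, Finset.mul_sum, map_sum]
      refine Finset.sum_congr rfl (fun p hp => ?_)
      rw [mul_smul_comm, ← mul_assoc]
      rcases hP₀ P hP p hp with h1 | h1
      · rw [h1]
        exact cell_val h hφ (hcell P p hp).1
      · rw [h1]
        simp
    exact (tendsto_nhds_unique (t1.congr' t2) tendsto_const_nhds).symm
  intro a ha
  have := hA.ext_proj (φ ∘ₗ LinearMap.mulRight ℂ f - ω ∘ₗ LinearMap.mulRight ℂ ρ)
    (C := (φ 1).re * ‖f‖ + (ω 1).re * ‖ρ‖) (fun b hb => ?_) (fun e he => ?_) a ha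
  · simpa [sub_eq_zero] using this
  · have p1 : 0 ≤ (φ 1).re := (Complex.nonneg_iff.1 (hφ.pos.nonneg (one_mem _) zero_le_one)).1
    have p2 : 0 ≤ (ω 1).re := (Complex.nonneg_iff.1 (h.npos.pos.nonneg (one_mem _) zero_le_one)).1
    have q1 := hφ.pos.norm_le (hA.le _ (mul_mem hb hf.1))
    have q2 := h.npos.pos.norm_le (hA.le _ (mul_mem hb hρA))
    have q3 := mul_le_mul_of_nonneg_left (norm_mul_le b f) p1
    have q4 := mul_le_mul_of_nonneg_left (norm_mul_le b ρ) p2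
    have q5 := norm_sub_le (φ (b * f)) (ω (b * ρ))
    simp only [LinearMap.sub_apply, LinearMap.comp_apply, LinearMap.mulRight_apply]
    nlinarith
  · simp only [LinearMap.sub_apply, LinearMap.comp_apply, LinearMap.mulRight_apply]
    rw [hproj e he, sub_self]

namespace RNA

/-- `y ↦ ω (v y v⋆)` -/
noncomputable def cj (ω : (H →L[ℂ] H) →ₗ[ℂ] ℂ) (v : H →L[ℂ] H) : (H →L[ℂ] H) →ₗ[ℂ] ℂ :=
  ω ∘ₗ (LinearMap.mulLeft ℂ (star (star v)) ∘ₗ LinearMap.mulRight ℂ (star v))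

theorem cj_apply (v y : H →L[ℂ] H) : cj ω v y = ω (v * y * star v) := by
  simp [cj, mul_assoc]

theorem cj_npos (h : NPos M ω) {v : H →L[ℂ] H} (hv : v ∈ M) : NPos M (cj ω v) :=
  h.conj (star_mem hv)

theorem cj_cent (h : St M A ω) {v : H →L[ℂ] H} (hv : Gr M A v) : Cent M A (cj ω v) := by
  intro a ha y hy
  have hvM := hv.1.1
  rw [cj_apply, cj_apply]
  have e1 : v * (a * y) * star v = (v * a * star v) * (v * y * star v) := by
    calc v * (a * y) * star v = (v * a) * (y * star v) := by noncomm_ring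
      _ = ((v * a * star v) * v) * (y * star v) := by rw [← hv.mul_eq h.masa ha]
      _ = _ := by noncomm_ring
  have e2 : v * (y * a) * star v = (v * y * star v) * (v * a * star v) := by
    have := hv.adj.mul_eq' h.masa ha
    rw [star_star] at this
    calc v * (y * a) * star v = (v * y) * (a * star v) := by noncomm_ring
      _ = (v * y) * (star v * (v * a * star v)) := by rw [← this]
      _ = _ := by noncomm_ring
  rw [e1, e2]
  exact h.cent _ (hv.1.2.1 a ha) _ (mul_mem (mul_mem hvM hy) (star_mem hvM))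

theorem re_le_one (h : St M A ω) {y : H →L[ℂ] H} (hy : y ∈ M) (h1 : y ≤ 1) : (ω y).re ≤ 1 := by
  have := h.npos.pos.mono hy (one_mem _) h1
  rwa [h.one, Complex.one_re] at this

end RNA

open RNA in
theorem rn_cut (h : St M A ω) (hE : CE M A ω E) {v : H →L[ℂ] H} (hv : Gr M A v) {η : ℝ}
    (hη : 0 < η) : ∃ f Λ, PA A f ∧ Gb M A ω Λ (v * f) ∧ (ω (star v * v * (1 - f))).re ≤ η := by
  have hA := h.masa
  have hvM := hv.1.1
  obtain ⟨e, he⟩ : ∃ e, e = star v * v := ⟨_, rfl⟩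
  rw [← he]
  have heA : PA A e := he ▸ hv.src
  have heM : e ∈ M := hA.le _ heA.1
  have hφ : NPos M (cj ω v) := cj_npos h.npos hvM
  have hψ : NPos M (cj ω e) := cj_npos h.npos heM
  obtain ⟨δ, hδ, hδ'⟩ := uac_mul h hvM 1 (half_pos hη)
  set t : ℝ := max 1 (max (1 / δ) (2 / η)) with ht
  have ht1 : 1 ≤ t := le_max_left _ _
  have ht0 : 0 < t := lt_of_lt_of_le one_pos ht1
  have htδ : 1 ≤ t * δ := (div_le_iff₀ hδ).1 ((le_max_left _ _).trans (le_max_right _ _))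
  have htη : 2 ≤ t * η := (div_le_iff₀ hη).1 ((le_max_right _ _).trans (le_max_right _ _))
  obtain ⟨f₁, hf₁, h11, h12⟩ := hahn hA hφ h.npos ht0
  obtain ⟨f₂, hf₂, h21, h22⟩ := hahn hA hψ hφ ht0
  have conj_pa : ∀ {w : H →L[ℂ] H}, Gr M A w → ∀ {g : H →L[ℂ] H}, PA A g →
      PA A (w * g * star w) := by
    intro w hw g hg
    have := hw.adj.conj_pa hA hg
    rwa [star_star] at this
  have b1 : (ω (1 - f₁)).re ≤ η / 2 := by
    have := conj_pa hv hf₁.compl
    have := re_le_one h (hA.le _ this.1) (pa_le_one this)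
    rw [cj_apply] at h12
    by_contra hc
    have := mul_lt_mul_of_pos_left (not_le.1 hc) ht0
    linarith
  have b2 : (ω (e * (1 - f₂))).re ≤ η / 2 := by
    have hk := conj_pa hv hf₂.compl
    have hk2 := conj_pa (heA.gr hA) hf₂.compl
    have := re_le_one h (hA.le _ hk2.1) (pa_le_one hk2)
    rw [cj_apply, cj_apply] at h22
    have hle : (ω (v * (1 - f₂) * star v)).re ≤ δ := by
      by_contra hc
      have := mul_lt_mul_of_pos_left (not_le.1 hc) ht0
      linarith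
    have := hδ' _ (hA.le _ hk.1) hk.2.nonneg hk.norm_le hle
    have e1 : star v * (v * (1 - f₂) * star v) * v = e * (1 - f₂) := by
      calc star v * (v * (1 - f₂) * star v) * v = e * ((1 - f₂) * e) := by rw [he]; noncomm_ring
        _ = e * (e * (1 - f₂)) := by rw [hA.comm _ hf₂.compl.1 _ heA.1]
        _ = _ := by rw [← mul_assoc, pa_idem heA]
    rwa [e1] at this
  obtain ⟨f, hf⟩ : ∃ f, f = f₁ * f₂ * e := ⟨_, rfl⟩
  have hfA : PA A f := hf ▸ (hf₁.mul hA hf₂).mul hA heA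
  have c1 : f₁ * f = f := by rw [hf, ← mul_assoc, ← mul_assoc, pa_idem hf₁]
  have c2 : f₂ * f = f := by
    rw [hf, hA.comm _ hf₁.1 _ hf₂.1, ← mul_assoc, ← mul_assoc, pa_idem hf₂]
  have c3 : e * f = f := by
    rw [hA.comm _ heA.1 _ hfA.1, hf, mul_assoc, pa_idem heA]
  obtain ⟨ρ, hρA, hρ1, hρ2, hρ3⟩ := rn_dom h hφ hfA (c := 1 / t) (C := t) (by positivity)
    ((div_le_one ht0).2 ht1 |>.trans ht1) (fun p hp hfp => by
      refine ⟨?_, h11 p hp (by rw [← hfp, ← mul_assoc, c1])⟩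
      have := h21 p hp (by rw [← hfp, ← mul_assoc, c2])
      have e1 : e * p = p := by rw [← hfp, ← mul_assoc, c3]
      have e2 : e * p * star e = p := by
        rw [pa_star heA, e1, hA.comm _ hp.1 _ heA.1, e1]
      rw [cj_apply, e2] at this
      rw [one_div, inv_mul_le_iff₀ ht0]
      exact this)
  refine ⟨f, Real.log t, hfA, ⟨hv.mul hA (hfA.gr hA), ρ + (1 - f), add_mem hρA hfA.compl.1,
    ?_, ?_, ?_⟩, ?_⟩
  · rw [Real.exp_neg, Real.exp_log ht0]
    calc t⁻¹ • (1 : H →L[ℂ] H) = (1 / t) • f + t⁻¹ • (1 - f) := by rw [one_div]; module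
      _ ≤ ρ + (1 : ℝ) • (1 - f) :=
        add_le_add hρ1 (rsmul_le_rsmul' hfA.compl.2.nonneg (inv_le_one_of_one_le₀ ht1))
      _ = _ := by rw [one_smul]
  · rw [Real.exp_log ht0]
    calc ρ + (1 - f) = ρ + (1 : ℝ) • (1 - f) := by rw [one_smul]
      _ ≤ t • f + t • (1 - f) := add_le_add hρ2 (rsmul_le_rsmul' hfA.compl.2.nonneg ht1)
      _ = _ := by module
  · intro y hy
    have hfM : f ∈ M := hA.le _ hfA.1
    have hyv : y * v ∈ M := mul_mem hy hvM
    have hyvf : y * v * f ∈ M := mul_mem hyv hfM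
    have e1 : ω (v * f * y) = cj ω v (f * (y * v)) := by
      rw [cj_apply]
      have : v * (f * (y * v)) * star v = (v * f * y) * (v * star v) := by noncomm_ring
      rw [this, ← h.cent _ hv.rng.1 _ (mul_mem (mul_mem hvM hfM) hy)]
      congr 1
      calc v * f * y = (v * star v * v) * f * y := by rw [hv.2]
        _ = _ := by noncomm_ring
    have e2 : E (y * v * f) = E (y * v * f) * f := by
      rw [← hE.right f hfA.1, mul_assoc (y * v), pa_idem hfA]
    have e3 : y * (v * f) * (ρ + (1 - f)) = y * v * f * ρ := by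
      have : f * (1 - f) = 0 := hfA.2.mul_one_sub_self
      calc y * (v * f) * (ρ + (1 - f)) = y * v * f * ρ + y * v * (f * (1 - f)) := by noncomm_ring
        _ = _ := by rw [this, mul_zero, add_zero]
    rw [e1, cj_cent h hv f hfA.1 _ hyv, ← hE.fac _ hφ (cj_cent h hv) _ hyvf, e2,
      hρ3 _ (hE.mem _ hyvf), ← hE.right ρ hρA, hE.inv _ (mul_mem hyvf (hA.le _ hρA)), e3]
  · have hg : PA A (e * f₂ * (1 - f₁)) := (heA.mul hA hf₂).mul hA hf₁.compl
    have e1 : e * (1 - f) = e * (1 - f₂) + e * f₂ * (1 - f₁) := by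
      have : f = e * f₂ * f₁ := by
        rw [hf, hA.comm _ (hf₁.mul hA hf₂).1 _ heA.1, hA.comm _ hf₁.1 _ hf₂.1, mul_assoc]
      rw [mul_sub e 1 f, c3]
      conv_lhs => rw [this]
      noncomm_ring
    have e2 : e * f₂ * (1 - f₁) ≤ 1 - f₁ := pa_le hg hf₁.compl (by
      rw [hA.comm _ hf₁.compl.1 _ hg.1, mul_assoc, pa_idem hf₁.compl])
    have e3 := h.npos.pos.mono (hA.le _ hg.1) (hA.le _ hf₁.compl.1) e2
    rw [e1, map_add, Complex.add_re]
    linarith

namespace RNA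

theorem eq_zero_of_sqrt {x : ℂ} {K : ℝ} (h : ∀ η : ℝ, 0 < η → ‖x‖ ≤ K * √η) : x = 0 := by
  have t : Tendsto (fun η : ℝ => K * √η) (𝓝[>] 0) (𝓝 (K * √0)) :=
    ((Real.continuous_sqrt.tendsto 0).const_mul K).mono_left nhdsWithin_le_nhds
  rw [Real.sqrt_zero, mul_zero] at t
  have : ‖x‖ ≤ 0 := ge_of_tendsto t (eventually_nhdsWithin_of_forall (fun η hη => h η hη))
  exact norm_le_zero_iff.1 this

theorem perp_gr (h : St M A ω) (hE : CE M A ω E) {T v c : H →L[ℂ] H} (hT : T ∈ M)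
    (hp : PerpN M A ω T) (hv : Gr M A v) (hc : c ∈ A) : ω (star (v * c) * T) = 0 := by
  have hA := h.masa
  have hvM := hv.1.1
  refine eq_zero_of_sqrt (K := ‖c‖ * n2 ω T) (fun η hη => ?_)
  obtain ⟨f, Λ, hf, hg, hs⟩ := rn_cut h hE hv hη
  have e1 : star (v * c) * T = star (v * f * c) * T + star (v * (1 - f) * c) * T := by
    rw [← add_mul, ← star_add]
    congr 2
    noncomm_ring
  have hm : v * (1 - f) ∈ M := mul_mem hvM (hA.le _ hf.compl.1)
  rw [e1, map_add, hp Λ _ hg c hc, zero_add]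
  have b1 := h.npos.pos.cs (mul_mem hm (hA.le _ hc)) hT
  have b2 := h.n2_mul_right hc hm
  have b3 : n2 ω (v * (1 - f)) ≤ √η := by
    refine Real.sqrt_le_sqrt ?_
    have : star (v * (1 - f)) * (v * (1 - f)) = star v * v * (1 - f) := by
      calc star (v * (1 - f)) * (v * (1 - f)) = ((1 - f) * (star v * v)) * (1 - f) := by
            rw [star_mul, pa_star hf.compl]; noncomm_ring
        _ = _ := by rw [hA.comm _ hf.compl.1 _ hv.src.1, mul_assoc, pa_idem hf.compl]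
    rw [this]
    exact hs
  calc _ ≤ n2 ω (v * (1 - f) * c) * n2 ω T := b1
    _ ≤ (‖c‖ * √η) * n2 ω T := mul_le_mul_of_nonneg_right
        (b2.trans (mul_le_mul_of_nonneg_left b3 (norm_nonneg _))) (n2_nonneg _)
    _ = _ := by ring

end RNA

open RNA in
/-- orthogonality extends to all quasi-normalisers.  PLAN: `exists_cut` for `w⋆ w` gives `f, b`;
`v = w b ∈ Gr`, `w f = v c` with `c = b w⋆ w ∈ A`..., `‖w (1 - f)‖² ≤ t`; then `rn_cut` and Cauchy–Schwarz:
`ω ((v (1 - f') c)⋆ T) = ω (v⋆ T c⋆ (1 - f') v⋆ v)`-type estimate. -/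
theorem perp_qn (h : St M A ω) (hE : CE M A ω E) {T w : H →L[ℂ] H} (hT : T ∈ M)
    (hp : PerpN M A ω T) (hw : QN M A w) : ω (star w * T) = 0 := by
  have hA := h.masa
  have hwM := hw.1
  have ha : star w * w ∈ A := by simpa using hw.2.2 1 (one_mem _)
  refine eq_zero_of_sqrt (K := n2 ω T) (fun t ht => ?_)
  obtain ⟨f, hf, h1, -, b, hb, hbs, hbf, hbab⟩ := exists_cut hA ha (star_mul_self_nonneg w) ht
  have hv : Gr M A (w * b) := by
    refine ⟨⟨mul_mem hwM (hA.le _ hb), fun a ha' => ?_, fun a ha' => ?_⟩, ?_⟩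
    · have : w * b * a * star (w * b) = w * (b * a * b) * star w := by
        rw [star_mul, hbs.star_eq]; noncomm_ring
      rw [this]
      exact hw.2.1 _ (mul_mem (mul_mem hb ha') hb)
    · have : star (w * b) * a * (w * b) = b * (star w * a * w) * b := by
        rw [star_mul, hbs.star_eq]; noncomm_ring
      rw [this]
      exact mul_mem (mul_mem hb (hw.2.2 _ ha')) hb
    · calc w * b * star (w * b) * (w * b) = w * (b * (b * (star w * w) * b)) := by
            rw [star_mul, hbs.star_eq]; noncomm_ring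
        _ = w * b := by rw [hbab, hbf]
  have e1 : star w * T = star (w * b * (star w * w * b)) * T + star (w * (1 - f)) * T := by
    rw [← add_mul, ← star_add]
    congr 2
    have : w * b * (star w * w * b) = w * f := by rw [← hbab]; noncomm_ring
    rw [this]
    noncomm_ring
  have hm : w * (1 - f) ∈ M := mul_mem hwM (hA.le _ hf.compl.1)
  rw [e1, map_add, perp_gr h hE hT hp hv (mul_mem ha hb), zero_add]
  have b1 := h.npos.pos.cs hm hT
  have b2 := h.n2_le_norm hm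
  have b3 : ‖w * (1 - f)‖ ≤ √t := by
    refine Real.le_sqrt_of_sq_le ?_
    rw [sq, ← CStarRing.norm_star_mul_self]
    have : star (w * (1 - f)) * (w * (1 - f)) = (1 - f) * (star w * w * (1 - f)) := by
      rw [star_mul, pa_star hf.compl]; noncomm_ring
    rw [this]
    refine (norm_mul_le _ _).trans ?_
    have := mul_le_mul hf.compl.norm_le h1 (norm_nonneg _) zero_le_one
    rwa [one_mul] at this
  calc _ ≤ n2 ω (w * (1 - f)) * n2 ω T := b1
    _ ≤ √t * n2 ω T := mul_le_mul_of_nonneg_right (b2.trans b3) (n2_nonneg _)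
    _ = _ := mul_comm _ _

end Crest.Agent.R109
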