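import Crest.Agent.R109.AtomA
import Crest.Agent.R109.AtomC
import Crest.Agent.R109.RN

/-!
# Row 109, task R109-Atom

Elements orthogonal to the groupoid have no atoms.  PLAN.  If not, `big_of_not`, `big_ratio`, `graph_part`
give `SubG T W₁`; `noAtom_zero` gives `¬ NoAtom (W₁⋆)`, hence `SubG W₁⋆ V`.  From `e W₁ = W₁ e'` get
`W₁⋆ e = e' W₁⋆`, so `V e = e' V` (`inh`), i.e. `e V⋆ = V⋆ e'`; `conj_mem_of_left` for `V` and `V⋆` shows
`QN (V⋆)`.  `ω (V T) = ω (V W₁) + ω (V (T - W₁)) = ω (V V⋆) + 0 ≠ 0` (`orth2`, `lim` with `orth1`),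
contradicting `perp_qn`.
-/

set_option autoImplicit false
set_option linter.unusedSectionVars false
set_option linter.unusedVariables false

namespace Crest.Agent.R109

open scoped InnerProductSpace ComplexOrder ComplexConjugate
open Filter Topology

universe u

variable {H : Type u} [NormedAddCommGroup H] [InnerProductSpace ℂ H] [CompleteSpace H]
  {M : VonNeumannAlgebra H} {A : StarSubalgebra ℂ (H →L[ℂ] H)}
  {ω φ : (H →L[ℂ] H) →ₗ[ℂ] ℂ} {E : (H →L[ℂ] H) →ₗ[ℂ] (H →L[ℂ] H)}

theorem Atom.subG_of_not (h : St M A ω) (hE : CE M A ω E) {T : H →L[ℂ] H} (hT : T ∈ M)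
    (hn : ¬ NoAtom A ω E T) : ∃ W, SubG M A ω T W := by
  obtain ⟨γ₀, f₀, h0, hb⟩ := big_of_not h hE hT hn
  obtain ⟨γ, e, f, hγ, he, hb', hr⟩ := big_ratio h hE hT h0 hb
  exact graph_part h hE hT hγ he hb' hr

theorem noAtom_of_perp (h : St M A ω) (hE : CE M A ω E) {T : H →L[ℂ] H} (hT : T ∈ M)
    (hp : PerpN M A ω T) : NoAtom A ω E T := by
  by_contra hn
  obtain ⟨W, hW⟩ := Atom.subG_of_not h hE hT hn
  have hn' : ¬ NoAtom A ω E (star W) := fun h' => hW.ne (noAtom_zero h hE hW.mem hW.left h')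
  obtain ⟨V, hV⟩ := Atom.subG_of_not h hE (star_mem hW.mem) hn'
  have hl : ∀ e, PA A e → ∃ e', PA A e' ∧ e * star V = star V * e' := by
    intro e he
    obtain ⟨e', he', h1⟩ := hW.left e he
    refine ⟨e', he', ?_⟩
    have h2 : star W * e = e' * star W := by
      have := congrArg star h1
      rwa [star_mul, star_mul, he.2.isSelfAdjoint.star_eq, he'.2.isSelfAdjoint.star_eq] at this
    have h3 := congrArg star (hV.inh e he.1 e' he'.1 h2)
    rwa [star_mul, star_mul, he.2.isSelfAdjoint.star_eq, he'.2.isSelfAdjoint.star_eq] at h3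
  have hq : QN M A (star V) := by
    refine ⟨star_mem hV.mem, conj_mem_of_left h.masa (star_mem hV.mem) hl, fun a ha => ?_⟩
    rw [star_star]
    exact conj_mem_of_left h.masa hV.mem hV.left a ha
  have h1 := perp_qn h hE hT hp hq
  rw [star_star] at h1
  have h2 := hV.lim (T - W) (sub_mem hT hW.mem) hW.orth1
  have h3 := hV.orth2
  rw [star_sub, star_star, mul_sub, map_sub] at h3
  rw [mul_sub, map_sub] at h2
  have h4 : ω (star (star V) * star V) = 0 := by
    rw [star_star]
    linear_combination h1 - h2 - h3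
  exact hV.ne (star_eq_zero.mp (h.faith _ (star_mem hV.mem) h4))

end Crest.Agent.R109
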