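import Crest.Agent.R109.CE

/-!
# Row 109, task R109-AtomA

Atoms of fibre measures, I.  Write `μ T p = E (T⋆ p T) ∈ A`, positive, monotone in `p`.
PLAN.  `big_of_not`: fix `γ` violating `NoAtom`; `S = {g | PA g ∧ ∃ Q, ∀ p ∈ Q, ‖μ T p * g‖ ≤ γ}` contains `0`,
is directed (`g ∨ g' = g + g' - g g'`, common refinement; `‖a (g + (1 - g) g')‖ ≤ max`); `sup_proj` gives `g∞`,
`ω (1 - g∞) ≥ γ`, `f = 1 - g∞`.  `big_ratio`: `γ⋆ = sup {γ | ∃ f, Big T γ f} ≤ ‖T‖²`; take `γ > 2 γ⋆ / 3` with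
`Big T γ f`; `¬ Big T (3γ/2) f` gives `Q, f₁ ≤ f` with all `‖μ T p f₁‖ ≤ 3γ/2`.  If no `(p ∈ Q, f₂ ≤ f₁)` had
`Big (p T) γ f₂`, shrink `f₁` cell by cell (Finset induction) and refine, contradicting `Big T γ f`.  Then
`Big (p T f₂) γ f₂` since `μ (p T f₂) e f' = μ (p T) e f'` for `f' ≤ f₂`.
`noAtom_zero`: `W a W⋆` commutes with all projections of `A` (`e W = W e'`, `W⋆ e = e' W⋆`), so lies in `A` and
equals its expectation.  With `Q, g` from `NoAtom (star W) γ`: `‖p W⋆ g W p‖ = ‖g W p W⋆ g‖ ≤ γ`, so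
`ω (W⋆ g W) = ∑ ω (p W⋆ g W p) ≤ γ`, and `ω (W⋆ (1 - g) W)` is small by `uac_mul`; so `W = 0`.
-/

set_option autoImplicit false
set_option linter.unusedSectionVars false
set_option linter.unusedVariables false

namespace Crest.Agent.R109

open scoped InnerProductSpace ComplexOrder ComplexConjugate
open Filter Topology

universe u

variable {H : Type u} [NormedAddCommGroup H] [InnerProductSpace ℂ H] [CompleteSpace H]
  {M : VonNeumannAlgebra H} {A : StarSubalgebra ℂ (H →L[ℂ] H)}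
  {ω φ : (H →L[ℂ] H) →ₗ[ℂ] ℂ} {E : (H →L[ℂ] H) →ₗ[ℂ] (H →L[ℂ] H)}

namespace AtomAA

theorem pa_star {f : H →L[ℂ] H} (hf : PA A f) : star f = f := hf.2.isSelfAdjoint.star_eq

theorem pa_idem {f : H →L[ℂ] H} (hf : PA A f) : f * f = f := hf.2.isIdempotentElem

theorem mu_mem (hA : Masa M A) (hE : CE M A ω E) {T p : H →L[ℂ] H} (hT : T ∈ M) (hp : p ∈ A) :
    E (star T * p * T) ∈ A :=
  hE.mem _ (mul_mem (mul_mem (star_mem hT) (hA.le p hp)) hT)

theorem sandwich (hA : Masa M A) {a g : H →L[ℂ] H} (ha : a ∈ A) (hg : PA A g) :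
    star g * a * g = a * g := by
  rw [pa_star hg, hA.comm g hg.1 a ha, mul_assoc, pa_idem hg]

theorem mu_mono (hA : Masa M A) (hE : CE M A ω E) {T p q g : H →L[ℂ] H} (hT : T ∈ M)
    (hp : PA A p) (hq : PA A q) (hpq : p * q = q) (hg : PA A g) :
    ‖E (star T * q * T) * g‖ ≤ ‖E (star T * p * T) * g‖ := by
  have h1 : q ≤ p := (hq.2.le_iff_mul_eq_right hp.2).2 hpq
  have h2 : E (star T * q * T) ≤ E (star T * p * T) :=
    hE.mono (star_left_conjugate_le_conjugate h1 T)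
  have h3 : 0 ≤ E (star T * q * T) := hE.pos _ (star_left_conjugate_nonneg hq.2.nonneg T)
  rw [← sandwich hA (mu_mem hA hE hT hp.1) hg, ← sandwich hA (mu_mem hA hE hT hq.1) hg]
  exact CStarAlgebra.norm_le_norm_of_nonneg_of_le (star_left_conjugate_nonneg h3 g)
    (star_left_conjugate_le_conjugate h2 g)

theorem norm_shrink {a f f' : H →L[ℂ] H} (hf' : PA A f') (h : f * f' = f') :
    ‖a * f'‖ ≤ ‖a * f‖ := by
  calc ‖a * f'‖ = ‖a * f * f'‖ := by rw [mul_assoc, h]
    _ ≤ ‖a * f‖ * ‖f'‖ := norm_mul_le _ _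
    _ ≤ ‖a * f‖ * 1 := mul_le_mul_of_nonneg_left hf'.norm_le (norm_nonneg _)
    _ = _ := mul_one _

theorem normal_of_mem (hA : Masa M A) {a : H →L[ℂ] H} (ha : a ∈ A) : IsStarNormal a :=
  ⟨hA.comm _ (star_mem ha) _ ha⟩

theorem norm_join (hA : Masa M A) {a g g' : H →L[ℂ] H} (ha : a ∈ A) (hg : PA A g) (hg' : PA A g')
    {γ : ℝ} (h1 : ‖a * g‖ ≤ γ) (h2 : ‖a * g'‖ ≤ γ) : ‖a * (g + (1 - g) * g')‖ ≤ γ := by
  have hk : PA A ((1 - g) * g') := PA.mul hA hg.compl hg'
  have hx : a * g ∈ A := mul_mem ha hg.1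
  have hy : a * ((1 - g) * g') ∈ A := mul_mem ha hk.1
  have h0 : g * ((1 - g) * g') = 0 := by
    rw [← mul_assoc, mul_sub, mul_one, pa_idem hg, sub_self, zero_mul]
  have hxy : a * g * (a * ((1 - g) * g')) = 0 := by
    rw [mul_assoc, ← mul_assoc g, hA.comm g hg.1 a ha, mul_assoc, h0, mul_zero, mul_zero]
  rw [mul_add, (normal_of_mem hA hx).norm_add_eq_max (normal_of_mem hA hy)
    (hA.comm _ hx _ hy) hxy]
  refine max_le h1 (le_trans (norm_shrink hk ?_) h2)
  rw [hA.comm (1 - g) hg.compl.1 g' hg'.1, ← mul_assoc, pa_idem hg']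

theorem common (hA : Masa M A) (P Q : Part A) : ∃ R : Part A, P ≤ R ∧ Q ≤ R := by
  have := hA.directed
  exact exists_ge_ge P Q

theorem big_le (hA : Masa M A) (hE : CE M A ω E) {T f : H →L[ℂ] H} {γ : ℝ}
    (hb : Big A E T γ f) : γ ≤ ‖T‖ ^ 2 := by
  obtain ⟨Q⟩ := (inferInstance : Nonempty (Part A))
  obtain ⟨p, hp, h⟩ := hb.2.2 Q f hb.1 hb.2.1 (pa_idem hb.1)
  have h1 : ‖E (star T * p * T) * f‖ ≤ ‖E (star T * p * T)‖ := by
    have := norm_shrink (a := E (star T * p * T)) (f := 1) hb.1 (one_mul f)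
    rwa [mul_one] at this
  have h2 : ‖star T * p * T‖ ≤ ‖T‖ ^ 2 := by
    calc ‖star T * p * T‖ ≤ ‖star T * p‖ * ‖T‖ := norm_mul_le _ _
      _ ≤ (‖star T‖ * ‖p‖) * ‖T‖ := mul_le_mul_of_nonneg_right (norm_mul_le _ _) (norm_nonneg _)
      _ ≤ (‖star T‖ * 1) * ‖T‖ := by
          gcongr; exact (Q.pa p hp).norm_le
      _ = ‖T‖ ^ 2 := by rw [norm_star]; ring
  exact h.le.trans (h1.trans ((hE.norm_le _).trans h2))

theorem mu_cell (hA : Masa M A) {T p r : H →L[ℂ] H} (hp : PA A p) (hr : PA A r)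
    (h : p * r = r) : star (p * T) * r * (p * T) = star T * r * T := by
  have h2 : r * p = r := by rw [hA.comm r hr.1 p hp.1, h]
  rw [star_mul, pa_star hp]
  calc star T * p * r * (p * T) = star T * (p * r * p) * T := by noncomm_ring
    _ = _ := by rw [h, h2]

theorem mu_cut (hA : Masa M A) (hE : CE M A ω E) {S f q : H →L[ℂ] H} (hS : S ∈ M) (hf : PA A f)
    (hq : q ∈ A) : E (star (S * f) * q * (S * f)) = E (star S * q * S) * f := by
  have e : star (S * f) * q * (S * f) = f * (star S * q * S) * f := by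
    rw [star_mul, pa_star hf]; noncomm_ring
  rw [e, hE.right f hf.1, hE.left f hf.1]
  have := sandwich hA (mu_mem hA hE hS hq) hf
  rwa [pa_star hf] at this

theorem exists_cell (hA : Masa M A) (hE : CE M A ω E) {T f f₁ : H →L[ℂ] H} (hT : T ∈ M) {γ : ℝ}
    (hb : Big A E T γ f) (Q : Part A) (h1 : PA A f₁) (h1n : f₁ ≠ 0) (h1f : f * f₁ = f₁) :
    ∃ p ∈ Q.cells, ∃ f₂, f₁ * f₂ = f₂ ∧ Big A E (p * T) γ f₂ := by
  by_contra hcon
  push Not at hcon
  have key : ∀ s : Finset (H →L[ℂ] H), s ⊆ Q.cells → ∃ f', PA A f' ∧ f' ≠ 0 ∧ f₁ * f' = f' ∧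
      ∃ R : Part A, ∀ p ∈ s, ∀ r ∈ R.cells, ‖E (star (p * T) * r * (p * T)) * f'‖ ≤ γ := by
    classical
    intro s
    induction s using Finset.induction_on with
    | empty => exact fun _ => ⟨f₁, h1, h1n, pa_idem h1, Q, by simp⟩
    | insert p s hps ih =>
      intro hs
      obtain ⟨f', a1, a2, a3, R, hR⟩ := ih ((Finset.subset_insert p s).trans hs)
      have hpQ : p ∈ Q.cells := hs (Finset.mem_insert_self p s)
      have hnb := hcon p hpQ f' a3
      unfold Big at hnb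
      push Not at hnb
      obtain ⟨R', f'', b1, b2, b3, hR'⟩ := hnb a1 a2
      obtain ⟨R'', c1, c2⟩ := common hA R R'
      refine ⟨f'', b1, b2, by rw [← b3, ← mul_assoc, a3], R'', ?_⟩
      intro p' hp' r hr
      have hp'T : p' * T ∈ M := mul_mem (hA.le _ (Q.pa p' (hs hp')).1) hT
      rcases Finset.mem_insert.mp hp' with rfl | hp's
      · obtain ⟨r', hr', e⟩ := c2 r hr
        exact (mu_mono hA hE hp'T (R'.pa r' hr') (R''.pa r hr) e b1).trans (hR' r' hr')
      · obtain ⟨r', hr', e⟩ := c1 r hr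
        exact (mu_mono hA hE hp'T (R.pa r' hr') (R''.pa r hr) e b1).trans
          ((norm_shrink b1 b3).trans (hR p' hp's r' hr'))
  obtain ⟨f', a1, a2, a3, R, hR⟩ := key Q.cells subset_rfl
  obtain ⟨R', c1, c2⟩ := common hA R Q
  obtain ⟨r, hr, hlt⟩ := hb.2.2 R' f' a1 a2 (by rw [← a3, ← mul_assoc, h1f])
  obtain ⟨p, hp, e⟩ := c2 r hr
  obtain ⟨r', hr', e'⟩ := c1 r hr
  have hpT : p * T ∈ M := mul_mem (hA.le _ (Q.pa p hp).1) hT
  rw [← mu_cell hA (Q.pa p hp) (R'.pa r hr) e] at hlt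
  exact absurd ((mu_mono hA hE hpT (R.pa r' hr') (R'.pa r hr) e' a1).trans (hR p hp r' hr'))
    (not_le.mpr hlt)

end AtomAA

open AtomAA

theorem big_of_not (h : St M A ω) (hE : CE M A ω E) {T : H →L[ℂ] H} (hT : T ∈ M)
    (hn : ¬ NoAtom A ω E T) : ∃ γ f, 0 < γ ∧ Big A E T γ f := by
  have hA := h.masa
  unfold NoAtom at hn
  push Not at hn
  obtain ⟨γ, hγ, hn⟩ := hn
  let S : Set (H →L[ℂ] H) :=
    {g | PA A g ∧ ∃ Q : Part A, ∀ p ∈ Q.cells, ‖E (star T * p * T) * g‖ ≤ γ}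
  obtain ⟨Q₀⟩ := (inferInstance : Nonempty (Part A))
  have hd : ∀ f ∈ S, ∀ g ∈ S, ∃ k ∈ S, k * f = f ∧ k * g = g := by
    rintro g ⟨hg, Q, hQ⟩ g' ⟨hg', Q', hQ'⟩
    obtain ⟨R, c1, c2⟩ := common hA Q Q'
    have h0 : g * ((1 - g) * g') = 0 := by
      rw [← mul_assoc, mul_sub, mul_one, pa_idem hg, sub_self, zero_mul]
    refine ⟨g + (1 - g) * g', ⟨PA.add hg (PA.mul hA hg.compl hg') h0, R, ?_⟩, ?_, ?_⟩
    · intro r hr
      obtain ⟨p, hp, e⟩ := c1 r hr
      obtain ⟨p', hp', e'⟩ := c2 r hr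
      exact norm_join hA (mu_mem hA hE hT (R.pa r hr).1) hg hg'
        ((mu_mono hA hE hT (Q.pa p hp) (R.pa r hr) e hg).trans (hQ p hp))
        ((mu_mono hA hE hT (Q'.pa p' hp') (R.pa r hr) e' hg').trans (hQ' p' hp'))
    · rw [add_mul, pa_idem hg, hA.comm _ (PA.mul hA hg.compl hg').1 g hg.1, h0, add_zero]
    · rw [add_mul, mul_assoc, pa_idem hg', sub_mul, one_mul]; abel
  obtain ⟨g, hg, hsup, happ⟩ := sup_proj h S (fun f hf => hf.1)
    ⟨0, PA.zero, Q₀, fun p _ => by simpa using hγ.le⟩ hd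
  refine ⟨γ, 1 - g, hγ, hg.compl, ?_, ?_⟩
  · intro h0
    have hg1 : g = 1 := (sub_eq_zero.mp h0).symm
    obtain ⟨f, ⟨hf, Q, hQ⟩, hf2⟩ := happ γ hγ
    rw [hg1] at hf2
    obtain ⟨p, hp, hlt⟩ := hn Q f hf hf2
    exact absurd (hQ p hp) (not_le.mpr hlt)
  · intro Q f' hf' hne hle
    by_contra hcon
    push Not at hcon
    have h1 := hsup f' ⟨hf', Q, hcon⟩
    rw [sub_mul, one_mul, h1, sub_self] at hle
    exact hne hle.symm

theorem big_ratio (h : St M A ω) (hE : CE M A ω E) {T : H →L[ℂ] H} (hT : T ∈ M) {γ₀ : ℝ}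
    {f₀ : H →L[ℂ] H} (h0 : 0 < γ₀) (hb : Big A E T γ₀ f₀) :
    ∃ γ e f, 0 < γ ∧ PA A e ∧ Big A E (e * T * f) γ f ∧
      ‖E (star (e * T * f) * (e * T * f))‖ ≤ 3 / 2 * γ := by
  have hA := h.masa
  let G : Set ℝ := {γ | ∃ f, Big A E T γ f}
  have hbdd : BddAbove G := ⟨‖T‖ ^ 2, fun γ ⟨f, hf⟩ => big_le hA hE hf⟩
  have hne : G.Nonempty := ⟨γ₀, f₀, hb⟩
  have h1 : γ₀ ≤ sSup G := le_csSup hbdd ⟨f₀, hb⟩
  obtain ⟨γ, ⟨f, hf⟩, hγ⟩ := exists_lt_of_lt_csSup hne (show 2 / 3 * sSup G < sSup G by linarith)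
  have hγ0 : 0 < γ := by linarith
  have hnb : ¬ Big A E T (3 / 2 * γ) f := fun hB => by
    have := le_csSup hbdd (show 3 / 2 * γ ∈ G from ⟨f, hB⟩)
    linarith
  unfold Big at hnb
  push Not at hnb
  obtain ⟨Q, f₁, a1, a2, a3, hQ⟩ := hnb hf.1 hf.2.1
  obtain ⟨p, hp, f₂, b1, hB⟩ := exists_cell hA hE hT hf Q a1 a2 a3
  have hpa := Q.pa p hp
  have hpT : p * T ∈ M := mul_mem (hA.le _ hpa.1) hT
  refine ⟨γ, p, f₂, hγ0, hpa, ⟨hB.1, hB.2.1, ?_⟩, ?_⟩
  · intro R f' c1 c2 c3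
    obtain ⟨r, hr, hlt⟩ := hB.2.2 R f' c1 c2 c3
    refine ⟨r, hr, ?_⟩
    rwa [mu_cut hA hE hpT hB.1 (R.pa r hr).1, mul_assoc, c3]
  · have e1 := mu_cut hA hE hpT hB.1 (one_mem A)
    rw [mul_one, mul_one] at e1
    have e2 : star (p * T) * (p * T) = star T * p * T := by
      rw [star_mul, pa_star hpa]
      calc star T * p * (p * T) = star T * (p * p) * T := by noncomm_ring
        _ = _ := by rw [pa_idem hpa]
    rw [e1, e2]
    exact (norm_shrink hB.1 b1).trans (hQ p hp)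

theorem conj_mem_of_left (hA : Masa M A) {W : H →L[ℂ] H} (hW : W ∈ M)
    (hl : ∀ e, PA A e → ∃ e', PA A e' ∧ e * W = W * e') : ∀ a ∈ A, W * a * star W ∈ A := by
  intro a ha
  refine hA.max _ (mul_mem (mul_mem hW (hA.le a ha)) (star_mem hW)) (hA.comm_of_proj ?_)
  intro e he
  obtain ⟨e', he', h1⟩ := hl e he
  have h2 : star W * e = e' * star W := by
    have := congrArg star h1
    rwa [star_mul, star_mul, pa_star he, pa_star he'] at this
  calc e * (W * a * star W) = (e * W) * a * star W := by noncomm_ring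
    _ = W * (e' * a) * star W := by rw [h1]; noncomm_ring
    _ = W * (a * e') * star W := by rw [hA.comm e' he'.1 a ha]
    _ = W * a * (e' * star W) := by noncomm_ring
    _ = W * a * star W * e := by rw [← h2]; noncomm_ring

theorem noAtom_zero (h : St M A ω) (hE : CE M A ω E) {W : H →L[ℂ] H} (hW : W ∈ M)
    (hl : ∀ e, PA A e → ∃ e', PA A e' ∧ e * W = W * e') (hn : NoAtom A ω E (star W)) : W = 0 := by
  have hA := h.masa
  have hpos := h.npos.pos
  have key : ∀ η : ℝ, 0 < η → (ω (star W * W)).re ≤ 2 * η := by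
    intro η hη
    obtain ⟨δ, hδ, hu⟩ := uac_mul h hW 1 hη
    obtain ⟨Q, g, hg, hg1, hQ⟩ := hn (min δ η) (lt_min hδ hη)
    have h1 := hu (1 - g) (hA.le _ hg.compl.1) hg.compl.2.nonneg hg.compl.norm_le
      (hg1.trans (min_le_left _ _))
    have hy : star W * g * W ∈ M := mul_mem (mul_mem (star_mem hW) (hA.le _ hg.1)) hW
    have h2 : (ω (star W * g * W)).re ≤ η := by
      rw [← Q.isPartOf.cent_pin hA h.cent hy, ← EP_eq_pin, EP, map_sum, Complex.re_sum]
      have h3 : ∀ p ∈ Q.cells, (ω (p * (star W * g * W) * p)).re ≤ η * (ω p).re := by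
        intro p hp
        have hpa := Q.pa p hp
        have hq := hQ p hp
        rw [star_star, hE.of_mem (conj_mem_of_left hA hW hl p hpa.1)] at hq
        have e1 : p * (star W * g * W) * p = star (g * W * p) * (g * W * p) := by
          rw [star_mul, star_mul, pa_star hg, pa_star hpa]
          calc p * (star W * g * W) * p = p * (star W * (g * g) * W) * p := by rw [pa_idem hg]
            _ = _ := by noncomm_ring
        have e2 : (g * W * p) * star (g * W * p) = g * (W * p * star W * g) := by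
          rw [star_mul, star_mul, pa_star hg, pa_star hpa]
          calc g * W * p * (p * (star W * g)) = g * (W * (p * p) * star W * g) := by noncomm_ring
            _ = _ := by rw [pa_idem hpa]
        have h4 : ‖p * (star W * g * W) * p‖ ≤ η := by
          rw [e1, CStarRing.norm_star_mul_self, ← CStarRing.norm_self_mul_star, e2]
          calc ‖g * (W * p * star W * g)‖ ≤ ‖g‖ * ‖W * p * star W * g‖ := norm_mul_le _ _
            _ ≤ 1 * η := mul_le_mul hg.norm_le (hq.trans (min_le_right _ _)) (norm_nonneg _)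
                zero_le_one
            _ = η := one_mul _
        have h5 : 0 ≤ p * (star W * g * W) * p := by rw [e1]; exact star_mul_self_nonneg _
        have h6 := star_left_conjugate_le_conjugate
          ((CStarAlgebra.norm_le_iff_le_algebraMap _ hη.le h5).1 h4) p
        have e3 : star p * (p * (star W * g * W) * p) * p = p * (star W * g * W) * p := by
          rw [pa_star hpa]
          calc p * (p * (star W * g * W) * p) * p = (p * p) * (star W * g * W) * (p * p) := by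
                noncomm_ring
            _ = _ := by rw [pa_idem hpa]
        have e4 : star p * algebraMap ℝ (H →L[ℂ] H) η * p = (η : ℂ) • p := by
          rw [pa_star hpa, Algebra.algebraMap_eq_smul_one, mul_smul_comm, mul_one, smul_mul_assoc,
            pa_idem hpa, Complex.coe_smul]
        rw [e3, e4] at h6
        have hpM : p ∈ M := hA.le _ hpa.1
        have h7 := hpos.mono (mul_mem (mul_mem hpM hy) hpM) (hA.le _ (SMulMemClass.smul_mem (η : ℂ) hpa.1)) h6
        rwa [map_smul, smul_eq_mul, Complex.re_ofReal_mul] at h7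
      refine (Finset.sum_le_sum h3).trans ?_
      rw [← Finset.mul_sum, ← Complex.re_sum, ← map_sum, Q.sum, h.one]
      simp
    have e : star W * W = star W * g * W + star W * (1 - g) * W := by noncomm_ring
    rw [e, map_add, Complex.add_re]
    linarith
  have h0 : (ω (star W * W)).re ≤ 0 := by
    refine le_of_forall_pos_le_add fun ε hε => ?_
    have := key (ε / 2) (by linarith)
    linarith
  have := h.eq_zero_of_nonneg (mul_mem (star_mem hW) hW) (star_mul_self_nonneg W) h0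
  exact (CStarRing.star_mul_self_eq_zero_iff W).mp this

end Crest.Agent.R109
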