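import Crest.Agent.R109.BW

/-!
# Row 109, task R109-BGeo

Geometric axioms of the local model.  PLAN.  Use `min_word`, `wd_star`, `dd_le`, `word_phase`, `dom_mul`, `act_mul`,
`act_star`.  `pt_cont`: near `χ₀` the element `W χ k` is constant (`W_lc`), `W_dom`, `act_contOn`.  `count`: `k ↦` a word of
length `≤ R` reaching class `k` is injective, and there are at most `(n + 1)^R` such words (pad: inject into
`Fin R → Option (Fin n)` by `w[i]?`).
-/

set_option autoImplicit false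
set_option linter.unusedSectionVars false
set_option linter.unusedVariables false

namespace Crest.Agent.R109

open scoped InnerProductSpace ComplexOrder ComplexConjugate
open Filter Topology

universe u

variable {H : Type u} [NormedAddCommGroup H] [InnerProductSpace ℂ H] [CompleteSpace H]
  {M : VonNeumannAlgebra H} {A : StarSubalgebra ℂ (H →L[ℂ] H)}
  {ω φ : (H →L[ℂ] H) →ₗ[ℂ] ℂ} {E : (H →L[ℂ] H) →ₗ[ℂ] (H →L[ℂ] H)}
  {X : Type u} [TopologicalSpace X] [CompactSpace X] [T2Space X] [MeasurableSpace X] [BorelSpace X]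
  {μ : MeasureTheory.Measure X} [MeasureTheory.IsProbabilityMeasure μ] {g : Gel A ω X μ}
  {Λ K₀ : ℝ} {n J : ℕ} {u b : Fin n → H →L[ℂ] H} {x' : H →L[ℂ] H} {e : Fin J → H →L[ℂ] H} {R : ℕ}
  {cl : X → Fin J}

open MeasureTheory Finset

namespace Set0

variable (S : Set0 M A ω E g Λ K₀ u b x' e R cl)
include S

local notation "d" => g.dd u e R
local notation "pt" => g.ptt u e R
local notation "ℓ" => g.ll u e R M
local notation "Y" => g.YY u e R E x'

theorem BGeoA.gr (w : List (Fin n)) : Gr M A (wd u w) := (wd_gb S.st S.gen w).1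

theorem pt_cont (k : Fin J) : Continuous fun χ => pt χ k := by
  refine continuous_iff_continuousAt.2 fun χ₀ => ?_
  have hg : Gr M A (g.W u e R χ₀ k) := (S.W_gb χ₀ k).1
  have h1 : ContinuousAt (g.act (g.W u e R χ₀ k)) χ₀ :=
    (g.act_contOn S.st.masa hg).continuousAt ((g.dom_clopen hg).isOpen.mem_nhds (S.W_dom χ₀ k))
  refine h1.congr ?_
  filter_upwards [(S.W_lc k).eventually_eq χ₀] with χ hχ
  show g.act (g.W u e R χ₀ k) χ = g.act (g.W u e R χ k) χ
  rw [hχ]

theorem d_self (χ : X) : d χ (cl χ) = 0 := by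
  have := S.dd_le (w := []) (Nat.zero_le _) (χ := χ) (g.dom_one χ)
  rw [wd_nil, g.act_one] at this
  exact Nat.le_zero.1 this

theorem pt_self (χ : X) : pt χ (cl χ) = χ := by
  show g.act (g.W u e R χ (cl χ)) χ = χ
  rw [S.W_self, g.act_one]

theorem cl_pt (χ : X) (k : Fin J) (hk : d χ k ≤ R) : cl (pt χ k) = k := by
  obtain ⟨w, -, -, h⟩ := S.W_word hk
  exact h

theorem BGeoA.inv (χ : X) (k : Fin J) (hk : d χ k ≤ R) :
    d (pt χ k) (cl χ) ≤ d χ k ∧ pt (pt χ k) (cl χ) = χ := by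
  obtain ⟨w, hl, hd, ha⟩ := S.min_word hk
  obtain ⟨w', hl', hw'⟩ := wd_star S.gen w
  have hd' : g.dom (wd u w') (pt χ k) := by
    rw [hw', ← ha]; exact Gel.dom_star S.st.masa (BGeoA.gr S w) hd
  have ha' : g.act (wd u w') (pt χ k) = χ := by
    rw [hw', ← ha]; exact Gel.act_star S.st.masa (BGeoA.gr S w) hd
  have h1 := S.dd_le (w := w') (by omega) hd'
  rw [ha', hl', hl] at h1
  refine ⟨h1, ?_⟩
  have h2 := (S.word_phase (w := w') (by omega) hd' (h1.trans hk) (by rw [ha'])).1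
  rw [← h2, ha']

theorem BGeoA.comp (χ : X) (k l : Fin J) (hk : d χ k ≤ R) (h : d (pt χ k) l ≤ R) :
    ∃ w : List (Fin n), w.length = d (pt χ k) l + d χ k ∧ g.dom (wd u w) χ ∧
      g.act (wd u w) χ = pt (pt χ k) l := by
  obtain ⟨w, hl, hd, ha⟩ := S.min_word hk
  obtain ⟨w₂, hl₂, hd₂, ha₂⟩ := S.min_word h
  have hdm : g.dom (wd u w₂ * wd u w) χ :=
    (Gel.dom_mul S.st.masa (BGeoA.gr S w₂) (BGeoA.gr S w)).2 ⟨hd, by rw [ha]; exact hd₂⟩
  refine ⟨w₂ ++ w, by rw [List.length_append, hl, hl₂], by rw [wd_append]; exact hdm, ?_⟩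
  rw [wd_append, Gel.act_mul S.st.masa (BGeoA.gr S w₂) (BGeoA.gr S w) hdm, ha, ha₂]

theorem pt_symm (χ : X) (k : Fin J) (hk : d χ k ≤ R) : pt (pt χ k) (cl χ) = χ := by
  exact (BGeoA.inv S χ k hk).2

theorem d_symm (χ : X) (k : Fin J) (hk : d χ k ≤ R) : d (pt χ k) (cl χ) = d χ k := by
  obtain ⟨h1, h2⟩ := BGeoA.inv S χ k hk
  refine le_antisymm h1 ?_
  have h3 := (BGeoA.inv S (pt χ k) (cl χ) (h1.trans hk)).1
  rwa [h2, S.cl_pt χ k hk] at h3

theorem tri (χ : X) (k l : Fin J) (hk : d χ k ≤ R) (h : d (pt χ k) l + d χ k ≤ R) :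
    d χ l ≤ d (pt χ k) l + d χ k := by
  have h' : d (pt χ k) l ≤ R := by omega
  obtain ⟨w, hl, hd, ha⟩ := BGeoA.comp S χ k l hk h'
  have h1 := S.dd_le (w := w) (by omega) hd
  rwa [ha, S.cl_pt _ l h', hl] at h1

theorem pt_pt (χ : X) (k l : Fin J) (hk : d χ k ≤ R) (hl : d χ l ≤ R) (h : d (pt χ k) l ≤ R) :
    pt (pt χ k) l = pt χ l := by
  obtain ⟨w, hw, hd, ha⟩ := BGeoA.comp S χ k l hk h
  have h1 := (S.word_phase (w := w) (by omega) hd hl (by rw [ha, S.cl_pt _ l h])).1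
  rw [← ha, h1]

theorem count (χ : X) : (univ.filter fun k => d χ k ≤ R).card ≤ (n + 1) ^ R := by
  have hex : ∀ k : Fin J, ∃ w : List (Fin n), d χ k ≤ R →
      w.length ≤ R ∧ cl (g.act (wd u w) χ) = k := by
    intro k
    by_cases hk : d χ k ≤ R
    · obtain ⟨w, hl, -, ha⟩ := S.min_word hk
      exact ⟨w, fun _ => ⟨by omega, by rw [ha, S.cl_pt χ k hk]⟩⟩
    · exact ⟨[], fun h => absurd h hk⟩
  choose w hw using hex
  have := Finset.card_le_card_of_injOn (s := univ.filter fun k => d χ k ≤ R)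
    (t := (univ : Finset (Fin R → Option (Fin n)))) (fun k i => (w k)[i.1]?)
    (fun _ _ => Finset.mem_coe.2 (mem_univ _)) (by
      intro k hk l hl hkl
      have hk' := hw k (Finset.mem_filter.1 (Finset.mem_coe.1 hk)).2
      have hl' := hw l (Finset.mem_filter.1 (Finset.mem_coe.1 hl)).2
      have : w k = w l := by
        refine List.ext_getElem? fun i => ?_
        by_cases hi : i < R
        · exact congrFun hkl ⟨i, hi⟩
        · rw [List.getElem?_eq_none (by omega), List.getElem?_eq_none (by omega)]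
      rw [← hk'.2, this, hl'.2])
  simpa using this

end Set0

end Crest.Agent.R109
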