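import Crest.Agent.R109.BGeo

/-!
# Row 109, task R109-BMat

The local matrices.  `φ = g.st E χ` is a positive functional (`st_pos`).  PLAN.  `orthn`: for `k ≠ l`, `fix_of_ne` applied to
`(W k)⋆ W l ∈ Gr` would give `pt χ k = pt χ l`.  `edge`: `x' = ∑ u i b i`, `b i W l = W l (W l⋆ b i W l)`, `st_mul_right`, `fix_of_ne` for
`(W k)⋆ u i W l`, then `dom_mul`, `act_mul`, `act_star`.  `rows`: for fixed `i` at most one `l` contributes
(`pt χ l = act (u i)⋆ (pt χ k)`, `cl_pt`), each term is `≤ ‖b i‖`.  `contr`: Bessel's inequality for the form `φ (y⋆ z)` and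
the orthonormal family `W k` (present `k`), `T = ∑ x l • W l`, `n2 φ (x' T) ≤ n2 φ T`.  `diag`: `st_act`, `E x' = 0`.
`gauge`: `st_act`; `W (pt χ k) l * W χ k * f l = W χ l * c l` (`word_phase`), `g l = ev (c l) χ`; insert the projections `f l`
with `st_mul_left/right`.  `adj`: `edge`, `pt_pt`, `min_word`, `dd_le`.
-/

set_option autoImplicit false
set_option linter.unusedSectionVars false
set_option linter.unusedVariables false

namespace Crest.Agent.R109

open scoped InnerProductSpace ComplexOrder ComplexConjugate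
open Filter Topology

universe u

variable {H : Type u} [NormedAddCommGroup H] [InnerProductSpace ℂ H] [CompleteSpace H]
  {M : VonNeumannAlgebra H} {A : StarSubalgebra ℂ (H →L[ℂ] H)}
  {ω φ : (H →L[ℂ] H) →ₗ[ℂ] ℂ} {E : (H →L[ℂ] H) →ₗ[ℂ] (H →L[ℂ] H)}
  {X : Type u} [TopologicalSpace X] [CompactSpace X] [T2Space X] [MeasurableSpace X] [BorelSpace X]
  {μ : MeasureTheory.Measure X} [MeasureTheory.IsProbabilityMeasure μ] {g : Gel A ω X μ}
  {Λ K₀ : ℝ} {n J : ℕ} {u b : Fin n → H →L[ℂ] H} {x' : H →L[ℂ] H} {e : Fin J → H →L[ℂ] H} {R : ℕ}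
  {cl : X → Fin J}

open MeasureTheory Finset

namespace BMatA

theorem sum_le_of_uniq {ι : Type*} [Fintype ι] {f : ι → ℝ} {c : ℝ} (hc : 0 ≤ c) (h1 : ∀ l, f l ≤ c)
    (h2 : ∀ l l', f l ≠ 0 → f l' ≠ 0 → l = l') : ∑ l, f l ≤ c := by
  by_cases h : ∃ l, f l ≠ 0
  · obtain ⟨l, hl⟩ := h
    rw [Finset.sum_eq_single l]
    · exact h1 l
    · intro l' _ hl'
      by_contra h3
      exact hl' (h2 l' l h3 hl)
    · simp
  · push Not at h
    simp [h, hc]

theorem star_sum_mul {ι : Type*} (P : Finset ι) (c : ι → ℂ) (W : ι → H →L[ℂ] H) (z : H →L[ℂ] H) :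
    φ (star (∑ k ∈ P, c k • W k) * z) = ∑ k ∈ P, conj (c k) * φ (star (W k) * z) := by
  rw [star_sum, Finset.sum_mul, map_sum]
  refine Finset.sum_congr rfl fun k _ => ?_
  rw [star_smul, smul_mul_assoc, map_smul]
  rfl

theorem mul_sum_smul {ι : Type*} (P : Finset ι) (c : ι → ℂ) (W : ι → H →L[ℂ] H) (z : H →L[ℂ] H) :
    φ (z * ∑ k ∈ P, c k • W k) = ∑ k ∈ P, φ (z * W k) * c k := by
  rw [Finset.mul_sum, map_sum]
  refine Finset.sum_congr rfl fun k _ => ?_
  rw [mul_smul_comm, map_smul, smul_eq_mul, mul_comm]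

theorem n2_orth {ι : Type*} [DecidableEq ι] (h : Pos M φ) (P : Finset ι) {W : ι → H →L[ℂ] H}
    (hW : ∀ k, W k ∈ M)
    (ho : ∀ k ∈ P, ∀ l ∈ P, φ (star (W k) * W l) = if k = l then 1 else 0) (c : ι → ℂ) :
    n2 φ (∑ k ∈ P, c k • W k) ^ 2 = ∑ k ∈ P, ‖c k‖ ^ 2 := by
  rw [h.n2_sq (sum_mem fun k _ => OmegaA.smul_memM (hW k) _), star_sum_mul, Complex.re_sum]
  refine Finset.sum_congr rfl fun k hk => ?_
  rw [mul_sum_smul, Finset.sum_eq_single k, ho k hk k hk, if_pos rfl, one_mul, Complex.conj_mul']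
  · norm_cast
  · intro l hl hlk
    rw [ho k hk l hl, if_neg (Ne.symm hlk), zero_mul]
  · intro h'
    exact absurd hk h'

theorem bessel {ι : Type*} [DecidableEq ι] (h : Pos M φ) (P : Finset ι) {W : ι → H →L[ℂ] H}
    (hW : ∀ k, W k ∈ M)
    (ho : ∀ k ∈ P, ∀ l ∈ P, φ (star (W k) * W l) = if k = l then 1 else 0) {y : H →L[ℂ] H}
    (hy : y ∈ M) : ∑ k ∈ P, ‖φ (star (W k) * y)‖ ^ 2 ≤ n2 φ y ^ 2 := by
  have h1 := n2_orth h P hW ho fun k => φ (star (W k) * y)
  have h2 := h.cs (y := ∑ k ∈ P, φ (star (W k) * y) • W k)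
    (sum_mem fun k _ => OmegaA.smul_memM (hW k) _) hy
  have h3 : φ (star (∑ k ∈ P, φ (star (W k) * y) • W k) * y) =
      ((∑ k ∈ P, ‖φ (star (W k) * y)‖ ^ 2 : ℝ) : ℂ) := by
    rw [star_sum_mul]
    push_cast
    exact Finset.sum_congr rfl fun k _ => Complex.conj_mul' _
  rw [h3, Complex.norm_real, Real.norm_eq_abs, ← h1, abs_of_nonneg (sq_nonneg _)] at h2
  rw [← h1]
  have h4 := n2_nonneg (φ := φ) (∑ k ∈ P, φ (star (W k) * y) • W k)
  have h5 := n2_nonneg (φ := φ) y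
  nlinarith [sq_nonneg (n2 φ (∑ k ∈ P, φ (star (W k) * y) • W k) - n2 φ y)]

end BMatA

open BMatA

namespace Set0

variable (S : Set0 M A ω E g Λ K₀ u b x' e R cl)
include S

local notation "d" => g.dd u e R
local notation "pt" => g.ptt u e R
local notation "ℓ" => g.ll u e R M
local notation "Y" => g.YY u e R E x'

theorem BMatA.W_gr (χ : X) (k : Fin J) : Gr M A (g.W u e R χ k) := (S.W_gb χ k).1

theorem BMatA.W_mem (χ : X) (k : Fin J) : g.W u e R χ k ∈ M := (S.W_gb χ k).1.1.1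

theorem BMatA.x_mem : x' ∈ M := by
  rw [S.gen.eq]
  exact sum_mem fun i _ => mul_mem (S.gen.gb i).1.1.1 (S.st.masa.le _ (S.gen.mem i))

theorem BMatA.fix3 (χ : X) {k l : Fin J} {v : H →L[ℂ] H} (hv : Gr M A v)
    (h : g.st E χ (star (g.W u e R χ k) * v * g.W u e R χ l) ≠ 0) :
    g.dom v (pt χ l) ∧ g.act v (pt χ l) = pt χ k := by
  have hA := S.st.masa
  have hk := BMatA.W_gr S χ k
  have hl := BMatA.W_gr S χ l
  rw [mul_assoc] at h
  obtain ⟨h1, h2⟩ := Gel.fix_of_ne hA S.ce (hk.adj.mul hA (hv.mul hA hl)) h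
  rw [Gel.act_mul hA hk.adj (hv.mul hA hl) h1] at h2
  obtain ⟨h3, h4⟩ := (Gel.dom_mul hA hk.adj (hv.mul hA hl)).1 h1
  have h5 := Gel.act_star hA hk.adj h4
  rw [h2, star_star, Gel.act_mul hA hv hl h3] at h5
  exact ⟨((Gel.dom_mul hA hv hl).1 h3).2, h5.symm⟩

theorem BMatA.Y_eq (χ : X) {k l : Fin J} (hk : d χ k ≤ R) (hl : d χ l ≤ R) :
    Y χ k l = g.st E χ (star (g.W u e R χ k) * x' * g.W u e R χ l) := by
  simp only [Gel.YY, Matrix.of_apply, hk, hl, and_self, if_true]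

theorem BMatA.Y_zero (χ : X) {k l : Fin J} (h : ¬ (d χ k ≤ R ∧ d χ l ≤ R)) : Y χ k l = 0 := by
  simp only [Gel.YY, Matrix.of_apply, h, if_false]

theorem BMatA.st_x (χ : X) (k l : Fin J) :
    g.st E χ (star (g.W u e R χ k) * x' * g.W u e R χ l) =
      ∑ i, g.st E χ (star (g.W u e R χ k) * (u i * b i) * g.W u e R χ l) := by
  conv_lhs => rw [S.gen.eq]
  rw [Finset.mul_sum, Finset.sum_mul, map_sum]

theorem orthn (χ : X) {k l : Fin J} (hk : d χ k ≤ R) (hl : d χ l ≤ R) :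
    g.st E χ (star (g.W u e R χ k) * g.W u e R χ l) = if k = l then 1 else 0 := by
  split_ifs with h
  · subst h
    rw [g.st_of_mem S.ce (BMatA.W_gr S χ k).src.1]
    exact S.W_dom χ k
  · by_contra hne
    have h1 := (BMatA.fix3 S χ (k := k) (l := l) (PA.one.gr S.st.masa) (by rwa [mul_one])).2
    rw [g.act_one] at h1
    exact h (by rw [← S.cl_pt χ k hk, ← h1, S.cl_pt χ l hl])

theorem edge (χ : X) {k l : Fin J} (i : Fin n)
    (h : g.st E χ (star (g.W u e R χ k) * (u i * b i) * g.W u e R χ l) ≠ 0) :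
    g.dom (u i) (pt χ l) ∧ g.act (u i) (pt χ l) = pt χ k := by
  have hA := S.st.masa
  have hl := BMatA.W_gr S χ l
  refine BMatA.fix3 S χ (S.gen.gb i).1 fun h0 => h ?_
  have e1 : star (g.W u e R χ k) * (u i * b i) * g.W u e R χ l =
      star (g.W u e R χ k) * u i * g.W u e R χ l *
        (star (g.W u e R χ l) * b i * g.W u e R χ l) := by
    calc star (g.W u e R χ k) * (u i * b i) * g.W u e R χ l
        = star (g.W u e R χ k) * u i * (b i * g.W u e R χ l) := by simp only [mul_assoc]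
      _ = star (g.W u e R χ k) * u i *
          (g.W u e R χ l * (star (g.W u e R χ l) * b i * g.W u e R χ l)) := by
          rw [← hl.mul_eq' hA (S.gen.mem i)]
      _ = _ := by simp only [mul_assoc]
  rw [e1, g.st_mul_right S.ce (hl.1.2.2 _ (S.gen.mem i))
    (mul_mem (mul_mem (star_mem (BMatA.W_mem S χ k)) (S.gen.gb i).1.1.1) hl.1.1), h0, zero_mul]

theorem Y_cont (k l : Fin J) : Continuous fun χ => Y χ k l := by
  refine continuous_iff_continuousAt.2 fun χ₀ => ?_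
  have hc : Continuous fun χ => if d χ₀ k ≤ R ∧ d χ₀ l ≤ R then
      g.st E χ (star (g.W u e R χ₀ k) * x' * g.W u e R χ₀ l) else 0 := by
    split_ifs
    · exact (g.ev _).continuous
    · exact continuous_const
  refine hc.continuousAt.congr ?_
  filter_upwards [(S.dd_lc k).eventually_eq χ₀, (S.dd_lc l).eventually_eq χ₀,
    (S.W_lc k).eventually_eq χ₀, (S.W_lc l).eventually_eq χ₀] with χ h1 h2 h3 h4
  simp only [Gel.YY, Matrix.of_apply, h1, h2, h3, h4]

theorem herm (χ : X) : (Y χ).IsHermitian := by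
  ext k l
  rw [Matrix.conjTranspose_apply]
  by_cases h : d χ k ≤ R ∧ d χ l ≤ R
  · rw [BMatA.Y_eq S χ h.1 h.2, BMatA.Y_eq S χ h.2 h.1]
    have h1 := (g.st_pos S.st S.ce χ).map_star
      (mul_mem (mul_mem (star_mem (BMatA.W_mem S χ l)) (BMatA.x_mem S)) (BMatA.W_mem S χ k))
    rw [star_mul, star_mul, star_star, S.gen.sa.star_eq, ← mul_assoc] at h1
    exact h1.symm
  · rw [BMatA.Y_zero S χ h, BMatA.Y_zero S χ fun h' => h h'.symm, star_zero]

theorem diag (χ : X) (k : Fin J) : Y χ k k = 0 := by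
  by_cases h : d χ k ≤ R
  · rw [BMatA.Y_eq S χ h h, ← Gel.st_act S.st S.ce (mul_nonneg S.gen.nonneg (Nat.cast_nonneg R))
      (S.W_gb χ k) (S.W_dom χ k) (BMatA.x_mem S)]
    show g.ev (E x') _ = 0
    rw [S.gen.E_eq, map_zero]
    rfl
  · exact BMatA.Y_zero S χ fun h' => h h'.1

theorem supp (χ : X) (k l : Fin J) (h : Y χ k l ≠ 0) : d χ k ≤ R := by
  by_contra h'
  exact h (BMatA.Y_zero S χ fun h'' => h' h''.1)

theorem contr (χ : X) : Contr (Y χ) := by
  intro x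
  have hp := g.st_pos S.st S.ce χ
  set P : Finset (Fin J) := univ.filter fun k => d χ k ≤ R with hP
  have ho : ∀ k ∈ P, ∀ l ∈ P,
      g.st E χ (star (g.W u e R χ k) * g.W u e R χ l) = if k = l then 1 else 0 :=
    fun k hk l hl => S.orthn χ (mem_filter.1 hk).2 (mem_filter.1 hl).2
  have hT : ∑ l ∈ P, x l • g.W u e R χ l ∈ M :=
    sum_mem fun k _ => OmegaA.smul_memM (BMatA.W_mem S χ k) _
  have h1 := bessel hp P (BMatA.W_mem S χ) ho (mul_mem (BMatA.x_mem S) hT)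
  have h2 := n2_orth hp P (BMatA.W_mem S χ) ho x
  have h3 := hp.n2_mul_left (BMatA.x_mem S) hT
  have h4 := n2_nonneg (φ := g.st E χ) (∑ l ∈ P, x l • g.W u e R χ l)
  have h5 := n2_nonneg (φ := g.st E χ) (x' * ∑ l ∈ P, x l • g.W u e R χ l)
  have h6 : n2 (g.st E χ) (x' * ∑ l ∈ P, x l • g.W u e R χ l) ≤
      n2 (g.st E χ) (∑ l ∈ P, x l • g.W u e R χ l) :=
    h3.trans (mul_le_of_le_one_left h4 S.gen.norm_le)
  calc ∑ k, ‖(Matrix.mulVec (Y χ) x) k‖ ^ 2
      = ∑ k ∈ P, ‖g.st E χ (star (g.W u e R χ k) * (x' * ∑ l ∈ P, x l • g.W u e R χ l))‖ ^ 2 := by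
        rw [hP, Finset.sum_filter]
        refine Finset.sum_congr rfl fun k _ => ?_
        split_ifs with hk
        · rw [← mul_assoc, mul_sum_smul, Finset.sum_filter]
          congr 2
          simp only [Matrix.mulVec, dotProduct]
          refine Finset.sum_congr rfl fun l _ => ?_
          split_ifs with hl
          · rw [BMatA.Y_eq S χ hk hl]
          · rw [BMatA.Y_zero S χ fun h' => hl h'.2, zero_mul]
        · have : (Matrix.mulVec (Y χ) x) k = 0 := by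
            simp only [Matrix.mulVec, dotProduct]
            exact Finset.sum_eq_zero fun l _ => by
              rw [BMatA.Y_zero S χ fun h' => hk h'.1, zero_mul]
          rw [this]
          simp
    _ ≤ _ := h1
    _ ≤ n2 (g.st E χ) (∑ l ∈ P, x l • g.W u e R χ l) ^ 2 := by gcongr
    _ = ∑ k ∈ P, ‖x k‖ ^ 2 := h2
    _ ≤ _ := Finset.sum_le_sum_of_subset_of_nonneg (subset_univ _) fun _ _ _ => by positivity

theorem rows (χ : X) : Rows (Y χ) K₀ := by
  intro k
  have hA := S.st.masa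
  have hp := g.st_pos S.st S.ce χ
  refine le_trans ?_ S.gen.sum_le
  calc ∑ l, ‖Y χ k l‖ ≤ ∑ l, ∑ i, (if d χ l ≤ R then
        ‖g.st E χ (star (g.W u e R χ k) * (u i * b i) * g.W u e R χ l)‖ else 0) := by
        refine Finset.sum_le_sum fun l _ => ?_
        by_cases h : d χ k ≤ R ∧ d χ l ≤ R
        · rw [BMatA.Y_eq S χ h.1 h.2, BMatA.st_x S]
          simp only [h.2, if_true]
          exact norm_sum_le _ _
        · rw [BMatA.Y_zero S χ h, norm_zero]
          exact Finset.sum_nonneg fun i _ => by positivity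
    _ = ∑ i, ∑ l, (if d χ l ≤ R then
        ‖g.st E χ (star (g.W u e R χ k) * (u i * b i) * g.W u e R χ l)‖ else 0) :=
        Finset.sum_comm
    _ ≤ ∑ i, ‖b i‖ := by
        refine Finset.sum_le_sum fun i _ => sum_le_of_uniq (norm_nonneg _) (fun l => ?_)
          fun l l' h1 h2 => ?_
        · split_ifs
          · have h3 := hp.norm_le (mul_mem (mul_mem (star_mem (BMatA.W_mem S χ k))
              (mul_mem (S.gen.gb i).1.1.1 (hA.le _ (S.gen.mem i)))) (BMatA.W_mem S χ l))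
            rw [g.st_of_mem S.ce (one_mem A), g.ev_one, Complex.one_re, one_mul] at h3
            refine h3.trans ?_
            have h4 := (BMatA.W_gr S χ k).adj.norm_le
            have h5 := (BMatA.W_gr S χ l).norm_le
            have h6 := (S.gen.gb i).1.norm_le
            calc ‖star (g.W u e R χ k) * (u i * b i) * g.W u e R χ l‖
                ≤ ‖star (g.W u e R χ k)‖ * (‖u i‖ * ‖b i‖) * ‖g.W u e R χ l‖ :=
                  (norm_mul_le _ _).trans (mul_le_mul_of_nonneg_right ((norm_mul_le _ _).trans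
                    (mul_le_mul_of_nonneg_left (norm_mul_le _ _) (norm_nonneg _))) (norm_nonneg _))
              _ ≤ 1 * (1 * ‖b i‖) * 1 := by gcongr
              _ = ‖b i‖ := by ring
          · exact norm_nonneg _
        · have hl : d χ l ≤ R := by
            by_contra h
            exact h1 (if_neg h)
          have hl' : d χ l' ≤ R := by
            by_contra h
            exact h2 (if_neg h)
          rw [if_pos hl, norm_ne_zero_iff] at h1
          rw [if_pos hl', norm_ne_zero_iff] at h2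
          obtain ⟨h3, h4⟩ := S.edge χ i h1
          obtain ⟨h5, h6⟩ := S.edge χ i h2
          have h7 := Gel.act_star hA (S.gen.gb i).1 h3
          have h8 := Gel.act_star hA (S.gen.gb i).1 h5
          rw [h4] at h7
          rw [h6, h7] at h8
          rw [← S.cl_pt χ l hl, h8, S.cl_pt χ l' hl']

theorem gauge (χ : X) (k : Fin J) (hk : d χ k ≤ R) :
    ∃ γ : Fin J → ℂ, (∀ l, ‖γ l‖ = 1) ∧ ∀ l l', d χ l ≤ R → d χ l' ≤ R → d (pt χ k) l ≤ R →
      d (pt χ k) l' ≤ R → Y (pt χ k) l l' = conj (γ l) * Y χ l l' * γ l' := by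
  have hA := S.st.masa
  have key : ∀ l, ∃ γ : ℂ, ‖γ‖ = 1 ∧ (d χ l ≤ R → d (pt χ k) l ≤ R →
      ∃ f c, PA A f ∧ g.ev f χ = 1 ∧ c ∈ A ∧ g.ev c χ = γ ∧
        g.W u e R (pt χ k) l * g.W u e R χ k * f = g.W u e R χ l * c) := by
    intro l
    by_cases h : d χ l ≤ R ∧ d (pt χ k) l ≤ R
    · obtain ⟨w₁, h1, h2, -⟩ := S.W_word h.2
      obtain ⟨w₂, h3, h4, -⟩ := S.W_word hk
      have e1 : wd u (w₁ ++ w₂) = g.W u e R (pt χ k) l * g.W u e R χ k := by
        rw [wd_append, h2, h4]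
      have hd : g.dom (g.W u e R (pt χ k) l * g.W u e R χ k) χ :=
        (Gel.dom_mul hA (BMatA.W_gr S _ l) (BMatA.W_gr S χ k)).2 ⟨S.W_dom χ k, S.W_dom _ l⟩
      obtain ⟨-, f, c, h5, h6, h7, h8, h9⟩ := S.word_phase (w := w₁ ++ w₂)
        (by rw [List.length_append]; omega) (e1 ▸ hd) h.1
        (by
          rw [e1, Gel.act_mul hA (BMatA.W_gr S _ l) (BMatA.W_gr S χ k) hd]
          exact S.cl_pt _ l h.2)
      exact ⟨g.ev c χ, h8, fun _ _ => ⟨f, c, h5, h6, h7, rfl, e1 ▸ h9⟩⟩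
    · exact ⟨1, norm_one, fun h1 h2 => absurd ⟨h1, h2⟩ h⟩
  choose γ h1 h2 using key
  refine ⟨γ, h1, fun l l' hl hl' hkl hkl' => ?_⟩
  obtain ⟨f, c, h3, h4, h5, h6, h7⟩ := h2 l hl hkl
  obtain ⟨f', c', h3', h4', h5', h6', h7'⟩ := h2 l' hl' hkl'
  have hz : star (g.W u e R (pt χ k) l) * x' * g.W u e R (pt χ k) l' ∈ M :=
    mul_mem (mul_mem (star_mem (BMatA.W_mem S _ l)) (BMatA.x_mem S)) (BMatA.W_mem S _ l')
  have hz' : star (g.W u e R χ k) * (star (g.W u e R (pt χ k) l) * x' * g.W u e R (pt χ k) l') *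
      g.W u e R χ k ∈ M :=
    mul_mem (mul_mem (star_mem (BMatA.W_mem S _ k)) hz) (BMatA.W_mem S _ k)
  have hy : star (g.W u e R χ l) * x' * g.W u e R χ l' ∈ M :=
    mul_mem (mul_mem (star_mem (BMatA.W_mem S _ l)) (BMatA.x_mem S)) (BMatA.W_mem S _ l')
  have e1 := Gel.st_act S.st S.ce (mul_nonneg S.gen.nonneg (Nat.cast_nonneg R))
    (S.W_gb χ k) (S.W_dom χ k) hz
  have e2 : f * (star (g.W u e R χ k) *
      (star (g.W u e R (pt χ k) l) * x' * g.W u e R (pt χ k) l') * g.W u e R χ k) * f' =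
      star c * (star (g.W u e R χ l) * x' * g.W u e R χ l') * c' := by
    calc _ = star (g.W u e R (pt χ k) l * g.W u e R χ k * f) * x' *
          (g.W u e R (pt χ k) l' * g.W u e R χ k * f') := by
          simp only [star_mul, mul_assoc, h3.2.isSelfAdjoint.star_eq]
      _ = _ := by
          rw [h7, h7']
          simp only [star_mul, mul_assoc]
  have e3 := congrArg (g.st E χ) e2
  rw [g.st_mul_right S.ce h3'.1 (mul_mem (hA.le _ h3.1) hz'), g.st_mul_left S.ce h3.1 hz',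
    g.st_mul_right S.ce h5' (mul_mem (hA.le _ (star_mem h5)) hy),
    g.st_mul_left S.ce (star_mem h5) hy, h4, h4', one_mul, mul_one, g.ev_star h5, h6, h6'] at e3
  rw [BMatA.Y_eq S _ hkl hkl', BMatA.Y_eq S χ hl hl', ← e3, ← e1]
  rfl

theorem adj (χ : X) (k l l' : Fin J) (hk : d χ k ≤ R) (h : Y χ l l' ≠ 0) (hl : d (pt χ k) l < R) :
    d (pt χ k) l' ≤ d (pt χ k) l + 1 := by
  have hA := S.st.masa
  have h1 : d χ l ≤ R ∧ d χ l' ≤ R := by
    by_contra h'
    exact h (BMatA.Y_zero S χ h')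
  rw [BMatA.Y_eq S χ h1.1 h1.2, BMatA.st_x S] at h
  obtain ⟨i, -, hi⟩ := Finset.exists_ne_zero_of_sum_ne_zero h
  obtain ⟨h2, h3⟩ := S.edge χ i hi
  obtain ⟨i', hi'⟩ := S.gen.symm i
  have h4 := Gel.dom_star hA (S.gen.gb i).1 h2
  have h5 := Gel.act_star hA (S.gen.gb i).1 h2
  rw [h3, ← hi'] at h4 h5
  obtain ⟨w, h6, h7, h8⟩ := S.min_word hl.le
  rw [S.pt_pt χ k l hk h1.1 hl.le] at h8
  have hw := (wd_gb S.st S.gen w).1
  have hd : g.dom (u i' * wd u w) (pt χ k) :=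
    (Gel.dom_mul hA (S.gen.gb i').1 hw).2 ⟨h7, h8 ▸ h4⟩
  have h9 := S.dd_le (w := i' :: w) (by rw [List.length_cons]; omega) (χ := pt χ k)
    (by rwa [wd_cons])
  rw [wd_cons, Gel.act_mul hA (S.gen.gb i').1 hw hd, h8, h5, S.cl_pt χ l' h1.2, List.length_cons,
    h6] at h9
  exact h9

end Set0

end Crest.Agent.R109
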