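import Crest.Agent.R109.BMat

/-!
# Row 109, task R109-BMom

Moments of the paved operator are moments of the local matrices.  Fix `χ`, `φ = g.st E χ`, `W k = g.W u e R χ k`.
PLAN.  `Sp t y`: there are a projection `f ∈ A` with `ev f χ = 1` and `c k ∈ A`, `c k = 0` for `d χ k > t`, with
`y f = ∑ W k c k`.  `1 ∈ Sp 0` (`W_self`); `Sp t` is closed under sums, scalars, left multiplication by `A`
(`Gr.mul_eq'`), monotone in `t`; `u i * Sp t ⊆ Sp (t + 1)` for `t < R`: for each present `l`, either `¬ dom (u i W l) χ` and the term is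
killed by the projection `1 - (u i W l)⋆ (u i W l)`, or (`min_word`, `dd_le`, `word_phase`) `u i W l f' = W k c`.  So `Z^t ∈ Sp t`.
For `y ∈ Sp t`, `t ≤ R`: `ev (c l) χ = φ (W l⋆ y)` (`orthn`) and `φ (W k⋆ Z y) = ∑_l φ (W k⋆ Z W l) φ (W l⋆ y)`;
`φ (W k⋆ Z W l) = zM k l` for present `k, l` (`p i W l = W l (W l⋆ p i W l)`, `act_spec`, `diag`).  Induction on `t`:
`(zM^t) k (cl χ) = if d χ k ≤ R then φ (W k⋆ Z^t) else 0`.
-/

set_option autoImplicit false
set_option linter.unusedSectionVars false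
set_option linter.unusedVariables false

namespace Crest.Agent.R109

open scoped InnerProductSpace ComplexOrder ComplexConjugate
open Filter Topology

universe u

variable {H : Type u} [NormedAddCommGroup H] [InnerProductSpace ℂ H] [CompleteSpace H]
  {M : VonNeumannAlgebra H} {A : StarSubalgebra ℂ (H →L[ℂ] H)}
  {ω φ : (H →L[ℂ] H) →ₗ[ℂ] ℂ} {E : (H →L[ℂ] H) →ₗ[ℂ] (H →L[ℂ] H)}
  {X : Type u} [TopologicalSpace X] [CompactSpace X] [T2Space X] [MeasurableSpace X] [BorelSpace X]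
  {μ : MeasureTheory.Measure X} [MeasureTheory.IsProbabilityMeasure μ] {g : Gel A ω X μ}
  {Λ K₀ : ℝ} {n J : ℕ} {u b : Fin n → H →L[ℂ] H} {x' : H →L[ℂ] H} {e : Fin J → H →L[ℂ] H} {R : ℕ}
  {cl : X → Fin J}

open MeasureTheory Finset

namespace BMomA

/-- elements whose GNS vector lies in the span of the `W k`, `dd k ≤ t` -/
def Sp (M : VonNeumannAlgebra H) (φ : (H →L[ℂ] H) →ₗ[ℂ] ℂ) (W : Fin J → H →L[ℂ] H) (dd : Fin J → ℕ)
    (t : ℕ) : Submodule ℂ (H →L[ℂ] H) where
  carrier := {y | ∃ γ : Fin J → ℂ, (∀ k, t < dd k → γ k = 0) ∧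
    ∀ z ∈ M, φ (z * y) = ∑ k, γ k * φ (z * W k)}
  add_mem' := by
    rintro y y' ⟨γ, h0, h⟩ ⟨γ', h0', h'⟩
    refine ⟨γ + γ', fun k hk => by simp [h0 k hk, h0' k hk], fun z hz => ?_⟩
    rw [mul_add, map_add, h z hz, h' z hz, ← Finset.sum_add_distrib]
    exact Finset.sum_congr rfl fun k _ => by simp [add_mul]
  zero_mem' := ⟨0, fun _ _ => rfl, fun z _ => by simp⟩
  smul_mem' := by
    rintro c y ⟨γ, h0, h⟩
    refine ⟨c • γ, fun k hk => by simp [h0 k hk], fun z hz => ?_⟩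
    rw [mul_smul_comm, map_smul, h z hz, smul_eq_mul, Finset.mul_sum]
    exact Finset.sum_congr rfl fun k _ => by simp [mul_assoc]

theorem Sp_single {φ : (H →L[ℂ] H) →ₗ[ℂ] ℂ} {W : Fin J → H →L[ℂ] H} {dd : Fin J → ℕ} {t : ℕ}
    {y : H →L[ℂ] H} (k : Fin J) (hk : dd k ≤ t) (γ : ℂ) (h : ∀ z ∈ M, φ (z * y) = γ * φ (z * W k)) :
    y ∈ Sp M φ W dd t := by
  classical
  refine ⟨Pi.single k γ, fun k' hk' => ?_, fun z hz => ?_⟩
  · have : k' ≠ k := by rintro rfl; omega
    simp [this]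
  · rw [h z hz, Finset.sum_eq_single k]
    · simp
    · intro k' _ hne; simp [hne]
    · simp

theorem Sp_mul_right (hA : Masa M A) (hE : CE M A ω E) {W : Fin J → H →L[ℂ] H} {dd : Fin J → ℕ} {t : ℕ}
    {χ : X} {y a : H →L[ℂ] H} (hyM : y ∈ M) (hy : y ∈ Sp M (g.st E χ) W dd t) (ha : a ∈ A) :
    y * a ∈ Sp M (g.st E χ) W dd t := by
  obtain ⟨γ, h0, h⟩ := hy
  refine ⟨g.ev a χ • γ, fun k hk => by simp [h0 k hk], fun z hz => ?_⟩
  rw [← mul_assoc, g.st_mul_right hE ha (mul_mem hz hyM), h z hz, Finset.sum_mul]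
  exact Finset.sum_congr rfl fun k _ => by simp; ring

end BMomA

open BMomA

namespace Set0

variable (S : Set0 M A ω E g Λ K₀ u b x' e R cl)
include S

local notation "d" => g.dd u e R
local notation "pt" => g.ptt u e R
local notation "ℓ" => g.ll u e R M
local notation "Y" => g.YY u e R E x'

theorem BMomA_xM : x' ∈ M := by
  rw [S.gen.eq]
  exact sum_mem fun i _ => mul_mem (S.gen.gb i).1.1.1 (S.st.masa.le _ (S.gen.mem i))

theorem BMomA_uW (χ : X) (i : Fin n) (l : Fin J) (hl : d χ l < R) :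
    u i * g.W u e R χ l ∈ Sp M (g.st E χ) (g.W u e R χ) (d χ) (d χ l + 1) := by
  have hA := S.st.masa
  have hu : Gr M A (u i) := (S.gen.gb i).1
  have hW : Gr M A (g.W u e R χ l) := (S.W_gb χ l).1
  have huW : Gr M A (u i * g.W u e R χ l) := hu.mul hA hW
  by_cases hd : g.dom (u i * g.W u e R χ l) χ
  · obtain ⟨w₀, hw₀, e₀, -⟩ := S.W_word hl.le
    obtain ⟨w, hw, hwd, hwa⟩ := S.min_word hl.le
    have hwg : Gr M A (wd u w) := (wd_gb S.st S.gen w).1
    have hd1 := (Gel.dom_mul hA hu hW).1 hd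
    have hdw : g.dom (wd u (i :: w)) χ := by
      rw [wd_cons]
      refine (Gel.dom_mul hA hu hwg).2 ⟨hwd, ?_⟩
      rw [hwa]; exact hd1.2
    have hact : g.act (wd u (i :: w)) χ = g.act (u i * g.W u e R χ l) χ := by
      rw [Gel.act_mul hA hu hW hd]
      have := hdw
      rw [wd_cons] at this ⊢
      rw [Gel.act_mul hA hu hwg this, hwa]; rfl
    have hk : d χ (cl (g.act (u i * g.W u e R χ l) χ)) ≤ d χ l + 1 := by
      have := S.dd_le (w := i :: w) (by simp; omega) hdw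
      rw [hact] at this
      simpa [hw] using this
    have e1 : wd u (i :: w₀) = u i * g.W u e R χ l := by rw [wd_cons, e₀]
    obtain ⟨-, f, c, hf, hf1, hc, -, hfc⟩ := S.word_phase (w := i :: w₀) (by simp; omega)
      (by rw [e1]; exact hd) (k := cl (g.act (u i * g.W u e R χ l) χ)) (by omega) (by rw [e1])
    rw [e1] at hfc
    refine Sp_single _ hk (g.ev c χ) fun z hz => ?_
    have h1 := g.st_mul_right S.ce hf.1 (mul_mem hz huW.1.1) χ
    rw [hf1, mul_one, mul_assoc, hfc, ← mul_assoc,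
      g.st_mul_right S.ce hc (mul_mem hz (S.W_gb χ _).1.1.1)] at h1
    rw [← h1, mul_comm]
  · refine ⟨0, fun _ _ => rfl, fun z hz => ?_⟩
    have h0 : g.ev (star (u i * g.W u e R χ l) * (u i * g.W u e R χ l)) χ = 0 :=
      (g.ev_pa huW.src χ).resolve_right hd
    have h1 := g.st_mul_right S.ce huW.src.1 (mul_mem hz huW.1.1) χ
    rw [h0, mul_zero, mul_assoc, ← mul_assoc (u i * _), huW.2] at h1
    simp [h1]

theorem BMomA_pinW {r : ℕ} {p : Fin r → H →L[ℂ] H} (hp : IsPartOf A 1 p) (χ : X) (l : Fin J)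
    (hl : d χ l < R) :
    pin p x' * g.W u e R χ l ∈ Sp M (g.st E χ) (g.W u e R χ) (d χ) (d χ l + 1) := by
  have hA := S.st.masa
  have hW : Gr M A (g.W u e R χ l) := (S.W_gb χ l).1
  unfold pin
  rw [Finset.sum_mul]
  refine Submodule.sum_mem _ fun i _ => ?_
  rw [S.gen.eq, Finset.mul_sum, Finset.sum_mul, Finset.sum_mul]
  refine Submodule.sum_mem _ fun j _ => ?_
  have hu : Gr M A (u j) := (S.gen.gb j).1
  have ha1 : star (u j) * p i * u j ∈ A := hu.1.2.2 _ (hp.pa i).1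
  have ha2 : star (u j) * p i * u j * b j * p i ∈ A := mul_mem (mul_mem ha1 (S.gen.mem j)) (hp.pa i).1
  have e1 : p i * (u j * b j) * p i * g.W u e R χ l =
      u j * g.W u e R χ l * (star (g.W u e R χ l) * (star (u j) * p i * u j * b j * p i) * g.W u e R χ l) := by
    rw [mul_assoc (u j), ← hW.mul_eq' hA ha2, ← mul_assoc (p i), hu.mul_eq' hA (hp.pa i).1]
    simp only [mul_assoc]
  rw [e1]
  exact Sp_mul_right hA S.ce (hu.mul hA hW).1.1 (S.BMomA_uW χ j l hl) (hW.1.2.2 _ ha2)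

theorem BMomA_entry {r : ℕ} (c : X → Fin r) {p : Fin r → H →L[ℂ] H} (hp : IsPartOf A 1 p)
    (hc : ∀ χ i, g.ev (p i) χ = if c χ = i then 1 else 0) (χ : X) {k l : Fin J}
    (hk : d χ k ≤ R) (hl : d χ l ≤ R) :
    g.st E χ (star (g.W u e R χ k) * (pin p x' * g.W u e R χ l)) =
      if c (pt χ k) = c (pt χ l) then Y χ k l else 0 := by
  have hA := S.st.masa
  have hW : ∀ k, Gr M A (g.W u e R χ k) := fun k => (S.W_gb χ k).1
  have hy : star (g.W u e R χ k) * x' * g.W u e R χ l ∈ M :=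
    mul_mem (mul_mem (star_mem (hW k).1.1) S.BMomA_xM) (hW l).1.1
  have hY : Y χ k l = g.st E χ (star (g.W u e R χ k) * x' * g.W u e R χ l) := by
    simp [Gel.YY, hk, hl]
  have hev : ∀ k i, g.ev (star (g.W u e R χ k) * p i * g.W u e R χ k) χ =
      if c (pt χ k) = i then 1 else 0 := fun k i => by
    rw [← Gel.act_spec hA (hW k) (S.W_dom χ k) (hp.pa i).1, hc]; rfl
  have key : ∀ i, g.st E χ (star (g.W u e R χ k) * (p i * x' * p i * g.W u e R χ l)) =
      (if c (pt χ k) = i then 1 else 0) * Y χ k l * (if c (pt χ l) = i then 1 else 0) := by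
    intro i
    have h1 := (hW k).adj.mul_eq hA (hp.pa i).1
    rw [star_star] at h1
    have h2 := (hW l).mul_eq' hA (hp.pa i).1
    have e1 : star (g.W u e R χ k) * (p i * x' * p i * g.W u e R χ l) =
        (star (g.W u e R χ k) * p i * g.W u e R χ k) * (star (g.W u e R χ k) * x' * g.W u e R χ l) *
          (star (g.W u e R χ l) * p i * g.W u e R χ l) := by
      calc _ = (star (g.W u e R χ k) * p i) * x' * (p i * g.W u e R χ l) := by simp only [mul_assoc]
        _ = _ := by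
          conv_lhs => rw [h1, h2]
          simp only [mul_assoc]
    have ha : ∀ k, star (g.W u e R χ k) * p i * g.W u e R χ k ∈ A := fun k => (hW k).1.2.2 _ (hp.pa i).1
    rw [e1, g.st_mul_right S.ce (ha l) (mul_mem (hA.le _ (ha k)) hy), g.st_mul_left S.ce (ha k) hy,
      hev, hev, hY]
  unfold pin
  rw [Finset.sum_mul, Finset.mul_sum, map_sum]
  simp only [key]
  rw [Finset.sum_eq_single (c (pt χ k))]
  · by_cases h : c (pt χ k) = c (pt χ l)
    · simp [h]
    · simp [h, Ne.symm h]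
  · intro i _ hi
    simp [Ne.symm hi]
  · simp

theorem BMomA_step {r : ℕ} (c : X → Fin r) {p : Fin r → H →L[ℂ] H} (hp : IsPartOf A 1 p)
    (hc : ∀ χ i, g.ev (p i) χ = if c χ = i then 1 else 0) (s : Bool) (χ : X) (l : Fin J)
    (hl : d χ l < R) :
    (∀ k, d χ l + 1 < d χ k → zM (Y χ) (fun j => c (pt χ j)) s k l = 0) ∧
    ∀ z ∈ M, g.st E χ (z * (((1 - (bar r : ℂ)) • (1 : H →L[ℂ] H) + (bsg s / 320) • pin p x') *
      g.W u e R χ l)) = ∑ k, zM (Y χ) (fun j => c (pt χ j)) s k l * g.st E χ (z * g.W u e R χ k) := by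
  have hW : ∀ k, Gr M A (g.W u e R χ k) := fun k => (S.W_gb χ k).1
  have hS : ((1 - (bar r : ℂ)) • (1 : H →L[ℂ] H) + (bsg s / 320) • pin p x') * g.W u e R χ l ∈
      Sp M (g.st E χ) (g.W u e R χ) (d χ) (d χ l + 1) := by
    rw [add_mul, smul_mul_assoc, smul_mul_assoc, one_mul]
    exact add_mem (Submodule.smul_mem _ _ (Sp_single l (by omega) 1 fun z _ => (one_mul _).symm))
      (Submodule.smul_mem _ _ (S.BMomA_pinW hp χ l hl))
  obtain ⟨γ, h0, h⟩ := hS
  have hγ : ∀ k, zM (Y χ) (fun j => c (pt χ j)) s k l = γ k := by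
    intro k
    by_cases hk : d χ k ≤ R
    · have h1 := h _ (star_mem (hW k).1.1)
      rw [Finset.sum_eq_single k, S.orthn χ hk hk, if_pos rfl, mul_one] at h1
      · rw [← h1, add_mul, smul_mul_assoc, smul_mul_assoc, one_mul, mul_add, mul_smul_comm,
          mul_smul_comm, map_add, map_smul, map_smul, S.orthn χ hk hl.le,
          S.BMomA_entry c hp hc χ hk hl.le]
        by_cases hkl : k = l
        · subst hkl
          simp [zM, S.diag]
        · by_cases hcc : c (pt χ k) = c (pt χ l)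
          · simp [zM, hkl, hcc]; ring
          · simp [zM, hkl, hcc]
      · intro k' _ hne
        by_cases hk' : d χ k' ≤ R
        · rw [S.orthn χ hk hk', if_neg (Ne.symm hne), mul_zero]
        · rw [h0 k' (by omega), zero_mul]
      · simp
    · have hkl : k ≠ l := by rintro rfl; omega
      rw [h0 k (by omega)]
      simp [zM, hkl, Gel.YY, hk]
  refine ⟨fun k hk => by rw [hγ, h0 k hk], fun z hz => ?_⟩
  rw [h z hz]
  simp only [hγ]

theorem BMomA_pow {r : ℕ} (c : X → Fin r) {p : Fin r → H →L[ℂ] H} (hp : IsPartOf A 1 p)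
    (hc : ∀ χ i, g.ev (p i) χ = if c χ = i then 1 else 0) (s : Bool) (χ : X) (t : ℕ) (ht : t ≤ R) :
    (∀ k, t < d χ k → (zM (Y χ) (fun j => c (pt χ j)) s ^ t) k (cl χ) = 0) ∧
    ∀ z ∈ M, g.st E χ (z * ((1 - (bar r : ℂ)) • (1 : H →L[ℂ] H) + (bsg s / 320) • pin p x') ^ t) =
      ∑ k, (zM (Y χ) (fun j => c (pt χ j)) s ^ t) k (cl χ) * g.st E χ (z * g.W u e R χ k) := by
  have hA := S.st.masa
  have hZ : ((1 - (bar r : ℂ)) • (1 : H →L[ℂ] H) + (bsg s / 320) • pin p x') ∈ M := by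
    refine add_mem (M.toStarSubalgebra.smul_mem (one_mem _) _) (M.toStarSubalgebra.smul_mem (?_ : _ ∈ M) _)
    exact sum_mem fun i _ => mul_mem (mul_mem (hA.le _ (hp.pa i).1) S.BMomA_xM) (hA.le _ (hp.pa i).1)
  have hst := S.BMomA_step c hp hc s χ
  generalize ((1 - (bar r : ℂ)) • (1 : H →L[ℂ] H) + (bsg s / 320) • pin p x') = Z at hZ hst ⊢
  generalize zM (Y χ) (fun j => c (pt χ j)) s = N at hst ⊢
  induction t with
  | zero =>
    refine ⟨fun k hk => ?_, fun z hz => ?_⟩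
    · have : k ≠ cl χ := by rintro rfl; rw [S.d_self] at hk; omega
      simp [this]
    · rw [Finset.sum_eq_single (cl χ)]
      · simp [S.W_self]
      · intro k _ hne; simp [hne]
      · simp
  | succ t ih =>
    obtain ⟨h0, h⟩ := ih (by omega)
    refine ⟨fun k hk => ?_, fun z hz => ?_⟩
    · rw [pow_succ', Matrix.mul_apply]
      refine Finset.sum_eq_zero fun l _ => ?_
      by_cases hl : t < d χ l
      · rw [h0 l hl, mul_zero]
      · rw [(hst l (by omega)).1 k (by omega), zero_mul]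
    · rw [pow_succ', ← mul_assoc, h _ (mul_mem hz hZ)]
      simp only [pow_succ', Matrix.mul_apply, Finset.sum_mul]
      rw [Finset.sum_comm]
      refine Finset.sum_congr rfl fun l _ => ?_
      by_cases hl : t < d χ l
      · simp [h0 l hl]
      · rw [mul_assoc, (hst l (by omega)).2 z hz, Finset.mul_sum]
        exact Finset.sum_congr rfl fun k _ => by ring

theorem moment {r : ℕ} (c : X → Fin r) {p : Fin r → H →L[ℂ] H} (hp : IsPartOf A 1 p)
    (hc : ∀ χ i, g.ev (p i) χ = if c χ = i then 1 else 0) (s : Bool) {k : ℕ} (hk : k ≤ R) (χ : X) :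
    g.st E χ (((1 - (bar r : ℂ)) • (1 : H →L[ℂ] H) + (bsg s / 320) • pin p x') ^ k) =
      (zM (Y χ) (fun j => c (pt χ j)) s ^ k) (cl χ) (cl χ) := by
  obtain ⟨h0, h⟩ := S.BMomA_pow c hp hc s χ k hk
  have h1 := h 1 (one_mem _)
  have hs : d χ (cl χ) ≤ R := by rw [S.d_self]; omega
  have ho : ∀ j, d χ j ≤ R → g.st E χ (1 * g.W u e R χ j) = if cl χ = j then 1 else 0 := by
    intro j hj
    have := S.orthn χ hs hj
    rwa [S.W_self, star_one] at this
  rw [one_mul] at h1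
  rw [h1, Finset.sum_eq_single (cl χ), ho _ hs, if_pos rfl, mul_one]
  · intro j _ hne
    by_cases hj : d χ j ≤ R
    · rw [ho j hj, if_neg (Ne.symm hne), mul_zero]
    · rw [h0 j (by omega), zero_mul]
  · simp

end Set0

end Crest.Agent.R109
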