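import Crest.Agent.R109.BGeo

/-!
# Row 109, task R109-BRN

The cocycle.  PLAN.  `rho_spec`: `rho v` is an `RNd` for some `Λ'`.  `rho_germ`: if `v f = w c`, `‖ev c χ‖ = 1`, `ev f χ = 1`, `dom v χ`
then `RNd.mul_mem` and `RNd.uniq` give `v f ρ_v = v f ρ_w`; multiply by `v⋆` and evaluate.  `ℓ_le`: compare with a shortest word
(`min_word`, `word_phase`, `wd_gb`).  `ℓ_pt`: `RNd.mul` for `W (pt χ k) l * W χ k` (a word of length `≤ 2R`), `act_spec`.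
`transport`: the values `v` of `W · k` form a finite set (words of length `≤ R`; or `IsLocallyConstant.range_finite`);
for each let `f v` be the indicator of the clopen set `{cl = j, d · k ≤ R, W · k = v}` and `a = Φ F`; then
`∫ 1 ρ_v F ∘ act v = ω (f (v⋆ a v) ρ_v) = ω (v f v⋆ a)` (`RNd` with `y = f v⋆ a`, centrality), and pointwise
`∑_v ev (v f v⋆) χ' = 1[cl χ' = k ∧ d χ' j ≤ R]` (`act_spec` for `v⋆`, `pt_symm`, `d_symm`).
-/

set_option autoImplicit false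
set_option linter.unusedSectionVars false
set_option linter.unusedVariables false

namespace Crest.Agent.R109

open scoped InnerProductSpace ComplexOrder ComplexConjugate
open Filter Topology

universe u

variable {H : Type u} [NormedAddCommGroup H] [InnerProductSpace ℂ H] [CompleteSpace H]
  {M : VonNeumannAlgebra H} {A : StarSubalgebra ℂ (H →L[ℂ] H)}
  {ω φ : (H →L[ℂ] H) →ₗ[ℂ] ℂ} {E : (H →L[ℂ] H) →ₗ[ℂ] (H →L[ℂ] H)}
  {X : Type u} [TopologicalSpace X] [CompactSpace X] [T2Space X] [MeasurableSpace X] [BorelSpace X]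
  {μ : MeasureTheory.Measure X} [MeasureTheory.IsProbabilityMeasure μ] {g : Gel A ω X μ}
  {Λ K₀ : ℝ} {n J : ℕ} {u b : Fin n → H →L[ℂ] H} {x' : H →L[ℂ] H} {e : Fin J → H →L[ℂ] H} {R : ℕ}
  {cl : X → Fin J}

open MeasureTheory Finset

theorem rho_spec {v : H →L[ℂ] H} {Λ' : ℝ} (hv : Gb M A ω Λ' v) :
    ∃ Λ'', RNd M A ω Λ'' v (rho M A ω v) := by
  obtain ⟨ρ, hρ⟩ := hv.2
  have hex : ∃ ρ Λ, RNd M A ω Λ v ρ := ⟨ρ, Λ', hρ⟩
  unfold rho
  rw [dif_pos hex]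
  exact hex.choose_spec

theorem rho_germ (h : St M A ω) {v w f c ρ ρ' : H →L[ℂ] H} {Λ₁ Λ₂ : ℝ} (hv : Gr M A v)
    (hw : w ∈ M) (h1 : RNd M A ω Λ₁ v ρ) (h2 : RNd M A ω Λ₂ w ρ') {χ : X} (hd : g.dom v χ)
    (hf : PA A f) (hf1 : g.ev f χ = 1) (hc : c ∈ A) (he : v * f = w * c) : g.ev ρ χ = g.ev ρ' χ := by
  have hvM : v ∈ M := hv.1.1
  have h3 := RNd.mul_mem h hvM h1 hf.1
  have h4 := RNd.mul_mem h hw h2 hc
  rw [← he] at h4
  have h5 := RNd.uniq h (mul_mem hvM (h.masa.le f hf.1)) h3 h4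
  have h6 : star v * v * f * ρ = star v * v * f * ρ' := by
    rw [mul_assoc (star v) v f, mul_assoc (star v) (v * f) ρ, h5, ← mul_assoc]
  have hs : star v * v ∈ A := hv.src.1
  have h7 := congrArg (fun a => g.ev a χ) h6
  rw [g.ev_mul (mul_mem hs hf.1) h1.1, g.ev_mul (mul_mem hs hf.1) h2.1, g.ev_mul hs hf.1, hf1] at h7
  have hd' : g.ev (star v * v) χ = 1 := hd
  rw [hd'] at h7
  simpa using h7

theorem RNd.ev_bounds (h : St M A ω) {v ρ : H →L[ℂ] H} {Λ₁ : ℝ} (h1 : RNd M A ω Λ₁ v ρ) (χ : X) :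
    Real.exp (-Λ₁) ≤ (g.ev ρ χ).re ∧ (g.ev ρ χ).re ≤ Real.exp Λ₁ ∧ (g.ev ρ χ).im = 0 := by
  have hc : ∀ c : ℝ, g.ev (c • (1 : H →L[ℂ] H)) χ = (c : ℂ) := by
    intro c
    have : c • (1 : H →L[ℂ] H) = (c : ℂ) • (1 : H →L[ℂ] H) := (Complex.coe_smul c _).symm
    rw [this, map_smul, ContinuousMap.smul_apply, g.ev_one, smul_eq_mul, mul_one]
  have hm : ∀ c : ℝ, c • (1 : H →L[ℂ] H) ∈ A := fun c => OmegaA.rsmul_memA (one_mem A) c
  have h2 := g.ev_nonneg h.masa (sub_mem h1.1 (hm _)) (sub_nonneg.2 h1.2.1) χ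
  have h3 := g.ev_nonneg h.masa (sub_mem (hm _) h1.1) (sub_nonneg.2 h1.2.2.1) χ
  rw [map_sub, ContinuousMap.sub_apply, hc] at h2 h3
  obtain ⟨h4, h5⟩ := Complex.nonneg_iff.1 h2
  obtain ⟨h6, h7⟩ := Complex.nonneg_iff.1 h3
  rw [Complex.sub_re, Complex.ofReal_re] at h4 h6
  rw [Complex.sub_im, Complex.ofReal_im] at h5
  exact ⟨by linarith, by linarith, by linarith⟩

namespace Set0

variable (S : Set0 M A ω E g Λ K₀ u b x' e R cl)
include S

local notation "d" => g.dd u e R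
local notation "pt" => g.ptt u e R
local notation "ℓ" => g.ll u e R M
local notation "Y" => g.YY u e R E x'

theorem ℓ_cont (k : Fin J) : Continuous fun χ => ℓ χ k := by
  refine continuous_iff_continuousAt.2 fun χ₀ => ?_
  obtain ⟨Λ'', hρ⟩ := rho_spec (S.W_gb χ₀ k)
  have h1 : Continuous fun χ => Real.log (g.ev (rho M A ω (g.W u e R χ₀ k)) χ).re := by
    refine Continuous.log (Complex.continuous_re.comp (ContinuousMap.continuous _)) fun χ => ?_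
    exact ((Real.exp_pos _).trans_le (RNd.ev_bounds (g := g) S.st hρ χ).1).ne'
  refine h1.continuousAt.congr ?_
  filter_upwards [(S.W_lc k).eventually_eq χ₀] with χ hχ
  simp only [Gel.ll]
  rw [hχ]

theorem ℓ_self (χ : X) : ℓ χ (cl χ) = 0 := by
  simp only [Gel.ll]
  have h0 := S.W_gb χ (cl χ)
  rw [S.W_self] at h0 ⊢
  obtain ⟨Λ'', hρ⟩ := rho_spec h0
  have h1 := RNd.uniq S.st (one_mem M) hρ (RNd.of_mem S.st (one_mem A))
  rw [one_mul, one_mul] at h1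
  rw [h1, g.ev_one]
  simp

theorem ℓ_le (χ : X) (k : Fin J) (hk : d χ k ≤ R) : |ℓ χ k| ≤ Λ * d χ k := by
  obtain ⟨w, hw, hd, ha⟩ := S.min_word hk
  obtain ⟨-, f, c, hf, hf1, hc, -, he⟩ :=
    S.word_phase (w := w) (by omega) hd hk (by rw [ha]; exact S.cl_pt χ k hk)
  obtain ⟨hgr, ρ₁, hρ₁⟩ := wd_gb S.st S.gen w
  obtain ⟨Λ'', hρ⟩ := rho_spec (S.W_gb χ k)
  have h1 := rho_germ (g := g) S.st hgr (S.W_gb χ k).1.1.1 hρ₁ hρ hd hf hf1 hc he
  obtain ⟨h2, h3, -⟩ := RNd.ev_bounds (g := g) S.st hρ₁ χ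
  rw [h1, hw] at h2 h3
  have hp := (Real.exp_pos _).trans_le h2
  simp only [Gel.ll]
  rw [abs_le]
  exact ⟨(Real.le_log_iff_exp_le hp).2 h2, (Real.log_le_iff_le_exp hp).2 h3⟩

theorem ℓ_pt (χ : X) (k l : Fin J) (hk : d χ k ≤ R) (hl : d χ l ≤ R) (h : d (pt χ k) l ≤ R) :
    ℓ (pt χ k) l = ℓ χ l - ℓ χ k := by
  obtain ⟨w₁, hw₁, he₁, -⟩ := S.W_word hk
  obtain ⟨w₂, hw₂, he₂, hc₂⟩ := S.W_word h
  have g₁ := S.W_gb χ k
  have g₂ := S.W_gb (pt χ k) l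
  have hprod : wd u (w₂ ++ w₁) = g.W u e R (pt χ k) l * g.W u e R χ k := by
    rw [wd_append, he₁, he₂]
  have hdom : g.dom (g.W u e R (pt χ k) l * g.W u e R χ k) χ :=
    (Gel.dom_mul S.st.masa g₂.1 g₁.1).2 ⟨S.W_dom χ k, S.W_dom _ l⟩
  obtain ⟨-, f, c, hf, hf1, hc, -, he⟩ := S.word_phase (w := w₂ ++ w₁)
    (by rw [List.length_append]; omega) (by rw [hprod]; exact hdom) hl
    (by rw [hprod, Gel.act_mul S.st.masa g₂.1 g₁.1 hdom]; exact hc₂)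
  rw [hprod] at he
  obtain ⟨L₁, r₁⟩ := rho_spec g₁
  obtain ⟨L₂, r₂⟩ := rho_spec g₂
  obtain ⟨L₃, r₃⟩ := rho_spec (S.W_gb χ l)
  have r₄ := RNd.mul S.st g₂.1 g₁.1 (le_max_left 0 L₂) (r₂.mono (le_max_right 0 L₂)) r₁
  have h1 := rho_germ (g := g) S.st (Gr.mul S.st.masa g₂.1 g₁.1) (S.W_gb χ l).1.1.1 r₄ r₃ hdom hf hf1
    hc he
  have hA1 : star (g.W u e R χ k) * rho M A ω (g.W u e R (pt χ k) l) * g.W u e R χ k ∈ A :=
    g₁.1.1.2.2 _ r₂.1
  have hA2 : star (g.W u e R χ k) * g.W u e R χ k ∈ A := g₁.1.src.1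
  have hd1 : g.ev (star (g.W u e R χ k) * g.W u e R χ k) χ = 1 := S.W_dom χ k
  rw [g.ev_mul (add_mem hA1 (sub_mem (one_mem A) hA2)) r₁.1, map_add, map_sub,
    ContinuousMap.add_apply, ContinuousMap.sub_apply, g.ev_one, hd1, sub_self, add_zero,
    ← Gel.act_spec S.st.masa g₁.1 (S.W_dom χ k) r₂.1] at h1
  obtain ⟨a1, -, a2⟩ := RNd.ev_bounds (g := g) S.st r₁ χ
  obtain ⟨b1, -, b2⟩ := RNd.ev_bounds (g := g) S.st r₂ (pt χ k)
  have a3 := (Real.exp_pos _).trans_le a1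
  have b3 := (Real.exp_pos _).trans_le b1
  simp only [Gel.ll]
  rw [← h1, Complex.mul_re, a2, mul_zero, sub_zero]
  have hpt : g.act (g.W u e R χ k) χ = pt χ k := rfl
  rw [hpt, Real.log_mul b3.ne' a3.ne']
  ring

theorem BRNA_exp (χ : X) (k : Fin J) :
    g.ev (rho M A ω (g.W u e R χ k)) χ = (Real.exp (ℓ χ k) : ℂ) := by
  obtain ⟨L, r₁⟩ := rho_spec (S.W_gb χ k)
  obtain ⟨a1, -, a2⟩ := RNd.ev_bounds (g := g) S.st r₁ χ
  have a3 := (Real.exp_pos _).trans_le a1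
  simp only [Gel.ll]
  rw [Real.exp_log a3]
  apply Complex.ext
  · rw [Complex.ofReal_re]
  · rw [Complex.ofReal_im, a2]

open Classical in
theorem BRNA_conj {v f : H →L[ℂ] H} (hv : Gr M A v) (hf : f ∈ A) (χ : X) :
    g.ev (v * f * star v) χ = if g.dom (star v) χ then g.ev f (g.act (star v) χ) else 0 := by
  split_ifs with hd
  · rw [Gel.act_spec S.st.masa hv.adj hd hf, star_star]
  · have h0 : g.ev (v * star v) χ = 0 := by
      refine (g.ev_pa hv.rng χ).resolve_right fun h1 => hd ?_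
      unfold Gel.dom
      rw [star_star]
      exact h1
    have h1 : v * f * star v = v * star v * (v * f * star v) := by
      rw [← mul_assoc, ← mul_assoc, hv.2]
    rw [h1, g.ev_mul hv.rng.1 (hv.1.2.1 f hf), h0, zero_mul]

theorem BRNA_fwd {j k : Fin J} {v : H →L[ℂ] H} (hv : Gr M A v) {χ : X} (hd : g.dom (star v) χ)
    (h1 : cl (g.act (star v) χ) = j) (h2 : d (g.act (star v) χ) k ≤ R)
    (h3 : g.W u e R (g.act (star v) χ) k = v) :
    cl χ = k ∧ d χ j ≤ R ∧ v = g.W u e R (pt χ j) k := by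
  have h4 : pt (g.act (star v) χ) k = χ := by
    have h5 := Gel.act_star S.st.masa hv.adj hd
    rw [star_star] at h5
    unfold Gel.ptt
    rw [h3, h5]
  have h5 := S.cl_pt _ k h2
  have h6 := S.d_symm _ k h2
  have h7 := S.pt_symm _ k h2
  rw [h4] at h5 h6 h7
  rw [h1] at h6 h7
  refine ⟨h5, h6 ▸ h2, ?_⟩
  rw [h7, h3]

theorem BRNA_bwd {j k : Fin J} {χ : X} (h1 : cl χ = k) (h2 : d χ j ≤ R) :
    g.dom (star (g.W u e R (pt χ j) k)) χ ∧ g.act (star (g.W u e R (pt χ j) k)) χ = pt χ j ∧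
      cl (pt χ j) = j ∧ d (pt χ j) k ≤ R := by
  have h3 := S.pt_symm χ j h2
  have h4 := S.d_symm χ j h2
  rw [h1] at h3 h4
  have hv := (S.W_gb (pt χ j) k).1
  have h5 := Gel.dom_star S.st.masa hv (S.W_dom (pt χ j) k)
  have h6 := Gel.act_star S.st.masa hv (S.W_dom (pt χ j) k)
  have h7 : g.act (g.W u e R (pt χ j) k) (pt χ j) = χ := h3
  rw [h7] at h5 h6
  exact ⟨h5, h6, S.cl_pt χ j h2, h4 ▸ h2⟩

theorem transport (j k : Fin J) (F : X → ℝ) (hF : Continuous F) :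
    ∫ χ, (if cl χ = j ∧ d χ k ≤ R then Real.exp (ℓ χ k) * F (pt χ k) else 0) ∂μ =
      ∫ χ, (if cl χ = k ∧ d χ j ≤ R then F χ else 0) ∂μ := by
  classical
  have hfin : (Set.range fun χ => g.W u e R χ k).Finite := (S.W_lc k).range_finite
  have hgb : ∀ v ∈ hfin.toFinset, Gb M A ω (Λ * R) v := by
    intro v hv
    obtain ⟨χ, rfl⟩ := hfin.mem_toFinset.1 hv
    exact S.W_gb χ k
  have hmem : ∀ χ, g.W u e R χ k ∈ hfin.toFinset := fun χ => hfin.mem_toFinset.2 ⟨χ, rfl⟩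
  have hU : ∀ v : H →L[ℂ] H, IsClopen {χ | cl χ = j ∧ d χ k ≤ R ∧ g.W u e R χ k = v} := by
    intro v
    have a1 : IsClopen {χ | cl χ = j} := S.cl_lc.isClopen_fiber j
    have a2 : IsClopen {χ | d χ k ≤ R} :=
      ⟨⟨(S.dd_lc k) {m | m ≤ R}ᶜ⟩, (S.dd_lc k) {m | m ≤ R}⟩
    have a3 : IsClopen {χ | g.W u e R χ k = v} := (S.W_lc k).isClopen_fiber v
    exact a1.inter (a2.inter a3)
  choose f hf hfe using fun v => g.exists_ind (hU v)
  let Fc : C(X, ℂ) := ⟨fun χ => (F χ : ℂ), Complex.continuous_ofReal.comp hF⟩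
  have ha : g.Φ Fc ∈ A := g.mem Fc
  have hae : ∀ χ, g.ev (g.Φ Fc) χ = (F χ : ℂ) := fun χ => by rw [g.ev_Φ]; rfl
  have hρ : ∀ v ∈ hfin.toFinset, rho M A ω v ∈ A := fun v hv => (rho_spec (hgb v hv)).choose_spec.1
  have m1 : ∀ v ∈ hfin.toFinset, f v * (star v * g.Φ Fc * v) * rho M A ω v ∈ A := fun v hv =>
    mul_mem (mul_mem (hf v).1 ((hgb v hv).1.1.2.2 _ ha)) (hρ v hv)
  have m2 : ∀ v ∈ hfin.toFinset, v * f v * star v * g.Φ Fc ∈ A := fun v hv =>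
    mul_mem ((hgb v hv).1.1.2.1 _ (hf v).1) ha
  have e1 : ∀ χ, g.ev (∑ v ∈ hfin.toFinset, f v * (star v * g.Φ Fc * v) * rho M A ω v) χ =
      ((if cl χ = j ∧ d χ k ≤ R then Real.exp (ℓ χ k) * F (pt χ k) else 0 : ℝ) : ℂ) := by
    intro χ
    rw [map_sum, ContinuousMap.sum_apply, sum_eq_single (g.W u e R χ k)]
    · have hv := hgb _ (hmem χ)
      rw [g.ev_mul (mul_mem (hf _).1 (hv.1.1.2.2 _ ha)) (hρ _ (hmem χ)),
        g.ev_mul (hf _).1 (hv.1.1.2.2 _ ha), hfe, S.BRNA_exp,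
        ← Gel.act_spec S.st.masa hv.1 (S.W_dom χ k) ha, hae]
      have hpt : g.act (g.W u e R χ k) χ = pt χ k := rfl
      rw [hpt]
      by_cases hc : cl χ = j ∧ d χ k ≤ R
      · rw [if_pos hc, if_pos (show χ ∈ {χ' | cl χ' = j ∧ d χ' k ≤ R ∧
          g.W u e R χ' k = g.W u e R χ k} from ⟨hc.1, hc.2, rfl⟩)]
        push_cast
        ring
      · rw [if_neg hc, if_neg (fun h' : χ ∈ {χ' | cl χ' = j ∧ d χ' k ≤ R ∧
          g.W u e R χ' k = g.W u e R χ k} => hc ⟨h'.1, h'.2.1⟩)]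
        simp
    · intro v hv hne
      rw [g.ev_mul (mul_mem (hf _).1 ((hgb v hv).1.1.2.2 _ ha)) (hρ _ hv),
        g.ev_mul (hf _).1 ((hgb v hv).1.1.2.2 _ ha), hfe,
        if_neg (fun h' : χ ∈ {χ' | cl χ' = j ∧ d χ' k ≤ R ∧ g.W u e R χ' k = v} =>
          hne h'.2.2.symm), zero_mul, zero_mul]
    · intro h'
      exact absurd (hmem χ) h'
  have e2 : ∀ χ, g.ev (∑ v ∈ hfin.toFinset, v * f v * star v * g.Φ Fc) χ =
      ((if cl χ = k ∧ d χ j ≤ R then F χ else 0 : ℝ) : ℂ) := by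
    intro χ
    rw [map_sum, ContinuousMap.sum_apply]
    have hterm : ∀ v ∈ hfin.toFinset, ¬ (cl χ = k ∧ d χ j ≤ R ∧ v = g.W u e R (pt χ j) k) →
        g.ev (v * f v * star v * g.Φ Fc) χ = 0 := by
      intro v hv hn
      rw [g.ev_mul ((hgb v hv).1.1.2.1 _ (hf v).1) ha, S.BRNA_conj (hgb v hv).1 (hf v).1]
      by_cases hd : g.dom (star v) χ
      · rw [if_pos hd, hfe, if_neg, zero_mul]
        intro h'
        exact hn (S.BRNA_fwd (hgb v hv).1 hd h'.1 h'.2.1 h'.2.2)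
      · rw [if_neg hd, zero_mul]
    by_cases hc : cl χ = k ∧ d χ j ≤ R
    · rw [if_pos hc, sum_eq_single (g.W u e R (pt χ j) k)]
      · have hv := hgb _ (hmem (pt χ j))
        obtain ⟨b1, b2, b3, b4⟩ := S.BRNA_bwd hc.1 hc.2
        rw [g.ev_mul (hv.1.1.2.1 _ (hf _).1) ha, S.BRNA_conj hv.1 (hf _).1, if_pos b1, b2, hfe,
          if_pos (show pt χ j ∈ {χ' | cl χ' = j ∧ d χ' k ≤ R ∧
            g.W u e R χ' k = g.W u e R (pt χ j) k} from ⟨b3, b4, rfl⟩), one_mul, hae]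
      · intro v hv hne
        exact hterm v hv fun h' => hne h'.2.2
      · intro h'
        exact absurd (hmem _) h'
    · rw [if_neg hc, Complex.ofReal_zero]
      exact sum_eq_zero fun v hv => hterm v hv fun h' => hc ⟨h'.1, h'.2.1⟩
  have e3 : ω (∑ v ∈ hfin.toFinset, f v * (star v * g.Φ Fc * v) * rho M A ω v) =
      ω (∑ v ∈ hfin.toFinset, v * f v * star v * g.Φ Fc) := by
    rw [map_sum, map_sum]
    refine sum_congr rfl fun v hv => ?_
    obtain ⟨L, r₁⟩ := rho_spec (hgb v hv)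
    have hy : f v * star v * g.Φ Fc ∈ M :=
      mul_mem (mul_mem (S.st.masa.le _ (hf v).1) (star_mem (hgb v hv).1.1.1)) (S.st.masa.le _ ha)
    have h1 := r₁.2.2.2 _ hy
    simp only [mul_assoc] at h1 ⊢
    exact h1.symm
  rw [g.int_ev (sum_mem m1), g.int_ev (sum_mem m2)] at e3
  simp only [e1, e2] at e3
  rw [integral_complex_ofReal, integral_complex_ofReal] at e3
  exact_mod_cast e3

end Set0

end Crest.Agent.R109
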