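import Crest.Agent.R109.Act

/-!
# Row 109, task R109-BW

Words.  `S : Set0 …` collects the hypotheses.  PLAN.  `wd_gb`: induction (`Gb.mul`, `PA.gb` for `1`).  `wd_star`: reverse the word
and use `symm`.  `loop`: `j = cl χ`, `v = wd u w`, `f = e j (v⋆ e j v)` is a projection with `ev f χ = 1` (`act_spec`), and
`v f = (e j v e j) (v⋆ e j v) ∈ A` by `proper`; `act_of_germ`.  `same_pt`: let `w''` be the inverse word of `w'`; apply `loop` at
`χ₁ = act (wd w') χ` to `w ++ w''` (`dom_mul`, `act_mul`, `act_star`) to see that the points agree, and `loop` at `χ` to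
`w'' ++ w` + `germ_phase` for the phase.  `gw_lc`: finitely many words (`List.finite_length_le`), each condition is clopen
(`ev (e k) (act v χ) = ev (v⋆ e k v) χ` on the domain).
-/

set_option autoImplicit false
set_option linter.unusedSectionVars false
set_option linter.unusedVariables false

namespace Crest.Agent.R109

open scoped InnerProductSpace ComplexOrder ComplexConjugate
open Filter Topology

universe u

variable {H : Type u} [NormedAddCommGroup H] [InnerProductSpace ℂ H] [CompleteSpace H]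
  {M : VonNeumannAlgebra H} {A : StarSubalgebra ℂ (H →L[ℂ] H)}
  {ω φ : (H →L[ℂ] H) →ₗ[ℂ] ℂ} {E : (H →L[ℂ] H) →ₗ[ℂ] (H →L[ℂ] H)}
  {X : Type u} [TopologicalSpace X] [CompactSpace X] [T2Space X] [MeasurableSpace X] [BorelSpace X]
  {μ : MeasureTheory.Measure X} [MeasureTheory.IsProbabilityMeasure μ] {g : Gel A ω X μ}
  {Λ K₀ : ℝ} {n J : ℕ} {u b : Fin n → H →L[ℂ] H} {x' : H →L[ℂ] H} {e : Fin J → H →L[ℂ] H} {R : ℕ}
  {cl : X → Fin J}

open MeasureTheory Finset

theorem wd_nil : wd u [] = 1 := rfl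

theorem wd_cons (i : Fin n) (w : List (Fin n)) : wd u (i :: w) = u i * wd u w := by
  simp [wd]

theorem wd_append (w w' : List (Fin n)) : wd u (w ++ w') = wd u w * wd u w' := by
  simp [wd]

theorem wd_gb (h : St M A ω) (hG : Gen M A ω E Λ K₀ u b x') (w : List (Fin n)) :
    Gb M A ω (Λ * w.length) (wd u w) := by
  induction w with
  | nil => simpa [wd_nil] using PA.one.gb h
  | cons i w ih =>
    have := Gb.mul h hG.nonneg (hG.gb i) ih
    rw [wd_cons, List.length_cons]
    convert this using 1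
    push_cast
    ring

theorem wd_star (hG : Gen M A ω E Λ K₀ u b x') (w : List (Fin n)) :
    ∃ w' : List (Fin n), w'.length = w.length ∧ wd u w' = star (wd u w) := by
  induction w with
  | nil => exact ⟨[], rfl, by simp [wd_nil]⟩
  | cons i w ih =>
    obtain ⟨w', h1, h2⟩ := ih
    obtain ⟨i', hi⟩ := hG.symm i
    refine ⟨w' ++ [i'], by simp [h1], ?_⟩
    rw [wd_append, wd_cons, wd_nil, mul_one, h2, hi, wd_cons, star_mul]

namespace BWA

theorem sel_mem {α : Type*} {T : Set (List α)} (h : T.Nonempty) : sel T ∈ T := by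
  unfold sel
  split_ifs with h1
  · exact h1
  · exact h.some_mem

theorem sel_empty {α : Type*} {T : Set (List α)} (h : ¬ T.Nonempty) : sel T = [] := by
  unfold sel
  rw [dif_neg h, ite_self]

theorem sel_nil {α : Type*} {T : Set (List α)} (h : [] ∈ T) : sel T = [] := by
  unfold sel
  rw [if_pos h]

theorem ne_of_mlen {α : Type*} {R : ℕ} {T : Set (List α)} (h : mlen R T ≤ R) : T.Nonempty := by
  by_contra h1
  unfold mlen at h
  rw [if_neg h1] at h
  omega

theorem mlen_le {α : Type*} {R : ℕ} {T : Set (List α)} {w : List α} (h : w ∈ T) :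
    mlen R T ≤ w.length := by
  unfold mlen
  rw [if_pos ⟨w, h⟩]
  exact Nat.sInf_le ⟨w, h, rfl⟩

theorem mlen_mem {α : Type*} {R : ℕ} {T : Set (List α)} (h : T.Nonempty) :
    ∃ w ∈ T, w.length = mlen R T := by
  unfold mlen
  rw [if_pos h]
  exact Nat.sInf_mem (h.image List.length)

theorem ev_iff {U : Set X} (hU : IsClopen U) (x : X) : ∀ᶠ y in 𝓝 x, y ∈ U ↔ x ∈ U := by
  by_cases h : x ∈ U
  · filter_upwards [hU.isOpen.mem_nhds h] with y hy
    exact ⟨fun _ => h, fun _ => hy⟩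
  · filter_upwards [hU.compl.isOpen.mem_nhds h] with y hy
    exact ⟨fun h' => absurd h' hy, fun h' => absurd h' h⟩

end BWA

namespace Set0

variable (S : Set0 M A ω E g Λ K₀ u b x' e R cl)
include S

theorem bw_gr (w : List (Fin n)) : Gr M A (wd u w) := (wd_gb S.st S.gen w).1

theorem cl_lc : IsLocallyConstant cl := by
  refine IsLocallyConstant.iff_isOpen_fiber.2 fun j => ?_
  have : cl ⁻¹' {j} = {χ | g.ev (e j) χ = 1} := by
    ext χ
    exact S.cl_iff χ j
  rw [this]
  exact (g.clopen_pa (S.part.pa j)).isOpen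

theorem loop {w : List (Fin n)} (hw : w.length ≤ 3 * R + 1) {χ : X} (hd : g.dom (wd u w) χ)
    (hc : cl (g.act (wd u w) χ) = cl χ) :
    g.act (wd u w) χ = χ ∧ ∃ f, PA A f ∧ g.ev f χ = 1 ∧ wd u w * f ∈ A := by
  have hA := S.st.masa
  have hv := S.bw_gr w
  have hj := S.part.pa (cl χ)
  have hc' := hv.conj_pa hA hj
  have hf : PA A (star (wd u w) * e (cl χ) * wd u w * e (cl χ)) := hc'.mul hA hj
  have h1 : g.ev (star (wd u w) * e (cl χ) * wd u w * e (cl χ)) χ = 1 := by
    rw [g.ev_mul hc'.1 hj.1, ← Gel.act_spec hA hv hd hj.1, (S.cl_iff _ _).1 hc,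
      (S.cl_iff _ _).1 rfl, mul_one]
  have hm : wd u w * (star (wd u w) * e (cl χ) * wd u w * e (cl χ)) ∈ A := by
    rw [← mul_assoc, ← hv.mul_eq' hA hj.1]
    exact S.proper w hw _
  exact ⟨Gel.act_of_germ hA hv hd hf h1 hm, _, hf, h1, hm⟩

theorem same_pt {w w' : List (Fin n)} (hw : w.length + w'.length ≤ 3 * R + 1) {χ : X}
    (hd : g.dom (wd u w) χ) (hd' : g.dom (wd u w') χ)
    (hc : cl (g.act (wd u w) χ) = cl (g.act (wd u w') χ)) :
    g.act (wd u w) χ = g.act (wd u w') χ ∧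
      ∃ f c, PA A f ∧ g.ev f χ = 1 ∧ c ∈ A ∧ ‖g.ev c χ‖ = 1 ∧ wd u w * f = wd u w' * c := by
  have hA := S.st.masa
  have hv := S.bw_gr w
  have hv' := S.bw_gr w'
  obtain ⟨w'', hl, hs⟩ := wd_star S.gen w'
  have d1 : g.dom (wd u w * star (wd u w')) (g.act (wd u w') χ) := by
    rw [Gel.dom_mul hA hv hv'.adj, Gel.act_star hA hv' hd']
    exact ⟨Gel.dom_star hA hv' hd', hd⟩
  have a1 : g.act (wd u w * star (wd u w')) (g.act (wd u w') χ) = g.act (wd u w) χ := by
    rw [Gel.act_mul hA hv hv'.adj d1, Gel.act_star hA hv' hd']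
  have l1 := S.loop (w := w ++ w'') (by rw [List.length_append, hl]; exact hw)
    (χ := g.act (wd u w') χ) (by rw [wd_append, hs]; exact d1) (by rw [wd_append, hs, a1]; exact hc)
  have he : g.act (wd u w) χ = g.act (wd u w') χ := by
    have := l1.1
    rwa [wd_append, hs, a1] at this
  have d2 : g.dom (star (wd u w') * wd u w) χ := by
    rw [Gel.dom_mul hA hv'.adj hv, he]
    exact ⟨hd, Gel.dom_star hA hv' hd'⟩
  have a2 : g.act (star (wd u w') * wd u w) χ = χ := by
    rw [Gel.act_mul hA hv'.adj hv d2, he, Gel.act_star hA hv' hd']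
  obtain ⟨-, f, hf, h1, hm⟩ := S.loop (w := w'' ++ w)
    (by rw [List.length_append, hl, add_comm]; exact hw) (χ := χ)
    (by rw [wd_append, hs]; exact d2) (by rw [wd_append, hs, a2])
  rw [wd_append, hs] at hm
  exact ⟨he, Gel.germ_phase hA hv hv' hd hd' he hf h1 hm⟩

theorem gw_lc (k : Fin J) : IsLocallyConstant fun χ => g.gw u e R χ k := by
  have hA := S.st.masa
  have hcl : ∀ w : List (Fin n),
      IsClopen {χ | g.dom (wd u w) χ ∧ g.ev (e k) (g.act (wd u w) χ) = 1} := by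
    intro w
    have hv := S.bw_gr w
    have : {χ | g.dom (wd u w) χ ∧ g.ev (e k) (g.act (wd u w) χ) = 1} =
        {χ | g.dom (wd u w) χ} ∩ {χ | g.ev (star (wd u w) * e k * wd u w) χ = 1} := by
      ext χ
      refine and_congr_right fun hd => ?_
      rw [Gel.act_spec hA hv hd (S.part.pa k).1]
      rfl
    rw [this]
    exact (g.dom_clopen hv).inter (g.clopen_pa (hv.conj_pa hA (S.part.pa k)))
  refine (IsLocallyConstant.iff_eventually_eq _).2 fun χ => ?_
  have := (eventually_all_finite (List.finite_length_le (Fin n) R)).2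
    fun w _ => BWA.ev_iff (hcl w) χ
  filter_upwards [this] with χ' h
  ext w
  exact and_congr_right fun hw => h w hw

theorem W_lc (k : Fin J) : IsLocallyConstant fun χ => g.W u e R χ k := by
  exact (S.gw_lc k).comp fun T => wd u (sel T)

theorem dd_lc (k : Fin J) : IsLocallyConstant fun χ => g.dd u e R χ k := by
  exact (S.gw_lc k).comp fun T => mlen R T

theorem W_gb (χ : X) (k : Fin J) : Gb M A ω (Λ * R) (g.W u e R χ k) := by
  refine (wd_gb S.st S.gen _).mono (mul_le_mul_of_nonneg_left (Nat.cast_le.2 ?_) S.gen.nonneg)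
  by_cases h : (g.gw u e R χ k).Nonempty
  · exact (BWA.sel_mem h).1
  · rw [BWA.sel_empty h]
    exact Nat.zero_le _

theorem W_dom (χ : X) (k : Fin J) : g.dom (g.W u e R χ k) χ := by
  unfold Gel.W
  by_cases h : (g.gw u e R χ k).Nonempty
  · exact (BWA.sel_mem h).2.1
  · rw [BWA.sel_empty h, wd_nil]
    exact g.dom_one χ

theorem W_self (χ : X) : g.W u e R χ (cl χ) = 1 := by
  unfold Gel.W
  rw [BWA.sel_nil, wd_nil]
  refine ⟨Nat.zero_le _, g.dom_one χ, ?_⟩
  rw [wd_nil, g.act_one]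
  exact (S.cl_iff _ _).1 rfl

/-- a word of length `≤ R` bounds the distance -/
theorem dd_le {w : List (Fin n)} (hw : w.length ≤ R) {χ : X} (hd : g.dom (wd u w) χ) :
    g.dd u e R χ (cl (g.act (wd u w) χ)) ≤ w.length := by
  exact BWA.mlen_le ⟨hw, hd, (S.cl_iff _ _).1 rfl⟩

/-- the chosen word -/
theorem W_word {χ : X} {k : Fin J} (hk : g.dd u e R χ k ≤ R) :
    ∃ w : List (Fin n), w.length ≤ R ∧ g.W u e R χ k = wd u w ∧ cl (g.ptt u e R χ k) = k := by
  have h := BWA.sel_mem (BWA.ne_of_mlen hk)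
  exact ⟨_, h.1, rfl, (S.cl_iff _ _).2 h.2.2⟩

/-- a shortest word -/
theorem min_word {χ : X} {k : Fin J} (hk : g.dd u e R χ k ≤ R) :
    ∃ w : List (Fin n), w.length = g.dd u e R χ k ∧ g.dom (wd u w) χ ∧
      g.act (wd u w) χ = g.ptt u e R χ k := by
  have hne := BWA.ne_of_mlen hk
  have h := BWA.sel_mem hne
  obtain ⟨w, hw, hl⟩ := BWA.mlen_mem (R := R) hne
  refine ⟨w, hl, hw.2.1, (S.same_pt ?_ hw.2.1 h.2.1 ?_).1⟩
  · have h1 := hw.1
    have h2 := h.1
    omega
  · rw [(S.cl_iff _ _).2 hw.2.2, (S.cl_iff _ _).2 h.2.2]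

/-- comparison of a word with the chosen word -/
theorem word_phase {w : List (Fin n)} (hw : w.length ≤ 2 * R + 1) {χ : X} (hd : g.dom (wd u w) χ)
    {k : Fin J} (hk : g.dd u e R χ k ≤ R) (hc : cl (g.act (wd u w) χ) = k) :
    g.act (wd u w) χ = g.ptt u e R χ k ∧
      ∃ f c, PA A f ∧ g.ev f χ = 1 ∧ c ∈ A ∧ ‖g.ev c χ‖ = 1 ∧ wd u w * f = g.W u e R χ k * c := by
  have h := BWA.sel_mem (BWA.ne_of_mlen hk)
  refine S.same_pt ?_ hd h.2.1 ?_
  · have h2 := h.1
    omega
  · rw [hc, (S.cl_iff _ _).2 h.2.2]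

end Set0

end Crest.Agent.R109
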