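import Crest.Agent.R109.BRN
import Crest.Agent.R109.BMat

/-!
# Row 109: the local model attached to a family of generators
-/

set_option autoImplicit false
set_option linter.unusedSectionVars false
set_option linter.unusedVariables false

namespace Crest.Agent.R109

universe u

variable {H : Type u} [NormedAddCommGroup H] [InnerProductSpace ℂ H] [CompleteSpace H]
  {M : VonNeumannAlgebra H} {A : StarSubalgebra ℂ (H →L[ℂ] H)}
  {ω : (H →L[ℂ] H) →ₗ[ℂ] ℂ} {E : (H →L[ℂ] H) →ₗ[ℂ] (H →L[ℂ] H)}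
  {X : Type u} [TopologicalSpace X] [CompactSpace X] [T2Space X] [MeasurableSpace X] [BorelSpace X]
  {μ : MeasureTheory.Measure X} [MeasureTheory.IsProbabilityMeasure μ] {g : Gel A ω X μ}
  {Λ K₀ : ℝ} {n J : ℕ} {u b : Fin n → H →L[ℂ] H} {x' : H →L[ℂ] H} {e : Fin J → H →L[ℂ] H} {R : ℕ}
  {cl : X → Fin J}

/-- the local model -/
noncomputable def Set0.toAM (S : Set0 M A ω E g Λ K₀ u b x' e R cl) : AM X μ J R K₀ Λ (n + 1) where
  cl := cl
  d := g.dd u e R
  pt := g.ptt u e R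
  Y := g.YY u e R E x'
  ℓ := g.ll u e R M
  ed := g.ed
  cl_lc := S.cl_lc
  d_lc := S.dd_lc
  pt_cont := S.pt_cont
  Y_cont := S.Y_cont
  ℓ_cont := S.ℓ_cont
  d_self := S.d_self
  pt_self := S.pt_self
  ℓ_self := S.ℓ_self
  cl_pt := S.cl_pt
  d_symm := S.d_symm
  pt_symm := S.pt_symm
  tri := S.tri
  pt_pt := S.pt_pt
  ℓ_pt := S.ℓ_pt
  gauge := S.gauge
  adj := S.adj
  herm := S.herm
  diag := S.diag
  supp := S.supp
  contr := S.contr
  rows := S.rows
  ℓ_le := S.ℓ_le
  count := S.count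
  transport := S.transport

end Crest.Agent.R109
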