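import Crest.Agent.R109.UAC

/-!
# Row 109, task R109-CE

The conditional expectation.  PLAN.  `U = Ultrafilter.of atTop` on `Part A`; `E y` is the weak limit of
`EP P y` along `U` (`exists_wlim`, linear by uniqueness).  It commutes with every projection `f` of `A`
(`exists_two`: eventually every cell is below `f` or `1 - f`), so `E y ∈ A` (`comm_of_proj`, `max`).
`fac`: `cent_pin` and `NPos.tendsto`.  `conv`: `EP P` is an orthogonal projection for the form `ω (y⋆ z)`,
`n2 (EP P y - EP Q y)² = n2 (EP P y)² - n2 (EP Q y)²` for `P ≤ Q`; choose `P₀` with `n2 (EP P₀ y)²` within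
`η²` of the infimum; with `w = EP P y - E y`, `ω (w⋆ w) = lim_Q ω (w⋆ (EP P y - EP Q y)) ≤ n2 w * η`.
-/

set_option autoImplicit false
set_option linter.unusedSectionVars false
set_option linter.unusedVariables false

namespace Crest.Agent.R109

open scoped InnerProductSpace ComplexOrder ComplexConjugate
open Filter Topology

universe u

variable {H : Type u} [NormedAddCommGroup H] [InnerProductSpace ℂ H] [CompleteSpace H]
  {M : VonNeumannAlgebra H} {A : StarSubalgebra ℂ (H →L[ℂ] H)}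
  {ω φ : (H →L[ℂ] H) →ₗ[ℂ] ℂ} {E : (H →L[ℂ] H) →ₗ[ℂ] (H →L[ℂ] H)}

namespace CEA

theorem EP_mem (hA : Masa M A) (P : Part A) {y : H →L[ℂ] H} (hy : y ∈ M) : EP P y ∈ M := by
  rw [EP_eq_pin]; exact P.isPartOf.pin_mem hA hy

theorem EP_norm (P : Part A) (y : H →L[ℂ] H) : ‖EP P y‖ ≤ ‖y‖ := by
  rw [EP_eq_pin]; exact P.isPartOf.pin_norm_le y

theorem n2_lim (h : St M A ω) {ι : Type*} {l : Filter ι} [l.NeBot] {y : ι → H →L[ℂ] H}
    {z : H →L[ℂ] H} {C η : ℝ} (hη : 0 ≤ η) (hy : ∀ᶠ i in l, y i ∈ M ∧ ‖y i‖ ≤ C)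
    (hn : ∀ᶠ i in l, n2 ω (y i) ≤ η) (hl : WLim l y z) : n2 ω z ≤ η := by
  have hz : z ∈ M := hl.mem (hy.mono fun _ hi => hi.1)
  have hz' : star z ∈ M := star_mem hz
  have ht : Tendsto (fun i => ω (star z * y i)) l (𝓝 (ω (star z * z))) := by
    refine h.npos.tendsto (C := ‖star z‖ * C) (hy.mono fun i hi => ⟨mul_mem hz' hi.1, ?_⟩)
      (mul_mem hz' hz) (hl.mul_left _)
    exact (norm_mul_le _ _).trans (mul_le_mul_of_nonneg_left hi.2 (norm_nonneg _))
  have h1 : ‖ω (star z * z)‖ ≤ n2 ω z * η := by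
    refine le_of_tendsto ht.norm ?_
    filter_upwards [hy, hn] with i hi hi'
    exact (h.npos.pos.cs hz hi.1).trans (mul_le_mul_of_nonneg_left hi' (n2_nonneg _))
  have h2 : n2 ω z ^ 2 ≤ n2 ω z * η := by
    rw [h.npos.pos.n2_sq hz]
    exact (Complex.re_le_norm _).trans h1
  have h3 : 0 ≤ n2 ω z := n2_nonneg _
  by_contra hc
  push_neg at hc
  nlinarith

theorem pin_mul_comm {ι : Type*} [Fintype ι] {p : ι → H →L[ℂ] H} {z : H →L[ℂ] H}
    (hz : ∀ i, p i * z = z * p i) (y : H →L[ℂ] H) : pin p (z * y) = z * pin p y := by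
  unfold pin
  rw [Finset.mul_sum]
  refine Finset.sum_congr rfl fun i _ => ?_
  rw [← mul_assoc, hz i]
  simp only [mul_assoc]

theorem pyth (h : St M A ω) (Q : Part A) {u : H →L[ℂ] H} (hu : u ∈ M) :
    n2 ω (u - EP Q u) ^ 2 = n2 ω u ^ 2 - n2 ω (EP Q u) ^ 2 := by
  have hv : EP Q u ∈ M := EP_mem h.masa Q hu
  have hQ := Q.isPartOf
  have h1 : ω (star (EP Q u) * u) = ω (star (EP Q u) * EP Q u) := by
    rw [← hQ.cent_pin h.masa h.cent (mul_mem (star_mem hv) hu), pin_mul_comm, ← EP_eq_pin]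
    intro i
    rw [EP_eq_pin, hQ.pin_star]
    exact hQ.pin_comm _ i
  have h2 : (ω (star u * EP Q u)).re = (ω (star (EP Q u) * EP Q u)).re := by
    have h3 := h.npos.pos.map_star (mul_mem (star_mem hv) hu)
    rw [star_mul, star_star] at h3
    rw [h3, h1, Complex.conj_re]
  rw [h.npos.pos.n2_sq (sub_mem hu hv), h.npos.pos.n2_sq hu, h.npos.pos.n2_sq hv]
  have e : star (u - EP Q u) * (u - EP Q u)
      = star u * u - star u * EP Q u - star (EP Q u) * u + star (EP Q u) * EP Q u := by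
    rw [star_sub]; noncomm_ring
  rw [e, map_add, map_sub, map_sub, Complex.add_re, Complex.sub_re, Complex.sub_re, h2, h1]
  ring

theorem comm_EP (hA : Masa M A) {f : H →L[ℂ] H} (hf : PA A f) (P : Part A)
    (hP : ∀ q ∈ P.cells, f * q = q ∨ f * q = 0) (y : H →L[ℂ] H) : f * EP P y = EP P y * f := by
  unfold EP
  rw [Finset.mul_sum, Finset.sum_mul]
  refine Finset.sum_congr rfl fun q hq => ?_
  have hc : q * f = f * q := hA.comm q (P.pa q hq).1 f hf.1
  rw [← mul_assoc, ← mul_assoc, mul_assoc (q * y) q f, hc]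
  rcases hP q hq with e | e <;> simp [e]

end CEA

open CEA in
theorem exists_ce (h : St M A ω) : ∃ E, CE M A ω E := by
  have hA := h.masa
  haveI := hA.neBot
  let U : Ultrafilter (Part A) := Ultrafilter.of atTop
  have hU : (U : Filter (Part A)) ≤ atTop := Ultrafilter.of_le _
  have hex : ∀ y : H →L[ℂ] H, ∃ z, ‖z‖ ≤ ‖y‖ ∧ WLim (U : Filter (Part A)) (fun P => EP P y) z :=
    fun y => exists_wlim U (fun P => EP P y) fun P => EP_norm P y
  choose E₀ hn hE using hex
  have huniq : ∀ {y z : H →L[ℂ] H} {w : Part A → H →L[ℂ] H},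
      WLim (U : Filter (Part A)) w z → (∀ P, w P = EP P y) → E₀ y = z := fun {y z w} hw e =>
    (hE y).unique (hw.congr' (Eventually.of_forall e))
  let E : (H →L[ℂ] H) →ₗ[ℂ] (H →L[ℂ] H) :=
    { toFun := E₀
      map_add' := fun y z => huniq ((hE y).add (hE z)) fun P => by
        simp only [EP_eq_pin, pin_add]
      map_smul' := fun c y => huniq ((hE y).smul c) fun P => by
        simp only [EP_eq_pin, pin_smul, RingHom.id_apply] }
  have hEM : ∀ y ∈ M, E₀ y ∈ M := fun y hy =>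
    (hE y).mem (Eventually.of_forall fun P => EP_mem hA P hy)
  have hfac : ∀ φ, NPos M φ → Cent M A φ → ∀ y ∈ M, φ (E₀ y) = φ y := by
    intro φ hφ hc y hy
    have ht := hφ.tendsto (C := ‖y‖)
      (Eventually.of_forall fun P => ⟨EP_mem hA P hy, EP_norm P y⟩) (hEM y hy) (hE y)
    have e : (fun P : Part A => φ (EP P y)) = fun _ => φ y := by
      funext P
      rw [EP_eq_pin]
      exact P.isPartOf.cent_pin hA hc hy
    rw [e] at ht
    exact tendsto_nhds_unique ht tendsto_const_nhds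
  refine ⟨E, ?_, ?_, ?_, ?_, ?_, ?_, hn, hfac ω h.npos h.cent, ?_, ?_, hfac⟩
  · intro y hy
    refine hA.max _ (hEM y hy) (hA.comm_of_proj fun f hf => ?_)
    obtain ⟨P₀, -, hP₀⟩ := exists_two hf
    refine ((hE y).mul_left f).unique (((hE y).mul_right f).congr' ?_)
    filter_upwards [hU (eventually_ge_atTop P₀)] with P hP
    exact (comm_EP hA hf P (hP₀ P hP) y).symm
  · intro a ha y
    exact huniq ((hE y).mul_left a) fun P => by
      simp only [EP_eq_pin]; exact (P.isPartOf.pin_mul_left hA ha y).symm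
  · intro a ha y
    exact huniq ((hE y).mul_right a) fun P => by
      simp only [EP_eq_pin]; exact (P.isPartOf.pin_mul_right hA ha y).symm
  · exact huniq (WLim.const 1) fun P => by
      rw [EP_eq_pin]; exact (P.isPartOf.pin_of_mem hA (one_mem A)).symm
  · intro y
    exact huniq (hE y).star fun P => by
      simp only [EP_eq_pin]; exact P.isPartOf.pin_star y
  · intro y hy
    refine (hE y).nonneg (Eventually.of_forall fun P => ?_)
    have := P.isPartOf.pin_mono hy
    rw [P.isPartOf.pin_of_mem hA (zero_mem A), ← EP_eq_pin] at this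
    exact this
  · intro y hy
    refine n2_lim h (C := ‖y‖) (n2_nonneg _)
      (Eventually.of_forall fun P => ⟨EP_mem hA P hy, EP_norm P y⟩)
      (Eventually.of_forall fun P => ?_) (hE y)
    rw [EP_eq_pin]
    exact P.isPartOf.n2_pin_le h hy
  · intro y hy η hη
    have hbdd : BddBelow (Set.range fun P : Part A => n2 ω (EP P y) ^ 2) :=
      ⟨0, by rintro _ ⟨P, rfl⟩; exact sq_nonneg _⟩
    obtain ⟨P₀, hP₀⟩ := exists_lt_of_ciInf_lt (f := fun P : Part A => n2 ω (EP P y) ^ 2)
      (lt_add_of_pos_right _ (pow_pos hη 2))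
    refine ⟨P₀, fun P hP => ?_⟩
    refine n2_lim h (l := (U : Filter (Part A))) (y := fun Q => EP P y - EP Q y)
      (C := ‖y‖ + ‖y‖) hη.le
      (Eventually.of_forall fun Q => ⟨sub_mem (EP_mem hA P hy) (EP_mem hA Q hy),
        (norm_sub_le _ _).trans (add_le_add (EP_norm P y) (EP_norm Q y))⟩) ?_
      ((WLim.const _).sub (hE y))
    filter_upwards [hU (eventually_ge_atTop P)] with Q hQ
    have e1 := pyth h Q (EP_mem hA P hy)
    have e2 := pyth h P (EP_mem hA P₀ hy)
    rw [EP_EP hQ] at e1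
    rw [EP_EP hP] at e2
    have e3 := ciInf_le hbdd Q
    have e4 : n2 ω (EP P y - EP Q y) ^ 2 ≤ η ^ 2 := by
      have := sq_nonneg (n2 ω (EP P₀ y - EP P y))
      linarith
    exact (pow_le_pow_iff_left₀ (n2_nonneg _) hη.le two_ne_zero).mp e4

theorem CE.of_mem (hE : CE M A ω E) {a : H →L[ℂ] H} (ha : a ∈ A) : E a = a := by
  have := hE.left a ha 1
  rwa [mul_one, hE.one, mul_one] at this

theorem CE.mono (hE : CE M A ω E) {y z : H →L[ℂ] H} (h : y ≤ z) : E y ≤ E z := by
  have := hE.pos (z - y) (sub_nonneg.mpr h)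
  rwa [map_sub, sub_nonneg] at this

theorem CE.pin_eq (hE : CE M A ω E) (hA : Masa M A) {ι : Type*} [Fintype ι] {p : ι → H →L[ℂ] H}
    (hp : IsPartOf A 1 p) (y : H →L[ℂ] H) (hy : y ∈ M) : E (pin p y) = E y := by
  rw [← hp.pin_of_mem hA (hE.mem y hy)]
  unfold pin
  rw [map_sum]
  refine Finset.sum_congr rfl fun i _ => ?_
  rw [hE.right _ (hp.pa i).1, hE.left _ (hp.pa i).1]

/-- an element orthogonal to `A` has expectation zero -/
theorem CE.eq_zero (hE : CE M A ω E) (h : St M A ω) {y : H →L[ℂ] H} (hy : y ∈ M)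
    (h0 : ∀ a ∈ A, ω (Star.star a * y) = 0) : E y = 0 := by
  have ha := hE.mem y hy
  have haM := h.masa.le _ ha
  refine h.faith _ haM ?_
  rw [← hE.left _ (star_mem ha), hE.inv _ (mul_mem (star_mem haM) hy)]
  exact h0 _ ha

end Crest.Agent.R109
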