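import Crest.Agent.R109.Defs

/-!
# Row 109, task R109-Omega

Positive functionals on `M` and the seminorm `n2`; functional calculus stays in `M` and in `A`.
PLAN.  `M` is norm closed (a centraliser); `A = M ∩ A'` is norm closed; `cfc_mem` for closed star
subalgebras (restrict scalars to `ℝ`, or commutation `Commute.cfc_real` and `M = M''`).
`nonneg`: `y = star (sqrt y) * sqrt y` with `sqrt y = cfc Real.sqrt y ∈ M`.  `star`: polarisation, or
self-adjoint `y = y⁺ - y⁻`.  Cauchy–Schwarz: discriminant.  `n2_mul_right`: `ω (a⋆ y⋆ y a) = ω (b y⋆ y b)`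
with `b = sqrt (a a⋆)`, or `ω (y⋆ y (‖a‖² - a a⋆)) = ω (c y⋆ y c) ≥ 0`, `c = sqrt (‖a‖² - a a⋆) ∈ A`.
-/

set_option autoImplicit false
set_option linter.unusedSectionVars false
set_option linter.unusedVariables false

namespace Crest.Agent.R109

open scoped InnerProductSpace ComplexOrder ComplexConjugate
open Filter Topology

universe u

variable {H : Type u} [NormedAddCommGroup H] [InnerProductSpace ℂ H] [CompleteSpace H]
  {M : VonNeumannAlgebra H} {A : StarSubalgebra ℂ (H →L[ℂ] H)}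
  {ω φ : (H →L[ℂ] H) →ₗ[ℂ] ℂ} {E : (H →L[ℂ] H) →ₗ[ℂ] (H →L[ℂ] H)}

theorem isClosed_M (M : VonNeumannAlgebra H) : IsClosed (M : Set (H →L[ℂ] H)) := by
  rw [← M.centralizer_centralizer]
  exact Set.isClosed_centralizer _

theorem Masa.isClosed (hA : Masa M A) : IsClosed (A : Set (H →L[ℂ] H)) := by
  have : (A : Set (H →L[ℂ] H)) = (M : Set (H →L[ℂ] H)) ∩ Set.centralizer (A : Set (H →L[ℂ] H)) := by
    ext y
    constructor
    · intro hy
      exact ⟨hA.le y hy, fun a ha => hA.comm a ha y hy⟩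
    · rintro ⟨h1, h2⟩
      exact hA.max y h1 fun a ha => h2 a ha
  rw [this]
  exact (isClosed_M M).inter (Set.isClosed_centralizer _)

theorem mem_of_comm {w g : H →L[ℂ] H} (hw : w ∈ M) (h : ∀ z, z * w = w * z → z * g = g * z) :
    g ∈ M := by
  rw [← M.commutant_commutant, VonNeumannAlgebra.mem_commutant_iff]
  intro z hz
  exact h z (VonNeumannAlgebra.mem_commutant_iff.mp hz w hw).symm

theorem Masa.mem_of_comm (hA : Masa M A) {w g : H →L[ℂ] H} (hw : w ∈ A)
    (h : ∀ z, z * w = w * z → z * g = g * z) : g ∈ A := by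
  exact hA.max g (Crest.Agent.R109.mem_of_comm (hA.le w hw) h) fun a ha => h a (hA.comm a ha w hw)

theorem cfc_memM {y : H →L[ℂ] H} (hy : y ∈ M) (f : ℝ → ℝ) : cfc f y ∈ M := by
  exact mem_of_comm hy fun z hz => ((Commute.cfc_real (a := y) (b := z) hz.symm f).symm).eq

theorem Masa.cfc_mem (hA : Masa M A) {y : H →L[ℂ] H} (hy : y ∈ A) (f : ℝ → ℝ) : cfc f y ∈ A := by
  exact hA.mem_of_comm hy fun z hz => ((Commute.cfc_real (a := y) (b := z) hz.symm f).symm).eq

namespace OmegaA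

theorem smul_memM {y : H →L[ℂ] H} (hy : y ∈ M) (c : ℂ) : c • y ∈ M :=
  M.toStarSubalgebra.smul_mem hy c

theorem rsmul_memM {y : H →L[ℂ] H} (hy : y ∈ M) (c : ℝ) : c • y ∈ M := by
  rw [← Complex.coe_smul]; exact smul_memM hy c

theorem rsmul_memA {y : H →L[ℂ] H} (hy : y ∈ A) (c : ℝ) : c • y ∈ A := by
  rw [← Complex.coe_smul]; exact A.smul_mem hy c

theorem sqrt_sa (y : H →L[ℂ] H) : star (cfc Real.sqrt y) = cfc Real.sqrt y :=
  (cfc_predicate (R := ℝ) Real.sqrt y).star_eq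

theorem sqrt_mul {y : H →L[ℂ] H} (h0 : 0 ≤ y) : cfc Real.sqrt y * cfc Real.sqrt y = y := by
  rw [← cfc_mul _ _ y]
  conv_rhs => rw [← cfc_id ℝ y h0.isSelfAdjoint]
  exact cfc_congr fun x hx => Real.mul_self_sqrt (spectrum_nonneg_of_nonneg h0 hx)

theorem map_rsmul (φ : (H →L[ℂ] H) →ₗ[ℂ] ℂ) (c : ℝ) (y : H →L[ℂ] H) :
    (φ (c • y)).re = c * (φ y).re := by
  rw [← Complex.coe_smul, map_smul, smul_eq_mul, Complex.re_ofReal_mul]

end OmegaA

open OmegaA

theorem Pos.nonneg (h : Pos M φ) {y : H →L[ℂ] H} (hy : y ∈ M) (h0 : 0 ≤ y) : 0 ≤ φ y := by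
  have := h _ (cfc_memM hy Real.sqrt)
  rwa [sqrt_sa, sqrt_mul h0] at this

theorem Pos.mono (h : Pos M φ) {y z : H →L[ℂ] H} (hy : y ∈ M) (hz : z ∈ M) (hyz : y ≤ z) :
    (φ y).re ≤ (φ z).re := by
  have := h.nonneg (sub_mem hz hy) (sub_nonneg.mpr hyz)
  rw [map_sub] at this
  have h2 := (Complex.nonneg_iff.mp this).1
  rw [Complex.sub_re] at h2
  linarith

theorem Pos.map_star (h : Pos M φ) {y : H →L[ℂ] H} (hy : y ∈ M) : φ (star y) = conj (φ y) := by
  have h1 := (Complex.nonneg_iff.mp (h 1 (one_mem M))).2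
  have h2 := (Complex.nonneg_iff.mp (h y hy)).2
  have h3 := (Complex.nonneg_iff.mp (h (1 + y) (add_mem (one_mem M) hy))).2
  have h4 := (Complex.nonneg_iff.mp (h (1 + Complex.I • y)
    (add_mem (one_mem M) (smul_memM hy _)))).2
  have e3 : star (1 + y) * (1 + y) = star 1 * 1 + y + star y + star y * y := by
    rw [star_add, star_one]; noncomm_ring
  have e4 : star (1 + Complex.I • y) * (1 + Complex.I • y) =
      star 1 * 1 + Complex.I • y - Complex.I • star y + star y * y := by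
    rw [star_add, star_one, star_smul, Complex.star_def, Complex.conj_I]
    simp only [add_mul, mul_add, one_mul, mul_one, smul_mul_assoc, mul_smul_comm, smul_smul,
      neg_smul, neg_mul, smul_neg, Complex.I_mul_I, one_smul, neg_neg, smul_add]
    abel
  rw [e3] at h3
  rw [e4] at h4
  simp only [map_add, map_sub, map_smul, smul_eq_mul, Complex.add_im, Complex.sub_im,
    Complex.mul_im, Complex.I_re, Complex.I_im, zero_mul, one_mul, zero_add] at h3 h4
  apply Complex.ext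
  · rw [Complex.conj_re]; linarith
  · rw [Complex.conj_im]; linarith

theorem Pos.cs (h : Pos M φ) {y z : H →L[ℂ] H} (hy : y ∈ M) (hz : z ∈ M) :
    ‖φ (star y * z)‖ ≤ n2 φ y * n2 φ z := by
  set c := φ (star y * z) with hc
  have hc' : φ (star z * y) = conj c := by
    rw [hc, ← h.map_star (mul_mem (star_mem hy) hz), star_mul, star_star]
  have ha := (Complex.nonneg_iff.mp (h y hy)).1
  have hb := (Complex.nonneg_iff.mp (h z hz)).1
  have key : ∀ t : ℝ, 0 ≤ (‖c‖ ^ 2 * (φ (star y * y)).re) * (t * t) + (2 * ‖c‖ ^ 2) * t +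
      (φ (star z * z)).re := by
    intro t
    have h1 := (Complex.nonneg_iff.mp (h (((t : ℂ) * c) • y + z)
      (add_mem (smul_memM hy _) hz))).1
    have e : star (((t : ℂ) * c) • y + z) * (((t : ℂ) * c) • y + z) =
        ((t : ℂ) * t * (c * conj c)) • (star y * y) + ((t : ℂ) * conj c) • (star y * z) +
          ((t : ℂ) * c) • (star z * y) + star z * z := by
      rw [star_add, star_smul, Complex.star_def, map_mul, Complex.conj_ofReal]
      simp only [add_mul, mul_add, smul_mul_assoc, mul_smul_comm, smul_smul, smul_add]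
      rw [show (t : ℂ) * c * (t * conj c) = t * t * (c * conj c) by ring]
      abel
    rw [e] at h1
    simp only [map_add, map_smul, smul_eq_mul, ← hc, hc'] at h1
    have e2 : c * conj c = ((‖c‖ ^ 2 : ℝ) : ℂ) := by
      rw [Complex.mul_conj, Complex.normSq_eq_norm_sq]
    have e3 : (t : ℂ) * conj c * c = ((t * ‖c‖ ^ 2 : ℝ) : ℂ) := by
      rw [mul_assoc, mul_comm (conj c), e2]; push_cast; ring
    have e4 : (t : ℂ) * c * conj c = ((t * ‖c‖ ^ 2 : ℝ) : ℂ) := by
      rw [mul_assoc, e2]; push_cast; ring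
    have e5 : (t : ℂ) * t * (c * conj c) = ((t * t * ‖c‖ ^ 2 : ℝ) : ℂ) := by
      rw [e2]; push_cast; ring
    rw [e3, e4, e5] at h1
    simp only [Complex.add_re, Complex.re_ofReal_mul, Complex.ofReal_re] at h1
    linarith
  have hd := discrim_le_zero key
  rw [discrim] at hd
  rw [n2, n2, ← Real.sqrt_mul ha]
  apply Real.le_sqrt_of_sq_le
  by_cases h0 : ‖c‖ = 0
  · rw [h0]; simpa using mul_nonneg ha hb
  · have hpos : 0 < ‖c‖ ^ 2 := by positivity
    have : ‖c‖ ^ 2 * ‖c‖ ^ 2 ≤ ‖c‖ ^ 2 * ((φ (star y * y)).re * (φ (star z * z)).re) := by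
      nlinarith
    exact le_of_mul_le_mul_left this hpos

theorem OmegaA.n2_mul_left (h : Pos M φ) {a y : H →L[ℂ] H} (ha : a ∈ M) (hy : y ∈ M) :
    n2 φ (a * y) ≤ ‖a‖ * n2 φ y := by
  have h1 : star (a * y) * (a * y) ≤ ‖star a * a‖ • (star y * y) := by
    have := CStarAlgebra.star_left_conjugate_le_norm_smul (a := y) (b := star a * a)
      (IsSelfAdjoint.star_mul_self a)
    rwa [show star y * (star a * a) * y = star (a * y) * (a * y) by
      rw [star_mul]; noncomm_ring] at this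
  have h2 := h.mono (mul_mem (star_mem (mul_mem ha hy)) (mul_mem ha hy))
    (rsmul_memM (mul_mem (star_mem hy) hy) _) h1
  rw [map_rsmul, CStarRing.norm_star_mul_self] at h2
  rw [n2, n2, ← Real.sqrt_mul_self (norm_nonneg a), ← Real.sqrt_mul (mul_self_nonneg _)]
  exact Real.sqrt_le_sqrt h2

theorem Pos.norm_le (h : Pos M φ) {y : H →L[ℂ] H} (hy : y ∈ M) : ‖φ y‖ ≤ (φ 1).re * ‖y‖ := by
  have h1 := h.cs (one_mem M) hy
  have h2 := OmegaA.n2_mul_left h hy (one_mem M)
  rw [star_one, one_mul] at h1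
  rw [mul_one] at h2
  have h3 : n2 φ 1 * n2 φ 1 = (φ 1).re := by
    have := (Complex.nonneg_iff.mp (h 1 (one_mem M))).1
    rw [n2, Real.mul_self_sqrt this, star_one, one_mul]
  calc ‖φ y‖ ≤ n2 φ 1 * (‖y‖ * n2 φ 1) :=
        h1.trans (mul_le_mul_of_nonneg_left h2 (Real.sqrt_nonneg _))
    _ = _ := by rw [← h3]; ring

theorem n2_nonneg (y : H →L[ℂ] H) : 0 ≤ n2 φ y := Real.sqrt_nonneg _

theorem Pos.n2_sq (h : Pos M φ) {y : H →L[ℂ] H} (hy : y ∈ M) :
    n2 φ y ^ 2 = (φ (star y * y)).re := by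
  exact Real.sq_sqrt (Complex.nonneg_iff.mp (h y hy)).1

theorem n2_neg (y : H →L[ℂ] H) : n2 φ (-y) = n2 φ y := by
  simp [n2]

theorem n2_smul (c : ℂ) (y : H →L[ℂ] H) : n2 φ (c • y) = ‖c‖ * n2 φ y := by
  have e : star (c • y) * (c • y) = (‖c‖ * ‖c‖) • (star y * y) := by
    rw [star_smul, smul_mul_assoc, mul_smul_comm, smul_smul, ← Complex.coe_smul]
    congr 1
    rw [Complex.star_def, mul_comm, Complex.mul_conj, Complex.normSq_eq_norm_sq, sq]
  rw [n2, n2, e, map_rsmul, Real.sqrt_mul (mul_self_nonneg _), Real.sqrt_mul_self (norm_nonneg c)]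

theorem n2_rsmul (c : ℝ) (y : H →L[ℂ] H) : n2 φ (c • y) = |c| * n2 φ y := by
  rw [← Complex.coe_smul, n2_smul, Complex.norm_real, Real.norm_eq_abs]

theorem OmegaA.le_of_sq_le_sq' {a b : ℝ} (h : a ^ 2 ≤ b ^ 2) (hb : 0 ≤ b) : a ≤ b :=
  (abs_le_of_sq_le_sq' h hb).2

theorem Pos.n2_add_le (h : Pos M φ) {y z : H →L[ℂ] H} (hy : y ∈ M) (hz : z ∈ M) :
    n2 φ (y + z) ≤ n2 φ y + n2 φ z := by
  have h1 := h.cs hy hz
  have h2 := h.cs hz hy
  have h3 := h.n2_sq hy
  have h4 := h.n2_sq hz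
  have h5 := h.n2_sq (add_mem hy hz)
  have e : star (y + z) * (y + z) = star y * y + star y * z + star z * y + star z * z := by
    rw [star_add]; noncomm_ring
  rw [e] at h5
  simp only [map_add, Complex.add_re] at h5
  have h6 := Complex.re_le_norm (φ (star y * z))
  have h7 := Complex.re_le_norm (φ (star z * y))
  apply le_of_sq_le_sq' ?_ (add_nonneg (n2_nonneg _) (n2_nonneg _))
  nlinarith

theorem Pos.n2_sub_le (h : Pos M φ) {y z : H →L[ℂ] H} (hy : y ∈ M) (hz : z ∈ M) :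
    n2 φ (y - z) ≤ n2 φ y + n2 φ z := by
  rw [sub_eq_add_neg]
  have := h.n2_add_le hy (neg_mem hz)
  rwa [n2_neg] at this

theorem Pos.n2_sum_le (h : Pos M φ) {ι : Type*} (s : Finset ι) {y : ι → H →L[ℂ] H}
    (hy : ∀ i ∈ s, y i ∈ M) : n2 φ (∑ i ∈ s, y i) ≤ ∑ i ∈ s, n2 φ (y i) := by
  classical
  induction s using Finset.induction_on with
  | empty => simp [n2]
  | insert a s ha ih =>
    rw [Finset.sum_insert ha, Finset.sum_insert ha]
    have h1 : ∀ i ∈ s, y i ∈ M := fun i hi => hy i (Finset.mem_insert_of_mem hi)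
    exact (h.n2_add_le (hy a (Finset.mem_insert_self _ _)) (sum_mem h1)).trans
      (add_le_add le_rfl (ih h1))

theorem Pos.n2_mul_left (h : Pos M φ) {a y : H →L[ℂ] H} (ha : a ∈ M) (hy : y ∈ M) :
    n2 φ (a * y) ≤ ‖a‖ * n2 φ y := by
  exact OmegaA.n2_mul_left h ha hy

theorem St.n2_mul_right (h : St M A ω) {a y : H →L[ℂ] H} (ha : a ∈ A) (hy : y ∈ M) :
    n2 ω (y * a) ≤ ‖a‖ * n2 ω y := by
  have haM := h.masa.le a ha
  have hyy : star y * y ∈ M := mul_mem (star_mem hy) hy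
  set b : H →L[ℂ] H := (‖a‖ ^ 2) • (1 : H →L[ℂ] H) - a * star a with hb
  have hbA : b ∈ A := sub_mem (rsmul_memA (one_mem A) _) (mul_mem ha (star_mem ha))
  have hb0 : 0 ≤ b := by
    rw [hb, sub_nonneg, ← Algebra.algebraMap_eq_smul_one]
    exact CStarAlgebra.mul_star_le_algebraMap_norm_sq
  set c := cfc Real.sqrt b with hc
  have hcA : c ∈ A := h.masa.cfc_mem hbA _
  have hcM := h.masa.le c hcA
  have h1 := (Complex.nonneg_iff.mp (h.npos.pos (y * c) (mul_mem hy hcM))).1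
  have e1 : ω (star (y * c) * (y * c)) = ω (star y * y * b) := by
    rw [star_mul, sqrt_sa, ← hc, show c * star y * (y * c) = c * (star y * y * c) by noncomm_ring,
      h.cent c hcA _ (mul_mem hyy hcM), mul_assoc, sqrt_mul hb0]
  have e2 : ω (star (y * a) * (y * a)) = ω (star y * y * (a * star a)) := by
    rw [star_mul, show star a * star y * (y * a) = star a * (star y * y * a) by noncomm_ring,
      h.cent _ (star_mem ha) _ (mul_mem hyy haM), mul_assoc]
  rw [e1, hb, mul_sub, mul_smul_comm, mul_one, map_sub, Complex.sub_re, map_rsmul, ← e2] at h1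
  rw [n2, n2, ← Real.sqrt_sq (norm_nonneg a), ← Real.sqrt_mul (sq_nonneg _)]
  exact Real.sqrt_le_sqrt (by linarith)

theorem St.n2_le_norm (h : St M A ω) {y : H →L[ℂ] H} (hy : y ∈ M) : n2 ω y ≤ ‖y‖ := by
  have h2 := h.npos.pos.n2_mul_left hy (one_mem M)
  have h3 : n2 ω 1 = 1 := by simp [n2, h.one]
  rwa [mul_one, h3, mul_one] at h2

theorem St.norm_le_n2 (h : St M A ω) {y : H →L[ℂ] H} (hy : y ∈ M) : ‖ω y‖ ≤ n2 ω y := by
  have h2 := h.npos.pos.cs (one_mem M) hy
  have h3 : n2 ω 1 = 1 := by simp [n2, h.one]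
  rwa [star_one, one_mul, h3, one_mul] at h2

theorem St.eq_zero_of_n2 (h : St M A ω) {y : H →L[ℂ] H} (hy : y ∈ M) (h0 : n2 ω y = 0) : y = 0 := by
  have h1 := h.npos.pos.n2_sq hy
  have h2 := (Complex.nonneg_iff.mp (h.npos.pos y hy)).2
  refine h.faith y hy (Complex.ext ?_ h2.symm)
  rw [← h1, h0]; simp

/-- faithfulness on positive elements -/
theorem St.eq_zero_of_nonneg (h : St M A ω) {y : H →L[ℂ] H} (hy : y ∈ M) (h0 : 0 ≤ y)
    (h1 : (ω y).re ≤ 0) : y = 0 := by
  have h2 := Complex.nonneg_iff.mp (h.npos.pos.nonneg hy h0)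
  have h3 : ω y = 0 := Complex.ext (le_antisymm h1 h2.1) h2.2.symm
  have h4 : cfc Real.sqrt y = 0 := h.faith _ (cfc_memM hy _) (by rw [sqrt_sa, sqrt_mul h0, h3])
  rw [← sqrt_mul h0, h4, mul_zero]

end Crest.Agent.R109
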