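import Crest.Agent.R109.ADefs
import Crest.Agent.R109.Omega

/-!
# Row 109, task R109-ColH

From moments to the exceptional positive element.  PLAN.  `y₁ = 2 y`, `h = cfc (fun t => max (t² - ε₁²) 0) y₁`,
`ε₁ = 3200/√r = 640 (b + γ)`, `b = 4/√r ≤ 1/2`, `γ = 1/√r`.  For `|t| ≤ 1`: `w s t = 1 - b ± t/320 ≥ 0`, and
`max (4 t² - ε₁²) 0 ≤ 4 ∑_s (w s t / (1 + γ))^k`.  Use `cfc_mono`/`cfc_le_iff`, `cfc_pow`, `cfc_add` etc. for the self-adjoint `y`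
(spectrum in `[-1, 1]`), and `Pos.mono`.
-/

set_option autoImplicit false
set_option linter.unusedSectionVars false
set_option linter.unusedVariables false

namespace Crest.Agent.R109

open scoped InnerProductSpace ComplexOrder ComplexConjugate
open Filter Topology

universe u

variable {H : Type u} [NormedAddCommGroup H] [InnerProductSpace ℂ H] [CompleteSpace H]
  {M : VonNeumannAlgebra H} {A : StarSubalgebra ℂ (H →L[ℂ] H)}
  {ω φ : (H →L[ℂ] H) →ₗ[ℂ] ℂ} {E : (H →L[ℂ] H) →ₗ[ℂ] (H →L[ℂ] H)}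

theorem ColHA.lin {y : H →L[ℂ] H} (hs : IsSelfAdjoint y) (c d : ℝ) (k : ℕ) :
    cfc (fun x : ℝ => (c + d * x) ^ k) y = ((c : ℂ) • (1 : H →L[ℂ] H) + (d : ℂ) • y) ^ k := by
  rw [cfc_pow (fun x : ℝ => c + d * x) k y, cfc_const_add c (fun x : ℝ => d * x) y,
    cfc_const_mul d (fun x : ℝ => x) y, cfc_id' ℝ y, Algebra.algebraMap_eq_smul_one,
    Complex.coe_smul, Complex.coe_smul]

theorem ColHA.spec {y : H →L[ℂ] H} (hn : ‖y‖ ≤ 1) {x : ℝ} (hx : x ∈ spectrum ℝ y) : |x| ≤ 1 := by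
  have h1 := spectrum.norm_le_norm_mul_of_mem hx
  have h2 : ‖(1 : H →L[ℂ] H)‖ ≤ 1 := ContinuousLinearMap.norm_id_le
  exact h1.trans (mul_le_one₀ hn (norm_nonneg _) h2)

theorem ColHA.num {g x : ℝ} (g0 : 0 < g) (g1 : g ≤ 1 / 8) (hx : |x| ≤ 1) (k : ℕ) :
    max (4 * x ^ 2 - (3200 * g) ^ 2) 0 ≤ 4 / (1 + g) ^ k *
      ((1 - 4 * g + 1 / 320 * x) ^ k + (1 - 4 * g + -1 / 320 * x) ^ k) := by
  obtain ⟨x1, x2⟩ := abs_le.1 hx
  have a0 : 0 ≤ (1 - 4 * g + 1 / 320 * x) ^ k := pow_nonneg (by linarith) k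
  have b0 : 0 ≤ (1 - 4 * g + -1 / 320 * x) ^ k := pow_nonneg (by linarith) k
  have c0 : 0 < (1 + g) ^ k := pow_pos (by linarith) k
  refine max_le ?_ (by positivity)
  by_cases h : 4 * x ^ 2 - (3200 * g) ^ 2 ≤ 0
  · exact h.trans (by positivity)
  · have h2 : (1 + g) ^ k ≤ (1 - 4 * g + 1 / 320 * x) ^ k + (1 - 4 * g + -1 / 320 * x) ^ k := by
      have h3 : (1600 * g) ^ 2 < x ^ 2 := by nlinarith
      rcases le_total 0 x with h4 | h4
      · have h5 : 1600 * g < x := lt_of_pow_lt_pow_left₀ 2 h4 h3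
        have h6 : (1 + g) ^ k ≤ (1 - 4 * g + 1 / 320 * x) ^ k :=
          pow_le_pow_left₀ (by linarith) (by linarith) k
        linarith
      · have h5 : 1600 * g < -x := lt_of_pow_lt_pow_left₀ 2 (by linarith) (by rwa [neg_sq])
        have h6 : (1 + g) ^ k ≤ (1 - 4 * g + -1 / 320 * x) ^ k :=
          pow_le_pow_left₀ (by linarith) (by linarith) k
        linarith
    have h7 : 4 / (1 + g) ^ k * (1 + g) ^ k = 4 := div_mul_cancel₀ _ c0.ne'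
    have h8 := mul_le_mul_of_nonneg_left h2 (by positivity : 0 ≤ 4 / (1 + g) ^ k)
    nlinarith [sq_nonneg (3200 * g)]

theorem col_h (h : St M A ω) {r : ℕ} (hr : 64 ≤ r) {y : H →L[ℂ] H} (hy : y ∈ M) (hs : IsSelfAdjoint y)
    (hn : ‖y‖ ≤ 1) (k : ℕ)
    (hm : ∀ s : Bool, (ω (((1 - (bar r : ℂ)) • (1 : H →L[ℂ] H) + (bsg s / 320) • y) ^ k)).re ≤ 10) :
    ∃ t ∈ M, 0 ≤ t ∧ ‖t‖ ≤ 4 ∧ (ω t).re ≤ 80 / (1 + 1 / √(r : ℝ)) ^ k ∧
      ((2 : ℝ) • y) * ((2 : ℝ) • y) ≤ ((3200 / √(r : ℝ)) ^ 2) • (1 : H →L[ℂ] H) + t := by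
  have hr8 : (8 : ℝ) ≤ √(r : ℝ) := by
    refine Real.le_sqrt_of_sq_le ?_
    have : (64 : ℝ) ≤ r := by exact_mod_cast hr
    linarith
  obtain ⟨g, hg⟩ : ∃ g : ℝ, g = 1 / √(r : ℝ) := ⟨_, rfl⟩
  have g0 : 0 < g := by rw [hg]; positivity
  have g1 : g ≤ 1 / 8 := by rw [hg]; exact one_div_le_one_div_of_le (by norm_num) hr8
  have e1 : 3200 / √(r : ℝ) = 3200 * g := by rw [hg]; ring
  have e2 : bar r = 4 * g := by rw [hg, bar]; ring
  rw [e1, ← hg]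
  refine ⟨cfc (fun x : ℝ => max (4 * x ^ 2 - (3200 * g) ^ 2) 0) y, cfc_memM hy _,
    cfc_nonneg fun x _ => le_max_right _ _, norm_cfc_le (by norm_num) fun x hx => ?_, ?_, ?_⟩
  · have h1 := ColHA.spec hn hx
    have h2 : x ^ 2 ≤ 1 := by rw [← sq_abs]; exact pow_le_one₀ (abs_nonneg _) h1
    rw [Real.norm_of_nonneg (le_max_right _ _)]
    exact max_le (by nlinarith [sq_nonneg (3200 * g)]) (by norm_num)
  · have h1 : cfc (fun x : ℝ => max (4 * x ^ 2 - (3200 * g) ^ 2) 0) y ≤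
        cfc (fun x : ℝ => 4 / (1 + g) ^ k *
          ((1 - 4 * g + 1 / 320 * x) ^ k + (1 - 4 * g + -1 / 320 * x) ^ k)) y :=
      cfc_mono fun x hx => ColHA.num g0 g1 (ColHA.spec hn hx) k
    refine (h.npos.pos.mono (cfc_memM hy _) (cfc_memM hy _) h1).trans ?_
    rw [cfc_const_mul _ _ y, cfc_add y _ _, ColHA.lin hs, ColHA.lin hs, OmegaA.map_rsmul, map_add,
      Complex.add_re]
    have m1 := hm true
    have m2 := hm false
    have c1 : ((1 - 4 * g : ℝ) : ℂ) = 1 - (bar r : ℂ) := by rw [e2]; push_cast; ring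
    have c2 : ((1 / 320 : ℝ) : ℂ) = bsg true / 320 := by simp [bsg]
    have c3 : ((-1 / 320 : ℝ) : ℂ) = bsg false / 320 := by simp [bsg]
    rw [c1, c2, c3, show (80 : ℝ) / (1 + g) ^ k = 4 / (1 + g) ^ k * (10 + 10) by ring]
    exact mul_le_mul_of_nonneg_left (add_le_add m1 m2) (by positivity)
  · have h1 : ((2 : ℝ) • y) * ((2 : ℝ) • y) = cfc (fun x : ℝ => 4 * x ^ 2) y := by
      rw [cfc_const_mul _ _ y, cfc_pow_id y 2, smul_mul_smul_comm, pow_two]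
      norm_num
    rw [h1, ← Algebra.algebraMap_eq_smul_one, ← cfc_const_add _ _ y]
    refine cfc_mono fun x _ => ?_
    linarith [le_max_left (4 * x ^ 2 - (3200 * g) ^ 2) 0]

end Crest.Agent.R109
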