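import Crest.Agent.R109.Omega

/-!
# Row 109, task R109-Proj

Kernel projections and spectral projections.  PLAN.  `kerP_comm`: `z` and `star z` commute with the
self-adjoint `h`, so `ker h` and its orthogonal complement are `z`-invariant.  `kerP_mem`: for `z` in the
commutant, `z` and `star z` commute with `h`.  `spec_proj`: `g = kerP (w - t)⁺` with `(w - t)⁺ = cfc (fun s
=> max (s - t) 0) w`; the negative part `n` has `(w - t)⁺ n = 0`, so `g n = n`; `g (w - t) g = - n ≤ 0`,
`(1 - g) (w - t) (1 - g) = (w - t)⁺ ≥ 0`.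
-/

set_option autoImplicit false
set_option linter.unusedSectionVars false
set_option linter.unusedVariables false

namespace Crest.Agent.R109

open scoped InnerProductSpace ComplexOrder ComplexConjugate
open Filter Topology

universe u

variable {H : Type u} [NormedAddCommGroup H] [InnerProductSpace ℂ H] [CompleteSpace H]
  {M : VonNeumannAlgebra H} {A : StarSubalgebra ℂ (H →L[ℂ] H)}
  {ω φ : (H →L[ℂ] H) →ₗ[ℂ] ℂ} {E : (H →L[ℂ] H) →ₗ[ℂ] (H →L[ℂ] H)}

theorem kerP_proj (h : H →L[ℂ] H) : IsStarProjection (kerP h) := by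
  have : CompleteSpace h.ker := h.isClosed_ker.completeSpace_coe
  exact isStarProjection_starProjection

theorem mul_kerP (h : H →L[ℂ] H) : h * kerP h = 0 := by
  have : CompleteSpace h.ker := h.isClosed_ker.completeSpace_coe
  ext x
  exact Submodule.starProjection_apply_mem h.ker x

theorem kerP_mul_of {h z : H →L[ℂ] H} (e : h * z = 0) : kerP h * z = z := by
  have : CompleteSpace h.ker := h.isClosed_ker.completeSpace_coe
  ext x
  refine (Submodule.starProjection_eq_self_iff (K := h.ker)).2 ?_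
  exact congrArg (fun T : H →L[ℂ] H => T x) e

namespace ProjA

theorem kerP_comm' {h z : H →L[ℂ] H} (e : z * h = h * z) (e' : star z * h = h * star z) :
    z * kerP h = kerP h * z := by
  have hk := (kerP_proj h).isSelfAdjoint.star_eq
  have h1 : kerP h * (z * kerP h) = z * kerP h :=
    kerP_mul_of (by rw [← mul_assoc, ← e, mul_assoc, mul_kerP, mul_zero])
  have h2 : kerP h * (star z * kerP h) = star z * kerP h :=
    kerP_mul_of (by rw [← mul_assoc, ← e', mul_assoc, mul_kerP, mul_zero])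
  have h3 := congrArg star h2
  simp only [star_mul, star_star, hk] at h3
  rw [← h1, ← mul_assoc, h3]

theorem norm_le_of_le {x g : H →L[ℂ] H} {t : ℝ} (ht : 0 ≤ t) (hg : IsStarProjection g)
    (h0 : 0 ≤ x) (h : x ≤ t • g) : ‖x‖ ≤ t := by
  refine (CStarAlgebra.norm_le_norm_of_nonneg_of_le h0 h).trans ?_
  rw [norm_smul, Real.norm_of_nonneg ht]
  exact mul_le_of_le_one_right ht (hg.norm_le g)

theorem rsmul_le {x y : H →L[ℂ] H} {t : ℝ} (ht : 0 ≤ t) (h : x ≤ y) : t • x ≤ t • y :=
  smul_le_smul_of_nonneg_left h ht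

end ProjA

theorem kerP_comm {h z : H →L[ℂ] H} (hh : IsSelfAdjoint h) (e : z * h = h * z) :
    z * kerP h = kerP h * z := by
  refine ProjA.kerP_comm' e ?_
  have := congrArg star e
  simp only [star_mul, hh.star_eq] at this
  exact this.symm

theorem kerP_mem {h : H →L[ℂ] H} (hh : h ∈ M) : kerP h ∈ M := by
  rw [← M.commutant_commutant, VonNeumannAlgebra.mem_commutant_iff]
  intro z hz
  have hz' := star_mem hz
  rw [VonNeumannAlgebra.mem_commutant_iff] at hz hz'
  exact ProjA.kerP_comm' (hz h hh).symm (hz' h hh).symm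

theorem Masa.kerP_pa (hA : Masa M A) {h : H →L[ℂ] H} (hh : h ∈ A) (hs : IsSelfAdjoint h) :
    PA A (kerP h) := by
  exact ⟨hA.mem_of_comm hh fun z hz => kerP_comm hs hz, kerP_proj h⟩

theorem spec_proj {w : H →L[ℂ] H} (hw : IsSelfAdjoint w) (t : ℝ) :
    ∃ g : H →L[ℂ] H, IsStarProjection g ∧ (∀ z, z * w = w * z → z * g = g * z) ∧
      g * w * g ≤ t • g ∧ t • (1 - g) ≤ (1 - g) * w * (1 - g) := by
  set a : H →L[ℂ] H := w - t • 1 with ha
  have has : IsSelfAdjoint a := by
    rw [ha, IsSelfAdjoint, star_sub, hw.star_eq, star_smul, star_one, star_trivial]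
  have hp0 : 0 ≤ a⁺ := CFC.posPart_nonneg a
  have hn0 : 0 ≤ a⁻ := CFC.negPart_nonneg a
  have hps : IsSelfAdjoint a⁺ := .of_nonneg hp0
  have hns : IsSelfAdjoint a⁻ := .of_nonneg hn0
  have hg := kerP_proj a⁺
  set g := kerP a⁺ with hgd
  have hgs := hg.isSelfAdjoint.star_eq
  have hgg : g * g = g := hg.isIdempotentElem
  have e1 : a⁺ * g = 0 := mul_kerP _
  have e2 : g * a⁺ = 0 := by
    have := congrArg star e1
    rwa [star_mul, hgs, hps.star_eq, star_zero] at this
  have e3 : g * a⁻ = a⁻ := kerP_mul_of (CFC.posPart_mul_negPart a)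
  have e4 : a⁻ * g = a⁻ := by
    have := congrArg star e3
    rwa [star_mul, hgs, hns.star_eq] at this
  have ew : w = a⁺ - a⁻ + t • 1 := by rw [CFC.posPart_sub_negPart a has, ha, sub_add_cancel]
  refine ⟨g, hg, fun z hz => ?_, ?_, ?_⟩
  · refine kerP_comm hps ?_
    have hc : Commute a z := by
      rw [ha]
      exact Commute.sub_left hz.symm ((Commute.one_left z).smul_left t)
    exact (hc.cfcₙ_real _).symm
  · have : g * w * g = t • g - a⁻ := by
      rw [ew]
      simp only [mul_add, mul_sub, add_mul, sub_mul, e2, e3, e4, zero_mul, mul_smul_comm,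
        smul_mul_assoc, mul_one, hgg]
      abel
    rw [this]
    exact sub_le_self _ hn0
  · have : (1 - g) * w * (1 - g) = t • (1 - g) + a⁺ := by
      have h1 : (1 - g) * a⁺ = a⁺ := by rw [sub_mul, one_mul, e2, sub_zero]
      have h2 : a⁺ * (1 - g) = a⁺ := by rw [mul_sub, mul_one, e1, sub_zero]
      have h3 : (1 - g) * a⁻ = 0 := by rw [sub_mul, one_mul, e3, sub_self]
      have h4 : (1 - g) * (1 - g) = 1 - g := hg.one_sub.isIdempotentElem
      rw [ew, mul_add, mul_sub _ a⁺, h1, h3, sub_zero, add_mul, h2, mul_smul_comm, mul_one,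
        smul_mul_assoc, h4, add_comm]
    rw [this]
    exact le_add_of_nonneg_right hp0

/-- two-sided cut: `g = 1_{[-t, t]}(w)` -/
theorem spec_cut {w : H →L[ℂ] H} (hw : IsSelfAdjoint w) {t : ℝ} (ht : 0 < t) :
    ∃ g : H →L[ℂ] H, IsStarProjection g ∧ (∀ z, z * w = w * z → z * g = g * z) ∧
      ‖w * g‖ ≤ t ∧ ∀ n : ℕ, (t ^ (2 * n + 2)) • (1 - g) ≤ star (w ^ (n + 1)) * w ^ (n + 1) := by
  have hww : IsSelfAdjoint (w * w) := by rw [IsSelfAdjoint, star_mul, hw.star_eq]
  obtain ⟨g, hg, hc, h1, h2⟩ := spec_proj hww (t ^ 2)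
  have hc' : ∀ z, z * w = w * z → z * g = g * z := fun z hz =>
    hc z (by rw [← mul_assoc, hz, mul_assoc, hz, mul_assoc])
  have hwg : w * g = g * w := hc' w rfl
  have hq : IsStarProjection (1 - g) := hg.one_sub
  have hqq : (1 - g) * (1 - g) = 1 - g := hq.isIdempotentElem
  have hwq : w * (1 - g) = (1 - g) * w := by rw [mul_sub, sub_mul, hwg, mul_one, one_mul]
  have e1 : (1 - g) * (w * w) * (1 - g) = star w * (1 - g) * w := by
    rw [hw.star_eq]
    calc (1 - g) * (w * w) * (1 - g) = ((1 - g) * w) * (w * (1 - g)) := by simp only [mul_assoc]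
      _ = (w * (1 - g)) * ((1 - g) * w) := by rw [hwq]
      _ = w * ((1 - g) * (1 - g)) * w := by simp only [mul_assoc]
      _ = _ := by rw [hqq]
  rw [e1] at h2
  refine ⟨g, hg, hc', ?_, fun n => ?_⟩
  · have e2 : star (w * g) * (w * g) = g * (w * w) * g := by
      rw [star_mul, hw.star_eq, hg.isSelfAdjoint.star_eq]; simp only [mul_assoc]
    have h3 : ‖star (w * g) * (w * g)‖ ≤ t ^ 2 :=
      ProjA.norm_le_of_le (by positivity) hg (star_mul_self_nonneg _) (e2 ▸ h1)
    rw [CStarRing.norm_star_mul_self] at h3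
    exact abs_le_of_sq_le_sq' (by rw [sq]; exact h3) ht.le |>.2
  · induction n with
    | zero =>
      have h3 : star w * (1 - g) * w ≤ star w * 1 * w :=
        star_left_conjugate_le_conjugate (sub_le_self _ hg.nonneg) w
      simpa using h2.trans h3
    | succ n ih =>
      have h3 := star_left_conjugate_le_conjugate ih w
      have h4 := ProjA.rsmul_le (by positivity : 0 ≤ t ^ (2 * n + 2)) h2
      rw [smul_smul, ← pow_add] at h4
      rw [mul_smul_comm, smul_mul_assoc] at h3
      have e3 : star w * (star (w ^ (n + 1)) * w ^ (n + 1)) * w =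
          star (w ^ (n + 1 + 1)) * w ^ (n + 1 + 1) := by
        rw [pow_succ w (n + 1), star_mul]; simp only [mul_assoc]
      rw [e3] at h3
      exact h4.trans h3

theorem PA.one : PA A 1 := ⟨one_mem _, .one _⟩

theorem PA.zero : PA A 0 := ⟨zero_mem _, .zero _⟩

theorem PA.compl {f : H →L[ℂ] H} (hf : PA A f) : PA A (1 - f) := by
  exact ⟨sub_mem (one_mem _) hf.1, hf.2.one_sub⟩

theorem PA.mul (hA : Masa M A) {f g : H →L[ℂ] H} (hf : PA A f) (hg : PA A g) : PA A (f * g) := by
  exact ⟨mul_mem hf.1 hg.1, hf.2.mul hg.2 (hA.comm f hf.1 g hg.1)⟩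

theorem PA.add {f g : H →L[ℂ] H} (hf : PA A f) (hg : PA A g) (e : f * g = 0) : PA A (f + g) := by
  exact ⟨add_mem hf.1 hg.1, hf.2.add hg.2 e⟩

theorem PA.sum {ι : Type*} (s : Finset ι) {f : ι → H →L[ℂ] H} (hf : ∀ i ∈ s, PA A (f i))
    (e : ∀ i ∈ s, ∀ j ∈ s, i ≠ j → f i * f j = 0) : PA A (∑ i ∈ s, f i) := by
  classical
  induction s using Finset.induction_on with
  | empty => simpa using PA.zero
  | insert a s ha ih =>
    rw [Finset.sum_insert ha]
    refine PA.add (hf a (Finset.mem_insert_self _ _))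
      (ih (fun i hi => hf i (Finset.mem_insert_of_mem hi))
        fun i hi j hj => e i (Finset.mem_insert_of_mem hi) j (Finset.mem_insert_of_mem hj)) ?_
    rw [Finset.mul_sum]
    exact Finset.sum_eq_zero fun j hj => e a (Finset.mem_insert_self _ _) j
      (Finset.mem_insert_of_mem hj) (fun h => ha (h ▸ hj))

theorem PA.norm_le {f : H →L[ℂ] H} (hf : PA A f) : ‖f‖ ≤ 1 := by
  exact hf.2.norm_le f

/-- a common lower bound of finitely many projections of `A` -/
theorem exists_inf (hA : Masa M A) {ι : Type*} (s : Finset ι) {t : ι → H →L[ℂ] H}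
    (ht : ∀ i ∈ s, PA A (t i)) :
    ∃ g, PA A g ∧ (∀ i ∈ s, g * t i = 0) ∧ 1 - g ≤ ∑ i ∈ s, t i := by
  classical
  induction s using Finset.induction_on with
  | empty => exact ⟨1, PA.one, by simp, by simp⟩
  | insert a s ha ih =>
    obtain ⟨g, hg, h1, h2⟩ := ih fun i hi => ht i (Finset.mem_insert_of_mem hi)
    have hta := ht a (Finset.mem_insert_self _ _)
    refine ⟨g * (1 - t a), hg.mul hA hta.compl, fun i hi => ?_, ?_⟩
    · rcases Finset.mem_insert.1 hi with rfl | hi
      · rw [mul_assoc, hta.2.one_sub_mul_self, mul_zero]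
      · rw [hA.comm g hg.1 _ hta.compl.1, mul_assoc, h1 i hi, mul_zero]
    · rw [Finset.sum_insert ha]
      have h3 : 0 ≤ (1 - g) * t a := (hg.compl.mul hA hta).2.nonneg
      have e : 1 - g * (1 - t a) = t a + (1 - g) - (1 - g) * t a := by noncomm_ring
      rw [e]
      exact (sub_le_self _ h3).trans (add_le_add le_rfl h2)

/-- a non-zero positive element of `A` is bounded below on a non-zero projection -/
theorem exists_cut (hA : Masa M A) {a : H →L[ℂ] H} (ha : a ∈ A) (h0 : 0 ≤ a) {t : ℝ} (ht : 0 < t) :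
    ∃ f, PA A f ∧ ‖a * (1 - f)‖ ≤ t ∧ t • f ≤ a * f ∧
      ∃ b ∈ A, IsSelfAdjoint b ∧ b * f = b ∧ b * a * b = f := by
  have has : IsSelfAdjoint a := .of_nonneg h0
  obtain ⟨g, hg, hc, h1, h2⟩ := spec_proj has t
  have hgA : PA A g := ⟨hA.mem_of_comm ha hc, hg⟩
  have hf : PA A (1 - g) := hgA.compl
  set f := 1 - g with hfd
  have hag : a * g = g * a := hc a rfl
  have hgg : g * g = g := hg.isIdempotentElem
  have hff : f * f = f := hf.2.isIdempotentElem
  have haf : a * f = f * a := hA.comm a ha f hf.1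
  have hgf : g * f = 0 := hg.mul_one_sub_self
  have e1 : g * a * g = a * g := by rw [← hag, mul_assoc, hgg]
  have e2 : f * a * f = a * f := by rw [← haf, mul_assoc, hff]
  have h3 : 0 ≤ g * a * g := hg.isSelfAdjoint.conjugate_nonneg h0
  have h4 : 0 ≤ f * a * f := hf.2.isSelfAdjoint.conjugate_nonneg h0
  rw [e2] at h2 h4
  refine ⟨f, hf, ?_, h2, ?_⟩
  · rw [hfd, sub_sub_cancel, ← e1]
    exact ProjA.norm_le_of_le ht.le hg h3 h1
  set c := a * f + t • g with hcd
  have hcA : c ∈ A := add_mem (mul_mem ha hf.1) (by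
    rw [RCLike.real_smul_eq_coe_smul (K := ℂ)]; exact SMulMemClass.smul_mem _ hgA.1)
  have hc0 : 0 ≤ c := add_nonneg h4 (smul_nonneg ht.le hg.nonneg)
  have hcs : IsSelfAdjoint c := .of_nonneg hc0
  have hct : algebraMap ℝ (H →L[ℂ] H) t ≤ c := by
    have : algebraMap ℝ (H →L[ℂ] H) t = t • f + t • g := by
      rw [← smul_add, hfd, sub_add_cancel, Algebra.algebraMap_eq_smul_one]
    rw [this]
    exact add_le_add h2 le_rfl
  have hsp : ∀ x ∈ spectrum ℝ c, t ≤ x := (algebraMap_le_iff_le_spectrum hcs).1 hct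
  have hcont : ContinuousOn (fun s : ℝ => (√s)⁻¹) (spectrum ℝ c) :=
    Real.continuous_sqrt.continuousOn.inv₀ fun x hx =>
      (Real.sqrt_pos.2 (ht.trans_le (hsp x hx))).ne'
  set r := cfc (fun s : ℝ => (√s)⁻¹) c with hrd
  have hrA : r ∈ A := hA.cfc_mem hcA _
  have hrs : IsSelfAdjoint r := cfc_predicate _ _
  have hrc : r * c * r = 1 := by
    have e3 : cfc (fun s : ℝ => (√s)⁻¹ * s * (√s)⁻¹) c = r * c * r := by
      rw [cfc_mul (fun s : ℝ => (√s)⁻¹ * s) (fun s : ℝ => (√s)⁻¹) c (hcont.mul continuousOn_id) hcont,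
        cfc_mul (fun s : ℝ => (√s)⁻¹) (fun s : ℝ => s) c hcont continuousOn_id, cfc_id' ℝ c]
    rw [← e3, ← cfc_one ℝ c]
    refine cfc_congr fun x hx => ?_
    have hx0 : 0 < x := ht.trans_le (hsp x hx)
    have hs := Real.sqrt_pos.2 hx0
    have := Real.mul_self_sqrt hx0.le
    simp only [Pi.one_apply]
    field_simp
    rw [sq, this]
  have hrf : r * f = f * r := hA.comm r hrA f hf.1
  have hcf : c * f = a * f := by rw [hcd, add_mul, mul_assoc, hff, smul_mul_assoc, hgf, smul_zero, add_zero]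
  refine ⟨r * f, mul_mem hrA hf.1, ?_, by rw [mul_assoc, hff], ?_⟩
  · rw [IsSelfAdjoint, star_mul, hrs.star_eq, hf.2.isSelfAdjoint.star_eq, hrf]
  · calc r * f * a * (r * f) = r * (a * f) * r * f := by rw [haf]; simp only [mul_assoc]
      _ = r * c * (f * r) * f := by rw [← hcf]; simp only [mul_assoc]
      _ = r * c * r * (f * f) := by rw [← hrf]; simp only [mul_assoc]
      _ = f := by rw [hrc, hff, one_mul]

end Crest.Agent.R109
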