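import Crest.Agent.R109.ADefs
import Crest.Agent.R109.Proj

/-!
# Row 109, task R109-GelEx

Existence of the Gelfand picture.  PLAN.  `A` is closed (`Masa.isClosed`) and commutative: put a
`CommCStarAlgebra` instance on `↥A` (or a type synonym), `X = WeakDual.characterSpace ℂ A` (compact, Hausdorff),
`Φ = A.subtype ∘ (gelfandStarTransform A).symm`, `ev` a linear left inverse
(`LinearMap.exists_leftInverse_of_injective`).  Measure: `F ↦ re ω (Φ F)` is a positive linear functional on
`C_c(X, ℝ)`; `RealRMK.rieszMeasure`, `RealRMK.integral_rieszMeasure`; split complex `F` in real and imaginary part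
(`ω` is real on self-adjoint elements).  `ed`: for `F` let `h = Φ F⁺ ≥ 0`, `p = 1 - kerP h ∈ A` a projection, `p = Φ P`
with `P` `{0,1}`-valued; `closure {0 < F} = {P = 1}`: `h (1 - p) = 0` gives `⊆`; if `P χ = 1` and `χ` is not in the closure,
Urysohn gives `G` with `G χ = 1`, `F⁺ G = 0`, so `kerP h * Φ G = Φ G`, i.e. `P G = 0`.
-/

set_option autoImplicit false
set_option linter.unusedSectionVars false
set_option linter.unusedVariables false

namespace Crest.Agent.R109

open scoped InnerProductSpace ComplexOrder ComplexConjugate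
open Filter Topology

universe u

variable {H : Type u} [NormedAddCommGroup H] [InnerProductSpace ℂ H] [CompleteSpace H]
  {M : VonNeumannAlgebra H} {A : StarSubalgebra ℂ (H →L[ℂ] H)}
  {ω φ : (H →L[ℂ] H) →ₗ[ℂ] ℂ} {E : (H →L[ℂ] H) →ₗ[ℂ] (H →L[ℂ] H)}

namespace GelExA

theorem gelf (hA : Masa M A) :
    ∃ (X : Type u) (_ : TopologicalSpace X) (_ : CompactSpace X) (_ : T2Space X)
      (Φ : C(X, ℂ) →⋆ₐ[ℂ] (H →L[ℂ] H)), Function.Injective Φ ∧ (∀ F, Φ F ∈ A) ∧
        ∀ a ∈ A, ∃ F, Φ F = a := by
  haveI hcl : IsClosed (A : Set (H →L[ℂ] H)) := hA.isClosed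
  letI inst : CommCStarAlgebra A :=
    { (StarSubalgebra.cstarAlgebra A : CStarAlgebra A) with
      mul_comm := fun a b => Subtype.ext (hA.comm a a.2 b b.2) }
  let g := gelfandStarTransform A
  refine ⟨WeakDual.characterSpace ℂ A, inferInstance, inferInstance, inferInstance,
    A.subtype.comp (g.symm : C(WeakDual.characterSpace ℂ A, ℂ) →⋆ₐ[ℂ] A), ?_, ?_, ?_⟩
  · exact Subtype.val_injective.comp g.symm.injective
  · intro F
    exact (g.symm F).2
  · intro a ha
    exact ⟨g ⟨a, ha⟩, congrArg Subtype.val (g.symm_apply_apply ⟨a, ha⟩)⟩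

/-- complexification of a real function -/
def rc {X : Type*} [TopologicalSpace X] (f : X → ℝ) (hf : Continuous f) : C(X, ℂ) :=
  ⟨fun x => (f x : ℂ), Complex.continuous_ofReal.comp hf⟩

@[simp] theorem rc_apply {X : Type*} [TopologicalSpace X] (f : X → ℝ) (hf : Continuous f) (x : X) :
    rc f hf x = (f x : ℂ) := rfl

open MeasureTheory CompactlySupported in
theorem riesz {X : Type*} [TopologicalSpace X] [CompactSpace X] [T2Space X] [MeasurableSpace X]
    [BorelSpace X] (L : C(X, ℂ) →ₗ[ℂ] ℂ) (hL : ∀ F, 0 ≤ L (star F * F)) (h1 : L 1 = 1) :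
    ∃ μ : Measure X, IsProbabilityMeasure μ ∧ ∀ F, L F = ∫ χ, F χ ∂μ := by
  have pos : ∀ (f : X → ℝ) (hf : Continuous f), (∀ x, 0 ≤ f x) → 0 ≤ L (rc f hf) := by
    intro f hf h0
    have e : rc f hf = star (rc (fun x => √(f x)) hf.sqrt) * rc (fun x => √(f x)) hf.sqrt := by
      ext x
      simp only [rc_apply, ContinuousMap.mul_apply, ContinuousMap.star_apply, RCLike.star_def,
        Complex.conj_ofReal]
      rw [← Complex.ofReal_mul, Real.mul_self_sqrt (h0 x)]
    rw [e]
    exact hL _
  have real : ∀ (f : X → ℝ) (hf : Continuous f), (L (rc f hf)).im = 0 := by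
    intro f hf
    have e : rc f hf = rc (fun x => max (f x) 0) (hf.max continuous_const) -
        rc (fun x => max (-f x) 0) (hf.neg.max continuous_const) := by
      ext x
      simp only [rc_apply, ContinuousMap.sub_apply]
      rw [← Complex.ofReal_sub, max_zero_sub_max_neg_zero_eq_self]
    rw [e, map_sub, Complex.sub_im,
      ← (Complex.le_def.1 (pos _ _ fun x => le_max_right _ _)).2,
      ← (Complex.le_def.1 (pos _ _ fun x => le_max_right _ _)).2]
    simp
  let Λ₀ : C_c(X, ℝ) →ₗ[ℝ] ℝ :=
    { toFun := fun f => (L (rc f f.continuous)).re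
      map_add' := fun f g => by
        have e : rc (⇑(f + g)) (f + g).continuous = rc f f.continuous + rc g g.continuous := by
          ext x
          simp
        rw [e, map_add, Complex.add_re]
      map_smul' := fun c f => by
        have e : rc (⇑(c • f)) (c • f).continuous = (c : ℂ) • rc f f.continuous := by
          ext x
          simp
        rw [e, map_smul]
        simp }
  let Λ : C_c(X, ℝ) →ₚ[ℝ] ℝ := PositiveLinearMap.mk₀ Λ₀ fun f hf =>
    (Complex.le_def.1 (pos f f.continuous fun x => hf x)).1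
  have key : ∀ (f : X → ℝ) (hf : Continuous f),
      L (rc f hf) = ((∫ x, f x ∂(RealRMK.rieszMeasure Λ) : ℝ) : ℂ) := by
    intro f hf
    let g : C_c(X, ℝ) := ⟨⟨f, hf⟩, HasCompactSupport.of_compactSpace _⟩
    have := RealRMK.integral_rieszMeasure Λ g
    refine Complex.ext ?_ (by rw [real, Complex.ofReal_im])
    rw [Complex.ofReal_re]
    exact this.symm
  refine ⟨RealRMK.rieszMeasure Λ, ?_, fun F => ?_⟩
  · have e : rc (fun _ : X => (1 : ℝ)) continuous_const = 1 := by
      ext x
      simp
    have h2 := key (fun _ => 1) continuous_const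
    rw [e, h1] at h2
    simp only [integral_const, smul_eq_mul, mul_one] at h2
    have h3 : (RealRMK.rieszMeasure Λ).real Set.univ = 1 := by exact_mod_cast h2.symm
    exact isProbabilityMeasure_iff_real.2 h3
  · have hre : Continuous fun x => (F x).re := Complex.continuous_re.comp F.continuous
    have him : Continuous fun x => (F x).im := Complex.continuous_im.comp F.continuous
    have e : F = rc _ hre + Complex.I • rc _ him := by
      ext x
      simp only [ContinuousMap.add_apply, rc_apply, ContinuousMap.smul_apply, smul_eq_mul]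
      rw [mul_comm, Complex.re_add_im]
    have hint : Integrable (fun x => F x) (RealRMK.rieszMeasure Λ) :=
      F.continuous.integrable_of_hasCompactSupport (HasCompactSupport.of_compactSpace _)
    have h4 := integral_re_add_im hint
    rw [← h4]
    conv_lhs => rw [e]
    rw [map_add, map_smul, key, key, smul_eq_mul, mul_comm]
    rfl

theorem ed (hA : Masa M A) {X : Type*} [TopologicalSpace X] [CompactSpace X] [T2Space X]
    (Φ : C(X, ℂ) →⋆ₐ[ℂ] (H →L[ℂ] H)) (inj : Function.Injective Φ) (mem : ∀ F, Φ F ∈ A)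
    (surj : ∀ a ∈ A, ∃ F, Φ F = a) (F : X → ℝ) (hF : Continuous F) :
    IsOpen (closure {χ | 0 < F χ}) := by
  set Fp := rc (fun x => max (F x) 0) (hF.max continuous_const) with hFp
  have hsa : IsSelfAdjoint (Φ Fp) := by
    have e : star Fp = Fp := by
      ext x
      simp [hFp]
    rw [IsSelfAdjoint, ← map_star, e]
  have hk := hA.kerP_pa (mem Fp) hsa
  obtain ⟨Q, hQ⟩ := surj _ hk.1
  have hQ2 : Q * Q = Q := inj (by rw [map_mul, hQ]; exact hk.2.isIdempotentElem)
  have hFQ : Fp * Q = 0 := inj (by rw [map_mul, hQ, map_zero]; exact mul_kerP _)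
  have hQ01 : ∀ x, Q x = 0 ∨ Q x = 1 := by
    intro x
    have : Q x * Q x = Q x := by rw [← ContinuousMap.mul_apply, hQ2]
    by_cases h0 : Q x = 0
    · exact Or.inl h0
    · exact Or.inr (mul_left_cancel₀ h0 (by rw [this, mul_one]))
  have hset : closure {χ | 0 < F χ} = {x | Q x = 0} := by
    apply Set.Subset.antisymm
    · refine closure_minimal (fun x hx => ?_) (isClosed_eq Q.continuous continuous_const)
      have h1 : Fp x * Q x = 0 := by rw [← ContinuousMap.mul_apply, hFQ]; rfl
      have h2 : Fp x ≠ 0 := by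
        have hx' : 0 < F x := hx
        simp only [hFp, rc_apply, max_eq_left hx'.le, ne_eq, Complex.ofReal_eq_zero]
        exact hx'.ne'
      exact (mul_eq_zero.1 h1).resolve_left h2
    · intro x hx
      by_contra hn
      obtain ⟨G, hG0, hG1, -⟩ := exists_continuous_zero_one_of_isClosed (s := closure {χ | 0 < F χ})
        (t := {x}) isClosed_closure isClosed_singleton (Set.disjoint_singleton_right.2 hn)
      have h3 : Fp * rc G G.continuous = 0 := by
        ext y
        simp only [hFp, ContinuousMap.mul_apply, rc_apply, ContinuousMap.zero_apply, mul_eq_zero,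
          Complex.ofReal_eq_zero]
        by_cases hy : 0 < F y
        · exact Or.inr (hG0 (subset_closure hy))
        · exact Or.inl (max_eq_right (not_lt.1 hy))
      have h4 : Q * rc G G.continuous = rc G G.continuous :=
        inj (by rw [map_mul, hQ]; exact kerP_mul_of (by rw [← map_mul, h3, map_zero]))
      have h5 : Q x * (G x : ℂ) = G x := by
        have := congrArg (fun f : C(X, ℂ) => f x) h4
        simpa using this
      have h6 : G x = 1 := hG1 rfl
      have h7 : Q x = 0 := hx
      rw [h6, h7] at h5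
      simp at h5
  have hset2 : {x | Q x = 0} = {x | Q x = 1}ᶜ := by
    ext x
    rcases hQ01 x with h | h <;> simp [h]
  rw [hset, hset2]
  exact (isClosed_eq Q.continuous continuous_const).isOpen_compl

end GelExA

theorem exists_gel (h : St M A ω) :
    ∃ (X : Type u) (_ : TopologicalSpace X) (_ : CompactSpace X) (_ : T2Space X)
      (_ : MeasurableSpace X) (_ : BorelSpace X) (μ : MeasureTheory.Measure X)
      (_ : MeasureTheory.IsProbabilityMeasure μ), Nonempty (Gel A ω X μ) := by
  obtain ⟨X, i1, i2, i3, Φ, inj, mem, surj⟩ := GelExA.gelf h.masa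
  letI : MeasurableSpace X := borel X
  haveI : BorelSpace X := ⟨rfl⟩
  let Φl : C(X, ℂ) →ₗ[ℂ] (H →L[ℂ] H) := Φ.toAlgHom.toLinearMap
  obtain ⟨ev, hev⟩ := Φl.exists_leftInverse_of_injective (LinearMap.ker_eq_bot.2 inj)
  have ev_Φ : ∀ F, ev (Φ F) = F := fun F => LinearMap.congr_fun hev F
  obtain ⟨μ, hμ, hint⟩ := GelExA.riesz (ω ∘ₗ Φl)
    (fun F => by
      change 0 ≤ ω (Φ (star F * F))
      rw [map_mul, map_star]
      exact h.npos.pos _ (h.masa.le _ (mem F)))
    (by
      change ω (Φ 1) = 1
      rw [map_one, h.one])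
  refine ⟨X, i1, i2, i3, inferInstance, inferInstance, μ, hμ, ⟨⟨Φ, ev, mem, fun a ha => ?_, ev_Φ,
    fun F => hint F, GelExA.ed h.masa Φ inj mem surj⟩⟩⟩
  obtain ⟨F, rfl⟩ := surj a ha
  rw [ev_Φ]

end Crest.Agent.R109
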