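import Crest.Agent.R109.ADefs
import Crest.Agent.R109.BW

/-!
# Row 109, task R109-Gens

Generators and the cut.  PLAN.  `gens0`: from `x₁ = ∑ v i a i` take the generators `v i`, `(v i)⋆` (coefficient `0`) and `1`
(coefficient `- E x₁ / 2`), indexed by `Fin (n + n + 1)` (or transport along `Fintype.equivFin`).  `cut_one`: for `v ∈ Gr`,
`f P = ∑_{p ∈ P} (v⋆ p v) p` is a projection of `A`, `EP P v = v f P`, and `f Q ≤ f P` for `P ≤ Q`.  With `c = E v ∈ A`:
`c = c f P` (as `E v = E (EP P v)`) and `c⋆ c` is a projection with `v c⋆ c = c` [`v⋆ c` is fixed by... simplest: take a weak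
limit `f` of `f P` along `Ultrafilter.of atTop`; `f` is a projection below all `f P`, and `v f = E v` by `conv` and faithfulness];
`t = v⋆ v (f P - f)`, `ω t = n2 (EP P v - E v)²`, `EP P v (1 - t) = E v (1 - t)`.  `cut`: apply `cut_one` to the finitely many words of
length `≤ 3R + 1`, take a common refinement `P` (enumerate its cells by `Fin J`), `g` from `exists_inf`; a non-empty word in the
`g u i g` equals `a * wd u w * g` with `a ∈ A`.  `n2 (x - g x g) ≤ n2 ((1 - g) x) + n2 (x (1 - g))`, `uac_mul`.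
-/

set_option autoImplicit false
set_option linter.unusedSectionVars false
set_option linter.unusedVariables false

namespace Crest.Agent.R109

open scoped InnerProductSpace ComplexOrder ComplexConjugate
open Filter Topology

universe u

variable {H : Type u} [NormedAddCommGroup H] [InnerProductSpace ℂ H] [CompleteSpace H]
  {M : VonNeumannAlgebra H} {A : StarSubalgebra ℂ (H →L[ℂ] H)}
  {ω φ : (H →L[ℂ] H) →ₗ[ℂ] ℂ} {E : (H →L[ℂ] H) →ₗ[ℂ] (H →L[ℂ] H)}

theorem gens0 (h : St M A ω) (hE : CE M A ω E) {x₁ : H →L[ℂ] H} (hN : InN M A ω x₁)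
    (hs : IsSelfAdjoint x₁) (hn : ‖x₁‖ ≤ 1) :
    ∃ (n : ℕ) (Λ K₀ : ℝ) (u b : Fin n → H →L[ℂ] H),
      Gen M A ω E Λ K₀ u b ((1 / 2 : ℝ) • (x₁ - E x₁)) := by
  have hM : x₁ ∈ M := hN.mem h
  obtain ⟨n, Λ, v, a, hΛ, hva, e⟩ := hN
  let u' : Fin n ⊕ Fin n ⊕ Unit → H →L[ℂ] H :=
    Sum.elim v (Sum.elim (fun i => star (v i)) fun _ => 1)
  let b' : Fin n ⊕ Fin n ⊕ Unit → H →L[ℂ] H :=
    Sum.elim (fun i => (1 / 2 : ℝ) • a i) (Sum.elim (fun _ => 0) fun _ => -((1 / 2 : ℝ) • E x₁))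
  let q := (Fintype.equivFin (Fin n ⊕ Fin n ⊕ Unit)).symm
  have hgb : ∀ k, Gb M A ω Λ (u' k) := by
    rintro (i | i | i)
    · exact (hva i).1
    · exact (hva i).1.adj h hΛ
    · exact (PA.one.gb h).mono hΛ
  have hmem : ∀ k, b' k ∈ A := by
    rintro (i | i | i)
    · exact OmegaA.rsmul_memA (hva i).2 _
    · exact zero_mem _
    · exact neg_mem (OmegaA.rsmul_memA (hE.mem _ hM) _)
  have hsym : ∀ k, ∃ k', u' k' = star (u' k) := by
    rintro (i | i | i)
    · exact ⟨Sum.inr (Sum.inl i), rfl⟩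
    · exact ⟨Sum.inl i, (star_star _).symm⟩
    · exact ⟨Sum.inr (Sum.inr i), (star_one _).symm⟩
  refine ⟨_, Λ, ∑ i, ‖b' (q i)‖, fun i => u' (q i), fun i => b' (q i), hΛ, fun i => hgb _,
    fun i => hmem _, fun i => ?_, ?_, ?_, ?_, ?_, le_rfl⟩
  · obtain ⟨k', hk⟩ := hsym (q i)
    exact ⟨q.symm k', by simpa using hk⟩
  · rw [Equiv.sum_comp q fun k => u' k * b' k, Fintype.sum_sum_type, Fintype.sum_sum_type]
    simp only [u', b', Sum.elim_inl, Sum.elim_inr, mul_zero, Finset.sum_const_zero, zero_add, one_mul,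
      Finset.univ_unique, Finset.sum_singleton, mul_smul_comm]
    rw [← Finset.smul_sum, ← e, smul_sub, sub_eq_add_neg]
  · have : star (E x₁) = E x₁ := by rw [← hE.star, hs.star_eq]
    change star _ = _
    rw [star_smul, star_trivial, star_sub, this, hs.star_eq]
  · rw [LinearMap.map_smul_of_tower, map_sub, hE.of_mem (hE.mem _ hM), sub_self, smul_zero]
  · have h1 := norm_sub_le x₁ (E x₁)
    have h2 := hE.norm_le x₁
    rw [norm_smul, Real.norm_of_nonneg (by norm_num)]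
    linarith

namespace GensA

variable {v : H →L[ℂ] H}

/-- the part of the source of `v` on which `v` respects the cells of `P` -/
noncomputable def F (v : H →L[ℂ] H) (P : Part A) : H →L[ℂ] H := star v * EP P v

theorem F_pa (hA : Masa M A) (hv : Gr M A v) (P : Part A) : PA A (F v P) := by
  have e : F v P = ∑ p ∈ P.cells, star v * p * v * p := by
    unfold F EP
    rw [Finset.mul_sum]
    exact Finset.sum_congr rfl fun p _ => by simp only [mul_assoc]
  rw [e]
  refine PA.sum _ (fun p hp => (hv.conj_pa hA (P.pa p hp)).mul hA (P.pa p hp)) fun p hp q hq hpq => ?_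
  have c := hA.comm _ (P.pa p hp).1 _ (hv.conj_pa hA (P.pa q hq)).1
  calc star v * p * v * p * (star v * q * v * q)
      = star v * p * v * (p * (star v * q * v)) * q := by simp only [mul_assoc]
    _ = star v * p * v * (star v * q * v) * (p * q) := by rw [c]; simp only [mul_assoc]
    _ = 0 := by rw [P.orth p hp q hq hpq, mul_zero]

theorem EP_eq (hA : Masa M A) (hv : Gr M A v) (P : Part A) : EP P v = v * F v P := by
  unfold F EP
  rw [Finset.mul_sum, Finset.mul_sum]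
  refine Finset.sum_congr rfl fun p hp => ?_
  conv_lhs => rw [hv.mul_eq' hA (P.pa p hp).1]
  simp only [mul_assoc]

theorem F_mul (hA : Masa M A) (hv : Gr M A v) {P Q : Part A} (h : P ≤ Q) :
    F v P * F v Q = F v Q := by
  have e : EP Q v = EP P v * F v Q := by
    rw [← EP_EP' h, EP_eq hA hv Q, EP_eq_pin P, EP_eq_pin P,
      P.isPartOf.pin_mul_right hA (F_pa hA hv Q).1]
  conv_rhs => rw [F, e, ← mul_assoc]
  rfl

theorem F_mul' (hA : Masa M A) (hv : Gr M A v) {P Q : Part A} (h : P ≤ Q) :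
    F v Q * F v P = F v Q := by
  rw [hA.comm _ (F_pa hA hv Q).1 _ (F_pa hA hv P).1, F_mul hA hv h]

variable {n : ℕ} {Λ K₀ : ℝ} {u b : Fin n → H →L[ℂ] H} {x' f : H →L[ℂ] H}

theorem wd_cut (h : St M A ω) (hG : Gen M A ω E Λ K₀ u b x') (hf : PA A f) (w : List (Fin n)) :
    ∃ a ∈ A, wd (fun i => f * u i * f) w = a * wd u w := by
  induction w with
  | nil => exact ⟨1, one_mem _, by simp [wd_nil]⟩
  | cons i w ih =>
    obtain ⟨a, ha, e⟩ := ih
    have hfa : f * a ∈ A := mul_mem hf.1 ha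
    refine ⟨f * (u i * (f * a) * star (u i)), mul_mem hf.1 ((hG.gb i).1.1.2.1 _ hfa), ?_⟩
    rw [wd_cons, wd_cons, e]
    have := (hG.gb i).1.mul_eq h.masa hfa
    calc f * u i * f * (a * wd u w) = f * (u i * (f * a)) * wd u w := by simp only [mul_assoc]
      _ = f * (u i * (f * a) * star (u i) * u i) * wd u w := by rw [← this]
      _ = _ := by simp only [mul_assoc]

theorem wd_end (hf : PA A f) (w : List (Fin n)) (i : Fin n) :
    wd (fun i => f * u i * f) (w ++ [i]) * f = wd (fun i => f * u i * f) (w ++ [i]) := by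
  rw [wd_append, wd_cons, wd_nil, mul_one, mul_assoc, mul_assoc, hf.2.isIdempotentElem.eq]

theorem gen_cut (h : St M A ω) (hE : CE M A ω E) (hG : Gen M A ω E Λ K₀ u b x') (hf : PA A f) :
    Gen M A ω E Λ K₀ (fun i => f * u i * f) b (f * x' * f) := by
  have hs := hf.2.isSelfAdjoint.star_eq
  refine ⟨hG.nonneg, fun i => ?_, hG.mem, fun i => ?_, ?_, ?_, ?_, ?_, hG.sum_le⟩
  · have := ((hf.gb h).mul h le_rfl (hG.gb i)).mul h (by simpa using hG.nonneg) (hf.gb h)
    simpa using this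
  · obtain ⟨i', e⟩ := hG.symm i
    refine ⟨i', ?_⟩
    simp only [e, star_mul, hs, mul_assoc]
  · rw [hG.eq, Finset.mul_sum, Finset.sum_mul]
    refine Finset.sum_congr rfl fun i _ => ?_
    simp only [mul_assoc]
    rw [h.masa.comm _ (hG.mem i) _ hf.1]
  · change star _ = _
    simp only [star_mul, hs, hG.sa.star_eq, mul_assoc]
  · rw [hE.right _ hf.1, hE.left _ hf.1, hG.E_eq, mul_zero, zero_mul]
  · have h1 := hf.norm_le
    have h2 := hG.norm_le
    calc ‖f * x' * f‖ ≤ ‖f‖ * ‖x'‖ * ‖f‖ :=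
          (norm_mul_le _ _).trans (mul_le_mul_of_nonneg_right (norm_mul_le _ _) (norm_nonneg _))
      _ ≤ 1 * 1 * 1 := by gcongr
      _ = 1 := by norm_num

end GensA

open GensA

theorem cut_one (h : St M A ω) (hE : CE M A ω E) {v : H →L[ℂ] H} (hv : Gr M A v) {η : ℝ}
    (hη : 0 < η) : ∃ P₀ : Part A, ∀ P, P₀ ≤ P → ∃ t, PA A t ∧ (ω t).re ≤ η ∧
      ∀ p ∈ P.cells, p * v * p * (1 - t) ∈ A := by
  have hA := h.masa
  have hdir := hA.directed
  have hup : ∀ {P Q : Part A}, P ≤ Q → (1 - F v Q) * (1 - F v P) = 1 - F v P := fun {P Q} hPQ => by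
    rw [sub_mul, one_mul, mul_sub, mul_one, F_mul' hA hv hPQ, sub_self, sub_zero]
  obtain ⟨g, hg, hle, happ⟩ := sup_proj h (Set.range fun P : Part A => 1 - F v P)
    (by rintro _ ⟨P, rfl⟩; exact (F_pa hA hv P).compl) (Set.range_nonempty _) (by
      rintro _ ⟨P, rfl⟩ _ ⟨Q, rfl⟩
      obtain ⟨R, h1, h2⟩ := exists_ge_ge P Q
      exact ⟨_, ⟨R, rfl⟩, hup h1, hup h2⟩)
  have hg1 : ∀ P : Part A, F v P * g = g - (1 - F v P) := fun P => by
    have e := hle _ ⟨P, rfl⟩
    simp only [mul_sub, mul_one] at e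
    rw [hA.comm _ (F_pa hA hv P).1 _ hg.1, ← e]
    abel
  have hg2 : ∀ P : Part A, F v P * (1 - g) = 1 - g := fun P => by
    rw [mul_sub, mul_one, hg1]
    abel
  have hmem : v * (1 - g) ∈ A := by
    refine hA.max _ (mul_mem hv.1.1 (hA.le _ hg.compl.1)) (hA.comm_of_proj fun e he => ?_)
    obtain ⟨P, -, hP⟩ := exists_two he
    have e1 : v * (1 - g) = EP P v * (1 - g) := by rw [EP_eq hA hv, mul_assoc, hg2]
    rw [e1, ← mul_assoc, CEA.comm_EP hA he P (hP P le_rfl), mul_assoc, mul_assoc,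
      hA.comm _ he.1 _ hg.compl.1]
  obtain ⟨_, ⟨P₀, rfl⟩, h0⟩ := happ η hη
  refine ⟨P₀, fun P hP => ⟨F v P * g, (F_pa hA hv P).mul hA hg, ?_, fun p hp => ?_⟩⟩
  · have h1 : PA A (F v P₀ * (1 - F v P) * g) :=
      ((F_pa hA hv P₀).mul hA (F_pa hA hv P).compl).mul hA hg
    have h2 := h.npos.pos.nonneg (hA.le _ h1.1) h1.2.nonneg
    rw [mul_sub, mul_one, F_mul hA hv hP, sub_mul, map_sub, hg1 P₀] at h2
    have h3 := (Complex.nonneg_iff.1 h2).1
    rw [Complex.sub_re] at h3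
    exact (sub_nonneg.1 h3).trans h0
  · have e1 : p * v * p = p * EP P v := by
      rw [EP_eq_pin]
      exact (P.isPartOf.mul_pin v ⟨p, hp⟩).symm
    have e2 : F v P * (1 - F v P * g) = 1 - g := by
      rw [mul_sub, mul_one, ← mul_assoc, (F_pa hA hv P).2.isIdempotentElem.eq, ← hg2 P, mul_sub,
        mul_one]
    rw [e1, EP_eq hA hv, mul_assoc, mul_assoc, e2]
    exact mul_mem (P.pa p hp).1 hmem

theorem cut (h : St M A ω) (hE : CE M A ω E) {n : ℕ} {Λ K₀ : ℝ} {u b : Fin n → H →L[ℂ] H}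
    {x' : H →L[ℂ] H} (hG : Gen M A ω E Λ K₀ u b x') (R : ℕ) {η : ℝ} (hη : 0 < η) :
    ∃ (J : ℕ) (e : Fin J → H →L[ℂ] H) (f : H →L[ℂ] H), IsPartOf A 1 e ∧ PA A f ∧
      Gen M A ω E Λ K₀ (fun i => f * u i * f) b (f * x' * f) ∧
      Proper A (fun i => f * u i * f) e R ∧ n2 ω (x' - f * x' * f) ≤ η := by
  classical
  have hA := h.masa
  have hP := h.npos.pos
  have hne := hA.neBot
  have hx : x' ∈ M := by
    rw [hG.eq]
    exact sum_mem fun i _ => mul_mem (hG.gb i).1.1.1 (hA.le _ (hG.mem i))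
  obtain ⟨δ, hδ, huac⟩ := uac_mul h hx 1 (η := (η / 2) ^ 2) (by positivity)
  set s : Finset (List (Fin n)) := (List.finite_length_le (Fin n) (3 * R + 1)).toFinset with hs
  set δ' := min δ ((η / 2) ^ 2) with hδ'
  have hδ'0 : 0 < δ' := lt_min hδ (by positivity)
  choose P₀ hP₀ using fun w : List (Fin n) =>
    cut_one h hE (wd_gb h hG w).1 (η := δ' / (s.card + 1)) (by positivity)
  obtain ⟨P, hPP⟩ := ((Filter.eventually_all_finset s).2
    fun w _ => eventually_ge_atTop (P₀ w)).exists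
  have ht : ∀ w : List (Fin n), ∃ t, PA A t ∧ (ω t).re ≤ δ' / (s.card + 1) ∧
      (w ∈ s → ∀ p ∈ P.cells, p * wd u w * p * (1 - t) ∈ A) := fun w => by
    by_cases hw : w ∈ s
    · obtain ⟨t, h1, h2, h3⟩ := hP₀ w P (hPP w hw)
      exact ⟨t, h1, h2, fun _ => h3⟩
    · exact ⟨0, PA.zero, by rw [map_zero, Complex.zero_re]; positivity, fun h' => absurd h' hw⟩
  choose t ht1 ht2 ht3 using ht
  obtain ⟨f, hf, hf0, hf1⟩ := exists_inf hA s (t := t) fun w _ => ht1 w
  have hfM : f ∈ M := hA.le _ hf.1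
  have hcM : 1 - f ∈ M := hA.le _ hf.compl.1
  have hω : (ω (1 - f)).re ≤ δ' := by
    have h1 := hP.mono hcM (sum_mem fun w _ => hA.le _ (ht1 w).1) hf1
    rw [map_sum, Complex.re_sum] at h1
    have h2 : ∑ w ∈ s, (ω (t w)).re ≤ s.card • (δ' / (s.card + 1)) :=
      Finset.sum_le_card_nsmul _ _ _ fun w _ => ht2 w
    rw [nsmul_eq_mul] at h2
    have h3 : (s.card : ℝ) * (δ' / (s.card + 1)) ≤ δ' := by
      rw [← mul_div_assoc, div_le_iff₀ (by positivity)]
      nlinarith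
    linarith
  let q := P.cells.equivFin.symm
  refine ⟨_, fun j => (q j : H →L[ℂ] H), f, ⟨fun j => P.pa _ (q j).2, fun i j hij => ?_, ?_⟩, hf,
    gen_cut h hE hG hf, fun w hw j => ?_, ?_⟩
  · exact P.isPartOf.orth _ _ fun e => hij (q.injective e)
  · rw [Equiv.sum_comp q fun p => (p : H →L[ℂ] H)]
    exact P.isPartOf.sum
  · have hp : (q j : H →L[ℂ] H) ∈ A := (P.pa _ (q j).2).1
    rcases List.eq_nil_or_concat' w with rfl | ⟨w', i, rfl⟩
    · rw [wd_nil, mul_one]
      exact mul_mem hp hp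
    · have hws : w' ++ [i] ∈ s := by
        rw [hs, Set.Finite.mem_toFinset]
        exact hw
      obtain ⟨a, ha, e⟩ := wd_cut h hG hf (w' ++ [i])
      have e1 : (1 - t (w' ++ [i])) * f = f := by
        rw [sub_mul, one_mul, hA.comm _ (ht1 _).1 _ hf.1, hf0 _ hws, sub_zero]
      have e2 : (q j : H →L[ℂ] H) * wd (fun i => f * u i * f) (w' ++ [i]) * q j =
          a * ((q j : H →L[ℂ] H) * wd u (w' ++ [i]) * q j * (1 - t (w' ++ [i]))) * f := by
        rw [← wd_end hf, e]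
        calc (q j : H →L[ℂ] H) * (a * wd u (w' ++ [i]) * f) * q j
            = (q j * a) * wd u (w' ++ [i]) * (f * q j) := by simp only [mul_assoc]
          _ = (a * q j) * wd u (w' ++ [i]) * (q j * ((1 - t (w' ++ [i])) * f)) := by
            rw [hA.comm _ hp _ ha, hA.comm _ hf.1 _ hp, e1]
          _ = _ := by simp only [mul_assoc]
      rw [e2]
      exact mul_mem (mul_mem ha (ht3 _ hws _ (q j).2)) hf.1
  · have hc := hf.compl
    have hcc : star (1 - f) * (1 - f) = 1 - f := by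
      rw [hc.2.isSelfAdjoint.star_eq, hc.2.isIdempotentElem.eq]
    have e : x' - f * x' * f = (1 - f) * x' + f * (x' * (1 - f)) := by noncomm_ring
    have a1 : n2 ω ((1 - f) * x') ≤ η / 2 := by
      refine OmegaA.le_of_sq_le_sq' ?_ (by positivity)
      rw [hP.n2_sq (mul_mem hcM hx), star_mul, mul_assoc, ← mul_assoc (star (1 - f)), hcc,
        ← mul_assoc]
      exact huac _ hcM hc.2.nonneg hc.norm_le (hω.trans (min_le_left _ _))
    have a2 : n2 ω (1 - f) ≤ η / 2 := by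
      refine OmegaA.le_of_sq_le_sq' ?_ (by positivity)
      rw [hP.n2_sq hcM, hcc]
      exact hω.trans (min_le_right _ _)
    have a3 : n2 ω (x' * (1 - f)) ≤ η / 2 :=
      (hP.n2_mul_left hx hcM).trans
        ((mul_le_of_le_one_left (n2_nonneg _) hG.norm_le).trans a2)
    have a4 : n2 ω (f * (x' * (1 - f))) ≤ η / 2 :=
      (hP.n2_mul_left hfM (mul_mem hx hcM)).trans
        ((mul_le_of_le_one_left (n2_nonneg _) hf.norm_le).trans a3)
    have a5 := hP.n2_add_le (mul_mem hcM hx) (mul_mem hfM (mul_mem hx hcM))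
    rw [e]
    linarith

end Crest.Agent.R109
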