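import Crest.Agent.R109.Build
import Crest.Agent.R109.BMom
import Crest.Agent.R109.Gens
import Crest.Agent.R109.GelEx
import Crest.Agent.R109.ColH
import Crest.Agent.R109.AMain

/-!
# Row 109: the random colouring that paves the groupoid part
-/

set_option autoImplicit false
set_option linter.unusedSectionVars false
set_option linter.unusedVariables false

namespace Crest.Agent.R109

open scoped InnerProductSpace ComplexOrder ComplexConjugate
open Filter Topology MeasureTheory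

universe u

variable {H : Type u} [NormedAddCommGroup H] [InnerProductSpace ℂ H] [CompleteSpace H]
  {M : VonNeumannAlgebra H} {A : StarSubalgebra ℂ (H →L[ℂ] H)}
  {ω φ : (H →L[ℂ] H) →ₗ[ℂ] ℂ} {E : (H →L[ℂ] H) →ₗ[ℂ] (H →L[ℂ] H)}

namespace ColA

theorem exists_odd {γ η : ℝ} (hγ : 0 < γ) (hη : 0 < η) : ∃ k : ℕ, Odd k ∧ 80 / (1 + γ) ^ k ≤ η := by
  obtain ⟨k, hk⟩ := pow_unbounded_of_one_lt (80 / η) (show (1 : ℝ) < 1 + γ by linarith)
  refine ⟨2 * k + 1, odd_two_mul_add_one k, ?_⟩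
  have h1 : (1 + γ) ^ k ≤ (1 + γ) ^ (2 * k + 1) := pow_le_pow_right₀ (by linarith) (by omega)
  rw [div_le_iff₀ (by positivity)]
  rw [div_lt_iff₀ hη] at hk
  nlinarith

end ColA

open Classical in
theorem col_main (h : St M A ω) (hE : CE M A ω E) {r : ℕ} (hr : 64 ≤ r) {x₁ : H →L[ℂ] H}
    (hN : InN M A ω x₁) (hs : IsSelfAdjoint x₁) (hn : ‖x₁‖ ≤ 1) {η : ℝ} (hη : 0 < η) :
    ∃ x' ∈ M, IsSelfAdjoint x' ∧ ‖x'‖ ≤ 2 ∧ n2 ω (x₁ - E x₁ - x') ≤ η ∧
      ∃ (D : ℕ) (P₀ : Part A), ∀ P, P₀ ≤ P →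
        ∃ p : (P.cells → Fin (r / 2)) → Fin r → H →L[ℂ] H,
          RCol M A ω (fun e : P.cells => (e : H →L[ℂ] H)) x' D (3200 / √(r : ℝ)) η p := by
  have hA := h.masa
  have hr0 : (0 : ℝ) < √(r : ℝ) := Real.sqrt_pos.2 (by exact_mod_cast (by omega : 0 < r))
  obtain ⟨n, Λ, K₀, u, b, hG⟩ := gens0 h hE hN hs hn
  obtain ⟨k, hk, hkη⟩ := ColA.exists_odd (γ := 1 / √(r : ℝ)) (by positivity) hη
  have hK : 0 ≤ K₀ := (Finset.sum_nonneg fun i _ => norm_nonneg _).trans hG.sum_le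
  obtain ⟨R, hkR, hmain⟩ := am_main.{u} (r := r) (by omega) hK hG.nonneg (n + 1) hk
  obtain ⟨J, e, f, he, hf, hG', hP, hcut⟩ := cut h hE hG R (half_pos hη)
  obtain ⟨X, _, _, _, _, _, μ, _, ⟨g⟩⟩ := exists_gel h
  obtain ⟨cl, hcl, hcl'⟩ := g.exists_cell he
  set y := f * ((1 / 2 : ℝ) • (x₁ - E x₁)) * f with hy
  have S : Set0 M A ω E g Λ K₀ (fun i => f * u i * f) b y e R cl := ⟨h, hE, hG', he, hP, hcl'⟩
  have hyM : y ∈ M := by
    rw [hG'.eq]
    exact sum_mem fun i _ => mul_mem (hG'.gb i).1.1.1 (hA.le _ (hG'.mem i))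
  have hsm : ∀ (c : ℝ) (z : H →L[ℂ] H), z ∈ M → c • z ∈ M := fun c z hz => by
    rw [← Complex.coe_smul]; exact M.toStarSubalgebra.smul_mem hz _
  refine ⟨(2 : ℝ) • y, hsm _ _ hyM, ?_, ?_, ?_, ?_⟩
  · exact (IsSelfAdjoint.all (2 : ℝ)).smul hG'.sa
  · rw [norm_smul, Real.norm_two]; linarith [hG'.norm_le]
  · have e1 : x₁ - E x₁ - (2 : ℝ) • y = (2 : ℝ) • ((1 / 2 : ℝ) • (x₁ - E x₁) - y) := by
      rw [smul_sub (2 : ℝ), smul_smul]; norm_num
    rw [e1, n2_rsmul, abs_two]; linarith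
  obtain ⟨P₀, hP₀, -⟩ := exists_part_of he
  refine ⟨2 ^ J, P₀, fun P hle => ?_⟩
  obtain ⟨cell, hcell, hcell'⟩ := g.exists_cell P.isPartOf
  have hcc : ∀ χ χ', cell χ = cell χ' → S.toAM.cl χ = S.toAM.cl χ' := by
    intro χ χ' e1
    obtain ⟨p, hp, hpq⟩ := hle (cell χ) (cell χ).2
    obtain ⟨j, rfl⟩ := hP₀ p hp
    have key : ∀ χ₁, cell χ₁ = cell χ → cl χ₁ = j := by
      intro χ₁ e2
      have h1 := (hcell' χ₁ _).1 e2
      have h2 := g.ev_mul (he.pa j).1 (P.pa _ (cell χ).2).1 χ₁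
      rw [hpq, h1, mul_one] at h2
      exact (hcl' _ _).2 h2.symm
    exact (key χ rfl).trans (key χ' e1.symm).symm
  obtain ⟨col, dep, hL, hmom⟩ := hmain X μ J S.toAM P.cells cell hcell hcc
  choose p hp hpe using fun l => g.exists_ind_part (hL.lc l)
  obtain ⟨q, hq, hqe⟩ := g.exists_ind_part hL.dep_lc
  refine ⟨p, hp, fun c => ?_, fun l e₀ i i' c hi => ?_, fun l => ?_⟩
  · refine ⟨fun S' l => p l c * q S', fun l => ?_, fun S' l => ?_, fun S' hS' l => ?_,
      fun S' l l' hl => ?_⟩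
    · rw [← Finset.mul_sum, hq.sum, mul_one]
    · exact mul_mem (hA.le _ ((hp l).pa c).1) (hA.le _ (hq.pa S').1)
    · have : q S' = 0 := by
        refine g.ev_ext (hq.pa S').1 (zero_mem _) fun χ => ?_
        rw [hqe, if_neg, map_zero, ContinuousMap.zero_apply]
        rintro rfl
        exact absurd (hL.card χ) (not_le.2 hS')
      simp [this]
    · refine g.ev_ext (mul_mem ((hp l).pa c).1 (hq.pa S').1)
        (mul_mem ((hp l').pa c).1 (hq.pa S').1) fun χ => ?_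
      rw [g.ev_mul ((hp l).pa c).1 (hq.pa S').1, g.ev_mul ((hp l').pa c).1 (hq.pa S').1, hqe, hpe,
        hpe]
      by_cases h1 : dep χ = S'
      · rw [hL.junta χ l l' (by rw [h1]; exact hl)]
      · simp [h1]
  · have m1 := ((hp (Function.update l e₀ i)).pa c).1
    have m2 := ((hp (Function.update l e₀ i')).pa c).1
    have m3 := (P.pa _ e₀.2).1
    refine g.ev_ext (mul_mem (mul_mem m1 m2) m3) (zero_mem _) fun χ => ?_
    rw [g.ev_mul (mul_mem m1 m2) m3, g.ev_mul m1 m2, hpe, hpe, map_zero, ContinuousMap.zero_apply]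
    rcases g.ev_pa (P.pa _ e₀.2) χ with h0 | h1
    · rw [h0, mul_zero]
    · have e2 : cell χ = e₀ := (hcell' χ e₀).2 h1
      have := hL.inj χ l i i' hi
      rw [e2] at this
      by_cases h3 : col (Function.update l e₀ i) χ = c
      · rw [if_neg (fun h4 : col (Function.update l e₀ i') χ = c => this (h3.trans h4.symm))]
        simp
      · simp [h3]
  · have hpM : pin (p l) y ∈ M := (hp l).pin_mem hA hyM
    have hps : IsSelfAdjoint (pin (p l) y) := by
      rw [IsSelfAdjoint, (hp l).pin_star, hG'.sa.star_eq]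
    have hpn : ‖pin (p l) y‖ ≤ 1 := ((hp l).pin_norm_le y).trans hG'.norm_le
    obtain ⟨t, htM, ht0, htn, htω, hle'⟩ := col_h h hr hpM hps hpn k (fun s => by
      have hZ : ((1 - (bar r : ℂ)) • (1 : H →L[ℂ] H) + (bsg s / 320) • pin (p l) y) ^ k ∈ M :=
        pow_mem (add_mem (M.toStarSubalgebra.smul_mem (one_mem _) _)
          (M.toStarSubalgebra.smul_mem hpM _)) _
      rw [g.int_st hE hZ]
      simp_rw [S.moment (col l) (hp l) (hpe l) s hkR]
      have hc := zM_continuous S.toAM (hL.lc l) s k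
      have hint : Integrable (fun χ => (zM (S.toAM.Y χ) (fun j => col l (S.toAM.pt χ j)) s ^ k)
          (S.toAM.cl χ) (S.toAM.cl χ)) μ :=
        hc.integrable_of_hasCompactSupport (HasCompactSupport.of_compactSpace _)
      have := hmom l s
      have e3 := integral_re hint
      simp only [RCLike.re_to_complex] at e3
      rw [e3] at this
      exact this)
    refine ⟨t, htM, ht0, htn, htω.trans hkη, ?_⟩
    rw [pin_rsmul]
    exact hle'

end Crest.Agent.R109
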