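import Crest.Agent.R109.InitA

/-!
# Row 109, task R109-Init

The one-step barrier argument.  `N = card K`, `a = √N + 1`, `c₀ = 1/(a-1) = 1/√N`, `b' = c₀ + 2a/N ≤ 5/√N`.
PLAN.  Prove by induction on the number of vertices with `φ v = uncF K ≠ {univ}` (if `N = 1` then `uncF K = {univ}`;
it is cleanest to carry a state function `st : V → Fin 3` (deleted / uncoloured / full) and induct on the number
of uncoloured vertices): for real heights `x` with `x v ≥ b'` (uncoloured), `|x v| ≥ a` (full):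
(i) `pp ≠ 0`; (ii) for full `u` with `x u ≥ a`: `re (Φ u) ≤ N / (x u - c₀)`, `Φ u = ∑ k, pp (update φ u {univ.erase k}) / pp φ`.
Base: `pp = ∏ det (mat S (sg k))`, `det_base`, `base_ratio`.  Step: `v` uncoloured, `φ' = update φ v {univ}`,
`q` the polynomial of `pp_poly`, `D = q.coeff N ≠ 0` (induction, `v` deleted), `q = D ∏ (ζ - λ i)` (`real_rooted`,
`real_roots`), `|λ i| < a` by (i); `∑ 1/(a - λ i) ≤ N/(a - c₀)` by (ii) and AM–HM give `λ̄ ≤ c₀`;
`pp φ = D (x v - λ̄)` (`pp_update_avg`, `pp_sing_affine`, coefficient `N - 1`).  For full `u ≠ v`: `Q = ∑ k` of the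
polynomials of `pp_poly` for `update φ' u {univ.erase k}`; `Q/q` is Herglotz (`log_deriv_im`), `herglotz_rep` for
`Q / D`: `Q/q = c + ∑ κ i/(ζ - λ i)`; the new `Φ u = c + (∑ κ / N)/(x v - λ̄) ≤ c + ∑ κ/(2a) ≤ re (Q/q)(a)`.
-/

set_option autoImplicit false
set_option linter.unusedSectionVars false
set_option linter.unusedVariables false

namespace Crest.Agent.R109

open Matrix Finset Function Polynomial
open scoped ComplexConjugate Real

variable {V K : Type*} [Fintype V] [DecidableEq V] [Fintype K] [DecidableEq K]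
  {sg : K → ℂ} {Y : Matrix V V ℂ} {φ : V → Finset (Finset K)} {z : V → ℂ}

namespace InitB

theorem ofReal_update (x : V → ℝ) (v : V) (t : ℝ) :
    (fun w => ((update x v t w : ℝ) : ℂ)) = update (fun w => (x w : ℂ)) v (t : ℂ) := by
  funext w
  by_cases h : w = v
  · subst h; simp
  · simp [update_of_ne h]

theorem univ_ne [Nonempty K] : ({univ} : Finset (Finset K)) ≠ {∅} := by
  intro h
  exact univ_nonempty.ne_empty (singleton_injective h)

theorem unc_eq [Nonempty K] (ψ : V → Finset (Finset K)) (z : V → ℂ) (v : V) (hv : ψ v = uncF K)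
    {q : ℂ[X]} (h1 : q.coeff (Fintype.card K) = pp sg Y (update ψ v {∅}) z)
    (h2 : q.coeff (Fintype.card K - 1) = ∑ k, pp sg Y (update ψ v {{k}}) (update z v 0)) :
    pp sg Y ψ z = z v * q.coeff (Fintype.card K)
      + (Fintype.card K : ℂ)⁻¹ * q.coeff (Fintype.card K - 1) := by
  have e := pp_sing_affine (sg := sg) (Y := Y) (φ := ψ) (z := z) v (sing_uncF (K := K)) (z v)
  rw [update_eq_self, pp_update_avg (z := update z v 0) v (uncF K), card_uncF, sum_uncF, ← h1, ← h2,
    ← hv, update_eq_self] at e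
  exact e

theorem amhm {n : ℕ} (hn : 0 < n) (τ : Fin n → ℝ) {a c : ℝ} (hτ : ∀ j, τ j < a) (hc : c < a)
    (h : ∑ j, 1 / (a - τ j) ≤ n / (a - c)) : ∑ j, τ j ≤ n * c := by
  have hac : 0 < a - c := by linarith
  have h1 : ∀ j, 2 / (a - c) - (a - τ j) / (a - c) ^ 2 ≤ 1 / (a - τ j) := by
    intro j
    have hj : 0 < a - τ j := by linarith [hτ j]
    have e : 1 / (a - τ j) - (2 / (a - c) - (a - τ j) / (a - c) ^ 2)
        = ((a - c) - (a - τ j)) ^ 2 / ((a - τ j) * (a - c) ^ 2) := by
      field_simp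
      ring
    have : 0 ≤ ((a - c) - (a - τ j)) ^ 2 / ((a - τ j) * (a - c) ^ 2) := by positivity
    linarith
  have h2 := (sum_le_sum fun j (_ : j ∈ (univ : Finset (Fin n))) => h1 j).trans h
  rw [sum_sub_distrib, ← sum_div, ← sum_div, sum_sub_distrib] at h2
  simp only [sum_const, card_univ, Fintype.card_fin, nsmul_eq_mul] at h2
  have h3 : (n * 2 / (a - c) - (n * a - ∑ j, τ j) / (a - c) ^ 2) * (a - c) ^ 2
      ≤ n / (a - c) * (a - c) ^ 2 := mul_le_mul_of_nonneg_right h2 (by positivity)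
  have e1 : (n * 2 / (a - c) - (n * a - ∑ j, τ j) / (a - c) ^ 2) * (a - c) ^ 2
      = n * 2 * (a - c) - (n * a - ∑ j, τ j) := by field_simp
  have e2 : n / (a - c) * (a - c) ^ 2 = n * (a - c) := by field_simp
  rw [e1, e2] at h3
  nlinarith

/-- the hypothesis of the induction -/
def Hyp (K : Type*) [Fintype K] [DecidableEq K] (a b : ℝ) (U : Finset V)
    (φ : V → Finset (Finset K)) (x : V → ℝ) : Prop :=
  ∀ v, (v ∈ U → φ v = uncF K ∧ b ≤ x v) ∧ (v ∉ U → φ v = {∅} ∨ (φ v = {univ} ∧ a ≤ |x v|))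

theorem Hyp.adm [Nonempty K] {a b : ℝ} {U : Finset V} {x : V → ℝ} (h : Hyp K a b U φ x) (v : V) :
    Adm (φ v) := by
  by_cases hv : v ∈ U
  · rw [((h v).1 hv).1]; exact Or.inr sing_uncF
  · rcases (h v).2 hv with e | ⟨e, -⟩ <;> rw [e] <;> exact Or.inl (card_singleton _)

theorem Hyp.del {a b : ℝ} {U : Finset V} {x : V → ℝ} {v : V} (hv : v ∉ U)
    (h : Hyp K a b (insert v U) φ x) : Hyp K a b U (update φ v {∅}) x := by
  intro w
  by_cases hw : w = v
  · subst hw
    exact ⟨fun h' => absurd h' hv, fun _ => Or.inl (update_self ..)⟩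
  · rw [update_of_ne hw]
    exact ⟨fun h' => (h w).1 (mem_insert_of_mem h'), fun h' => (h w).2 (by simp [hw, h'])⟩

theorem Hyp.full {a b : ℝ} {U : Finset V} {x : V → ℝ} {v : V} (hv : v ∉ U)
    (h : Hyp K a b (insert v U) φ x) {t : ℝ} (ht : a ≤ |t|) :
    Hyp K a b U (update φ v {univ}) (update x v t) := by
  intro w
  by_cases hw : w = v
  · subst hw
    exact ⟨fun h' => absurd h' hv, fun _ => Or.inr ⟨update_self .., by rw [update_self]; exact ht⟩⟩
  · rw [update_of_ne hw, update_of_ne hw]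
    exact ⟨fun h' => (h w).1 (mem_insert_of_mem h'), fun h' => (h w).2 (by simp [hw, h'])⟩

/-- the conclusion of the induction -/
def Con (sg : K → ℂ) (Y : Matrix V V ℂ) (a : ℝ) (U : Finset V)
    (φ : V → Finset (Finset K)) (x : V → ℝ) : Prop :=
  pp sg Y φ (fun v => (x v : ℂ)) ≠ 0 ∧ ∀ u, u ∉ U → φ u = {univ} → a ≤ x u →
    ((∑ k, pp sg Y (update φ u {univ.erase k}) (fun v => (x v : ℂ))) /
      pp sg Y φ (fun v => (x v : ℂ))).re ≤ (Fintype.card K : ℝ) / (x u - 1 / (a - 1))

theorem base [Nonempty K] (hs : Sgn sg) (hc : Contr Y) (hd : ∀ v, Y v v = 0) {a b : ℝ} (ha : 2 ≤ a)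
    {x : V → ℝ} (h : Hyp K a b ∅ φ x) : Con sg Y a ∅ φ x := by
  set f : V → Finset K := fun v => if φ v = {∅} then ∅ else univ with hf
  set S : Finset V := univ.filter fun v => φ v ≠ {∅} with hS
  have hφ : φ = fun v => {f v} := by
    funext v
    rcases (h v).2 (notMem_empty v) with e | ⟨e, -⟩
    · simp [hf, e]
    · have : φ v ≠ {∅} := by rw [e]; exact univ_ne
      simp only [hf, this, if_false]
      exact e
  have hfS : ∀ k, (univ.filter fun v => k ∈ f v) = S := by
    intro k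
    ext v
    by_cases e : φ v = {∅} <;> simp [hS, hf, e]
  have hz : ∀ v ∈ S, a ≤ ‖(x v : ℂ)‖ := by
    intro v hv
    rcases (h v).2 (notMem_empty v) with e | ⟨-, e⟩
    · exact absurd e (mem_filter.mp hv).2
    · rwa [Complex.norm_real, Real.norm_eq_abs]
  have hdet : ∀ k, (mat S (sg k) Y fun v => (x v : ℂ)).det ≠ 0 := fun k =>
    (det_base hc hd (hs k) (by linarith) S).1 hz
  have hpp : pp sg Y φ (fun v => (x v : ℂ)) = ∏ k, (mat S (sg k) Y fun v => (x v : ℂ)).det := by
    rw [hφ, pp_single]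
    unfold pf
    simp only [hfS]
  refine ⟨by rw [hpp]; exact prod_ne_zero_iff.mpr fun k _ => hdet k, fun u _ hu hxu => ?_⟩
  have huS : u ∈ S := mem_filter.mpr ⟨mem_univ _, by rw [hu]; exact univ_ne⟩
  have hk : ∀ k, pp sg Y (update φ u {univ.erase k}) (fun v => (x v : ℂ)) /
      pp sg Y φ (fun v => (x v : ℂ)) = (mat (S.erase u) (sg k) Y fun v => (x v : ℂ)).det /
        (mat S (sg k) Y fun v => (x v : ℂ)).det := by
    intro k
    have e1 : update φ u {univ.erase k} = fun v => {update f u (univ.erase k) v} := by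
      funext v
      by_cases hv : v = u
      · subst hv; simp
      · rw [update_of_ne hv, update_of_ne hv, hφ]
    have e2 : (univ.filter fun v => k ∈ update f u (univ.erase k) v) = S.erase u := by
      rw [← hfS k]
      ext v
      by_cases hv : v = u
      · subst hv; simp
      · simp [update_of_ne hv, hv]
    have e3 : ∀ k', k' ≠ k → (univ.filter fun v => k' ∈ update f u (univ.erase k) v) = S := by
      intro k' hk'
      ext v
      by_cases hv : v = u
      · subst hv; simp [hk', huS]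
      · rw [← hfS k']; simp [update_of_ne hv]
    rw [hpp, e1, pp_single]
    unfold pf
    rw [← mul_prod_erase univ _ (mem_univ k), ← mul_prod_erase univ _ (mem_univ k), e2]
    rw [prod_congr rfl fun k' hk' => by rw [e3 k' (mem_erase.mp hk').1]]
    rw [mul_div_mul_right]
    exact prod_ne_zero_iff.mpr fun k _ => hdet k
  rw [sum_div, Complex.re_sum]
  have hb : ∀ k, (pp sg Y (update φ u {univ.erase k}) (fun v => (x v : ℂ)) /
      pp sg Y φ (fun v => (x v : ℂ))).re ≤ 1 / (x u - 1 / (a - 1)) := by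
    intro k
    rw [hk k]
    refine (Complex.re_le_norm _).trans ?_
    have := base_ratio hc hd (hs k) ha S hz huS
    rwa [Complex.norm_real, Real.norm_eq_abs, abs_of_nonneg (by linarith)] at this
  refine (sum_le_sum fun k _ => hb k).trans (le_of_eq ?_)
  rw [sum_const, card_univ, nsmul_eq_mul]
  ring

theorem step [Nonempty K] (hs : Sgn sg) (hY : Y.IsHermitian) {a b : ℝ} (ha : 2 ≤ a)
    (hb : 1 / (a - 1) + 2 * a / Fintype.card K ≤ b) {U : Finset V} {v : V} (hv : v ∉ U)
    (ih : ∀ (φ : V → Finset (Finset K)) (x : V → ℝ), Hyp K a b U φ x → Con sg Y a U φ x)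
    {x : V → ℝ} (h : Hyp K a b (insert v U) φ x) : Con sg Y a (insert v U) φ x := by
  have hN : 0 < Fintype.card K := Fintype.card_pos
  have hNr : (0 : ℝ) < Fintype.card K := by exact_mod_cast hN
  have hNc : (Fintype.card K : ℂ) ≠ 0 := by exact_mod_cast hN.ne'
  have ha0 : 0 < a := by linarith
  have hc0 : 1 / (a - 1) < a := by
    have : 1 / (a - 1) ≤ 1 := by
      rw [div_le_one (by linarith)]; linarith
    linarith
  obtain ⟨hφv, hxv⟩ := (h v).1 (mem_insert_self v U)
  set z : V → ℂ := fun w => (x w : ℂ) with hzdef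
  have hD := (ih _ _ (h.del hv)).1
  have hfull : ∀ t : ℝ, a ≤ |t| → Con sg Y a U (update φ v {univ}) (update x v t) :=
    fun t ht => ih _ _ (h.full hv ht)
  obtain ⟨q, hq1, hq2, hq3, hq4, hq5⟩ := pp_poly (sg := sg) (Y := Y) (φ := φ) (z := z) v univ
  rw [card_univ] at hq2 hq3 hq4
  have hq4' := hq4 univ_nonempty
  have hqD : q.coeff (Fintype.card K) ≠ 0 := by rw [hq3]; exact hD
  have hrr : ∀ ζ : ℂ, ζ.im ≠ 0 → q.eval ζ ≠ 0 := fun ζ hζ => by
    rw [← hq1]
    exact real_rooted hs hY h.adm (fun w => Complex.ofReal_im _) v univ hD ζ hζ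
  obtain ⟨μ, hμ1, hμ2, hμ3⟩ := complex_roots q hq2 hqD
  have hroot : ∀ j, q.eval (μ j) = 0 := fun j => by
    rw [hμ1, prod_eq_zero (mem_univ j) (sub_self _), mul_zero]
  have hμim : ∀ j, (μ j).im = 0 := fun j => by
    by_contra hj
    exact hrr _ hj (hroot j)
  obtain ⟨τ, rfl⟩ : ∃ τ : Fin (Fintype.card K) → ℝ, μ = fun j => (τ j : ℂ) :=
    ⟨fun j => (μ j).re, funext fun j => Complex.ext (by simp) (by simp [hμim j])⟩
  have hτ : ∀ j, |τ j| < a := fun j => by
    by_contra hj
    have := (hfull (τ j) (not_lt.mp hj)).1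
    rw [ofReal_update, hq1] at this
    exact this (hroot j)
  have haτ : ∀ j, (a : ℂ) ≠ (τ j : ℂ) := fun j e => by
    have := Complex.ofReal_injective e
    linarith [(abs_lt.mp (hτ j)).2]
  have hconA := hfull a (le_abs_self a)
  -- the mean of the roots
  have hsum : ∑ j, τ j ≤ Fintype.card K * (1 / (a - 1)) := by
    refine amhm hN τ (fun j => (abs_lt.mp (hτ j)).2) hc0 ?_
    have h1 := hconA.2 v hv (update_self ..) (by rw [update_self])
    simp only [update_idem, ofReal_update, update_self] at h1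
    rw [← hq5, hq1, hμ2 a haτ, Complex.re_sum] at h1
    refine le_trans (le_of_eq (sum_congr rfl fun j _ => ?_)) h1
    rw [← Complex.ofReal_sub, ← Complex.ofReal_one, ← Complex.ofReal_div, Complex.ofReal_re]
  set lam : ℝ := (∑ j, τ j) / Fintype.card K with hlam
  have hlam1 : lam ≤ 1 / (a - 1) := by
    rw [hlam, div_le_iff₀ hNr]; linarith
  have hgap : 2 * a / Fintype.card K ≤ x v - lam := by linarith
  have hgap0 : 0 < x v - lam := lt_of_lt_of_le (by positivity) hgap
  have hgapc : (x v : ℂ) - (lam : ℂ) ≠ 0 := by exact_mod_cast hgap0.ne'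
  have hlamc : (lam : ℂ) = (Fintype.card K : ℂ)⁻¹ * ∑ j, (τ j : ℂ) := by
    rw [hlam]; push_cast; ring
  have hpp : pp sg Y φ z = q.coeff (Fintype.card K) * ((x v : ℂ) - (lam : ℂ)) := by
    rw [unc_eq φ z v hφv hq3 hq4', hμ3 hN, hlamc]
    simp only [hzdef]
    ring
  refine ⟨by rw [hpp]; exact mul_ne_zero hqD hgapc, fun u hu hφu hxu => ?_⟩
  have huv : u ≠ v := fun e => hu (e ▸ mem_insert_self v U)
  have huU : u ∉ U := fun e => hu (mem_insert_of_mem e)
  have hQ := fun k : K =>
    pp_poly (sg := sg) (Y := Y) (φ := update φ u {univ.erase k}) (z := z) v univ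
  choose Qk hQ1 hQ2 hQ3 hQ4 hQ5 using hQ
  simp only [card_univ] at hQ2 hQ3 hQ4
  set D := q.coeff (Fintype.card K) with hDdef
  set Q : ℂ[X] := C D⁻¹ * ∑ k, Qk k with hQdef
  have hQd : Q.natDegree ≤ Fintype.card K :=
    (natDegree_C_mul_le _ _).trans (natDegree_sum_le_of_forall_le _ _ fun k _ => hQ2 k)
  have hQev : ∀ ζ : ℂ, Q.eval ζ / ∏ j, (ζ - (τ j : ℂ))
      = (∑ k, pp sg Y (update (update φ v {univ}) u {univ.erase k}) (update z v ζ)) /
        pp sg Y (update φ v {univ}) (update z v ζ) := by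
    intro ζ
    rw [hq1, hμ1, hQdef, eval_mul, eval_C, eval_finset_sum]
    rw [sum_congr rfl fun k _ => (hQ1 k ζ).symm]
    simp only [update_comm huv]
    rw [div_mul_eq_div_div_swap, div_eq_mul_inv _ D]
    ring
  have hadm : ∀ w, Adm (update φ v {univ} w) := (h.full hv (le_abs_self a)).adm
  have hu' : update φ v {univ} u = {univ} := by rw [update_of_ne huv, hφu]
  have him : ∀ (ζ : ℂ) w, (update z v ζ w).im = if w = v then ζ.im else 0 := by
    intro ζ w
    by_cases hw : w = v
    · subst hw; simp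
    · simp [update_of_ne hw, hw, hzdef]
  obtain ⟨κ, hκ0, hcim, hrep, hco⟩ := herglotz_rep τ Q hQd
    (fun ζ hζ => by
      rw [hQev]
      refine (log_deriv_im hs hY hadm hu' (by rw [hq1]; exact hrr ζ hζ.ne')).1 fun w => ?_
      rw [him]; split_ifs <;> linarith)
    (fun ζ hζ => by
      rw [hQev]
      refine (log_deriv_im hs hY hadm hu' (by rw [hq1]; exact hrr ζ hζ.ne)).2 fun w => ?_
      rw [him]; split_ifs <;> linarith)
  have hA := hconA.2 u huU hu' (by rw [update_of_ne huv]; exact hxu)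
  rw [ofReal_update, update_of_ne huv, ← hQev, hrep a haτ] at hA
  refine le_trans ?_ hA
  have hnum : ∑ k, pp sg Y (update φ u {univ.erase k}) z
      = D * ((x v : ℂ) * Q.coeff (Fintype.card K)
        + (Fintype.card K : ℂ)⁻¹ * Q.coeff (Fintype.card K - 1)) := by
    rw [sum_congr rfl fun k _ => unc_eq (update φ u {univ.erase k}) z v
      (by rw [update_of_ne huv.symm, hφv]) (hQ3 k) (hQ4 k univ_nonempty)]
    rw [hQdef, coeff_C_mul, coeff_C_mul, finset_sum_coeff, finset_sum_coeff, sum_add_distrib,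
      ← mul_sum, ← mul_sum]
    simp only [hzdef]
    field_simp
  have hnew : (∑ k, pp sg Y (update φ u {univ.erase k}) z) / pp sg Y φ z
      = Q.coeff (Fintype.card K) + ((((∑ j, κ j) / Fintype.card K) / (x v - lam) : ℝ) : ℂ) := by
    rw [hnum, hpp, hco hN, mul_div_mul_left _ _ hqD]
    have e : ∑ j, (τ j : ℂ) = Fintype.card K * (lam : ℂ) := by rw [hlamc]; field_simp
    rw [e]
    push_cast
    field_simp
    ring
  rw [hnew, Complex.add_re, Complex.add_re, Complex.ofReal_re, Complex.re_sum]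
  refine add_le_add le_rfl ?_
  have hκs : 0 ≤ ∑ j, κ j := sum_nonneg fun j _ => hκ0 j
  have h1 : ((∑ j, κ j) / Fintype.card K) / (x v - lam) ≤ (∑ j, κ j) / (2 * a) := by
    rw [div_div]
    refine div_le_div_of_nonneg_left hκs (by positivity) ?_
    rw [div_le_iff₀ hNr] at hgap
    linarith
  refine h1.trans ?_
  rw [sum_div]
  refine sum_le_sum fun j _ => ?_
  rw [← Complex.ofReal_sub, ← Complex.ofReal_div, Complex.ofReal_re]
  have := abs_lt.mp (hτ j)
  exact div_le_div_of_nonneg_left (hκ0 j) (by linarith) (by linarith)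

theorem main [Nonempty K] (hs : Sgn sg) (hY : Y.IsHermitian) (hc : Contr Y) (hd : ∀ v, Y v v = 0)
    {a b : ℝ} (ha : 2 ≤ a) (hb : 1 / (a - 1) + 2 * a / Fintype.card K ≤ b) (U : Finset V) :
    ∀ (φ : V → Finset (Finset K)) (x : V → ℝ), Hyp K a b U φ x → Con sg Y a U φ x := by
  induction U using Finset.induction_on with
  | empty => exact fun φ x h => base hs hc hd ha h
  | insert v U hv ih => exact fun φ x h => step hs hY ha hb hv ih h

end InitB

theorem init_valid [Nonempty K] (hs : Sgn sg) (hY : Y.IsHermitian) (hc : Contr Y) (hd : ∀ v, Y v v = 0)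
    (hφ : ∀ v, φ v = {∅} ∨ φ v = uncF K) (x : V → ℝ)
    (hx : ∀ v, φ v ≠ {∅} → 5 / √(Fintype.card K : ℝ) ≤ x v) :
    pp sg Y φ (fun v => (x v : ℂ)) ≠ 0 := by
  have hN : (1 : ℝ) ≤ Fintype.card K := by exact_mod_cast Fintype.card_pos (α := K)
  set s : ℝ := √(Fintype.card K : ℝ) with hsdef
  have hs1 : 1 ≤ s := Real.one_le_sqrt.mpr hN
  have hss : (Fintype.card K : ℝ) = s * s := (Real.mul_self_sqrt (by linarith)).symm
  have hs0 : 0 < s := by linarith
  refine (InitB.main hs hY hc hd (a := s + 1) (b := 5 / s) (by linarith) ?_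
    (univ.filter fun v => φ v ≠ {∅}) φ x fun v => ⟨fun hv => ?_, fun hv => ?_⟩).1
  · rw [hss, add_sub_cancel_right]
    have e : 5 / s - (1 / s + 2 * (s + 1) / (s * s)) = 2 * (s - 1) / (s * s) := by
      field_simp
      ring
    have : 0 ≤ 2 * (s - 1) / (s * s) := div_nonneg (by linarith) (by positivity)
    linarith
  · have h1 := (mem_filter.mp hv).2
    exact ⟨(hφ v).resolve_left h1, hx v h1⟩
  · left
    by_contra h1
    exact hv (mem_filter.mpr ⟨mem_univ _, h1⟩)

end Crest.Agent.R109
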