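import Crest.Agent.R109.AHT
import Crest.Agent.R109.AH2
import Crest.Agent.R109.Ren

/-!
# Row 109, task R109-OneD

The one-vertex lemma.  PLAN.  `t₀ = log (SS m κb τ) ≥ m` (`SS_lower`).  `ψ s = exp (-t₀ s) cv τ m s =
∫₀ˢ exp (-α (s - y)) exp (-μ y) dy`, `α = t₀ - τ`, `μ = t₀ - m ≥ 0`.  High poles (`α ≤ 0`): `ψ` is monotone on
`[0,1]` (`ψ s = exp (-α s) ∫₀ˢ exp ((α - μ) y)`), `γ = ψ 1`, `∑_high κb γ ≤ 2` by `SS_lower`.  Low poles (`α > 0`):
`γ = 8 / ((1 + α) (1 + μ))`: `∫₀¹ exp (-α y) ≤ 2/(1 + α)`, `y exp (-α y) ≤ 2/(1 + α)` on `[0,1]`; `∫₀¹ ψ ≤` product of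
the two integrals (`tri_swap`), and `s ψ s = ∫ ((s - y) + y) …` is at most twice `4/((1+α)(1+μ))`.
`∑_low κb / (t₀ + 1 - τ) ≤ t₀ + 1 - m`, otherwise `SS_ge_low` for `κb` restricted to the low poles and `SS_mono`
give `exp (t₀ + 1) - exp t₀ ≤ exp t₀`.  Conclude with `SS_upper`.
-/

set_option autoImplicit false
set_option linter.unusedSectionVars false
set_option linter.unusedVariables false

namespace Crest.Agent.R109

open Matrix Finset

variable {J : Type*} [Fintype J] [DecidableEq J]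

namespace OneDA

/-- convolution of two decaying exponentials -/
noncomputable def P (α μ s : ℝ) : ℝ := ∫ y in (0 : ℝ)..s, Real.exp (-α * (s - y)) * Real.exp (-μ * y)

theorem psi_eq (τ m t₀ s : ℝ) : Real.exp (-t₀ * s) * cv τ m s = P (t₀ - τ) (t₀ - m) s := by
  unfold cv P
  rw [← intervalIntegral.integral_const_mul]
  refine intervalIntegral.integral_congr fun y _ => ?_
  simp only [← Real.exp_add]
  congr 1
  ring

theorem P_eq (α μ s : ℝ) :
    P α μ s = Real.exp (-α * s) * ∫ y in (0 : ℝ)..s, Real.exp ((α - μ) * y) := by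
  unfold P
  rw [← intervalIntegral.integral_const_mul]
  refine intervalIntegral.integral_congr fun y _ => ?_
  simp only [← Real.exp_add]
  congr 1
  ring

theorem P_deriv (α μ s : ℝ) : HasDerivAt (P α μ) (-α * P α μ s + Real.exp (-μ * s)) s := by
  have hc : Continuous fun y : ℝ => Real.exp ((α - μ) * y) := by fun_prop
  have h1 := (hc.integral_hasStrictDerivAt 0 s).hasDerivAt
  have h2 : HasDerivAt (fun s : ℝ => Real.exp (-α * s)) (Real.exp (-α * s) * -α) s := by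
    simpa using ((hasDerivAt_id s).const_mul (-α)).exp
  have h3 := h2.mul h1
  have e : P α μ = fun s => Real.exp (-α * s) * ∫ y in (0 : ℝ)..s, Real.exp ((α - μ) * y) :=
    funext (P_eq α μ)
  rw [P_eq, e]
  refine h3.congr_deriv ?_
  have : Real.exp (-μ * s) = Real.exp (-α * s) * Real.exp ((α - μ) * s) := by
    rw [← Real.exp_add]
    congr 1
    ring
  rw [this]
  ring

theorem P_cont (α μ : ℝ) : Continuous (P α μ) :=
  continuous_iff_continuousAt.2 fun s => (P_deriv α μ s).continuousAt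

theorem P_nonneg (α μ : ℝ) {s : ℝ} (hs : 0 ≤ s) : 0 ≤ P α μ s :=
  intervalIntegral.integral_nonneg hs fun y _ => by positivity

theorem P_zero (α μ : ℝ) : P α μ 0 = 0 := by simp [P]

theorem int_exp_le {α s : ℝ} (hα : 0 ≤ α) (hs : s ∈ Set.Icc (0 : ℝ) 1) :
    ∫ y in (0 : ℝ)..s, Real.exp (-α * y) ≤ 2 / (1 + α) := by
  rw [le_div_iff₀ (by linarith), ← intervalIntegral.integral_mul_const]
  have h1 : ∫ y in (0 : ℝ)..s, (1 + α * Real.exp (-α * y)) =
      (s - Real.exp (-α * s)) - (0 - Real.exp (-α * 0)) := by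
    refine intervalIntegral.integral_eq_sub_of_hasDerivAt
      (f := fun y => y - Real.exp (-α * y)) (fun y _ => ?_) (Continuous.intervalIntegrable (by fun_prop) _ _)
    have h2 : HasDerivAt (fun s : ℝ => Real.exp (-α * s)) (Real.exp (-α * y) * -α) y := by
      simpa using ((hasDerivAt_id y).const_mul (-α)).exp
    exact ((hasDerivAt_id y).sub h2).congr_deriv (by ring)
  have h2 : ∫ y in (0 : ℝ)..s, Real.exp (-α * y) * (1 + α) ≤
      ∫ y in (0 : ℝ)..s, (1 + α * Real.exp (-α * y)) := by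
    refine intervalIntegral.integral_mono_on hs.1 (Continuous.intervalIntegrable (by fun_prop) _ _)
      (Continuous.intervalIntegrable (by fun_prop) _ _) fun y hy => ?_
    have : Real.exp (-α * y) ≤ 1 := Real.exp_le_one_iff.2 (by nlinarith [hy.1])
    linarith
  rw [h1, mul_zero, Real.exp_zero] at h2
  linarith [Real.exp_pos (-α * s), hs.2]

theorem mul_exp_le {α y : ℝ} (hα : 0 ≤ α) (h0 : 0 ≤ y) (h1 : y ≤ 1) :
    y * Real.exp (-α * y) ≤ 2 / (1 + α) := by
  rw [le_div_iff₀ (by linarith)]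
  have h2 : Real.exp (-α * y) ≤ 1 := Real.exp_le_one_iff.2 (by nlinarith)
  have h3 : Real.exp (-α * y) * Real.exp (α * y) = 1 := by
    rw [← Real.exp_add]
    simp
  have h4 := Real.add_one_le_exp (α * y)
  have h5 := Real.exp_pos (-α * y)
  nlinarith

theorem P_le {α μ s : ℝ} (hα : 0 ≤ α) (hμ : 0 ≤ μ) (hs : s ∈ Set.Icc (0 : ℝ) 1) :
    P α μ s ≤ 2 / (1 + μ) := by
  refine le_trans ?_ (int_exp_le hμ hs)
  refine intervalIntegral.integral_mono_on hs.1 (Continuous.intervalIntegrable (by fun_prop) _ _)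
    (Continuous.intervalIntegrable (by fun_prop) _ _) fun y hy => ?_
  have : Real.exp (-α * (s - y)) ≤ 1 := Real.exp_le_one_iff.2 (by nlinarith [hy.2])
  nlinarith [Real.exp_pos (-μ * y)]

theorem int_P_le {α μ : ℝ} (hα : 0 ≤ α) (hμ : 0 ≤ μ) :
    ∫ s in (0 : ℝ)..1, P α μ s ≤ 8 / ((1 + α) * (1 + μ)) := by
  have hc := P_cont α μ
  have h1 : ∫ s in (0 : ℝ)..1, (-α * P α μ s + Real.exp (-μ * s)) = P α μ 1 - P α μ 0 :=
    intervalIntegral.integral_eq_sub_of_hasDerivAt (fun s _ => P_deriv α μ s)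
      (Continuous.intervalIntegrable (by fun_prop) _ _)
  rw [intervalIntegral.integral_add (Continuous.intervalIntegrable (by fun_prop) _ _)
    (Continuous.intervalIntegrable (by fun_prop) _ _), intervalIntegral.integral_const_mul,
    P_zero] at h1
  have h2 := int_exp_le hμ (s := 1) ⟨zero_le_one, le_rfl⟩
  have h3 := P_nonneg α μ zero_le_one
  have h4 : ∫ s in (0 : ℝ)..1, P α μ s ≤ ∫ _ in (0 : ℝ)..1, 2 / (1 + μ) :=
    intervalIntegral.integral_mono_on zero_le_one (hc.intervalIntegrable _ _)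
      (Continuous.intervalIntegrable (by fun_prop) _ _) fun s hs => P_le hα hμ hs
  rw [intervalIntegral.integral_const, sub_zero, one_smul] at h4
  have h5 : (8 : ℝ) / ((1 + α) * (1 + μ)) = 4 * (2 / (1 + μ)) / (1 + α) := by
    field_simp
    norm_num
  have h6 : (0 : ℝ) ≤ 2 / (1 + μ) := by positivity
  rw [h5, le_div_iff₀ (by linarith)]
  linarith

theorem mul_P_le {α μ s : ℝ} (hα : 0 ≤ α) (hμ : 0 ≤ μ) (hs : s ∈ Set.Icc (0 : ℝ) 1) :
    s * P α μ s ≤ 8 / ((1 + α) * (1 + μ)) := by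
  have h1 : s * P α μ s ≤ ∫ y in (0 : ℝ)..s,
      (2 / (1 + α) * Real.exp (-μ * y) + 2 / (1 + μ) * Real.exp (-α * (s - y))) := by
    unfold P
    rw [← intervalIntegral.integral_const_mul]
    refine intervalIntegral.integral_mono_on hs.1 (Continuous.intervalIntegrable (by fun_prop) _ _)
      (Continuous.intervalIntegrable (by fun_prop) _ _) fun y hy => ?_
    have a1 := mul_exp_le hα (y := s - y) (by linarith [hy.2]) (by linarith [hy.1, hs.2])
    have a2 := mul_exp_le hμ hy.1 (hy.2.trans hs.2)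
    have a3 := mul_le_mul_of_nonneg_right a1 (Real.exp_pos (-μ * y)).le
    have a4 := mul_le_mul_of_nonneg_right a2 (Real.exp_pos (-α * (s - y))).le
    linarith
  rw [intervalIntegral.integral_add (Continuous.intervalIntegrable (by fun_prop) _ _)
    (Continuous.intervalIntegrable (by fun_prop) _ _), intervalIntegral.integral_const_mul,
    intervalIntegral.integral_const_mul,
    intervalIntegral.integral_comp_sub_left (fun y => Real.exp (-α * y)) s, sub_self, sub_zero] at h1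
  have a1 := mul_le_mul_of_nonneg_left (int_exp_le hμ hs) (show (0 : ℝ) ≤ 2 / (1 + α) by positivity)
  have a2 := mul_le_mul_of_nonneg_left (int_exp_le hα hs) (show (0 : ℝ) ≤ 2 / (1 + μ) by positivity)
  have h5 : (8 : ℝ) / ((1 + α) * (1 + μ)) =
      2 / (1 + α) * (2 / (1 + μ)) + 2 / (1 + μ) * (2 / (1 + α)) := by
    field_simp
    norm_num
  linarith

theorem P_le_one {α μ s : ℝ} (hα : α ≤ 0) (hs : s ∈ Set.Icc (0 : ℝ) 1) : P α μ s ≤ P α μ 1 := by
  have hc := P_cont α μ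
  have h1 : ∫ s in s..1, (-α * P α μ s + Real.exp (-μ * s)) = P α μ 1 - P α μ s :=
    intervalIntegral.integral_eq_sub_of_hasDerivAt (fun s _ => P_deriv α μ s)
      (Continuous.intervalIntegrable (by fun_prop) _ _)
  have h2 : 0 ≤ ∫ s in s..1, (-α * P α μ s + Real.exp (-μ * s)) :=
    intervalIntegral.integral_nonneg hs.2 fun y hy =>
      add_nonneg (mul_nonneg (by linarith) (P_nonneg α μ (hs.1.trans hy.1))) (Real.exp_pos _).le
  linarith

theorem cv_nonneg (τ m : ℝ) {s : ℝ} (hs : 0 ≤ s) : 0 ≤ cv τ m s :=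
  intervalIntegral.integral_nonneg hs fun y _ => by positivity

end OneDA

open OneDA

theorem cv_low {τ m t₀ : ℝ} (hτ : τ ≤ t₀) (hm : m ≤ t₀) :
    (∫ s in (0 : ℝ)..1, Real.exp (-t₀ * s) * cv τ m s ≤ 8 / ((1 + t₀ - τ) * (1 + t₀ - m))) ∧
      ∀ s ∈ Set.Icc (0 : ℝ) 1,
        s * (Real.exp (-t₀ * s) * cv τ m s) ≤ 8 / ((1 + t₀ - τ) * (1 + t₀ - m)) := by
  simp only [psi_eq, add_sub_assoc]
  exact ⟨int_P_le (sub_nonneg.2 hτ) (sub_nonneg.2 hm),
    fun s hs => mul_P_le (sub_nonneg.2 hτ) (sub_nonneg.2 hm) hs⟩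

theorem cv_high {τ m t₀ : ℝ} (hτ : t₀ ≤ τ) :
    (∫ s in (0 : ℝ)..1, Real.exp (-t₀ * s) * cv τ m s ≤ Real.exp (-t₀) * cv τ m 1) ∧
      ∀ s ∈ Set.Icc (0 : ℝ) 1, s * (Real.exp (-t₀ * s) * cv τ m s) ≤ Real.exp (-t₀) * cv τ m 1 := by
  have e : Real.exp (-t₀) * cv τ m 1 = P (t₀ - τ) (t₀ - m) 1 := by
    rw [← psi_eq, mul_one]
  simp only [psi_eq, e]
  have hα : t₀ - τ ≤ 0 := sub_nonpos.2 hτ
  refine ⟨?_, fun s hs => ?_⟩
  · have h4 : ∫ s in (0 : ℝ)..1, P (t₀ - τ) (t₀ - m) s ≤ ∫ _ in (0 : ℝ)..1, P (t₀ - τ) (t₀ - m) 1 :=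
      intervalIntegral.integral_mono_on zero_le_one ((P_cont _ _).intervalIntegrable _ _)
        (Continuous.intervalIntegrable (by fun_prop) _ _) fun s hs => P_le_one hα hs
    rwa [intervalIntegral.integral_const, sub_zero, one_smul] at h4
  · have h1 := P_le_one (μ := t₀ - m) hα hs
    have h2 := P_nonneg (t₀ - τ) (t₀ - m) hs.1
    nlinarith [hs.2]

theorem oneD (m : ℝ) {κb : J → ℝ} (hκ : ∀ j, 0 ≤ κb j) (τ : J → ℝ) :
    ∃ γ : J → ℝ, (∀ j, 0 ≤ γ j) ∧ ∑ j, κb j * γ j ≤ 10 ∧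
      ∀ κ : J → ℝ, (∀ j, 0 ≤ κ j) → ∑ j, κ j * γ j ≤ 1 / 8 → SS m κ τ ≤ Real.exp m + SS m κb τ := by
  have hlow := SS_lower m hκ τ
  have hsum : 0 ≤ ∑ j, κb j * cv (τ j) m 1 :=
    Finset.sum_nonneg fun j _ => mul_nonneg (hκ j) (cv_nonneg _ _ zero_le_one)
  have hS : 0 < SS m κb τ := by linarith [Real.exp_pos m]
  obtain ⟨t₀, ht₀⟩ : ∃ t₀, Real.exp t₀ = SS m κb τ := ⟨_, Real.exp_log hS⟩
  have hm : m ≤ t₀ := Real.exp_le_exp.1 (by linarith)
  have hm1 : 0 < 1 + t₀ - m := by linarith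
  refine ⟨fun j => if τ j ≤ t₀ then 8 / ((1 + t₀ - τ j) * (1 + t₀ - m))
    else Real.exp (-t₀) * cv (τ j) m 1, fun j => ?_, ?_, fun κ hκ' h => ?_⟩
  · beta_reduce
    split_ifs with h
    · exact div_nonneg (by norm_num) (mul_nonneg (by linarith) hm1.le)
    · exact mul_nonneg (Real.exp_pos _).le (cv_nonneg _ _ zero_le_one)
  · set κl : J → ℝ := fun j => if τ j ≤ t₀ then κb j else 0 with hκl
    have hl0 : ∀ j, 0 ≤ κl j := fun j => by
      simp only [hκl]
      split_ifs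
      exacts [hκ j, le_rfl]
    have hl1 : ∀ j, κl j ≤ κb j := fun j => by
      simp only [hκl]
      split_ifs
      exacts [le_rfl, hκ j]
    have h1 : ∑ j, κl j / (t₀ + 1 - τ j) ≤ t₀ + 1 - m := by
      by_contra hc
      have h2 := SS_ge_low m hl0 τ (t₀ := t₀) (t₁ := t₀ + 1) (by linarith) (fun j hj => by
        by_contra hj'
        exact hj (if_neg hj')) (not_le.1 hc)
      have h3 := SS_mono m hl1 τ
      have h4 := Real.exp_one_gt_two
      have h5 := Real.exp_pos t₀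
      rw [Real.exp_add] at h2
      nlinarith
    have h2 : ∀ j, κb j * (if τ j ≤ t₀ then 8 / ((1 + t₀ - τ j) * (1 + t₀ - m))
        else Real.exp (-t₀) * cv (τ j) m 1) ≤
        8 / (1 + t₀ - m) * (κl j / (t₀ + 1 - τ j)) + Real.exp (-t₀) * (κb j * cv (τ j) m 1) := by
      intro j
      simp only [hκl]
      split_ifs with h
      · have h3 : 0 < 1 + t₀ - τ j := by linarith
        have h4 : κb j * (8 / ((1 + t₀ - τ j) * (1 + t₀ - m))) =
            8 / (1 + t₀ - m) * (κb j / (t₀ + 1 - τ j)) := by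
          rw [add_comm t₀ 1]
          field_simp
        rw [h4]
        exact le_add_of_nonneg_right
          (mul_nonneg (Real.exp_pos _).le (mul_nonneg (hκ j) (cv_nonneg _ _ zero_le_one)))
      · rw [zero_div, mul_zero, zero_add, mul_left_comm]
    refine (Finset.sum_le_sum fun j _ => h2 j).trans ?_
    rw [Finset.sum_add_distrib, ← Finset.mul_sum, ← Finset.mul_sum]
    have h3 : 8 / (1 + t₀ - m) * ∑ j, κl j / (t₀ + 1 - τ j) ≤ 8 := by
      rw [div_mul_eq_mul_div, div_le_iff₀ hm1]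
      linarith
    have h4 : Real.exp (-t₀) * ∑ j, κb j * cv (τ j) m 1 ≤ 2 := by
      rw [Real.exp_neg, inv_mul_le_iff₀ (Real.exp_pos _)]
      linarith [Real.exp_pos m]
    linarith
  · rw [← ht₀]
    refine SS_upper m hκ' τ t₀ _ (fun j => ?_) (fun j => ?_) h
    · split_ifs with hj
      · exact (cv_low hj hm).1
      · exact (cv_high (not_le.1 hj).le).1
    · split_ifs with hj
      · exact (cv_low hj hm).2
      · exact (cv_high (not_le.1 hj).le).2

end Crest.Agent.R109
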