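import Crest.Agent.R109.PRep
import Crest.Agent.R109.AH1
import Crest.Agent.R109.OneD
import Crest.Agent.R109.Init

/-!
# Row 109, task R109-Steps

The three moves.  PLAN.  `Pot_vertex`: by `vertex_rep`, `pp_update_avg`, for `t ∉ τ`:
`pS (update σ v s) t = c ∏ (t - τ) (slope (b + β (t - ℓ v)) - ∑ kav/(t - τ)) = c slope β ∏ (t - aev i)` (`aev_prod`); both
sides are continuous (polynomial) in `t`, so the identity holds everywhere (finite complement is dense);
`Pot_roots` twice.  `step_init`: a root `t ≥ ℓ v` contradicts `init_valid` (`4/√r ≥ 5/√(2r)`); `SS_le_top`.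
`step_col`: `oneD` with `κb = kav unc / β`; `∑_c kav (col c) = r kav unc`; Markov with threshold `20`.
`step_fin`: `kav (one c s) ≤ 2 kav (col c)`, `SS_mono`.
-/

set_option autoImplicit false
set_option linter.unusedSectionVars false
set_option linter.unusedVariables false

namespace Crest.Agent.R109

open Matrix Finset Function
open scoped ComplexConjugate Real

variable {V : Type*} [Fintype V] [DecidableEq V] {r : ℕ} {β : ℝ} {σ : V → Stt r} {Y : Matrix V V ℂ}
  {ℓ : V → ℝ}

namespace StepsA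

theorem fam_update (v : V) (s : Stt r) :
    (fun w => fam (update σ v s w)) = update (fun w => fam (σ w)) v (fam s) := by
  funext w
  by_cases h : w = v
  · subst h; simp
  · simp [update_of_ne h]

theorem hts_update (v : V) (s : Stt r) (t : ℂ) :
    hts β (update σ v s) ℓ t =
      update (hts β σ ℓ t) v ((slope s : ℂ) * ((bar r : ℂ) + (β : ℂ) * (t - (ℓ v : ℂ)))) := by
  funext w
  by_cases h : w = v
  · subst h; simp [hts]
  · simp [hts, update_of_ne h]

theorem kav_nonneg {J : Type*} (s : Stt r) {κ : Fin r × Bool → J → ℝ} (hκ : ∀ k j, 0 ≤ κ k j) (j : J) :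
    0 ≤ kav s κ j :=
  mul_nonneg (by positivity) (sum_nonneg fun _ _ => sum_nonneg fun _ _ => hκ _ _)

theorem kav_unc {J : Type*} (κ : Fin r × Bool → J → ℝ) (j : J) :
    kav (.unc : Stt r) κ j = ((r : ℝ) * 2)⁻¹ * ∑ c : Fin r, (κ (c, true) j + κ (c, false) j) := by
  rw [kav, fam, card_uncF, sum_uncF (fun S => ∑ k ∈ S, κ k j), Fintype.sum_prod_type]
  simp

theorem kav_col {J : Type*} (c : Fin r) (κ : Fin r × Bool → J → ℝ) (j : J) :
    kav (.col c : Stt r) κ j = (κ (c, true) j + κ (c, false) j) / 2 := by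
  have h : ({(c, true)} : Finset (Fin r × Bool)) ≠ {(c, false)} := by simp
  rw [kav, fam, card_pair h, sum_pair h]
  simp; ring

theorem kav_one {J : Type*} (c : Fin r) (s : Bool) (κ : Fin r × Bool → J → ℝ) (j : J) :
    kav (.one c s : Stt r) κ j = κ (c, s) j := by
  simp [kav, fam]

theorem pS_continuous : Continuous (pS β σ Y ℓ) := by
  unfold pS
  refine pp_continuous (Yt := fun _ => Y) (fun _ _ => continuous_const) fun v => ?_
  unfold hts
  fun_prop

theorem bar_nonneg : 0 ≤ bar r := by unfold bar; positivity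

theorem sgn_sgn : Sgn (sgn (r := r)) := by
  rintro ⟨c, s⟩
  cases s <;> simp [sgn, bsg]

end StepsA

open StepsA

theorem Pot_vertex (hr : 0 < r) (hβ : 0 < β) (hY : Y.IsHermitian) (v : V) :
    ∃ (n : ℕ) (τ : Fin n → ℝ) (κ : Fin r × Bool → Fin n → ℝ), (∀ k j, 0 ≤ κ k j) ∧
      ∀ s : Stt r, s ≠ .del →
        Pot β (update σ v s) Y ℓ = Pot β (update σ v .del) Y ℓ +
          SS (ℓ v - bar r / β) (fun j => kav s κ j / (slope s * β)) τ ∧
        ∀ i, pS β (update σ v s) Y ℓ
          (aev (ℓ v - bar r / β) (fun j => kav s κ j / (slope s * β)) τ i) = 0 := by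
  obtain ⟨n, τ, c, κ, hc, hκ, hdel, hk⟩ := vertex_rep (σ := σ) (ℓ := ℓ) hr hβ hY v
  refine ⟨n, τ, κ, hκ, fun s hs => ?_⟩
  have hsl : 0 < slope s := by linarith [(one_le_slope s).1]
  have hsb : 0 < slope s * β := mul_pos hsl hβ
  have hsing : Sing (fam s) := by
    rcases fam_del_or_sing hr s with h | h
    · exact absurd h.1 hs
    · exact h.2.2
  have hκ' : ∀ j, 0 ≤ kav s κ j / (slope s * β) := fun j => div_nonneg (kav_nonneg s hκ j) hsb.le
  have hcard : ((fam s).card : ℂ) ≠ 0 := by exact_mod_cast hsing.1.card_pos.ne'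
  have key : ∀ t, pS β (update σ v s) Y ℓ t = c * ((slope s * β : ℝ) : ℂ) *
      ∏ i, (t - (aev (ℓ v - bar r / β) (fun j => kav s κ j / (slope s * β)) τ i : ℂ)) := by
    have hd : Dense (Set.range fun j => (τ j : ℂ))ᶜ := (Set.finite_range _).countable.dense_compl ℂ
    have := Continuous.ext_on hd (pS_continuous (β := β) (σ := update σ v s) (Y := Y) (ℓ := ℓ))
      (g := fun t => c * ((slope s * β : ℝ) : ℂ) *
        ∏ i, (t - (aev (ℓ v - bar r / β) (fun j => kav s κ j / (slope s * β)) τ i : ℂ)))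
      (by fun_prop) (fun t ht => ?_)
    · exact fun t => congrFun this t
    have ht' : ∀ j, t ≠ (τ j : ℂ) := fun j h => ht ⟨j, h.symm⟩
    have h1 : ∀ S ∈ fam s, ∀ ζ : ℂ,
        pp sgn Y (update (fun w => fam (σ w)) v {S}) (update (hts β σ ℓ t) v ζ) =
          (c * ∏ j, (t - (τ j : ℂ))) * (ζ - ∑ j, ((∑ k ∈ S, κ k j : ℝ) : ℂ) / (t - (τ j : ℂ))) := by
      intro S hS ζ
      obtain ⟨k, rfl⟩ := card_eq_one.1 (hsing.2 S hS)
      simp only [sum_singleton]
      exact hk k ζ t ht'
    have h2 : ∑ j, ((kav s κ j / (slope s * β) : ℝ) : ℂ) / (t - (τ j : ℂ)) =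
        (((slope s * β : ℝ) : ℂ))⁻¹ * (((fam s).card : ℂ)⁻¹ *
          ∑ S ∈ fam s, ∑ j, ((∑ k ∈ S, κ k j : ℝ) : ℂ) / (t - (τ j : ℂ))) := by
      rw [sum_comm, mul_sum, mul_sum]
      refine sum_congr rfl fun j _ => ?_
      rw [← sum_div, kav]
      push_cast
      ring
    change pS β (update σ v s) Y ℓ t = _
    dsimp only
    rw [aev_prod _ hκ' τ t ht', h2, pS, fam_update, hts_update, pp_update_avg,
      sum_congr rfl fun S hS => h1 S hS _, ← mul_sum, sum_sub_distrib, sum_const, nsmul_eq_mul]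
    have hs0 : (slope s : ℂ) ≠ 0 := by exact_mod_cast hsl.ne'
    have hβ0 : (β : ℂ) ≠ 0 := by exact_mod_cast hβ.ne'
    push_cast
    field_simp
    ring
  have hc' : c * ((slope s * β : ℝ) : ℂ) ≠ 0 := mul_ne_zero hc (by exact_mod_cast hsb.ne')
  refine ⟨?_, fun i => ?_⟩
  · rw [Pot_roots hr hβ _ hc' key, Pot_roots hr hβ _ hc hdel, SS]; ring
  · rw [key, prod_eq_zero (mem_univ i) (sub_self _), mul_zero]

theorem step_init (hr : 0 < r) (hβ : 0 < β) (hY : Y.IsHermitian) (hc : Contr Y) (hd : ∀ v, Y v v = 0)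
    (hσ : ∀ w, σ w = .del ∨ σ w = .unc) (v : V) (hℓ : ∀ w, σ w ≠ .del → ℓ w ≤ ℓ v) :
    Pot β (update σ v .unc) Y ℓ ≤ Pot β (update σ v .del) Y ℓ + Real.exp (ℓ v) := by
  obtain ⟨n, τ, κ, hκ, h⟩ := Pot_vertex (σ := σ) (ℓ := ℓ) hr hβ hY v
  obtain ⟨h1, h2⟩ := h .unc (by simp)
  rw [h1]
  refine add_le_add_right (SS_le_top _ _ _ fun i => ?_) _
  by_contra hlt
  push Not at hlt
  have h3 := h2 i
  generalize aev (ℓ v - bar r / β) (fun j => kav Stt.unc κ j / (slope (Stt.unc : Stt r) * β)) τ i = t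
    at hlt h3
  haveI : Nonempty (Fin r × Bool) := ⟨(⟨0, hr⟩, true)⟩
  have hσ' : ∀ w, update σ v .unc w = .del ∨ (update σ v .unc w = .unc ∧ ℓ w ≤ ℓ v) := by
    intro w
    by_cases hw : w = v
    · subst hw; simp
    · rw [update_of_ne hw]
      rcases hσ w with h | h
      · exact Or.inl h
      · exact Or.inr ⟨h, hℓ w (by simp [h])⟩
  refine init_valid (sg := sgn) (φ := fun w => fam (update σ v .unc w)) sgn_sgn hY hc hd (fun w => ?_)
    (fun w => slope (update σ v .unc w) * (bar r + β * (t - ℓ w))) (fun w hw => ?_) ?_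
  · rcases hσ' w with h | h
    · left; rw [h]; rfl
    · right; rw [h.1]; rfl
  · rcases hσ' w with h | h
    · exact absurd (by rw [h]; rfl) hw
    · rw [h.1]
      have hr' : (0 : ℝ) < r := by exact_mod_cast hr
      have h4 : 5 / √(Fintype.card (Fin r × Bool) : ℝ) ≤ bar r := by
        rw [bar, div_le_div_iff₀ (by simp; positivity) (by positivity)]
        have h5 : (Fintype.card (Fin r × Bool) : ℝ) = r * 2 := by simp
        rw [h5]
        have h6 := Real.sq_sqrt hr'.le
        have h7 := Real.sq_sqrt (show (0 : ℝ) ≤ r * 2 by positivity)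
        have h8 := Real.sqrt_nonneg (r : ℝ)
        have h9 := Real.sqrt_nonneg ((r : ℝ) * 2)
        by_contra hcon
        push Not at hcon
        nlinarith
      have h5 : 0 ≤ β * (t - ℓ w) := mul_nonneg hβ.le (by linarith [h.2])
      simp only [slope]
      linarith
  · rw [← h3, pS]
    congr 1
    funext w
    simp [hts]

open Classical in
theorem step_col (hr : 0 < r) (hβ : 0 < β) (hY : Y.IsHermitian) (v : V) :
    r ≤ 2 * (univ.filter fun c : Fin r =>
      Pot β (update σ v (.col c)) Y ℓ ≤ Pot β (update σ v .unc) Y ℓ + Real.exp (ℓ v)).card := by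
  obtain ⟨n, τ, κ, hκ, h⟩ := Pot_vertex (σ := σ) (ℓ := ℓ) hr hβ hY v
  have hr' : (0 : ℝ) < r := by exact_mod_cast hr
  obtain ⟨γ, hγ, h10, hone⟩ := oneD (ℓ v - bar r / β)
    (κb := fun j => kav (.unc : Stt r) κ j / (slope (.unc : Stt r) * β))
    (fun j => div_nonneg (kav_nonneg _ hκ j) (by simp only [slope]; positivity)) τ
  set a : Fin r → ℝ := fun c => ∑ j, kav (.col c : Stt r) κ j / (slope (.col c : Stt r) * β) * γ j
    with ha
  have hnn : ∀ c j, 0 ≤ kav (.col c : Stt r) κ j / (slope (.col c : Stt r) * β) :=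
    fun c j => div_nonneg (kav_nonneg _ hκ j) (by simp only [slope]; positivity)
  have ha0 : ∀ c, 0 ≤ a c := fun c => sum_nonneg fun j _ => mul_nonneg (hnn c j) (hγ j)
  have hsum : ∑ c, a c ≤ r / 16 := by
    have h1 : ∑ c, a c =
        r / 160 * ∑ j, kav (.unc : Stt r) κ j / (slope (.unc : Stt r) * β) * γ j := by
      simp only [ha]
      rw [sum_comm, mul_sum]
      refine sum_congr rfl fun j _ => ?_
      simp only [kav_col, kav_unc, slope]
      rw [← sum_mul, ← sum_div, ← sum_div]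
      field_simp
    rw [h1]
    nlinarith
  have hgood : ∀ c, a c ≤ 1 / 8 →
      Pot β (update σ v (.col c)) Y ℓ ≤ Pot β (update σ v .unc) Y ℓ + Real.exp (ℓ v) := by
    intro c hc
    rw [(h (.col c) (by simp)).1, (h .unc (by simp)).1]
    have h1 := hone _ (hnn c) hc
    have h2 : Real.exp (ℓ v - bar r / β) ≤ Real.exp (ℓ v) :=
      Real.exp_le_exp.2 (sub_le_self _ (div_nonneg bar_nonneg hβ.le))
    linarith
  set P : Fin r → Prop := fun c =>
    Pot β (update σ v (.col c)) Y ℓ ≤ Pot β (update σ v .unc) Y ℓ + Real.exp (ℓ v) with hP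
  have h1 : ((univ.filter fun c => ¬ P c).card : ℝ) * (1 / 8) ≤ ∑ c, a c := by
    have h2 : ∑ c ∈ univ.filter (fun c => ¬ P c), (1 / 8 : ℝ) ≤
        ∑ c ∈ univ.filter (fun c => ¬ P c), a c :=
      sum_le_sum fun c hc => by
        by_contra hlt
        push Not at hlt
        exact (mem_filter.1 hc).2 (hgood c hlt.le)
    rw [sum_const, nsmul_eq_mul] at h2
    exact h2.trans (sum_le_sum_of_subset_of_nonneg (filter_subset _ _) fun c _ _ => ha0 c)
  have h2 := card_filter_add_card_filter_not (s := (univ : Finset (Fin r))) P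
  rw [card_univ, Fintype.card_fin] at h2
  have h3 : ((univ.filter P).card : ℝ) + ((univ.filter fun c => ¬ P c).card : ℝ) = r := by
    exact_mod_cast h2
  have h4 : (r : ℝ) ≤ 2 * ((univ.filter P).card : ℝ) := by linarith
  exact_mod_cast h4

theorem step_fin (hr : 0 < r) (hβ : 0 < β) (hY : Y.IsHermitian) (v : V) (c : Fin r) (s : Bool) :
    Pot β (update σ v (.one c s)) Y ℓ ≤ Pot β (update σ v (.col c)) Y ℓ := by
  obtain ⟨n, τ, κ, hκ, h⟩ := Pot_vertex (σ := σ) (ℓ := ℓ) hr hβ hY v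
  rw [(h (.one c s) (by simp)).1, (h (.col c) (by simp)).1]
  refine add_le_add_right (SS_mono _ (fun j => ?_) τ) _
  simp only [kav_one, kav_col, slope]
  rw [div_le_div_iff₀ (by positivity) (by positivity)]
  have h1 := mul_nonneg (hκ (c, true) j) hβ.le
  have h2 := mul_nonneg (hκ (c, false) j) hβ.le
  cases s <;> nlinarith

end Crest.Agent.R109
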