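import Crest.Agent.R109.Trans
import Crest.Agent.R109.Steps

/-!
# Row 109, task R109-Cst

Construction of the colouring.  PLAN.  Induction on `n ≤ J`: there are `col`, `dep` (locally constant
everywhere) such that for `cl χ < n`: `card (dep χ) ≤ 2 ^ cl χ`, all `e ∈ dep χ` are cells of points of class `≤ cl χ`,
`junta`, `inj` and the step inequality hold.  Step `n → n + 1`: keep the old values where `cl χ ≠ n`.  For any `χ` let
`s l χ k = if d χ k ≤ R then (if k < n then .col (col l (pt χ k)) else .unc) else .del` (locally constant),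
`F l c χ = Pot (update (s l χ) n .unc) + 2 - Pot (update (s l χ) n (.col c))` (continuous, `Pu_cont_lc`),
`G l χ = {c | χ ∈ closure {0 < F l c}}` (locally constant by `ed`), `r / 2 ≤ card (G l χ)` when `cl χ = n` (`step_col`,
`ℓ_self`); new colour `(G l χ).orderEmbOfCardLe _ (l (cell χ))`; new `dep χ = insert (cell χ) (⋃_{k < n present} dep (pt χ k))`,
`1 + ∑_{k<n} 2^k = 2^n`.  If `l, l'` agree on `⋃ dep (pt χ k)` then `s l = s l'` near `χ`, so `G l χ = G l' χ`; `cell χ` is not in this
union (`hcell`, `cl_pt`).  `F ≥ 0` on the closure.  `hyb χ (cl χ) true = update (s l χ) n (.col _)` etc. by `d_self`, `pt_self`.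
-/

set_option autoImplicit false
set_option linter.unusedSectionVars false
set_option linter.unusedVariables false

namespace Crest.Agent.R109

open scoped ComplexConjugate
open MeasureTheory Finset Function

universe u

variable {X : Type u} [TopologicalSpace X] [CompactSpace X] [MeasurableSpace X] [BorelSpace X]
  {μ : Measure X} [IsProbabilityMeasure μ] {J R : ℕ} {K₀ Λ : ℝ} {D r : ℕ}

namespace CstA

open Filter Topology

theorem lc_pi {K Z : Type*} [Finite K] {f : X → K → Z} (h : ∀ k, IsLocallyConstant fun χ => f χ k) :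
    IsLocallyConstant f := by
  rw [IsLocallyConstant.iff_eventually_eq]
  intro x
  have := eventually_all.mpr fun k => (h k).eventually_eq x
  exact this.mono fun y hy => funext hy

theorem lc_mem {S : Set X} (h : IsClopen S) : IsLocallyConstant fun χ => χ ∈ S := by
  rw [IsLocallyConstant.iff_eventually_eq]
  intro x
  by_cases hx : x ∈ S
  · filter_upwards [h.isOpen.mem_nhds hx] with y hy
    exact propext ⟨fun _ => hx, fun _ => hy⟩
  · filter_upwards [h.isClosed.isOpen_compl.mem_nhds hx] with y hy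
    exact propext ⟨fun h => absurd h hy, fun h => absurd h hx⟩

theorem geom (n : ℕ) : ∑ i ∈ range n, 2 ^ i + 1 = 2 ^ n := by
  induction n with
  | zero => simp
  | succ n ih => rw [sum_range_succ, pow_succ]; omega

/-- states seen from `χ` before the move of the class `z` -/
def st (am : AM X μ J R K₀ Λ D) (c : X → Fin r) (z : Fin J) (χ : X) : Fin J → Stt r :=
  fun k => if am.d χ k ≤ R then (if k < z then .col (c (am.pt χ k)) else .unc) else .del

theorem st_lc (am : AM X μ J R K₀ Λ D) {c : X → Fin r} (hc : IsLocallyConstant c) (z : Fin J) :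
    IsLocallyConstant (st am c z) :=
  lc_pi fun k => (am.d_lc k).comp₂ (hc.comp_continuous (am.pt_cont k))
    (fun a b => if a ≤ R then (if k < z then Stt.col b else .unc) else .del)

theorem st_congr (am : AM X μ J R K₀ Λ D) {c c' : X → Fin r} {z : Fin J} {χ : X}
    (h : ∀ k, k < z → am.d χ k ≤ R → c (am.pt χ k) = c' (am.pt χ k)) :
    st am c z χ = st am c' z χ := by
  funext k
  unfold st
  split_ifs with h1 h2
  · rw [h k h2 h1]
  · rfl
  · rfl

theorem pot_cont (am : AM X μ J R K₀ Λ D) (hr : 0 < r) {β : ℝ} (hβ : 0 < β)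
    {s : X → Fin J → Stt r} (hs : IsLocallyConstant s) :
    Continuous fun χ => Pot β (s χ) (am.Y χ) (am.ℓ χ) := by
  unfold Pot
  exact continuous_finset_sum _ fun u _ => Pu_cont_lc am hr hβ hs (IsLocallyConstant.const u)

/-- the gain function -/
noncomputable def gF (am : AM X μ J R K₀ Λ D) (β : ℝ) (c : X → Fin r) (z : Fin J) (a : Fin r)
    (χ : X) : ℝ :=
  Pot β (update (st am c z χ) z .unc) (am.Y χ) (am.ℓ χ) + 2 -
    Pot β (update (st am c z χ) z (.col a)) (am.Y χ) (am.ℓ χ)

theorem gF_cont (am : AM X μ J R K₀ Λ D) (hr : 0 < r) {β : ℝ} (hβ : 0 < β) {c : X → Fin r}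
    (hc : IsLocallyConstant c) (z : Fin J) (a : Fin r) : Continuous (gF am β c z a) :=
  ((pot_cont am hr hβ ((st_lc am hc z).comp fun s => update s z .unc)).add continuous_const).sub
    (pot_cont am hr hβ ((st_lc am hc z).comp fun s => update s z (.col a)))

open Classical in
/-- good colours -/
noncomputable def gG (am : AM X μ J R K₀ Λ D) (β : ℝ) (c : X → Fin r) (z : Fin J) (χ : X) :
    Finset (Fin r) :=
  univ.filter fun a => χ ∈ closure {χ' | 0 < gF am β c z a χ'}

theorem gG_lc (am : AM X μ J R K₀ Λ D) (hr : 0 < r) {β : ℝ} (hβ : 0 < β) {c : X → Fin r}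
    (hc : IsLocallyConstant c) (z : Fin J) : IsLocallyConstant (gG am β c z) := by
  classical
  have h1 : IsLocallyConstant fun χ => fun a => χ ∈ closure {χ' | 0 < gF am β c z a χ'} :=
    lc_pi fun a => lc_mem ⟨isClosed_closure, am.ed _ (gF_cont am hr hβ hc z a)⟩
  have h2 := h1.comp fun P : Fin r → Prop => univ.filter P
  convert h2 using 1
  funext χ
  simp only [gG, Function.comp]

theorem gG_card (am : AM X μ J R K₀ Λ D) (hr : 0 < r) {β : ℝ} (hβ : 0 < β) (c : X → Fin r)
    (χ : X) : r / 2 ≤ (gG am β c (am.cl χ) χ).card := by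
  have h1 := step_col (σ := st am c (am.cl χ) χ) (ℓ := am.ℓ χ) hr hβ (am.herm χ) (am.cl χ)
  have h2 : (univ.filter fun a : Fin r =>
      Pot β (update (st am c (am.cl χ) χ) (am.cl χ) (.col a)) (am.Y χ) (am.ℓ χ) ≤
        Pot β (update (st am c (am.cl χ) χ) (am.cl χ) .unc) (am.Y χ) (am.ℓ χ) +
          Real.exp (am.ℓ χ (am.cl χ))) ⊆ gG am β c (am.cl χ) χ := by
    intro a ha
    rw [mem_filter, am.ℓ_self, Real.exp_zero] at ha
    simp only [gG, mem_filter, mem_univ, true_and]
    refine subset_closure ?_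
    simp only [Set.mem_setOf_eq, gF]
    linarith [ha.2]
  have := card_le_card h2
  omega

theorem gG_nonneg (am : AM X μ J R K₀ Λ D) (hr : 0 < r) {β : ℝ} (hβ : 0 < β) {c : X → Fin r}
    (hc : IsLocallyConstant c) {z : Fin J} {χ : X} {a : Fin r} (ha : a ∈ gG am β c z χ) :
    0 ≤ gF am β c z a χ := by
  simp only [gG, mem_filter, mem_univ, true_and] at ha
  exact closure_minimal (s := {χ' | 0 < gF am β c z a χ'}) (t := {χ' | 0 ≤ gF am β c z a χ'})
    (fun χ' (h : 0 < gF am β c z a χ') => h.le)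
    (isClosed_le continuous_const (gF_cont am hr hβ hc z a)) ha

theorem gG_congr (am : AM X μ J R K₀ Λ D) {β : ℝ} {c c' : X → Fin r} {z : Fin J} {χ : X}
    (h : ∀ᶠ χ' in 𝓝 χ, st am c z χ' = st am c' z χ') : gG am β c z χ = gG am β c' z χ := by
  ext a
  simp only [gG, mem_filter, mem_univ, true_and, mem_closure_iff_frequently]
  refine frequently_congr (h.mono fun χ' h' => ?_)
  simp only [Set.mem_setOf_eq, gF, h']

/-- choice of a colour -/
noncomputable def pick (hr : 0 < r) (G : Finset (Fin r)) (i : Fin (r / 2)) : Fin r :=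
  if h : r / 2 ≤ G.card then G.orderEmbOfCardLe h i else ⟨0, hr⟩

theorem pick_mem (hr : 0 < r) {G : Finset (Fin r)} (h : r / 2 ≤ G.card) (i : Fin (r / 2)) :
    pick hr G i ∈ G := by
  rw [pick, dif_pos h]; exact orderEmbOfCardLe_mem _ _ _

theorem pick_ne (hr : 0 < r) {G : Finset (Fin r)} (h : r / 2 ≤ G.card) {i i' : Fin (r / 2)}
    (hi : i ≠ i') : pick hr G i ≠ pick hr G i' := by
  rw [pick, pick, dif_pos h, dif_pos h]
  exact (G.orderEmbOfCardLe h).injective.ne hi

/-- the invariant -/
structure Inv (am : AM X μ J R K₀ Λ D) (β : ℝ) {ι : Type u} [DecidableEq ι] (cell : X → ι) (n : ℕ)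
    (col : (ι → Fin (r / 2)) → X → Fin r) (dep : X → Finset ι) : Prop where
  lc : ∀ l, IsLocallyConstant (col l)
  dlc : IsLocallyConstant dep
  card : ∀ χ, (am.cl χ : ℕ) < n → (dep χ).card ≤ 2 ^ (am.cl χ : ℕ)
  cls : ∀ χ, (am.cl χ : ℕ) < n → ∀ e ∈ dep χ, ∃ χ', e = cell χ' ∧ am.cl χ' ≤ am.cl χ
  junta : ∀ χ, (am.cl χ : ℕ) < n → ∀ l l', (∀ e ∈ dep χ, l e = l' e) → col l χ = col l' χ
  inj : ∀ χ, (am.cl χ : ℕ) < n → ∀ l (i i' : Fin (r / 2)), i ≠ i' →
    col (update l (cell χ) i) χ ≠ col (update l (cell χ) i') χ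
  step : ∀ χ, (am.cl χ : ℕ) < n → ∀ l, 0 ≤ gF am β (col l) (am.cl χ) (col l χ) χ

theorem inv_step (am : AM X μ J R K₀ Λ D) (hr : 0 < r) {β : ℝ} (hβ : 0 < β) {ι : Type u}
    [DecidableEq ι] (cell : X → ι) (hlc : IsLocallyConstant cell)
    (hcell : ∀ χ χ', cell χ = cell χ' → am.cl χ = am.cl χ') (z : Fin J)
    {col : (ι → Fin (r / 2)) → X → Fin r} {dep : X → Finset ι} (h : Inv am β cell z col dep) :
    ∃ col' dep', Inv (r := r) am β cell (z + 1) col' dep' := by
  let U : X → Finset ι := fun χ =>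
    (univ.filter fun k => k < z ∧ am.d χ k ≤ R).biUnion fun k => dep (am.pt χ k)
  have hU : IsLocallyConstant U :=
    (lc_pi am.d_lc).comp₂ (lc_pi fun k => h.dlc.comp_continuous (am.pt_cont k))
      (fun (a : Fin J → ℕ) (b : Fin J → Finset ι) =>
        (univ.filter fun k => k < z ∧ a k ≤ R).biUnion b)
  have hcl : ∀ χ k, k < z → am.d χ k ≤ R → (am.cl (am.pt χ k) : ℕ) < z := fun χ k h1 h2 => by
    rw [am.cl_pt χ k h2]; exact h1
  have hG : ∀ χ l l', (∀ e ∈ U χ, l e = l' e) → gG am β (col l) z χ = gG am β (col l') z χ := by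
    intro χ l l' hl
    refine gG_congr am ((hU.eventually_eq χ).mono fun χ' h' => st_congr am fun k h1 h2 => ?_)
    refine h.junta _ (hcl χ' k h1 h2) l l' fun e he => hl e ?_
    rw [← h']
    exact mem_biUnion.mpr ⟨k, mem_filter.mpr ⟨mem_univ _, h1, h2⟩, he⟩
  let col' : (ι → Fin (r / 2)) → X → Fin r := fun l χ =>
    if am.cl χ = z then pick hr (gG am β (col l) z χ) (l (cell χ)) else col l χ
  let dep' : X → Finset ι := fun χ => if am.cl χ = z then insert (cell χ) (U χ) else dep χ
  have hlt : ∀ χ, (am.cl χ : ℕ) < z + 1 → am.cl χ ≠ z → (am.cl χ : ℕ) < z := fun χ h1 h2 => by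
    have : (am.cl χ : ℕ) ≠ z := fun e => h2 (Fin.ext e)
    omega
  have hGc : ∀ χ l, am.cl χ = z → r / 2 ≤ (gG am β (col l) z χ).card := fun χ l e => by
    rw [← e]; exact gG_card am hr hβ _ χ
  refine ⟨col', dep', ?_, ?_, ?_, ?_, ?_, ?_, ?_⟩
  · intro l
    exact (am.cl_lc.prodMk (h.lc l)).comp₂ ((gG_lc am hr hβ (h.lc l) z).prodMk hlc)
      (fun a b => if a.1 = z then pick hr b.1 (l b.2) else a.2)
  · exact (am.cl_lc.prodMk h.dlc).comp₂ (hU.prodMk hlc)
      (fun a b => if a.1 = z then insert b.2 b.1 else a.2)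
  · intro χ hχ
    by_cases e : am.cl χ = z
    · simp only [dep', e, if_true]
      refine (card_insert_le _ _).trans ?_
      rw [← geom]
      refine Nat.add_le_add_right (card_biUnion_le.trans ?_) 1
      calc ∑ k ∈ univ.filter fun k => k < z ∧ am.d χ k ≤ R, (dep (am.pt χ k)).card
          ≤ ∑ k ∈ univ.filter fun k => k < z ∧ am.d χ k ≤ R, 2 ^ (k : ℕ) := by
            refine sum_le_sum fun k hk => ?_
            obtain ⟨-, h1, h2⟩ := mem_filter.mp hk
            have := h.card _ (hcl χ k h1 h2)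
            rwa [am.cl_pt χ k h2] at this
        _ = ∑ k ∈ (univ.filter fun k => k < z ∧ am.d χ k ≤ R).map Fin.valEmbedding, 2 ^ k := by
            rw [sum_map]; rfl
        _ ≤ ∑ k ∈ range z, 2 ^ k := by
            refine sum_le_sum_of_subset fun k hk => ?_
            obtain ⟨k', hk', rfl⟩ := mem_map.mp hk
            exact mem_range.mpr (mem_filter.mp hk').2.1
    · simp only [dep', e, if_false]
      exact h.card χ (hlt χ hχ e)
  · intro χ hχ a ha
    by_cases e : am.cl χ = z
    · simp only [dep', e, if_true] at ha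
      rcases mem_insert.mp ha with rfl | ha
      · exact ⟨χ, rfl, le_rfl⟩
      · obtain ⟨k, hk, ha⟩ := mem_biUnion.mp ha
        obtain ⟨-, h1, h2⟩ := mem_filter.mp hk
        obtain ⟨χ', h3, h4⟩ := h.cls _ (hcl χ k h1 h2) a ha
        rw [am.cl_pt χ k h2] at h4
        exact ⟨χ', h3, e ▸ (h4.trans h1.le)⟩
    · simp only [dep', e, if_false] at ha
      exact h.cls χ (hlt χ hχ e) a ha
  · intro χ hχ l l' hl
    by_cases e : am.cl χ = z
    · simp only [dep', col', e, if_true] at hl ⊢
      rw [hG χ l l' fun a ha => hl a (mem_insert_of_mem ha), hl _ (mem_insert_self _ _)]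
    · simp only [dep', col', e, if_false] at hl ⊢
      exact h.junta χ (hlt χ hχ e) l l' hl
  · intro χ hχ l i i' hi
    by_cases e : am.cl χ = z
    · simp only [col', e, if_true, update_self]
      have hn : cell χ ∉ U χ := by
        intro ha
        obtain ⟨k, hk, ha⟩ := mem_biUnion.mp ha
        obtain ⟨-, h1, h2⟩ := mem_filter.mp hk
        obtain ⟨χ', h3, h4⟩ := h.cls _ (hcl χ k h1 h2) _ ha
        rw [am.cl_pt χ k h2, ← hcell _ _ h3, e] at h4
        exact absurd h1 (not_lt.mpr h4)
      rw [hG χ (update l (cell χ) i) (update l (cell χ) i') fun a ha => by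
        have : a ≠ cell χ := fun e => hn (e ▸ ha)
        rw [update_of_ne this, update_of_ne this]]
      exact pick_ne hr (hGc χ _ e) hi
    · simp only [col', e, if_false]
      exact h.inj χ (hlt χ hχ e) l i i' hi
  · intro χ hχ l
    have hs : st am (col' l) (am.cl χ) χ = st am (col l) (am.cl χ) χ := by
      refine st_congr am fun k h1 h2 => ?_
      have : am.cl (am.pt χ k) ≠ z := by
        rw [am.cl_pt χ k h2]
        rintro rfl
        have : (k : ℕ) < am.cl χ := h1
        omega
      simp only [col', this, if_false]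
    have hF : gF am β (col' l) (am.cl χ) (col' l χ) χ = gF am β (col l) (am.cl χ) (col' l χ) χ := by
      simp only [gF, hs]
    rw [hF]
    by_cases e : am.cl χ = z
    · simp only [col', e, if_true]
      exact gG_nonneg am hr hβ (h.lc l) (pick_mem hr (hGc χ l e) _)
    · simp only [col', e, if_false]
      exact h.step χ (hlt χ hχ e) l

end CstA

theorem exists_col (am : AM X μ J R K₀ Λ D) (hr : 0 < r) {β : ℝ} (hβ : 0 < β) {ι : Type u}
    [DecidableEq ι] (cell : X → ι) (hlc : IsLocallyConstant cell)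
    (hcell : ∀ χ χ', cell χ = cell χ' → am.cl χ = am.cl χ') :
    ∃ (col : (ι → Fin (r / 2)) → X → Fin r) (dep : X → Finset ι), LCol cell (2 ^ J) col dep ∧
      ∀ l, am.Step β (fun _ => .unc) (fun χ => .col (col l χ)) (fun _ k k' => k < k') 2 := by
  have key : ∀ n, n ≤ J → ∃ col dep, CstA.Inv (r := r) am β cell n col dep := by
    intro n
    induction n with
    | zero =>
      intro _
      exact ⟨fun _ _ => ⟨0, hr⟩, fun _ => ∅, fun _ => IsLocallyConstant.const _,
        IsLocallyConstant.const _, fun _ h => absurd h (Nat.not_lt_zero _),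
        fun _ h => absurd h (Nat.not_lt_zero _), fun _ h => absurd h (Nat.not_lt_zero _),
        fun _ h => absurd h (Nat.not_lt_zero _), fun _ h => absurd h (Nat.not_lt_zero _)⟩
    | succ n ih =>
      intro hn
      obtain ⟨col, dep, h⟩ := ih (by omega)
      exact CstA.inv_step am hr hβ cell hlc hcell ⟨n, hn⟩ h
  obtain ⟨col, dep, h⟩ := key J le_rfl
  refine ⟨col, dep, ⟨h.lc, h.dlc, fun χ => (h.card χ (am.cl χ).2).trans
    (Nat.pow_le_pow_right (by norm_num) (am.cl χ).2.le), fun χ => h.junta χ (am.cl χ).2,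
    fun χ => h.inj χ (am.cl χ).2⟩, fun l χ => ?_⟩
  have h1 := h.step χ (am.cl χ).2 l
  have e1 : am.hyb (fun _ => (.unc : Stt r)) (fun χ => .col (col l χ)) (fun _ k k' => k < k') χ
      (am.cl χ) true = update (CstA.st am (col l) (am.cl χ) χ) (am.cl χ) (.col (col l χ)) := by
    funext k
    by_cases e : k = am.cl χ
    · subst e
      simp [AM.hyb, am.d_self, am.pt_self]
    · simp [AM.hyb, CstA.st, e]
  have e2 : am.hyb (fun _ => (.unc : Stt r)) (fun χ => .col (col l χ)) (fun _ k k' => k < k') χ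
      (am.cl χ) false = update (CstA.st am (col l) (am.cl χ) χ) (am.cl χ) .unc := by
    funext k
    by_cases e : k = am.cl χ
    · subst e
      simp [AM.hyb, am.d_self]
    · simp [AM.hyb, CstA.st, e]
  rw [e1, e2]
  unfold CstA.gF at h1
  linarith

end Crest.Agent.R109
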