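import Crest.Agent.R109.RvD
import Crest.Agent.R78.Kap

/-!
# Row 109, task R109-Decomp, abstract part: GNS + Rieffel–van Daele + Kaplansky.
-/

set_option autoImplicit false
set_option linter.unusedSectionVars false
set_option linter.unusedVariables false

namespace Crest.Agent.R109.DecompA

open scoped InnerProductSpace ComplexOrder ComplexConjugate

section core

variable {B D K L : Type*} [CStarAlgebra B] [CStarAlgebra D]
  [NormedAddCommGroup K] [InnerProductSpace ℂ K] [CompleteSpace K]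
  [NormedAddCommGroup L] [InnerProductSpace ℂ L] [CompleteSpace L]

theorem ext_dense (e : B →ₗ[ℂ] K) (he : DenseRange e) {S T : K →L[ℂ] K}
    (h : ∀ m, S (e m) = T (e m)) : S = T := by
  ext v
  exact he.induction_on v (isClosed_eq S.continuous T.continuous) h

theorem ext_inner (e : B →ₗ[ℂ] K) (he : DenseRange e) {u v : K}
    (h : ∀ m, ⟪e m, u⟫_ℂ = ⟪e m, v⟫_ℂ) : u = v := by
  refine ext_inner_left ℂ fun w => ?_
  exact he.induction_on w (isClosed_eq (by fun_prop) (by fun_prop)) h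

theorem star_eq_of (e : B →ₗ[ℂ] K) (he : DenseRange e) {S T : K →L[ℂ] K}
    (h : ∀ m z, ⟪S (e m), e z⟫_ℂ = ⟪e m, T (e z)⟫_ℂ) : star S = T := by
  refine ext_dense e he fun z => ext_inner e he fun m => ?_
  rw [ContinuousLinearMap.star_eq_adjoint, ContinuousLinearMap.adjoint_inner_right, h]

theorem core (ι : B →⋆ₐ[ℂ] D) (g : D →ₗ[ℂ] ℂ)
    (e : B →ₗ[ℂ] K) (he : DenseRange e) (hin : ∀ a b, ⟪e a, e b⟫_ℂ = g (star (ι a) * ι b))
    (ρ : B →⋆ₐ[ℂ] (K →L[ℂ] K)) (hρ : ∀ a b, ρ a (e b) = e (a * b))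
    (e' : D →ₗ[ℂ] L) (hin' : ∀ a b, ⟪e' a, e' b⟫_ℂ = g (star a * b))
    (π : D →⋆ₐ[ℂ] (L →L[ℂ] L)) (hπ : ∀ a b, π a (e' b) = e' (a * b))
    (S : Set B) (hS : Dense S)
    (hflat : ∀ y ∈ S, (∃ C : ℝ, ∀ m : B, ‖e (m * y)‖ ≤ C * ‖e m‖) ∧
      ∃ y' ∈ S, ∀ d : D, g (star (ι y) * d) = g (d * ι y'))
    (hdec : ∀ y ∈ S, ∃ z w : B, IsSelfAdjoint z ∧ w ∈ S ∧
      (∀ d : D, g (star (ι w) * d) = g (d * ι w)) ∧ y = z + Complex.I • w)
    {x : D} (hx : IsSelfAdjoint x) (hn : ‖x‖ ≤ 1) {ε : ℝ} (hε : 0 < ε) :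
    ∃ n : B, IsSelfAdjoint n ∧ ‖n‖ ≤ 1 ∧ ∀ m : B, ‖g (star (ι m) * (ι n - x))‖ ≤ ε * ‖e m‖ := by
  -- right multiplications
  have hR : ∀ y ∈ S, ∃ R : K →L[ℂ] K, ∀ m, R (e m) = e (m * y) := by
    intro y hy
    obtain ⟨C, hC⟩ := (hflat y hy).1
    refine ⟨(e ∘ₗ LinearMap.mulRight ℂ y).extendOfNorm e, fun m => ?_⟩
    exact LinearMap.extendOfNorm_eq he ⟨C, hC⟩ m
  have hadj : ∀ (y y' : B) (R R' : K →L[ℂ] K), (∀ m, R (e m) = e (m * y)) →
      (∀ m, R' (e m) = e (m * y')) → (∀ d : D, g (star (ι y) * d) = g (d * ι y')) →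
      star R = R' := by
    intro y y' R R' h1 h2 h3
    refine star_eq_of e he fun m z => ?_
    rw [h1, h2, hin, hin, map_mul ι, map_mul ι, star_mul, mul_assoc, h3, mul_assoc]
  -- the isometry `J`
  have hnorm : ∀ m, ‖e' (ι m)‖ = ‖e m‖ := by
    intro m
    rw [norm_eq_sqrt_re_inner (𝕜 := ℂ), norm_eq_sqrt_re_inner (𝕜 := ℂ), hin, hin']
  have hJb : ∀ m, ‖(e' ∘ₗ ι.toAlgHom.toLinearMap) m‖ ≤ 1 * ‖e m‖ := fun m => by
    rw [one_mul]; exact (hnorm m).le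
  set J : K →L[ℂ] L := (e' ∘ₗ ι.toAlgHom.toLinearMap).extendOfNorm e with hJdef
  have hJ : ∀ m, J (e m) = e' (ι m) := fun m => LinearMap.extendOfNorm_eq he ⟨1, hJb⟩ m
  have hJn : ‖J‖ ≤ 1 := LinearMap.opNorm_extendOfNorm_le he zero_le_one hJb
  set T : K →L[ℂ] K := ContinuousLinearMap.adjoint J ∘L π x ∘L J with hTdef
  have hT : ∀ m z, ⟪e m, T (e z)⟫_ℂ = g (star (ι m) * (x * ι z)) := by
    intro m z
    simp only [hTdef, ContinuousLinearMap.comp_apply]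
    rw [ContinuousLinearMap.adjoint_inner_right, hJ, hJ, hπ, hin']
  have hTs : IsSelfAdjoint T := (hx.map π).adjoint_conj J
  have hTn : ‖T‖ ≤ 1 := by
    have h1 : ‖π x‖ ≤ 1 := (NonUnitalStarAlgHom.norm_apply_le π x).trans hn
    have h2 : ‖ContinuousLinearMap.adjoint J‖ ≤ 1 := by
      rw [LinearIsometryEquiv.norm_map]; exact hJn
    calc ‖T‖ ≤ ‖ContinuousLinearMap.adjoint J‖ * ‖π x ∘L J‖ := ContinuousLinearMap.opNorm_comp_le _ _
      _ ≤ 1 * (‖π x‖ * ‖J‖) :=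
          mul_le_mul h2 (ContinuousLinearMap.opNorm_comp_le _ _) (norm_nonneg _) zero_le_one
      _ ≤ 1 := by rw [one_mul]; exact mul_le_one₀ h1 (norm_nonneg _) hJn
  let ℬ : Set (K →L[ℂ] K) := {R | ∃ y ∈ S, ∀ m, R (e m) = e (m * y)}
  have hℬ : ∀ R ∈ ℬ, star R ∈ ℬ := by
    rintro R ⟨y, hy, h1⟩
    obtain ⟨y', hy', h3⟩ := (hflat y hy).2
    obtain ⟨R', h2⟩ := hR y' hy'
    rw [hadj y y' R R' h1 h2 h3]
    exact ⟨y', hy', h2⟩
  have hTc : T ∈ Set.centralizer ℬ := by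
    rintro R ⟨y, hy, h1⟩
    obtain ⟨y', hy', h3⟩ := (hflat y hy).2
    obtain ⟨R', h2⟩ := hR y' hy'
    have h4 := hadj y y' R R' h1 h2 h3
    have h5 : T * star R = star R * T := by
      refine ext_dense e he fun z => ext_inner e he fun m => ?_
      rw [ContinuousLinearMap.mul_apply, ContinuousLinearMap.mul_apply]
      conv_rhs => rw [ContinuousLinearMap.star_eq_adjoint, ContinuousLinearMap.adjoint_inner_right,
        h1, hT]
      rw [h4, h2, hT, map_mul ι, map_mul ι, star_mul, mul_assoc, h3]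
      simp only [mul_assoc]
    have h6 := congrArg star h5
    rwa [star_mul, star_mul, star_star, hTs.star_eq] at h6
  have hen : ∀ b, ‖e b‖ ≤ ‖b‖ * ‖e 1‖ := by
    intro b
    have : e b = ρ b (e 1) := by rw [hρ, mul_one]
    rw [this]
    exact ((ρ b).le_opNorm _).trans
      (mul_le_mul_of_nonneg_right (NonUnitalStarAlgHom.norm_apply_le ρ b) (norm_nonneg _))
  have hrvd := rvd (Set.range ρ) ℬ (by rintro _ ⟨a, rfl⟩; exact ⟨star a, map_star ρ a⟩) hℬ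
    (by
      rintro _ ⟨a, rfl⟩ R ⟨y, hy, h1⟩
      refine ext_dense e he fun m => ?_
      rw [ContinuousLinearMap.mul_apply, ContinuousLinearMap.mul_apply, h1, hρ, hρ, h1, mul_assoc])
    (e 1)
    (by
      refine he.mono ?_
      rintro _ ⟨b, rfl⟩
      exact ⟨⟨ρ b, b, rfl⟩, by simp only [hρ, mul_one]⟩)
    (by
      intro v η hη
      obtain ⟨b, hb⟩ := he.exists_dist_lt v (half_pos hη)
      have hc : 0 < ‖e 1‖ + 1 := by positivity
      obtain ⟨s, hs, hbs⟩ := hS.exists_dist_lt b (div_pos (half_pos hη) hc)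
      obtain ⟨z, w, hz, hw, h3, rfl⟩ := hdec s hs
      obtain ⟨R, h1⟩ := hR w hw
      refine ⟨ρ z, ⟨z, rfl⟩, hz.map ρ, R, ⟨w, hw, h1⟩, hadj w w R R h1 h1 h3, ?_⟩
      have e1 : ρ z (e 1) + Complex.I • R (e 1) = e (z + Complex.I • w) := by
        rw [hρ, h1, mul_one, one_mul, map_add, map_smul]
      rw [e1]
      rw [dist_eq_norm] at hb hbs
      have e2 : ‖e b - e (z + Complex.I • w)‖ ≤ η / 2 := by
        rw [← map_sub]
        refine (hen _).trans ?_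
        calc ‖b - (z + Complex.I • w)‖ * ‖e 1‖ ≤ η / 2 / (‖e 1‖ + 1) * (‖e 1‖ + 1) :=
              mul_le_mul hbs.le (by linarith) (norm_nonneg _) (by positivity)
          _ = η / 2 := by field_simp
      calc ‖v - e (z + Complex.I • w)‖ = ‖(v - e b) + (e b - e (z + Complex.I • w))‖ := by
            congr 1; abel
        _ ≤ ‖v - e b‖ + ‖e b - e (z + Complex.I • w)‖ := norm_add_le _ _
        _ ≤ η := by linarith)
    hTc
  have hTm : T ∈ (R124.Kad.comm ρ).commutant := by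
    rw [VonNeumannAlgebra.mem_commutant_iff]
    intro G hG
    refine hrvd G ?_
    rintro _ ⟨a, rfl⟩
    exact R124.Kad.mem_comm.mp hG a
  obtain ⟨n, hn1, hn2, hn3⟩ := R78.kap_sa ρ hTm hTs {e 1} hε
  refine ⟨n, hn1, hn2.trans hTn, fun m => ?_⟩
  have h1 := hn3 (e 1) (Finset.mem_singleton_self _)
  have h2 : g (star (ι m) * (ι n - x)) = ⟪e m, ρ n (e 1) - T (e 1)⟫_ℂ := by
    rw [inner_sub_right, hT, hρ, hin, mul_one, map_one ι, mul_one, mul_sub, map_sub g]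
  rw [h2, mul_comm]
  exact (norm_inner_le_norm _ _).trans (mul_le_mul_of_nonneg_left h1 (norm_nonneg _))

end core

theorem pos_of {B : Type*} [CStarAlgebra B] [PartialOrder B] [StarOrderedRing B] (g : B →ₗ[ℂ] ℂ)
    (hg : ∀ b, 0 ≤ g (star b * b)) (x : B) (hx : 0 ≤ x) : 0 ≤ g x := by
  rw [StarOrderedRing.nonneg_iff] at hx
  induction hx using AddSubmonoid.closure_induction with
  | mem y hy => obtain ⟨s, rfl⟩ := hy; exact hg s
  | zero => simp
  | add a b _ _ ha hb => rw [map_add]; exact add_nonneg ha hb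

/-- the canonical map to the GNS space -/
noncomputable def hat {B : Type*} [CStarAlgebra B] [PartialOrder B] [StarOrderedRing B]
    (f : B →ₚ[ℂ] ℂ) : B →ₗ[ℂ] f.GNS :=
  (UniformSpace.Completion.toComplL : f.PreGNS →L[ℂ] f.GNS).toLinearMap ∘ₗ f.toPreGNS.toLinearMap

theorem hat_apply {B : Type*} [CStarAlgebra B] [PartialOrder B] [StarOrderedRing B]
    (f : B →ₚ[ℂ] ℂ) (b : B) : hat f b = ((f.toPreGNS b : f.PreGNS) : f.GNS) := rfl

theorem hat_dense {B : Type*} [CStarAlgebra B] [PartialOrder B] [StarOrderedRing B]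
    (f : B →ₚ[ℂ] ℂ) : DenseRange (hat f) := by
  refine (UniformSpace.Completion.denseRange_coe (α := f.PreGNS)).mono ?_
  rintro _ ⟨b, rfl⟩
  exact ⟨f.ofPreGNS b, rfl⟩

theorem hat_inner {B : Type*} [CStarAlgebra B] [PartialOrder B] [StarOrderedRing B]
    (f : B →ₚ[ℂ] ℂ) (a b : B) : ⟪hat f a, hat f b⟫_ℂ = f (star a * b) := by
  rw [hat_apply, hat_apply, UniformSpace.Completion.inner_coe]
  rfl

theorem hat_mul {B : Type*} [CStarAlgebra B] [PartialOrder B] [StarOrderedRing B]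
    (f : B →ₚ[ℂ] ℂ) (a b : B) : f.gnsStarAlgHom a (hat f b) = hat f (a * b) := by
  rw [hat_apply, hat_apply]
  exact f.gnsNonUnitalStarAlgHom_apply_coe

theorem abstract {B D : Type*} [CStarAlgebra B] [CStarAlgebra D] (ι : B →⋆ₐ[ℂ] D) (g : D →ₗ[ℂ] ℂ)
    (hg : ∀ d, 0 ≤ g (star d * d)) (S : Set B) (hS : Dense S)
    (hflat : ∀ y ∈ S, (∃ C : ℝ, ∀ m : B, √(g (star (ι (m * y)) * ι (m * y))).re ≤
        C * √(g (star (ι m) * ι m)).re) ∧
      ∃ y' ∈ S, ∀ d : D, g (star (ι y) * d) = g (d * ι y'))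
    (hdec : ∀ y ∈ S, ∃ z w : B, IsSelfAdjoint z ∧ w ∈ S ∧
      (∀ d : D, g (star (ι w) * d) = g (d * ι w)) ∧ y = z + Complex.I • w)
    {x : D} (hx : IsSelfAdjoint x) (hn : ‖x‖ ≤ 1) {ε : ℝ} (hε : 0 < ε) :
    ∃ n : B, IsSelfAdjoint n ∧ ‖n‖ ≤ 1 ∧
      ∀ m : B, ‖g (star (ι m) * (ι n - x))‖ ≤ ε * √(g (star (ι m) * ι m)).re := by
  letI : PartialOrder B := CStarAlgebra.spectralOrder B
  haveI : StarOrderedRing B := CStarAlgebra.spectralOrderedRing B
  letI : PartialOrder D := CStarAlgebra.spectralOrder D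
  haveI : StarOrderedRing D := CStarAlgebra.spectralOrderedRing D
  let g' : D →ₚ[ℂ] ℂ := PositiveLinearMap.mk₀ g (pos_of g hg)
  let f' : B →ₚ[ℂ] ℂ := PositiveLinearMap.mk₀ (g ∘ₗ ι.toAlgHom.toLinearMap)
    (pos_of _ fun b => by
      change 0 ≤ g (ι (star b * b))
      rw [map_mul ι, map_star ι]; exact hg _)
  have hin : ∀ a b, ⟪hat f' a, hat f' b⟫_ℂ = g (star (ι a) * ι b) := by
    intro a b
    rw [hat_inner]
    change g (ι (star a * b)) = _
    rw [map_mul ι, map_star ι]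
  have hnm : ∀ a, ‖hat f' a‖ = √(g (star (ι a) * ι a)).re := by
    intro a
    rw [norm_eq_sqrt_re_inner (𝕜 := ℂ), hin]; rfl
  have := core ι g (hat f') (hat_dense f') hin f'.gnsStarAlgHom (hat_mul f') (hat g')
    (fun a b => hat_inner g' a b) g'.gnsStarAlgHom (hat_mul g') S hS
    (fun y hy => ⟨by simpa only [hnm] using (hflat y hy).1, (hflat y hy).2⟩) hdec hx hn hε
  simpa only [hnm] using this

end Crest.Agent.R109.DecompA
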