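import Mathlib

/-!
# Row 109, task R109-RvD

The commutation theorem of Rieffel and van Daele.  PLAN.  For self-adjoint `a ∈ 𝒜` and self-adjoint `S ∈ 𝒜'`,
`⟪a Ω, S Ω⟫` is real.  Let `S = S⋆ ∈ 𝒜'`, `T = T⋆ ∈ ℬ'`.  Approximate `T Ω` by `a Ω + i b Ω`; the real
inner product of `T Ω - a Ω` with `i b Ω` vanishes (`⟪b Ω, T Ω⟫`, `⟪b Ω, a Ω⟫` are real), so
`‖T Ω - a Ω‖ ≤ ‖T Ω - a Ω - i b Ω‖`.  Hence `⟪T Ω, S Ω⟫` is real, i.e. `⟪Ω, (S T - T S) Ω⟫ = 0`; extend to all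
`S ∈ 𝒜'`, `T ∈ ℬ'` by linearity (centralisers of star-closed sets are star closed), replace `T` by `a⋆ T a'`
(`𝒜 ⊆ ℬ'`) to get `⟪a Ω, (S T - T S) a' Ω⟫ = 0`, and use cyclicity.
-/

set_option autoImplicit false
set_option linter.unusedSectionVars false
set_option linter.unusedVariables false

namespace Crest.Agent.R109


open scoped InnerProductSpace

namespace RvDA

variable {K : Type*} [NormedAddCommGroup K] [InnerProductSpace ℂ K] [CompleteSpace K]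

theorem inner_sa {X : K →L[ℂ] K} (hX : IsSelfAdjoint X) (u v : K) :
    ⟪X u, v⟫_ℂ = ⟪u, X v⟫_ℂ := by
  have h : ContinuousLinearMap.adjoint X = X := by
    rw [← ContinuousLinearMap.star_eq_adjoint]; exact hX
  rw [← ContinuousLinearMap.adjoint_inner_right, h]

theorem im_zero {X Y : K →L[ℂ] K} (hX : IsSelfAdjoint X) (hY : IsSelfAdjoint Y)
    (h : X * Y = Y * X) (Ω : K) : (⟪X Ω, Y Ω⟫_ℂ).im = 0 := by
  have h1 : ⟪X Ω, Y Ω⟫_ℂ = ⟪Y Ω, X Ω⟫_ℂ := by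
    rw [inner_sa hX, inner_sa hY]
    change ⟪Ω, (X * Y) Ω⟫_ℂ = ⟪Ω, (Y * X) Ω⟫_ℂ
    rw [h]
  have h2 : (starRingEnd ℂ) ⟪X Ω, Y Ω⟫_ℂ = ⟪X Ω, Y Ω⟫_ℂ := by
    rw [inner_conj_symm]; exact h1.symm
  exact Complex.conj_eq_iff_im.mp h2

theorem norm_le_of_im {u w : K} (h : (⟪u, w⟫_ℂ).im = 0) : ‖u‖ ≤ ‖u - Complex.I • w‖ := by
  have h1 : ‖u - Complex.I • w‖ ^ 2 = ‖u‖ ^ 2 - 2 * RCLike.re ⟪u, Complex.I • w⟫_ℂ
      + ‖Complex.I • w‖ ^ 2 := norm_sub_sq (𝕜 := ℂ) u _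
  have h2 : RCLike.re ⟪u, Complex.I • w⟫_ℂ = 0 := by
    rw [inner_smul_right]
    change (Complex.I * ⟪u, w⟫_ℂ).re = 0
    simp [h]
  have h3 : ‖u‖ ^ 2 ≤ ‖u - Complex.I • w‖ ^ 2 := by
    rw [h1, h2]; nlinarith [sq_nonneg ‖Complex.I • w‖]
  exact (pow_le_pow_iff_left₀ (norm_nonneg _) (norm_nonneg _) two_ne_zero).mp h3

theorem decomp {𝒞 : Set (K →L[ℂ] K)} (h𝒞 : ∀ a ∈ 𝒞, star a ∈ 𝒞) {S : K →L[ℂ] K}
    (hS : S ∈ Set.centralizer 𝒞) :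
    ∃ S₁ ∈ Set.centralizer 𝒞, ∃ S₂ ∈ Set.centralizer 𝒞, IsSelfAdjoint S₁ ∧ IsSelfAdjoint S₂ ∧
      S = S₁ + Complex.I • S₂ := by
  have hs : ∀ a ∈ 𝒞, a * star S = star S * a := by
    intro a ha
    have := congrArg star (hS (star a) (h𝒞 a ha))
    rw [star_mul, star_mul, star_star] at this
    exact this.symm
  refine ⟨(1 / 2 : ℂ) • (S + star S), ?_, (Complex.I / 2) • (star S - S), ?_, ?_, ?_, ?_⟩
  · intro a ha
    rw [mul_smul_comm, smul_mul_assoc, mul_add, add_mul, hS a ha, hs a ha]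
  · intro a ha
    rw [mul_smul_comm, smul_mul_assoc, mul_sub, sub_mul, hS a ha, hs a ha]
  · rw [IsSelfAdjoint, star_smul, star_add, star_star, add_comm]
    congr 1
    simp
  · rw [IsSelfAdjoint, star_smul, star_sub, star_star]
    have : star (Complex.I / 2) = -(Complex.I / 2) := by
      simp [neg_div]
    rw [this, neg_smul, ← smul_neg, neg_sub]
  · rw [smul_smul]
    have : Complex.I * (Complex.I / 2) = -(1 / 2 : ℂ) := by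
      rw [mul_div_assoc', Complex.I_mul_I]; ring
    rw [this]
    module

theorem step1 (𝒜 ℬ : Set (K →L[ℂ] K))
    (hc : ∀ a ∈ 𝒜, ∀ b ∈ ℬ, a * b = b * a) (Ω : K)
    (hd : ∀ (v : K) (η : ℝ), 0 < η → ∃ a ∈ 𝒜, IsSelfAdjoint a ∧ ∃ b ∈ ℬ, IsSelfAdjoint b ∧
      ‖v - (a Ω + Complex.I • b Ω)‖ ≤ η)
    {S T : K →L[ℂ] K} (hS : S ∈ Set.centralizer 𝒜) (hT : T ∈ Set.centralizer ℬ)
    (hSs : IsSelfAdjoint S) (hTs : IsSelfAdjoint T) : ⟪Ω, (S * T - T * S) Ω⟫_ℂ = 0 := by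
  have him : (⟪T Ω, S Ω⟫_ℂ).im = 0 := by
    have key : ∀ η : ℝ, 0 < η → |(⟪T Ω, S Ω⟫_ℂ).im| ≤ η * ‖S Ω‖ := by
      intro η hη
      obtain ⟨a, ha, has, b, hb, hbs, hle⟩ := hd (T Ω) η hη
      have h1 : (⟪T Ω - a Ω, b Ω⟫_ℂ).im = 0 := by
        rw [inner_sub_left, Complex.sub_im, im_zero hTs hbs (hT b hb).symm Ω,
          im_zero has hbs (hc a ha b hb) Ω, sub_zero]
      have h2 : ‖T Ω - a Ω‖ ≤ η := by
        refine (norm_le_of_im h1).trans ?_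
        rw [sub_sub]; exact hle
      have h3 : (⟪T Ω, S Ω⟫_ℂ).im = (⟪T Ω - a Ω, S Ω⟫_ℂ).im := by
        rw [inner_sub_left, Complex.sub_im, im_zero has hSs (hS a ha) Ω, sub_zero]
      rw [h3]
      refine (Complex.abs_im_le_norm _).trans ((norm_inner_le_norm _ _).trans ?_)
      exact mul_le_mul_of_nonneg_right h2 (norm_nonneg _)
    by_contra hne
    have hpos : 0 < |(⟪T Ω, S Ω⟫_ℂ).im| := abs_pos.mpr hne
    have hn : 0 ≤ ‖S Ω‖ := norm_nonneg _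
    have := key (|(⟪T Ω, S Ω⟫_ℂ).im| / (‖S Ω‖ + 1)) (div_pos hpos (by linarith))
    rw [div_mul_eq_mul_div, le_div_iff₀ (by linarith)] at this
    nlinarith
  have h1 : ⟪Ω, (S * T - T * S) Ω⟫_ℂ = ⟪S Ω, T Ω⟫_ℂ - ⟪T Ω, S Ω⟫_ℂ := by
    rw [inner_sa hSs, inner_sa hTs, ← inner_sub_right]
    rfl
  rw [h1, ← inner_conj_symm (S Ω) (T Ω), Complex.conj_eq_iff_im.mpr him, sub_self]

theorem step2 (𝒜 ℬ : Set (K →L[ℂ] K)) (h𝒜 : ∀ a ∈ 𝒜, star a ∈ 𝒜) (hℬ : ∀ b ∈ ℬ, star b ∈ ℬ)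
    (hc : ∀ a ∈ 𝒜, ∀ b ∈ ℬ, a * b = b * a) (Ω : K)
    (hd : ∀ (v : K) (η : ℝ), 0 < η → ∃ a ∈ 𝒜, IsSelfAdjoint a ∧ ∃ b ∈ ℬ, IsSelfAdjoint b ∧
      ‖v - (a Ω + Complex.I • b Ω)‖ ≤ η)
    {S T : K →L[ℂ] K} (hS : S ∈ Set.centralizer 𝒜) (hT : T ∈ Set.centralizer ℬ) :
    ⟪Ω, (S * T - T * S) Ω⟫_ℂ = 0 := by
  obtain ⟨S₁, hS₁, S₂, hS₂, s₁, s₂, rfl⟩ := decomp h𝒜 hS
  obtain ⟨T₁, hT₁, T₂, hT₂, t₁, t₂, rfl⟩ := decomp hℬ hT
  have e : (S₁ + Complex.I • S₂) * (T₁ + Complex.I • T₂) - (T₁ + Complex.I • T₂) * (S₁ + Complex.I • S₂)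
      = (S₁ * T₁ - T₁ * S₁) + Complex.I • (S₁ * T₂ - T₂ * S₁) + Complex.I • (S₂ * T₁ - T₁ * S₂)
        + (Complex.I * Complex.I) • (S₂ * T₂ - T₂ * S₂) := by
    simp only [add_mul, mul_add, smul_mul_assoc, mul_smul_comm]
    module
  rw [e]
  simp only [ContinuousLinearMap.add_apply, ContinuousLinearMap.smul_apply, inner_add_right,
    inner_smul_right, step1 𝒜 ℬ hc Ω hd hS₁ hT₁ s₁ t₁, step1 𝒜 ℬ hc Ω hd hS₁ hT₂ s₁ t₂,
    step1 𝒜 ℬ hc Ω hd hS₂ hT₁ s₂ t₁, step1 𝒜 ℬ hc Ω hd hS₂ hT₂ s₂ t₂, mul_zero, add_zero]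

end RvDA

theorem rvd {K : Type*} [NormedAddCommGroup K] [InnerProductSpace ℂ K] [CompleteSpace K]
    (𝒜 ℬ : Set (K →L[ℂ] K)) (h𝒜 : ∀ a ∈ 𝒜, star a ∈ 𝒜) (hℬ : ∀ b ∈ ℬ, star b ∈ ℬ)
    (hc : ∀ a ∈ 𝒜, ∀ b ∈ ℬ, a * b = b * a) (Ω : K)
    (hcyc : Dense (Set.range fun a : 𝒜 => (a : K →L[ℂ] K) Ω))
    (hd : ∀ (v : K) (η : ℝ), 0 < η → ∃ a ∈ 𝒜, IsSelfAdjoint a ∧ ∃ b ∈ ℬ, IsSelfAdjoint b ∧
      ‖v - (a Ω + Complex.I • b Ω)‖ ≤ η)
    {T : K →L[ℂ] K} (hT : T ∈ Set.centralizer ℬ) : T ∈ Set.centralizer (Set.centralizer 𝒜) := by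
  intro S hS
  have key : ∀ a ∈ 𝒜, ∀ a' ∈ 𝒜, ⟪a Ω, (S * T - T * S) (a' Ω)⟫_ℂ = 0 := by
    intro a ha a' ha'
    have hT' : star a * T * a' ∈ Set.centralizer ℬ := by
      intro b hb
      calc b * (star a * T * a') = (b * star a) * T * a' := by simp only [mul_assoc]
        _ = star a * (b * T) * a' := by rw [← hc _ (h𝒜 a ha) b hb]; simp only [mul_assoc]
        _ = star a * T * (b * a') := by rw [hT b hb]; simp only [mul_assoc]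
        _ = star a * T * a' * b := by rw [← hc a' ha' b hb]; simp only [mul_assoc]
    have h := RvDA.step2 𝒜 ℬ h𝒜 hℬ hc Ω hd hS hT'
    have e : S * (star a * T * a') - star a * T * a' * S = star a * ((S * T - T * S) * a') := by
      have e1 : S * (star a * T * a') = star a * (S * T * a') := by
        calc S * (star a * T * a') = (S * star a) * T * a' := by simp only [mul_assoc]
          _ = star a * (S * T * a') := by rw [← hS _ (h𝒜 a ha)]; simp only [mul_assoc]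
      have e2 : star a * T * a' * S = star a * (T * S * a') := by
        calc star a * T * a' * S = star a * T * (a' * S) := by simp only [mul_assoc]
          _ = star a * (T * S * a') := by rw [hS a' ha']; simp only [mul_assoc]
      rw [e1, e2, sub_mul, mul_sub]
    rw [e, ContinuousLinearMap.star_eq_adjoint] at h
    rw [← ContinuousLinearMap.adjoint_inner_right]
    exact h
  have h2 : ∀ a' ∈ 𝒜, (S * T - T * S) (a' Ω) = 0 := by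
    intro a' ha'
    have hz : ∀ v : K, ⟪v, (S * T - T * S) (a' Ω)⟫_ℂ = 0 := by
      intro v
      have hcl : IsClosed {v : K | ⟪v, (S * T - T * S) (a' Ω)⟫_ℂ = 0} :=
        isClosed_eq (by fun_prop) continuous_const
      have hsub : (Set.range fun a : 𝒜 => (a : K →L[ℂ] K) Ω)
          ⊆ {v : K | ⟪v, (S * T - T * S) (a' Ω)⟫_ℂ = 0} := by
        rintro _ ⟨a, rfl⟩
        exact key a a.2 a' ha'
      exact closure_minimal hsub hcl (hcyc v)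
    exact inner_self_eq_zero.mp (hz _)
  have h3 : S * T - T * S = 0 := by
    ext v
    have hcl : IsClosed {v : K | (S * T - T * S) v = 0} :=
      isClosed_eq (S * T - T * S).continuous continuous_const
    have hsub : (Set.range fun a : 𝒜 => (a : K →L[ℂ] K) Ω) ⊆ {v : K | (S * T - T * S) v = 0} := by
      rintro _ ⟨a, rfl⟩
      exact h2 a a.2
    exact closure_minimal hsub hcl (hcyc v)
  exact sub_eq_zero.mp h3

end Crest.Agent.R109
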