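import Crest.Agent.R109.Gb
import Crest.Agent.R109.RvD
import Crest.Agent.R78.Kap
import Crest.Agent.R109.Decomp_A

/-!
# Row 109, task R109-Decomp

The bounded projection onto the groupoid algebra.  PLAN.  Let `N₀` be the star subalgebra `{y | InN y}`, `N₁`
its norm closure (a C⋆-algebra inside `M`).  `K` = completion of `N₁` (or `N₀`) for `⟪y, z⟫ = ω (y⋆ z)`
(`InnerProductSpace.Core`/`PreInnerProductSpace.Core` + `UniformSpace.Completion`, or Mathlib's GNS for
the positive functional `ω|N₁`), `Ω = 1̂`, `ρ : N₁ →⋆ₐ B(K)` left multiplication (injective, so isometric; in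
fact `R78.kap_sa` already returns `‖a‖ ≤ ‖T‖`).  For `y ∈ N₀` right multiplication `R y` is bounded with
`(R y)⋆ = R y♭` (`InN.flat`; by continuity also on `N₁`).  `T`: the bounded self-adjoint operator of the form
`(ŷ, ẑ) ↦ ω (y⋆ x z)`, `‖T‖ ≤ 1`; it commutes with `R y`: `ω (m⋆ x z y) = ω (y♭⋆ m⋆ x z)`-type identity.  `rvd`
with `𝒜 = range ρ`, `ℬ = R (N₀)` (`InN.decomp`) gives `T ∈ 𝒜''`; `R78.kap_sa` gives `n k ∈ N₁` self-adjoint,
`‖n k‖ ≤ 1`, `‖n̂ k - T Ω‖ ≤ 1/(k+1)`.  Let `y` be a weak limit of `n k` along `hyperfilter ℕ`, `x₀ = x - y`;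
`ω (m⋆ y) = lim ω (m⋆ n k) = ⟪m̂, T Ω⟫ = ω (m⋆ x)` for `m ∈ N₀`; `n2 (y - n k) ≤ liminf_j n2 (n j - n k)`;
finally approximate `n k` in norm by self-adjoint elements of `N₀` and rescale to norm `≤ 1`.
You may split this into aux files `Decomp_*.lean` and post sub-tasks.
-/

set_option autoImplicit false
set_option linter.unusedSectionVars false
set_option linter.unusedVariables false

namespace Crest.Agent.R109

open scoped InnerProductSpace ComplexOrder ComplexConjugate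
open Filter Topology

universe u

variable {H : Type u} [NormedAddCommGroup H] [InnerProductSpace ℂ H] [CompleteSpace H]
  {M : VonNeumannAlgebra H} {A : StarSubalgebra ℂ (H →L[ℂ] H)}
  {ω φ : (H →L[ℂ] H) →ₗ[ℂ] ℂ} {E : (H →L[ℂ] H) →ₗ[ℂ] (H →L[ℂ] H)}

namespace DecompA

/-- the groupoid algebra -/
def N0 (h : St M A ω) : StarSubalgebra ℂ (H →L[ℂ] H) where
  carrier := {y | InN M A ω y}
  mul_mem' := fun ha hb => InN.mul h ha hb
  add_mem' := fun ha hb => InN.add ha hb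
  algebraMap_mem' := fun c => InN.of_mem h (algebraMap_mem A c)
  star_mem' := fun ha => InN.adj h ha

theorem N1_le (h : St M A ω) : (N0 h).topologicalClosure ≤ M.toStarSubalgebra :=
  StarSubalgebra.topologicalClosure_minimal (fun y hy => InN.mem h hy) (isClosed_M M)

theorem key (h : St M A ω) {x : H →L[ℂ] H} (hxM : x ∈ M) (hx : IsSelfAdjoint x) (hn : ‖x‖ ≤ 1)
    {ε : ℝ} (hε : 0 < ε) :
    ∃ n ∈ (N0 h).topologicalClosure, IsSelfAdjoint n ∧ ‖n‖ ≤ 1 ∧
      ∀ m ∈ (N0 h).topologicalClosure, ‖ω (star m * (n - x))‖ ≤ ε * n2 ω m := by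
  haveI i1 : IsClosed ((N0 h).topologicalClosure : Set (H →L[ℂ] H)) :=
    StarSubalgebra.isClosed_topologicalClosure _
  haveI i2 : IsClosed (M.toStarSubalgebra : Set (H →L[ℂ] H)) := isClosed_M M
  let S : Set (N0 h).topologicalClosure := {y | InN M A ω (y : H →L[ℂ] H)}
  have hS : Dense S := by
    rw [Metric.dense_iff]
    intro y r hr
    have hy : (y : H →L[ℂ] H) ∈ closure (N0 h : Set (H →L[ℂ] H)) := y.2
    obtain ⟨s, hs, hd⟩ := Metric.mem_closure_iff.mp hy r hr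
    refine ⟨⟨s, StarSubalgebra.le_topologicalClosure _ hs⟩, ?_, hs⟩
    rw [Metric.mem_ball, dist_comm]
    exact hd
  have := abstract (B := (N0 h).topologicalClosure) (D := M.toStarSubalgebra)
    (StarSubalgebra.inclusion (N1_le h)) (ω ∘ₗ M.toStarSubalgebra.subtype.toAlgHom.toLinearMap)
    (fun d => h.npos.pos d d.2) S hS
    (fun y hy => by
      obtain ⟨⟨C, hC⟩, y', hy', h3⟩ := InN.flat h hy
      exact ⟨⟨C, fun m => hC m (N1_le h m.2)⟩,
        ⟨y', StarSubalgebra.le_topologicalClosure _ hy'⟩, hy', fun d => h3 d d.2⟩)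
    (fun y hy => by
      obtain ⟨z, w, hz, hzs, hw, h3, h4⟩ := InN.decomp h hy
      exact ⟨⟨z, StarSubalgebra.le_topologicalClosure _ hz⟩,
        ⟨w, StarSubalgebra.le_topologicalClosure _ hw⟩, Subtype.ext hzs, hw, fun d => h3 d d.2,
        Subtype.ext h4⟩)
    (x := ⟨x, hxM⟩) (Subtype.ext hx) hn hε
  obtain ⟨n, h1, h2, h3⟩ := this
  exact ⟨n, n.2, congrArg Subtype.val h1, h2, fun m hm => h3 ⟨m, hm⟩⟩

theorem le_of_sq {a c : ℝ} (hc : 0 ≤ c) (h : a ^ 2 ≤ c * a) : a ≤ c := by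
  by_contra h1
  push Not at h1
  nlinarith

theorem approx (h : St M A ω) {n : H →L[ℂ] H} (hn : n ∈ (N0 h).topologicalClosure)
    (hs : IsSelfAdjoint n) (h1 : ‖n‖ ≤ 1) {δ : ℝ} (hδ : 0 < δ) :
    ∃ x₁, InN M A ω x₁ ∧ IsSelfAdjoint x₁ ∧ ‖x₁‖ ≤ 1 ∧ ‖n - x₁‖ ≤ 2 * δ := by
  have hy : n ∈ closure (N0 h : Set (H →L[ℂ] H)) := hn
  obtain ⟨s, hs0, hd⟩ := Metric.mem_closure_iff.mp hy δ hδ
  rw [dist_eq_norm] at hd
  have hs1 : InN M A ω s := hs0
  set t : H →L[ℂ] H := (1 / 2 : ℝ) • (s + star s) with ht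
  have ht0 : InN M A ω t := by
    rw [ht, ← Complex.coe_smul]
    exact (hs1.add (InN.adj h hs1)).smul _
  have hts : IsSelfAdjoint t := (IsSelfAdjoint.all _).smul (IsSelfAdjoint.add_star_self s)
  have hnt : ‖n - t‖ ≤ δ := by
    have e : n - t = (1 / 2 : ℝ) • ((n - s) + star (n - s)) := by
      rw [star_sub, hs.star_eq, ht]
      module
    rw [e, norm_smul, Real.norm_eq_abs, abs_of_pos (by norm_num)]
    have := norm_add_le (n - s) (star (n - s))
    rw [norm_star] at this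
    linarith
  have htn : ‖t‖ ≤ 1 + δ := by
    have := norm_sub_le n (n - t)
    rw [sub_sub_cancel] at this
    linarith
  have hp : 0 < 1 + δ := by linarith
  refine ⟨(1 + δ)⁻¹ • t, ?_, (IsSelfAdjoint.all _).smul hts, ?_, ?_⟩
  · rw [← Complex.coe_smul]
    exact ht0.smul _
  · rw [norm_smul, Real.norm_eq_abs, abs_of_pos (inv_pos.mpr hp)]
    exact inv_mul_le_one_of_le₀ htn hp.le
  · have e : n - (1 + δ)⁻¹ • t = (n - t) + (δ * (1 + δ)⁻¹) • t := by
      have : δ * (1 + δ)⁻¹ = 1 - (1 + δ)⁻¹ := by field_simp; ring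
      rw [this]
      module
    rw [e]
    refine (norm_add_le _ _).trans ?_
    rw [norm_smul, Real.norm_eq_abs, abs_of_pos (by positivity), mul_assoc]
    have : δ * ((1 + δ)⁻¹ * ‖t‖) ≤ δ * 1 :=
      mul_le_mul_of_nonneg_left (inv_mul_le_one_of_le₀ htn hp.le) hδ.le
    linarith

end DecompA

theorem decomp (h : St M A ω) {x : H →L[ℂ] H} (hxM : x ∈ M) (hx : IsSelfAdjoint x) (hn : ‖x‖ ≤ 1) :
    ∃ x₀ ∈ M, IsSelfAdjoint x₀ ∧ ‖x₀‖ ≤ 2 ∧ PerpN M A ω x₀ ∧ ∀ η : ℝ, 0 < η →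
      ∃ x₁, InN M A ω x₁ ∧ IsSelfAdjoint x₁ ∧ ‖x₁‖ ≤ 1 ∧ n2 ω (x - x₀ - x₁) ≤ η := by
  have hk : ∀ k : ℕ, (0 : ℝ) < 1 / ((k : ℝ) + 1) := fun k => by positivity
  choose n hnN hns hn1 hnx using fun k : ℕ => DecompA.key h hxM hx hn (hk k)
  have hnM : ∀ k, n k ∈ M := fun k => DecompA.N1_le h (hnN k)
  obtain ⟨y, hy1, hy⟩ := exists_wlim (hyperfilter ℕ) n hn1
  have hyM : y ∈ M := hy.mem (Eventually.of_forall hnM)
  have hys : IsSelfAdjoint y := by
    have h1 := hy.star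
    simp only [(hns _).star_eq] at h1
    exact h1.unique hy
  have hle : (hyperfilter ℕ : Filter ℕ) ≤ atTop := by
    rw [← Nat.cofinite_eq_atTop]; exact hyperfilter_le_cofinite
  -- limits of `ω (m⋆ (n j - c))`
  have hlim : ∀ m ∈ M, ∀ c ∈ M, Tendsto (fun j => ω (star m * (n j - c))) (hyperfilter ℕ)
      (𝓝 (ω (star m * (y - c)))) := by
    intro m hm c hc
    refine h.npos.tendsto (C := ‖m‖ * (1 + ‖c‖)) (Eventually.of_forall fun j => ⟨?_, ?_⟩) ?_
      ((hy.sub (WLim.const c)).mul_left (star m))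
    · exact mul_mem (star_mem hm) (sub_mem (hnM j) hc)
    · refine (norm_mul_le _ _).trans ?_
      rw [norm_star]
      exact mul_le_mul_of_nonneg_left ((norm_sub_le _ _).trans (by linarith [hn1 j])) (norm_nonneg _)
    · exact mul_mem (star_mem hm) (sub_mem hyM hc)
  have hcau : ∀ j k, n2 ω (n j - n k) ≤ 1 / ((j : ℝ) + 1) + 1 / ((k : ℝ) + 1) := by
    intro j k
    have hd : n j - n k ∈ (DecompA.N0 h).topologicalClosure := sub_mem (hnN j) (hnN k)
    refine DecompA.le_of_sq (by positivity) ?_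
    rw [h.npos.pos.n2_sq (sub_mem (hnM j) (hnM k))]
    have e : ω (star (n j - n k) * (n j - n k)) =
        ω (star (n j - n k) * (n j - x)) - ω (star (n j - n k) * (n k - x)) := by
      rw [← map_sub, ← mul_sub]; congr 2; abel
    refine (Complex.re_le_norm _).trans ?_
    rw [e]
    refine (norm_sub_le _ _).trans ?_
    have h1 := hnx j _ hd
    have h2 := hnx k _ hd
    linarith
  have hyk : ∀ k, n2 ω (y - n k) ≤ 2 * (1 / ((k : ℝ) + 1)) := by
    intro k
    have hd : y - n k ∈ M := sub_mem hyM (hnM k)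
    refine DecompA.le_of_sq (by positivity) ?_
    rw [h.npos.pos.n2_sq hd]
    refine (Complex.re_le_norm _).trans ?_
    refine le_of_tendsto (hlim _ hd _ (hnM k)).norm ?_
    filter_upwards [hle (eventually_ge_atTop k)] with j hj
    refine (h.npos.pos.cs hd (sub_mem (hnM j) (hnM k))).trans ?_
    rw [mul_comm]
    refine mul_le_mul_of_nonneg_right ((hcau j k).trans ?_) (n2_nonneg _)
    have : 1 / ((j : ℝ) + 1) ≤ 1 / ((k : ℝ) + 1) := by
      have : (k : ℝ) ≤ j := by exact_mod_cast hj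
      exact one_div_le_one_div_of_le (by positivity) (by linarith)
    linarith
  refine ⟨x - y, sub_mem hxM hyM, hx.sub hys, (norm_sub_le _ _).trans (by linarith), ?_, ?_⟩
  · intro Λ v hv a ha
    have hm : InN M A ω (v * a) := InN.of_gb hv ha
    have hm' : v * a ∈ (DecompA.N0 h).topologicalClosure :=
      StarSubalgebra.le_topologicalClosure _ hm
    have h1 := hlim _ (hm.mem h) x hxM
    have h2 : Tendsto (fun j => ω (star (v * a) * (n j - x))) (hyperfilter ℕ) (𝓝 0) := by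
      refine squeeze_zero_norm (fun j => hnx j _ hm') ?_
      have := (tendsto_one_div_add_atTop_nhds_zero_nat (𝕜 := ℝ)).mul_const (n2 ω (v * a))
      rw [zero_mul] at this
      exact this.mono_left hle
    have h3 := tendsto_nhds_unique h1 h2
    rw [← neg_sub y x, mul_neg, map_neg, h3, neg_zero]
  · intro η hη
    obtain ⟨k, hk'⟩ := exists_nat_one_div_lt (show 0 < η / 4 by positivity)
    obtain ⟨x₁, h1, h2, h3, h4⟩ := DecompA.approx h (hnN k) (hns k) (hn1 k)
      (show 0 < η / 4 by positivity)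
    refine ⟨x₁, h1, h2, h3, ?_⟩
    have e : x - (x - y) - x₁ = (y - n k) + (n k - x₁) := by abel
    have hM1 : n k - x₁ ∈ M := sub_mem (hnM k) (h1.mem h)
    rw [e]
    refine (h.npos.pos.n2_add_le (sub_mem hyM (hnM k)) hM1).trans ?_
    have h5 := hyk k
    have h6 := h.n2_le_norm hM1
    linarith

end Crest.Agent.R109
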