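import Mathlib

/-!
# Row 109 (S0143, S0144): strong-operator paving.  Definitions for the von Neumann part.

Overview (`‖x‖ ≤ 1`).
* `Split`, `Corner`, `Top`: `1 = s + (e - s) + (1 - e)` with projections of `A`; the corner `s` carries a
  faithful normal `A`-central state (`St`, theorem `exp_main`), the corner `1 - e` has no non-zero normal
  `A`-central positive functional (`NoC`, theorem `ne_main`), and `e - s` is small.
* In the case `St`: `E` is the conditional expectation (`CE`), `x - E x = x' + x₂ + x₀` with `x'` a finite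
  combination of normalising partial isometries (`Gb`, `InN`), `x₂` small in `n2`, `x₀` orthogonal to the
  normaliser groupoid.  `x'` is paved by a local Marcus–Spielman–Srivastava rule with random labels
  (`Col`), and the random labels pave `x₀` (`Free*`).
-/

set_option autoImplicit false

namespace Crest.Agent.R109

open scoped InnerProductSpace ComplexOrder
open Filter Topology

universe u

/-- uniform average over a finite type -/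
noncomputable def av {Ω V : Type*} [Fintype Ω] [AddCommMonoid V] [Module ℝ V] (f : Ω → V) : V :=
  (Fintype.card Ω : ℝ)⁻¹ • ∑ ω, f ω

section VN

variable {H : Type u} [NormedAddCommGroup H] [InnerProductSpace ℂ H] [CompleteSpace H]

/-- `A` is a maximal abelian subalgebra of `M` -/
structure Masa (M : VonNeumannAlgebra H) (A : StarSubalgebra ℂ (H →L[ℂ] H)) : Prop where
  le : ∀ a ∈ A, a ∈ M
  comm : ∀ a ∈ A, ∀ b ∈ A, a * b = b * a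
  max : ∀ y ∈ M, (∀ a ∈ A, a * y = y * a) → y ∈ A

/-- projections of `A` -/
def PA (A : StarSubalgebra ℂ (H →L[ℂ] H)) (f : H →L[ℂ] H) : Prop := f ∈ A ∧ IsStarProjection f

/-- indexed partitions of a projection `s` (of `1`) into projections of `A` -/
structure IsPartOf (A : StarSubalgebra ℂ (H →L[ℂ] H)) (s : H →L[ℂ] H) {ι : Type*} [Fintype ι]
    (p : ι → H →L[ℂ] H) : Prop where
  pa : ∀ i, PA A (p i)
  orth : ∀ i j, i ≠ j → p i * p j = 0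
  sum : ∑ i, p i = s

/-- finite partitions of unity in `A`, as finite sets -/
structure Part (A : StarSubalgebra ℂ (H →L[ℂ] H)) where
  cells : Finset (H →L[ℂ] H)
  pa : ∀ p ∈ cells, PA A p
  orth : ∀ p ∈ cells, ∀ q ∈ cells, p ≠ q → p * q = 0
  sum : ∑ p ∈ cells, p = 1

/-- refinement: `P ≤ Q` when every cell of `Q` lies in a cell of `P` -/
instance (A : StarSubalgebra ℂ (H →L[ℂ] H)) : Preorder (Part A) where
  le P Q := ∀ q ∈ Q.cells, ∃ p ∈ P.cells, p * q = q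
  le_refl P q hq := ⟨q, hq, (P.pa q hq).2.isIdempotentElem⟩
  le_trans P Q R h1 h2 r hr := by
    obtain ⟨q, hq, e⟩ := h2 r hr
    obtain ⟨p, hp, e'⟩ := h1 q hq
    exact ⟨p, hp, by rw [← e, ← mul_assoc, e']⟩

/-- the pinching of `y` along a partition -/
noncomputable def EP {A : StarSubalgebra ℂ (H →L[ℂ] H)} (P : Part A) (y : H →L[ℂ] H) : H →L[ℂ] H :=
  ∑ p ∈ P.cells, p * y * p

/-- the pinching along an indexed family -/
noncomputable def pin {ι : Type*} [Fintype ι] (p : ι → H →L[ℂ] H) (y : H →L[ℂ] H) : H →L[ℂ] H :=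
  ∑ i, p i * y * p i

/-- weak operator convergence along a filter -/
def WLim {ι : Type*} (l : Filter ι) (y : ι → H →L[ℂ] H) (z : H →L[ℂ] H) : Prop :=
  ∀ ξ η : H, Tendsto (fun i => ⟪η, y i ξ⟫_ℂ) l (𝓝 ⟪η, z ξ⟫_ℂ)

/-- functionals that are positive on `M` -/
def Pos (M : VonNeumannAlgebra H) (φ : (H →L[ℂ] H) →ₗ[ℂ] ℂ) : Prop :=
  ∀ y ∈ M, 0 ≤ φ (star y * y)

/-- normal positive functionals on `M` -/
structure NPos (M : VonNeumannAlgebra H) (φ : (H →L[ℂ] H) →ₗ[ℂ] ℂ) : Prop where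
  pos : Pos M φ
  nrm : ∀ η : ℝ, 0 < η → ∃ (m : ℕ) (ξ : Fin m → H), ∀ y ∈ M,
    (φ (star y * y)).re ≤ ∑ i, ‖y (ξ i)‖ ^ 2 + η * ‖y‖ ^ 2

/-- `A`-central functionals -/
def Cent (M : VonNeumannAlgebra H) (A : StarSubalgebra ℂ (H →L[ℂ] H))
    (φ : (H →L[ℂ] H) →ₗ[ℂ] ℂ) : Prop :=
  ∀ a ∈ A, ∀ y ∈ M, φ (a * y) = φ (y * a)

/-- a faithful normal `A`-central state -/
structure St (M : VonNeumannAlgebra H) (A : StarSubalgebra ℂ (H →L[ℂ] H))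
    (ω : (H →L[ℂ] H) →ₗ[ℂ] ℂ) : Prop where
  masa : Masa M A
  npos : NPos M ω
  cent : Cent M A ω
  one : ω 1 = 1
  faith : ∀ y ∈ M, ω (star y * y) = 0 → y = 0

/-- there is no non-zero normal `A`-central positive functional -/
def NoC (M : VonNeumannAlgebra H) (A : StarSubalgebra ℂ (H →L[ℂ] H)) : Prop :=
  ∀ φ, NPos M φ → Cent M A φ → φ 1 = 0

/-- the `L²` seminorm -/
noncomputable def n2 (ω : (H →L[ℂ] H) →ₗ[ℂ] ℂ) (y : H →L[ℂ] H) : ℝ := √((ω (star y * y)).re)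

/-- paving of the corner `s` with `r` colours -/
def PavC (M : VonNeumannAlgebra H) (A : StarSubalgebra ℂ (H →L[ℂ] H)) (s : H →L[ℂ] H) (r : ℕ)
    (ε : ℝ) : Prop :=
  ∀ x ∈ M, IsSelfAdjoint x → ‖x‖ ≤ 1 → ∀ (F : Finset H) (δ : ℝ), 0 < δ →
    ∃ p : Fin r → H →L[ℂ] H, IsPartOf A s p ∧
      ∃ a ∈ A, IsSelfAdjoint a ∧ ‖a‖ ≤ 1 ∧ s * a = a ∧
        ∃ q ∈ M, IsStarProjection q ∧ s * q = q ∧ (∀ ξ ∈ F, ‖(s - q) ξ‖ < δ) ∧
          ‖q * (pin p x - a) * q‖ ≤ ε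

/-- approximate paving of the corner `s` with `r` colours -/
def ApC (M : VonNeumannAlgebra H) (A : StarSubalgebra ℂ (H →L[ℂ] H)) (s : H →L[ℂ] H) (r : ℕ)
    (ε : ℝ) : Prop :=
  ∀ x ∈ M, IsSelfAdjoint x → ‖x‖ ≤ 1 → ∀ (F : Finset H) (δ : ℝ), 0 < δ →
    ∃ p : Fin r → H →L[ℂ] H, IsPartOf A s p ∧
      ∃ a ∈ A, IsSelfAdjoint a ∧ ‖a‖ ≤ 1 ∧ s * a = a ∧
        ∃ w ∈ M, IsSelfAdjoint w ∧ s * w = w ∧ ‖w‖ ≤ 2 ∧ (∀ ξ ∈ F, ‖w ξ‖ < δ) ∧
          ‖pin p (x - w) - a‖ ≤ ε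

/-- the projection onto the kernel -/
noncomputable def kerP (h : H →L[ℂ] H) : H →L[ℂ] H :=
  haveI : CompleteSpace h.ker := h.isClosed_ker.completeSpace_coe
  h.ker.starProjection

/-- the conditional expectation onto `A` -/
structure CE (M : VonNeumannAlgebra H) (A : StarSubalgebra ℂ (H →L[ℂ] H))
    (ω : (H →L[ℂ] H) →ₗ[ℂ] ℂ) (E : (H →L[ℂ] H) →ₗ[ℂ] (H →L[ℂ] H)) : Prop where
  mem : ∀ y ∈ M, E y ∈ A
  left : ∀ a ∈ A, ∀ y, E (a * y) = a * E y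
  right : ∀ a ∈ A, ∀ y, E (y * a) = E y * a
  one : E 1 = 1
  star : ∀ y, E (star y) = star (E y)
  pos : ∀ y, 0 ≤ y → 0 ≤ E y
  norm_le : ∀ y, ‖E y‖ ≤ ‖y‖
  inv : ∀ y ∈ M, ω (E y) = ω y
  n2_le : ∀ y ∈ M, n2 ω (E y) ≤ n2 ω y
  conv : ∀ y ∈ M, ∀ η : ℝ, 0 < η → ∃ P₀ : Part A, ∀ P, P₀ ≤ P → n2 ω (EP P y - E y) ≤ η
  /-- normal central functionals factor through `E` -/
  fac : ∀ φ, NPos M φ → Cent M A φ → ∀ y ∈ M, φ (E y) = φ y

/-- elements of `M` normalising `A` on both sides -/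
def QN (M : VonNeumannAlgebra H) (A : StarSubalgebra ℂ (H →L[ℂ] H)) (w : H →L[ℂ] H) : Prop :=
  w ∈ M ∧ (∀ a ∈ A, w * a * star w ∈ A) ∧ ∀ a ∈ A, star w * a * w ∈ A

/-- the normaliser groupoid: normalising partial isometries -/
def Gr (M : VonNeumannAlgebra H) (A : StarSubalgebra ℂ (H →L[ℂ] H)) (v : H →L[ℂ] H) : Prop :=
  QN M A v ∧ v * star v * v = v

/-- `ρ` is a Radon–Nikodym derivative of `v`, with logarithm bounded by `Λ` -/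
def RNd (M : VonNeumannAlgebra H) (A : StarSubalgebra ℂ (H →L[ℂ] H))
    (ω : (H →L[ℂ] H) →ₗ[ℂ] ℂ) (Λ : ℝ) (v ρ : H →L[ℂ] H) : Prop :=
  ρ ∈ A ∧ Real.exp (-Λ) • (1 : H →L[ℂ] H) ≤ ρ ∧ ρ ≤ Real.exp Λ • (1 : H →L[ℂ] H) ∧
    ∀ y ∈ M, ω (v * y) = ω (y * v * ρ)

/-- groupoid elements with bounded Radon–Nikodym derivative -/
def Gb (M : VonNeumannAlgebra H) (A : StarSubalgebra ℂ (H →L[ℂ] H))
    (ω : (H →L[ℂ] H) →ₗ[ℂ] ℂ) (Λ : ℝ) (v : H →L[ℂ] H) : Prop :=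
  Gr M A v ∧ ∃ ρ, RNd M A ω Λ v ρ

/-- the algebra spanned by `Gb` and `A` -/
def InN (M : VonNeumannAlgebra H) (A : StarSubalgebra ℂ (H →L[ℂ] H))
    (ω : (H →L[ℂ] H) →ₗ[ℂ] ℂ) (y : H →L[ℂ] H) : Prop :=
  ∃ (n : ℕ) (Λ : ℝ) (v a : Fin n → H →L[ℂ] H), 0 ≤ Λ ∧ (∀ i, Gb M A ω Λ (v i) ∧ a i ∈ A) ∧
    y = ∑ i, v i * a i

/-- orthogonality to the groupoid -/
def PerpN (M : VonNeumannAlgebra H) (A : StarSubalgebra ℂ (H →L[ℂ] H))
    (ω : (H →L[ℂ] H) →ₗ[ℂ] ℂ) (T : H →L[ℂ] H) : Prop :=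
  ∀ Λ v, Gb M A ω Λ v → ∀ a ∈ A, ω (star (v * a) * T) = 0

/-- the fibre measures of `T` have no atoms -/
def NoAtom (A : StarSubalgebra ℂ (H →L[ℂ] H)) (ω : (H →L[ℂ] H) →ₗ[ℂ] ℂ)
    (E : (H →L[ℂ] H) →ₗ[ℂ] (H →L[ℂ] H)) (T : H →L[ℂ] H) : Prop :=
  ∀ γ : ℝ, 0 < γ → ∃ (Q : Part A) (g : H →L[ℂ] H), PA A g ∧ (ω (1 - g)).re ≤ γ ∧
    ∀ p ∈ Q.cells, ‖E (star T * p * T) * g‖ ≤ γ

/-- over `f`, the fibre measures of `T` have atoms of mass `≥ γ` -/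
def Big (A : StarSubalgebra ℂ (H →L[ℂ] H)) (E : (H →L[ℂ] H) →ₗ[ℂ] (H →L[ℂ] H))
    (T : H →L[ℂ] H) (γ : ℝ) (f : H →L[ℂ] H) : Prop :=
  PA A f ∧ f ≠ 0 ∧ ∀ (Q : Part A) (f' : H →L[ℂ] H), PA A f' → f' ≠ 0 → f * f' = f' →
    ∃ p ∈ Q.cells, γ < ‖E (star T * p * T) * f'‖

/-- `W` is a non-zero "graph part" of `T` -/
structure SubG (M : VonNeumannAlgebra H) (A : StarSubalgebra ℂ (H →L[ℂ] H))
    (ω : (H →L[ℂ] H) →ₗ[ℂ] ℂ) (T W : H →L[ℂ] H) : Prop where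
  mem : W ∈ M
  ne : W ≠ 0
  left : ∀ e, PA A e → ∃ e', PA A e' ∧ e * W = W * e'
  inh : ∀ c ∈ A, ∀ d ∈ A, T * c = d * T → W * c = d * W
  orth1 : ∀ a ∈ A, ∀ b ∈ A, ω (star W * a * (T - W) * b) = 0
  orth2 : ω (W * star (T - W)) = 0
  lim : ∀ z ∈ M, (∀ a ∈ A, ∀ b ∈ A, ω (T * a * z * b) = 0) → ω (W * z) = 0

/-! ### random labels -/

variable {ι : Type u} [Fintype ι] [DecidableEq ι] {m : ℕ}

/-- conditional expectation over the label of `e` -/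
noncomputable def cE (e : ι) (η : (ι → Fin m) → H →L[ℂ] H) : (ι → Fin m) → H →L[ℂ] H :=
  fun l => av fun i : Fin m => η (Function.update l e i)

/-- the part of `η` whose first letter depends on the label of its own cell -/
noncomputable def PiD (g : ι → H →L[ℂ] H) (η : (ι → Fin m) → H →L[ℂ] H) :
    (ι → Fin m) → H →L[ℂ] H :=
  fun l => ∑ e, g e * (η l - cE e η l)

/-- the complementary part -/
noncomputable def PiO (g : ι → H →L[ℂ] H) (η : (ι → Fin m) → H →L[ℂ] H) :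
    (ι → Fin m) → H →L[ℂ] H :=
  fun l => ∑ e, g e * cE e η l

/-- sums of functions of at most `d` labels, with values in `M` -/
def Deg (M : VonNeumannAlgebra H) (d : ℕ) (η : (ι → Fin m) → H →L[ℂ] H) : Prop :=
  ∃ ζ : Finset ι → (ι → Fin m) → H →L[ℂ] H, (∀ l, η l = ∑ S, ζ S l) ∧ (∀ S l, ζ S l ∈ M) ∧
    (∀ S, d < S.card → ∀ l, ζ S l = 0) ∧
    ∀ S l l', (∀ e ∈ S, l e = l' e) → ζ S l = ζ S l'

/-- the squared norm of `L²(labels) ⊗ L²(M)` -/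
noncomputable def N2 (ω : (H →L[ℂ] H) →ₗ[ℂ] ℂ) (η : (ι → Fin m) → H →L[ℂ] H) : ℝ :=
  av fun l => n2 ω (η l) ^ 2

/-- a random colouring, driven by labels on the cells `g e`, that paves `x'` -/
structure RCol (M : VonNeumannAlgebra H) (A : StarSubalgebra ℂ (H →L[ℂ] H))
    (ω : (H →L[ℂ] H) →ₗ[ℂ] ℂ) (g : ι → H →L[ℂ] H) (x' : H →L[ℂ] H) (D : ℕ) (ε₁ η : ℝ) {r : ℕ}
    (p : (ι → Fin m) → Fin r → H →L[ℂ] H) : Prop where
  part : ∀ l, IsPartOf A 1 (p l)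
  deg : ∀ c, Deg M D fun l => p l c
  inj : ∀ l e (i i' : Fin m) c, i ≠ i' →
    p (Function.update l e i) c * p (Function.update l e i') c * g e = 0
  small : ∀ l, ∃ h ∈ M, 0 ≤ h ∧ ‖h‖ ≤ 4 ∧ (ω h).re ≤ η ∧
    pin (p l) x' * pin (p l) x' ≤ (ε₁ ^ 2) • (1 : H →L[ℂ] H) + h

end VN

end Crest.Agent.R109
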