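import Crest.Agent.R109.Part

/-!
# Row 109, task R109-ES

Efron–Stein bound.  PLAN.  The maps `cE e` are commuting idempotent linear maps on `(ι → Fin m) → B(H)`,
commute with left multiplication by fixed operators and are self-adjoint for every form
`(η, ζ) ↦ av_l ω (η l⋆ k ζ l)` (`av_l av_i F (update l e i) = av_l F l`).  `η_S = ∏_{e ∈ S} (1 - cE e)
∏_{e ∉ S} cE e η` (define through `Finset.noncommProd`, a list, or the explicit formula
`η_S = ∑_{T ⊆ S} (-1)^{|S \\ T|} (average over the labels outside T)`); `η = ∑ η_S`, the `η_S` are orthogonal for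
all these forms, `(1 - cE e) η_S = 1[e ∈ S] η_S`, and `η_S = 0` when `η` depends only on labels in `T`,
`S ⊄ T`.  So `PiD g (x₀ PiD g η) = ∑_S ∑_{e, e' ∈ S} g e x₀ g e' η_S`, whose `N2` is
`∑_S ∑_{e ∈ S} ‖∑_{e' ∈ S} g e x₀ g e' η_S‖² ≤ d ∑_S ∑_{e ∈ S} ⟨η_S, pin g (x₀⋆ g e x₀) η_S⟩ ≤ d² ∑_S ⟨η_S, (γ + k) η_S⟩`.
-/

set_option autoImplicit false
set_option linter.unusedSectionVars false
set_option linter.unusedVariables false

namespace Crest.Agent.R109

open scoped InnerProductSpace ComplexOrder ComplexConjugate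
open Filter Topology

universe u

variable {H : Type u} [NormedAddCommGroup H] [InnerProductSpace ℂ H] [CompleteSpace H]
  {M : VonNeumannAlgebra H} {A : StarSubalgebra ℂ (H →L[ℂ] H)}
  {ω φ : (H →L[ℂ] H) →ₗ[ℂ] ℂ} {E : (H →L[ℂ] H) →ₗ[ℂ] (H →L[ℂ] H)}
  {ι : Type u} [Fintype ι] [DecidableEq ι] {m : ℕ}

theorem Deg.mono {d d' : ℕ} {η : (ι → Fin m) → H →L[ℂ] H} (h : Deg M d η) (hd : d ≤ d') :
    Deg M d' η := by
  obtain ⟨ζ, h1, h2, h3, h4⟩ := h
  exact ⟨ζ, h1, h2, fun S hS => h3 S (lt_of_le_of_lt hd hS), h4⟩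

theorem Deg.mem {d : ℕ} {η : (ι → Fin m) → H →L[ℂ] H} (h : Deg M d η) (l : ι → Fin m) : η l ∈ M := by
  obtain ⟨ζ, h1, h2, -, -⟩ := h
  rw [h1]
  exact sum_mem fun S _ => h2 S l

theorem Deg.const {y : H →L[ℂ] H} (hy : y ∈ M) : Deg M 0 fun _ : ι → Fin m => y := by
  refine ⟨fun S _ => if S = ∅ then y else 0, fun l => by simp, fun S l => ?_, fun S hS l => ?_,
    fun S l l' _ => rfl⟩
  · beta_reduce
    split_ifs
    · exact hy
    · exact zero_mem _
  · beta_reduce
    rw [if_neg]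
    rintro rfl
    simp at hS

theorem Deg.mul {d d' : ℕ} {η ζ : (ι → Fin m) → H →L[ℂ] H} (h : Deg M d η) (h' : Deg M d' ζ) :
    Deg M (d + d') fun l => η l * ζ l := by
  obtain ⟨a, a1, a2, a3, a4⟩ := h
  obtain ⟨b, b1, b2, b3, b4⟩ := h'
  refine ⟨fun U l => ∑ S, ∑ T, if S ∪ T = U then a S l * b T l else 0, fun l => ?_, fun U l => ?_,
    fun U hU l => ?_, fun U l l' hl => ?_⟩
  · beta_reduce
    rw [a1, b1, Finset.sum_mul_sum]
    symm
    rw [Finset.sum_comm]
    refine Finset.sum_congr rfl fun S _ => ?_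
    rw [Finset.sum_comm]
    refine Finset.sum_congr rfl fun T _ => ?_
    simp
  · refine sum_mem fun S _ => sum_mem fun T _ => ?_
    split_ifs
    · exact mul_mem (a2 S l) (b2 T l)
    · exact zero_mem _
  · refine Finset.sum_eq_zero fun S _ => Finset.sum_eq_zero fun T _ => ?_
    split_ifs with hST
    · have hc := Finset.card_union_le S T
      rw [hST] at hc
      rcases lt_or_ge d S.card with h1 | h1
      · rw [a3 S h1, zero_mul]
      · rw [b3 T (by omega), mul_zero]
    · rfl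
  · refine Finset.sum_congr rfl fun S _ => Finset.sum_congr rfl fun T _ => ?_
    split_ifs with hST
    · rw [a4 S l l' fun e he => hl e (hST ▸ Finset.mem_union_left _ he),
        b4 T l l' fun e he => hl e (hST ▸ Finset.mem_union_right _ he)]
    · rfl

theorem Deg.sum {d : ℕ} {κ : Type*} (s : Finset κ) {η : κ → (ι → Fin m) → H →L[ℂ] H}
    (h : ∀ k ∈ s, Deg M d (η k)) : Deg M d fun l => ∑ k ∈ s, η k l := by
  classical
  induction s using Finset.induction_on with
  | empty =>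
    simp only [Finset.sum_empty]
    exact (Deg.const (zero_mem M)).mono (Nat.zero_le d)
  | insert a s ha ih =>
    obtain ⟨u, a1, a2, a3, a4⟩ := h a (Finset.mem_insert_self a s)
    obtain ⟨v, b1, b2, b3, b4⟩ := ih fun k hk => h k (Finset.mem_insert_of_mem hk)
    refine ⟨fun S l => u S l + v S l, fun l => ?_, fun S l => add_mem (a2 S l) (b2 S l),
      fun S hS l => ?_, fun S l l' hl => ?_⟩
    · have := b1 l
      simp only at this
      simp only [Finset.sum_insert ha, Finset.sum_add_distrib, a1 l, this]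
    · simp only [a3 S hS l, b3 S hS l, add_zero]
    · simp only [a4 S l l' hl, b4 S l l' hl]

/-- degree of the words -/
theorem deg_word {D r : ℕ} {p : (ι → Fin m) → Fin r → H →L[ℂ] H} (hp : ∀ c, Deg M D fun l => p l c)
    {x : H →L[ℂ] H} (hx : x ∈ M) (j : ℕ) (c : Fin r) :
    Deg M ((2 * j + 1) * D) fun l => p l c * pin (p l) x ^ j := by
  have h1 : Deg M (D + 0 + D) fun l => pin (p l) x := by
    unfold pin
    exact Deg.sum Finset.univ fun i _ => ((hp i).mul (Deg.const hx)).mul (hp i)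
  have h2 : ∀ j : ℕ, Deg M (2 * j * D) fun l => pin (p l) x ^ j := by
    intro j
    induction j with
    | zero =>
      simp only [pow_zero]
      exact (Deg.const (one_mem M)).mono (Nat.zero_le _)
    | succ j ih =>
      simp only [pow_succ]
      exact (ih.mul h1).mono (le_of_eq (by ring))
  exact ((hp c).mul (h2 j)).mono (le_of_eq (by ring))

namespace ESA

theorem exists_P {R : Type*} [Ring R] {κ : Type*} [DecidableEq κ] (c : κ → R)
    (hc : ∀ e e', Commute (c e) (c e')) (hi : ∀ e, c e * c e = c e) (Q : R → Prop) (q1 : Q 1)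
    (qm : ∀ a b, Q a → Q b → Q (a * b)) (qs : ∀ a b, Q a → Q b → Q (a - b)) (qc : ∀ e, Q (c e))
    (T : Finset κ) :
    ∃ P : Finset κ → R, ∑ S ∈ T.powerset, P S = 1 ∧ (∀ S e, Commute (c e) (P S)) ∧
      (∀ S, ∀ e ∈ T, c e * P S = if e ∈ S then 0 else P S) ∧ ∀ S, Q (P S) := by
  induction T using Finset.induction_on with
  | empty => exact ⟨fun _ => 1, by simp, fun S e => Commute.one_right _, by simp, fun _ => q1⟩
  | insert a T ha ih =>
    obtain ⟨P, p1, p2, p3, p4⟩ := ih
    have hf : ∀ (S : Finset κ) e, Commute (c e) (if a ∈ S then 1 - c a else c a) := by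
      intro S e
      split_ifs
      · exact (Commute.one_right _).sub_right (hc e a)
      · exact hc e a
    refine ⟨fun S => (if a ∈ S then 1 - c a else c a) * P (S.erase a), ?_, fun S e => ?_,
      fun S e he => ?_, fun S => ?_⟩
    · rw [Finset.sum_powerset_insert ha, ← Finset.sum_add_distrib]
      refine Eq.trans (Finset.sum_congr rfl fun S hS => ?_) p1
      have haS : a ∉ S := fun h => ha (Finset.mem_powerset.mp hS h)
      rw [if_neg haS, if_pos (Finset.mem_insert_self a S), Finset.erase_insert haS,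
        Finset.erase_eq_of_notMem haS, ← add_mul]
      simp
    · exact (hf S e).mul_right (p2 _ e)
    · rcases Finset.mem_insert.mp he with rfl | he
      · beta_reduce
        rw [← mul_assoc]
        split_ifs
        · rw [mul_sub, mul_one, hi, sub_self, zero_mul]
        · rw [hi]
      · have hne : e ≠ a := fun h => ha (h ▸ he)
        rw [← mul_assoc, (hf S e).eq, mul_assoc, p3 _ e he]
        by_cases h : e ∈ S
        · rw [if_pos h, if_pos (Finset.mem_erase.mpr ⟨hne, h⟩), mul_zero]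
        · rw [if_neg h, if_neg (fun h' => h (Finset.mem_of_mem_erase h'))]
    · refine qm _ _ ?_ (p4 _)
      split_ifs
      · exact qs _ _ q1 (qc a)
      · exact qc a

theorem rsmul_mem (r : ℝ) {y : H →L[ℂ] H} (hy : y ∈ M) : r • y ∈ M := by
  have := M.toStarSubalgebra.smul_mem hy (r : ℂ)
  rw [Complex.coe_smul] at this
  exact this

theorem av_const {V : Type*} [AddCommGroup V] [Module ℝ V] (hm : 0 < m) (v : V) :
    av (fun _ : Fin m => v) = v := by
  unfold av
  have : (m : ℝ) ≠ 0 := by exact_mod_cast hm.ne'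
  rw [Finset.sum_const, Finset.card_univ, Fintype.card_fin, ← Nat.cast_smul_eq_nsmul ℝ, smul_smul,
    inv_mul_cancel₀ this, one_smul]

/-- `cE e` as a linear map -/
noncomputable def C (e : ι) : Module.End ℝ ((ι → Fin m) → H →L[ℂ] H) where
  toFun := cE e
  map_add' a b := by
    funext l
    simp only [cE, av, Pi.add_apply, Finset.sum_add_distrib, smul_add]
  map_smul' r a := by
    funext l
    simp only [cE, av, Pi.smul_apply, RingHom.id_apply, ← Finset.smul_sum]
    rw [smul_comm]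

theorem C_apply (e : ι) (η : (ι → Fin m) → H →L[ℂ] H) : C e η = cE e η := rfl

theorem cE_update (e : ι) (η : (ι → Fin m) → H →L[ℂ] H) (l : ι → Fin m) (i : Fin m) :
    cE e η (Function.update l e i) = cE e η l := by
  simp only [cE, Function.update_idem]

theorem C_idem (hm : 0 < m) (e : ι) :
    (C e : Module.End ℝ ((ι → Fin m) → H →L[ℂ] H)) * C e = C e := by
  refine LinearMap.ext fun η => ?_
  funext l
  change (av fun i : Fin m => cE e η (Function.update l e i)) = cE e η l
  simp only [cE_update]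
  exact av_const hm _

theorem C_comm (e e' : ι) :
    Commute (C e : Module.End ℝ ((ι → Fin m) → H →L[ℂ] H)) (C e') := by
  rcases eq_or_ne e e' with rfl | hne
  · exact Commute.refl _
  · change C e * C e' = C e' * C e
    refine LinearMap.ext fun η => ?_
    funext l
    change cE e (cE e' η) l = cE e' (cE e η) l
    simp only [cE, av, ← Finset.smul_sum]
    rw [Finset.sum_comm]
    congr 2
    refine Finset.sum_congr rfl fun i _ => Finset.sum_congr rfl fun j _ => ?_
    rw [Function.update_comm hne]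

theorem cE_mem (e : ι) {η : (ι → Fin m) → H →L[ℂ] H} (h : ∀ l, η l ∈ M) (l : ι → Fin m) :
    cE e η l ∈ M :=
  rsmul_mem _ (sum_mem fun i _ => h _)

theorem cE_mul (e : ι) (a : H →L[ℂ] H) (η : (ι → Fin m) → H →L[ℂ] H) :
    cE e (fun l => a * η l) = fun l => a * cE e η l := by
  funext l
  simp only [cE, av, ← Finset.mul_sum, mul_smul_comm]

theorem sum_update (e : ι) (G : (ι → Fin m) → ℝ) :
    ∑ l, ∑ i : Fin m, G (Function.update l e i) = m * ∑ l, G l := by
  let f : (ι → Fin m) × Fin m → (ι → Fin m) × Fin m := fun z => (Function.update z.1 e z.2, z.1 e)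
  have hf : Function.Involutive f := by
    rintro ⟨l, i⟩
    simp [f]
  have h1 := Equiv.sum_comp hf.toPerm (fun z => G z.1)
  rw [Fintype.sum_prod_type, Fintype.sum_prod_type] at h1
  simp only [Function.Involutive.coe_toPerm, f, Finset.sum_const, Finset.card_univ,
    Fintype.card_fin, nsmul_eq_mul, ← Finset.mul_sum] at h1
  exact h1

/-- components of pure type `S` -/
def Pure (S : Finset ι) (ξ : (ι → Fin m) → H →L[ℂ] H) : Prop :=
  ∀ e, cE e ξ = if e ∈ S then 0 else ξ

theorem Pure.mul {S : Finset ι} {ξ : (ι → Fin m) → H →L[ℂ] H} (h : Pure S ξ) (a : H →L[ℂ] H) :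
    Pure S fun l => a * ξ l := by
  intro e
  rw [cE_mul, h e]
  split_ifs
  · funext l
    simp
  · rfl

/-- the real form -/
noncomputable def I (ω : (H →L[ℂ] H) →ₗ[ℂ] ℂ) (ξ ζ : (ι → Fin m) → H →L[ℂ] H) : ℝ :=
  ∑ l, (ω (star (ξ l) * ζ l)).re

theorem sum_of_cE (hm : 0 < m) {e : ι} {ξ : (ι → Fin m) → H →L[ℂ] H} (h : cE e ξ = 0)
    (l : ι → Fin m) : ∑ i, ξ (Function.update l e i) = 0 := by
  have h1 := congrFun h l
  have : ((Fintype.card (Fin m) : ℕ) : ℝ)⁻¹ ≠ 0 := by
    rw [Fintype.card_fin]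
    exact inv_ne_zero (by exact_mod_cast hm.ne')
  simp only [cE, av, Pi.zero_apply] at h1
  exact (smul_eq_zero.mp h1).resolve_left this

theorem I_orth (hm : 0 < m) {S T : Finset ι} (hST : S ≠ T) {ξ ζ : (ι → Fin m) → H →L[ℂ] H}
    (hξ : Pure S ξ) (hζ : Pure T ζ) : I ω ξ ζ = 0 := by
  have hm' : (m : ℝ) ≠ 0 := by exact_mod_cast hm.ne'
  obtain ⟨e, he⟩ : ∃ e, ¬ (e ∈ S ↔ e ∈ T) := by
    by_contra hcon
    push Not at hcon
    exact hST (Finset.ext hcon)
  refine mul_left_cancel₀ hm' ?_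
  unfold I
  rw [← sum_update e, mul_zero]
  refine Finset.sum_eq_zero fun l _ => ?_
  have h1 := hξ e
  have h2 := hζ e
  by_cases hS : e ∈ S
  · have hT : e ∉ T := fun h => he ⟨fun _ => h, fun _ => hS⟩
    rw [if_pos hS] at h1
    rw [if_neg hT] at h2
    have h3 : ∀ i, ζ (Function.update l e i) = ζ l := fun i => by
      rw [← h2, cE_update]
    simp only [h3]
    rw [← Complex.re_sum, ← map_sum, ← Finset.sum_mul, ← star_sum, sum_of_cE hm h1]
    simp
  · have hT : e ∈ T := by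
      by_contra hT
      exact he ⟨fun h => absurd h hS, fun h => absurd h hT⟩
    rw [if_neg hS] at h1
    rw [if_pos hT] at h2
    have h3 : ∀ i, ξ (Function.update l e i) = ξ l := fun i => by
      rw [← h1, cE_update]
    simp only [h3]
    rw [← Complex.re_sum, ← map_sum, ← Finset.mul_sum, sum_of_cE hm h2]
    simp

theorem I_sum (hm : 0 < m) {ξ ζ : Finset ι → (ι → Fin m) → H →L[ℂ] H}
    (hξ : ∀ S, Pure S (ξ S)) (hζ : ∀ S, Pure S (ζ S)) :
    I ω (fun l => ∑ S, ξ S l) (fun l => ∑ S, ζ S l) = ∑ S, I ω (ξ S) (ζ S) := by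
  have h1 : I ω (fun l => ∑ S, ξ S l) (fun l => ∑ S, ζ S l) = ∑ S, ∑ T, I ω (ξ S) (ζ T) := by
    unfold I
    simp only [star_sum, Finset.sum_mul_sum, map_sum, Complex.re_sum]
    rw [Finset.sum_comm]
    refine Finset.sum_congr rfl fun S _ => ?_
    rw [Finset.sum_comm]
  rw [h1]
  refine Finset.sum_congr rfl fun S _ => ?_
  rw [Finset.sum_eq_single S]
  · intro T _ hT
    exact I_orth hm hT.symm (hξ S) (hζ T)
  · intro h
    exact absurd (Finset.mem_univ S) h

theorem PiD_sum (g : ι → H →L[ℂ] H) {ξ : Finset ι → (ι → Fin m) → H →L[ℂ] H}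
    (hξ : ∀ S, Pure S (ξ S)) :
    PiD g (fun l => ∑ S, ξ S l) = fun l => ∑ S, (∑ e ∈ S, g e) * ξ S l := by
  funext l
  have h1 : ∀ e, cE e (fun l => ∑ S, ξ S l) l = ∑ S, cE e (ξ S) l := by
    intro e
    have : (fun l => ∑ S, ξ S l) = ∑ S, ξ S := by
      funext l
      rw [Finset.sum_apply]
    rw [this, ← C_apply, map_sum, Finset.sum_apply]
    rfl
  unfold PiD
  simp only [h1, ← Finset.sum_sub_distrib, Finset.mul_sum]
  rw [Finset.sum_comm]
  refine Finset.sum_congr rfl fun S _ => ?_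
  rw [Finset.sum_mul, ← Finset.sum_subset (Finset.subset_univ S)]
  · refine Finset.sum_congr rfl fun e he => ?_
    rw [hξ S e, if_pos he]
    simp
  · intro e _ he
    rw [hξ S e, if_neg he]
    simp

theorem op_cs {κ : Type*} (S : Finset κ) (a : κ → H →L[ℂ] H) :
    star (∑ i ∈ S, a i) * ∑ i ∈ S, a i ≤ (S.card : ℝ) • ∑ i ∈ S, star (a i) * a i := by
  have h1 : 0 ≤ ∑ i ∈ S, ∑ j ∈ S, star (a i - a j) * (a i - a j) :=
    Finset.sum_nonneg fun i _ => Finset.sum_nonneg fun j _ => star_mul_self_nonneg _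
  have h2 : ∑ i ∈ S, ∑ j ∈ S, star (a i - a j) * (a i - a j) =
      (2 : ℝ) • ((S.card : ℝ) • ∑ i ∈ S, star (a i) * a i - star (∑ i ∈ S, a i) * ∑ i ∈ S, a i) := by
    have e1 : ∑ i ∈ S, ∑ j ∈ S, star (a j) * a i = ∑ i ∈ S, ∑ j ∈ S, star (a i) * a j :=
      Finset.sum_comm
    simp only [star_sub, sub_mul, mul_sub, Finset.sum_sub_distrib, Finset.sum_const, e1, star_sum,
      Finset.sum_mul_sum, ← Finset.smul_sum, Nat.cast_smul_eq_nsmul, two_smul]
    abel
  rw [h2] at h1
  have h3 := smul_nonneg (by norm_num : (0 : ℝ) ≤ 1 / 2) h1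
  rw [smul_smul] at h3
  rw [show (1 / 2 * 2 : ℝ) = 1 by norm_num, one_smul] at h3
  exact sub_nonneg.mp h3

theorem op_bound {g : ι → H →L[ℂ] H} (hg : IsPartOf A 1 g) {x₀ K : H →L[ℂ] H}
    (hb : ∀ e, pin g (star x₀ * g e * x₀) ≤ K) (S : Finset ι) :
    star ((∑ e ∈ S, g e) * (x₀ * ∑ e ∈ S, g e)) * ((∑ e ∈ S, g e) * (x₀ * ∑ e ∈ S, g e)) ≤
      ((S.card : ℝ) ^ 2) • K := by
  have hs : ∀ e, star (g e) = g e := fun e => (hg.pa e).2.isSelfAdjoint.star_eq
  have hi : ∀ e, g e * g e = g e := fun e => (hg.pa e).2.isIdempotentElem.eq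
  set y := x₀ * ∑ e ∈ S, g e with hy
  have h1 : star ((∑ e ∈ S, g e) * y) * ((∑ e ∈ S, g e) * y) =
      ∑ e ∈ S, star (g e * y) * (g e * y) := by
    rw [Finset.sum_mul, star_sum, Finset.sum_mul_sum]
    refine Finset.sum_congr rfl fun e he => ?_
    rw [Finset.sum_eq_single e]
    · intro e' _ hne
      rw [star_mul, hs, mul_assoc, ← mul_assoc (g e), hg.orth e e' hne.symm]
      simp
    · intro h
      exact absurd he h
  have h2 : ∀ e, star (g e * y) * (g e * y) ≤ (S.card : ℝ) • K := by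
    intro e
    have e1 : g e * y = ∑ e' ∈ S, g e * x₀ * g e' := by
      rw [hy, ← mul_assoc, Finset.mul_sum]
    rw [e1]
    refine (op_cs S _).trans (smul_le_smul_of_nonneg_left ?_ (Nat.cast_nonneg _))
    refine le_trans ?_ (hb e)
    unfold pin
    have e2 : ∀ e', g e' * (star x₀ * g e * x₀) * g e' =
        star (g e * x₀ * g e') * (g e * x₀ * g e') := by
      intro e'
      simp only [star_mul, hs, mul_assoc]
      rw [← mul_assoc (g e) (g e), hi]
    simp only [e2]
    exact Finset.sum_le_sum_of_subset_of_nonneg (Finset.subset_univ S)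
      fun i _ _ => star_mul_self_nonneg _
  rw [h1]
  refine (Finset.sum_le_sum fun e _ => h2 e).trans (le_of_eq ?_)
  rw [Finset.sum_const, ← Nat.cast_smul_eq_nsmul ℝ, smul_smul, sq]

theorem N2_eq (hω : Pos M ω) {η : (ι → Fin m) → H →L[ℂ] H} (h : ∀ l, η l ∈ M) :
    N2 ω η = (Fintype.card (ι → Fin m) : ℝ)⁻¹ * I ω η η := by
  unfold N2 av I
  simp only [hω.n2_sq (h _), smul_eq_mul]

end ESA

theorem es_bound (hA : Masa M A) (hω : Pos M ω) (hm : 0 < m) {g : ι → H →L[ℂ] H}
    (hg : IsPartOf A 1 g) {x₀ k : H →L[ℂ] H} (hx : x₀ ∈ M) (hk : k ∈ M) (hk0 : 0 ≤ k) {γ : ℝ}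
    (hγ : 0 ≤ γ) (hb : ∀ e, pin g (star x₀ * g e * x₀) ≤ γ • (1 : H →L[ℂ] H) + k) {d : ℕ}
    {η : (ι → Fin m) → H →L[ℂ] H} (hη : Deg M d η) :
    N2 ω (PiD g fun l => x₀ * PiD g η l) ≤
      (d : ℝ) ^ 2 * (γ * N2 ω η + av fun l => (ω (star (η l) * k * η l)).re) := by
  open ESA in
  obtain ⟨P, p1, p2, p3, p4⟩ := exists_P (R := Module.End ℝ ((ι → Fin m) → H →L[ℂ] H)) C C_comm
    (C_idem hm) (fun T => ∀ ξ : (ι → Fin m) → H →L[ℂ] H, (∀ l, ξ l ∈ M) → ∀ l, T ξ l ∈ M) (fun ξ h => h)
    (fun a b ha hb ξ h => ha _ (hb ξ h)) (fun a b ha hb ξ h l => sub_mem (ha ξ h l) (hb ξ h l))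
    (fun e ξ h => cE_mem e h) Finset.univ
  rw [Finset.powerset_univ] at p1
  have hηM := hη.mem
  have hgM : ∀ e, g e ∈ M := fun e => hA.le _ (hg.pa e).1
  set ξ : Finset ι → (ι → Fin m) → H →L[ℂ] H := fun S => P S η with hξ
  have hdec : η = fun l => ∑ S, ξ S l := by
    funext l
    rw [← Finset.sum_apply, ← LinearMap.sum_apply, p1]
    rfl
  have hpure : ∀ S, ESA.Pure S (ξ S) := by
    intro S e
    have := LinearMap.congr_fun (p3 S e (Finset.mem_univ e)) η
    rw [Module.End.mul_apply, ESA.C_apply] at this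
    rw [hξ]
    simp only
    rw [this]
    split_ifs <;> rfl
  have hmem : ∀ S l, ξ S l ∈ M := fun S => p4 S η hηM
  have hzero : ∀ S, d < S.card → ξ S = 0 := by
    intro S hS
    obtain ⟨ζ, z1, z2, z3, z4⟩ := hη
    have e1 : η = ∑ T, ζ T := by
      funext l
      rw [Finset.sum_apply, z1]
    rw [hξ]
    simp only
    rw [e1, map_sum]
    refine Finset.sum_eq_zero fun T _ => ?_
    rcases lt_or_ge d T.card with hT | hT
    · rw [show ζ T = 0 from funext (z3 T hT), map_zero]
    · obtain ⟨e, heS, heT⟩ := Finset.exists_mem_notMem_of_card_lt_card (lt_of_le_of_lt hT hS)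
      have e2 : ESA.C e (ζ T) = ζ T := by
        funext l
        have : ∀ i, ζ T (Function.update l e i) = ζ T l := fun i =>
          z4 T _ _ fun e' he' => Function.update_of_ne (fun h : e' = e => heT (h ▸ he')) _ _
        change (av fun i : Fin m => ζ T (Function.update l e i)) = ζ T l
        simp only [this]
        exact ESA.av_const hm _
      rw [← e2, ← Module.End.mul_apply, ← (p2 S e).eq, p3 S e (Finset.mem_univ e), if_pos heS]
      rfl
  set K : H →L[ℂ] H := γ • (1 : H →L[ℂ] H) + k with hK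
  have hKM : K ∈ M := add_mem (ESA.rsmul_mem γ (one_mem M)) hk
  have hK0 : 0 ≤ K := add_nonneg (smul_nonneg hγ zero_le_one) hk0
  set y : Finset ι → H →L[ℂ] H := fun S => (∑ e ∈ S, g e) * (x₀ * ∑ e ∈ S, g e) with hy
  have hyM : ∀ S, y S ∈ M := fun S =>
    mul_mem (sum_mem fun e _ => hgM e) (mul_mem hx (sum_mem fun e _ => hgM e))
  have h1 : (PiD g fun l => x₀ * PiD g η l) = fun l => ∑ S, y S * ξ S l := by
    have e1 : (fun l => x₀ * PiD g η l) = fun l => ∑ S, (x₀ * ∑ e ∈ S, g e) * ξ S l := by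
      funext l
      rw [hdec, ESA.PiD_sum g hpure]
      simp only [Finset.mul_sum (s := Finset.univ), mul_assoc]
    rw [e1, ESA.PiD_sum g (ξ := fun S l => (x₀ * ∑ e ∈ S, g e) * ξ S l) fun S => (hpure S).mul _]
    simp only [hy, mul_assoc]
  have h2 : ∀ S, ESA.I ω (fun l => y S * ξ S l) (fun l => y S * ξ S l) ≤
      (d : ℝ) ^ 2 * ESA.I ω (ξ S) (fun l => K * ξ S l) := by
    intro S
    rcases lt_or_ge d S.card with hS | hS
    · simp [ESA.I, hzero S hS]
    · unfold ESA.I
      rw [Finset.mul_sum]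
      refine Finset.sum_le_sum fun l _ => ?_
      have b1 : star (y S) * y S ≤ ((d : ℝ) ^ 2) • K := by
        refine (ESA.op_bound hg hb S).trans (smul_le_smul_of_nonneg_right ?_ hK0)
        have : (S.card : ℝ) ≤ d := by exact_mod_cast hS
        exact pow_le_pow_left₀ (Nat.cast_nonneg _) this 2
      have b2 := star_left_conjugate_le_conjugate b1 (ξ S l)
      have b3 := hω.mono
        (mul_mem (mul_mem (star_mem (hmem S l)) (mul_mem (star_mem (hyM S)) (hyM S))) (hmem S l))
        (mul_mem (mul_mem (star_mem (hmem S l)) (ESA.rsmul_mem _ hKM)) (hmem S l)) b2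
      have e1 : star (ξ S l) * (star (y S) * y S) * ξ S l = star (y S * ξ S l) * (y S * ξ S l) := by
        simp only [star_mul, mul_assoc]
      have e2 : (ω (star (ξ S l) * ((d : ℝ) ^ 2) • K * ξ S l)).re =
          (d : ℝ) ^ 2 * (ω (star (ξ S l) * (K * ξ S l))).re := by
        rw [mul_smul_comm, smul_mul_assoc, ← Complex.coe_smul, map_smul, smul_eq_mul,
          Complex.re_ofReal_mul, mul_assoc]
      rw [e1, e2] at b3
      exact b3
  have h3 : ∑ S, ESA.I ω (ξ S) (fun l => K * ξ S l) =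
      γ * ESA.I ω η η + ∑ l, (ω (star (η l) * k * η l)).re := by
    rw [← ESA.I_sum hm hpure (ζ := fun S l => K * ξ S l) fun S => (hpure S).mul K]
    have e1 : (fun l => ∑ S, K * ξ S l) = fun l => K * η l := by
      funext l
      rw [← Finset.mul_sum, hdec]
    rw [e1, ← hdec]
    unfold ESA.I
    rw [Finset.mul_sum, ← Finset.sum_add_distrib]
    refine Finset.sum_congr rfl fun l _ => ?_
    beta_reduce
    rw [hK, add_mul, mul_add, map_add, Complex.add_re, smul_mul_assoc, one_mul, mul_smul_comm,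
      ← Complex.coe_smul, map_smul, smul_eq_mul, Complex.re_ofReal_mul, mul_assoc]
  rw [h1, ESA.N2_eq hω fun l => sum_mem fun S _ => mul_mem (hyM S) (hmem S l), ESA.N2_eq hω hηM,
    ESA.I_sum hm (ξ := fun S l => y S * ξ S l) (ζ := fun S l => y S * ξ S l)
      (fun S => (hpure S).mul _) fun S => (hpure S).mul _]
  have h4 := Finset.sum_le_sum fun S (_ : S ∈ Finset.univ) => h2 S
  rw [← Finset.mul_sum, h3] at h4
  have h5 : (0 : ℝ) ≤ (Fintype.card (ι → Fin m) : ℝ)⁻¹ := inv_nonneg.mpr (Nat.cast_nonneg _)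
  refine (mul_le_mul_of_nonneg_left h4 h5).trans (le_of_eq ?_)
  unfold av
  rw [smul_eq_mul]
  ring

end Crest.Agent.R109
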