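import Crest.Agent.R109.Env_A

/-!
# Row 109, task R109-Env

Central positive functionals are singular when `NoC`.  PLAN (lower semicontinuous envelope).  For `0 ≤ m ∈ M`
and a pair `V = (G, t)` (finite set of vectors, `t > 0`) put `L V m = inf {re Ψ m' | m' ∈ M, 0 ≤ m',
‖m'‖ ≤ ‖m‖, ‖(m' - m) g‖ ≤ t (g ∈ G)}`, `L m = sup_V L V m ≤ re Ψ m`.  Equivalently (more convenient) call a
net `m i → m` admissible when `m i ∈ M`, `0 ≤ m i`, uniformly bounded, strongly convergent (`Env_A`: along
a filter `l`); continuous functional calculus is strongly continuous on bounded self-adjoint nets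
(polynomial approximation), so truncation `min (m i) ‖m‖` shows `L m ≤ liminf re Ψ (m i)` for EVERY
admissible net, and some admissible net has `re Ψ (m i) → L m`.  (1) `L (m + m') ≤ L m + L m'` (add nets on the
product filter), `L (c m) = c L m`, `L (u m u⋆) = L m` for unitaries `u ∈ A`.  (2) if `s = m + m'` is
invertible, `m = s^{1/2} b s^{1/2}`, `0 ≤ b ≤ 1`, and `w i → s` admissible, then `w^{1/2} b w^{1/2} → m`,
`w^{1/2} (1 - b) w^{1/2} → m'`, so `L m + L m' ≤ L s`; in general use `L (m + 1) = L m + L 1`.  (3) extend the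
additive homogeneous `L` to a linear functional on `M` (`y = y₁ - y₂ + i (y₃ - y₄)`), then to `B(H)`
(`LinearMap.exists_extend`).  (4) normality: `L (y⋆ y) = L 1 - L (1 - y⋆ y)` for `‖y‖ ≤ 1`, and lower
semicontinuity at `1` gives `V` with `L (1 - y⋆ y) ≥ L 1 - η` whenever `‖y g‖` is small on `G` (a point close
to a point close to `1` is close to `1`); rescale the vectors `g`.  (5) central: `A` is spanned by unitaries
(or use `u = 1 - 2 f` and `Masa.ext_proj`).  So `L 1 = 0`, which is the claim.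
ACTUAL PROOF (helper26): if `Ψ` is not singular, `EnvA.exists_vec` (Hahn–Banach/Uhlmann) gives a non-zero
vector functional `≤ 4 Ψ`; in the GNS space of `Ψ` the vector of minimal norm representing a normal positive
functional with a fixed value at `1` is invariant under the symmetries `1 - 2 f`, hence central.
-/

set_option autoImplicit false
set_option linter.unusedSectionVars false
set_option linter.unusedVariables false

namespace Crest.Agent.R109

open scoped InnerProductSpace ComplexOrder ComplexConjugate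
open Filter Topology

universe u

variable {H : Type u} [NormedAddCommGroup H] [InnerProductSpace ℂ H] [CompleteSpace H]
  {M : VonNeumannAlgebra H} {A : StarSubalgebra ℂ (H →L[ℂ] H)}
  {ω φ : (H →L[ℂ] H) →ₗ[ℂ] ℂ} {E : (H →L[ℂ] H) →ₗ[ℂ] (H →L[ℂ] H)}

namespace EnvA

/-- the pre-GNS space -/
def PG {Ψ : (H →L[ℂ] H) →ₗ[ℂ] ℂ} (hp : Pos M Ψ) : Type u := Ms M

variable {Ψ : (H →L[ℂ] H) →ₗ[ℂ] ℂ} (hp : Pos M Ψ)

instance : AddCommGroup (PG hp) := inferInstanceAs (AddCommGroup (Ms M))
noncomputable instance : Module ℂ (PG hp) := inferInstanceAs (Module ℂ (Ms M))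

/-- the underlying operator -/
def PG.val (y : PG hp) : H →L[ℂ] H := (show Ms M from y).1

theorem PG.mem (y : PG hp) : PG.val hp y ∈ M := (show Ms M from y).2

noncomputable abbrev core : PreInnerProductSpace.Core ℂ (PG hp) where
  inner a b := Ψ (star (PG.val hp a) * PG.val hp b)
  conj_inner_symm a b := by
    change conj (Ψ (star (PG.val hp b) * PG.val hp a)) = Ψ (star (PG.val hp a) * PG.val hp b)
    rw [← hp.map_star (mul_mem (star_mem (PG.mem hp b)) (PG.mem hp a)), star_mul, star_star]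
  re_inner_nonneg a := (Complex.le_def.1 (hp _ (PG.mem hp a))).1
  add_left a b c := by
    change Ψ (star (PG.val hp a + PG.val hp b) * PG.val hp c) = _
    rw [star_add, add_mul, map_add]
  smul_left a b r := by
    change Ψ (star (r • PG.val hp a) * PG.val hp b) = _
    rw [star_smul, smul_mul_assoc, map_smul]
    rfl

noncomputable instance : SeminormedAddCommGroup (PG hp) :=
  InnerProductSpace.Core.toSeminormedAddCommGroup (c := core hp)
noncomputable instance : InnerProductSpace ℂ (PG hp) := InnerProductSpace.ofCore (core hp)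

/-- the canonical map to the GNS space -/
noncomputable def toG : Ms M →ₗ[ℂ] UniformSpace.Completion (PG hp) :=
  (UniformSpace.Completion.toComplₗᵢ (𝕜 := ℂ) (E := PG hp)).toLinearMap

theorem norm_toG (y : Ms M) : ‖toG hp y‖ = n2 Ψ y :=
  (UniformSpace.Completion.toComplₗᵢ (𝕜 := ℂ) (E := PG hp)).norm_map y

include hp in
theorem exists_gns : ∃ (G : Type u) (_ : NormedAddCommGroup G) (_ : InnerProductSpace ℂ G)
    (_ : CompleteSpace G) (T : Ms M →ₗ[ℂ] G), ∀ y, ‖T y‖ = n2 Ψ y :=
  ⟨_, _, inferInstance, inferInstance, toG hp, norm_toG hp⟩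

theorem NPos.congr {ψ : (H →L[ℂ] H) →ₗ[ℂ] ℂ} (h : NPos M φ) (e : ∀ y ∈ M, ψ y = φ y) :
    NPos M ψ := by
  refine ⟨fun y hy => ?_, fun η hη => ?_⟩
  · rw [e _ (mul_mem (star_mem hy) hy)]; exact h.pos y hy
  · obtain ⟨m, ξ, hξ⟩ := h.nrm η hη
    refine ⟨m, ξ, fun y hy => ?_⟩
    rw [e _ (mul_mem (star_mem hy) hy)]; exact hξ y hy

/-- the vector functional -/
noncomputable def vf {k : ℕ} (η : Fin k → H) : (H →L[ℂ] H) →ₗ[ℂ] ℂ where
  toFun y := ∑ i, ⟪η i, y (η i)⟫_ℂ
  map_add' y z := by simp [inner_add_right, Finset.sum_add_distrib]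
  map_smul' c y := by simp [inner_smul_right, Finset.mul_sum]

theorem vf_star_mul {k : ℕ} (η : Fin k → H) (y : H →L[ℂ] H) :
    vf η (star y * y) = ((∑ i, ‖y (η i)‖ ^ 2 : ℝ) : ℂ) := by
  change ∑ i, ⟪η i, (star y * y) (η i)⟫_ℂ = _
  rw [Complex.ofReal_sum]
  refine Finset.sum_congr rfl fun i _ => ?_
  rw [ContinuousLinearMap.mul_apply, ContinuousLinearMap.star_eq_adjoint,
    ContinuousLinearMap.adjoint_inner_right, inner_self_eq_norm_sq_to_K]
  simp

theorem vf_npos {k : ℕ} (η : Fin k → H) : NPos M (vf η) := by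
  refine ⟨fun y hy => ?_, fun ε hε => ⟨k, η, fun y hy => ?_⟩⟩
  · rw [vf_star_mul]
    exact Complex.zero_le_real.2 (Finset.sum_nonneg fun i _ => by positivity)
  · rw [vf_star_mul, Complex.ofReal_re]
    exact le_add_of_nonneg_right (by positivity)

include hp in
theorem n2_le_norm {y : H →L[ℂ] H} (hy : y ∈ M) : n2 Ψ y ≤ n2 Ψ 1 * ‖y‖ := by
  have := hp.n2_mul_left hy (one_mem M)
  rwa [mul_one, mul_comm] at this

end EnvA

open EnvA in
theorem singular (hA : Masa M A) (hN : NoC M A) {Ψ : (H →L[ℂ] H) →ₗ[ℂ] ℂ} (hp : Pos M Ψ)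
    (hc : Cent M A Ψ) (F : Finset H) {δ : ℝ} (hδ : 0 < δ) :
    ∃ m ∈ M, 0 ≤ m ∧ m ≤ 1 ∧ (Ψ m).re ≤ δ ∧ ∀ ξ ∈ F, ‖(1 - m) ξ‖ ≤ δ := by
  by_contra hn
  obtain ⟨k, η, hη0, hη⟩ := exists_vec hp F hδ hn
  obtain ⟨G, _, _, _, T, hT⟩ := exists_gns hp
  obtain ⟨r, hr⟩ := LinearMap.exists_extend (LinearMap.id : Ms M →ₗ[ℂ] Ms M)
  have hr' : ∀ y (hy : y ∈ M), r y = ⟨y, hy⟩ := fun y hy => LinearMap.congr_fun hr ⟨y, hy⟩
  let fv : G → (H →L[ℂ] H) →ₗ[ℂ] ℂ := fun v => (innerSL ℂ v).toLinearMap ∘ₗ T ∘ₗ r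
  have hfv : ∀ v y, fv v y = ⟪v, T (r y)⟫_ℂ := fun v y => rfl
  have hTr : ∀ y ∈ M, ‖T (r y)‖ = n2 Ψ y := fun y hy => by rw [hr' y hy, hT]
  have hb : ∀ v, ∀ y ∈ M, ‖fv v y‖ ≤ ‖v‖ * n2 Ψ y := fun v y hy => by
    rw [hfv, ← hTr y hy]; exact norm_inner_le_norm _ _
  -- Riesz representation
  have hR : ∀ (ψ : (H →L[ℂ] H) →ₗ[ℂ] ℂ) (C : ℝ), 0 ≤ C → (∀ y ∈ M, ‖ψ y‖ ≤ C * n2 Ψ y) →
      ∃ w : G, ‖w‖ ≤ C ∧ ∀ y ∈ M, fv w y = ψ y := by
    intro ψ C hC h
    obtain ⟨w, -, hw, e⟩ := riesz T (ψ ∘ₗ (Ms M).subtype) hC fun y => by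
      rw [hT]; exact h y y.2
    exact ⟨w, hw, fun y hy => by rw [hfv, hr' y hy]; exact (e ⟨y, hy⟩).symm⟩
  set c : ℂ := vf η 1 with hcdef
  have hc0 : c ≠ 0 := by
    intro h0
    have h1 := vf_star_mul η 1
    rw [star_one, one_mul, ← hcdef, h0] at h1
    have h2 : ∑ i, ‖(1 : H →L[ℂ] H) (η i)‖ ^ 2 = 0 := by exact_mod_cast h1.symm
    rw [Finset.sum_eq_zero_iff_of_nonneg fun i _ => by positivity] at h2
    apply hη0
    funext i
    simpa using h2 i (Finset.mem_univ i)
  let K : Set G := {v | NPos M (fv v) ∧ fv v 1 = c}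
  have hne : K.Nonempty := by
    obtain ⟨w, -, hw⟩ := hR (vf η) (n2 (vf η) 1 * 2) (mul_nonneg (n2_nonneg _) (by norm_num)) (by
      intro y hy
      have h1 := (vf_npos (M := M) η).pos.cs (one_mem M) hy
      rw [star_one, one_mul] at h1
      refine h1.trans ?_
      rw [mul_assoc]
      refine mul_le_mul_of_nonneg_left ?_ (n2_nonneg _)
      refine abs_le_of_sq_le_sq' ?_ (mul_nonneg (by norm_num) (n2_nonneg _)) |>.2
      rw [(vf_npos (M := M) η).pos.n2_sq hy, vf_star_mul, Complex.ofReal_re, mul_pow,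
        hp.n2_sq hy]
      linarith [hη y hy])
    exact ⟨w, NPos.congr (vf_npos η) hw, hw 1 (one_mem M)⟩
  have hcont : ∀ y, Continuous fun v => fv v y := fun y => by
    simp only [hfv]; fun_prop
  have hcl : IsClosed K := by
    refine isClosed_of_closure_subset fun v hv => ⟨⟨fun y hy => ?_, fun ε hε => ?_⟩, ?_⟩
    · exact closure_minimal (s := K) (t := {v | 0 ≤ fv v (star y * y)})
        (fun w hw => hw.1.pos y hy) (isClosed_le continuous_const (hcont _)) hv
    · have hD : 0 < n2 Ψ 1 + 1 := by linarith [n2_nonneg (φ := Ψ) 1]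
      obtain ⟨w, hw, hvw⟩ := Metric.mem_closure_iff.1 hv (ε / 2 / (n2 Ψ 1 + 1)) (by positivity)
      obtain ⟨m, ξ, hξ⟩ := hw.1.nrm (ε / 2) (by positivity)
      refine ⟨m, ξ, fun y hy => ?_⟩
      have hyy : star y * y ∈ M := mul_mem (star_mem hy) hy
      have h1 := hξ y hy
      have h2 : fv v (star y * y) = fv w (star y * y) + fv (v - w) (star y * y) := by
        simp only [hfv, inner_sub_left]; ring
      have h3 := hb (v - w) _ hyy
      have h4 := n2_le_norm hp hyy
      rw [CStarRing.norm_star_mul_self] at h4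
      rw [dist_eq_norm, lt_div_iff₀ hD] at hvw
      have h5 : ‖v - w‖ * n2 Ψ (star y * y) ≤ ε / 2 * ‖y‖ ^ 2 := by
        calc _ ≤ ‖v - w‖ * (n2 Ψ 1 * (‖y‖ * ‖y‖)) := mul_le_mul_of_nonneg_left h4 (norm_nonneg _)
          _ = (‖v - w‖ * n2 Ψ 1) * ‖y‖ ^ 2 := by ring
          _ ≤ ε / 2 * ‖y‖ ^ 2 :=
            mul_le_mul_of_nonneg_right (by nlinarith [norm_nonneg (v - w)]) (by positivity)
      have h6 := Complex.re_le_norm (fv (v - w) (star y * y))
      rw [h2, Complex.add_re]
      linarith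
    · exact closure_minimal (s := K) (t := {v | fv v 1 = c})
        (fun w hw => hw.2) (isClosed_eq (hcont _) continuous_const) hv
  obtain ⟨v, hv, hmin⟩ := min_norm hne hcl (by
    intro v hv w hw a b ha hb' hab
    have e : ∀ y, fv ((a : ℂ) • v + (b : ℂ) • w) y = ((a : ℂ) • fv v + (b : ℂ) • fv w) y := by
      intro y
      simp only [hfv, LinearMap.add_apply, LinearMap.smul_apply, inner_add_left, inner_smul_left,
        Complex.conj_ofReal, smul_eq_mul]
    refine ⟨NPos.congr ((hv.1.smul ha).add (hw.1.smul hb')) fun y _ => e y, ?_⟩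
    rw [e, LinearMap.add_apply, LinearMap.smul_apply, LinearMap.smul_apply, hv.2, hw.2,
      smul_eq_mul, smul_eq_mul, ← add_mul, ← Complex.ofReal_add, hab, Complex.ofReal_one, one_mul])
  -- invariance under symmetries
  have hsym : ∀ f, PA A f → ∀ y ∈ M, fv v (f * y) = fv v (y * f) := by
    intro f hf y hy
    set u : H →L[ℂ] H := 1 - (f + f) with hu
    have huA : u ∈ A := sub_mem (one_mem A) (add_mem hf.1 hf.1)
    have huM : u ∈ M := hA.le u huA
    have hff : f * f = f := hf.2.isIdempotentElem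
    have hus : star u = u := by
      rw [hu, star_sub, star_one, star_add, hf.2.isSelfAdjoint.star_eq]
    have huu : u * u = 1 := by
      rw [hu]
      simp only [sub_mul, mul_sub, add_mul, mul_add, one_mul, mul_one, hff]
      abel
    let ψ := fv v ∘ₗ (LinearMap.mulLeft ℂ (star u) ∘ₗ LinearMap.mulRight ℂ u)
    have hψ : ∀ z, ψ z = fv v (u * (z * u)) := fun z => by
      change fv v (star u * (z * u)) = _
      rw [hus]
    obtain ⟨w, hw, e⟩ := hR ψ ‖v‖ (norm_nonneg v) (by
      intro z hz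
      have hm : u * (z * u) ∈ M := mul_mem huM (mul_mem hz huM)
      rw [hψ]
      refine (hb v _ hm).trans (le_of_eq ?_)
      congr 1
      unfold n2
      have e1 : star (u * (z * u)) * (u * (z * u)) = u * (star z * z * u) := by
        rw [star_mul, star_mul, hus]
        calc u * star z * u * (u * (z * u)) = u * star z * (u * u) * (z * u) := by
              simp only [mul_assoc]
          _ = _ := by rw [huu]; simp only [mul_assoc, mul_one]
      rw [e1, hc u huA _ (mul_mem (mul_mem (star_mem hz) hz) huM), mul_assoc, huu, mul_one])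
    have hwK : w ∈ K := ⟨NPos.congr (hv.1.conj huM) e, by
      rw [e 1 (one_mem M), hψ, one_mul, huu]; exact hv.2⟩
    have hwv := hmin w hwK hw
    have h1 := e (u * y) (mul_mem huM hy)
    rw [hwv, hψ, ← mul_assoc, ← mul_assoc, huu, one_mul, hu] at h1
    simp only [sub_mul, mul_sub, add_mul, mul_add, one_mul, mul_one, map_sub, map_add] at h1
    linear_combination (-1 / 2 : ℂ) * h1
  have hcent : Cent M A (fv v) := by
    intro a ha y hy
    have h1 := hA.ext_proj (fv v ∘ₗ (LinearMap.mulRight ℂ y - LinearMap.mulLeft ℂ y))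
      (C := (fv v 1).re * (2 * ‖y‖)) (by
        intro b hb'
        have hbM := hA.le b hb'
        have h0 : 0 ≤ (fv v 1).re :=
          (Complex.le_def.1 (hv.1.pos.nonneg (one_mem M) zero_le_one)).1
        change ‖fv v (b * y - y * b)‖ ≤ _
        refine (hv.1.pos.norm_le (sub_mem (mul_mem hbM hy) (mul_mem hy hbM))).trans ?_
        rw [mul_assoc]
        refine mul_le_mul_of_nonneg_left ((norm_sub_le _ _).trans ?_) h0
        nlinarith [norm_mul_le b y, norm_mul_le y b]) (by
        intro f hf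
        change fv v (f * y - y * f) = 0
        rw [map_sub, hsym f hf y hy, sub_self]) a ha
    change fv v (a * y - y * a) = 0 at h1
    rwa [map_sub, sub_eq_zero] at h1
  exact hc0 (hv.2.symm.trans (hN _ hv.1 hcent))

end Crest.Agent.R109
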