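import Crest.Agent.R109.UAC

/-!
# Row 109, task R109-Env, part A: Hilbert space lemmas and the Uhlmann step.
If `Ψ` is not singular, Hahn–Banach for the sublinear functional
`p x = inf {Ψ a + ω b | [[a, x], [x⋆, b]] ≥ 0}` and Riesz give vectors `η ≠ 0` with `ω_η ≤ 4 Ψ`.
-/

set_option autoImplicit false
set_option linter.unusedSectionVars false
set_option linter.unusedVariables false

namespace Crest.Agent.R109.EnvA

open scoped InnerProductSpace ComplexOrder ComplexConjugate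
open Filter Topology

universe u

theorem riesz {V E : Type*} [AddCommGroup V] [Module ℂ V] [NormedAddCommGroup E]
    [InnerProductSpace ℂ E] [CompleteSpace E] (T : V →ₗ[ℂ] E) (β : V →ₗ[ℂ] ℂ) {C : ℝ} (hC : 0 ≤ C)
    (h : ∀ v, ‖β v‖ ≤ C * ‖T v‖) :
    ∃ η ∈ closure (Set.range T), ‖η‖ ≤ C ∧ ∀ v, β v = ⟪η, T v⟫_ℂ := by
  set S : Submodule ℂ E := (LinearMap.range T).topologicalClosure with hS
  haveI : CompleteSpace S := (Submodule.isClosed_topologicalClosure _).completeSpace_coe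
  let e : V →ₗ[ℂ] S := T.codRestrict S fun v =>
    Submodule.le_topologicalClosure _ (LinearMap.mem_range_self T v)
  have he : DenseRange e := by
    intro s
    rw [IsInducing.subtypeVal.closure_eq_preimage_closure_image, ← Set.range_comp]
    exact s.2
  have h' : ∀ v, ‖β v‖ ≤ C * ‖e v‖ := h
  let g : S →L[ℂ] ℂ := β.extendOfNorm e
  refine ⟨((InnerProductSpace.toDual ℂ S).symm g : S), ((InnerProductSpace.toDual ℂ S).symm g).2,
    ?_, fun v => ?_⟩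
  · rw [← Submodule.coe_norm, LinearIsometryEquiv.norm_map]
    exact ContinuousLinearMap.opNorm_le_bound _ hC (LinearMap.norm_extendOfNorm_apply_le he C h')
  · have h1 : g (e v) = β v := LinearMap.extendOfNorm_eq he ⟨C, h'⟩ v
    rw [← h1, ← InnerProductSpace.toDual_symm_apply]
    rfl

theorem min_norm {E : Type*} [NormedAddCommGroup E] [InnerProductSpace ℂ E] [CompleteSpace E]
    {K : Set E} (hne : K.Nonempty) (hcl : IsClosed K)
    (hconv : ∀ v ∈ K, ∀ w ∈ K, ∀ a b : ℝ, 0 ≤ a → 0 ≤ b → a + b = 1 →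
      (a : ℂ) • v + (b : ℂ) • w ∈ K) :
    ∃ v ∈ K, ∀ w ∈ K, ‖w‖ ≤ ‖v‖ → w = v := by
  letI : InnerProductSpace ℝ E := InnerProductSpace.rclikeToReal ℂ E
  have hc : Convex ℝ K := fun v hv w hw a b ha hb hab => hconv v hv w hw a b ha hb hab
  obtain ⟨v, hv, hmin⟩ := exists_norm_eq_iInf_of_complete_convex hne hcl.isComplete hc 0
  have hle : ∀ w ∈ K, ‖v‖ ≤ ‖w‖ := by
    intro w hw
    have h1 : (⨅ w : K, ‖(0 : E) - w‖) ≤ ‖(0 : E) - w‖ :=
      ciInf_le ⟨0, by rintro _ ⟨w, rfl⟩; exact norm_nonneg _⟩ (⟨w, hw⟩ : K)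
    rw [← hmin] at h1
    simpa using h1
  refine ⟨v, hv, fun w hw hwv => ?_⟩
  have h1 := hle _ (hconv v hv w hw (1 / 2) (1 / 2) (by norm_num) (by norm_num) (by norm_num))
  rw [← smul_add, norm_smul] at h1
  have h2 : ‖((1 / 2 : ℝ) : ℂ)‖ = 1 / 2 := by simp
  rw [h2] at h1
  have h3 := parallelogram_law_with_norm ℂ v w
  have h4 : ‖v - w‖ * ‖v - w‖ ≤ 0 := by
    nlinarith [norm_nonneg v, norm_nonneg w, norm_nonneg (v + w)]
  have h5 : ‖v - w‖ = 0 := by nlinarith [norm_nonneg (v - w)]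
  exact (sub_eq_zero.1 (norm_eq_zero.1 h5)).symm

theorem le_of_forall_scale {a b d : ℝ} (hb : 0 ≤ b) (hd : 0 ≤ d)
    (h : ∀ t : ℝ, 0 < t → t * a ≤ b + t ^ 2 * d ^ 2) : a ≤ (b + 1) * d := by
  rcases hd.eq_or_lt with rfl | hd
  · by_contra hc
    have ha : 0 < a := by simpa using hc
    have := h ((b + 1) / a) (by positivity)
    rw [div_mul_cancel₀ _ ha.ne'] at this
    linarith
  · have := h (1 / d) (by positivity)
    have e : (1 / d) ^ 2 * d ^ 2 = 1 := by field_simp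
    rw [e, one_div, inv_mul_le_iff₀ hd] at this
    linarith

variable {H : Type u} [NormedAddCommGroup H] [InnerProductSpace ℂ H] [CompleteSpace H]
  {M : VonNeumannAlgebra H}

/-- `M` as a submodule -/
def Ms (M : VonNeumannAlgebra H) : Submodule ℂ (H →L[ℂ] H) :=
  Subalgebra.toSubmodule M.toStarSubalgebra.toSubalgebra

theorem mem_Ms {y : H →L[ℂ] H} : y ∈ Ms M ↔ y ∈ M := Iff.rfl

/-- `[[a, x], [x⋆, b]] ≥ 0` -/
def Rep (M : VonNeumannAlgebra H) (x a b : H →L[ℂ] H) : Prop :=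
  a ∈ M ∧ b ∈ M ∧ 0 ≤ a ∧ 0 ≤ b ∧
    ∀ ζ ζ' : H, 2 * (⟪ζ, x ζ'⟫_ℂ).re ≤ (⟪ζ, a ζ⟫_ℂ).re + (⟪ζ', b ζ'⟫_ℂ).re

theorem re_inner_nonneg {a : H →L[ℂ] H} (ha : 0 ≤ a) (ζ : H) : 0 ≤ (⟪ζ, a ζ⟫_ℂ).re :=
  ((ContinuousLinearMap.nonneg_iff_isPositive a).1 ha).re_inner_nonneg_right ζ

theorem re_inner_star_mul (y : H →L[ℂ] H) (ζ : H) :
    (⟪ζ, (star y * y) ζ⟫_ℂ).re = ‖y ζ‖ ^ 2 := by
  rw [ContinuousLinearMap.mul_apply, ContinuousLinearMap.star_eq_adjoint,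
    ContinuousLinearMap.adjoint_inner_right]
  exact inner_self_eq_norm_sq (𝕜 := ℂ) _

theorem Rep.star_mul {y z : H →L[ℂ] H} (hy : y ∈ M) (hz : z ∈ M) :
    Rep M (star y * z) (star y * y) (star z * z) := by
  refine ⟨mul_mem (star_mem hy) hy, mul_mem (star_mem hz) hz, star_mul_self_nonneg _,
    star_mul_self_nonneg _, fun ζ ζ' => ?_⟩
  rw [re_inner_star_mul, re_inner_star_mul, ContinuousLinearMap.mul_apply,
    ContinuousLinearMap.star_eq_adjoint, ContinuousLinearMap.adjoint_inner_right]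
  have h1 : (⟪y ζ, z ζ'⟫_ℂ).re ≤ ‖y ζ‖ * ‖z ζ'‖ :=
    (Complex.re_le_norm _).trans (norm_inner_le_norm _ _)
  nlinarith [sq_nonneg (‖y ζ‖ - ‖z ζ'‖)]

theorem Rep.add {x a b x' a' b' : H →L[ℂ] H} (h : Rep M x a b) (h' : Rep M x' a' b') :
    Rep M (x + x') (a + a') (b + b') := by
  refine ⟨add_mem h.1 h'.1, add_mem h.2.1 h'.2.1, add_nonneg h.2.2.1 h'.2.2.1,
    add_nonneg h.2.2.2.1 h'.2.2.2.1, fun ζ ζ' => ?_⟩
  have h1 := h.2.2.2.2 ζ ζ'
  have h2 := h'.2.2.2.2 ζ ζ'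
  simp only [ContinuousLinearMap.add_apply, inner_add_right, Complex.add_re]
  linarith

theorem Rep.smul {x a b : H →L[ℂ] H} (h : Rep M x a b) {c : ℝ} (hc : 0 ≤ c) :
    Rep M (c • x) (c • a) (c • b) := by
  have e : ∀ y : H →L[ℂ] H, c • y = (c : ℂ) • y := fun y => (Complex.coe_smul c y).symm
  refine ⟨e a ▸ (Ms M).smul_mem _ h.1, e b ▸ (Ms M).smul_mem _ h.2.1, smul_nonneg hc h.2.2.1,
    smul_nonneg hc h.2.2.2.1, fun ζ ζ' => ?_⟩
  have h1 := mul_le_mul_of_nonneg_left (h.2.2.2.2 ζ ζ') hc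
  simp only [e, ContinuousLinearMap.smul_apply, inner_smul_right, Complex.re_ofReal_mul]
  linarith

theorem Rep.exists (x : H →L[ℂ] H) : ∃ a b, Rep M x a b := by
  have e : ∀ ζ : H, (⟪ζ, (‖x‖ • (1 : H →L[ℂ] H)) ζ⟫_ℂ).re = ‖x‖ * ‖ζ‖ ^ 2 := by
    intro ζ
    rw [← Complex.coe_smul, ContinuousLinearMap.smul_apply, inner_smul_right,
      Complex.re_ofReal_mul, ContinuousLinearMap.one_apply]
    congr 1
    exact inner_self_eq_norm_sq (𝕜 := ℂ) _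
  have hm : ‖x‖ • (1 : H →L[ℂ] H) ∈ M := by
    rw [← Complex.coe_smul]; exact (Ms M).smul_mem _ (one_mem M)
  have h0 : 0 ≤ ‖x‖ • (1 : H →L[ℂ] H) := smul_nonneg (norm_nonneg x) zero_le_one
  refine ⟨_, _, hm, hm, h0, h0, fun ζ ζ' => ?_⟩
  rw [e, e]
  have h1 : (⟪ζ, x ζ'⟫_ℂ).re ≤ ‖ζ‖ * (‖x‖ * ‖ζ'‖) :=
    (Complex.re_le_norm _).trans ((norm_inner_le_norm _ _).trans
      (mul_le_mul_of_nonneg_left (x.le_opNorm _) (norm_nonneg _)))
  nlinarith [mul_nonneg (norm_nonneg x) (sq_nonneg (‖ζ‖ - ‖ζ'‖))]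

/-- Hahn–Banach for the representation functional -/
theorem exists_hb {Ψ : (H →L[ℂ] H) →ₗ[ℂ] ℂ} (hp : Pos M Ψ) {k : ℕ} (ξ : Fin k → H) {c : ℝ}
    (hc : ∀ a b, Rep M 1 a b → c ≤ (Ψ a).re + ∑ i, (⟪ξ i, b (ξ i)⟫_ℂ).re) :
    ∃ g : (H →L[ℂ] H) →ₗ[ℝ] ℝ, c ≤ g 1 ∧
      ∀ x a b, Rep M x a b → g x ≤ (Ψ a).re + ∑ i, (⟪ξ i, b (ξ i)⟫_ℂ).re := by
  let W : (H →L[ℂ] H) → (H →L[ℂ] H) → ℝ := fun a b => (Ψ a).re + ∑ i, (⟪ξ i, b (ξ i)⟫_ℂ).re
  let S : (H →L[ℂ] H) → Set ℝ := fun x => {r | ∃ a b, Rep M x a b ∧ r = W a b}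
  have hne : ∀ x, (S x).Nonempty := fun x => by
    obtain ⟨a, b, h⟩ := Rep.exists (M := M) x
    exact ⟨_, a, b, h, rfl⟩
  have h0 : ∀ x, ∀ r ∈ S x, 0 ≤ r := by
    rintro x r ⟨a, b, h, rfl⟩
    exact add_nonneg (Complex.le_def.1 (hp.nonneg h.1 h.2.2.1)).1
      (Finset.sum_nonneg fun i _ => re_inner_nonneg h.2.2.2.1 _)
  have hbdd : ∀ x, BddBelow (S x) := fun x => ⟨0, h0 x⟩
  let N : (H →L[ℂ] H) → ℝ := fun x => sInf (S x)
  have hN : ∀ x a b, Rep M x a b → N x ≤ W a b := fun x a b h => csInf_le (hbdd x) ⟨a, b, h, rfl⟩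
  have hN0 : ∀ x, 0 ≤ N x := fun x => le_csInf (hne x) (h0 x)
  have hWs : ∀ (t : ℝ) a b, W (t • a) (t • b) = t * W a b := by
    intro t a b
    simp only [W, ← Complex.coe_smul, map_smul, smul_eq_mul, ContinuousLinearMap.smul_apply,
      inner_smul_right, Complex.re_ofReal_mul, mul_add, Finset.mul_sum]
  have hle : ∀ t : ℝ, 0 < t → ∀ x, N (t • x) ≤ t * N x := by
    intro t ht x
    rw [← inv_mul_le_iff₀ ht]
    refine le_csInf (hne x) ?_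
    rintro r ⟨a, b, h, rfl⟩
    rw [inv_mul_le_iff₀ ht, ← hWs]
    exact hN _ _ _ (h.smul ht.le)
  have hhom : ∀ t : ℝ, 0 < t → ∀ x, N (t • x) = t * N x := by
    intro t ht x
    refine le_antisymm (hle t ht x) ?_
    have := hle t⁻¹ (inv_pos.2 ht) (t • x)
    rw [smul_smul, inv_mul_cancel₀ ht.ne', one_smul, le_inv_mul_iff₀ ht] at this
    exact this
  have hadd : ∀ x y, N (x + y) ≤ N x + N y := by
    intro x y
    have h1 : ∀ r ∈ S x, ∀ s ∈ S y, N (x + y) ≤ r + s := by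
      rintro r ⟨a, b, h, rfl⟩ s ⟨a', b', h', rfl⟩
      refine (hN _ _ _ (h.add h')).trans (le_of_eq ?_)
      simp only [W, map_add, ContinuousLinearMap.add_apply, inner_add_right, Complex.add_re,
        Finset.sum_add_distrib]
      ring
    have h2 : ∀ s ∈ S y, N (x + y) - s ≤ N x := fun s hs =>
      le_csInf (hne x) fun r hr => by linarith [h1 r hr s hs]
    have h3 : N (x + y) - N x ≤ N y := le_csInf (hne y) fun s hs => by linarith [h2 s hs]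
    linarith
  have hc1 : c ≤ N 1 := le_csInf (hne 1) (by rintro r ⟨a, b, h, rfl⟩; exact hc a b h)
  by_cases h1 : (1 : H →L[ℂ] H) = 0
  · refine ⟨0, ?_, fun x a b h => h0 x _ ⟨a, b, h, rfl⟩⟩
    have h2 := hhom 2 (by norm_num) 1
    rw [h1, smul_zero] at h2
    rw [h1] at hc1
    simp only [LinearMap.zero_apply]
    linarith
  obtain ⟨g, hg1, hg2⟩ := exists_extension_of_le_sublinear
    (LinearPMap.mkSpanSingleton (K := ℝ) (1 : H →L[ℂ] H) (N 1) h1) N hhom hadd (by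
      rintro ⟨x, hx⟩
      obtain ⟨t, rfl⟩ := Submodule.mem_span_singleton.1 hx
      rw [LinearPMap.mkSpanSingleton'_apply]
      rcases lt_or_ge 0 t with ht | ht
      · rw [hhom t ht, smul_eq_mul]; exact le_rfl
      · exact (mul_nonpos_of_nonpos_of_nonneg ht (hN0 1)).trans (hN0 _))
  refine ⟨g, ?_, fun x a b h => (hg2 x).trans (hN x a b h)⟩
  have h3 := hg1 ⟨1, Submodule.mem_span_singleton_self _⟩
  rw [LinearPMap.mkSpanSingleton_apply] at h3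
  exact hc1.trans (le_of_eq h3.symm)

/-- the lower bound for representations of `1` -/
theorem rep_one {Ψ : (H →L[ℂ] H) →ₗ[ℂ] ℂ} (hp : Pos M Ψ) (F : Finset H) {δ : ℝ} (hδ : 0 < δ)
    (hn : ¬ ∃ m ∈ M, 0 ≤ m ∧ m ≤ 1 ∧ (Ψ m).re ≤ δ ∧ ∀ ξ ∈ F, ‖(1 - m) ξ‖ ≤ δ)
    {a b : H →L[ℂ] H} (h : Rep M 1 a b) :
    δ ≤ (Ψ a).re ∨ ∃ ξ ∈ F, δ ^ 2 ≤ (⟪ξ, b ξ⟫_ℂ).re := by
  have ha0 : 0 ≤ a := h.2.2.1
  have hsa : IsSelfAdjoint a := IsSelfAdjoint.of_nonneg ha0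
  have hsp : ∀ s ∈ spectrum ℝ a, 0 ≤ s := fun s hs => spectrum_nonneg_of_nonneg ha0 hs
  have hcont : ContinuousOn (fun s : ℝ => (1 + s)⁻¹) (spectrum ℝ a) :=
    ContinuousOn.inv₀ (by fun_prop) fun s hs => by linarith [hsp s hs]
  set k : H →L[ℂ] H := cfc (fun s : ℝ => (1 + s)⁻¹) a with hk
  have hkM : k ∈ M := cfc_memM h.1 _
  have hm : 1 - k = cfc (fun s : ℝ => 1 - (1 + s)⁻¹) a := by
    rw [cfc_sub _ _ a (by fun_prop) hcont, cfc_const_one ℝ a]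
  have hk0 : 0 ≤ k := cfc_nonneg fun s hs => by have := hsp s hs; positivity
  have hm0 : 0 ≤ 1 - k := by
    rw [hm]
    refine cfc_nonneg fun s hs => ?_
    have := hsp s hs
    have : (1 + s)⁻¹ ≤ 1 := inv_le_one_of_one_le₀ (by linarith)
    linarith
  have hma : 1 - k ≤ a := by
    rw [hm]
    conv_rhs => rw [← cfc_id' ℝ a]
    refine cfc_mono (fun s hs => ?_) (continuousOn_const.sub hcont) (by fun_prop)
    have h1 := hsp s hs
    have h2 : (1 + s)⁻¹ * (1 + s) = 1 := inv_mul_cancel₀ (by linarith)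
    have h3 : 0 < (1 + s)⁻¹ := by positivity
    have h4 : (1 + s)⁻¹ ≤ 1 := inv_le_one_of_one_le₀ (by linarith)
    nlinarith
  have hak : k + a * k = 1 := by
    have e1 : a * k = cfc (fun s : ℝ => s * (1 + s)⁻¹) a := by
      rw [cfc_mul _ _ a (by fun_prop) hcont, cfc_id' ℝ a]
    rw [e1, hk, ← cfc_add a _ (fun s : ℝ => s * (1 + s)⁻¹) hcont (continuousOn_id.mul hcont),
      ← cfc_const_one ℝ a]
    refine cfc_congr fun s hs => ?_
    have h1 := hsp s hs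
    field_simp
  by_contra hc
  rw [not_or] at hc
  obtain ⟨hc1, hc2⟩ := hc
  refine hn ⟨1 - k, sub_mem (one_mem M) hkM, hm0, sub_le_self _ hk0,
    (hp.mono (sub_mem (one_mem M) hkM) h.1 hma).trans (le_of_lt (not_le.1 hc1)), fun ξ hξ => ?_⟩
  rw [sub_sub_cancel]
  by_contra hlt
  refine hc2 ⟨ξ, hξ, ?_⟩
  have h1 := h.2.2.2.2 (k ξ) ξ
  have h2 : ξ = k ξ + a (k ξ) := by
    have := congrArg (fun T : H →L[ℂ] H => T ξ) hak
    simpa using this.symm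
  have h3 : (⟪k ξ, (1 : H →L[ℂ] H) ξ⟫_ℂ).re = ‖k ξ‖ ^ 2 + (⟪k ξ, a (k ξ)⟫_ℂ).re := by
    rw [ContinuousLinearMap.one_apply]
    conv_lhs => rw [h2]
    rw [← h2, show ⟪k ξ, ξ⟫_ℂ = ⟪k ξ, k ξ + a (k ξ)⟫_ℂ by rw [← h2], inner_add_right,
      Complex.add_re]
    congr 1
    exact inner_self_eq_norm_sq (𝕜 := ℂ) _
  have h4 := re_inner_nonneg ha0 (k ξ)
  have h5 : δ ^ 2 ≤ ‖k ξ‖ ^ 2 := pow_le_pow_left₀ hδ.le (not_le.1 hlt).le 2
  nlinarith [sq_nonneg ‖k ξ‖]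

/-- evaluation at a family of vectors -/
noncomputable def ev (M : VonNeumannAlgebra H) {k : ℕ} (ξ : Fin k → H) :
    Ms M →ₗ[ℂ] PiLp 2 (fun _ : Fin k => H) where
  toFun z := WithLp.toLp 2 fun i => (z : H →L[ℂ] H) (ξ i)
  map_add' z w := by ext i; simp
  map_smul' c z := by ext i; simp

/-- the diagonal action -/
noncomputable def dg {k : ℕ} (y : H →L[ℂ] H) (v : PiLp 2 (fun _ : Fin k => H)) :
    PiLp 2 (fun _ : Fin k => H) := WithLp.toLp 2 fun i => y (v i)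

theorem continuous_dg {k : ℕ} (y : H →L[ℂ] H) : Continuous (dg (k := k) y) := by
  unfold dg
  fun_prop

theorem norm_ev_sq {k : ℕ} (ξ : Fin k → H) (z : Ms M) :
    ‖ev M ξ z‖ ^ 2 = ∑ i, (⟪ξ i, (star (z : H →L[ℂ] H) * z) (ξ i)⟫_ℂ).re := by
  rw [PiLp.norm_sq_eq_of_L2]
  exact Finset.sum_congr rfl fun i _ => (re_inner_star_mul _ _).symm

/-- Uhlmann step: a non-singular functional dominates a non-zero vector functional -/
theorem exists_vec {Ψ : (H →L[ℂ] H) →ₗ[ℂ] ℂ} (hp : Pos M Ψ) (F : Finset H) {δ : ℝ} (hδ : 0 < δ)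
    (hn : ¬ ∃ m ∈ M, 0 ≤ m ∧ m ≤ 1 ∧ (Ψ m).re ≤ δ ∧ ∀ ξ ∈ F, ‖(1 - m) ξ‖ ≤ δ) :
    ∃ (k : ℕ) (η : Fin k → H), η ≠ 0 ∧
      ∀ y ∈ M, ∑ i, ‖y (η i)‖ ^ 2 ≤ 4 * (Ψ (star y * y)).re := by
  let ξ : Fin F.card → H := fun i => (F.equivFin.symm i : H)
  obtain ⟨g, hg1, hg⟩ := exists_hb hp ξ (c := min δ (δ ^ 2)) (by
    intro a b h
    have hb : ∀ i, 0 ≤ (⟪ξ i, b (ξ i)⟫_ℂ).re := fun i => re_inner_nonneg h.2.2.2.1 _
    have ha : 0 ≤ (Ψ a).re := (Complex.le_def.1 (hp.nonneg h.1 h.2.2.1)).1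
    rcases rep_one hp F hδ hn h with h1 | ⟨x, hx, h1⟩
    · have := Finset.sum_nonneg fun i (_ : i ∈ Finset.univ) => hb i
      linarith [min_le_left δ (δ ^ 2)]
    · have h2 := Finset.single_le_sum (f := fun i => (⟪ξ i, b (ξ i)⟫_ℂ).re) (fun i _ => hb i)
        (Finset.mem_univ (F.equivFin ⟨x, hx⟩))
      have h3 : ξ (F.equivFin ⟨x, hx⟩) = x := by simp [ξ]
      simp only [h3] at h2
      linarith [min_le_right δ (δ ^ 2)])
  have hc : 0 < min δ (δ ^ 2) := lt_min hδ (by positivity)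
  let β₀ : (H →L[ℂ] H) →ₗ[ℂ] ℂ := Module.Dual.extendRCLike (𝕜 := ℂ) g
  have hβ : ∀ x, (β₀ x).re = g x := fun x => Module.Dual.re_extendRCLike_apply (𝕜 := ℂ) g x
  have hyz : ∀ y ∈ M, ∀ z : Ms M,
      (β₀ (star y * z)).re ≤ (Ψ (star y * y)).re + ‖ev M ξ z‖ ^ 2 := by
    intro y hy z
    rw [hβ, norm_ev_sq]
    exact hg _ _ _ (Rep.star_mul hy z.2)
  have hΨ1 : 0 ≤ (Ψ 1).re := (Complex.le_def.1 (hp.nonneg (one_mem M) zero_le_one)).1
  obtain ⟨η, hη, -, hrep⟩ := riesz (ev M ξ) (β₀ ∘ₗ (Ms M).subtype) (C := (Ψ 1).re + 1)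
    (by linarith) (by
      intro z
      refine le_of_forall_scale hΨ1 (norm_nonneg _) fun t ht => ?_
      obtain ⟨θ, hθ, e⟩ := Complex.exists_norm_eq_mul_self ((β₀ ∘ₗ (Ms M).subtype) z)
      have h1 := hyz 1 (one_mem M) (((t : ℂ) * θ) • z)
      rw [star_one, one_mul, one_mul, map_smul, norm_smul, norm_mul, hθ, mul_one,
        Complex.norm_real, Real.norm_of_nonneg ht.le, Submodule.coe_smul, map_smul, smul_eq_mul,
        mul_assoc] at h1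
      have e' : θ * β₀ z = (‖(β₀ ∘ₗ (Ms M).subtype) z‖ : ℝ) := e.symm
      rw [e', ← Complex.ofReal_mul, Complex.ofReal_re, mul_pow] at h1
      exact h1)
  refine ⟨F.card, fun i => η i, fun h0 => ?_, fun y hy => ?_⟩
  · have h1 : η = 0 := by ext i; exact congrFun h0 i
    have h2 := hrep ⟨1, one_mem M⟩
    rw [h1, inner_zero_left] at h2
    have h3 : β₀ 1 = 0 := h2
    have h4 := hβ 1
    rw [h3, Complex.zero_re] at h4
    linarith
  · have hmem : dg y η ∈ closure (Set.range (ev M ξ)) := by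
      refine map_mem_closure (continuous_dg y) hη ?_
      rintro _ ⟨z, rfl⟩
      exact ⟨⟨y * z, mem_Ms.2 (mul_mem hy (mem_Ms.1 z.2))⟩, rfl⟩
    have hcl : ∀ s ∈ closure (Set.range (ev M ξ)),
        (⟪dg y η, s⟫_ℂ).re ≤ (Ψ (star y * y)).re + ‖s‖ ^ 2 := by
      intro s hs
      refine closure_minimal (s := Set.range (ev M ξ))
        (t := {s | (⟪dg y η, s⟫_ℂ).re ≤ (Ψ (star y * y)).re + ‖s‖ ^ 2}) ?_
        (isClosed_le (by fun_prop) (by fun_prop)) hs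
      rintro _ ⟨z, rfl⟩
      have h1 := hyz y hy z
      have h2 : β₀ (star y * z) = _ :=
        hrep ⟨star y * z, mem_Ms.2 (mul_mem (star_mem hy) (mem_Ms.1 z.2))⟩
      have h3 : ⟪dg y η, ev M ξ z⟫_ℂ =
          ⟪η, ev M ξ ⟨star y * z, mem_Ms.2 (mul_mem (star_mem hy) (mem_Ms.1 z.2))⟩⟫_ℂ := by
        rw [PiLp.inner_apply, PiLp.inner_apply]
        refine Finset.sum_congr rfl fun i _ => ?_
        change ⟪y (η i), (z : H →L[ℂ] H) (ξ i)⟫_ℂ = ⟪η i, (star y * z) (ξ i)⟫_ℂ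
        rw [ContinuousLinearMap.mul_apply, ContinuousLinearMap.star_eq_adjoint,
          ContinuousLinearMap.adjoint_inner_right]
      rw [Set.mem_setOf_eq, h3, ← h2]
      exact h1
    have hhalf : ((1 / 2 : ℝ) : ℂ) • dg y η ∈ closure (Set.range (ev M ξ)) :=
      (LinearMap.range (ev M ξ)).topologicalClosure.smul_mem _ hmem
    have h1 := hcl _ hhalf
    have h2 : (⟪dg y η, dg y η⟫_ℂ).re = ‖dg y η‖ ^ 2 := inner_self_eq_norm_sq (𝕜 := ℂ) _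
    rw [inner_smul_right, Complex.re_ofReal_mul, h2, norm_smul, Complex.norm_real,
      Real.norm_of_nonneg (by norm_num)] at h1
    have h3 : ‖dg y η‖ ^ 2 = ∑ i, ‖y (η i)‖ ^ 2 := by
      rw [PiLp.norm_sq_eq_of_L2]; rfl
    rw [← h3]
    nlinarith

end Crest.Agent.R109.EnvA
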