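import Crest.Agent.R109.FDefs

/-!
# Row 109, task R109-Ex

Matrix exponentials of real symmetric matrices.  PLAN.  `U = eigenvectorUnitary`, `U Uᵀ = 1 = Uᵀ U`,
`M U = U diag λ`, `(M + c)^n i j = ∑ (λ a + c)^n U i a U j a`.  So `Ex s i j = exp (-c s) ∑' n, s^n ((M + c)^n i j) / n!`
(`Real.exp_eq_tsum`/`NormedSpace.expSeries_div_hasSum_exp`, finite sums of `HasSum`); with `c` large `M + c` is
entrywise non-negative, powers are entrywise non-negative and monotone.  Klein: with eigenbases `U` of `A`,
`W` of `B` and `p a b = (∑ i, U i a * W i b)²` (doubly stochastic) sum `exp x (1 - x + y) ≤ exp y` against `p`.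
-/

set_option autoImplicit false
set_option linter.unusedSectionVars false
set_option linter.unusedVariables false

namespace Crest.Agent.R109

open Matrix Finset

variable {J : Type*} [Fintype J] [DecidableEq J]

variable {n : Type*} [Fintype n] [DecidableEq n] {M M' : Matrix n n ℝ}

namespace ExA

theorem row (hM : M.IsHermitian) (i j : n) :
    ∑ a, (hM.eigenvectorUnitary : Matrix n n ℝ) i a * (hM.eigenvectorUnitary : Matrix n n ℝ) j a =
      if i = j then 1 else 0 := by
  have h := congrFun (congrFun (Unitary.coe_mul_star_self hM.eigenvectorUnitary) i) j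
  simpa [Matrix.mul_apply, Matrix.one_apply, Matrix.star_apply] using h

theorem col (hM : M.IsHermitian) (a b : n) :
    ∑ i, (hM.eigenvectorUnitary : Matrix n n ℝ) i a * (hM.eigenvectorUnitary : Matrix n n ℝ) i b =
      if a = b then 1 else 0 := by
  have h := congrFun (congrFun (Unitary.coe_star_mul_self hM.eigenvectorUnitary) a) b
  simpa [Matrix.mul_apply, Matrix.one_apply, Matrix.star_apply] using h

theorem eig (hM : M.IsHermitian) (i a : n) :
    ∑ k, M i k * (hM.eigenvectorUnitary : Matrix n n ℝ) k a =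
      hM.eigenvalues a * (hM.eigenvectorUnitary : Matrix n n ℝ) i a := by
  have h := congrFun (hM.mulVec_eigenvectorBasis a) i
  simpa [Matrix.mulVec, dotProduct] using h

theorem spec (hM : M.IsHermitian) (i j : n) :
    M i j = ∑ a, hM.eigenvalues a * (hM.eigenvectorUnitary : Matrix n n ℝ) i a *
      (hM.eigenvectorUnitary : Matrix n n ℝ) j a := by
  simp_rw [← eig hM, Finset.sum_mul]
  rw [Finset.sum_comm]
  simp_rw [mul_assoc, ← Finset.mul_sum, row hM]
  simp

theorem pow_apply (hM : M.IsHermitian) (c : ℝ) (m : ℕ) (i j : n) :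
    ((M + c • (1 : Matrix n n ℝ)) ^ m) i j =
      ∑ a, (hM.eigenvalues a + c) ^ m * (hM.eigenvectorUnitary : Matrix n n ℝ) i a *
        (hM.eigenvectorUnitary : Matrix n n ℝ) j a := by
  induction m generalizing i j with
  | zero => simp only [pow_zero, one_mul, row hM, Matrix.one_apply]
  | succ m ih =>
    rw [pow_succ', Matrix.mul_apply]
    simp_rw [ih, Finset.mul_sum]
    rw [Finset.sum_comm]
    refine Finset.sum_congr rfl fun a _ => ?_
    have h1 : ∑ k, (M + c • (1 : Matrix n n ℝ)) i k * (hM.eigenvectorUnitary : Matrix n n ℝ) k a =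
        (hM.eigenvalues a + c) * (hM.eigenvectorUnitary : Matrix n n ℝ) i a := by
      simp_rw [Matrix.add_apply, add_mul, Finset.sum_add_distrib, eig hM]
      simp [Matrix.one_apply]
    calc ∑ k, (M + c • (1 : Matrix n n ℝ)) i k * ((hM.eigenvalues a + c) ^ m *
          (hM.eigenvectorUnitary : Matrix n n ℝ) k a * (hM.eigenvectorUnitary : Matrix n n ℝ) j a)
        = (∑ k, (M + c • (1 : Matrix n n ℝ)) i k * (hM.eigenvectorUnitary : Matrix n n ℝ) k a) *
          ((hM.eigenvalues a + c) ^ m * (hM.eigenvectorUnitary : Matrix n n ℝ) j a) := by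
          rw [Finset.sum_mul]
          refine Finset.sum_congr rfl fun k _ => by ring
      _ = _ := by rw [h1]; ring

theorem pow_nonneg' {N : Matrix n n ℝ} (h : ∀ i j, 0 ≤ N i j) (m : ℕ) (i j : n) : 0 ≤ (N ^ m) i j := by
  induction m generalizing i j with
  | zero =>
    rw [pow_zero, Matrix.one_apply]
    split_ifs <;> norm_num
  | succ m ih =>
    rw [pow_succ, Matrix.mul_apply]
    exact Finset.sum_nonneg fun k _ => mul_nonneg (ih _ _) (h _ _)

theorem hasSum_exp (x : ℝ) : HasSum (fun m : ℕ => x ^ m / (m.factorial : ℝ)) (Real.exp x) := by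
  rw [Real.exp_eq_exp_ℝ]
  exact NormedSpace.expSeries_div_hasSum_exp x

theorem trace_Ex (hM : M.IsHermitian) :
    ∑ i, Ex hM 1 i i = ∑ a, Real.exp (hM.eigenvalues a) := by
  unfold Ex
  rw [Finset.sum_comm]
  refine Finset.sum_congr rfl fun a _ => ?_
  simp_rw [mul_assoc, ← Finset.mul_sum, col hM]
  simp

end ExA

theorem Ex_zero (hM : M.IsHermitian) (i j : n) : Ex hM 0 i j = if i = j then 1 else 0 := by
  unfold Ex
  simp only [zero_mul, Real.exp_zero, one_mul, ExA.row hM]

theorem Ex_symm (hM : M.IsHermitian) (s : ℝ) (i j : n) : Ex hM s i j = Ex hM s j i := by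
  unfold Ex
  exact Finset.sum_congr rfl fun a _ => by ring

theorem Ex_hasDerivAt (hM : M.IsHermitian) (s : ℝ) (i j : n) :
    HasDerivAt (fun s => Ex hM s i j) (∑ k, M i k * Ex hM s k j) s := by
  have h1 : HasDerivAt (fun s => Ex hM s i j)
      (∑ a, Real.exp (s * hM.eigenvalues a) * hM.eigenvalues a *
        (hM.eigenvectorUnitary : Matrix n n ℝ) i a * (hM.eigenvectorUnitary : Matrix n n ℝ) j a) s := by
    unfold Ex
    refine HasDerivAt.fun_sum fun a _ => ?_
    have h2 : HasDerivAt (fun s : ℝ => Real.exp (s * hM.eigenvalues a))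
        (Real.exp (s * hM.eigenvalues a) * hM.eigenvalues a) s := by
      simpa using ((hasDerivAt_id s).mul_const (hM.eigenvalues a)).exp
    exact (h2.mul_const _).mul_const _
  convert h1 using 1
  unfold Ex
  simp_rw [Finset.mul_sum]
  rw [Finset.sum_comm]
  refine Finset.sum_congr rfl fun a _ => ?_
  calc ∑ k, M i k * (Real.exp (s * hM.eigenvalues a) * (hM.eigenvectorUnitary : Matrix n n ℝ) k a *
        (hM.eigenvectorUnitary : Matrix n n ℝ) j a)
      = (∑ k, M i k * (hM.eigenvectorUnitary : Matrix n n ℝ) k a) *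
        (Real.exp (s * hM.eigenvalues a) * (hM.eigenvectorUnitary : Matrix n n ℝ) j a) := by
        rw [Finset.sum_mul]
        refine Finset.sum_congr rfl fun k _ => by ring
    _ = _ := by rw [ExA.eig hM]; ring

theorem Ex_nonneg (hM : M.IsHermitian) (h : ∀ i j, i ≠ j → 0 ≤ M i j) {s : ℝ} (hs : 0 ≤ s) (i j : n) :
    0 ≤ Ex hM s i j := by
  set c : ℝ := ∑ k, |M k k| with hc
  have hN : ∀ i j, 0 ≤ (M + c • (1 : Matrix n n ℝ)) i j := by
    intro i j
    by_cases hij : i = j
    · subst hij
      have h1 : |M i i| ≤ c :=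
        Finset.single_le_sum (f := fun k => |M k k|) (fun k _ => abs_nonneg _) (Finset.mem_univ i)
      have h2 := neg_abs_le (M i i)
      simp only [Matrix.add_apply, Matrix.smul_apply, Matrix.one_apply_eq, smul_eq_mul, mul_one]
      linarith
    · simpa [Matrix.one_apply, hij] using h i j hij
  have h1 : HasSum (fun m : ℕ => ∑ a, (s * (hM.eigenvalues a + c)) ^ m / (m.factorial : ℝ) *
      (hM.eigenvectorUnitary : Matrix n n ℝ) i a * (hM.eigenvectorUnitary : Matrix n n ℝ) j a)
      (∑ a, Real.exp (s * (hM.eigenvalues a + c)) *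
        (hM.eigenvectorUnitary : Matrix n n ℝ) i a * (hM.eigenvectorUnitary : Matrix n n ℝ) j a) :=
    hasSum_sum fun a _ => ((ExA.hasSum_exp _).mul_right _).mul_right _
  have h2 : 0 ≤ ∑ a, Real.exp (s * (hM.eigenvalues a + c)) *
      (hM.eigenvectorUnitary : Matrix n n ℝ) i a * (hM.eigenvectorUnitary : Matrix n n ℝ) j a := by
    refine h1.nonneg fun m => ?_
    have h3 : ∑ a, (s * (hM.eigenvalues a + c)) ^ m / (m.factorial : ℝ) *
        (hM.eigenvectorUnitary : Matrix n n ℝ) i a * (hM.eigenvectorUnitary : Matrix n n ℝ) j a =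
        s ^ m / (m.factorial : ℝ) * ((M + c • (1 : Matrix n n ℝ)) ^ m) i j := by
      rw [ExA.pow_apply hM, Finset.mul_sum]
      refine Finset.sum_congr rfl fun a _ => ?_
      rw [mul_pow]; ring
    rw [h3]
    exact mul_nonneg (by positivity) (ExA.pow_nonneg' hN m i j)
  have h4 : ∑ a, Real.exp (s * (hM.eigenvalues a + c)) *
      (hM.eigenvectorUnitary : Matrix n n ℝ) i a * (hM.eigenvectorUnitary : Matrix n n ℝ) j a =
      Real.exp (s * c) * Ex hM s i j := by
    unfold Ex
    rw [Finset.mul_sum]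
    refine Finset.sum_congr rfl fun a _ => ?_
    rw [mul_add, Real.exp_add]; ring
  rw [h4] at h2
  exact (mul_nonneg_iff_of_pos_left (Real.exp_pos _)).1 h2

theorem klein (hM : M.IsHermitian) (hM' : M'.IsHermitian) :
    ∑ a, Real.exp (hM.eigenvalues a) + ∑ i, ∑ j, Ex hM 1 i j * (M' i j - M i j) ≤
      ∑ a, Real.exp (hM'.eigenvalues a) := by
  set U : Matrix n n ℝ := (hM.eigenvectorUnitary : Matrix n n ℝ) with hU
  set W : Matrix n n ℝ := (hM'.eigenvectorUnitary : Matrix n n ℝ) with hW
  set p : n → n → ℝ := fun a b => (∑ i, U i a * W i b) ^ 2 with hp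
  have hpe : ∀ a b, p a b = ∑ i, ∑ j, U i a * U j a * (W i b * W j b) := by
    intro a b
    simp only [hp]
    rw [sq, Finset.sum_mul_sum]
    exact Finset.sum_congr rfl fun i _ => Finset.sum_congr rfl fun j _ => by ring
  have hp1 : ∀ a, ∑ b, p a b = 1 := by
    intro a
    simp_rw [hpe]
    rw [Finset.sum_comm]
    have : ∀ i, ∑ b, ∑ j, U i a * U j a * (W i b * W j b) = U i a * U i a := by
      intro i
      rw [Finset.sum_comm]
      simp_rw [← Finset.mul_sum, hW, ExA.row hM']
      simp
    simp_rw [this, hU, ExA.col hM]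
    simp
  have hp2 : ∀ b, ∑ a, p a b = 1 := by
    intro b
    simp_rw [hpe]
    rw [Finset.sum_comm]
    have : ∀ i, ∑ a, ∑ j, U i a * U j a * (W i b * W j b) = W i b * W i b := by
      intro i
      rw [Finset.sum_comm]
      simp_rw [← Finset.sum_mul, hU, ExA.row hM]
      simp
    simp_rw [this, hW, ExA.col hM']
    simp
  have h1 : ∑ i, ∑ j, Ex hM 1 i j * M' i j =
      ∑ a, ∑ b, Real.exp (hM.eigenvalues a) * hM'.eigenvalues b * p a b := by
    have e1 : ∀ i j, Ex hM 1 i j * M' i j = ∑ a, ∑ b, Real.exp (hM.eigenvalues a) * hM'.eigenvalues b *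
        (U i a * U j a * (W i b * W j b)) := by
      intro i j
      rw [ExA.spec hM' i j]
      unfold Ex
      rw [Finset.sum_mul_sum]
      refine Finset.sum_congr rfl fun a _ => Finset.sum_congr rfl fun b _ => ?_
      rw [one_mul]; ring
    simp_rw [e1, hpe, Finset.mul_sum]
    calc ∑ i, ∑ j, ∑ a, ∑ b, Real.exp (hM.eigenvalues a) * hM'.eigenvalues b *
          (U i a * U j a * (W i b * W j b))
        = ∑ i, ∑ a, ∑ b, ∑ j, Real.exp (hM.eigenvalues a) * hM'.eigenvalues b *
          (U i a * U j a * (W i b * W j b)) := by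
          refine Finset.sum_congr rfl fun i _ => ?_
          rw [Finset.sum_comm]
          refine Finset.sum_congr rfl fun a _ => ?_
          rw [Finset.sum_comm]
      _ = _ := by
          rw [Finset.sum_comm]
          refine Finset.sum_congr rfl fun a _ => ?_
          rw [Finset.sum_comm]
  have h2 : ∑ i, ∑ j, Ex hM 1 i j * M i j =
      ∑ a, Real.exp (hM.eigenvalues a) * hM.eigenvalues a := by
    have e1 : ∀ i, ∑ j, Ex hM 1 i j * M i j =
        ∑ a, Real.exp (hM.eigenvalues a) * hM.eigenvalues a * (U i a * U i a) := by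
      intro i
      unfold Ex
      simp_rw [Finset.sum_mul]
      rw [Finset.sum_comm]
      refine Finset.sum_congr rfl fun a _ => ?_
      calc ∑ j, Real.exp (1 * hM.eigenvalues a) * U i a * U j a * M i j
          = Real.exp (hM.eigenvalues a) * U i a * ∑ j, M i j * U j a := by
            rw [Finset.mul_sum, one_mul]
            exact Finset.sum_congr rfl fun j _ => by ring
        _ = _ := by rw [hU, ExA.eig hM]; ring
    simp_rw [e1]
    rw [Finset.sum_comm]
    refine Finset.sum_congr rfl fun a _ => ?_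
    rw [← Finset.mul_sum, hU, ExA.col hM]
    simp
  have h3 : ∑ i, ∑ j, Ex hM 1 i j * (M' i j - M i j) =
      ∑ i, ∑ j, Ex hM 1 i j * M' i j - ∑ i, ∑ j, Ex hM 1 i j * M i j := by
    simp_rw [mul_sub, Finset.sum_sub_distrib]
  rw [h3, h1, h2]
  have h4 : ∑ a, Real.exp (hM.eigenvalues a) +
      (∑ a, ∑ b, Real.exp (hM.eigenvalues a) * hM'.eigenvalues b * p a b -
        ∑ a, Real.exp (hM.eigenvalues a) * hM.eigenvalues a) =
      ∑ a, ∑ b, p a b * (Real.exp (hM.eigenvalues a) * (hM'.eigenvalues b - hM.eigenvalues a + 1)) := by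
    rw [← Finset.sum_sub_distrib, ← Finset.sum_add_distrib]
    refine Finset.sum_congr rfl fun a _ => ?_
    have e : ∀ b, p a b * (Real.exp (hM.eigenvalues a) * (hM'.eigenvalues b - hM.eigenvalues a + 1)) =
        Real.exp (hM.eigenvalues a) * hM'.eigenvalues b * p a b +
          (Real.exp (hM.eigenvalues a) - Real.exp (hM.eigenvalues a) * hM.eigenvalues a) * p a b := by
      intro b; ring
    simp_rw [e, Finset.sum_add_distrib, ← Finset.mul_sum, hp1]
    ring
  rw [h4]
  calc ∑ a, ∑ b, p a b * (Real.exp (hM.eigenvalues a) * (hM'.eigenvalues b - hM.eigenvalues a + 1))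
      ≤ ∑ a, ∑ b, p a b * Real.exp (hM'.eigenvalues b) := by
        refine Finset.sum_le_sum fun a _ => Finset.sum_le_sum fun b _ => ?_
        refine mul_le_mul_of_nonneg_left ?_ (sq_nonneg _)
        calc Real.exp (hM.eigenvalues a) * (hM'.eigenvalues b - hM.eigenvalues a + 1)
            ≤ Real.exp (hM.eigenvalues a) * Real.exp (hM'.eigenvalues b - hM.eigenvalues a) :=
              mul_le_mul_of_nonneg_left (Real.add_one_le_exp _) (Real.exp_pos _).le
          _ = _ := by rw [← Real.exp_add]; congr 1; ring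
    _ = _ := by
        rw [Finset.sum_comm]
        simp_rw [← Finset.sum_mul, hp2, one_mul]

theorem trexp_mono (hM : M.IsHermitian) (hM' : M'.IsHermitian) (h : ∀ i j, i ≠ j → 0 ≤ M i j)
    (hle : ∀ i j, M i j ≤ M' i j) :
    ∑ a, Real.exp (hM.eigenvalues a) ≤ ∑ a, Real.exp (hM'.eigenvalues a) := by
  have h1 := klein hM hM'
  have h2 : 0 ≤ ∑ i, ∑ j, Ex hM 1 i j * (M' i j - M i j) :=
    Finset.sum_nonneg fun i _ => Finset.sum_nonneg fun j _ =>
      mul_nonneg (Ex_nonneg hM h zero_le_one i j) (sub_nonneg.2 (hle i j))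
  linarith

theorem trexp_diag (hM : M.IsHermitian) (h : ∀ i j, i ≠ j → M i j = 0) :
    ∑ a, Real.exp (hM.eigenvalues a) = ∑ i, Real.exp (M i i) := by
  rw [← ExA.trace_Ex hM]
  refine Finset.sum_congr rfl fun i _ => ?_
  unfold Ex
  have e : ∀ a, Real.exp (1 * hM.eigenvalues a) * (hM.eigenvectorUnitary : Matrix n n ℝ) i a *
      (hM.eigenvectorUnitary : Matrix n n ℝ) i a = Real.exp (M i i) *
      ((hM.eigenvectorUnitary : Matrix n n ℝ) i a * (hM.eigenvectorUnitary : Matrix n n ℝ) i a) := by
    intro a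
    by_cases h0 : (hM.eigenvectorUnitary : Matrix n n ℝ) i a = 0
    · rw [h0]; ring
    · have h1 := ExA.eig hM i a
      rw [Finset.sum_eq_single i (fun k _ hk => by rw [h i k (Ne.symm hk), zero_mul])
        (fun hi => absurd (Finset.mem_univ i) hi)] at h1
      rw [mul_right_cancel₀ h0 h1, one_mul]; ring
  simp_rw [e, ← Finset.mul_sum, ExA.row hM]
  simp

end Crest.Agent.R109
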