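import Crest.Agent.R109.CE

/-!
# Row 109, task R109-FreeH

The exceptional positive element.  PLAN.  Take `Q, g` from `NoAtom` with a small `γ' ≤ γ`, and `P₁ ≥ Q` with
`n2 (EP P (x₀ q x₀) - E (x₀ q x₀)) ≤ δ / (2 |Q|)` for all `q ∈ Q`, `P ≥ P₁`.  `k = ∑_{q ∈ Q} (a q - γ)⁺`,
`a q = EP P (x₀ q x₀) ≥ 0`; `(a q - γ)⁺ ≤ a q`, `∑ a q = EP P (x₀²) ≤ 4`.  With `s` the spectral projection
of `a q` above `γ`, `b q = E (x₀ q x₀)`: `ω ((a q - γ)⁺) = ω (s (a q - γ)) ≤ n2 (a q - b q) + ω (s (b q - γ))`,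
and `ω (s (b q - γ)) = ω (E s (b q - γ)) ≤ ω (b q (1 - g))`; `∑ b q ≤ 4`.  For `e ∈ P`, `e ≤ q`:
`EP P (x₀ e x₀) ≤ a q ≤ γ + (a q - γ)⁺`.
-/

set_option autoImplicit false
set_option linter.unusedSectionVars false
set_option linter.unusedVariables false

namespace Crest.Agent.R109

open scoped InnerProductSpace ComplexOrder ComplexConjugate
open Filter Topology

universe u

variable {H : Type u} [NormedAddCommGroup H] [InnerProductSpace ℂ H] [CompleteSpace H]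
  {M : VonNeumannAlgebra H} {A : StarSubalgebra ℂ (H →L[ℂ] H)}
  {ω φ : (H →L[ℂ] H) →ₗ[ℂ] ℂ} {E : (H →L[ℂ] H) →ₗ[ℂ] (H →L[ℂ] H)}

namespace FreeHA

theorem re_mul_nonneg (h : St M A ω) (hE : CE M A ω E) {y d : H →L[ℂ] H} (hy : y ∈ M)
    (hy0 : 0 ≤ y) (hd : d ∈ A) (hd0 : 0 ≤ d) : 0 ≤ (ω (y * d)).re := by
  rw [← hE.inv _ (mul_mem hy (h.masa.le d hd)), hE.right d hd]
  have hEy := hE.mem y hy
  have h1 : 0 ≤ E y * d := Commute.mul_nonneg (hE.pos y hy0) hd0 (h.masa.comm _ hEy _ hd)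
  exact (Complex.le_def.mp (h.npos.pos.nonneg (h.masa.le _ (mul_mem hEy hd)) h1)).1

theorem le_smul_one {y : H →L[ℂ] H} (hy : IsSelfAdjoint y) {c : ℝ} (hc : ‖y‖ ≤ c) :
    y ≤ c • (1 : H →L[ℂ] H) := by
  refine hy.le_algebraMap_norm_self.trans ?_
  rw [Algebra.algebraMap_eq_smul_one]
  exact smul_le_smul_of_nonneg_right hc zero_le_one

theorem EP_sum (P : Part A) {ι : Type*} (s : Finset ι) (y : ι → H →L[ℂ] H) :
    EP P (∑ i ∈ s, y i) = ∑ i ∈ s, EP P (y i) := by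
  simp only [EP, Finset.mul_sum, Finset.sum_mul]
  exact Finset.sum_comm

theorem EP_mono (P : Part A) {y z : H →L[ℂ] H} (hyz : y ≤ z) : EP P y ≤ EP P z := by
  rw [EP_eq_pin, EP_eq_pin]
  exact P.isPartOf.pin_mono hyz

theorem EP_nonneg (P : Part A) {y : H →L[ℂ] H} (hy : 0 ≤ y) : 0 ≤ EP P y := by
  have := EP_mono P hy
  simpa only [EP, mul_zero, zero_mul, Finset.sum_const_zero] using this

/-- the positive part above level `γ`, compared with an element `b` of `A` -/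
theorem one_cell (h : St M A ω) (hE : CE M A ω E) {a b G : H →L[ℂ] H} (ha : a ∈ M) (ha0 : 0 ≤ a)
    (hb : b ∈ A) (hb0 : 0 ≤ b) (hG : PA A G) {γ : ℝ} (hγ : 0 ≤ γ) (hbG : ‖b * G‖ ≤ γ) :
    ∃ k ∈ M, 0 ≤ k ∧ k ≤ a ∧ a ≤ γ • (1 : H →L[ℂ] H) + k ∧
      (ω k).re ≤ n2 ω (a - b) + (ω (b * (1 - G))).re := by
  have has : IsSelfAdjoint a := IsSelfAdjoint.of_nonneg ha0
  obtain ⟨g, hg, hc, h1, h2⟩ := spec_proj has γ
  have hgM : g ∈ M := mem_of_comm ha hc
  have hag : a * g = g * a := hc a rfl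
  have hgg : g * g = g := hg.isIdempotentElem
  have hsM : 1 - g ∈ M := sub_mem (one_mem _) hgM
  have hs : IsStarProjection (1 - g) := hg.one_sub
  have e0 : g * a * g = g * a := by rw [mul_assoc, hag, ← mul_assoc, hgg]
  have e1 : (1 - g) * a * (1 - g) = a - g * a * g := by
    rw [e0]
    have : (1 - g) * a * (1 - g) = a - a * g - g * a + g * a * g := by noncomm_ring
    rw [this, e0, hag]
    abel
  have hga : 0 ≤ g * a * g := by
    have := star_left_conjugate_nonneg ha0 g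
    rwa [hg.isSelfAdjoint.star_eq] at this
  have hγs : 0 ≤ γ • (1 - g) := smul_nonneg hγ hs.nonneg
  have hγM : ∀ y ∈ M, γ • y ∈ M := fun y hy => by
    rw [← Complex.coe_smul]; exact M.toStarSubalgebra.smul_mem hy _
  refine ⟨(1 - g) * a * (1 - g) - γ • (1 - g),
    sub_mem (mul_mem (mul_mem hsM ha) hsM) (hγM _ hsM), sub_nonneg.mpr h2, ?_, ?_, ?_⟩
  · rw [e1]
    exact (sub_le_self _ hγs).trans (sub_le_self _ hga)
  · rw [e1, smul_sub, ← sub_nonneg]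
    have : γ • (1 : H →L[ℂ] H) + (a - g * a * g - (γ • 1 - γ • g)) - a = γ • g - g * a * g := by
      abel
    rw [this]
    exact sub_nonneg.mpr h1
  · have hbM := h.masa.le b hb
    have hbc : b * G = G * b := h.masa.comm _ hb _ hG.1
    have hbs : IsSelfAdjoint b := IsSelfAdjoint.of_nonneg hb0
    have hbGs : IsSelfAdjoint (b * G) := by
      rw [IsSelfAdjoint, star_mul, hbs.star_eq, hG.2.isSelfAdjoint.star_eq, hbc]
    have hd1 : 0 ≤ γ • (1 : H →L[ℂ] H) - b * G := sub_nonneg.mpr (le_smul_one hbGs hbG)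
    have hd1A : γ • (1 : H →L[ℂ] H) - b * G ∈ A := by
      refine sub_mem ?_ (mul_mem hb hG.1)
      rw [← Complex.coe_smul]; exact SMulMemClass.smul_mem _ (one_mem _)
    have hd2A : b * (1 - G) ∈ A := mul_mem hb hG.compl.1
    have hd2 : 0 ≤ b * (1 - G) :=
      Commute.mul_nonneg hb0 hG.compl.2.nonneg (h.masa.comm _ hb _ hG.compl.1)
    have t1 := re_mul_nonneg h hE hsM hs.nonneg hd1A hd1
    have t2 := re_mul_nonneg h hE hgM hg.nonneg hd2A hd2
    have t3 : (ω ((1 - g) * (a - b))).re ≤ n2 ω (a - b) := by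
      have c1 := h.npos.pos.cs hsM (sub_mem ha hbM)
      rw [hs.isSelfAdjoint.star_eq] at c1
      have c2 : n2 ω (1 - g) ≤ 1 := (h.n2_le_norm hsM).trans hs.norm_le
      have c3 := n2_nonneg (φ := ω) (a - b)
      have c4 := Complex.re_le_norm (ω ((1 - g) * (a - b)))
      nlinarith
    have e2 : (1 - g) * a * (1 - g) - γ • (1 - g) =
        (1 - g) * (a - b) - (1 - g) * (γ • (1 : H →L[ℂ] H) - b * G) + b * (1 - G) -
          g * (b * (1 - G)) := by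
      rw [e1, e0, mul_sub (1 - g) (γ • (1 : H →L[ℂ] H)), mul_smul_comm, mul_one]
      generalize γ • (1 - g) = z
      noncomm_ring
    rw [e2, map_sub, map_add, map_sub, Complex.sub_re, Complex.add_re, Complex.sub_re]
    linarith

end FreeHA

theorem free_h (h : St M A ω) (hE : CE M A ω E) {x₀ : H →L[ℂ] H} (hx : x₀ ∈ M)
    (hs : IsSelfAdjoint x₀) (hn : ‖x₀‖ ≤ 2) (hat : NoAtom A ω E x₀) {γ δ : ℝ} (hγ : 0 < γ)
    (hδ : 0 < δ) : ∃ P₁ : Part A, ∀ P, P₁ ≤ P → ∃ k ∈ M, 0 ≤ k ∧ ‖k‖ ≤ 4 ∧ (ω k).re ≤ δ ∧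
      ∀ e ∈ P.cells, EP P (star x₀ * e * x₀) ≤ γ • (1 : H →L[ℂ] H) + k := by
  obtain ⟨Q, G, hG, hG1, hG2⟩ := hat (min γ (δ / 8)) (lt_min hγ (by positivity))
  have := h.masa.directed
  have : Nonempty (Part A) := ⟨Q⟩
  have hxq : ∀ q ∈ Q.cells, star x₀ * q * x₀ ∈ M := fun q hq =>
    mul_mem (mul_mem (star_mem hx) (h.masa.le q (Q.pa q hq).1)) hx
  have hxq0 : ∀ q ∈ Q.cells, 0 ≤ star x₀ * q * x₀ := fun q hq =>
    star_left_conjugate_nonneg (Q.pa q hq).2.nonneg _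
  have hη : 0 < δ / (2 * ((Q.cells.card : ℝ) + 1)) := by positivity
  have hev : ∀ᶠ P in (atTop : Filter (Part A)), Q ≤ P ∧ ∀ q ∈ Q.cells,
      n2 ω (EP P (star x₀ * q * x₀) - E (star x₀ * q * x₀)) ≤ δ / (2 * ((Q.cells.card : ℝ) + 1)) := by
    refine (eventually_ge_atTop Q).and ((Filter.eventually_all_finset _).mpr fun q hq => ?_)
    exact eventually_atTop.mpr (hE.conv _ (hxq q hq) _ hη)
  obtain ⟨P₁, hP₁⟩ := eventually_atTop.mp hev
  refine ⟨P₁, fun P hP => ?_⟩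
  obtain ⟨hQP, hn2⟩ := hP₁ P hP
  have hEPM : ∀ y ∈ M, EP P y ∈ M := fun y hy => by
    rw [EP_eq_pin]; exact P.isPartOf.pin_mem h.masa hy
  have hk : ∀ q, q ∈ Q.cells → ∃ k ∈ M, 0 ≤ k ∧ k ≤ EP P (star x₀ * q * x₀) ∧
      EP P (star x₀ * q * x₀) ≤ γ • (1 : H →L[ℂ] H) + k ∧
      (ω k).re ≤ n2 ω (EP P (star x₀ * q * x₀) - E (star x₀ * q * x₀)) +
        (ω (E (star x₀ * q * x₀) * (1 - G))).re := fun q hq =>
    FreeHA.one_cell h hE (hEPM _ (hxq q hq)) (FreeHA.EP_nonneg P (hxq0 q hq))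
      (hE.mem _ (hxq q hq)) (hE.pos _ (hxq0 q hq)) hG hγ.le ((hG2 q hq).trans (min_le_left _ _))
  choose! k hkM hk0 hk1 hk2 hk3 using hk
  have hsum : ∑ q ∈ Q.cells, star x₀ * q * x₀ = star x₀ * x₀ := by
    rw [← Finset.sum_mul, ← Finset.mul_sum, Q.sum, mul_one]
  have hxx : ‖star x₀ * x₀‖ ≤ 4 := by
    rw [CStarRing.norm_star_mul_self]
    nlinarith [norm_nonneg x₀]
  have hk0' : 0 ≤ ∑ q ∈ Q.cells, k q := Finset.sum_nonneg hk0
  refine ⟨∑ q ∈ Q.cells, k q, sum_mem hkM, hk0', ?_, ?_, ?_⟩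
  · have h1 : ∑ q ∈ Q.cells, k q ≤ EP P (star x₀ * x₀) := by
      rw [← hsum, FreeHA.EP_sum]
      exact Finset.sum_le_sum hk1
    refine (CStarAlgebra.norm_le_norm_of_nonneg_of_le hk0' h1).trans ?_
    rw [EP_eq_pin]
    exact (P.isPartOf.pin_norm_le _).trans hxx
  · rw [map_sum, Complex.re_sum]
    refine (Finset.sum_le_sum hk3).trans ?_
    rw [Finset.sum_add_distrib]
    have h1 : ∑ q ∈ Q.cells, n2 ω (EP P (star x₀ * q * x₀) - E (star x₀ * q * x₀)) ≤ δ / 2 := by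
      refine (Finset.sum_le_sum hn2).trans ?_
      rw [Finset.sum_const, nsmul_eq_mul, ← mul_div_assoc, div_le_div_iff₀ (by positivity) two_pos]
      nlinarith
    have h2 : ∑ q ∈ Q.cells, (ω (E (star x₀ * q * x₀) * (1 - G))).re ≤ δ / 2 := by
      rw [← Complex.re_sum, ← map_sum, ← Finset.sum_mul, ← map_sum, hsum]
      have hxM : star x₀ * x₀ ∈ M := mul_mem (star_mem hx) hx
      have hEA := hE.mem _ hxM
      have hE4 : E (star x₀ * x₀) ≤ (4 : ℝ) • (1 : H →L[ℂ] H) :=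
        FreeHA.le_smul_one (IsSelfAdjoint.of_nonneg (hE.pos _ (star_mul_self_nonneg _)))
          ((hE.norm_le _).trans hxx)
      have h4M : (4 : ℝ) • (1 : H →L[ℂ] H) ∈ M := by
        rw [← Complex.coe_smul]; exact M.toStarSubalgebra.smul_mem (one_mem M) _
      have t := FreeHA.re_mul_nonneg h hE (sub_mem h4M (h.masa.le _ hEA)) (sub_nonneg.mpr hE4)
        hG.compl.1 hG.compl.2.nonneg
      rw [sub_mul, smul_mul_assoc, one_mul, map_sub, ← Complex.coe_smul, map_smul, Complex.sub_re,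
        smul_eq_mul, Complex.re_ofReal_mul] at t
      have := hG1.trans (min_le_right _ _)
      linarith
    linarith
  · intro e he
    obtain ⟨q, hq, hqe⟩ := hQP e he
    have heq : e ≤ q := (P.pa e he).2.le_of_mul_eq_right (Q.pa q hq).2 hqe
    refine (FreeHA.EP_mono P (star_left_conjugate_le_conjugate heq x₀)).trans ((hk2 q hq).trans ?_)
    exact add_le_add le_rfl (Finset.single_le_sum hk0 hq)

end Crest.Agent.R109
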