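import Crest.Agent.R109.ExpStep
import Crest.Agent.R109.FreeH
import Crest.Agent.R109.Atom
import Crest.Agent.R109.Decomp
import Crest.Agent.R109.Col

/-!
# Row 109, task R109-Exp

The case of a faithful normal central state.  PLAN.  `E` from `exists_ce`, `xt = x - E x`, `a = E x`,
`pin p x - a = pin p xt`.  `√r ≥ 20000/ε`, `r / 2 ≥ r / 4`, so `ε' = 3200/√r + 4/√(r/2) ≤ ε / 2 < 1`.  `δ₀` from
`uac_vec`; `n ≥ 1` with `2 · 2^{-n} ≤ √δ₀`-type bound, `η = (ε/2)^n / n`; `exp_step` gives `δ`; `decomp` gives `x₀` and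
`x₁` with `n2 (x - x₀ - x₁) ≤ δ/3`; `E x₀ = 0` (`PerpN` with `v = 1`, `CE.eq_zero`); `col_main` with `δ/3` gives
`x', D, P₀` (`RCol` is monotone in the tolerance); `x₂ = xt - x' - x₀ = (w - E w) + (x₁ - E x₁ - x')`,
`w = x - x₀ - x₁`; `free_h` (with `noAtom_of_perp`) gives `P₁`; `P ≥ P₀, P₁`.  Iterating,
`√N2 (y^n) ≤ ε'^n + n η ≤ 2 (ε/2)^n`; pick `l` with `n2 (y l ^ n)² ≤ N2`; `q` from `spec_cut (y l) ε`:
`ε^{2n} ω (1 - q) ≤ 4 (ε/2)^{2n}`.
-/

set_option autoImplicit false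
set_option linter.unusedSectionVars false
set_option linter.unusedVariables false

namespace Crest.Agent.R109

open scoped InnerProductSpace ComplexOrder ComplexConjugate
open Filter Topology

universe u

variable {H : Type u} [NormedAddCommGroup H] [InnerProductSpace ℂ H] [CompleteSpace H]
  {M : VonNeumannAlgebra H} {A : StarSubalgebra ℂ (H →L[ℂ] H)}
  {ω φ : (H →L[ℂ] H) →ₗ[ℂ] ℂ} {E : (H →L[ℂ] H) →ₗ[ℂ] (H →L[ℂ] H)}

namespace ExpA

theorem exists_le_av {Ω : Type*} [Fintype Ω] [Nonempty Ω] (f : Ω → ℝ) : ∃ l, f l ≤ av f := by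
  have hc : (Fintype.card Ω : ℝ) ≠ 0 := by exact_mod_cast Fintype.card_ne_zero
  have : ∑ l, f l ≤ ∑ _l : Ω, av f := by
    rw [Finset.sum_const, Finset.card_univ, nsmul_eq_mul, av, smul_eq_mul, ← mul_assoc,
      mul_inv_cancel₀ hc, one_mul]
  obtain ⟨l, -, hl⟩ := Finset.exists_le_of_sum_le Finset.univ_nonempty this
  exact ⟨l, hl⟩

theorem av_one {Ω : Type*} [Fintype Ω] [Nonempty Ω] : av (fun _ : Ω => (1 : ℝ)) = 1 := by
  have hc : (Fintype.card Ω : ℝ) ≠ 0 := by exact_mod_cast Fintype.card_ne_zero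
  rw [av, Finset.sum_const, Finset.card_univ, nsmul_eq_mul, smul_eq_mul, mul_one, inv_mul_cancel₀ hc]

theorem iter {a : ℕ → ℝ} {c c' η : ℝ} {n : ℕ} (h0 : a 0 ≤ 1) (hc : c ≤ c') (hc0 : 0 ≤ c')
    (hc1 : c' ≤ 1) (hη : 0 ≤ η) (ha : ∀ j, 0 ≤ a j) (h : ∀ j < n, a (j + 1) ≤ c * a j + η) :
    ∀ j ≤ n, a j ≤ c' ^ j + j * η := by
  intro j
  induction j with
  | zero => intro _; simpa using h0
  | succ j ih =>
    intro hj
    have h1 := h j (by omega)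
    have h2 := ih (by omega)
    have h3 : c * a j ≤ c' * a j := mul_le_mul_of_nonneg_right hc (ha j)
    have h4 : c' * a j ≤ c' * (c' ^ j + j * η) := mul_le_mul_of_nonneg_left h2 hc0
    have h5 : c' * (j * η) ≤ j * η := mul_le_of_le_one_left (by positivity) hc1
    push_cast
    rw [pow_succ]
    nlinarith

theorem r64 {r : ℕ} {ε : ℝ} (hε : 0 < ε) (hε1 : ε < 1) (hr : 400000000 / ε ^ 2 ≤ r) : 64 ≤ r := by
  have h1 : ε ^ 2 ≤ 1 := by nlinarith
  have h2 : (400000000 : ℝ) ≤ 400000000 / ε ^ 2 := by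
    rw [le_div_iff₀ (by positivity)]; nlinarith
  have : (64 : ℝ) ≤ r := by linarith
  exact_mod_cast this

theorem num {r : ℕ} {ε : ℝ} (hε : 0 < ε) (hε1 : ε < 1) (hr : 400000000 / ε ^ 2 ≤ r) :
    3200 / √(r : ℝ) + 4 / √((r / 2 : ℕ) : ℝ) ≤ ε / 2 := by
  have h64 := r64 hε hε1 hr
  have h1 : 20000 / ε ≤ √(r : ℝ) := by
    refine Real.le_sqrt_of_sq_le ?_
    rw [div_pow]; norm_num; linarith
  have h2 : (r : ℝ) ≤ 4 * ((r / 2 : ℕ) : ℝ) := by
    have : r ≤ 4 * (r / 2) := by omega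
    exact_mod_cast this
  have h3 : 10000 / ε ≤ √((r / 2 : ℕ) : ℝ) := by
    refine Real.le_sqrt_of_sq_le ?_
    have : (10000 / ε) ^ 2 = (400000000 / ε ^ 2) / 4 := by field_simp; norm_num
    rw [this]; linarith
  have h4 : 3200 / √(r : ℝ) ≤ 3200 / (20000 / ε) :=
    div_le_div_of_nonneg_left (by norm_num) (by positivity) h1
  have h5 : 4 / √((r / 2 : ℕ) : ℝ) ≤ 4 / (10000 / ε) :=
    div_le_div_of_nonneg_left (by norm_num) (by positivity) h3
  have h6 : 3200 / (20000 / ε) = 0.16 * ε := by field_simp; norm_num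
  have h7 : 4 / (10000 / ε) = 0.0004 * ε := by field_simp; norm_num
  linarith

theorem rcol_mono {ι : Type u} [Fintype ι] [DecidableEq ι] {m r D : ℕ} {g : ι → H →L[ℂ] H}
    {x' : H →L[ℂ] H} {ε₁ η η' : ℝ} {p : (ι → Fin m) → Fin r → H →L[ℂ] H}
    (h : RCol M A ω g x' D ε₁ η p) (hη : η ≤ η') : RCol M A ω g x' D ε₁ η' p where
  part := h.part
  deg := h.deg
  inj := h.inj
  small l := by
    obtain ⟨k, hk, h0, h1, h2, h3⟩ := h.small l
    exact ⟨k, hk, h0, h1, h2.trans hη, h3⟩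

theorem sa_sub (hE : CE M A ω E) {x : H →L[ℂ] H} (hx : IsSelfAdjoint x) : IsSelfAdjoint (E x) := by
  rw [IsSelfAdjoint, ← hE.star, hx.star_eq]

theorem pin_sa {ι : Type*} [Fintype ι] {p : ι → H →L[ℂ] H} {s : H →L[ℂ] H} (hp : IsPartOf A s p)
    {y : H →L[ℂ] H} (hy : IsSelfAdjoint y) : IsSelfAdjoint (pin p y) := by
  rw [IsSelfAdjoint, hp.pin_star, hy.star_eq]

theorem pin_pin {ι : Type*} [Fintype ι] {p : ι → H →L[ℂ] H} {s : H →L[ℂ] H} (hp : IsPartOf A s p)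
    (y : H →L[ℂ] H) : pin p (pin p y) = pin p y := by
  conv_lhs => unfold pin
  conv_rhs => unfold pin
  refine Finset.sum_congr rfl fun i _ => ?_
  have := hp.mul_pin y i
  unfold pin at this
  rw [this, mul_assoc, (hp.pa i).2.isIdempotentElem.eq]

/-- the vector functional -/
noncomputable def vec (ξ : H) : (H →L[ℂ] H) →ₗ[ℂ] ℂ where
  toFun y := ⟪ξ, y ξ⟫_ℂ
  map_add' y z := by simp [inner_add_right]
  map_smul' c y := by simp [inner_smul_right]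

theorem vec_star_mul (ξ : H) (y : H →L[ℂ] H) : vec ξ (star y * y) = ((‖y ξ‖ ^ 2 : ℝ) : ℂ) := by
  show ⟪ξ, (ContinuousLinearMap.adjoint y) (y ξ)⟫_ℂ = _
  rw [ContinuousLinearMap.adjoint_inner_right, inner_self_eq_norm_sq_to_K]
  simp

theorem vec_npos (ξ : H) : NPos M (vec ξ) := by
  constructor
  · intro y _
    rw [vec_star_mul]
    exact Complex.zero_le_real.2 (sq_nonneg _)
  · intro η hη
    refine ⟨1, fun _ => ξ, fun y _ => ?_⟩
    rw [vec_star_mul, Complex.ofReal_re]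
    simp only [Finset.univ_unique, Finset.sum_singleton]
    have : 0 ≤ η * ‖y‖ ^ 2 := by positivity
    linarith

theorem uac_vecs (h : St M A ω) (F : Finset H) (C : ℝ) {η : ℝ} (hη : 0 < η) :
    ∃ δ : ℝ, 0 < δ ∧ ∀ k ∈ M, 0 ≤ k → ‖k‖ ≤ C → (ω k).re ≤ δ → ∀ ξ ∈ F, (vec ξ k).re ≤ η := by
  classical
  induction F using Finset.induction_on with
  | empty => exact ⟨1, one_pos, fun k _ _ _ _ ξ hξ => absurd hξ (Finset.notMem_empty _)⟩
  | insert a F _ ih =>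
    obtain ⟨δ₁, h1, H1⟩ := ih
    obtain ⟨δ₂, h2, H2⟩ := uac_gen h (vec_npos a) C hη
    refine ⟨min δ₁ δ₂, lt_min h1 h2, fun k hk h0 hC hω ξ hξ => ?_⟩
    rcases Finset.mem_insert.1 hξ with rfl | hξ
    · exact H2 k hk h0 hC (hω.trans (min_le_right _ _))
    · exact H1 k hk h0 hC (hω.trans (min_le_left _ _)) ξ hξ

end ExpA

theorem exp_core {r : ℕ} {ε : ℝ} (hε : 0 < ε) (hε1 : ε < 1) (hr : 400000000 / ε ^ 2 ≤ r)
    (h : St M A ω) (hE : CE M A ω E) {x : H →L[ℂ] H} (hxM : x ∈ M) (hx : IsSelfAdjoint x)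
    (hn : ‖x‖ ≤ 1) {δ : ℝ} (hδ : 0 < δ) :
    ∃ p : Fin r → H →L[ℂ] H, IsPartOf A 1 p ∧ ∃ q ∈ M, IsStarProjection q ∧ (ω (1 - q)).re ≤ δ ∧
      ‖q * pin p (x - E x) * q‖ ≤ ε := by
  classical
  have hA := h.masa
  have hpos := h.npos.pos
  have hExM : E x ∈ M := hA.le _ (hE.mem x hxM)
  have hxt : x - E x ∈ M := sub_mem hxM hExM
  have hxtn : ‖x - E x‖ ≤ 2 := by
    have := norm_sub_le x (E x)
    have := hE.norm_le x
    linarith
  have hxts : IsSelfAdjoint (x - E x) := hx.sub (ExpA.sa_sub hE hx)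
  obtain ⟨N, hN⟩ := exists_pow_lt_of_lt_one (show 0 < δ / 4 by positivity)
    (show (1 / 4 : ℝ) < 1 by norm_num)
  have hη : 0 < (ε / 2) ^ (N + 1) / ((N + 1 : ℕ) : ℝ) := by positivity
  obtain ⟨δ₁, hδ₁, hstep⟩ := exp_step h hxt hxtn (N + 1) r hη
  obtain ⟨x₀, hx₀M, hx₀s, hx₀n, hperp, happ⟩ := decomp h hxM hx hn
  obtain ⟨x₁, hx₁N, hx₁s, hx₁n, hw⟩ := happ (δ₁ / 3) (by positivity)
  have hx₁M : x₁ ∈ M := hx₁N.mem h
  have hE0 : E x₀ = 0 := by
    refine hE.eq_zero h hx₀M fun a ha => ?_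
    have := hperp 0 1 (PA.gb h PA.one) a ha
    rwa [one_mul] at this
  have h64 := ExpA.r64 hε hε1 hr
  obtain ⟨x', hx'M, hx's, hx'n, hx'2, D, P₀, hP₀⟩ :=
    col_main h hE h64 hx₁N hx₁s hx₁n (show 0 < δ₁ / 3 by positivity)
  obtain ⟨γ, hγ, δ', hδ', hstep'⟩ := hstep D
  obtain ⟨P₁, hP₁⟩ := free_h h hE hx₀M hx₀s hx₀n (noAtom_of_perp h hE hx₀M hperp) hγ hδ'
  have := hA.directed
  obtain ⟨P, hP0, hP1⟩ := exists_ge_ge P₀ P₁
  obtain ⟨p, hp⟩ := hP₀ P hP0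
  obtain ⟨k, hkM, hk0, hk4, hkω, hk⟩ := hP₁ P hP1
  have hm : 0 < r / 2 := by omega
  have hwM : x - x₀ - x₁ ∈ M := sub_mem (sub_mem hxM hx₀M) hx₁M
  have hx₂M : x - E x - x' - x₀ ∈ M := sub_mem (sub_mem hxt hx'M) hx₀M
  have hx₂n : ‖x - E x - x' - x₀‖ ≤ 8 := by
    have a1 := norm_sub_le (x - E x - x') x₀
    have a2 := norm_sub_le (x - E x) x'
    linarith
  have hx₂2 : n2 ω (x - E x - x' - x₀) ≤ δ₁ := by
    have e1 : x - E x - x' - x₀
        = ((x - x₀ - x₁) - E (x - x₀ - x₁)) + (x₁ - E x₁ - x') := by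
      rw [map_sub, map_sub, hE0]; abel
    have hEw : E (x - x₀ - x₁) ∈ M := hA.le _ (hE.mem _ hwM)
    have a1 := hpos.n2_add_le (sub_mem hwM hEw)
      (sub_mem (sub_mem hx₁M (hA.le _ (hE.mem _ hx₁M))) hx'M)
    have a2 := hpos.n2_sub_le hwM hEw
    have a3 := hE.n2_le _ hwM
    rw [e1]
    linarith
  have hrec := hstep' P.cells (r / 2) hm (fun e : P.cells => (e : H →L[ℂ] H)) P.isPartOf x' hx'M hx's
    _ hx₂M hx₂n hx₂2 x₀ hx₀M hx₀n (by abel) k hkM hk0 hk4 hkω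
    (fun e => by rw [← EP_eq_pin]; exact hk e e.2) (3200 / √(r : ℝ)) (by positivity) p
    (ExpA.rcol_mono hp (by linarith))
  have : Nonempty (P.cells → Fin (r / 2)) := ⟨fun _ => ⟨0, hm⟩⟩
  have h0 : √(N2 ω fun l => pin (p l) (x - E x) ^ 0) ≤ 1 := by
    have e1 : n2 ω (1 : H →L[ℂ] H) = 1 := by
      rw [n2, star_one, one_mul, h.one]; simp
    simp only [N2, pow_zero, e1, one_pow, ExpA.av_one, Real.sqrt_one, le_refl]
  have hit := ExpA.iter (a := fun j => √(N2 ω fun l => pin (p l) (x - E x) ^ j)) h0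
    (ExpA.num hε hε1 hr) (by positivity) (by linarith) hη.le (fun j => Real.sqrt_nonneg _) hrec
    (N + 1) le_rfl
  have hne : ((N + 1 : ℕ) : ℝ) ≠ 0 := by positivity
  rw [mul_div_cancel₀ _ hne] at hit
  have hN2 : (N2 ω fun l => pin (p l) (x - E x) ^ (N + 1)) ≤ (2 * (ε / 2) ^ (N + 1)) ^ 2 := by
    refine (Real.sqrt_le_left (by positivity)).1 ?_
    linarith
  obtain ⟨l, hl⟩ := ExpA.exists_le_av (fun l => n2 ω (pin (p l) (x - E x) ^ (N + 1)) ^ 2)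
  have hl' : n2 ω (pin (p l) (x - E x) ^ (N + 1)) ^ 2 ≤ (2 * (ε / 2) ^ (N + 1)) ^ 2 := hl.trans hN2
  have hpl := hp.part l
  set y := pin (p l) (x - E x) with hy
  have hyM : y ∈ M := hpl.pin_mem hA hxt
  have hys : IsSelfAdjoint y := ExpA.pin_sa hpl hxts
  obtain ⟨g, hg, hgc, hgn, hgb⟩ := spec_cut hys hε
  have hgM : g ∈ M := mem_of_comm hyM hgc
  refine ⟨p l, hpl, g, hgM, hg, ?_, ?_⟩
  · have hyn : y ^ (N + 1) ∈ M := pow_mem hyM _
    have h1g : (1 : H →L[ℂ] H) - g ∈ M := sub_mem (one_mem _) hgM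
    have hsm : (ε ^ (2 * N + 2)) • ((1 : H →L[ℂ] H) - g) ∈ M := by
      rw [← Complex.coe_smul]
      exact M.toStarSubalgebra.smul_mem h1g _
    have a1 := hpos.mono hsm (mul_mem (star_mem hyn) hyn) (hgb N)
    rw [← hpos.n2_sq hyn, LinearMap.map_smul_of_tower, Complex.smul_re, smul_eq_mul] at a1
    have a2 : (2 * (ε / 2) ^ (N + 1)) ^ 2 = ε ^ (2 * N + 2) * (1 / 4) ^ N := by
      have : (1 / 4 : ℝ) = (1 / 2) ^ 2 := by norm_num
      rw [this, ← pow_mul, div_pow, div_pow]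
      field_simp
      ring
    have a3 : ε ^ (2 * N + 2) * (ω (1 - g)).re ≤ ε ^ (2 * N + 2) * (1 / 4) ^ N := by
      rw [← a2]; exact a1.trans hl'
    have a4 := le_of_mul_le_mul_left a3 (by positivity)
    linarith
  · rw [mul_assoc]
    refine (norm_mul_le _ _).trans ?_
    have := hg.norm_le
    nlinarith [norm_nonneg g, norm_nonneg (y * g)]

theorem exp_main {r : ℕ} {ε : ℝ} (hε : 0 < ε) (hε1 : ε < 1) (hr : 400000000 / ε ^ 2 ≤ r)
    (h : St M A ω) : PavC M A 1 r ε := by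
  intro x hxM hx hn F δ hδ
  have hA := h.masa
  obtain ⟨E, hE⟩ := exists_ce h
  obtain ⟨δ₀, hδ₀, hv⟩ := uac_vec h F hδ
  obtain ⟨p, hp, q, hqM, hq, hqω, hb⟩ := exp_core hε hε1 hr h hE hxM hx hn hδ₀
  refine ⟨p, hp, E x, hE.mem x hxM, ExpA.sa_sub hE hx, (hE.norm_le x).trans hn, one_mul _,
    q, hqM, hq, one_mul _, hv _ (sub_mem (one_mem _) hqM) hq.one_sub hqω, ?_⟩
  rwa [pin_sub, hp.pin_of_mem hA (hE.mem x hxM)] at hb

/-- PLAN: `z = pin p (x - E x)`, `w = θ • (z - q z q)`, `θ = 1 - ε/2`; `z - q z q = (1 - q) z + q z (1 - q)`,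
`‖(1 - q) z ξ‖² = ⟪ξ, z⋆ (1 - q) z ξ⟫` is small by `uac_pin` and `uac_gen` (vector functionals are normal);
`pin p (x - w) - E x = (1 - θ) z + θ pin p (q z q)`. -/
theorem exp_ap {r : ℕ} {ε : ℝ} (hε : 0 < ε) (hε1 : ε < 1) (hr : 400000000 / ε ^ 2 ≤ r)
    (h : St M A ω) : ApC M A 1 r (2 * ε) := by
  intro x hxM hx hn F δ hδ
  have hA := h.masa
  obtain ⟨E, hE⟩ := exists_ce h
  have hExM : E x ∈ M := hA.le _ (hE.mem x hxM)
  have hxt : x - E x ∈ M := sub_mem hxM hExM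
  have hxtn : ‖x - E x‖ ≤ 2 := by
    have := norm_sub_le x (E x)
    have := hE.norm_le x
    linarith
  have hxts : IsSelfAdjoint (x - E x) := hx.sub (ExpA.sa_sub hE hx)
  obtain ⟨δ₂, hδ₂, H2⟩ := ExpA.uac_vecs h F 4 (show 0 < (δ / 4) ^ 2 by positivity)
  obtain ⟨δ₃, hδ₃, H3⟩ := uac_pin h hxt 1 hδ₂
  obtain ⟨δ₄, hδ₄, H4⟩ := uac_vec h F (show 0 < δ / 4 by positivity)
  obtain ⟨p, hp, q, hqM, hq, hqω, hb⟩ := exp_core hε hε1 hr h hE hxM hx hn (lt_min hδ₃ hδ₄)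
  set z := pin p (x - E x) with hz
  have hzM : z ∈ M := hp.pin_mem hA hxt
  have hzs : IsSelfAdjoint z := ExpA.pin_sa hp hxts
  have hzn : ‖z‖ ≤ 2 := (hp.pin_norm_le _).trans hxtn
  have h1q : (1 : H →L[ℂ] H) - q ∈ M := sub_mem (one_mem _) hqM
  have hq' : IsStarProjection (1 - q) := hq.one_sub
  have hdM : z - q * z * q ∈ M := sub_mem hzM (mul_mem (mul_mem hqM hzM) hqM)
  have hθ0 : 0 ≤ 1 - ε / 2 := by linarith
  have hqzq : IsSelfAdjoint (q * z * q) := by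
    rw [IsSelfAdjoint, star_mul, star_mul, hq.isSelfAdjoint.star_eq, hzs.star_eq, mul_assoc]
  refine ⟨p, hp, E x, hE.mem x hxM, ExpA.sa_sub hE hx, (hE.norm_le x).trans hn, one_mul _,
    (1 - ε / 2) • (z - q * z * q), ?_, ?_, one_mul _, ?_, fun ξ hξ => ?_, ?_⟩
  · rw [← Complex.coe_smul]
    exact M.toStarSubalgebra.smul_mem hdM _
  · rw [IsSelfAdjoint, star_smul, star_trivial, (hzs.sub hqzq).star_eq]
  · rw [norm_smul, Real.norm_of_nonneg hθ0]
    have a1 := norm_sub_le z (q * z * q)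
    have a2 : ‖z - q * z * q‖ ≤ 2 + ε := by linarith
    have a3 := mul_le_mul_of_nonneg_left a2 hθ0
    nlinarith
  · have e1 : z - q * z * q = (1 - q) * z + q * z * (1 - q) := by noncomm_ring
    have b1 : ‖((1 - q) * z) ξ‖ ≤ δ / 4 := by
      have e2 : star ((1 - q) * z) * ((1 - q) * z) = star z * (1 - q) * z := by
        rw [star_mul, hq'.isSelfAdjoint.star_eq, mul_assoc, ← mul_assoc (1 - q),
          hq'.isIdempotentElem.eq, mul_assoc]
      have hk0 : 0 ≤ star z * (1 - q) * z := by rw [← e2]; exact star_mul_self_nonneg _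
      have hk4 : ‖star z * (1 - q) * z‖ ≤ 4 := by
        rw [← e2, CStarRing.norm_star_mul_self]
        have c1 : ‖(1 - q) * z‖ ≤ 2 := by
          refine (norm_mul_le _ _).trans ?_
          have := hq'.norm_le
          nlinarith [norm_nonneg (1 - q), norm_nonneg z]
        nlinarith [norm_nonneg ((1 - q) * z)]
      have hω := H3 _ h1q hq'.nonneg hq'.norm_le (hqω.trans (min_le_left _ _)) r p hp
      have c2 := H2 _ (mul_mem (mul_mem (star_mem hzM) h1q) hzM) hk0 hk4 hω ξ hξ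
      rw [← e2, ExpA.vec_star_mul, Complex.ofReal_re] at c2
      exact (sq_le_sq₀ (norm_nonneg _) (by positivity)).1 c2
    have b2 : ‖(q * z * (1 - q)) ξ‖ ≤ 2 * (δ / 4) := by
      have c1 := H4 _ h1q hq' (hqω.trans (min_le_right _ _)) ξ hξ
      have c2 : ‖q * z‖ ≤ 2 := by
        refine (norm_mul_le _ _).trans ?_
        have := hq.norm_le
        nlinarith [norm_nonneg q, norm_nonneg z]
      have c3 : ‖(q * z) ((1 - q) ξ)‖ ≤ ‖q * z‖ * ‖(1 - q) ξ‖ := (q * z).le_opNorm _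
      have c4 : ‖q * z‖ * ‖(1 - q) ξ‖ ≤ 2 * (δ / 4) :=
        mul_le_mul c2 c1.le (norm_nonneg _) (by norm_num)
      exact c3.trans c4
    have b3 : ‖(z - q * z * q) ξ‖ ≤ δ / 4 + 2 * (δ / 4) := by
      rw [e1]
      exact (norm_add_le (((1 - q) * z) ξ) ((q * z * (1 - q)) ξ)).trans (add_le_add b1 b2)
    have b4 : ‖((1 - ε / 2) • (z - q * z * q)) ξ‖ = (1 - ε / 2) * ‖(z - q * z * q) ξ‖ := by
      show ‖(1 - ε / 2) • ((z - q * z * q) ξ)‖ = _
      rw [norm_smul, Real.norm_of_nonneg hθ0]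
    rw [b4]
    nlinarith [norm_nonneg ((z - q * z * q) ξ)]
  · have e1 : pin p x - E x = z := by
      rw [hz, pin_sub, hp.pin_of_mem hA (hE.mem x hxM)]
    have e2 : pin p (x - (1 - ε / 2) • (z - q * z * q)) - E x
        = (ε / 2) • z + (1 - ε / 2) • pin p (q * z * q) := by
      have e3 : pin p z = z := ExpA.pin_pin hp _
      rw [pin_sub, pin_rsmul, pin_sub, e3, sub_right_comm, e1]
      module
    rw [e2]
    refine (norm_add_le _ _).trans ?_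
    rw [norm_smul, norm_smul, Real.norm_of_nonneg hθ0, Real.norm_of_nonneg (by positivity)]
    have c1 : ‖pin p (q * z * q)‖ ≤ ε := (hp.pin_norm_le _).trans hb
    have c2 := mul_le_mul_of_nonneg_left c1 hθ0
    have c3 := mul_le_mul_of_nonneg_left hzn (show 0 ≤ ε / 2 by positivity)
    nlinarith

end Crest.Agent.R109
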