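import Crest.Agent.R109.Part

/-!
# Row 109, task R109-FreeY

The first-letter estimate.  Work with the seminorm `√(N2 ω ·)` on `M`-valued functions (triangle inequality;
`N2 (a η) ≤ C² N2 η` for `‖a l‖ ≤ C`).  PLAN.  `PiO g` and `PiD g = 1 - PiO g` are complementary orthogonal
projections for the form `av_l ω (η l⋆ ζ l)` (`cE e` is self-adjoint, idempotent, commutes with left
multiplication by `g e`).  `N2 (p c · PiO η) = ∑_e av ω ((cE e η)⋆ (cE e (p c g e)) (cE e η)) ≤ N2 (PiO η) / m`, as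
`cE e (p · c * g e) ≤ g e / m` (the `m` projections `p (update l e i) c * g e` are orthogonal, below `g e`);
by duality `N2 (PiO (p c · η)) ≤ N2 η / m`.  For `η = p c ζ` and `u = x₀ η`:
`p c u = p c PiO u + p c PiD (x₀ PiO η) + p c PiD (x₀ PiD η)`, of norms `≤ ‖x₀‖ ‖η‖ / √m` (twice) and
`≤ ‖PiD (x₀ PiD η)‖`.  Finally `N2 (pin (p l) x₀ ζ) = ∑_c N2 (p c x₀ p c ζ)`, `∑_c N2 (p c ζ) = N2 ζ`, Minkowski in
`ℓ²(Fin r)`.
-/

set_option autoImplicit false
set_option linter.unusedSectionVars false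
set_option linter.unusedVariables false

namespace Crest.Agent.R109

open scoped InnerProductSpace ComplexOrder ComplexConjugate
open Filter Topology

universe u

variable {H : Type u} [NormedAddCommGroup H] [InnerProductSpace ℂ H] [CompleteSpace H]
  {M : VonNeumannAlgebra H} {A : StarSubalgebra ℂ (H →L[ℂ] H)}
  {ω φ : (H →L[ℂ] H) →ₗ[ℂ] ℂ} {E : (H →L[ℂ] H) →ₗ[ℂ] (H →L[ℂ] H)}
  {ι : Type u} [Fintype ι] [DecidableEq ι] {m : ℕ}

namespace FreeYA

theorem mink {κ : Type*} (s : Finset κ) {a b c : κ → ℝ} (h0 : ∀ i ∈ s, 0 ≤ c i)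
    (h : ∀ i ∈ s, c i ≤ a i + b i) :
    √(∑ i ∈ s, c i ^ 2) ≤ √(∑ i ∈ s, a i ^ 2) + √(∑ i ∈ s, b i ^ 2) := by
  refine Real.sqrt_le_iff.2 ⟨by positivity, ?_⟩
  have h1 := Real.sum_mul_le_sqrt_mul_sqrt s a b
  have ha := Real.sq_sqrt (show 0 ≤ ∑ i ∈ s, a i ^ 2 by positivity)
  have hb := Real.sq_sqrt (show 0 ≤ ∑ i ∈ s, b i ^ 2 by positivity)
  have h2 : ∑ i ∈ s, c i ^ 2 ≤
      ∑ i ∈ s, a i ^ 2 + 2 * ∑ i ∈ s, a i * b i + ∑ i ∈ s, b i ^ 2 := by
    rw [Finset.mul_sum, ← Finset.sum_add_distrib, ← Finset.sum_add_distrib]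
    exact Finset.sum_le_sum fun i hi => by nlinarith [h0 i hi, h i hi]
  nlinarith

/-- the real form -/
noncomputable def T (ω : (H →L[ℂ] H) →ₗ[ℂ] ℂ) (η ζ : (ι → Fin m) → H →L[ℂ] H) : ℝ :=
  ∑ l, (ω (star (η l) * ζ l)).re

/-- the unnormalised seminorm -/
noncomputable def tt (ω : (H →L[ℂ] H) →ₗ[ℂ] ℂ) (η : (ι → Fin m) → H →L[ℂ] H) : ℝ :=
  √(∑ l, n2 ω (η l) ^ 2)

theorem tt_nonneg (η : (ι → Fin m) → H →L[ℂ] H) : 0 ≤ tt ω η := Real.sqrt_nonneg _

theorem tt_sq' (η : (ι → Fin m) → H →L[ℂ] H) : tt ω η ^ 2 = ∑ l, n2 ω (η l) ^ 2 :=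
  Real.sq_sqrt (by positivity)

theorem N2_eq (η : (ι → Fin m) → H →L[ℂ] H) :
    N2 ω η = (Fintype.card (ι → Fin m) : ℝ)⁻¹ * tt ω η ^ 2 := by
  rw [tt_sq']; rfl

theorem sqrt_N2 (η : (ι → Fin m) → H →L[ℂ] H) :
    √(N2 ω η) = √((Fintype.card (ι → Fin m) : ℝ)⁻¹) * tt ω η := by
  rw [N2_eq, Real.sqrt_mul (by positivity), Real.sqrt_sq (tt_nonneg η)]

theorem tt_sq (hω : Pos M ω) {η : (ι → Fin m) → H →L[ℂ] H} (hη : ∀ l, η l ∈ M) :
    tt ω η ^ 2 = T ω η η := by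
  rw [tt_sq']
  exact Finset.sum_congr rfl fun l _ => hω.n2_sq (hη l)

theorem tt_add (hω : Pos M ω) {η ζ : (ι → Fin m) → H →L[ℂ] H} (hη : ∀ l, η l ∈ M)
    (hζ : ∀ l, ζ l ∈ M) : tt ω (fun l => η l + ζ l) ≤ tt ω η + tt ω ζ :=
  mink _ (fun _ _ => n2_nonneg _) fun l _ => hω.n2_add_le (hη l) (hζ l)

theorem tt_mul (hω : Pos M ω) {a η : (ι → Fin m) → H →L[ℂ] H} (ha : ∀ l, a l ∈ M)
    (hη : ∀ l, η l ∈ M) {C : ℝ} (hC0 : 0 ≤ C) (hC : ∀ l, ‖a l‖ ≤ C) :
    tt ω (fun l => a l * η l) ≤ C * tt ω η := by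
  refine Real.sqrt_le_iff.2 ⟨mul_nonneg hC0 (tt_nonneg _), ?_⟩
  rw [mul_pow, tt_sq', Finset.mul_sum]
  refine Finset.sum_le_sum fun l _ => ?_
  rw [← mul_pow]
  refine pow_le_pow_left₀ (n2_nonneg _) ?_ 2
  exact (hω.n2_mul_left (ha l) (hη l)).trans (mul_le_mul_of_nonneg_right (hC l) (n2_nonneg _))

theorem T_le (hω : Pos M ω) {η ζ : (ι → Fin m) → H →L[ℂ] H} (hη : ∀ l, η l ∈ M)
    (hζ : ∀ l, ζ l ∈ M) : T ω η ζ ≤ tt ω η * tt ω ζ := by
  refine le_trans ?_ (Real.sum_mul_le_sqrt_mul_sqrt Finset.univ (fun l => n2 ω (η l))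
    fun l => n2 ω (ζ l))
  exact Finset.sum_le_sum fun l _ => (Complex.re_le_norm _).trans (hω.cs (hη l) (hζ l))

theorem T_symm (hω : Pos M ω) {η ζ : (ι → Fin m) → H →L[ℂ] H} (hη : ∀ l, η l ∈ M)
    (hζ : ∀ l, ζ l ∈ M) : T ω η ζ = T ω ζ η := by
  refine Finset.sum_congr rfl fun l _ => ?_
  have h := hω.map_star (mul_mem (star_mem (hη l)) (hζ l))
  rw [star_mul, star_star] at h
  rw [h, Complex.conj_re]

theorem T_add_right (η ζ θ : (ι → Fin m) → H →L[ℂ] H) :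
    T ω η (fun l => ζ l + θ l) = T ω η ζ + T ω η θ := by
  simp only [T, mul_add, map_add, Complex.add_re, Finset.sum_add_distrib]

theorem T_add_left (η ζ θ : (ι → Fin m) → H →L[ℂ] H) :
    T ω (fun l => ζ l + θ l) η = T ω ζ η + T ω θ η := by
  simp only [T, star_add, add_mul, map_add, Complex.add_re, Finset.sum_add_distrib]

theorem sum_update (e : ι) (G : (ι → Fin m) → ℝ) :
    ∑ l : ι → Fin m, ∑ i : Fin m, G (Function.update l e i) = m * ∑ l, G l := by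
  have hinv : Function.Involutive fun x : (ι → Fin m) × Fin m =>
      (Function.update x.1 e x.2, x.1 e) := by
    rintro ⟨l, i⟩
    simp
  have h := Equiv.sum_comp hinv.toPerm fun x : (ι → Fin m) × Fin m => G x.1
  rw [Fintype.sum_prod_type, Fintype.sum_prod_type] at h
  simp only [Function.Involutive.coe_toPerm, Finset.sum_const, Finset.card_univ, Fintype.card_fin,
    nsmul_eq_mul] at h
  rw [h, Finset.mul_sum]

theorem cE_update (e : ι) (η : (ι → Fin m) → H →L[ℂ] H) (l : ι → Fin m) (i : Fin m) :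
    cE e η (Function.update l e i) = cE e η l := by
  simp only [cE, Function.update_idem]

theorem cE_mem (e : ι) {η : (ι → Fin m) → H →L[ℂ] H} (hη : ∀ l, η l ∈ M) (l : ι → Fin m) :
    cE e η l ∈ M := by
  have h : ∑ i : Fin m, η (Function.update l e i) ∈ M := sum_mem fun i _ => hη _
  have h2 := M.toStarSubalgebra.smul_mem h (((Fintype.card (Fin m) : ℝ)⁻¹ : ℝ) : ℂ)
  rw [Complex.coe_smul] at h2
  exact h2

theorem cE_add (e : ι) (η ζ : (ι → Fin m) → H →L[ℂ] H) (l : ι → Fin m) :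
    cE e (fun l => η l + ζ l) l = cE e η l + cE e ζ l := by
  simp only [cE, av, Finset.sum_add_distrib, smul_add]

theorem sum_cE (hm : 0 < m) (e : ι) {f : (ι → Fin m) → H →L[ℂ] H}
    (hf : ∀ l i, f (Function.update l e i) = f l) (ζ : (ι → Fin m) → H →L[ℂ] H) :
    ∑ l, (ω (f l * cE e ζ l)).re = ∑ l, (ω (f l * ζ l)).re := by
  have h := sum_update e fun l => (ω (f l * ζ l)).re
  have hm' : (m : ℝ) ≠ 0 := by positivity
  have h2 : ∀ l, (ω (f l * cE e ζ l)).re =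
      (m : ℝ)⁻¹ * ∑ i : Fin m, (ω (f (Function.update l e i) * ζ (Function.update l e i))).re := by
    intro l
    simp only [cE, av, hf, Fintype.card_fin, mul_smul_comm, LinearMap.map_smul_of_tower,
      Finset.mul_sum, map_sum, Complex.smul_re, Complex.re_sum, smul_eq_mul]
  simp only [h2]
  rw [← Finset.mul_sum, h, ← mul_assoc, inv_mul_cancel₀ hm', one_mul]

theorem orth_sum {κ : Type*} [Fintype κ] {s : H →L[ℂ] H} {q : κ → H →L[ℂ] H} (hq : IsPartOf A s q)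
    (y z : κ → H →L[ℂ] H) :
    star (∑ e, q e * y e) * ∑ e, q e * z e = ∑ e, star (y e) * q e * z e := by
  rw [star_sum, Finset.sum_mul]
  refine Finset.sum_congr rfl fun e _ => ?_
  rw [Finset.mul_sum, Finset.sum_eq_single e]
  · rw [star_mul, (hq.pa e).2.isSelfAdjoint.star_eq, mul_assoc, ← mul_assoc (q e),
      (hq.pa e).2.isIdempotentElem.eq, mul_assoc]
  · intro e' _ he
    rw [star_mul, (hq.pa e).2.isSelfAdjoint.star_eq, mul_assoc, ← mul_assoc (q e),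
      hq.orth e e' he.symm, zero_mul, mul_zero]
  · intro h
    exact absurd (Finset.mem_univ e) h

variable {g : ι → H →L[ℂ] H}

theorem PiO_add_PiD (hg : IsPartOf A 1 g) (η : (ι → Fin m) → H →L[ℂ] H) (l : ι → Fin m) :
    PiO g η l + PiD g η l = η l := by
  simp only [PiO, PiD]
  rw [← Finset.sum_add_distrib]
  simp only [← mul_add, add_sub_cancel]
  rw [← Finset.sum_mul, hg.sum, one_mul]

theorem PiO_mem (hA : Masa M A) (hg : IsPartOf A 1 g) {η : (ι → Fin m) → H →L[ℂ] H}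
    (hη : ∀ l, η l ∈ M) (l : ι → Fin m) : PiO g η l ∈ M :=
  sum_mem fun e _ => mul_mem (hA.le _ (hg.pa e).1) (cE_mem e hη l)

theorem PiD_mem (hA : Masa M A) (hg : IsPartOf A 1 g) {η : (ι → Fin m) → H →L[ℂ] H}
    (hη : ∀ l, η l ∈ M) (l : ι → Fin m) : PiD g η l ∈ M :=
  sum_mem fun e _ => mul_mem (hA.le _ (hg.pa e).1) (sub_mem (hη l) (cE_mem e hη l))

theorem PiD_add (η ζ : (ι → Fin m) → H →L[ℂ] H) (l : ι → Fin m) :
    PiD g (fun l => η l + ζ l) l = PiD g η l + PiD g ζ l := by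
  simp only [PiD, cE_add]
  rw [← Finset.sum_add_distrib]
  refine Finset.sum_congr rfl fun e _ => ?_
  rw [← mul_add]
  congr 1
  abel

theorem T_PiO_PiD (hm : 0 < m) (hg : IsPartOf A 1 g) (η ζ : (ι → Fin m) → H →L[ℂ] H) :
    T ω (PiO g η) (PiD g ζ) = 0 := by
  simp only [T, PiO, PiD, orth_sum hg, map_sum, Complex.re_sum]
  rw [Finset.sum_comm]
  refine Finset.sum_eq_zero fun e _ => ?_
  simp only [mul_sub, map_sub, Complex.sub_re, Finset.sum_sub_distrib]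
  rw [sum_cE hm e (f := fun l => star (cE e η l) * g e) (fun l i => by simp only [cE_update]),
    sub_self]

theorem pyth (hA : Masa M A) (hω : Pos M ω) (hm : 0 < m) (hg : IsPartOf A 1 g)
    {η : (ι → Fin m) → H →L[ℂ] H} (hη : ∀ l, η l ∈ M) :
    tt ω η ^ 2 = tt ω (PiO g η) ^ 2 + tt ω (PiD g η) ^ 2 := by
  have e : η = fun l => PiO g η l + PiD g η l := funext fun l => (PiO_add_PiD hg η l).symm
  rw [tt_sq hω hη, tt_sq hω (PiO_mem hA hg hη), tt_sq hω (PiD_mem hA hg hη)]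
  conv_lhs => rw [e]
  rw [T_add_left, T_add_right, T_add_right, T_PiO_PiD hm hg,
    T_symm hω (PiD_mem hA hg hη) (PiO_mem hA hg hη), T_PiO_PiD hm hg]
  ring

theorem tt_PiO_le (hA : Masa M A) (hω : Pos M ω) (hm : 0 < m) (hg : IsPartOf A 1 g)
    {η : (ι → Fin m) → H →L[ℂ] H} (hη : ∀ l, η l ∈ M) : tt ω (PiO g η) ≤ tt ω η := by
  refine (sq_le_sq₀ (tt_nonneg _) (tt_nonneg _)).1 ?_
  rw [pyth hA hω hm hg hη]
  exact le_add_of_nonneg_right (sq_nonneg _)

theorem tt_PiD_le (hA : Masa M A) (hω : Pos M ω) (hm : 0 < m) (hg : IsPartOf A 1 g)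
    {η : (ι → Fin m) → H →L[ℂ] H} (hη : ∀ l, η l ∈ M) : tt ω (PiD g η) ≤ tt ω η := by
  refine (sq_le_sq₀ (tt_nonneg _) (tt_nonneg _)).1 ?_
  rw [pyth hA hω hm hg hη]
  exact le_add_of_nonneg_left (sq_nonneg _)

/-- orthogonal projections below `g` -/
theorem sum_le_proj (hA : Masa M A) (hω : Pos M ω) {κ : Type*} [Fintype κ] {q : κ → H →L[ℂ] H}
    {g : H →L[ℂ] H} (hq : ∀ i, PA A (q i)) (hg : PA A g)
    (hi : ∀ i j, i ≠ j → q i * q j * g = 0) {f : H →L[ℂ] H} (hf : f ∈ M) :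
    ∑ i, (ω (star f * (q i * g) * f)).re ≤ (ω (star f * g * f)).re := by
  have gg : g * g = g := hg.2.isIdempotentElem.eq
  have hc : ∀ i, g * q i = q i * g := fun i => hA.comm _ hg.1 _ (hq i).1
  set Q := ∑ i, q i * g with hQ
  have h1 : Q * g = Q := by
    rw [hQ, Finset.sum_mul]
    exact Finset.sum_congr rfl fun i _ => by rw [mul_assoc, gg]
  have h2 : g * Q = Q := by
    rw [hQ, Finset.mul_sum]
    exact Finset.sum_congr rfl fun i _ => by rw [← mul_assoc, hc, mul_assoc, gg]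
  have h3 : Q * Q = Q := by
    rw [hQ, Finset.sum_mul]
    refine Finset.sum_congr rfl fun i _ => ?_
    have : ∀ j, q i * g * (q j * g) = q i * q j * g := fun j => by
      rw [mul_assoc, ← mul_assoc g, hc, mul_assoc, gg, mul_assoc]
    rw [Finset.mul_sum, Finset.sum_eq_single i]
    · rw [this, (hq i).2.isIdempotentElem.eq]
    · intro j _ hj
      rw [this, hi i j hj.symm]
    · intro h
      exact absurd (Finset.mem_univ i) h
  have h4 : star Q = Q := by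
    rw [hQ, star_sum]
    exact Finset.sum_congr rfl fun i _ => by
      rw [star_mul, hg.2.isSelfAdjoint.star_eq, (hq i).2.isSelfAdjoint.star_eq, hc]
  have hQm : Q ∈ M := sum_mem fun i _ => mul_mem (hA.le _ (hq i).1) (hA.le _ hg.1)
  have h5 : (g - Q) * (g - Q) = g - Q := by
    rw [sub_mul, mul_sub, mul_sub, gg, h1, h2, h3, sub_self, sub_zero]
  have h6 := hω ((g - Q) * f) (mul_mem (sub_mem (hA.le _ hg.1) hQm) hf)
  rw [star_mul, star_sub, h4, hg.2.isSelfAdjoint.star_eq, mul_assoc, ← mul_assoc (g - Q), h5,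
    ← mul_assoc, mul_sub, sub_mul, map_sub] at h6
  have h7 := (Complex.le_def.1 h6).1
  rw [Complex.sub_re, Complex.zero_re] at h7
  have h8 : ∑ i, (ω (star f * (q i * g) * f)).re = (ω (star f * Q * f)).re := by
    rw [hQ, Finset.mul_sum, Finset.sum_mul, map_sum, Complex.re_sum]
  linarith

variable {p : (ι → Fin m) → H →L[ℂ] H}

theorem tt_p_PiO (hA : Masa M A) (hω : Pos M ω) (hm : 0 < m) (hg : IsPartOf A 1 g)
    (hp : ∀ l, PA A (p l))
    (hi : ∀ l e (i i' : Fin m), i ≠ i' →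
      p (Function.update l e i) * p (Function.update l e i') * g e = 0)
    {η : (ι → Fin m) → H →L[ℂ] H} (hη : ∀ l, η l ∈ M) :
    tt ω (fun l => p l * PiO g η l) ≤ tt ω (PiO g η) / √(m : ℝ) := by
  have hm' : (0 : ℝ) < m := by positivity
  refine (sq_le_sq₀ (tt_nonneg _) (div_nonneg (tt_nonneg _) (Real.sqrt_nonneg _))).1 ?_
  rw [div_pow, Real.sq_sqrt hm'.le, le_div_iff₀ hm', tt_sq hω (PiO_mem hA hg hη),
    tt_sq hω fun l => mul_mem (hA.le _ (hp l).1) (PiO_mem hA hg hη l)]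
  have e1 : ∀ l, p l * PiO g η l = ∑ e, g e * (p l * cE e η l) := by
    intro l
    simp only [PiO, Finset.mul_sum]
    refine Finset.sum_congr rfl fun e _ => ?_
    rw [← mul_assoc, hA.comm _ (hp l).1 _ (hg.pa e).1, mul_assoc]
  have e2 : ∀ l e, star (p l * cE e η l) * g e * (p l * cE e η l) =
      star (cE e η l) * (p l * g e) * cE e η l := by
    intro l e
    rw [star_mul, (hp l).2.isSelfAdjoint.star_eq, ← mul_assoc, mul_assoc _ (g e),
      hA.comm _ (hg.pa e).1 _ (hp l).1, ← mul_assoc, mul_assoc _ (p l) (p l),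
      (hp l).2.isIdempotentElem.eq, mul_assoc _ (p l) (g e)]
  simp only [T, e1, orth_sum hg, e2]
  simp only [PiO, orth_sum hg, map_sum, Complex.re_sum]
  rw [Finset.sum_comm, Finset.sum_comm (f := fun l e => (ω (star (cE e η l) * g e * cE e η l)).re),
    Finset.sum_mul]
  refine Finset.sum_le_sum fun e _ => ?_
  rw [mul_comm, ← sum_update e fun l => (ω (star (cE e η l) * (p l * g e) * cE e η l)).re]
  refine Finset.sum_le_sum fun l _ => ?_
  simp only [cE_update]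
  exact sum_le_proj hA hω (q := fun i => p (Function.update l e i)) (fun i => hp _) (hg.pa e)
    (hi l e) (cE_mem e hη l)

theorem tt_PiO_p (hA : Masa M A) (hω : Pos M ω) (hm : 0 < m) (hg : IsPartOf A 1 g)
    (hp : ∀ l, PA A (p l))
    (hi : ∀ l e (i i' : Fin m), i ≠ i' →
      p (Function.update l e i) * p (Function.update l e i') * g e = 0)
    {η : (ι → Fin m) → H →L[ℂ] H} (hη : ∀ l, η l ∈ M) (hpη : ∀ l, p l * η l = η l) :
    tt ω (PiO g η) ≤ tt ω η / √(m : ℝ) := by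
  have hO := PiO_mem hA hg hη
  have h1 : tt ω (PiO g η) ^ 2 = T ω (fun l => p l * PiO g η l) η := by
    have e : T ω (PiO g η) η = T ω (PiO g η) fun l => PiO g η l + PiD g η l := by
      simp only [PiO_add_PiD hg]
    rw [T_add_right, T_PiO_PiD hm hg, add_zero] at e
    rw [tt_sq hω hO, ← e]
    refine Finset.sum_congr rfl fun l _ => ?_
    rw [star_mul, (hp l).2.isSelfAdjoint.star_eq, mul_assoc, hpη]
  have h2 := T_le hω (fun l => mul_mem (hA.le _ (hp l).1) (hO l)) hη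
  have h3 := tt_p_PiO hA hω hm hg hp hi hη
  have h4 : tt ω (PiO g η) * tt ω (PiO g η) ≤ tt ω (PiO g η) * (tt ω η / √(m : ℝ)) := by
    calc tt ω (PiO g η) * tt ω (PiO g η) = tt ω (PiO g η) ^ 2 := by ring
      _ ≤ tt ω (PiO g η) / √(m : ℝ) * tt ω η :=
        h1.trans_le (h2.trans (mul_le_mul_of_nonneg_right h3 (tt_nonneg _)))
      _ = _ := by ring
  rcases (tt_nonneg (ω := ω) (PiO g η)).eq_or_lt with h | h
  · rw [← h]
    exact div_nonneg (tt_nonneg _) (Real.sqrt_nonneg _)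
  · exact le_of_mul_le_mul_left h4 h

theorem tt_cell (hA : Masa M A) (hω : Pos M ω) (hm : 0 < m) (hg : IsPartOf A 1 g)
    (hp : ∀ l, PA A (p l))
    (hi : ∀ l e (i i' : Fin m), i ≠ i' →
      p (Function.update l e i) * p (Function.update l e i') * g e = 0)
    {x₀ : H →L[ℂ] H} (hx : x₀ ∈ M)
    {η : (ι → Fin m) → H →L[ℂ] H} (hη : ∀ l, η l ∈ M) (hpη : ∀ l, p l * η l = η l) :
    tt ω (fun l => p l * (x₀ * η l)) ≤ 2 * ‖x₀‖ / √(m : ℝ) * tt ω η +
      tt ω (PiD g fun l => x₀ * PiD g η l) := by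
  have hpM : ∀ l, p l ∈ M := fun l => hA.le _ (hp l).1
  have hu : ∀ l, x₀ * η l ∈ M := fun l => mul_mem hx (hη l)
  have hv : ∀ l, x₀ * PiO g η l ∈ M := fun l => mul_mem hx (PiO_mem hA hg hη l)
  have hw : ∀ l, x₀ * PiD g η l ∈ M := fun l => mul_mem hx (PiD_mem hA hg hη l)
  have e : (fun l => p l * (x₀ * η l)) = fun l => p l * PiO g (fun l => x₀ * η l) l +
      p l * (PiD g (fun l => x₀ * PiO g η l) l + PiD g (fun l => x₀ * PiD g η l) l) := by
    funext l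
    rw [← PiD_add, ← mul_add]
    simp only [← mul_add, PiO_add_PiD hg]
  have hs : 0 ≤ √(m : ℝ) := Real.sqrt_nonneg _
  have h1 : tt ω (fun l => p l * PiO g (fun l => x₀ * η l) l) ≤ ‖x₀‖ * tt ω η / √(m : ℝ) := by
    refine (tt_p_PiO hA hω hm hg hp hi hu).trans (div_le_div_of_nonneg_right ?_ hs)
    exact (tt_PiO_le hA hω hm hg hu).trans
      (tt_mul hω (a := fun _ => x₀) (fun _ => hx) hη (norm_nonneg _) fun _ => le_rfl)
  have h2 : tt ω (PiD g fun l => x₀ * PiO g η l) ≤ ‖x₀‖ * (tt ω η / √(m : ℝ)) := by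
    refine (tt_PiD_le hA hω hm hg hv).trans ?_
    refine (tt_mul hω (a := fun _ => x₀) (fun _ => hx) (PiO_mem hA hg hη) (norm_nonneg _)
      fun _ => le_rfl).trans ?_
    exact mul_le_mul_of_nonneg_left (tt_PiO_p hA hω hm hg hp hi hη hpη) (norm_nonneg _)
  have hD : ∀ l, PiD g (fun l => x₀ * PiO g η l) l + PiD g (fun l => x₀ * PiD g η l) l ∈ M :=
    fun l => add_mem (PiD_mem hA hg hv l) (PiD_mem hA hg hw l)
  have h3 := tt_mul hω hpM hD zero_le_one fun l => (hp l).2.norm_le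
  have h4 := tt_add hω (PiD_mem hA hg hv) (PiD_mem hA hg hw)
  have h5 := tt_add hω (fun l => mul_mem (hpM l) (PiO_mem hA hg hu l))
    fun l => mul_mem (hpM l) (hD l)
  rw [e]
  have e2 : 2 * ‖x₀‖ / √(m : ℝ) * tt ω η =
      ‖x₀‖ * tt ω η / √(m : ℝ) + ‖x₀‖ * (tt ω η / √(m : ℝ)) := by ring
  rw [e2]
  linarith

theorem tt_sq_sum (hA : Masa M A) (hω : Pos M ω) {r : ℕ}
    {p : (ι → Fin m) → Fin r → H →L[ℂ] H} (hp : ∀ l, IsPartOf A 1 (p l))
    {y : Fin r → (ι → Fin m) → H →L[ℂ] H} (hy : ∀ c l, y c l ∈ M) :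
    tt ω (fun l => ∑ c, p l c * y c l) ^ 2 = ∑ c, tt ω (fun l => p l c * y c l) ^ 2 := by
  have hm : ∀ c l, p l c * y c l ∈ M := fun c l => mul_mem (hA.le _ ((hp l).pa c).1) (hy c l)
  rw [tt_sq hω fun l => sum_mem fun c _ => hm c l]
  simp only [fun c => tt_sq hω (hm c), T]
  rw [Finset.sum_comm]
  refine Finset.sum_congr rfl fun l _ => ?_
  rw [orth_sum (hp l), map_sum, Complex.re_sum]
  refine Finset.sum_congr rfl fun c _ => ?_
  rw [star_mul, ((hp l).pa c).2.isSelfAdjoint.star_eq, mul_assoc _ (p l c) (p l c * _),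
    ← mul_assoc (p l c), ((hp l).pa c).2.isIdempotentElem.eq, mul_assoc]

end FreeYA

open FreeYA

theorem sqrt_N2_add_le (hω : Pos M ω) {η ζ : (ι → Fin m) → H →L[ℂ] H} (hη : ∀ l, η l ∈ M)
    (hζ : ∀ l, ζ l ∈ M) : √(N2 ω fun l => η l + ζ l) ≤ √(N2 ω η) + √(N2 ω ζ) := by
  rw [sqrt_N2, sqrt_N2, sqrt_N2, ← mul_add]
  exact mul_le_mul_of_nonneg_left (tt_add hω hη hζ) (Real.sqrt_nonneg _)

theorem free_y (hA : Masa M A) (hω : Pos M ω) (hm : 0 < m) {g : ι → H →L[ℂ] H}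
    (hg : IsPartOf A 1 g) {r : ℕ} {p : (ι → Fin m) → Fin r → H →L[ℂ] H}
    (hp : ∀ l, IsPartOf A 1 (p l))
    (hi : ∀ l e (i i' : Fin m) c, i ≠ i' →
      p (Function.update l e i) c * p (Function.update l e i') c * g e = 0)
    {x₀ : H →L[ℂ] H} (hx : x₀ ∈ M) {ζ : (ι → Fin m) → H →L[ℂ] H} (hζ : ∀ l, ζ l ∈ M) :
    √(N2 ω fun l => pin (p l) x₀ * ζ l) ≤ 2 * ‖x₀‖ / √(m : ℝ) * √(N2 ω ζ) +
      √(∑ c, N2 ω (PiD g fun l => x₀ * PiD g (fun l => p l c * ζ l) l)) := by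
  have hpM : ∀ c l, p l c ∈ M := fun c l => hA.le _ ((hp l).pa c).1
  have hη : ∀ c l, p l c * ζ l ∈ M := fun c l => mul_mem (hpM c l) (hζ l)
  have hC : 0 ≤ 2 * ‖x₀‖ / √(m : ℝ) := by positivity
  have e1 : tt ω (fun l => pin (p l) x₀ * ζ l) =
      √(∑ c, tt ω (fun l => p l c * (x₀ * (p l c * ζ l))) ^ 2) := by
    rw [← tt_sq_sum hA hω hp (y := fun c l => x₀ * (p l c * ζ l)) fun c l => mul_mem hx (hη c l),
      Real.sqrt_sq (tt_nonneg _)]
    simp only [pin, Finset.sum_mul, mul_assoc]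
  have e2 : √(∑ c, (2 * ‖x₀‖ / √(m : ℝ) * tt ω (fun l => p l c * ζ l)) ^ 2) =
      2 * ‖x₀‖ / √(m : ℝ) * tt ω ζ := by
    simp only [mul_pow]
    rw [← Finset.mul_sum, ← tt_sq_sum hA hω hp (y := fun _ => ζ) fun _ => hζ, ← mul_pow]
    simp only [← Finset.sum_mul, (hp _).sum, one_mul]
    exact Real.sqrt_sq (mul_nonneg hC (tt_nonneg _))
  have h := mink Finset.univ (c := fun c => tt ω (fun l => p l c * (x₀ * (p l c * ζ l))))
    (a := fun c => 2 * ‖x₀‖ / √(m : ℝ) * tt ω (fun l => p l c * ζ l))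
    (b := fun c => tt ω (PiD g fun l => x₀ * PiD g (fun l => p l c * ζ l) l))
    (fun _ _ => tt_nonneg _) fun c _ => tt_cell hA hω hm hg (p := fun l => p l c)
      (fun l => (hp l).pa c) (fun l e i i' h => hi l e i i' c h) hx (hη c)
      fun l => by rw [← mul_assoc, ((hp l).pa c).2.isIdempotentElem.eq]
  rw [← e1, e2] at h
  rw [sqrt_N2, sqrt_N2]
  simp only [N2_eq]
  rw [← Finset.mul_sum, Real.sqrt_mul (by positivity), mul_left_comm, ← mul_add]
  exact mul_le_mul_of_nonneg_left h (Real.sqrt_nonneg _)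

end Crest.Agent.R109
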