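import Crest.Agent.R109.Proj

/-!
# Row 109, task R109-Part

Partitions and pinchings.  PLAN.  Directedness: the image of `(p, q) ↦ p * q` (two different non-zero values
are orthogonal; two different pairs give orthogonal products, so equal values from different pairs are `0`;
it is easiest to prove `exists_part_of`-type lemma first: an indexed partition `p : ι → _` gives
`cells = (univ.image p).erase 0` or `image`, sums by `Finset.sum_image`-like injectivity off `0`).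
`approx`: self-adjoint parts; cut the spectrum of `a` in intervals of length `η` with `spec_proj` (induction
on the number of cuts); refinement: on a cell `q ≤ p` use the coefficient of `p`.
`pin_eq_av`: `av` over signs of `sg i * sg j` is `δ i j` (flip one coordinate).
-/

set_option autoImplicit false
set_option linter.unusedSectionVars false
set_option linter.unusedVariables false

namespace Crest.Agent.R109

open scoped InnerProductSpace ComplexOrder ComplexConjugate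
open Filter Topology

universe u

variable {H : Type u} [NormedAddCommGroup H] [InnerProductSpace ℂ H] [CompleteSpace H]
  {M : VonNeumannAlgebra H} {A : StarSubalgebra ℂ (H →L[ℂ] H)}
  {ω φ : (H →L[ℂ] H) →ₗ[ℂ] ℂ} {E : (H →L[ℂ] H) →ₗ[ℂ] (H →L[ℂ] H)}

theorem exists_part_of {ι : Type*} [Fintype ι] {p : ι → H →L[ℂ] H} (hp : IsPartOf A 1 p) :
    ∃ P : Part A, (∀ q ∈ P.cells, ∃ i, p i = q) ∧ ∀ i, p i ≠ 0 → p i ∈ P.cells := by
  classical
  have hinj : Set.InjOn p (Finset.univ.filter (fun i => p i ≠ 0) : Finset ι) := by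
    intro i hi j hj e
    by_contra hij
    have h1 := hp.orth i j hij
    rw [← e, (hp.pa i).2.isIdempotentElem.eq] at h1
    exact (Finset.mem_filter.1 (Finset.mem_coe.1 hi)).2 h1
  refine ⟨⟨(Finset.univ.filter (fun i => p i ≠ 0)).image p, ?_, ?_, ?_⟩, ?_, ?_⟩
  · intro q hq
    obtain ⟨i, -, rfl⟩ := Finset.mem_image.1 hq
    exact hp.pa i
  · intro q hq r hr hqr
    obtain ⟨i, -, rfl⟩ := Finset.mem_image.1 hq
    obtain ⟨j, -, rfl⟩ := Finset.mem_image.1 hr
    exact hp.orth i j fun e => hqr (by rw [e])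
  · rw [Finset.sum_image hinj, Finset.sum_filter_ne_zero, hp.sum]
  · intro q hq
    obtain ⟨i, -, rfl⟩ := Finset.mem_image.1 hq
    exact ⟨i, rfl⟩
  · intro i hi
    exact Finset.mem_image.2 ⟨i, Finset.mem_filter.2 ⟨Finset.mem_univ _, hi⟩, rfl⟩

instance : Nonempty (Part A) := by
  refine ⟨⟨{1}, ?_, ?_, ?_⟩⟩
  · intro p hp
    rw [Finset.mem_singleton.1 hp]
    exact PA.one
  · intro p hp q hq h
    exact absurd ((Finset.mem_singleton.1 hp).trans (Finset.mem_singleton.1 hq).symm) h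
  · simp

theorem Masa.directed (hA : Masa M A) : IsDirectedOrder (Part A) := by
  refine ⟨fun P Q => ?_⟩
  have hpq : IsPartOf A 1
      fun x : P.cells × Q.cells => (x.1 : H →L[ℂ] H) * (x.2 : H →L[ℂ] H) := by
    refine ⟨fun x => (P.pa _ x.1.2).mul hA (Q.pa _ x.2.2), ?_, ?_⟩
    · rintro ⟨p, q⟩ ⟨p', q'⟩ hne
      have c1 : (q : H →L[ℂ] H) * p' = p' * q := hA.comm _ (Q.pa _ q.2).1 _ (P.pa _ p'.2).1
      have e : (p : H →L[ℂ] H) * q * (p' * q') = (p * p') * (q * q') := by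
        rw [mul_assoc, ← mul_assoc (q : H →L[ℂ] H), c1]
        simp only [mul_assoc]
      show (p : H →L[ℂ] H) * q * (p' * q') = 0
      rw [e]
      by_cases h1 : p = p'
      · have h2 : q ≠ q' := fun h2 => hne (by rw [h1, h2])
        rw [Q.orth _ q.2 _ q'.2 fun h => h2 (Subtype.ext h), mul_zero]
      · rw [P.orth _ p.2 _ p'.2 fun h => h1 (Subtype.ext h), zero_mul]
    · rw [Fintype.sum_prod_type, ← Finset.sum_mul_sum, Finset.sum_coe_sort P.cells (fun p => p),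
        Finset.sum_coe_sort Q.cells (fun p => p), P.sum, Q.sum, mul_one]
  obtain ⟨R, hR, -⟩ := exists_part_of hpq
  refine ⟨R, fun r hr => ?_, fun r hr => ?_⟩
  · obtain ⟨⟨p, q⟩, rfl⟩ := hR r hr
    exact ⟨p, p.2, by rw [← mul_assoc, (P.pa _ p.2).2.isIdempotentElem.eq]⟩
  · obtain ⟨⟨p, q⟩, rfl⟩ := hR r hr
    refine ⟨q, q.2, ?_⟩
    show (q : H →L[ℂ] H) * (p * q) = p * q
    rw [← mul_assoc, hA.comm _ (Q.pa _ q.2).1 _ (P.pa _ p.2).1, mul_assoc,
      (Q.pa _ q.2).2.isIdempotentElem.eq]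

theorem Masa.neBot (hA : Masa M A) : (atTop : Filter (Part A)).NeBot := by
  have := hA.directed
  infer_instance

theorem Part.isPartOf (P : Part A) : IsPartOf A 1 fun p : P.cells => (p : H →L[ℂ] H) := by
  refine ⟨fun i => P.pa _ i.2, fun i j h => P.orth _ i.2 _ j.2 fun e => h (Subtype.ext e), ?_⟩
  rw [Finset.sum_coe_sort P.cells (fun p => p), P.sum]

theorem Part.le_cell {P Q : Part A} (h : P ≤ Q) {p q : H →L[ℂ] H} (hp : p ∈ P.cells)
    (hq : q ∈ Q.cells) : p * q = q ∨ p * q = 0 := by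
  obtain ⟨p', hp', e⟩ := h q hq
  by_cases h1 : p = p'
  · left
    rw [h1, e]
  · right
    rw [← e, ← mul_assoc, P.orth p hp p' hp' h1, zero_mul]

/-- partitions subordinate to a projection -/
theorem exists_two {f : H →L[ℂ] H} (hf : PA A f) :
    ∃ P₀ : Part A, (∀ q ∈ P₀.cells, q = f ∨ q = 1 - f) ∧
      ∀ P, P₀ ≤ P → ∀ q ∈ P.cells, f * q = q ∨ f * q = 0 := by
  have hp : IsPartOf A 1 fun b : Bool => if b then f else 1 - f := by
    refine ⟨fun b => ?_, fun b b' h => ?_, ?_⟩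
    · cases b
      · exact hf.compl
      · exact hf
    · cases b <;> cases b'
      · exact absurd rfl h
      · exact hf.2.one_sub_mul_self
      · exact hf.2.mul_one_sub_self
      · exact absurd rfl h
    · simp
  obtain ⟨P₀, h0, -⟩ := exists_part_of hp
  have h1 : ∀ q ∈ P₀.cells, q = f ∨ q = 1 - f := by
    intro q hq
    obtain ⟨b, rfl⟩ := h0 q hq
    cases b
    · right; rfl
    · left; rfl
  refine ⟨P₀, h1, fun P hP q hq => ?_⟩
  obtain ⟨p, hp, e⟩ := hP q hq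
  rcases h1 p hp with rfl | rfl
  · exact Or.inl e
  · right
    rw [← e, ← mul_assoc, hf.2.mul_one_sub_self, zero_mul]

namespace PartA

/-- the span of the projections of `A` -/
def Sp (A : StarSubalgebra ℂ (H →L[ℂ] H)) : Submodule ℂ (H →L[ℂ] H) :=
  Submodule.span ℂ {f | PA A f}

theorem Sp_le {b : H →L[ℂ] H} (hb : b ∈ Sp A) : b ∈ A := by
  refine Submodule.span_induction (p := fun b _ => b ∈ A) ?_ ?_ ?_ ?_ hb
  · exact fun f hf => hf.1
  · exact zero_mem _
  · exact fun x y _ _ hx hy => add_mem hx hy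
  · exact fun c x _ hx => SMulMemClass.smul_mem c hx

theorem mem_Sp {f : H →L[ℂ] H} (hf : PA A f) : f ∈ Sp A := Submodule.subset_span hf

theorem Sp_step (hA : Masa M A) {b : H →L[ℂ] H} (hb : b ∈ Sp A) :
    ∃ P₀ : Part A, ∀ P, P₀ ≤ P → ∃ c : (H →L[ℂ] H) → ℂ, b = ∑ p ∈ P.cells, c p • p := by
  classical
  have := hA.directed
  refine Submodule.span_induction
    (p := fun b _ => ∃ P₀ : Part A, ∀ P, P₀ ≤ P →
      ∃ c : (H →L[ℂ] H) → ℂ, b = ∑ p ∈ P.cells, c p • p) ?_ ?_ ?_ ?_ hb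
  · intro f hf
    obtain ⟨P₀, -, h⟩ := exists_two (A := A) hf
    refine ⟨P₀, fun P hP => ⟨fun q => if f * q = q then 1 else 0, ?_⟩⟩
    conv_lhs => rw [← mul_one f, ← P.sum, Finset.mul_sum]
    refine Finset.sum_congr rfl fun q hq => ?_
    beta_reduce
    by_cases e : f * q = q
    · rw [if_pos e, one_smul, e]
    · rw [if_neg e, zero_smul]
      exact (h P hP q hq).resolve_left e
  · obtain ⟨P₀⟩ : Nonempty (Part A) := inferInstance
    exact ⟨P₀, fun P _ => ⟨fun _ => 0, by simp⟩⟩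
  · rintro x y _ _ ⟨P₁, h1⟩ ⟨P₂, h2⟩
    obtain ⟨P₀, a1, a2⟩ := exists_ge_ge P₁ P₂
    refine ⟨P₀, fun P hP => ?_⟩
    obtain ⟨c, hc⟩ := h1 P (a1.trans hP)
    obtain ⟨d, hd⟩ := h2 P (a2.trans hP)
    refine ⟨fun q => c q + d q, ?_⟩
    rw [hc, hd, ← Finset.sum_add_distrib]
    simp only [add_smul]
  · rintro t x _ ⟨P₀, h⟩
    refine ⟨P₀, fun P hP => ?_⟩
    obtain ⟨c, hc⟩ := h P hP
    refine ⟨fun q => t * c q, ?_⟩
    rw [hc, Finset.smul_sum]
    simp only [mul_smul]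

theorem half (hA : Masa M A) {a : H →L[ℂ] H} (ha : a ∈ A) {t : ℝ} (h0 : 0 ≤ a)
    (h1 : a ≤ t • (1 : H →L[ℂ] H)) :
    ∃ b ∈ Sp A, 0 ≤ a - b ∧ a - b ≤ (t / 2) • (1 : H →L[ℂ] H) := by
  obtain ⟨g, hg, hc, u1, u2⟩ := spec_proj (IsSelfAdjoint.of_nonneg h0) (t / 2)
  have hgA : PA A g := ⟨hA.mem_of_comm ha hc, hg⟩
  have cag : a * g = g * a := hc a rfl
  have gg : g * g = g := hg.isIdempotentElem.eq
  have gg' : (1 - g) * (1 - g) = 1 - g := hg.one_sub.isIdempotentElem.eq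
  have dec : a = g * a * g + (1 - g) * a * (1 - g) := by
    have e1 : g * a * g = g * a := by rw [mul_assoc, cag, ← mul_assoc, gg]
    simp only [sub_mul, mul_sub, one_mul, mul_one, e1, cag]
    abel
  have l1 : 0 ≤ g * a * g := by
    simpa using hg.isSelfAdjoint.conjugate_le_conjugate h0
  have l2 : (1 - g) * a * (1 - g) ≤ t • (1 - g) := by
    have := hg.one_sub.isSelfAdjoint.conjugate_le_conjugate h1
    rwa [mul_smul_comm, mul_one, smul_mul_assoc, gg'] at this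
  refine ⟨(t / 2) • (1 - g), ?_, ?_, ?_⟩
  · exact (Sp A).smul_of_tower_mem _ (mem_Sp hgA.compl)
  · have e : a - (t / 2) • (1 - g) = g * a * g + ((1 - g) * a * (1 - g) - (t / 2) • (1 - g)) := by
      conv_lhs => rw [dec]
      abel
    rw [e]
    exact add_nonneg l1 (sub_nonneg.2 u2)
  · have e : (t / 2) • (1 : H →L[ℂ] H) - (a - (t / 2) • (1 - g)) =
        ((t / 2) • g - g * a * g) + (t • (1 - g) - (1 - g) * a * (1 - g)) := by
      conv_lhs => rw [dec]
      module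
    rw [← sub_nonneg, e]
    exact add_nonneg (sub_nonneg.2 u1) (sub_nonneg.2 l2)

theorem iter (hA : Masa M A) {a : H →L[ℂ] H} (ha : a ∈ A) {t : ℝ} (h0 : 0 ≤ a)
    (h1 : a ≤ t • (1 : H →L[ℂ] H)) (n : ℕ) :
    ∃ b ∈ Sp A, 0 ≤ a - b ∧ a - b ≤ (t * (1 / 2) ^ n) • (1 : H →L[ℂ] H) := by
  induction n with
  | zero => exact ⟨0, zero_mem _, by simpa using h0, by simpa using h1⟩
  | succ n ih =>
    obtain ⟨b, hb, u0, u1⟩ := ih
    obtain ⟨b', hb', v0, v1⟩ := half hA (sub_mem ha (Sp_le hb)) u0 u1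
    refine ⟨b + b', add_mem hb hb', by rwa [← sub_sub], ?_⟩
    rw [← sub_sub]
    convert v1 using 2
    ring

theorem dense_pos (hA : Masa M A) {a : H →L[ℂ] H} (ha : a ∈ A) (h0 : 0 ≤ a) {η : ℝ}
    (hη : 0 < η) : ∃ b ∈ Sp A, ‖a - b‖ ≤ η := by
  have h1 : a ≤ ‖a‖ • (1 : H →L[ℂ] H) := by
    have := (IsSelfAdjoint.of_nonneg h0).le_algebraMap_norm_self
    rwa [Algebra.algebraMap_eq_smul_one] at this
  obtain ⟨n, hn⟩ := exists_pow_lt_of_lt_one (x := η / (‖a‖ + 1)) (y := (1 / 2 : ℝ))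
    (by positivity) (by norm_num)
  obtain ⟨b, hb, u0, u1⟩ := iter hA ha h0 h1 n
  refine ⟨b, hb, ?_⟩
  have h2 : ‖a - b‖ ≤ ‖a‖ * (1 / 2) ^ n := by
    rw [CStarAlgebra.norm_le_iff_le_algebraMap (a - b) (by positivity) u0,
      Algebra.algebraMap_eq_smul_one]
    exact u1
  refine h2.trans ?_
  rw [lt_div_iff₀ (by positivity)] at hn
  have : (0 : ℝ) ≤ (1 / 2) ^ n := by positivity
  nlinarith

theorem dense_sa (hA : Masa M A) {a : H →L[ℂ] H} (ha : a ∈ A) (hs : IsSelfAdjoint a) {η : ℝ}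
    (hη : 0 < η) : ∃ b ∈ Sp A, ‖a - b‖ ≤ η := by
  have h0 : 0 ≤ a + ‖a‖ • (1 : H →L[ℂ] H) := by
    have := hs.neg_algebraMap_norm_le_self
    rw [Algebra.algebraMap_eq_smul_one] at this
    exact neg_le_iff_add_nonneg.1 this
  have h1 : ‖a‖ • (1 : H →L[ℂ] H) ∈ Sp A := (Sp A).smul_of_tower_mem _ (mem_Sp PA.one)
  obtain ⟨b, hb, h⟩ := dense_pos hA (add_mem ha (Sp_le h1)) h0 hη
  refine ⟨b - ‖a‖ • (1 : H →L[ℂ] H), sub_mem hb h1, ?_⟩
  convert h using 2
  abel

theorem dense (hA : Masa M A) {a : H →L[ℂ] H} (ha : a ∈ A) {η : ℝ}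
    (hη : 0 < η) : ∃ b ∈ Sp A, ‖a - b‖ ≤ η := by
  have m1 : (2⁻¹ : ℂ) • (a + star a) ∈ A := SMulMemClass.smul_mem _ (add_mem ha (star_mem ha))
  have m2 : (2⁻¹ * Complex.I : ℂ) • (star a - a) ∈ A :=
    SMulMemClass.smul_mem _ (sub_mem (star_mem ha) ha)
  have s1 : IsSelfAdjoint ((2⁻¹ : ℂ) • (a + star a)) := by
    rw [IsSelfAdjoint, star_smul, star_add, star_star, add_comm]
    simp
  have s2 : IsSelfAdjoint ((2⁻¹ * Complex.I : ℂ) • (star a - a)) := by
    rw [IsSelfAdjoint, star_smul, star_sub, star_star, ← neg_sub (star a) a, smul_neg, ← neg_smul]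
    simp
  obtain ⟨b, hb, h1⟩ := dense_sa hA m1 s1 (half_pos hη)
  obtain ⟨c, hc, h2⟩ := dense_sa hA m2 s2 (half_pos hη)
  refine ⟨b + Complex.I • c, add_mem hb ((Sp A).smul_mem _ hc), ?_⟩
  have e : a - (b + Complex.I • c) = ((2⁻¹ : ℂ) • (a + star a) - b) +
      Complex.I • ((2⁻¹ * Complex.I : ℂ) • (star a - a) - c) := by
    have hI : Complex.I * (2⁻¹ * Complex.I) = -2⁻¹ := by
      rw [mul_left_comm, Complex.I_mul_I]; ring
    rw [smul_sub, smul_smul, hI]
    module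
  rw [e]
  refine (norm_add_le _ _).trans ?_
  rw [norm_smul, Complex.norm_I, one_mul]
  linarith

theorem ext_gen (hA : Masa M A) {V : Type*} [NormedAddCommGroup V] [NormedSpace ℂ V]
    (ψ : (H →L[ℂ] H) →ₗ[ℂ] V) {C : ℝ}
    (hC : ∀ a ∈ A, ‖ψ a‖ ≤ C * ‖a‖) (h : ∀ f, PA A f → ψ f = 0) : ∀ a ∈ A, ψ a = 0 := by
  intro a ha
  have h0 : ∀ b ∈ Sp A, ψ b = 0 := by
    intro b hb
    have : Sp A ≤ LinearMap.ker ψ := Submodule.span_le.2 fun f hf => h f hf
    exact this hb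
  rw [← norm_le_zero_iff]
  refine le_of_forall_pos_le_add fun ε hε => ?_
  obtain ⟨b, hb, h1⟩ := dense hA ha (η := ε / (|C| + 1)) (by positivity)
  have e : ψ a = ψ (a - b) := by rw [map_sub, h0 b hb, sub_zero]
  rw [e, zero_add]
  refine (hC _ (sub_mem ha (Sp_le hb))).trans ?_
  have h2 : C * ‖a - b‖ ≤ (|C| + 1) * (ε / (|C| + 1)) :=
    mul_le_mul (by linarith [le_abs_self C]) h1 (norm_nonneg _) (by positivity)
  refine h2.trans (le_of_eq ?_)
  field_simp

end PartA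

theorem Masa.approx (hA : Masa M A) {a : H →L[ℂ] H} (ha : a ∈ A) {η : ℝ} (hη : 0 < η) :
    ∃ P₀ : Part A, ∀ P, P₀ ≤ P → ∃ c : (H →L[ℂ] H) → ℂ, ‖a - ∑ p ∈ P.cells, c p • p‖ ≤ η := by
  obtain ⟨b, hb, h⟩ := PartA.dense hA ha hη
  obtain ⟨P₀, h0⟩ := PartA.Sp_step hA hb
  refine ⟨P₀, fun P hP => ?_⟩
  obtain ⟨c, hc⟩ := h0 P hP
  exact ⟨c, by rw [← hc]; exact h⟩

theorem Masa.comm_of_proj (hA : Masa M A) {z : H →L[ℂ] H} (h : ∀ f, PA A f → f * z = z * f) :
    ∀ a ∈ A, a * z = z * a := by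
  intro a ha
  have := PartA.ext_gen hA (LinearMap.mulRight ℂ z - LinearMap.mulLeft ℂ z) (C := 2 * ‖z‖)
    (fun a _ => ?_) (fun f hf => ?_) a ha
  · simpa [sub_eq_zero] using this
  · simp only [LinearMap.sub_apply, LinearMap.mulRight_apply, LinearMap.mulLeft_apply]
    refine (norm_sub_le _ _).trans ?_
    have h1 := norm_mul_le a z
    have h2 := norm_mul_le z a
    linarith
  · simp only [LinearMap.sub_apply, LinearMap.mulRight_apply, LinearMap.mulLeft_apply]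
    rw [h f hf, sub_self]

/-- linear functionals bounded on `A` are determined by their values on projections -/
theorem Masa.ext_proj (hA : Masa M A) (ψ : (H →L[ℂ] H) →ₗ[ℂ] ℂ) {C : ℝ}
    (hC : ∀ a ∈ A, ‖ψ a‖ ≤ C * ‖a‖) (h : ∀ f, PA A f → ψ f = 0) : ∀ a ∈ A, ψ a = 0 := by
  exact PartA.ext_gen hA ψ hC h

theorem EP_eq_pin (P : Part A) (y : H →L[ℂ] H) :
    EP P y = pin (fun p : P.cells => (p : H →L[ℂ] H)) y := by
  unfold EP pin
  rw [Finset.sum_coe_sort P.cells (fun p => p * y * p)]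

section pin

variable {ι : Type*} [Fintype ι] {p : ι → H →L[ℂ] H} {s : H →L[ℂ] H}

theorem pin_add (y z : H →L[ℂ] H) : pin p (y + z) = pin p y + pin p z := by
  simp only [pin, mul_add, add_mul, Finset.sum_add_distrib]

theorem pin_sub (y z : H →L[ℂ] H) : pin p (y - z) = pin p y - pin p z := by
  simp only [pin, mul_sub, sub_mul, Finset.sum_sub_distrib]

theorem pin_smul (c : ℂ) (y : H →L[ℂ] H) : pin p (c • y) = c • pin p y := by
  simp only [pin, mul_smul_comm, smul_mul_assoc, Finset.smul_sum]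

theorem pin_rsmul (c : ℝ) (y : H →L[ℂ] H) : pin p (c • y) = c • pin p y := by
  simp only [pin, mul_smul_comm, smul_mul_assoc, Finset.smul_sum]

theorem IsPartOf.pa_top (hp : IsPartOf A s p) : PA A s := by
  rw [← hp.sum]
  exact PA.sum _ (fun i _ => hp.pa i) fun i _ j _ h => hp.orth i j h

theorem IsPartOf.pin_mem (hA : Masa M A) (hp : IsPartOf A s p) {y : H →L[ℂ] H} (hy : y ∈ M) :
    pin p y ∈ M := by
  exact sum_mem fun i _ => mul_mem (mul_mem (hA.le _ (hp.pa i).1) hy) (hA.le _ (hp.pa i).1)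

theorem IsPartOf.pin_star (hp : IsPartOf A s p) (y : H →L[ℂ] H) :
    star (pin p y) = pin p (star y) := by
  unfold pin
  rw [star_sum]
  refine Finset.sum_congr rfl fun i _ => ?_
  rw [star_mul, star_mul, (hp.pa i).2.isSelfAdjoint.star_eq, mul_assoc]

namespace PartA

/-- signs -/
def sg (b : Bool) : ℝ := if b then 1 else -1

theorem sg_mul_self (b : Bool) : sg b * sg b = 1 := by cases b <;> simp [sg]

theorem sg_not (b : Bool) : sg (!b) = - sg b := by cases b <;> simp [sg]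

theorem sum_sg [DecidableEq ι] {i j : ι} (h : i ≠ j) :
    ∑ b : ι → Bool, sg (b i) * sg (b j) = 0 := by
  have inv : Function.Involutive (fun b : ι → Bool => Function.update b i (!b i)) := by
    intro b
    ext k
    by_cases hk : k = i
    · subst hk; simp
    · simp [Function.update_of_ne hk]
  have e := Equiv.sum_comp inv.toPerm (fun b : ι → Bool => sg (b i) * sg (b j))
  simp only [Function.Involutive.coe_toPerm, Function.update_self, Function.update_of_ne h.symm,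
    sg_not, neg_mul, Finset.sum_neg_distrib] at e
  linarith

theorem av_gen [DecidableEq ι] (hp : IsPartOf A s p) :
    ∃ U : (ι → Bool) → H →L[ℂ] H, (∀ b, U b ∈ A ∧ IsSelfAdjoint (U b) ∧ U b * U b = s) ∧
      ∀ y, pin p y = av fun b => U b * y * U b := by
  refine ⟨fun b => ∑ i, sg (b i) • p i, fun b => ⟨?_, ?_, ?_⟩, fun y => ?_⟩
  · refine sum_mem fun i _ => ?_
    rw [← Complex.coe_smul]
    exact SMulMemClass.smul_mem _ (hp.pa i).1
  · rw [IsSelfAdjoint, star_sum]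
    refine Finset.sum_congr rfl fun i _ => ?_
    rw [star_smul, star_trivial, (hp.pa i).2.isSelfAdjoint.star_eq]
  · rw [Finset.sum_mul_sum, ← hp.sum]
    refine Finset.sum_congr rfl fun i _ => ?_
    rw [Finset.sum_eq_single i]
    · rw [smul_mul_smul_comm, sg_mul_self, one_smul, (hp.pa i).2.isIdempotentElem.eq]
    · intro j _ hj
      rw [smul_mul_smul_comm, hp.orth i j hj.symm, smul_zero]
    · simp
  · have e : ∀ b : ι → Bool, (∑ i, sg (b i) • p i) * y * (∑ i, sg (b i) • p i) =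
        ∑ i, ∑ j, (sg (b i) * sg (b j)) • (p i * y * p j) := by
      intro b
      rw [Finset.sum_mul, Finset.sum_mul_sum]
      refine Finset.sum_congr rfl fun i _ => Finset.sum_congr rfl fun j _ => ?_
      rw [smul_mul_assoc, smul_mul_smul_comm]
    unfold av pin
    simp only [e]
    rw [Finset.sum_comm, Finset.smul_sum]
    refine Finset.sum_congr rfl fun i _ => ?_
    rw [Finset.sum_comm, Finset.sum_eq_single i]
    · simp only [sg_mul_self, one_smul, Finset.sum_const, Finset.card_univ]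
      rw [← Nat.cast_smul_eq_nsmul ℝ, smul_smul, inv_mul_cancel₀, one_smul]
      exact Nat.cast_ne_zero.2 Fintype.card_ne_zero
    · intro j _ hj
      rw [← Finset.sum_smul, sum_sg hj.symm, zero_smul]
    · simp

theorem norm_U {U : H →L[ℂ] H} (hU : IsSelfAdjoint U) (hs : PA A s) (e : U * U = s) :
    ‖U‖ ≤ 1 := by
  have h1 := hU.norm_mul_self
  rw [e] at h1
  have h2 := hs.norm_le
  have h3 := norm_nonneg U
  nlinarith

theorem av_le {Ω : Type*} [Fintype Ω] [Nonempty Ω] {f : Ω → ℝ} {c : ℝ} (h : ∀ b, f b ≤ c) :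
    (Fintype.card Ω : ℝ)⁻¹ * ∑ b, f b ≤ c := by
  have hpos : (0 : ℝ) < Fintype.card Ω := Nat.cast_pos.2 Fintype.card_pos
  rw [inv_mul_le_iff₀ hpos]
  refine (Finset.sum_le_sum fun b _ => h b).trans (le_of_eq ?_)
  simp

end PartA

theorem IsPartOf.pin_norm_le (hp : IsPartOf A s p) (y : H →L[ℂ] H) : ‖pin p y‖ ≤ ‖y‖ := by
  classical
  obtain ⟨U, hU, e⟩ := PartA.av_gen hp
  rw [e, av, norm_smul, Real.norm_of_nonneg (by positivity)]
  refine (mul_le_mul_of_nonneg_left (norm_sum_le _ _) (by positivity)).trans ?_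
  refine PartA.av_le fun b => ?_
  have h1 := PartA.norm_U (hU b).2.1 hp.pa_top (hU b).2.2
  calc ‖U b * y * U b‖ ≤ ‖U b‖ * ‖y‖ * ‖U b‖ :=
        (norm_mul_le _ _).trans (mul_le_mul_of_nonneg_right (norm_mul_le _ _) (norm_nonneg _))
    _ ≤ 1 * ‖y‖ * 1 := by gcongr
    _ = ‖y‖ := by ring

theorem IsPartOf.pin_mono (hp : IsPartOf A s p) {y z : H →L[ℂ] H} (h : y ≤ z) :
    pin p y ≤ pin p z := by
  exact Finset.sum_le_sum fun i _ => (hp.pa i).2.isSelfAdjoint.conjugate_le_conjugate h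

theorem PartA.mul_pin (hp : IsPartOf A s p) (y : H →L[ℂ] H) (i : ι) :
    p i * pin p y = p i * y * p i := by
  unfold pin
  rw [Finset.mul_sum, Finset.sum_eq_single i]
  · rw [← mul_assoc, ← mul_assoc, (hp.pa i).2.isIdempotentElem.eq]
  · intro j _ hj
    rw [← mul_assoc, ← mul_assoc, hp.orth i j hj.symm, zero_mul, zero_mul]
  · simp

theorem PartA.pin_mul (hp : IsPartOf A s p) (y : H →L[ℂ] H) (i : ι) :
    pin p y * p i = p i * y * p i := by
  unfold pin
  rw [Finset.sum_mul, Finset.sum_eq_single i]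
  · rw [mul_assoc, (hp.pa i).2.isIdempotentElem.eq]
  · intro j _ hj
    rw [mul_assoc, hp.orth j i hj, mul_zero]
  · simp

theorem IsPartOf.pin_comm (hp : IsPartOf A s p) (y : H →L[ℂ] H) (i : ι) :
    p i * pin p y = pin p y * p i := by
  rw [PartA.mul_pin hp, PartA.pin_mul hp]

theorem IsPartOf.mul_pin (hp : IsPartOf A s p) (y : H →L[ℂ] H) (i : ι) :
    p i * pin p y = p i * y * p i := by
  exact PartA.mul_pin hp y i

theorem IsPartOf.pin_of_mem (hA : Masa M A) (hp : IsPartOf A 1 p) {a : H →L[ℂ] H} (ha : a ∈ A) :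
    pin p a = a := by
  unfold pin
  conv_rhs => rw [← mul_one a, ← hp.sum, Finset.mul_sum]
  refine Finset.sum_congr rfl fun i _ => ?_
  rw [hA.comm _ (hp.pa i).1 a ha, mul_assoc, (hp.pa i).2.isIdempotentElem.eq]

theorem IsPartOf.pin_mul_left (hA : Masa M A) (hp : IsPartOf A s p) {a : H →L[ℂ] H} (ha : a ∈ A)
    (y : H →L[ℂ] H) : pin p (a * y) = a * pin p y := by
  unfold pin
  rw [Finset.mul_sum]
  refine Finset.sum_congr rfl fun i _ => ?_
  rw [← mul_assoc, hA.comm _ (hp.pa i).1 a ha]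
  simp only [mul_assoc]

theorem IsPartOf.pin_mul_right (hA : Masa M A) (hp : IsPartOf A s p) {a : H →L[ℂ] H} (ha : a ∈ A)
    (y : H →L[ℂ] H) : pin p (y * a) = pin p y * a := by
  unfold pin
  rw [Finset.sum_mul]
  refine Finset.sum_congr rfl fun i _ => ?_
  simp only [mul_assoc]
  rw [hA.comm _ (hp.pa i).1 a ha]

theorem IsPartOf.cent_pin (hA : Masa M A) (hp : IsPartOf A 1 p) (hφ : Cent M A φ) {y : H →L[ℂ] H}
    (hy : y ∈ M) : φ (pin p y) = φ y := by
  unfold pin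
  conv_rhs => rw [← mul_one y, ← hp.sum, Finset.mul_sum]
  rw [map_sum, map_sum]
  refine Finset.sum_congr rfl fun i _ => ?_
  rw [mul_assoc, hφ _ (hp.pa i).1 _ (mul_mem hy (hA.le _ (hp.pa i).1)), mul_assoc,
    (hp.pa i).2.isIdempotentElem.eq]

theorem IsPartOf.n2_pin_le (h : St M A ω) (hp : IsPartOf A 1 p) {y : H →L[ℂ] H} (hy : y ∈ M) :
    n2 ω (pin p y) ≤ n2 ω y := by
  classical
  obtain ⟨U, hU, e⟩ := PartA.av_gen hp
  have hUM : ∀ b, U b ∈ M := fun b => h.masa.le _ (hU b).1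
  rw [e, av, n2_rsmul, abs_of_nonneg (by positivity)]
  refine (mul_le_mul_of_nonneg_left (h.npos.pos.n2_sum_le _
    fun b _ => mul_mem (mul_mem (hUM b) hy) (hUM b)) (by positivity)).trans ?_
  refine PartA.av_le fun b => ?_
  have h1 := PartA.norm_U (hU b).2.1 hp.pa_top (hU b).2.2
  have h2 := n2_nonneg (φ := ω) y
  calc n2 ω (U b * y * U b) ≤ ‖U b‖ * n2 ω (U b * y) :=
        h.n2_mul_right (hU b).1 (mul_mem (hUM b) hy)
    _ ≤ ‖U b‖ * (‖U b‖ * n2 ω y) :=
        mul_le_mul_of_nonneg_left (h.npos.pos.n2_mul_left (hUM b) hy) (norm_nonneg _)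
    _ ≤ 1 * (1 * n2 ω y) := by gcongr
    _ = n2 ω y := by ring

/-- `∑ ‖z p i ξ‖² = ⟪ξ, pin (z⋆ z) ξ⟫ ≤ ‖pin (z⋆ z)‖ ‖ξ‖²` -/
theorem IsPartOf.sum_norm_sq_le (hp : IsPartOf A s p) (z : H →L[ℂ] H) (ξ : H) :
    ∑ i, ‖z (p i ξ)‖ ^ 2 ≤ ‖pin p (star z * z)‖ * ‖ξ‖ ^ 2 := by
  have e : ∀ i, ‖z (p i ξ)‖ ^ 2 = (⟪ξ, (p i * (star z * z) * p i) ξ⟫_ℂ).re := by
    intro i
    have h1 : p i * (star z * z) * p i = star (z * p i) * (z * p i) := by
      rw [star_mul, (hp.pa i).2.isSelfAdjoint.star_eq]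
      simp only [mul_assoc]
    rw [h1, ContinuousLinearMap.mul_apply, ContinuousLinearMap.star_eq_adjoint,
      ContinuousLinearMap.adjoint_inner_right, inner_self_eq_norm_sq_to_K]
    norm_cast
  simp only [e]
  rw [← Complex.re_sum, ← inner_sum, ← ContinuousLinearMap.sum_apply]
  refine (Complex.re_le_norm _).trans ((norm_inner_le_norm _ _).trans ?_)
  have h2 := (pin p (star z * z)).le_opNorm ξ
  calc ‖ξ‖ * ‖(∑ i, p i * (star z * z) * p i) ξ‖ ≤ ‖ξ‖ * (‖pin p (star z * z)‖ * ‖ξ‖) :=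
        mul_le_mul_of_nonneg_left h2 (norm_nonneg _)
    _ = _ := by ring

/-- the pinching is an average of conjugations by self-adjoint unitaries of `A` -/
theorem IsPartOf.pin_eq_av [DecidableEq ι] (hp : IsPartOf A 1 p) :
    ∃ U : (ι → Bool) → H →L[ℂ] H, (∀ b, U b ∈ A ∧ IsSelfAdjoint (U b) ∧ U b * U b = 1) ∧
      ∀ y, pin p y = av fun b => U b * y * U b := by
  exact PartA.av_gen hp

end pin

theorem PartA.swap {p q : H →L[ℂ] H} (hp : IsStarProjection p) (hq : IsStarProjection q)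
    {r : H →L[ℂ] H} (hr : IsSelfAdjoint r) (e : p * q = r) : q * p = r := by
  have := congrArg star e
  rwa [star_mul, hp.isSelfAdjoint.star_eq, hq.isSelfAdjoint.star_eq, hr.star_eq] at this

theorem EP_EP {P Q : Part A} (h : P ≤ Q) (y : H →L[ℂ] H) : EP Q (EP P y) = EP Q y := by
  unfold EP
  refine Finset.sum_congr rfl fun q hq => ?_
  obtain ⟨p', hp', e⟩ := h q hq
  have e' : q * p' = q := PartA.swap (P.pa _ hp').2 (Q.pa _ hq).2 (Q.pa _ hq).2.isSelfAdjoint e
  rw [Finset.mul_sum, Finset.sum_mul, Finset.sum_eq_single p']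
  · rw [← mul_assoc, ← mul_assoc, e', mul_assoc, e]
  · intro p hp hne
    rw [mul_assoc, mul_assoc, ← e, ← mul_assoc p, P.orth p hp p' hp' hne, zero_mul, mul_zero,
      mul_zero]
  · exact fun h => absurd hp' h

theorem EP_EP' {P Q : Part A} (h : P ≤ Q) (y : H →L[ℂ] H) : EP P (EP Q y) = EP Q y := by
  unfold EP
  simp only [Finset.mul_sum, Finset.sum_mul]
  rw [Finset.sum_comm]
  refine Finset.sum_congr rfl fun q hq => ?_
  obtain ⟨p', hp', e⟩ := h q hq
  have e' : q * p' = q := PartA.swap (P.pa _ hp').2 (Q.pa _ hq).2 (Q.pa _ hq).2.isSelfAdjoint e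
  rw [Finset.sum_eq_single p']
  · rw [← mul_assoc, ← mul_assoc, e, mul_assoc, e']
  · intro p hp hne
    have : p * q = 0 := by rw [← e, ← mul_assoc, P.orth p hp p' hp' hne, zero_mul]
    rw [← mul_assoc, ← mul_assoc, this, zero_mul, zero_mul, zero_mul]
  · exact fun h => absurd hp' h

theorem norm_EP_anti {P Q : Part A} (h : P ≤ Q) (y : H →L[ℂ] H) : ‖EP Q y‖ ≤ ‖EP P y‖ := by
  rw [← EP_EP h, EP_eq_pin Q]
  exact Q.isPartOf.pin_norm_le _

end Crest.Agent.R109
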