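import Crest.Agent.R109.NormW
import Crest.Agent.R109.Part

/-!
# Row 109, task R109-UAC

Uniform absolute continuity.  PLAN.  `uac_gen`: otherwise there are `h n ∈ M`, `0 ≤ h n`, `‖h n‖ ≤ C`,
`ω (h n) ≤ 1 / (n + 1)`, `φ (h n) > η`; a weak limit along `hyperfilter ℕ` has `ω z = 0`, so `z = 0`, but
`φ z ≥ η`.  `uac_vec`: the vector functional is normal (or repeat the argument).  `uac_mul`: `NPos.conj`.
`uac_pin`: `pin p x = av (U x U)`; by convexity (`n2` triangle inequality applied to `sqrt h * _`)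
`ω (y⋆ h y) ≤ max ω (U x⋆ U h U x U) = max ω (x⋆ (U h U) x)` and `ω (U h U) = ω h`.  `uac_word`: induction on
`j`: `y⋆ h y` is again positive with norm `≤ C ‖x‖²`; start with `b⋆ h b`, `ω (b⋆ h b) ≤ ω h`
(`n2_mul_right`).  `sup_proj`: weak limit `g` along an ultrafilter finer than `atTop` on the directed set
`S` (ordered by `f * g = f`), or choose an increasing sequence with `ω (g n) → sup`; `f g = f` for `f ∈ S`,
hence `g g = g`.
-/

set_option autoImplicit false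
set_option linter.unusedSectionVars false
set_option linter.unusedVariables false

namespace Crest.Agent.R109

open scoped InnerProductSpace ComplexOrder ComplexConjugate
open Filter Topology

universe u

variable {H : Type u} [NormedAddCommGroup H] [InnerProductSpace ℂ H] [CompleteSpace H]
  {M : VonNeumannAlgebra H} {A : StarSubalgebra ℂ (H →L[ℂ] H)}
  {ω φ : (H →L[ℂ] H) →ₗ[ℂ] ℂ} {E : (H →L[ℂ] H) →ₗ[ℂ] (H →L[ℂ] H)}

namespace UACA

theorem exists_sqrt {k : H →L[ℂ] H} (hk : k ∈ M) (h0 : 0 ≤ k) :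
    ∃ s ∈ M, star s * s = k := by
  have hsa : IsSelfAdjoint k := IsSelfAdjoint.of_nonneg h0
  refine ⟨cfc Real.sqrt k, cfc_memM hk _, ?_⟩
  have h1 : star (cfc Real.sqrt k) = cfc Real.sqrt k :=
    (cfc_predicate (p := IsSelfAdjoint) Real.sqrt k).star_eq
  rw [h1, ← cfc_mul Real.sqrt Real.sqrt k]
  conv_rhs => rw [← cfc_id ℝ k]
  apply cfc_congr
  intro t ht
  exact Real.mul_self_sqrt (spectrum_nonneg_of_nonneg h0 ht)

theorem re_conj (h : Pos M φ) {s k y : H →L[ℂ] H} (hs : s ∈ M) (hy : y ∈ M) (e : star s * s = k) :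
    (φ (star y * k * y)).re = n2 φ (s * y) ^ 2 := by
  rw [h.n2_sq (mul_mem hs hy), star_mul, ← e]
  simp only [mul_assoc]

theorem norm_U {U : H →L[ℂ] H} (hs : IsSelfAdjoint U) (e : U * U = 1) : ‖U‖ ≤ 1 := by
  have h1 : ‖U‖ * ‖U‖ = ‖star U * U‖ := (CStarRing.norm_star_mul_self).symm
  rw [hs.star_eq, e] at h1
  have h2 : ‖(1 : H →L[ℂ] H)‖ ≤ 1 := ContinuousLinearMap.norm_id_le
  nlinarith [norm_nonneg U]

theorem norm_conj_le (y k : H →L[ℂ] H) : ‖star y * k * y‖ ≤ ‖k‖ * ‖y‖ ^ 2 := by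
  calc _ ≤ ‖star y‖ * ‖k‖ * ‖y‖ :=
        (norm_mul_le _ _).trans (mul_le_mul_of_nonneg_right (norm_mul_le _ _) (norm_nonneg _))
    _ = _ := by rw [norm_star]; ring

/-- vector functional -/
noncomputable def vec (ξ : H) : (H →L[ℂ] H) →ₗ[ℂ] ℂ where
  toFun y := ⟪ξ, y ξ⟫_ℂ
  map_add' y z := by simp [inner_add_right]
  map_smul' c y := by simp [inner_smul_right]

theorem vec_star_mul (ξ : H) (y : H →L[ℂ] H) : vec ξ (star y * y) = ((‖y ξ‖ ^ 2 : ℝ) : ℂ) := by
  change ⟪ξ, (star y * y) ξ⟫_ℂ = _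
  rw [ContinuousLinearMap.mul_apply, ContinuousLinearMap.star_eq_adjoint,
    ContinuousLinearMap.adjoint_inner_right, inner_self_eq_norm_sq_to_K]
  simp

theorem vec_npos (ξ : H) : NPos M (vec ξ) where
  pos y _ := by rw [vec_star_mul]; exact Complex.zero_le_real.mpr (by positivity)
  nrm η hη := ⟨1, fun _ => ξ, fun y _ => by
    rw [vec_star_mul, Complex.ofReal_re]
    simp only [Finset.univ_unique, Finset.sum_singleton]
    have : 0 ≤ η * ‖y‖ ^ 2 := by positivity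
    linarith⟩

end UACA

open UACA

theorem uac_gen (h : St M A ω) (hφ : NPos M φ) (C : ℝ) {η : ℝ} (hη : 0 < η) :
    ∃ δ : ℝ, 0 < δ ∧ ∀ k ∈ M, 0 ≤ k → ‖k‖ ≤ C → (ω k).re ≤ δ → (φ k).re ≤ η := by
  by_contra hc
  push Not at hc
  choose k hkM hk0 hkC hkω hkφ using fun n : ℕ => hc (1 / ((n : ℝ) + 1)) (by positivity)
  obtain ⟨z, -, hz⟩ := exists_wlim (hyperfilter ℕ) k hkC
  have hzM : z ∈ M := hz.mem (Eventually.of_forall hkM)
  have hz0 : 0 ≤ z := hz.nonneg (Eventually.of_forall hk0)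
  have hev : ∀ᶠ i in (hyperfilter ℕ : Filter ℕ), k i ∈ M ∧ ‖k i‖ ≤ C :=
    Eventually.of_forall fun i => ⟨hkM i, hkC i⟩
  have h1 := (Complex.continuous_re.tendsto _).comp (h.npos.tendsto hev hzM hz)
  have h2 := (Complex.continuous_re.tendsto _).comp (hφ.tendsto hev hzM hz)
  have h3 : Tendsto (fun n : ℕ => 1 / ((n : ℝ) + 1)) (hyperfilter ℕ : Filter ℕ) (𝓝 0) :=
    tendsto_one_div_add_atTop_nhds_zero_nat.mono_left
      (Nat.hyperfilter_le_atTop)
  have h4 : (ω z).re ≤ 0 := le_of_tendsto_of_tendsto' h1 h3 hkω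
  have h5 : z = 0 := h.eq_zero_of_nonneg hzM hz0 h4
  have h6 : η ≤ (φ z).re := ge_of_tendsto' h2 fun n => (hkφ n).le
  rw [h5, map_zero, Complex.zero_re] at h6
  linarith

theorem uac_vec (h : St M A ω) (F : Finset H) {η : ℝ} (hη : 0 < η) :
    ∃ δ : ℝ, 0 < δ ∧ ∀ q ∈ M, IsStarProjection q → (ω q).re ≤ δ → ∀ ξ ∈ F, ‖q ξ‖ < η := by
  classical
  induction F using Finset.induction_on with
  | empty => exact ⟨1, one_pos, fun q _ _ _ ξ hξ => absurd hξ (Finset.notMem_empty _)⟩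
  | insert ζ F _ ih =>
    obtain ⟨δ₁, h1, H1⟩ := ih
    obtain ⟨δ₂, h2, H2⟩ := uac_gen h (vec_npos (M := M) ζ) 1 (η := η ^ 2 / 2) (by positivity)
    refine ⟨min δ₁ δ₂, lt_min h1 h2, fun q hq hp hω ξ hξ => ?_⟩
    rcases Finset.mem_insert.mp hξ with rfl | hξ
    · have h3 := H2 q hq hp.nonneg hp.norm_le (hω.trans (min_le_right _ _))
      have h4 : q = star q * q := by rw [hp.isSelfAdjoint.star_eq, hp.isIdempotentElem.eq]
      rw [h4, vec_star_mul, Complex.ofReal_re] at h3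
      have h5 : ‖q ξ‖ ^ 2 < η ^ 2 := by
        have : 0 < η ^ 2 := by positivity
        linarith
      exact lt_of_pow_lt_pow_left₀ 2 hη.le h5
    · exact H1 q hq hp (hω.trans (min_le_left _ _)) ξ hξ

theorem uac_mul (h : St M A ω) {x : H →L[ℂ] H} (hx : x ∈ M) (C : ℝ) {η : ℝ} (hη : 0 < η) :
    ∃ δ : ℝ, 0 < δ ∧ ∀ k ∈ M, 0 ≤ k → ‖k‖ ≤ C → (ω k).re ≤ δ → (ω (star x * k * x)).re ≤ η := by
  obtain ⟨δ, hδ, H1⟩ := uac_gen h (h.npos.conj hx) C hη
  refine ⟨δ, hδ, fun k hk h0 hC hω => ?_⟩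
  have := H1 k hk h0 hC hω
  simpa [mul_assoc] using this

theorem uac_pin (h : St M A ω) {x : H →L[ℂ] H} (hx : x ∈ M) (C : ℝ) {η : ℝ} (hη : 0 < η) :
    ∃ δ : ℝ, 0 < δ ∧ ∀ k ∈ M, 0 ≤ k → ‖k‖ ≤ C → (ω k).re ≤ δ →
      ∀ (r : ℕ) (p : Fin r → H →L[ℂ] H), IsPartOf A 1 p →
        (ω (star (pin p x) * k * pin p x)).re ≤ η := by
  obtain ⟨δ, hδ, H1⟩ := uac_mul h hx C hη
  refine ⟨δ, hδ, fun k hk h0 hC hω r p hp => ?_⟩
  obtain ⟨s, hs, e⟩ := exists_sqrt hk h0
  obtain ⟨U, hU, hav⟩ := hp.pin_eq_av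
  have hP := h.npos.pos
  have hUM : ∀ b, U b ∈ M := fun b => h.masa.le _ (hU b).1
  have h1 : ∀ b, n2 ω (s * (U b * x * U b)) ≤ √η := by
    intro b
    have hn := norm_U (hU b).2.1 (hU b).2.2
    have h2 : n2 ω (s * U b * x * U b) ≤ n2 ω (s * U b * x) := by
      refine (h.n2_mul_right (hU b).1 (mul_mem (mul_mem hs (hUM b)) hx)).trans ?_
      exact mul_le_of_le_one_left (n2_nonneg _) hn
    have e' : star (s * U b) * (s * U b) = star (U b) * k * U b := by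
      rw [star_mul, ← e]; simp only [mul_assoc]
    have h3 := re_conj hP (mul_mem hs (hUM b)) hx e'
    have h4 := H1 (star (U b) * k * U b) (mul_mem (mul_mem (star_mem (hUM b)) hk) (hUM b))
      (star_left_conjugate_nonneg h0 _)
      ((norm_conj_le _ _).trans (by
        have : ‖U b‖ ^ 2 ≤ 1 := pow_le_one₀ (norm_nonneg _) hn
        nlinarith [norm_nonneg k]))
      (by
        rw [(hU b).2.1.star_eq, mul_assoc, h.cent _ (hU b).1 _ (mul_mem hk (hUM b)), mul_assoc,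
          (hU b).2.2, mul_one]
        exact hω)
    rw [h3] at h4
    have h5 : n2 ω (s * U b * x) ≤ √η := Real.le_sqrt_of_sq_le h4
    simp only [← mul_assoc]
    exact h2.trans h5
  have h2 : n2 ω (s * pin p x) ≤ √η := by
    rw [hav, av, mul_smul_comm, Finset.mul_sum, n2_rsmul, abs_of_nonneg (by positivity)]
    have h3 := hP.n2_sum_le Finset.univ (y := fun b => s * (U b * x * U b))
      (fun b _ => mul_mem hs (mul_mem (mul_mem (hUM b) hx) (hUM b)))
    have h4 : ∑ b, n2 ω (s * (U b * x * U b)) ≤ (Fintype.card (Fin r → Bool) : ℝ) * √η := by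
      refine (Finset.sum_le_sum fun b _ => h1 b).trans (le_of_eq ?_)
      rw [Finset.sum_const, Finset.card_univ, nsmul_eq_mul]
    have h5 : (0 : ℝ) < Fintype.card (Fin r → Bool) := by exact_mod_cast Fintype.card_pos
    rw [inv_mul_le_iff₀ h5]
    exact h3.trans h4
  rw [re_conj hP hs (hp.pin_mem h.masa hx) e]
  calc _ ≤ √η ^ 2 := pow_le_pow_left₀ (n2_nonneg _) h2 2
    _ = η := Real.sq_sqrt hη.le

theorem uac_word (h : St M A ω) {x : H →L[ℂ] H} (hx : x ∈ M) (C : ℝ) (n : ℕ) {η : ℝ} (hη : 0 < η) :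
    ∃ δ : ℝ, 0 < δ ∧ ∀ k ∈ M, 0 ≤ k → ‖k‖ ≤ C → (ω k).re ≤ δ →
      ∀ (r : ℕ) (p : Fin r → H →L[ℂ] H), IsPartOf A 1 p → ∀ j ≤ n, ∀ b ∈ A, ‖b‖ ≤ 1 →
        (ω (star (b * pin p x ^ j) * k * (b * pin p x ^ j))).re ≤ η := by
  have hP := h.npos.pos
  have key : ∀ (j : ℕ) (η : ℝ), 0 < η → ∃ δ : ℝ, 0 < δ ∧ ∀ k ∈ M, 0 ≤ k → ‖k‖ ≤ C →
      (ω k).re ≤ δ → ∀ (r : ℕ) (p : Fin r → H →L[ℂ] H), IsPartOf A 1 p → ∀ b ∈ A, ‖b‖ ≤ 1 →
        (ω (star (b * pin p x ^ j) * k * (b * pin p x ^ j))).re ≤ η := by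
    intro j
    induction j with
    | zero =>
      intro η hη
      refine ⟨η, hη, fun k hk h0 hC hω r p hp b hb hb1 => ?_⟩
      obtain ⟨s, hs, e⟩ := exists_sqrt hk h0
      rw [pow_zero, mul_one, re_conj hP hs (h.masa.le _ hb) e]
      have h1 : n2 ω (s * b) ≤ n2 ω s :=
        (h.n2_mul_right hb hs).trans (mul_le_of_le_one_left (n2_nonneg _) hb1)
      have h2 := hP.n2_sq hs
      rw [e] at h2
      exact (pow_le_pow_left₀ (n2_nonneg _) h1 2).trans (h2.le.trans hω)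
    | succ j ih =>
      intro η hη
      obtain ⟨δ₁, h1, H1⟩ := uac_pin h hx (C * (‖x‖ ^ j) ^ 2) hη
      obtain ⟨δ, h2, H2⟩ := ih δ₁ h1
      refine ⟨δ, h2, fun k hk h0 hC hω r p hp b hb hb1 => ?_⟩
      have hy : pin p x ∈ M := hp.pin_mem h.masa hx
      have hw : b * pin p x ^ j ∈ M := mul_mem (h.masa.le _ hb) (pow_mem hy j)
      have hn : ‖b * pin p x ^ j‖ ≤ ‖x‖ ^ j := by
        have h3 : ∀ j : ℕ, ‖b * pin p x ^ j‖ ≤ ‖x‖ ^ j := by
          intro j
          induction j with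
          | zero => simpa using hb1
          | succ j ih' =>
            rw [pow_succ, pow_succ, ← mul_assoc]
            exact (norm_mul_le _ _).trans
              (mul_le_mul ih' (hp.pin_norm_le x) (norm_nonneg _) (by positivity))
        exact h3 j
      have h3 := H1 (star (b * pin p x ^ j) * k * (b * pin p x ^ j))
        (mul_mem (mul_mem (star_mem hw) hk) hw) (star_left_conjugate_nonneg h0 _)
        ((norm_conj_le _ _).trans (mul_le_mul hC (pow_le_pow_left₀ (norm_nonneg _) hn 2)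
          (by positivity) ((norm_nonneg _).trans hC)))
        (H2 k hk h0 hC hω r p hp b hb hb1) r p hp
      have e : star (b * pin p x ^ (j + 1)) * k * (b * pin p x ^ (j + 1))
          = star (pin p x) * (star (b * pin p x ^ j) * k * (b * pin p x ^ j)) * pin p x := by
        rw [pow_succ, ← mul_assoc b, star_mul (b * pin p x ^ j)]
        simp only [mul_assoc]
      rw [e]; exact h3
  induction n with
  | zero =>
    obtain ⟨δ, h1, H1⟩ := key 0 η hη
    refine ⟨δ, h1, fun k hk h0 hC hω r p hp j hj => ?_⟩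
    obtain rfl : j = 0 := by omega
    exact H1 k hk h0 hC hω r p hp
  | succ n ih =>
    obtain ⟨δ₁, h1, H1⟩ := ih
    obtain ⟨δ₂, h2, H2⟩ := key (n + 1) η hη
    refine ⟨min δ₁ δ₂, lt_min h1 h2, fun k hk h0 hC hω r p hp j hj => ?_⟩
    rcases Nat.lt_or_ge j (n + 1) with hj' | hj'
    · exact H1 k hk h0 hC (hω.trans (min_le_left _ _)) r p hp j (by omega)
    · obtain rfl : j = n + 1 := by omega
      exact H2 k hk h0 hC (hω.trans (min_le_right _ _)) r p hp

theorem sup_proj (h : St M A ω) (S : Set (H →L[ℂ] H)) (hS : ∀ f ∈ S, PA A f) (hne : S.Nonempty)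
    (hd : ∀ f ∈ S, ∀ g ∈ S, ∃ k ∈ S, k * f = f ∧ k * g = g) :
    ∃ g, PA A g ∧ (∀ f ∈ S, g * f = f) ∧ ∀ η : ℝ, 0 < η → ∃ f ∈ S, (ω (g - f)).re ≤ η := by
  haveI : Nonempty S := hne.to_subtype
  let T : S → Filter S := fun f => 𝓟 {k : S | (k : H →L[ℂ] H) * f = f}
  have hdir : Directed (· ≥ ·) T := by
    intro f g
    obtain ⟨m, hm, e1, e2⟩ := hd f f.2 g g.2
    refine ⟨⟨m, hm⟩, ?_, ?_⟩
    · refine principal_mono.mpr fun k hk => ?_
      have hk' : (k : H →L[ℂ] H) * m = m := hk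
      change (k : H →L[ℂ] H) * f = f
      rw [← e1, ← mul_assoc, hk']
    · refine principal_mono.mpr fun k hk => ?_
      have hk' : (k : H →L[ℂ] H) * m = m := hk
      change (k : H →L[ℂ] H) * g = g
      rw [← e2, ← mul_assoc, hk']
  haveI : (⨅ f, T f).NeBot := iInf_neBot_of_directed hdir fun f =>
    principal_neBot_iff.mpr ⟨f, (hS f f.2).2.isIdempotentElem⟩
  let U : Ultrafilter S := Ultrafilter.of (⨅ f, T f)
  have hU : ∀ f : S, ∀ᶠ k : S in (U : Filter S), (k : H →L[ℂ] H) * f = f := fun f =>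
    ((Ultrafilter.of_le _).trans (iInf_le T f)) (mem_principal_self _)
  obtain ⟨g, -, hg⟩ := exists_wlim U (fun k : S => (k : H →L[ℂ] H)) (C := 1)
    (fun k => (hS k k.2).norm_le)
  have hgA : g ∈ A := hg.memA h.masa (Eventually.of_forall fun k => (hS k k.2).1)
  have h1 : ∀ f ∈ S, g * f = f := fun f hf =>
    ((hg.mul_right f).congr' (hU ⟨f, hf⟩)).unique (WLim.const f)
  have h2 : g * g = g :=
    ((hg.mul_left g).congr' (Eventually.of_forall fun k => h1 k k.2)).unique hg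
  have h3 : star g = g :=
    (hg.star.congr' (Eventually.of_forall fun k => (hS k k.2).2.isSelfAdjoint.star_eq)).unique hg
  refine ⟨g, ⟨hgA, ⟨h2, h3⟩⟩, h1, fun η hη => ?_⟩
  have h4 := (Complex.continuous_re.tendsto _).comp (h.npos.tendsto (C := 1)
    (Eventually.of_forall fun k : S => ⟨h.masa.le _ (hS k k.2).1, (hS k k.2).norm_le⟩)
    (h.masa.le _ hgA) hg)
  obtain ⟨k, hk⟩ := (h4.eventually (lt_mem_nhds (show (ω g).re - η < (ω g).re by linarith))).exists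
  refine ⟨k, k.2, ?_⟩
  rw [map_sub, Complex.sub_re]
  have : (ω g).re - η < (ω k).re := hk
  linarith

end Crest.Agent.R109
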