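import Crest.Agent.R109.ES
import Crest.Agent.R109.FreeY
import Crest.Agent.R109.UAC

/-!
# Row 109, task R109-ExpStep

One step of the moment iteration.  `y l = pin (p l) x̃`, `x̃ = x' + x₂ + x₀`.  PLAN.  Take `δ` from `uac_word`
for `x̃`, `C = 64`, `n`, tolerance `η²/9`-ish.  For `ζ l = y l ^ j`:
`N2 (pin x' ζ) ≤ ε₁² N2 ζ + av ω (ζ⋆ h ζ)` (`RCol.small`; `pin (p l) x'` is self-adjoint);
`N2 (pin x₂ ζ) = av ω (ζ⋆ k' ζ)` with `k' = (pin x₂)⋆ (pin x₂)`, `‖k'‖ ≤ 64`, `ω k' ≤ n2 x₂²` (`n2_pin_le`);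
`free_y` + `es_bound` with `d = (2 n + 1) D` (`deg_word`, `Deg.mono`), `∑_c N2 (p c ζ) = N2 ζ ≤ ‖x̃‖^{2j}`;
`√(a + b) ≤ √a + √b`.  The bound for the last term is
`√(d² (γ 4^n + r δ₂))` where `δ₂` is the `uac_word` tolerance for `k`; the statement asks for `γ, δ'`
depending on `D`.
-/

set_option autoImplicit false
set_option linter.unusedSectionVars false
set_option linter.unusedVariables false

namespace Crest.Agent.R109

open scoped InnerProductSpace ComplexOrder ComplexConjugate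
open Filter Topology

universe u

variable {H : Type u} [NormedAddCommGroup H] [InnerProductSpace ℂ H] [CompleteSpace H]
  {M : VonNeumannAlgebra H} {A : StarSubalgebra ℂ (H →L[ℂ] H)}
  {ω φ : (H →L[ℂ] H) →ₗ[ℂ] ℂ} {E : (H →L[ℂ] H) →ₗ[ℂ] (H →L[ℂ] H)}

namespace ExpStepA

theorem av_le {Ω : Type*} [Fintype Ω] {f g : Ω → ℝ} (h : ∀ w, f w ≤ g w) : av f ≤ av g := by
  unfold av
  simp only [smul_eq_mul]
  exact mul_le_mul_of_nonneg_left (Finset.sum_le_sum fun w _ => h w) (by positivity)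

theorem av_affine {Ω : Type*} [Fintype Ω] [Nonempty Ω] (a c : ℝ) (f : Ω → ℝ) :
    av (fun w => a * f w + c) = a * av f + c := by
  unfold av
  have hc : (Fintype.card Ω : ℝ) ≠ 0 := by exact_mod_cast Fintype.card_ne_zero
  simp only [smul_eq_mul, Finset.sum_add_distrib, ← Finset.mul_sum, Finset.sum_const,
    Finset.card_univ, nsmul_eq_mul]
  field_simp

theorem av_le_const {Ω : Type*} [Fintype Ω] [Nonempty Ω] {f : Ω → ℝ} {c : ℝ}
    (h : ∀ w, f w ≤ c) : av f ≤ c := by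
  have h1 : av f ≤ av (fun w : Ω => 0 * f w + c) := av_le fun w => by simpa using h w
  rw [av_affine] at h1
  simpa using h1

theorem av_nonneg {Ω : Type*} [Fintype Ω] {f : Ω → ℝ} (h : ∀ w, 0 ≤ f w) : 0 ≤ av f := by
  unfold av
  simp only [smul_eq_mul]
  exact mul_nonneg (by positivity) (Finset.sum_nonneg fun w _ => h w)

theorem sqrt_le_add {x a b t : ℝ} (ha : 0 ≤ a) (hb : 0 ≤ b) (ht : 0 ≤ t)
    (h : x ≤ a ^ 2 * b + t ^ 2) : √x ≤ a * √b + t := by
  rw [Real.sqrt_le_left (by positivity)]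
  have h1 : √b ^ 2 = b := Real.sq_sqrt hb
  have h2 : 0 ≤ a * √b * t := by positivity
  nlinarith

end ExpStepA

theorem exp_step (h : St M A ω) {xt : H →L[ℂ] H} (hx : xt ∈ M) (hxn : ‖xt‖ ≤ 2) (n r : ℕ) {η : ℝ}
    (hη : 0 < η) :
    ∃ δ : ℝ, 0 < δ ∧ ∀ D : ℕ, ∃ γ : ℝ, 0 < γ ∧ ∃ δ' : ℝ, 0 < δ' ∧
      ∀ (ι : Type u) [Fintype ι] [DecidableEq ι] (m : ℕ), 0 < m → ∀ g : ι → H →L[ℂ] H,
      IsPartOf A 1 g → ∀ x' ∈ M, IsSelfAdjoint x' → ∀ x₂ ∈ M, ‖x₂‖ ≤ 8 → n2 ω x₂ ≤ δ →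
      ∀ x₀ ∈ M, ‖x₀‖ ≤ 2 → xt = x' + x₂ + x₀ → ∀ k ∈ M, 0 ≤ k → ‖k‖ ≤ 4 → (ω k).re ≤ δ' →
      (∀ e, pin g (star x₀ * g e * x₀) ≤ γ • (1 : H →L[ℂ] H) + k) →
      ∀ (ε₁ : ℝ), 0 ≤ ε₁ → ∀ p : (ι → Fin m) → Fin r → H →L[ℂ] H, RCol M A ω g x' D ε₁ δ p →
      ∀ j < n, √(N2 ω fun l => pin (p l) xt ^ (j + 1)) ≤
        (ε₁ + 4 / √(m : ℝ)) * √(N2 ω fun l => pin (p l) xt ^ j) + η := by
  have hω : Pos M ω := h.npos.pos
  have hA : Masa M A := h.masa
  set t : ℝ := η / 3 with ht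
  have ht0 : 0 < t := by positivity
  obtain ⟨δ₀, hδ₀, H0⟩ := uac_word h hx 64 n (η := t ^ 2) (by positivity)
  refine ⟨min δ₀ 1, lt_min hδ₀ one_pos, fun D => ?_⟩
  set d : ℕ := (2 * n + 1) * D with hd
  set K : ℝ := (d : ℝ) ^ 2 * r + 1 with hK
  have hK0 : 0 < K := by positivity
  obtain ⟨δ', hδ', H1⟩ := uac_word h hx 4 n (η := t ^ 2 / (2 * K)) (by positivity)
  refine ⟨t ^ 2 / (2 * K * 4 ^ n), by positivity, δ', hδ', ?_⟩
  intro ι _ _ m hm g hg x' hx' hsa x₂ hx₂ hx₂n hx₂δ x₀ hx₀ hx₀n hxt k hk hk0 hkn hkδ hb ε₁ hε₁ p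
    hp j hj
  haveI : Nonempty (Fin m) := ⟨⟨0, hm⟩⟩
  set ζ : (ι → Fin m) → H →L[ℂ] H := fun l => pin (p l) xt ^ j with hζ
  have hζM : ∀ l, ζ l ∈ M := fun l => pow_mem ((hp.part l).pin_mem hA hx) j
  have hζn : ∀ l, ‖ζ l‖ ≤ 2 ^ n := fun l => by
    have h1 : ‖pin (p l) xt‖ ≤ 2 := ((hp.part l).pin_norm_le xt).trans hxn
    rcases Nat.eq_zero_or_pos j with hj0 | hj0
    · subst hj0
      simp only [hζ, pow_zero]
      exact ContinuousLinearMap.norm_id_le.trans (one_le_pow₀ one_le_two)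
    · calc ‖ζ l‖ ≤ ‖pin (p l) xt‖ ^ j := norm_pow_le' _ hj0
        _ ≤ 2 ^ j := by gcongr
        _ ≤ 2 ^ n := pow_le_pow_right₀ one_le_two hj.le
  have hone : ‖(1 : H →L[ℂ] H)‖ ≤ 1 := ContinuousLinearMap.norm_id_le
  have hN0 : 0 ≤ N2 ω ζ := ExpStepA.av_nonneg fun l => sq_nonneg _
  have hw : ∀ l, ∀ k' ∈ M, 0 ≤ k' → ‖k'‖ ≤ 64 → (ω k').re ≤ δ₀ →
      (ω (star (ζ l) * k' * ζ l)).re ≤ t ^ 2 := fun l k' h1 h2 h3 h4 => by
    simpa only [one_mul] using H0 k' h1 h2 h3 h4 r (p l) (hp.part l) j hj.le 1 (one_mem A) hone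
  -- the three terms
  have T1 : √(N2 ω fun l => pin (p l) x' * ζ l) ≤ ε₁ * √(N2 ω ζ) + t := by
    refine ExpStepA.sqrt_le_add hε₁ hN0 ht0.le ?_
    unfold N2
    rw [← ExpStepA.av_affine]
    refine ExpStepA.av_le fun l => ?_
    obtain ⟨h', hM', h0', hn', hω', hle⟩ := hp.small l
    have hy : pin (p l) x' ∈ M := (hp.part l).pin_mem hA hx'
    have hst : star (pin (p l) x') = pin (p l) x' := by
      rw [(hp.part l).pin_star, hsa.star_eq]
    rw [hω.n2_sq (mul_mem hy (hζM l)), hω.n2_sq (hζM l)]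
    have h1 : star (pin (p l) x' * ζ l) * (pin (p l) x' * ζ l) =
        star (ζ l) * (pin (p l) x' * pin (p l) x') * ζ l := by
      rw [star_mul, hst]; simp only [mul_assoc]
    have h2 : star (ζ l) * ((ε₁ ^ 2) • (1 : H →L[ℂ] H) + h') * ζ l =
        ((ε₁ ^ 2 : ℝ) : ℂ) • (star (ζ l) * ζ l) + star (ζ l) * h' * ζ l := by
      rw [mul_add, add_mul, mul_smul_comm, smul_mul_assoc, mul_one, Complex.coe_smul]
    have h3 := star_left_conjugate_le_conjugate hle (ζ l)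
    have hm1 : star (ζ l) * (pin (p l) x' * pin (p l) x') * ζ l ∈ M :=
      mul_mem (mul_mem (star_mem (hζM l)) (mul_mem hy hy)) (hζM l)
    rw [h2] at h3
    have hm2 : ((ε₁ ^ 2 : ℝ) : ℂ) • (star (ζ l) * ζ l) + star (ζ l) * h' * ζ l ∈ M :=
      add_mem (M.toStarSubalgebra.smul_mem (mul_mem (star_mem (hζM l)) (hζM l)) _)
        (mul_mem (mul_mem (star_mem (hζM l)) hM') (hζM l))
    have h4 := hω.mono hm1 hm2 h3
    rw [map_add, map_smul, Complex.add_re, smul_eq_mul, Complex.re_ofReal_mul] at h4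
    have h5 := hw l h' hM' h0' (hn'.trans (by norm_num)) (hω'.trans (min_le_left _ _))
    rw [h1]
    linarith
  have T2 : √(N2 ω fun l => pin (p l) x₂ * ζ l) ≤ t := by
    rw [Real.sqrt_le_left ht0.le]
    refine ExpStepA.av_le_const fun l => ?_
    have hy : pin (p l) x₂ ∈ M := (hp.part l).pin_mem hA hx₂
    rw [hω.n2_sq (mul_mem hy (hζM l))]
    have h1 : star (pin (p l) x₂ * ζ l) * (pin (p l) x₂ * ζ l) =
        star (ζ l) * (star (pin (p l) x₂) * pin (p l) x₂) * ζ l := by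
      rw [star_mul]; simp only [mul_assoc]
    rw [h1]
    refine hw l _ (mul_mem (star_mem hy) hy) (star_mul_self_nonneg _) ?_ ?_
    · rw [CStarRing.norm_star_mul_self]
      have h2 : ‖pin (p l) x₂‖ ≤ 8 := ((hp.part l).pin_norm_le x₂).trans hx₂n
      nlinarith [norm_nonneg (pin (p l) x₂)]
    · rw [← hω.n2_sq hy]
      have h2 : n2 ω (pin (p l) x₂) ≤ min δ₀ 1 := ((hp.part l).n2_pin_le h hx₂).trans hx₂δ
      have h3 := h2.trans (min_le_left _ _)
      have h4 := h2.trans (min_le_right _ _)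
      nlinarith [n2_nonneg (φ := ω) (pin (p l) x₂)]
  have T3 : √(N2 ω fun l => pin (p l) x₀ * ζ l) ≤ 4 / √(m : ℝ) * √(N2 ω ζ) + t := by
    refine (free_y hA hω hm hg hp.part hp.inj hx₀ hζM).trans (add_le_add ?_ ?_)
    · gcongr
      linarith
    · rw [Real.sqrt_le_left ht0.le]
      have hc : ∀ c : Fin r, N2 ω (PiD g fun l => x₀ * PiD g (fun l => p l c * ζ l) l) ≤
          (d : ℝ) ^ 2 * (t ^ 2 / K) := fun c => by
        have hdeg : Deg M d fun l => p l c * ζ l :=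
          (deg_word hp.deg hx j c).mono (Nat.mul_le_mul_right _ (by omega))
        refine (es_bound hA hω hm hg hx₀ hk hk0 (by positivity) hb hdeg).trans ?_
        have hpn : ∀ l, ‖p l c‖ ≤ 1 := fun l => ((hp.part l).pa c).2.norm_le
        have e1 : N2 ω (fun l => p l c * ζ l) ≤ 4 ^ n := by
          refine ExpStepA.av_le_const fun l => ?_
          have h1 : n2 ω (p l c * ζ l) ≤ 2 ^ n := by
            refine (h.n2_le_norm (hdeg.mem l)).trans ((norm_mul_le _ _).trans ?_)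
            calc ‖p l c‖ * ‖ζ l‖ ≤ 1 * 2 ^ n := by
                  gcongr
                  · exact hpn l
                  · exact hζn l
              _ = 2 ^ n := one_mul _
          calc n2 ω (p l c * ζ l) ^ 2 ≤ (2 ^ n) ^ 2 := by
                gcongr
                exact n2_nonneg _
            _ = 4 ^ n := by rw [← pow_mul, mul_comm, pow_mul]; norm_num
        have e2 : (av fun l => (ω (star (p l c * ζ l) * k * (p l c * ζ l))).re) ≤
            t ^ 2 / (2 * K) :=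
          ExpStepA.av_le_const fun l =>
            H1 k hk hk0 hkn hkδ r (p l) (hp.part l) j hj.le _ ((hp.part l).pa c).1 (hpn l)
        have e3 : t ^ 2 / (2 * K * 4 ^ n) * 4 ^ n + t ^ 2 / (2 * K) = t ^ 2 / K := by
          field_simp
          ring
        rw [← e3]
        gcongr
      calc _ ≤ ∑ _c : Fin r, (d : ℝ) ^ 2 * (t ^ 2 / K) := Finset.sum_le_sum fun c _ => hc c
        _ = ((d : ℝ) ^ 2 * r) / K * t ^ 2 := by
            simp only [Finset.sum_const, Finset.card_univ, Fintype.card_fin, nsmul_eq_mul]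
            ring
        _ ≤ 1 * t ^ 2 := by
            gcongr
            rw [div_le_one hK0, hK]
            linarith
        _ = t ^ 2 := one_mul _
  have hsplit : (fun l => pin (p l) xt ^ (j + 1)) =
      fun l => (pin (p l) x' * ζ l + pin (p l) x₂ * ζ l) + pin (p l) x₀ * ζ l := by
    funext l
    rw [pow_succ', ← add_mul, ← add_mul, ← pin_add, ← pin_add, ← hxt]
  have m1 : ∀ l, pin (p l) x' * ζ l ∈ M := fun l => mul_mem ((hp.part l).pin_mem hA hx') (hζM l)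
  have m2 : ∀ l, pin (p l) x₂ * ζ l ∈ M := fun l => mul_mem ((hp.part l).pin_mem hA hx₂) (hζM l)
  have m3 : ∀ l, pin (p l) x₀ * ζ l ∈ M := fun l => mul_mem ((hp.part l).pin_mem hA hx₀) (hζM l)
  rw [hsplit]
  have s1 := sqrt_N2_add_le hω (fun l => add_mem (m1 l) (m2 l)) m3
  have s2 := sqrt_N2_add_le hω m1 m2
  have e : η = 3 * t := by rw [ht]; ring
  rw [e]
  linarith

end Crest.Agent.R109
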