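import Mathlib

/-!
# Row 109, task R109-Herg

Rational Herglotz functions.  PLAN.  `real_roots`: `q` splits (`IsAlgClosed.splits`), `q = C c * ∏ (X - C root)`,
enumerate the multiset of roots by `Fin n`.  `herglotz_rep`: induction on `n`, or directly.  For each value
`x` of `τ` with multiplicity `μ`: write `Q = (X - x)^a Q₁`, `Q₁ x ≠ 0` (if `Q ≠ 0`); near `x`,
`R ζ = (ζ - x)^{a - μ} g ζ` with `g` continuous, `g x ≠ 0`.  If `p = μ - a ≥ 1`, letting `ζ = x + t e^{iθ}`, `t → 0⁺`,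
gives `im (e^{-i p θ} g x) ≤ 0` for all `θ ∈ (0, π)`; this forces `p = 1` and `g x > 0` real.  So
`Q = Q₂ ∏_x (X - x)^{μ x - 1}`, `deg Q₂ ≤ #distinct`, and Lagrange interpolation
(`Lagrange.eq_interpolate_of_eval_eq`, or: a polynomial of degree `< #distinct` vanishing at all `x` is `0`) gives
`Q₂ = c ∏ (X - x) + ∑ κ x ∏_{x' ≠ x} (X - x')`.  Put `κ j = κ (τ j) / μ (τ j)`.  `im c = 0`: `ζ = ± i t`, `t → ∞`.
-/

set_option autoImplicit false
set_option linter.unusedSectionVars false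
set_option linter.unusedVariables false

namespace Crest.Agent.R109


open Polynomial Finset

namespace HergA

open Filter Topology

theorem step {n : ℕ} (q : ℂ[X]) (hd : q.natDegree ≤ n + 1) (x : ℂ) (hx : q.eval x = 0) :
    ∃ q' : ℂ[X], q = (X - C x) * q' ∧ q'.natDegree ≤ n ∧ q.coeff (n + 1) = q'.coeff n ∧
      (n = 0 → q.coeff n = - x * q'.coeff n) ∧
      (0 < n → q.coeff n = q'.coeff (n - 1) - x * q'.coeff n) := by
  obtain ⟨q', rfl⟩ := dvd_iff_isRoot.2 hx
  have hd' : q'.natDegree ≤ n := by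
    by_cases h0 : q' = 0
    · simp [h0]
    · rw [natDegree_mul (X_sub_C_ne_zero x) h0, natDegree_X_sub_C] at hd
      omega
  refine ⟨q', rfl, hd', ?_, ?_, ?_⟩
  · rw [coeff_X_sub_C_mul, coeff_eq_zero_of_natDegree_lt (Nat.lt_succ_of_le hd')]
    simp
  · rintro rfl
    simp
  · intro hn
    obtain ⟨m, rfl⟩ : ∃ m, n = m + 1 := ⟨n - 1, by omega⟩
    rw [coeff_X_sub_C_mul]
    simp

theorem croots : ∀ (n : ℕ) (q : ℂ[X]), q.natDegree ≤ n → q.coeff n ≠ 0 →
    ∃ μ : Fin n → ℂ, (∀ ζ, q.eval ζ = q.coeff n * ∏ j, (ζ - μ j)) ∧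
      (∀ ζ, (∀ j, ζ ≠ μ j) → q.derivative.eval ζ / q.eval ζ = ∑ j, 1 / (ζ - μ j)) ∧
      (0 < n → q.coeff (n - 1) = -q.coeff n * ∑ j, μ j) := by
  intro n
  induction n with
  | zero =>
    intro q hd hc
    refine ⟨Fin.elim0, fun ζ => ?_, fun ζ _ => ?_, fun h => absurd h (lt_irrefl 0)⟩
    · rw [eq_C_of_natDegree_le_zero hd]; simp
    · rw [eq_C_of_natDegree_le_zero hd]; simp
  | succ n ih =>
    intro q hd hc
    have hdeg : q.degree ≠ 0 := by
      intro h0
      have h1 := le_natDegree_of_ne_zero hc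
      have h2 := natDegree_eq_of_degree_eq_some (n := 0) h0
      omega
    obtain ⟨x, hx⟩ := IsAlgClosed.exists_root q hdeg
    obtain ⟨q', hq, hd', h1, h2, h3⟩ := step q hd x hx
    obtain ⟨μ, e1, e2, e3⟩ := ih q' hd' (h1 ▸ hc)
    refine ⟨Fin.cons x μ, fun ζ => ?_, fun ζ hζ => ?_, fun _ => ?_⟩
    · rw [Fin.prod_univ_succ, h1]
      conv_lhs => rw [hq]
      simp only [eval_mul, eval_sub, eval_X, eval_C, e1 ζ, Fin.cons_zero, Fin.cons_succ]
      ring
    · have hx0 : ζ - x ≠ 0 := sub_ne_zero.2 (hζ 0)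
      have hμ : ∀ j, ζ ≠ μ j := fun j => hζ j.succ
      have hq0 : q'.eval ζ ≠ 0 := by
        rw [e1]
        exact mul_ne_zero (h1 ▸ hc) (prod_ne_zero_iff.2 fun j _ => sub_ne_zero.2 (hμ j))
      rw [Fin.sum_univ_succ]
      simp only [Fin.cons_zero, Fin.cons_succ]
      rw [← e2 ζ hμ, hq]
      simp only [derivative_mul, derivative_sub, derivative_X, derivative_C, sub_zero, one_mul,
        eval_add, eval_mul, eval_sub, eval_X, eval_C]
      field_simp
    · rw [Fin.sum_univ_succ]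
      simp only [Fin.cons_zero, Fin.cons_succ, Nat.add_sub_cancel]
      rcases Nat.eq_zero_or_pos n with rfl | hn
      · rw [h2 rfl, h1]; simp [mul_comm]
      · rw [h3 hn, h1, e3 hn]; ring

/-- the local condition: `i t R (x + i t) → κ ≥ 0` -/
def Loc (R : ℂ → ℂ) : Prop :=
  ∀ x : ℝ, ∃ κ : ℝ, 0 ≤ κ ∧
    Tendsto (fun t : ℝ => (t * Complex.I) * R (x + t * Complex.I)) (𝓝[>] 0) (𝓝 (κ : ℂ))

theorem tendsto_line (x w : ℂ) : Tendsto (fun t : ℝ => x + t * w) (𝓝[>] 0) (𝓝 x) := by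
  have h : Continuous fun t : ℝ => x + t * w := by fun_prop
  have := h.tendsto 0
  simp only [Complex.ofReal_zero, zero_mul, add_zero] at this
  exact this.mono_left nhdsWithin_le_nhds

theorem prod_eval {n : ℕ} (τ : Fin n → ℝ) (ζ : ℂ) :
    (∏ j, (X - C (τ j : ℂ))).eval ζ = ∏ j, (ζ - (τ j : ℂ)) := by
  simp [eval_prod]

theorem rep_of_loc : ∀ (n : ℕ) (τ : Fin n → ℝ) (Q : ℂ[X]), Q.natDegree ≤ n →
    Loc (fun ζ => Q.eval ζ / ∏ j, (ζ - (τ j : ℂ))) →
    ∃ κ : Fin n → ℝ, (∀ j, 0 ≤ κ j) ∧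
      (∀ ζ : ℂ, (∀ j, ζ ≠ (τ j : ℂ)) →
        Q.eval ζ / ∏ j, (ζ - (τ j : ℂ)) = Q.coeff n + ∑ j, (κ j : ℂ) / (ζ - (τ j : ℂ))) ∧
      (0 < n → Q.coeff (n - 1) = -Q.coeff n * ∑ j, (τ j : ℂ) + ∑ j, (κ j : ℂ)) := by
  intro n
  induction n with
  | zero =>
    intro τ Q hd _
    refine ⟨Fin.elim0, fun j => j.elim0, fun ζ _ => ?_, fun h => absurd h (lt_irrefl 0)⟩
    rw [eq_C_of_natDegree_le_zero hd]; simp
  | succ n ih =>
    intro τ Q hd hL
    obtain ⟨k, hk0, hk⟩ := hL (τ 0)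
    set P : ℂ[X] := ∏ j : Fin n, (X - C (τ j.succ : ℂ)) with hP
    have hPe : ∀ ζ, P.eval ζ = ∏ j : Fin n, (ζ - (τ j.succ : ℂ)) := prod_eval fun j => τ j.succ
    have hPm : P.Monic := monic_prod_of_monic _ _ fun j _ => monic_X_sub_C _
    have hPd : P.natDegree = n := by
      rw [hP, natDegree_prod_of_monic _ _ fun j _ => monic_X_sub_C _]
      simp
    have hnr : ∀ (x t : ℝ), 0 < t → ∀ y : ℝ, (x : ℂ) + t * Complex.I - y ≠ 0 := by
      intro x t ht y h
      have := congrArg Complex.im h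
      simp at this
      exact ht.ne' this
    have hroot : (Q - C (k : ℂ) * P).eval (τ 0 : ℂ) = 0 := by
      have h1 : Tendsto (fun t : ℝ => Q.eval ((τ 0 : ℂ) + t * Complex.I)) (𝓝[>] 0)
          (𝓝 (Q.eval (τ 0 : ℂ))) := (Q.continuous.tendsto _).comp (tendsto_line _ _)
      have h2 : Tendsto (fun t : ℝ => P.eval ((τ 0 : ℂ) + t * Complex.I)) (𝓝[>] 0)
          (𝓝 (P.eval (τ 0 : ℂ))) := (P.continuous.tendsto _).comp (tendsto_line _ _)
      have h3 := hk.mul h2
      have h4 : Q.eval (τ 0 : ℂ) = k * P.eval (τ 0 : ℂ) := by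
        refine tendsto_nhds_unique h1 (h3.congr' ?_)
        filter_upwards [self_mem_nhdsWithin] with t ht
        have ht' : (0 : ℝ) < t := ht
        have h5 : P.eval ((τ 0 : ℂ) + t * Complex.I) ≠ 0 := by
          rw [hPe]; exact prod_ne_zero_iff.2 fun j _ => hnr _ _ ht' _
        have h6 : (t : ℂ) * Complex.I ≠ 0 :=
          mul_ne_zero (Complex.ofReal_ne_zero.2 ht'.ne') Complex.I_ne_zero
        rw [Fin.prod_univ_succ, ← hPe, add_sub_cancel_left]
        generalize (t : ℂ) * Complex.I = z at h5 h6 ⊢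
        field_simp
      simp [h4]
    have hd1 : (Q - C (k : ℂ) * P).natDegree ≤ n + 1 := by
      refine (natDegree_sub_le _ _).trans (max_le hd ?_)
      exact (natDegree_C_mul_le _ _).trans (by omega)
    obtain ⟨Q', hq, hd', h1, h2, h3⟩ := step _ hd1 _ hroot
    have hPn : P.coeff n = 1 := by rw [← hPd]; exact hPm.coeff_natDegree
    have hPn1 : P.coeff (n + 1) = 0 := coeff_eq_zero_of_natDegree_lt (by omega)
    rw [coeff_sub, coeff_C_mul, hPn1, mul_zero, sub_zero] at h1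
    rw [coeff_sub, coeff_C_mul, hPn, mul_one] at h2 h3
    have hR : ∀ ζ : ℂ, (∀ j, ζ ≠ (τ j : ℂ)) → Q'.eval ζ / ∏ j : Fin n, (ζ - (τ j.succ : ℂ)) =
        Q.eval ζ / ∏ j, (ζ - (τ j : ℂ)) - k / (ζ - τ 0) := by
      intro ζ hζ
      have e := congrArg (eval ζ) hq
      simp only [eval_sub, eval_mul, eval_C, eval_X] at e
      have h5 : P.eval ζ ≠ 0 := by
        rw [hPe]; exact prod_ne_zero_iff.2 fun j _ => sub_ne_zero.2 (hζ _)
      have h6 : ζ - τ 0 ≠ 0 := sub_ne_zero.2 (hζ 0)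
      rw [Fin.prod_univ_succ, ← hPe]
      field_simp
      linear_combination -e
    obtain ⟨κ, hκ0, hκ1, hκ2⟩ := ih (fun j => τ j.succ) Q' hd' (by
      intro x
      obtain ⟨k', hk0', hk'⟩ := hL x
      have hev : ∀ᶠ t : ℝ in 𝓝[>] 0,
          t * Complex.I * (Q.eval (x + t * Complex.I) / ∏ j, (x + t * Complex.I - (τ j : ℂ))) -
            k * (t * Complex.I / (x + t * Complex.I - τ 0)) =
          t * Complex.I * (Q'.eval (x + t * Complex.I) /
            ∏ j : Fin n, (x + t * Complex.I - (τ j.succ : ℂ))) := by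
        filter_upwards [self_mem_nhdsWithin] with t ht
        rw [hR _ fun j => sub_ne_zero.1 (hnr _ _ ht _)]
        ring
      by_cases hx : x = τ 0
      · subst hx
        refine ⟨0, le_rfl, Tendsto.congr' hev ?_⟩
        have h5 : Tendsto (fun t : ℝ => (k : ℂ) * (t * Complex.I / (τ 0 + t * Complex.I - τ 0)))
            (𝓝[>] 0) (𝓝 (k : ℂ)) := by
          refine tendsto_const_nhds.congr' ?_
          filter_upwards [self_mem_nhdsWithin] with t ht
          have ht' : (0 : ℝ) < t := ht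
          have h6 : (t : ℂ) * Complex.I ≠ 0 :=
            mul_ne_zero (Complex.ofReal_ne_zero.2 ht'.ne') Complex.I_ne_zero
          rw [add_sub_cancel_left, div_self h6, mul_one]
        simpa using hk.sub h5
      · refine ⟨k', hk0', Tendsto.congr' hev ?_⟩
        have h5 : Tendsto (fun t : ℝ => (k : ℂ) * (t * Complex.I / (x + t * Complex.I - τ 0)))
            (𝓝[>] 0) (𝓝 ((k : ℂ) * (0 / (x - τ 0)))) := by
          refine Tendsto.const_mul _ (Tendsto.div ?_ ((tendsto_line _ _).sub_const _) ?_)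
          · simpa using tendsto_line 0 Complex.I
          · exact sub_ne_zero.2 (by exact_mod_cast hx)
        simpa using hk'.sub h5)
    refine ⟨Fin.cons k κ, fun j => Fin.cases hk0 hκ0 j, fun ζ hζ => ?_, fun _ => ?_⟩
    · rw [Fin.sum_univ_succ]
      simp only [Fin.cons_zero, Fin.cons_succ]
      have e1 := hκ1 ζ fun j => hζ j.succ
      have e2 := hR ζ hζ
      rw [h1]
      linear_combination e1 - e2
    · rw [Fin.sum_univ_succ, Fin.sum_univ_succ]
      simp only [Fin.cons_zero, Fin.cons_succ, Nat.add_sub_cancel]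
      rcases Nat.eq_zero_or_pos n with rfl | hn
      · have := h2 rfl
        rw [h1]
        simp only [univ_eq_empty, sum_empty, add_zero]
        linear_combination this
      · have e1 := h3 hn
        have e2 := hκ2 hn
        rw [h1]
        linear_combination e1 + e2

theorem angle {g : ℂ} {p : ℕ} (hp : 1 ≤ p)
    (h : ∀ w : ℂ, 0 < w.im → (g * (starRingEnd ℂ w) ^ p).im ≤ 0) {θ : ℝ} (h0 : 0 ≤ θ)
    (h1 : θ ≤ p * Real.pi) : g.im * Real.cos θ - g.re * Real.sin θ ≤ 0 := by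
  have hp0 : (0 : ℝ) < p := by exact_mod_cast hp
  have hcl : ∀ w : ℂ, 0 ≤ w.im → (g * (starRingEnd ℂ w) ^ p).im ≤ 0 := by
    intro w hw
    have hw' : w ∈ closure {z : ℂ | 0 < z.im} := by
      rw [Complex.closure_setOf_lt_im]; exact hw
    exact closure_minimal (t := {w : ℂ | (g * (starRingEnd ℂ w) ^ p).im ≤ 0}) h
      (isClosed_le (by fun_prop) continuous_const) hw'
  have h2 := hcl (Complex.exp ((θ / p : ℝ) * Complex.I)) (by
    rw [Complex.exp_ofReal_mul_I_im]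
    exact Real.sin_nonneg_of_nonneg_of_le_pi (by positivity) (by rw [div_le_iff₀ hp0]; linarith))
  rw [← map_pow, ← Complex.exp_nat_mul] at h2
  have e : (p : ℂ) * (((θ / p : ℝ) : ℂ) * Complex.I) = (θ : ℂ) * Complex.I := by
    have : (p : ℂ) ≠ 0 := by exact_mod_cast hp0.ne'
    push_cast
    field_simp
  rw [e, Complex.mul_im, Complex.conj_re, Complex.conj_im, Complex.exp_ofReal_mul_I_re,
    Complex.exp_ofReal_mul_I_im] at h2
  linarith

theorem loc_of_herg (Q P : ℂ[X]) (hP : P ≠ 0)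
    (hup : ∀ ζ : ℂ, 0 < ζ.im → (Q.eval ζ / P.eval ζ).im ≤ 0) :
    Loc fun ζ => Q.eval ζ / P.eval ζ := by
  intro x
  by_cases hQ : Q = 0
  · exact ⟨0, le_rfl, by simp [hQ]⟩
  obtain ⟨Q₁, hQ1, hQ2⟩ := exists_eq_pow_rootMultiplicity_mul_and_not_dvd Q hQ (x : ℂ)
  obtain ⟨P₁, hP1, hP2⟩ := exists_eq_pow_rootMultiplicity_mul_and_not_dvd P hP (x : ℂ)
  rw [dvd_iff_isRoot] at hQ2 hP2
  generalize rootMultiplicity (x : ℂ) Q = a at hQ1
  generalize rootMultiplicity (x : ℂ) P = b at hP1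
  set g : ℂ → ℂ := fun ζ => Q₁.eval ζ / P₁.eval ζ with hg
  have hgc : ∀ w : ℂ, Tendsto (fun t : ℝ => g (x + t * w)) (𝓝[>] 0) (𝓝 (g x)) := fun w =>
    (((Q₁.continuous.tendsto _).div (P₁.continuous.tendsto _) hP2)).comp (tendsto_line _ _)
  have hg0 : g x ≠ 0 := div_ne_zero hQ2 hP2
  have hR : ∀ z : ℂ, Q.eval (x + z) / P.eval (x + z) = z ^ a / z ^ b * g (x + z) := by
    intro z
    rw [hQ1, hP1]
    simp only [eval_mul, eval_pow, eval_sub, eval_X, eval_C, add_sub_cancel_left, hg]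
    rw [mul_div_mul_comm]
  rcases le_or_gt b a with hab | hab
  · obtain ⟨c, rfl⟩ := Nat.exists_eq_add_of_le hab
    refine ⟨0, le_rfl, ?_⟩
    have h1 : Tendsto (fun t : ℝ => (t : ℂ) * Complex.I) (𝓝[>] 0) (𝓝 0) := by
      simpa using tendsto_line 0 Complex.I
    have h2 := h1.mul ((h1.pow c).mul (hgc Complex.I))
    rw [zero_mul] at h2
    refine h2.congr' ?_
    filter_upwards [self_mem_nhdsWithin] with t ht
    have ht' : (0 : ℝ) < t := ht
    have h6 : (t : ℂ) * Complex.I ≠ 0 :=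
      mul_ne_zero (Complex.ofReal_ne_zero.2 ht'.ne') Complex.I_ne_zero
    rw [hR, pow_add, mul_div_cancel_left₀ _ (pow_ne_zero b h6)]
  · obtain ⟨c, rfl⟩ := Nat.exists_eq_add_of_lt hab
    have hw : ∀ w : ℂ, 0 < w.im → (g x * (starRingEnd ℂ w) ^ (c + 1)).im ≤ 0 := by
      intro w hw
      have hw0 : w ≠ 0 := by rintro rfl; simp at hw
      have h1 := (Complex.continuous_im.tendsto _).comp
        ((hgc w).mul_const ((starRingEnd ℂ w) ^ (c + 1)))
      refine le_of_tendsto h1 ?_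
      filter_upwards [self_mem_nhdsWithin] with t ht
      have ht' : (0 : ℝ) < t := ht
      have ht0 : (t : ℂ) ≠ 0 := Complex.ofReal_ne_zero.2 ht'.ne'
      have h2 := hup (x + t * w) (by simpa using mul_pos ht' hw)
      have h3 : g (x + t * w) * (starRingEnd ℂ w) ^ (c + 1) =
          (((t * Complex.normSq w) ^ (c + 1) : ℝ) : ℂ) *
            (Q.eval (x + t * w) / P.eval (x + t * w)) := by
        rw [hR]
        push_cast
        rw [← Complex.mul_conj, add_assoc, pow_add (t * w : ℂ) a]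
        simp only [mul_pow]
        field_simp
      simp only [Function.comp]
      rw [h3, Complex.im_ofReal_mul]
      exact mul_nonpos_of_nonneg_of_nonpos
        (pow_nonneg (mul_nonneg ht'.le (Complex.normSq_nonneg w)) _) h2
    have hpi := Real.pi_pos
    have hc1 : (1 : ℝ) ≤ ((c + 1 : ℕ) : ℝ) := by exact_mod_cast Nat.le_add_left 1 c
    have a1 := angle (Nat.le_add_left 1 c) hw (θ := 0) le_rfl (by positivity)
    have a2 := angle (Nat.le_add_left 1 c) hw (θ := Real.pi) hpi.le (by nlinarith)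
    have a3 := angle (Nat.le_add_left 1 c) hw (θ := Real.pi / 2) (by positivity) (by nlinarith)
    simp only [Real.cos_zero, Real.sin_zero, Real.cos_pi, Real.sin_pi, Real.cos_pi_div_two,
      Real.sin_pi_div_two] at a1 a2 a3
    have him : (g x).im = 0 := by linarith
    have hre : 0 ≤ (g x).re := by linarith
    rcases Nat.eq_zero_or_pos c with rfl | hc
    · refine ⟨(g x).re, hre, ?_⟩
      have e : (((g x).re : ℝ) : ℂ) = g x := Complex.ext rfl (by simp [him])
      rw [e]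
      refine (hgc Complex.I).congr' ?_
      filter_upwards [self_mem_nhdsWithin] with t ht
      have ht' : (0 : ℝ) < t := ht
      have h6 : (t : ℂ) * Complex.I ≠ 0 :=
        mul_ne_zero (Complex.ofReal_ne_zero.2 ht'.ne') Complex.I_ne_zero
      rw [hR]
      generalize (t : ℂ) * Complex.I = z at h6 ⊢
      rw [add_zero, pow_succ]
      field_simp
    · exfalso
      have hc2 : (2 : ℝ) ≤ ((c + 1 : ℕ) : ℝ) := by exact_mod_cast Nat.succ_le_succ hc
      have a4 := angle (Nat.le_add_left 1 c) hw (θ := Real.pi / 2 + Real.pi) (by positivity)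
        (by nlinarith)
      rw [Real.cos_add_pi, Real.sin_add_pi, Real.cos_pi_div_two, Real.sin_pi_div_two] at a4
      exact hg0 (Complex.ext (by simp only [Complex.zero_re]; linarith) him)

theorem tendsto_sum {n : ℕ} (τ κ : Fin n → ℝ) {s : ℝ} (hs : |s| = 1) :
    Tendsto (fun t : ℝ => ∑ j, (κ j : ℂ) / (((s * t : ℝ) : ℂ) * Complex.I - (τ j : ℂ))) atTop
      (𝓝 0) := by
  have h : ∀ j, Tendsto (fun t : ℝ => (κ j : ℂ) / (((s * t : ℝ) : ℂ) * Complex.I - (τ j : ℂ)))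
      atTop (𝓝 0) := by
    intro j
    have h0 : (0 : ℂ) = (κ j : ℂ) * 0 := (mul_zero _).symm
    rw [h0]
    simp only [div_eq_mul_inv]
    refine Tendsto.const_mul _ (tendsto_inv₀_cobounded.comp ?_)
    rw [← tendsto_norm_atTop_iff_cobounded]
    refine tendsto_atTop_mono (fun t => ?_) tendsto_id
    refine le_trans ?_ (Complex.abs_im_le_norm _)
    simp only [Complex.sub_im, Complex.mul_im, Complex.ofReal_re, Complex.I_im, mul_one,
      Complex.ofReal_im, Complex.I_re, mul_zero, add_zero, sub_zero, abs_mul, hs, one_mul, id]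
    exact le_abs_self t
  simpa using tendsto_finset_sum univ fun j _ => h j

end HergA

theorem real_roots {n : ℕ} (q : ℂ[X]) (hd : q.natDegree ≤ n) (hc : q.coeff n ≠ 0)
    (h : ∀ ζ : ℂ, ζ.im ≠ 0 → q.eval ζ ≠ 0) :
    ∃ τ : Fin n → ℝ, ∀ ζ, q.eval ζ = q.coeff n * ∏ j, (ζ - (τ j : ℂ)) := by
  obtain ⟨μ, h1, -, -⟩ := HergA.croots n q hd hc
  have him : ∀ j, (μ j).im = 0 := by
    intro j
    by_contra hj
    apply h _ hj
    rw [h1, prod_eq_zero (mem_univ j) (sub_self _), mul_zero]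
  refine ⟨fun j => (μ j).re, fun ζ => ?_⟩
  rw [h1]
  congr 1
  refine prod_congr rfl fun j _ => ?_
  congr 1
  exact Complex.ext rfl (by simp [him j])

theorem complex_roots {n : ℕ} (q : ℂ[X]) (hd : q.natDegree ≤ n) (hc : q.coeff n ≠ 0) :
    ∃ μ : Fin n → ℂ, (∀ ζ, q.eval ζ = q.coeff n * ∏ j, (ζ - μ j)) ∧
      (∀ ζ, (∀ j, ζ ≠ μ j) → q.derivative.eval ζ / q.eval ζ = ∑ j, 1 / (ζ - μ j)) ∧
      (0 < n → q.coeff (n - 1) = -q.coeff n * ∑ j, μ j) := by
  exact HergA.croots n q hd hc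

theorem herglotz_rep {n : ℕ} (τ : Fin n → ℝ) (Q : ℂ[X]) (hd : Q.natDegree ≤ n)
    (hup : ∀ ζ : ℂ, 0 < ζ.im → (Q.eval ζ / ∏ j, (ζ - (τ j : ℂ))).im ≤ 0)
    (hdown : ∀ ζ : ℂ, ζ.im < 0 → 0 ≤ (Q.eval ζ / ∏ j, (ζ - (τ j : ℂ))).im) :
    ∃ κ : Fin n → ℝ, (∀ j, 0 ≤ κ j) ∧ (Q.coeff n).im = 0 ∧
      (∀ ζ : ℂ, (∀ j, ζ ≠ (τ j : ℂ)) →
        Q.eval ζ / ∏ j, (ζ - (τ j : ℂ)) = Q.coeff n + ∑ j, (κ j : ℂ) / (ζ - (τ j : ℂ))) ∧
      (0 < n → Q.coeff (n - 1) = -Q.coeff n * ∑ j, (τ j : ℂ) + ∑ j, (κ j : ℂ)) := by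
  have hL := HergA.loc_of_herg Q (∏ j, (X - C (τ j : ℂ)))
    (monic_prod_of_monic _ _ fun j _ => monic_X_sub_C _).ne_zero
    (fun ζ hζ => by rw [HergA.prod_eval]; exact hup ζ hζ)
  simp only [HergA.prod_eval] at hL
  obtain ⟨κ, h0, h1, h2⟩ := HergA.rep_of_loc n τ Q hd hL
  refine ⟨κ, h0, ?_, h1, h2⟩
  have hne : ∀ s : ℝ, s ≠ 0 → ∀ j, (s : ℂ) * Complex.I ≠ (τ j : ℂ) := by
    intro s hs j h
    have := congrArg Complex.im h
    simp at this
    exact hs this
  have lim : ∀ s : ℝ, |s| = 1 → Filter.Tendsto (fun t : ℝ => (Q.coeff n +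
      ∑ j, (κ j : ℂ) / (((s * t : ℝ) : ℂ) * Complex.I - (τ j : ℂ))).im) Filter.atTop
      (nhds (Q.coeff n).im) := by
    intro s hs
    have := (Complex.continuous_im.tendsto _).comp
      ((HergA.tendsto_sum τ κ hs).const_add (Q.coeff n))
    rw [add_zero] at this
    exact this
  refine le_antisymm (le_of_tendsto (lim 1 (by simp)) ?_) (ge_of_tendsto (lim (-1) (by simp)) ?_)
  · filter_upwards [Filter.eventually_gt_atTop 0] with t ht
    rw [← h1 _ (hne _ (by linarith))]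
    exact hup _ (by simpa using ht)
  · filter_upwards [Filter.eventually_gt_atTop 0] with t ht
    rw [← h1 _ (hne _ (by linarith))]
    exact hdown _ (by simpa using ht)

end Crest.Agent.R109
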