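import Crest.Agent.R109.ZFree
import Crest.Agent.R109.Herg

/-!
# Row 109, task R109-InitA

Ingredients of the barrier argument.  PLAN.  `det_base`: if `mat S e Y (update z u ζ) x = 0` with `‖ζ‖ > 1/(a-1)`, let
`x'` be `x` with the coordinate `u` removed (`x = 0` off `S`): `a ‖x'‖ ≤ ‖Y x‖ ≤ ‖x'‖ + |x u|` and
`‖ζ‖ |x u| ≤ ‖Y x'‖ ≤ ‖x'‖` (`Y u u = 0`), so `x = 0`; the first claim is the case without `u`.  Work in
`EuclideanSpace ℂ V`.  `real_rooted`: for real heights `z` and `δ > 0` let `z^δ = z + i δ`; the polynomial of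
`pp_poly` has leading coefficient `D_δ ≠ 0` and roots in the closed lower half plane (`stab_up`), so
`‖q_δ ζ‖ ≥ ‖D_δ‖ (im ζ)^N` (`complex_roots`); let `δ → 0` (`pp_continuous`); same below.  `log_deriv_im`: with all
heights in the open upper half plane, the quotient is `q'/q = ∑ 1/(z u - μ i)` for the polynomial in `z u`
(`pp_poly`, `complex_roots`), whose roots have `im ≤ 0`; let `δ → 0`.
-/

set_option autoImplicit false
set_option linter.unusedSectionVars false
set_option linter.unusedVariables false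

namespace Crest.Agent.R109

open Matrix Finset Function Polynomial
open scoped ComplexConjugate Real

variable {V K : Type*} [Fintype V] [DecidableEq V] [Fintype K] [DecidableEq K]
  {sg : K → ℂ} {Y : Matrix V V ℂ} {φ : V → Finset (Finset K)} {z : V → ℂ}

namespace InitAA

theorem ker (hd : ∀ v, Y v v = 0) {e : ℂ} (he : e = 1 ∨ e = -1) (S : Finset V) {x : V → ℂ}
    (hx : mat S e Y z *ᵥ x = 0) :
    (∀ w, w ∉ S → x w = 0) ∧ ∀ w ∈ S, ‖z w‖ * ‖x w‖ = ‖(Y *ᵥ x) w‖ := by
  have h0 : ∀ w, w ∉ S → x w = 0 := by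
    intro w hw
    have h := congrFun hx w
    simp only [mulVec, dotProduct, mat, of_apply, Pi.zero_apply] at h
    rw [Finset.sum_eq_single w] at h
    · simpa [hw] using h
    · intro v _ hv
      simp [Ne.symm hv, hw]
    · simp
  refine ⟨h0, fun w hw => ?_⟩
  have h := congrFun hx w
  simp only [mulVec, dotProduct, mat, of_apply, Pi.zero_apply] at h
  have h2 : ∑ v, (if w = v then (if w ∈ S then z w else 1)
      else (if w ∈ S ∧ v ∈ S then -(e * Y w v) else 0)) * x v =
      z w * x w - e * ∑ v, Y w v * x v := by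
    rw [Finset.mul_sum, eq_sub_iff_add_eq, ← Finset.sum_add_distrib, Finset.sum_eq_single w]
    · simp [hw, hd]
    · intro v _ hv
      by_cases hvS : v ∈ S
      · simp [Ne.symm hv, hw, hvS]; ring
      · simp [Ne.symm hv, h0 v hvS]
    · simp
  rw [h2, sub_eq_zero] at h
  have h3 := congrArg norm h
  have he1 : ‖e‖ = 1 := by rcases he with rfl | rfl <;> simp
  rw [norm_mul, norm_mul, he1, one_mul] at h3
  exact h3

theorem adm_one (hφ : ∀ v, Adm (φ v)) (v : V) (S : Finset K) :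
    ∀ w, Adm (update φ v {S} w) := by
  intro w
  by_cases h : w = v
  · subst h
    rw [update_self]
    exact Or.inl (card_singleton _)
  · rw [update_of_ne h]
    exact hφ w

/-- roots of the polynomial in one height lie on the other side -/
theorem roots_side (hs : Sgn sg) (hY : Y.IsHermitian) (hφ : ∀ v, Adm (φ v)) (v : V) (S : Finset K)
    {c : ℝ} (hc : c = 1 ∨ c = -1) (hz : ∀ w, 0 < c * (z w).im) :
    ∃ μ : Fin S.card → ℂ, (∀ j, c * (μ j).im ≤ 0) ∧ pp sg Y (update φ v {∅}) z ≠ 0 ∧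
      (∀ ζ, pp sg Y (update φ v {S}) (update z v ζ) =
        pp sg Y (update φ v {∅}) z * ∏ j, (ζ - μ j)) ∧
      ∀ ζ, (∀ j, ζ ≠ μ j) →
        (∑ k ∈ S, pp sg Y (update φ v {S.erase k}) (update z v ζ)) /
          pp sg Y (update φ v {S}) (update z v ζ) = ∑ j, 1 / (ζ - μ j) := by
  have hst : ∀ (ψ : V → Finset (Finset K)) (y : V → ℂ), (∀ w, Adm (ψ w)) →
      (∀ w, 0 < c * (y w).im) → pp sg Y ψ y ≠ 0 := by
    intro ψ y hψ hy
    rcases hc with rfl | rfl
    · exact stab_up hs hY hψ fun w _ => by simpa using hy w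
    · exact stab_down hs hY hψ fun w _ => by simpa using hy w
  obtain ⟨q, hq, hdeg, hlead, -, hder⟩ := pp_poly (sg := sg) (Y := Y) (φ := φ) (z := z) v S
  have hD : pp sg Y (update φ v {∅}) z ≠ 0 := hst _ _ (adm_one hφ v ∅) hz
  obtain ⟨μ, h1, h2, -⟩ := complex_roots q hdeg (hlead ▸ hD)
  refine ⟨μ, fun j => ?_, hD, fun ζ => ?_, fun ζ hζ => ?_⟩
  · by_contra hj
    push Not at hj
    refine hst _ (update z v (μ j)) (adm_one hφ v S) (fun w => ?_) ?_
    · by_cases h : w = v
      · subst h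
        rwa [update_self]
      · rw [update_of_ne h]
        exact hz w
    · rw [hq, h1, Finset.prod_eq_zero (mem_univ j) (sub_self _), mul_zero]
  · rw [hq, h1, hlead]
  · rw [hq, ← hder, h2 ζ hζ]

/-- shifted heights -/
noncomputable def sh (z : V → ℂ) (c δ : ℝ) : V → ℂ := fun w => z w + ((c * δ : ℝ) : ℂ) * Complex.I

theorem sh_zero (c : ℝ) : sh z c 0 = z := by
  funext w
  simp [sh]

theorem sh_cont (c : ℝ) (w : V) : Continuous fun δ : ℝ => sh z c δ w := by
  unfold sh
  fun_prop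

theorem sh_pos {c : ℝ} (hc : c = 1 ∨ c = -1) (hz : ∀ w, 0 ≤ c * (z w).im) {δ : ℝ} (hδ : 0 < δ)
    (w : V) : 0 < c * (sh z c δ w).im := by
  have h := hz w
  have : (sh z c δ w).im = (z w).im + c * δ := by simp [sh]
  rw [this]
  rcases hc with rfl | rfl <;> linarith

theorem cont_sh (ψ : V → Finset (Finset K)) (c : ℝ) :
    Continuous fun δ : ℝ => pp sg Y ψ (sh z c δ) :=
  pp_continuous (Yt := fun _ => Y) (zt := fun δ => sh z c δ) (fun _ _ => continuous_const)
    (sh_cont c)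

theorem le_of_pos {f g : ℝ → ℝ} (hf : ContinuousAt f 0) (hg : ContinuousAt g 0)
    (h : ∀ δ, 0 < δ → f δ ≤ g δ) : f 0 ≤ g 0 := by
  have hf' : Filter.Tendsto f (nhdsWithin 0 (Set.Ioi 0)) (nhds (f 0)) :=
    hf.tendsto.mono_left nhdsWithin_le_nhds
  have hg' : Filter.Tendsto g (nhdsWithin 0 (Set.Ioi 0)) (nhds (g 0)) :=
    hg.tendsto.mono_left nhdsWithin_le_nhds
  refine le_of_tendsto_of_tendsto hf' hg' ?_
  filter_upwards [self_mem_nhdsWithin] with δ hδ using h δ hδ

theorem log_side (hs : Sgn sg) (hY : Y.IsHermitian) (hφ : ∀ v, Adm (φ v)) {u : V} {S : Finset K}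
    (hu : φ u = {S}) (hne : pp sg Y φ z ≠ 0) {c : ℝ} (hc : c = 1 ∨ c = -1)
    (hz : ∀ w, 0 ≤ c * (z w).im) :
    c * ((∑ k ∈ S, pp sg Y (update φ u {S.erase k}) z) / pp sg Y φ z).im ≤ 0 := by
  have key := le_of_pos
    (f := fun δ => c * ((∑ k ∈ S, pp sg Y (update φ u {S.erase k}) (sh z c δ)) /
      pp sg Y φ (sh z c δ)).im) (g := fun _ => 0) ?_ continuousAt_const ?_
  · simpa only [sh_zero] using key
  · refine continuousAt_const.mul (Complex.continuous_im.continuousAt.comp ?_)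
    refine ContinuousAt.div ?_ (cont_sh φ c).continuousAt (by rwa [sh_zero])
    exact (continuous_finsetSum _ fun k _ => cont_sh _ c).continuousAt
  · intro δ hδ
    obtain ⟨μ, h1, -, -, h4⟩ := roots_side hs hY hφ u S hc (sh_pos hc hz hδ)
    have hpos := sh_pos hc hz hδ u
    have h5 := h4 (sh z c δ u) fun j hj => by
      have := h1 j
      rw [← hj] at this
      linarith
    rw [update_eq_self, ← hu, update_eq_self] at h5
    rw [h5, Complex.im_sum, Finset.mul_sum]
    refine Finset.sum_nonpos fun j _ => ?_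
    have h6 : 0 < c * (sh z c δ u - μ j).im := by
      rw [Complex.sub_im, mul_sub]
      linarith [h1 j]
    rw [one_div, Complex.inv_im, mul_div_assoc', mul_neg]
    exact div_nonpos_of_nonpos_of_nonneg (by linarith) (Complex.normSq_nonneg _)

end InitAA

open InitAA

theorem det_base (hc : Contr Y) (hd : ∀ v, Y v v = 0) {e : ℂ} (he : e = 1 ∨ e = -1) {a : ℝ}
    (ha : 1 < a) (S : Finset V) :
    ((∀ v ∈ S, a ≤ ‖z v‖) → (mat S e Y z).det ≠ 0) ∧
      ∀ u ∈ S, (∀ v ∈ S, v ≠ u → a ≤ ‖z v‖) → 1 / (a - 1) < ‖z u‖ → (mat S e Y z).det ≠ 0 := by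
  constructor
  · intro hz hdet
    obtain ⟨x, hx0, hx⟩ := Matrix.exists_mulVec_eq_zero_iff.2 hdet
    obtain ⟨h0, h1⟩ := ker hd he S hx
    have h2 : a ^ 2 * ∑ w, ‖x w‖ ^ 2 ≤ ∑ w, ‖(Y *ᵥ x) w‖ ^ 2 := by
      rw [Finset.mul_sum]
      refine Finset.sum_le_sum fun w _ => ?_
      by_cases hw : w ∈ S
      · rw [← h1 w hw, ← mul_pow]
        have := hz w hw
        gcongr
      · rw [h0 w hw]
        simp
    have h3 := hc x
    have h4 : 0 ≤ ∑ w, ‖x w‖ ^ 2 := Finset.sum_nonneg fun w _ => by positivity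
    have h5 : ∑ w, ‖x w‖ ^ 2 = 0 := by
      by_contra hne
      have h6 : 0 < ∑ w, ‖x w‖ ^ 2 := lt_of_le_of_ne h4 (Ne.symm hne)
      have h7 : 1 < a ^ 2 := by nlinarith
      nlinarith
    rw [Finset.sum_eq_zero_iff_of_nonneg fun w _ => by positivity] at h5
    refine hx0 (funext fun w => ?_)
    simpa using h5 w (mem_univ w)
  · intro u hu hz hzu hdet
    obtain ⟨x, hx0, hx⟩ := Matrix.exists_mulVec_eq_zero_iff.2 hdet
    obtain ⟨h0, h1⟩ := ker hd he S hx
    set x' : V → ℂ := update x u 0 with hx'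
    set N : ℝ := ∑ w, ‖x' w‖ ^ 2 with hN
    have hN0 : 0 ≤ N := Finset.sum_nonneg fun w _ => by positivity
    have hsum : ∑ w, ‖x w‖ ^ 2 = N + ‖x u‖ ^ 2 := by
      rw [hN, ← Finset.add_sum_erase _ _ (mem_univ u), ← Finset.add_sum_erase _ _ (mem_univ u)]
      have : ∑ w ∈ univ.erase u, ‖x' w‖ ^ 2 = ∑ w ∈ univ.erase u, ‖x w‖ ^ 2 :=
        Finset.sum_congr rfl fun w hw => by rw [hx', update_of_ne (ne_of_mem_erase hw)]
      rw [this, hx', update_self]
      simp [add_comm]
    have h2 : a ^ 2 * N ≤ ∑ w, ‖(Y *ᵥ x) w‖ ^ 2 := by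
      rw [hN, Finset.mul_sum]
      refine Finset.sum_le_sum fun w _ => ?_
      by_cases hwu : w = u
      · rw [hwu, hx', update_self]
        simp
      rw [hx', update_of_ne hwu]
      by_cases hw : w ∈ S
      · rw [← h1 w hw, ← mul_pow]
        have := hz w hw hwu
        gcongr
      · rw [h0 w hw]
        simp
    have h3 := hc x
    have h4 : (Y *ᵥ x) u = (Y *ᵥ x') u := by
      simp only [mulVec, dotProduct]
      refine Finset.sum_congr rfl fun w _ => ?_
      by_cases hwu : w = u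
      · rw [hwu, hd]
        simp
      · rw [hx', update_of_ne hwu]
    have h5 : ‖(Y *ᵥ x') u‖ ^ 2 ≤ N :=
      (Finset.single_le_sum (f := fun w => ‖(Y *ᵥ x') w‖ ^ 2) (fun w _ => by positivity)
        (mem_univ u)).trans (hc x')
    rw [← h4, ← h1 u hu, mul_pow] at h5
    have ha1 : 0 < a - 1 := by linarith
    have h6 : 1 < ‖z u‖ * (a - 1) := by rwa [div_lt_iff₀ ha1] at hzu
    have h7 : 1 < ‖z u‖ ^ 2 * (a ^ 2 - 1) := by
      have h8 : 1 < (‖z u‖ * (a - 1)) ^ 2 := by nlinarith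
      have h9 : (a - 1) ^ 2 ≤ a ^ 2 - 1 := by nlinarith
      calc (1 : ℝ) < (‖z u‖ * (a - 1)) ^ 2 := h8
        _ = ‖z u‖ ^ 2 * (a - 1) ^ 2 := by ring
        _ ≤ _ := by gcongr
    have h10 : (a ^ 2 - 1) * N ≤ ‖x u‖ ^ 2 := by linarith
    have ha2 : 0 < a ^ 2 - 1 := by nlinarith
    have h11 : ‖x u‖ ^ 2 = 0 := by
      by_contra hne
      have h12 : 0 < ‖x u‖ ^ 2 := lt_of_le_of_ne (by positivity) (Ne.symm hne)
      have h13 : (a ^ 2 - 1) * (‖z u‖ ^ 2 * ‖x u‖ ^ 2) ≤ (a ^ 2 - 1) * N := by gcongr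
      nlinarith
    have h12 : N = 0 := by
      rw [h11] at h10
      have : N ≤ 0 := by
        by_contra hp
        push Not at hp
        nlinarith
      linarith
    rw [h11, h12, add_zero,
      Finset.sum_eq_zero_iff_of_nonneg fun w _ => by positivity] at hsum
    refine hx0 (funext fun w => ?_)
    simpa using hsum w (mem_univ w)

theorem base_ratio (hc : Contr Y) (hd : ∀ v, Y v v = 0) {e : ℂ} (he : e = 1 ∨ e = -1) {a : ℝ}
    (ha : 2 ≤ a) (S : Finset V) (hz : ∀ v ∈ S, a ≤ ‖z v‖) {u : V} (hu : u ∈ S) :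
    ‖(mat (S.erase u) e Y z).det / (mat S e Y z).det‖ ≤ 1 / (‖z u‖ - 1 / (a - 1)) := by
  have ha1 : 1 < a := by linarith
  have hD : (mat (S.erase u) e Y z).det ≠ 0 :=
    (det_base hc hd he ha1 _).1 fun v hv => hz v (mem_of_mem_erase hv)
  set D := (mat (S.erase u) e Y z).det with hDd
  set C := (mat S e Y (update z u 0)).det with hC
  have hroot : ‖-C / D‖ ≤ 1 / (a - 1) := by
    by_contra hlt
    push Not at hlt
    refine (det_base (z := update z u (-C / D)) hc hd he ha1 S).2 u hu (fun v hv hvu => ?_) ?_ ?_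
    · rw [update_of_ne hvu]
      exact hz v hv
    · rwa [update_self]
    · rw [mat_det_update S e Y z hu, ← hDd, ← hC]
      field_simp
      ring
  have hdet : (mat S e Y z).det = D * (z u - -C / D) := by
    have := mat_det_update S e Y z hu (z u)
    rw [update_eq_self] at this
    rw [this, ← hDd, ← hC]
    field_simp
    ring
  have h1 : 1 / (a - 1) ≤ 1 := by
    rw [div_le_one (by linarith)]
    linarith
  have hpos : 0 < ‖z u‖ - 1 / (a - 1) := by linarith [hz u hu]
  have h2 : ‖z u‖ - 1 / (a - 1) ≤ ‖z u - -C / D‖ := by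
    linarith [norm_sub_norm_le (z u) (-C / D)]
  rw [hdet, ← div_div, div_self hD, norm_div, norm_one]
  exact one_div_le_one_div_of_le hpos h2

theorem real_rooted (hs : Sgn sg) (hY : Y.IsHermitian) (hφ : ∀ v, Adm (φ v)) (hz : ∀ v, (z v).im = 0)
    (v : V) (S : Finset K) (hD : pp sg Y (update φ v {∅}) z ≠ 0) (ζ : ℂ) (hζ : ζ.im ≠ 0) :
    pp sg Y (update φ v {S}) (update z v ζ) ≠ 0 := by
  obtain ⟨c, hc, hcζ⟩ : ∃ c : ℝ, (c = 1 ∨ c = -1) ∧ 0 < c * ζ.im := by
    rcases lt_or_gt_of_ne hζ with h | h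
    · exact ⟨-1, Or.inr rfl, by linarith⟩
    · exact ⟨1, Or.inl rfl, by linarith⟩
  have hz' : ∀ w, 0 ≤ c * (z w).im := fun w => by rw [hz w, mul_zero]
  have key := le_of_pos
    (f := fun δ => ‖pp sg Y (update φ v {∅}) (sh z c δ)‖ * (c * ζ.im) ^ S.card)
    (g := fun δ => ‖pp sg Y (update φ v {S}) (update (sh z c δ) v ζ)‖) ?_ ?_ ?_
  · simp only [sh_zero] at key
    intro h0
    rw [h0, norm_zero] at key
    have : 0 < ‖pp sg Y (update φ v {∅}) z‖ * (c * ζ.im) ^ S.card :=
      mul_pos (norm_pos_iff.2 hD) (pow_pos hcζ _)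
    linarith
  · exact ((cont_sh _ c).norm.mul continuous_const).continuousAt
  · refine (Continuous.norm ?_).continuousAt
    refine pp_continuous (Yt := fun _ => Y) (zt := fun δ => update (sh z c δ) v ζ)
      (fun _ _ => continuous_const) fun w => ?_
    by_cases h : w = v
    · subst h
      simp only [update_self]
      exact continuous_const
    · simp only [update_of_ne h]
      exact sh_cont c w
  · intro δ hδ
    obtain ⟨μ, h1, -, h3, -⟩ := roots_side hs hY hφ v S hc (sh_pos hc hz' hδ)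
    rw [h3, norm_mul, norm_prod]
    refine mul_le_mul_of_nonneg_left ?_ (norm_nonneg _)
    calc (c * ζ.im) ^ S.card = ∏ _j : Fin S.card, c * ζ.im := by simp
      _ ≤ _ := by
        refine Finset.prod_le_prod (fun _ _ => hcζ.le) fun j _ => ?_
        have h4 : |(ζ - μ j).im| ≤ ‖ζ - μ j‖ := Complex.abs_im_le_norm _
        have h5 := h1 j
        rw [Complex.sub_im] at h4
        rcases hc with rfl | rfl
        · linarith [le_abs_self (ζ.im - (μ j).im)]
        · linarith [neg_abs_le (ζ.im - (μ j).im)]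

theorem log_deriv_im (hs : Sgn sg) (hY : Y.IsHermitian) (hφ : ∀ v, Adm (φ v)) {u : V} {S : Finset K}
    (hu : φ u = {S}) (hne : pp sg Y φ z ≠ 0) :
    ((∀ v, 0 ≤ (z v).im) → ((∑ k ∈ S, pp sg Y (update φ u {S.erase k}) z) / pp sg Y φ z).im ≤ 0) ∧
    ((∀ v, (z v).im ≤ 0) → 0 ≤ ((∑ k ∈ S, pp sg Y (update φ u {S.erase k}) z) / pp sg Y φ z).im) := by
  constructor
  · intro hz
    simpa using log_side hs hY hφ hu hne (c := 1) (Or.inl rfl) (by simpa using hz)
  · intro hz
    simpa using log_side hs hY hφ hu hne (c := -1) (Or.inr rfl) (by simpa using hz)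

end Crest.Agent.R109
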