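import Crest.Agent.R109.PCong

/-!
# Row 109, task R109-Loc

Locality.  PLAN.  `schwarz_iter`: induction on `k` (`Fin.cons`/`update`), one-variable Schwarz lemma on the
disc of radius `T` (`Complex.norm_le_norm_of_mapsTo_ball…`, `Complex.dist_le_div_mul_dist_of_mapsTo_ball`;
`T = 1` is trivial; for the closed-disc bound use `C + ε` or continuity).  `loc`: for `τ : Fin ρ → ℂ` let `Y_τ v w = τ j * Y v w` if
`{dist v, dist w} = {j, j + 1}` (`j < ρ`), else `Y v w`; `Rows Y_τ (K₀ T)` on the closed polydisc.  For `t` on the circle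
of centre `ℓ u`, radius `Rc = (K₀ T + 1 + bar r)/β + Rl`, all heights have norm `≥ K₀ T + 1`;
`F τ = Gf σ Y_τ t - Gf σ' Y_τ t` is separately holomorphic (`pp_differentiable`, `ext_ne`), bounded by `640 β`
(`ext_bound`) and vanishes when `τ j = 0` (`pp_split` with `T = {dist ≤ j}`: the outer factor cancels).  Then
`Pu_contour` and `circleIntegral.norm_integral_le_of_norm_le_const`.
-/

set_option autoImplicit false
set_option linter.unusedSectionVars false
set_option linter.unusedVariables false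

namespace Crest.Agent.R109

open Matrix Finset Function
open scoped ComplexConjugate Real

variable {V : Type*} [Fintype V] [DecidableEq V] {r : ℕ} {β : ℝ} {σ : V → Stt r} {Y : Matrix V V ℂ}
  {ℓ : V → ℝ}

theorem schwarz_iter (k : ℕ) (F : (Fin k → ℂ) → ℂ) {T C : ℝ} (hT : 1 ≤ T)
    (hd : ∀ τ : Fin k → ℂ, (∀ j, ‖τ j‖ ≤ T) → ∀ j,
      DifferentiableOn ℂ (fun ζ => F (update τ j ζ)) (Metric.ball 0 T))
    (hb : ∀ τ : Fin k → ℂ, (∀ j, ‖τ j‖ ≤ T) → ‖F τ‖ ≤ C)
    (h0 : ∀ τ : Fin k → ℂ, (∀ j, ‖τ j‖ ≤ T) → ∀ j, τ j = 0 → F τ = 0) :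
    ‖F fun _ => 1‖ ≤ C / T ^ k := by
  rcases hT.eq_or_lt with hT1 | hT1
  · subst hT1
    simpa using hb (fun _ => 1) (fun _ => by simp)
  have hT0 : 0 < T := by linarith
  induction k generalizing C with
  | zero => simpa using hb (fun _ => 1) (fun j => j.elim0)
  | succ k ih =>
    have hc : ∀ (ζ : ℂ), ‖ζ‖ ≤ T → ∀ τ : Fin k → ℂ, (∀ j, ‖τ j‖ ≤ T) →
        ∀ j, ‖(Fin.cons ζ τ : Fin (k + 1) → ℂ) j‖ ≤ T := by
      intro ζ hζ τ hτ j
      cases j using Fin.cases with
      | zero => simpa using hζ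
      | succ j => simpa using hτ j
    have h1 : ‖(1 : ℂ)‖ ≤ T := by simpa using hT
    have key := ih (C := C / T) (fun τ => F (Fin.cons 1 τ)) ?_ ?_ ?_
    · have e : (Fin.cons 1 (fun _ => 1) : Fin (k + 1) → ℂ) = fun _ => 1 := by
        funext j
        cases j using Fin.cases <;> simp
      simp only [e] at key
      rwa [div_div, ← pow_succ'] at key
    · intro τ hτ j
      simp only [Fin.cons_update]
      exact hd _ (hc 1 h1 τ hτ) j.succ
    · intro τ hτ
      have hdd := hd _ (hc 1 h1 τ hτ) 0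
      simp only [Fin.update_cons_zero] at hdd
      have hz : F (Fin.cons 0 τ) = 0 := h0 _ (hc 0 (by simpa using hT0.le) τ hτ) 0 (by simp)
      have := Complex.dist_le_div_mul_dist_of_mapsTo_ball (f := fun ζ => F (Fin.cons ζ τ))
        (c := 0) (R₁ := T) (R₂ := C) (z := 1) hdd ?_ (by simpa using hT1)
      · simpa [hz] using this
      · intro ζ hζ
        have hζ' : ‖ζ‖ ≤ T := by
          have := Metric.mem_ball.1 hζ
          rw [dist_zero_right] at this
          exact this.le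
        simpa [hz] using hb _ (hc ζ hζ' τ hτ)
    · intro τ hτ j hj
      exact h0 _ (hc 1 h1 τ hτ) j.succ (by simpa using hj)

namespace LocA

theorem sgn_sgn : Sgn (sgn (r := r)) := by
  intro k
  unfold sgn bsg
  split_ifs <;> simp

theorem fam_adm (hr : 0 < r) (s : Stt r) : Adm (fam s) := by
  rcases fam_del_or_sing hr s with h | h
  · left
    rw [h.2]
    simp
  · right
    exact h.2.2

theorem fam_ne (hr : 0 < r) {s : Stt r} (h : fam s ≠ {∅}) : s ≠ .del := by
  rintro rfl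
  exact h rfl

theorem bar_nonneg (r : ℕ) : 0 ≤ bar r := by
  unfold bar
  positivity

/-- the numerator of `Gf` -/
theorem pS_del (σ : V → Stt r) (Y : Matrix V V ℂ) (u : V) (t : ℂ) :
    pS β (update σ u .del) Y ℓ t =
      pp sgn Y (update (fun v => fam (σ v)) u {∅}) (hts β σ ℓ t) := by
  have e : (fun v => fam (update σ u .del v)) = update (fun v => fam (σ v)) u {∅} := by
    funext v
    by_cases hv : v = u
    · subst hv
      simp [fam]
    · simp [update_of_ne hv]
  unfold pS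
  rw [e]
  refine pp_congr_z fun v hv => ?_
  have hvu : v ≠ u := by
    rintro rfl
    simp at hv
  simp [hts, update_of_ne hvu]

/-- heights are large far from the centre -/
theorem hts_large (hβ : 0 < β) {A Rl c : ℝ} (hA : 0 ≤ A) {t : ℂ} {v : V} (hv : |ℓ v - c| ≤ Rl)
    (ht : (A + bar r) / β + Rl ≤ ‖t - c‖) (σ : V → Stt r) : A ≤ ‖hts β σ ℓ t v‖ := by
  have hb := bar_nonneg r
  have h1 : (A + bar r) / β ≤ ‖t - (ℓ v : ℂ)‖ := by
    have h2 : ‖t - (c : ℂ)‖ ≤ ‖t - (ℓ v : ℂ)‖ + ‖((ℓ v : ℂ) - c)‖ := by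
      simpa using norm_add_le (t - (ℓ v : ℂ)) ((ℓ v : ℂ) - c)
    have h3 : ‖((ℓ v : ℂ) - c)‖ = |ℓ v - c| := by
      rw [← Complex.ofReal_sub, Complex.norm_real, Real.norm_eq_abs]
    linarith
  rw [div_le_iff₀ hβ] at h1
  have h4 : ‖(β : ℂ) * (t - (ℓ v : ℂ))‖ ≤ ‖(bar r : ℂ) + (β : ℂ) * (t - (ℓ v : ℂ))‖ + ‖(bar r : ℂ)‖ := by
    simpa using norm_sub_le ((bar r : ℂ) + (β : ℂ) * (t - (ℓ v : ℂ))) (bar r : ℂ)
  rw [norm_mul, Complex.norm_real, Complex.norm_real, Real.norm_of_nonneg hβ.le,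
    Real.norm_of_nonneg hb] at h4
  have h5 : A ≤ ‖(bar r : ℂ) + (β : ℂ) * (t - (ℓ v : ℂ))‖ := by linarith
  have h6 := (one_le_slope (σ v)).1
  unfold hts
  rw [norm_mul, Complex.norm_real, Real.norm_of_nonneg (by linarith)]
  nlinarith

theorem Gf_bound (hr : 0 < r) (hβ : 0 < β) {K₀ : ℝ} (hK : Rows Y K₀) (u : V) {t : ℂ}
    (hz : ∀ v, σ v ≠ .del → K₀ + 1 ≤ ‖hts β σ ℓ t v‖) : ‖Gf β σ Y ℓ u t‖ ≤ 320 * β := by
  unfold Gf
  split_ifs with hu
  · simp only [norm_zero]
    positivity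
  · rw [pS_del, mul_div_assoc, norm_mul, norm_mul, Complex.norm_real, Complex.norm_real,
      Real.norm_of_nonneg hβ.le]
    have h6 := one_le_slope (σ u)
    rw [Real.norm_of_nonneg (by linarith [h6.1])]
    have hs : Sing (fam (σ u)) := by
      rcases fam_del_or_sing hr (σ u) with h | h
      · exact absurd h.1 hu
      · exact h.2.2
    have hb := ext_bound (φ := fun v => fam (σ v)) (z := hts β σ ℓ t) (u := u) sgn_sgn hK
      (fun v => fam_adm hr _) hs (fun v hv => hz v (fam_ne hr hv))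
    have h7 : slope (σ u) * β ≤ 320 * β := mul_le_mul_of_nonneg_right h6.2 hβ.le
    calc _ ≤ slope (σ u) * β * 1 :=
          mul_le_mul_of_nonneg_left hb (mul_nonneg (by linarith [h6.1]) hβ.le)
      _ ≤ _ := by linarith

theorem pS_ne' (hr : 0 < r) {K₀ : ℝ} (hK : Rows Y K₀) {t : ℂ}
    (hz : ∀ v, σ v ≠ .del → K₀ + 1 ≤ ‖hts β σ ℓ t v‖) : pS β σ Y ℓ t ≠ 0 :=
  ext_ne sgn_sgn hK (fun v => fam_adm hr _) fun v hv => by linarith [hz v (fam_ne hr hv)]

/-- if `T` is disconnected from its complement then `Gf` only depends on the states inside `T` -/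
theorem Gf_inner (T : Finset V) (h : ∀ u ∈ T, ∀ v ∉ T, Y u v = 0 ∧ Y v u = 0) {u : V} (hu : u ∈ T)
    {t : ℂ} (hne : pS β σ Y ℓ t ≠ 0) :
    Gf β σ Y ℓ u t = Gf β (fun v => if v ∈ T then σ v else .del) Y ℓ u t := by
  have inner : ∀ σ : V → Stt r,
      pp sgn Y (fun v => if v ∈ T then fam (σ v) else {∅}) (hts β σ ℓ t) =
        pS β (fun v => if v ∈ T then σ v else .del) Y ℓ t := by
    intro σ
    have e : (fun v => fam (if v ∈ T then σ v else .del)) =
        fun v => if v ∈ T then fam (σ v) else {∅} := by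
      funext v
      split_ifs <;> rfl
    unfold pS
    rw [e]
    refine pp_congr_z fun v hv => ?_
    have hvT : v ∈ T := by
      by_contra hvT
      simp [hvT] at hv
    simp [hts, hvT]
  have h1 : pS β σ Y ℓ t = pS β (fun v => if v ∈ T then σ v else .del) Y ℓ t *
      pp sgn Y (fun v => if v ∈ T then {∅} else fam (σ v)) (hts β σ ℓ t) := by
    rw [← inner]
    exact pp_split T h
  have h2 : pS β (update σ u .del) Y ℓ t =
      pS β (update (fun v => if v ∈ T then σ v else .del) u .del) Y ℓ t *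
      pp sgn Y (fun v => if v ∈ T then {∅} else fam (σ v)) (hts β σ ℓ t) := by
    have e1 : update (fun v => if v ∈ T then σ v else Stt.del) u .del =
        fun v => if v ∈ T then update σ u .del v else .del := by
      funext v
      by_cases hv : v = u
      · subst hv
        simp
      · simp [update_of_ne hv]
    have e2 : (fun v => if v ∈ T then ({∅} : Finset (Finset (Fin r × Bool))) else fam (σ v)) =
        fun v => if v ∈ T then {∅} else fam (update σ u .del v) := by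
      funext v
      by_cases hv : v = u
      · subst hv
        simp [hu]
      · simp [update_of_ne hv]
    rw [e1, ← inner, e2]
    refine (pp_split T h).trans ?_
    congr 1
    refine pp_congr_z fun v hv => ?_
    have hvu : v ≠ u := by
      rintro rfl
      simp [hu] at hv
    simp [hts, update_of_ne hvu]
  have hO : pp sgn Y (fun v => if v ∈ T then {∅} else fam (σ v)) (hts β σ ℓ t) ≠ 0 := by
    intro h0
    rw [h1, h0, mul_zero] at hne
    exact hne rfl
  unfold Gf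
  simp only [hu, if_true]
  split_ifs with hd
  · rfl
  · rw [h1, h2, ← mul_assoc, mul_div_mul_right _ _ hO]

/-- the multiplier -/
noncomputable def mu (dist : V → ℕ) (ρ : ℕ) (τ : Fin ρ → ℂ) (v w : V) : ℂ :=
  if h : min (dist v) (dist w) < ρ ∧ dist v ≠ dist w then τ ⟨min (dist v) (dist w), h.1⟩ else 1

/-- the deformed matrix -/
noncomputable def Yt (Y : Matrix V V ℂ) (dist : V → ℕ) (ρ : ℕ) (τ : Fin ρ → ℂ) : Matrix V V ℂ :=
  Matrix.of fun v w => mu dist ρ τ v w * Y v w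

theorem Yt_one (dist : V → ℕ) (ρ : ℕ) : Yt Y dist ρ (fun _ => 1) = Y := by
  ext v w
  simp [Yt, mu]

theorem Yt_rows {K₀ T : ℝ} (hK : Rows Y K₀) (hT : 1 ≤ T) (dist : V → ℕ) (ρ : ℕ) {τ : Fin ρ → ℂ}
    (hτ : ∀ j, ‖τ j‖ ≤ T) : Rows (Yt Y dist ρ τ) (K₀ * T) := by
  intro v
  have hm : ∀ w, ‖mu dist ρ τ v w‖ ≤ T := by
    intro w
    unfold mu
    split_ifs
    · exact hτ _
    · simpa using hT
  calc ∑ w, ‖Yt Y dist ρ τ v w‖ ≤ ∑ w, ‖Y v w‖ * T := by
        refine Finset.sum_le_sum fun w _ => ?_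
        simp only [Yt, Matrix.of_apply, norm_mul]
        rw [mul_comm]
        exact mul_le_mul_of_nonneg_left (hm w) (norm_nonneg _)
    _ = (∑ w, ‖Y v w‖) * T := by rw [Finset.sum_mul]
    _ ≤ K₀ * T := mul_le_mul_of_nonneg_right (hK v) (by linarith)

theorem Yt_diff (dist : V → ℕ) (ρ : ℕ) (τ : Fin ρ → ℂ) (j : Fin ρ) (v w : V) :
    Differentiable ℂ fun ζ => Yt Y dist ρ (update τ j ζ) v w := by
  simp only [Yt, Matrix.of_apply]
  refine Differentiable.mul_const ?_ _
  unfold mu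
  split_ifs with h
  · by_cases hj : (⟨min (dist v) (dist w), h.1⟩ : Fin ρ) = j
    · simp only [hj, update_self]
      exact differentiable_id
    · simp only [update_of_ne hj]
      exact differentiable_const _
  · exact differentiable_const _

theorem Yt_cut (hY : Y.IsHermitian) (dist : V → ℕ) (ρ : ℕ)
    (hlip : ∀ v w, Y v w ≠ 0 → dist v < ρ → dist w ≤ dist v + 1) {τ : Fin ρ → ℂ} {j : Fin ρ}
    (hj : τ j = 0) : ∀ v ∈ univ.filter (fun v => dist v ≤ j), ∀ w ∉ univ.filter (fun v => dist v ≤ j),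
      Yt Y dist ρ τ v w = 0 ∧ Yt Y dist ρ τ w v = 0 := by
  intro v hv w hw
  simp only [mem_filter, mem_univ, true_and, not_le] at hv hw
  by_cases h0 : Y v w = 0
  · have h1 : Y w v = 0 := by
      rw [← hY.apply w v, h0]
      simp
    simp [Yt, h0, h1]
  · have hjρ := j.2
    have h2 := hlip v w h0 (by omega)
    have h3 : dist v = j := by omega
    have e1 : mu dist ρ τ v w = 0 := by
      unfold mu
      rw [dif_pos ⟨by omega, by omega⟩, ← hj]
      congr 1
      ext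
      simp only
      omega
    have e2 : mu dist ρ τ w v = 0 := by
      unfold mu
      rw [dif_pos ⟨by omega, by omega⟩, ← hj]
      congr 1
      ext
      simp only
      omega
    simp [Yt, e1, e2]

theorem Gf_diff {Z : ℂ → Matrix V V ℂ} (hZ : ∀ v w, Differentiable ℂ fun ζ => Z ζ v w) (u : V) (t : ℂ)
    {s : Set ℂ} (hne : ∀ ζ ∈ s, pS β σ (Z ζ) ℓ t ≠ 0) :
    DifferentiableOn ℂ (fun ζ => Gf β σ (Z ζ) ℓ u t) s := by
  unfold Gf
  split_ifs
  · exact differentiableOn_const _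
  · have hp : ∀ σ : V → Stt r, Differentiable ℂ fun ζ => pS β σ (Z ζ) ℓ t := fun σ =>
      pp_differentiable (zt := fun _ => hts β σ ℓ t) hZ fun v => differentiable_const _
    exact (((hp _).const_mul _).differentiableOn).div (hp _).differentiableOn hne

theorem Gf_cont (u : V) {s : Set ℂ} (hne : ∀ t ∈ s, pS β σ Y ℓ t ≠ 0) :
    ContinuousOn (fun t => Gf β σ Y ℓ u t) s := by
  unfold Gf
  split_ifs
  · exact continuousOn_const
  · have hp : ∀ σ : V → Stt r, Continuous fun t => pS β σ Y ℓ t := fun σ =>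
      pp_continuous (Yt := fun _ => Y) (zt := fun t => hts β σ ℓ t) (fun _ _ => continuous_const)
        fun v => by unfold hts; fun_prop
    exact ((continuous_const.mul (hp _)).continuousOn).div (hp _).continuousOn hne

end LocA

open LocA in

theorem loc (hr : 0 < r) (hβ : 0 < β) (hY : Y.IsHermitian) {K₀ T Rl : ℝ} (hK : Rows Y K₀)
    (hT : 1 ≤ T) (hRl : 0 ≤ Rl) (σ σ' : V → Stt r) (u : V) (dist : V → ℕ) (h0 : dist u = 0) (ρ : ℕ)
    (hlip : ∀ v w, Y v w ≠ 0 → dist v < ρ → dist w ≤ dist v + 1)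
    (hag : ∀ v, dist v < ρ → σ v = σ' v)
    (hℓ : ∀ v, σ v ≠ .del ∨ σ' v ≠ .del → |ℓ v - ℓ u| ≤ Rl) :
    |Pu β σ Y ℓ u - Pu β σ' Y ℓ u| ≤ Real.exp (ℓ u) * err r β K₀ T Rl ρ := by
  have hK0 : 0 ≤ K₀ := (Finset.sum_nonneg fun _ _ => norm_nonneg _).trans (hK u)
  have hb := bar_nonneg r
  have hKT : K₀ ≤ K₀ * T := by nlinarith
  set Rc := (K₀ * T + 1 + bar r) / β + Rl with hRc
  have hRc0 : 0 < Rc := by
    have : 0 < (K₀ * T + 1 + bar r) / β := div_pos (by linarith) hβ
    linarith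
  have hz : ∀ t : ℂ, Rc ≤ ‖t - (ℓ u : ℂ)‖ →
      (∀ v, σ v ≠ .del → K₀ * T + 1 ≤ ‖hts β σ ℓ t v‖) ∧
      (∀ v, σ' v ≠ .del → K₀ * T + 1 ≤ ‖hts β σ' ℓ t v‖) := fun t ht =>
    ⟨fun v hv => hts_large hβ (by linarith) (hℓ v (Or.inl hv)) ht σ,
      fun v hv => hts_large hβ (by linarith) (hℓ v (Or.inr hv)) ht σ'⟩
  have hK' : Rows Y (K₀ * T) := fun v => (hK v).trans hKT
  have hroot : ∀ σ : V → Stt r, (∀ t : ℂ, Rc ≤ ‖t - (ℓ u : ℂ)‖ →
      ∀ v, σ v ≠ .del → K₀ * T + 1 ≤ ‖hts β σ ℓ t v‖) →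
      ∀ t : ℝ, pS β σ Y ℓ t = 0 → |t - ℓ u| < Rc := by
    intro σ hσ t ht
    by_contra hlt
    refine pS_ne' hr hK' (hσ t ?_) ht
    rw [← Complex.ofReal_sub, Complex.norm_real, Real.norm_eq_abs]
    exact not_lt.1 hlt
  have e1 := Pu_contour (σ := σ) (ℓ := ℓ) hr hβ hY u (ℓ u) Rc hRc0 (hroot σ fun t ht => (hz t ht).1)
  have e2 := Pu_contour (σ := σ') (ℓ := ℓ) hr hβ hY u (ℓ u) Rc hRc0
    (hroot σ' fun t ht => (hz t ht).2)
  have hsph : ∀ t ∈ Metric.sphere (ℓ u : ℂ) Rc, Rc ≤ ‖t - (ℓ u : ℂ)‖ := fun t ht =>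
    (mem_sphere_iff_norm.1 ht).ge
  have i1 : CircleIntegrable (fun t => Complex.exp t * Gf β σ Y ℓ u t) (ℓ u : ℂ) Rc :=
    ContinuousOn.circleIntegrable hRc0.le (Complex.continuous_exp.continuousOn.mul
      (Gf_cont u fun t ht => pS_ne' hr hK' (hz t (hsph t ht)).1))
  have i2 : CircleIntegrable (fun t => Complex.exp t * Gf β σ' Y ℓ u t) (ℓ u : ℂ) Rc :=
    ContinuousOn.circleIntegrable hRc0.le (Complex.continuous_exp.continuousOn.mul
      (Gf_cont u fun t ht => pS_ne' hr hK' (hz t (hsph t ht)).2))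
  have hpt : ∀ t ∈ Metric.sphere (ℓ u : ℂ) Rc,
      ‖Gf β σ Y ℓ u t - Gf β σ' Y ℓ u t‖ ≤ 640 * β / T ^ ρ := by
    intro t ht
    obtain ⟨hz1, hz2⟩ := hz t (hsph t ht)
    have key := schwarz_iter ρ
      (fun τ => Gf β σ (Yt Y dist ρ τ) ℓ u t - Gf β σ' (Yt Y dist ρ τ) ℓ u t) (C := 640 * β) hT
      ?_ ?_ ?_
    · simpa only [Yt_one] using key
    · intro τ hτ j
      have hup : ∀ ζ ∈ Metric.ball (0 : ℂ) T, ∀ i, ‖update τ j ζ i‖ ≤ T := by
        intro ζ hζ i
        by_cases hi : i = j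
        · subst hi
          rw [update_self]
          have := Metric.mem_ball.1 hζ
          rw [dist_zero_right] at this
          exact this.le
        · rw [update_of_ne hi]
          exact hτ i
      exact (Gf_diff (Yt_diff dist ρ τ j) u t fun ζ hζ =>
          pS_ne' hr (Yt_rows hK hT dist ρ (hup ζ hζ)) hz1).sub
        (Gf_diff (Yt_diff dist ρ τ j) u t fun ζ hζ =>
          pS_ne' hr (Yt_rows hK hT dist ρ (hup ζ hζ)) hz2)
    · intro τ hτ
      have b1 := Gf_bound hr hβ (Yt_rows hK hT dist ρ hτ) u hz1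
      have b2 := Gf_bound hr hβ (Yt_rows hK hT dist ρ hτ) u hz2
      exact (norm_sub_le _ _).trans (by linarith)
    · intro τ hτ j hj
      have hcut := Yt_cut hY dist ρ hlip hj
      have hu : u ∈ univ.filter (fun v => dist v ≤ j) := by simp [h0]
      have hR := Yt_rows hK hT dist ρ hτ
      rw [Gf_inner _ hcut hu (pS_ne' hr hR hz1), Gf_inner _ hcut hu (pS_ne' hr hR hz2), sub_eq_zero]
      congr 1
      funext v
      split_ifs with hv
      · refine hag v ?_
        have := (mem_filter.1 hv).2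
        have := j.2
        omega
      · rfl
  have hT0 : 0 < T ^ ρ := pow_pos (by linarith) _
  have hint := circleIntegral.norm_two_pi_i_inv_smul_integral_le_of_norm_le_const
    (f := fun t => Complex.exp t * Gf β σ Y ℓ u t - Complex.exp t * Gf β σ' Y ℓ u t)
    (c := (ℓ u : ℂ)) (R := Rc) (C := Real.exp (ℓ u) * Real.exp Rc * (640 * β / T ^ ρ)) hRc0.le ?_
  · rw [circleIntegral.integral_sub i1 i2, smul_eq_mul, mul_sub, ← e1, ← e2, ← Complex.ofReal_sub,
      Complex.norm_real, Real.norm_eq_abs] at hint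
    refine hint.trans (le_of_eq ?_)
    unfold err
    rw [← hRc]
    ring
  · intro t ht
    rw [← mul_sub, norm_mul]
    refine mul_le_mul ?_ (hpt t ht) (norm_nonneg _) (by positivity)
    rw [Complex.norm_exp, ← Real.exp_add]
    refine Real.exp_le_exp.2 ?_
    have h1 := mem_sphere_iff_norm.1 ht
    have h2 := (Complex.re_le_norm (t - (ℓ u : ℂ)))
    simp only [Complex.sub_re, Complex.ofReal_re] at h2
    linarith

end Crest.Agent.R109
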