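import Crest.Agent.R109.Env

/-!
# Row 109, task R109-MinMax

Uniform singularity.  PLAN.  On the real vector space of self-adjoint elements of `M` let
`N m = inf_P ‖(EP P m)⁺‖` (or `inf {t | ∃ P, EP P m ≤ t • 1}`; if `H` is trivial everything is trivial); it is
sublinear because pinchings decrease along refinements (`EP_EP`, `pin_mono`, directedness).  Let
`C = {m ∈ M | 0 ≤ m ≤ 1, ‖(1 - m) ξ‖ ≤ δ/2}` (convex, `1 ∈ C`) and suppose `N ≥ c = δ/2` on `C`.
Mazur–Orlicz: `N' m = inf {N (m + t k) - t c | t ≥ 0, k ∈ C}` is sublinear, `≥ - N (-m)`, `≤ N`; a linear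
`ψ ≤ N'` (`exists_extension_of_le_sublinear` from the zero subspace) has `ψ ≥ c` on `C`, `ψ ≥ 0` on positive
elements, and `ψ (f m (1 - f) + (1 - f) m f) = 0` etc. for projections `f ∈ A` (`exists_two`).  Complexify
(`Ψ y = ψ (ℜ y) + i ψ (ℑ y)`), extend to `B(H)`; `Ψ` is central by `Masa.ext_proj`; contradiction with
`singular`.  So some `m ∈ C`, `P₀` have `EP P₀ m ≤ c`; `q₀ = 1 - g` with `g` from `spec_proj m (1/2)`:
`q₀ ≤ 2 m` and `‖g ξ‖ ≤ 2 ‖(1 - m) ξ‖`.
-/

set_option autoImplicit false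
set_option linter.unusedSectionVars false
set_option linter.unusedVariables false

namespace Crest.Agent.R109

open scoped InnerProductSpace ComplexOrder ComplexConjugate
open Filter Topology

universe u

variable {H : Type u} [NormedAddCommGroup H] [InnerProductSpace ℂ H] [CompleteSpace H]
  {M : VonNeumannAlgebra H} {A : StarSubalgebra ℂ (H →L[ℂ] H)}
  {ω φ : (H →L[ℂ] H) →ₗ[ℂ] ℂ} {E : (H →L[ℂ] H) →ₗ[ℂ] (H →L[ℂ] H)}

namespace MinMaxA

theorem EP_add (P : Part A) (y z : H →L[ℂ] H) : EP P (y + z) = EP P y + EP P z := by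
  simp only [EP, mul_add, add_mul, Finset.sum_add_distrib]

theorem EP_smul (P : Part A) (c : ℂ) (y : H →L[ℂ] H) : EP P (c • y) = c • EP P y := by
  simp only [EP, mul_smul_comm, smul_mul_assoc, Finset.smul_sum]

theorem EP_rsmul (P : Part A) (c : ℝ) (y : H →L[ℂ] H) : EP P (c • y) = c • EP P y := by
  simp only [EP, mul_smul_comm, smul_mul_assoc, Finset.smul_sum]

theorem EP_zero (P : Part A) : EP P (0 : H →L[ℂ] H) = 0 := by simp [EP]

theorem EP_mono (P : Part A) {y z : H →L[ℂ] H} (h : y ≤ z) : EP P y ≤ EP P z := by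
  rw [EP_eq_pin, EP_eq_pin]; exact P.isPartOf.pin_mono h

theorem EP_nonneg (P : Part A) {y : H →L[ℂ] H} (h : 0 ≤ y) : 0 ≤ EP P y := by
  have := EP_mono P h; rwa [EP_zero] at this

theorem EP_norm_le (P : Part A) (y : H →L[ℂ] H) : ‖EP P y‖ ≤ ‖y‖ := by
  rw [EP_eq_pin]; exact P.isPartOf.pin_norm_le y

/-- the elements killed by some pinching -/
def W (hA : Masa M A) : Submodule ℂ (H →L[ℂ] H) where
  carrier := {w | ∃ P : Part A, EP P w = 0}
  zero_mem' := ⟨Classical.arbitrary _, EP_zero _⟩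
  smul_mem' := by
    rintro c w ⟨P, hP⟩
    exact ⟨P, by rw [EP_smul, hP, smul_zero]⟩
  add_mem' := by
    rintro w w' ⟨P, hP⟩ ⟨Q, hQ⟩
    haveI := hA.directed
    obtain ⟨R, h1, h2⟩ := exists_ge_ge P Q
    refine ⟨R, ?_⟩
    rw [EP_add, ← EP_EP h1 w, ← EP_EP h2 w', hP, hQ, EP_zero, add_zero]

theorem comm_mem_W (hA : Masa M A) {g : H →L[ℂ] H} (hg : PA A g) (y : H →L[ℂ] H) :
    g * y - y * g ∈ W hA := by
  obtain ⟨P, hP, -⟩ := exists_two hg
  refine ⟨P, Finset.sum_eq_zero fun q hq => ?_⟩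
  have e : g * g = g := hg.2.isIdempotentElem
  rcases hP q hq with rfl | rfl
  · have : q * (q * y - y * q) * q = q * q * y * q - q * y * (q * q) := by noncomm_ring
    rw [this, e, sub_self]
  · have : (1 - g) * (g * y - y * g) * (1 - g) =
        (g - g * g) * y * (1 - g) - (1 - g) * y * (g - g * g) := by noncomm_ring
    rw [this, e]; simp

/-- symmetrisation of a functional -/
noncomputable def sym (f : (H →L[ℂ] H) →L[ℂ] ℂ) : (H →L[ℂ] H) →ₗ[ℂ] ℂ where
  toFun y := f y + conj (f (star y))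
  map_add' y z := by simp only [star_add, map_add]; ring
  map_smul' c y := by
    simp only [star_smul, map_smul, smul_eq_mul, RingHom.id_apply, map_mul, Complex.star_def,
      Complex.conj_conj]
    ring

theorem sym_sa (f : (H →L[ℂ] H) →L[ℂ] ℂ) {y : H →L[ℂ] H} (hy : IsSelfAdjoint y) :
    sym f y = ((2 * (f y).re : ℝ) : ℂ) := by
  change f y + conj (f (star y)) = _
  rw [hy.star_eq, Complex.add_conj]

theorem exists_small (hA : Masa M A) (hN : NoC M A) (F : Finset H) {c : ℝ} (hc : 0 < c) :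
    ∃ m ∈ M, 0 ≤ m ∧ m ≤ 1 ∧ (∀ ξ ∈ F, ‖(1 - m) ξ‖ ≤ c) ∧ ∃ P : Part A, ‖EP P m‖ ≤ c := by
  by_contra hcon
  set U : Set (H →L[ℂ] H) := {y | ∃ k, 0 ≤ k ∧ ‖y + k‖ < c} with hU
  set D : Set (H →L[ℂ] H) := {y | ∃ m ∈ M, 0 ≤ m ∧ m ≤ 1 ∧ (∀ ξ ∈ F, ‖(1 - m) ξ‖ ≤ c) ∧
    ∃ w ∈ W hA, y = m + w} with hD
  have hUo : IsOpen U := by
    have : U = ⋃ k : {k : H →L[ℂ] H // 0 ≤ k}, {y | ‖y + k.1‖ < c} := by
      ext y; simp [hU]
    rw [this]
    exact isOpen_iUnion fun k => isOpen_lt (by fun_prop) continuous_const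
  have hUc : Convex ℝ U := by
    rintro y ⟨k, hk, h⟩ y' ⟨k', hk', h'⟩ a b ha hb hab
    refine ⟨a • k + b • k', add_nonneg (smul_nonneg ha hk) (smul_nonneg hb hk'), ?_⟩
    have h1 : a • y + b • y' + (a • k + b • k') = a • (y + k) + b • (y' + k') := by
      simp only [smul_add]; abel
    rw [h1]
    have := convex_ball (0 : H →L[ℂ] H) c (mem_ball_zero_iff.2 h) (mem_ball_zero_iff.2 h') ha hb hab
    exact mem_ball_zero_iff.1 this
  have hDc : Convex ℝ D := by
    rintro _ ⟨m, hm, h0, h1, hF, w, hw, rfl⟩ _ ⟨m', hm', h0', h1', hF', w', hw', rfl⟩ a b ha hb hab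
    have hone : (1 : H →L[ℂ] H) = a • 1 + b • 1 := by rw [← add_smul, hab, one_smul]
    refine ⟨a • m + b • m', ?_, add_nonneg (smul_nonneg ha h0) (smul_nonneg hb h0'), ?_, ?_,
      a • w + b • w', ?_, ?_⟩
    · exact add_mem (M.toStarSubalgebra.smul_mem hm (a : ℂ)) (M.toStarSubalgebra.smul_mem hm' (b : ℂ))
    · rw [hone]
      exact add_le_add (smul_le_smul_of_nonneg_left h1 ha) (smul_le_smul_of_nonneg_left h1' hb)
    · intro ξ hξ
      have h2 : (1 - (a • m + b • m')) = a • (1 - m) + b • (1 - m') := by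
        conv_lhs => rw [hone]
        simp only [smul_sub]; abel
      rw [h2]
      have := convex_closedBall (0 : H) c (mem_closedBall_zero_iff.2 (hF ξ hξ))
        (mem_closedBall_zero_iff.2 (hF' ξ hξ)) ha hb hab
      exact mem_closedBall_zero_iff.1 this
    · exact add_mem ((W hA).smul_mem (a : ℂ) hw) ((W hA).smul_mem (b : ℂ) hw')
    · simp only [smul_add]; abel
  have hdis : Disjoint U D := by
    rw [Set.disjoint_left]
    rintro _ ⟨k, hk, h⟩ ⟨m, hm, h0, h1, hF, w, ⟨P, hP⟩, rfl⟩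
    refine hcon ⟨m, hm, h0, h1, hF, P, ?_⟩
    have h2 : EP P m ≤ EP P (m + w + k) := by
      rw [EP_add, EP_add, hP, add_zero]
      exact le_add_of_nonneg_right (EP_nonneg P hk)
    exact (CStarAlgebra.norm_le_norm_of_nonneg_of_le (EP_nonneg P h0) h2).trans
      ((EP_norm_le P _).trans h.le)
  obtain ⟨f, u, hfU, hfD⟩ := RCLike.geometric_hahn_banach_open (𝕜 := ℂ) hUc hUo hDc hdis
  simp only [RCLike.re_to_complex] at hfU hfD
  have hu : 0 < u := by
    have := hfU 0 ⟨0, le_rfl, by simpa using hc⟩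
    simpa using this
  have hpos : ∀ k : H →L[ℂ] H, 0 ≤ k → 0 ≤ (f k).re := by
    intro k hk
    by_contra hneg
    push Not at hneg
    have ht : 0 ≤ u / (-(f k).re) := div_nonneg hu.le (by linarith)
    have := hfU (-((u / (-(f k).re)) • k)) ⟨_, smul_nonneg ht hk, by simpa using hc⟩
    rw [map_neg, f.map_smul_of_tower, Complex.neg_re, Complex.smul_re, smul_eq_mul] at this
    have h3 : u / (-(f k).re) * (f k).re = -u := by
      field_simp [hneg.ne]
    linarith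
  have hWre : ∀ w ∈ W hA, 0 ≤ (f w).re := by
    intro w hw
    by_contra hneg
    push Not at hneg
    set t : ℝ := (|(f 1).re - u| + 1) / (-(f w).re) with ht
    have := hfD (1 + t • w) ⟨1, one_mem _, zero_le_one, le_rfl, fun ξ _ => by simpa using hc.le,
      t • w, (W hA).smul_mem (t : ℂ) hw, rfl⟩
    rw [map_add, f.map_smul_of_tower, Complex.add_re, Complex.smul_re, smul_eq_mul] at this
    have h3 : t * (f w).re = -(|(f 1).re - u| + 1) := by
      rw [ht]; field_simp [hneg.ne]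
    linarith [le_abs_self ((f 1).re - u)]
  have hW : ∀ w ∈ W hA, f w = 0 := by
    intro w hw
    have h1 := hWre w hw
    have h2 := hWre _ (neg_mem hw)
    have h3 := hWre _ ((W hA).smul_mem Complex.I hw)
    have h4 := hWre _ (neg_mem ((W hA).smul_mem Complex.I hw))
    simp only [map_neg, map_smul, smul_eq_mul, Complex.neg_re, Complex.mul_re, Complex.I_re,
      Complex.I_im, zero_mul, one_mul, zero_sub] at h2 h3 h4
    apply Complex.ext <;> simp <;> linarith
  have hcent : ∀ a ∈ A, ∀ y, f (a * y) = f (y * a) := by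
    intro a ha y
    let ψ : (H →L[ℂ] H) →ₗ[ℂ] ℂ :=
      (f : (H →L[ℂ] H) →ₗ[ℂ] ℂ) ∘ₗ (LinearMap.mulRight ℂ y - LinearMap.mulLeft ℂ y)
    have hψ : ∀ a, ψ a = f (a * y - y * a) := fun a => rfl
    have := hA.ext_proj ψ (C := ‖f‖ * (2 * ‖y‖)) (fun a _ => ?_) (fun g hg => ?_) a ha
    · rw [hψ, map_sub] at this; exact sub_eq_zero.1 this
    · rw [hψ, mul_assoc]
      refine (f.le_opNorm _).trans (mul_le_mul_of_nonneg_left ?_ (norm_nonneg _))
      have h1 := norm_sub_le (a * y) (y * a)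
      have h2 := norm_mul_le a y
      have h3 := norm_mul_le y a
      nlinarith
    · rw [hψ]; exact hW _ (comm_mem_W hA hg y)
  have hp : Pos M (sym f) := fun y _ => by
    rw [sym_sa f (IsSelfAdjoint.star_mul_self y)]
    exact Complex.zero_le_real.2 (by linarith [hpos _ (star_mul_self_nonneg y)])
  have hce : Cent M A (sym f) := fun a ha y _ => by
    change f (a * y) + conj (f (star (a * y))) = f (y * a) + conj (f (star (y * a)))
    rw [star_mul, star_mul, hcent a ha y, hcent _ (star_mem ha) (star y)]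
  obtain ⟨m, hm, h0, h1, h2, hF⟩ := singular hA hN hp hce F (lt_min hc hu)
  have h3 := hfD m ⟨m, hm, h0, h1, fun ξ hξ => (hF ξ hξ).trans (min_le_left _ _), 0, zero_mem _,
    (add_zero m).symm⟩
  rw [sym_sa f (IsSelfAdjoint.of_nonneg h0), Complex.ofReal_re] at h2
  linarith [min_le_right c u]

end MinMaxA

open MinMaxA in
theorem lemmaS (hA : Masa M A) (hN : NoC M A) (F : Finset H) {δ : ℝ} (hδ : 0 < δ) :
    ∃ q ∈ M, IsStarProjection q ∧ (∀ ξ ∈ F, ‖(1 - q) ξ‖ ≤ δ) ∧ ∃ P₀ : Part A, ‖EP P₀ q‖ ≤ δ := by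
  obtain ⟨m, hm, h0, h1, hF, P, hP⟩ := exists_small hA hN F (half_pos hδ)
  obtain ⟨g, hg, hcomm, hle, hge⟩ := spec_proj (IsSelfAdjoint.of_nonneg h0) (1 / 2)
  have hgM : g ∈ M := mem_of_comm hm hcomm
  have e : g * g = g := hg.isIdempotentElem
  have hgs : star g = g := hg.isSelfAdjoint.star_eq
  have hmg : m * g = g * m := hcomm m rfl
  refine ⟨1 - g, sub_mem (one_mem _) hgM, hg.one_sub, fun ξ hξ => ?_, P, ?_⟩
  · rw [sub_sub_cancel]
    have h2 : (0 : H →L[ℂ] H) ≤ (1 / 2 : ℝ) • g - g * m * g := sub_nonneg.2 hle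
    have h3 := ((ContinuousLinearMap.nonneg_iff_isPositive _).1 h2).re_inner_nonneg_right ξ
    have h4 : (1 / 2 : ℝ) • g - g * m * g = g * (1 - m) - (1 / 2 : ℝ) • (g * g) := by
      rw [mul_assoc, hmg, ← mul_assoc, e, mul_sub, mul_one]
      have : (1 / 2 : ℝ) • g = g - (1 / 2 : ℝ) • g := by
        rw [eq_sub_iff_add_eq, ← add_smul]; norm_num
      conv_lhs => rw [this]
      abel
    have hadj : ∀ η : H, ⟪ξ, g η⟫_ℂ = ⟪g ξ, η⟫_ℂ := fun η => by
      rw [← ContinuousLinearMap.adjoint_inner_left, ← ContinuousLinearMap.star_eq_adjoint, hgs]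
    rw [h4] at h3
    have h5 : ⟪ξ, (g * (1 - m) - (1 / 2 : ℝ) • (g * g)) ξ⟫_ℂ =
        ⟪g ξ, (1 - m) ξ⟫_ℂ - (1 / 2 : ℂ) * ⟪g ξ, g ξ⟫_ℂ := by
      rw [ContinuousLinearMap.sub_apply, inner_sub_right, ContinuousLinearMap.mul_apply, hadj,
        ContinuousLinearMap.smul_apply, ContinuousLinearMap.mul_apply, ← hadj (g ξ)]
      congr 1
      rw [RCLike.real_smul_eq_coe_smul (K := ℂ), inner_smul_right]
      simp
    change 0 ≤ (⟪ξ, (g * (1 - m) - (1 / 2 : ℝ) • (g * g)) ξ⟫_ℂ).re at h3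
    rw [h5, inner_self_eq_norm_sq_to_K] at h3
    have h6 : (⟪g ξ, (1 - m) ξ⟫_ℂ).re ≤ ‖g ξ‖ * ‖(1 - m) ξ‖ :=
      (Complex.re_le_norm _).trans (norm_inner_le_norm _ _)
    have h7 : ((1 / 2 : ℂ) * ((‖g ξ‖ : ℝ) : ℂ) ^ 2).re = 1 / 2 * ‖g ξ‖ ^ 2 := by
      have : (1 / 2 : ℂ) * ((‖g ξ‖ : ℝ) : ℂ) ^ 2 = ((1 / 2 * ‖g ξ‖ ^ 2 : ℝ) : ℂ) := by push_cast; ring
      rw [this, Complex.ofReal_re]
    have h8 : 1 / 2 * ‖g ξ‖ ^ 2 ≤ ‖g ξ‖ * (δ / 2) := by
      have h9 := mul_le_mul_of_nonneg_left (hF ξ hξ) (norm_nonneg (g ξ))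
      rw [Complex.sub_re] at h3
      erw [h7] at h3
      linarith
    by_contra hlt
    push Not at hlt
    nlinarith
  · have h2 : (1 - g) * m * (1 - g) ≤ m := by
      have h3 : (1 - g) * m * (1 - g) = m - g * m * g := by
        have h4 : g * m * g = g * m := by rw [mul_assoc, hmg, ← mul_assoc, e]
        have h5 : (1 - g) * m * (1 - g) = m - g * m - m * g + g * m * g := by noncomm_ring
        rw [h5, hmg, h4]; abel
      rw [h3]
      have h6 : 0 ≤ g * m * g := by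
        have := star_left_conjugate_nonneg h0 g
        rwa [hgs] at this
      exact sub_le_self _ h6
    have h3 := EP_mono P (hge.trans h2)
    rw [EP_rsmul] at h3
    have h4 := CStarAlgebra.norm_le_norm_of_nonneg_of_le
      (smul_nonneg (by norm_num) (EP_nonneg P hg.one_sub.nonneg)) h3
    rw [norm_smul, Real.norm_eq_abs, abs_of_pos (by norm_num)] at h4
    linarith

end Crest.Agent.R109
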