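import Crest.Agent.R109.UAC

/-!
# Row 109, task R109-NECol

Random colouring and the projection criterion.  PLAN.  `colour`: for `c : P.cells → Fin r` let
`p c j = ∑_{e, c e = j} e`; `pin (p c) x - x / r - (1 - 1/r) EP P x = ∑_{e ≠ e'} (1[c e = c e'] - 1/r) e x e'`.
The coefficients `χ c e e'` are symmetric, bounded by `1`, and `av_c χ e e' χ f f' = 0` unless
`{e, e'} = {f, f'}` (average over the label of a cell occurring in one pair only).  Hence
`av ‖q (…) ξ‖² ≤ 2 ∑_{e, e'} ‖q e x e' ξ‖² ≤ 2 δ ∑_{e'} ‖x e' ξ‖² ≤ 2 δ ‖ξ‖²` (`sum_norm_sq_le`).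
`crit`: `w' = q₀ w q₀`, `g` from `spec_cut w' η` commutes with `q₀`, `q = q₀ g`,
`‖(1 - g) ξ‖ ≤ ‖w' ξ‖ / η`, `‖w' ξ‖ ≤ ‖q₀ w ξ‖ + ‖w‖ ‖(1 - q₀) ξ‖`.
-/

set_option autoImplicit false
set_option linter.unusedSectionVars false
set_option linter.unusedVariables false

namespace Crest.Agent.R109

open scoped InnerProductSpace ComplexOrder ComplexConjugate
open Filter Topology

universe u

variable {H : Type u} [NormedAddCommGroup H] [InnerProductSpace ℂ H] [CompleteSpace H]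
  {M : VonNeumannAlgebra H} {A : StarSubalgebra ℂ (H →L[ℂ] H)}
  {ω φ : (H →L[ℂ] H) →ₗ[ℂ] ℂ} {E : (H →L[ℂ] H) →ₗ[ℂ] (H →L[ℂ] H)}

namespace NEColA

theorem sum_update {ι : Type*} [Fintype ι] [DecidableEq ι] {r : ℕ} (e : ι) (g : (ι → Fin r) → ℝ) :
    ∑ c : ι → Fin r, ∑ i : Fin r, g (Function.update c e i) = r * ∑ c, g c := by
  let σ : (ι → Fin r) × Fin r ≃ (ι → Fin r) × Fin r :=
    Function.Involutive.toPerm (fun z => (Function.update z.1 e z.2, z.1 e)) (by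
      rintro ⟨c, i⟩
      simp)
  have h1 : ∑ z : (ι → Fin r) × Fin r, g (σ z).1 = ∑ z : (ι → Fin r) × Fin r, g z.1 :=
    Equiv.sum_comp σ (fun z => g z.1)
  rw [Fintype.sum_prod_type, Fintype.sum_prod_type] at h1
  have h2 : ∑ c : ι → Fin r, ∑ _i : Fin r, g c = r * ∑ c, g c := by
    simp [Finset.mul_sum]
  rw [← h2, ← h1]
  rfl

/-- the coefficients -/
noncomputable def chi {ι : Type*} [DecidableEq ι] {r : ℕ} (c : ι → Fin r) (a : ι × ι) : ℝ :=
  (if c a.1 = c a.2 then 1 else 0) - (r : ℝ)⁻¹ - (1 - (r : ℝ)⁻¹) * (if a.1 = a.2 then 1 else 0)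

theorem chi_diag {ι : Type*} [DecidableEq ι] {r : ℕ} (c : ι → Fin r) (e : ι) : chi c (e, e) = 0 := by
  simp [chi]

theorem chi_swap {ι : Type*} [DecidableEq ι] {r : ℕ} (c : ι → Fin r) (e f : ι) :
    chi c (e, f) = chi c (f, e) := by
  simp only [chi, eq_comm]

theorem chi_abs {ι : Type*} [DecidableEq ι] {r : ℕ} (hr : 0 < r) (c : ι → Fin r) (a : ι × ι) :
    |chi c a| ≤ 1 := by
  obtain ⟨e, f⟩ := a
  have h1 : (1 : ℝ) ≤ r := by exact_mod_cast hr
  have h2 : (r : ℝ)⁻¹ ≤ 1 := inv_le_one_of_one_le₀ h1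
  have h3 : (0 : ℝ) ≤ (r : ℝ)⁻¹ := by positivity
  by_cases hef : e = f
  · subst hef; rw [chi_diag]; simp
  · simp only [chi, hef, if_false, mul_zero, sub_zero]
    split_ifs <;> rw [abs_le] <;> constructor <;> linarith

theorem chi_orth_aux {ι : Type*} [Fintype ι] [DecidableEq ι] {r : ℕ} (hr : 0 < r) {e e' f f' : ι}
    (h1 : e ≠ e') (h2 : e ≠ f) (h3 : e ≠ f') :
    ∑ c : ι → Fin r, chi c (e, e') * chi c (f, f') = 0 := by
  have hr' : (r : ℝ) ≠ 0 := by exact_mod_cast hr.ne'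
  have h := sum_update e (fun c : ι → Fin r => chi c (e, e') * chi c (f, f'))
  have h0 : ∀ c : ι → Fin r, ∑ i : Fin r,
      chi (Function.update c e i) (e, e') * chi (Function.update c e i) (f, f') = 0 := by
    intro c
    have e1 : ∀ i, chi (Function.update c e i) (f, f') = chi c (f, f') := fun i => by
      simp only [chi, Function.update_of_ne h2.symm, Function.update_of_ne h3.symm]
    have e2 : ∀ i, chi (Function.update c e i) (e, e')
        = (if i = c e' then 1 else 0) - (r : ℝ)⁻¹ := fun i => by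
      simp only [chi, Function.update_self, Function.update_of_ne h1.symm, h1, if_false, mul_zero,
        sub_zero]
    simp only [e1, e2]
    rw [← Finset.sum_mul, Finset.sum_sub_distrib]
    simp [hr']
  rw [Finset.sum_eq_zero fun c _ => h0 c] at h
  exact (mul_eq_zero.mp h.symm).resolve_left hr'

theorem chi_orth {ι : Type*} [Fintype ι] [DecidableEq ι] {r : ℕ} (hr : 0 < r) {a b : ι × ι}
    (h1 : b ≠ a) (h2 : b ≠ a.swap) : ∑ c : ι → Fin r, chi c a * chi c b = 0 := by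
  obtain ⟨e, e'⟩ := a
  obtain ⟨f, f'⟩ := b
  by_cases hee : e = e'
  · subst hee; simp [chi_diag]
  by_cases hef : e = f
  · subst hef
    have h3 : e' ≠ f' := fun h => h1 (by rw [h])
    simp only [chi_swap _ e e']
    exact chi_orth_aux hr (Ne.symm hee) (Ne.symm hee) h3
  by_cases hef' : e = f'
  · subst hef'
    have h3 : e' ≠ f := fun h => h2 (by rw [h]; rfl)
    simp only [chi_swap _ e e']
    exact chi_orth_aux hr (Ne.symm hee) h3 (Ne.symm hee)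
  exact chi_orth_aux hr hee hef hef'

theorem sum_sq {ι : Type*} [Fintype ι] [DecidableEq ι] {r : ℕ} (hr : 0 < r) (v : ι × ι → H) :
    ∑ c : ι → Fin r, ‖∑ a, chi c a • v a‖ ^ 2
      ≤ (Fintype.card (ι → Fin r) : ℝ) * (2 * ∑ a, ‖v a‖ ^ 2) := by
  set N : ℝ := (Fintype.card (ι → Fin r) : ℝ) with hN
  have hN0 : 0 ≤ N := Nat.cast_nonneg _
  have e1 : ∀ c : ι → Fin r, ‖∑ a, chi c a • v a‖ ^ 2
      = ∑ a, ∑ b, chi c a * chi c b * (⟪v a, v b⟫_ℂ).re := by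
    intro c
    rw [← inner_self_eq_norm_sq (𝕜 := ℂ), sum_inner]
    simp only [inner_sum, map_sum]
    refine Finset.sum_congr rfl fun a _ => Finset.sum_congr rfl fun b _ => ?_
    rw [← Complex.coe_smul, ← Complex.coe_smul, inner_smul_left, inner_smul_right]
    simp [mul_assoc]
  simp only [e1]
  rw [Finset.sum_comm]
  have e2 : ∀ a : ι × ι, ∑ c : ι → Fin r, ∑ b, chi c a * chi c b * (⟪v a, v b⟫_ℂ).re
      ≤ N * (‖v a‖ ^ 2 + (‖v a‖ ^ 2 + ‖v a.swap‖ ^ 2) / 2) := by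
    intro a
    rw [Finset.sum_comm]
    have e3 : ∀ b : ι × ι, ∑ c : ι → Fin r, chi c a * chi c b * (⟪v a, v b⟫_ℂ).re
        ≤ (if b = a then N * ((‖v a‖ ^ 2 + ‖v b‖ ^ 2) / 2) else 0)
          + (if b = a.swap then N * ((‖v a‖ ^ 2 + ‖v b‖ ^ 2) / 2) else 0) := by
      intro b
      have hb : ∑ c : ι → Fin r, chi c a * chi c b * (⟪v a, v b⟫_ℂ).re
          ≤ N * ((‖v a‖ ^ 2 + ‖v b‖ ^ 2) / 2) := by
        rw [hN, ← nsmul_eq_mul, ← Finset.card_univ]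
        refine Finset.sum_le_card_nsmul _ _ _ fun c _ => ?_
        refine (le_abs_self _).trans ?_
        rw [abs_mul, abs_mul]
        have i1 := chi_abs hr c a
        have i2 := chi_abs hr c b
        have i3 : |(⟪v a, v b⟫_ℂ).re| ≤ ‖v a‖ * ‖v b‖ :=
          (Complex.abs_re_le_norm _).trans (norm_inner_le_norm _ _)
        have i4 : |chi c a| * |chi c b| ≤ 1 := mul_le_one₀ i1 (abs_nonneg _) i2
        have i5 : |chi c a| * |chi c b| * |(⟪v a, v b⟫_ℂ).re| ≤ 1 * (‖v a‖ * ‖v b‖) :=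
          mul_le_mul i4 i3 (abs_nonneg _) zero_le_one
        nlinarith [sq_nonneg (‖v a‖ - ‖v b‖)]
      have hp : 0 ≤ N * ((‖v a‖ ^ 2 + ‖v b‖ ^ 2) / 2) := by positivity
      by_cases h1 : b = a
      · rw [if_pos h1]
        split_ifs <;> linarith
      · by_cases h2 : b = a.swap
        · rw [if_neg h1, if_pos h2]; linarith
        · rw [if_neg h1, if_neg h2, ← Finset.sum_mul, chi_orth hr h1 h2]; simp
    refine (Finset.sum_le_sum fun b _ => e3 b).trans (le_of_eq ?_)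
    rw [Finset.sum_add_distrib, Finset.sum_ite_eq' Finset.univ a, Finset.sum_ite_eq' Finset.univ a.swap]
    simp only [Finset.mem_univ, if_true]
    ring
  refine (Finset.sum_le_sum fun a _ => e2 a).trans (le_of_eq ?_)
  rw [← Finset.mul_sum, Finset.sum_add_distrib, ← Finset.sum_div, Finset.sum_add_distrib]
  have e4 : ∑ a : ι × ι, ‖v a.swap‖ ^ 2 = ∑ a, ‖v a‖ ^ 2 :=
    Equiv.sum_comp (Equiv.prodComm ι ι) (fun a => ‖v a‖ ^ 2)
  rw [e4]
  ring

/-- merged partition -/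
noncomputable def mrg {ι : Type*} [Fintype ι] {r : ℕ} (g : ι → H →L[ℂ] H) (c : ι → Fin r)
    (j : Fin r) : H →L[ℂ] H := ∑ e ∈ Finset.univ.filter (fun e => c e = j), g e

theorem mrg_part {ι : Type*} [Fintype ι] {r : ℕ} {g : ι → H →L[ℂ] H} (hg : IsPartOf A 1 g)
    (c : ι → Fin r) : IsPartOf A 1 (mrg g c) := by
  refine ⟨fun j => PA.sum _ (fun e _ => hg.pa e) fun e _ f _ hef => hg.orth e f hef,
    fun i j hij => ?_, ?_⟩
  · unfold mrg
    rw [Finset.sum_mul_sum]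
    refine Finset.sum_eq_zero fun e he => Finset.sum_eq_zero fun f hf => hg.orth e f ?_
    rintro rfl
    exact hij ((Finset.mem_filter.mp he).2.symm.trans (Finset.mem_filter.mp hf).2)
  · unfold mrg
    rw [Finset.sum_fiberwise Finset.univ c g, hg.sum]

theorem pin_mrg {ι : Type*} [Fintype ι] {r : ℕ} (g : ι → H →L[ℂ] H) (c : ι → Fin r)
    (x : H →L[ℂ] H) :
    pin (mrg g c) x = ∑ a : ι × ι, (if c a.1 = c a.2 then (1 : ℝ) else 0) • (g a.1 * x * g a.2) := by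
  unfold pin mrg
  rw [Fintype.sum_prod_type, ← Finset.sum_fiberwise Finset.univ c]
  refine Finset.sum_congr rfl fun j _ => ?_
  rw [Finset.sum_mul, Finset.sum_mul]
  refine Finset.sum_congr rfl fun e he => ?_
  rw [Finset.mul_sum, Finset.sum_filter]
  refine Finset.sum_congr rfl fun f _ => ?_
  rw [(Finset.mem_filter.mp he).2]
  by_cases h : c f = j
  · simp [h]
  · simp [h, Ne.symm h]

theorem decomp {ι : Type*} [Fintype ι] [DecidableEq ι] {r : ℕ} {g : ι → H →L[ℂ] H}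
    (hg : IsPartOf A 1 g) (c : ι → Fin r) (x : H →L[ℂ] H) :
    pin (mrg g c) x - (r : ℝ)⁻¹ • x - (1 - (r : ℝ)⁻¹) • pin g x
      = ∑ a : ι × ι, chi c a • (g a.1 * x * g a.2) := by
  have e1 : x = ∑ a : ι × ι, g a.1 * x * g a.2 := by
    rw [Fintype.sum_prod_type]
    simp only [← Finset.mul_sum, ← Finset.sum_mul, hg.sum, mul_one, one_mul]
  have e2 : pin g x = ∑ a : ι × ι, (if a.1 = a.2 then (1 : ℝ) else 0) • (g a.1 * x * g a.2) := by
    rw [Fintype.sum_prod_type]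
    unfold pin
    refine Finset.sum_congr rfl fun e _ => ?_
    simp
  rw [pin_mrg, e2]
  conv_lhs => rw [show (r : ℝ)⁻¹ • x = (r : ℝ)⁻¹ • ∑ a : ι × ι, g a.1 * x * g a.2 by rw [← e1]]
  rw [Finset.smul_sum, Finset.smul_sum, ← Finset.sum_sub_distrib, ← Finset.sum_sub_distrib]
  refine Finset.sum_congr rfl fun a _ => ?_
  rw [chi, smul_smul, ← sub_smul, ← sub_smul]

theorem norm_sq_eq (a : H →L[ℂ] H) (ξ : H) : ‖a ξ‖ ^ 2 = (⟪ξ, (star a * a) ξ⟫_ℂ).re := by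
  rw [ContinuousLinearMap.mul_apply, ContinuousLinearMap.star_eq_adjoint,
    ContinuousLinearMap.adjoint_inner_right]
  exact (inner_self_eq_norm_sq (𝕜 := ℂ) (a ξ)).symm

theorem re_inner_mono {a b : H →L[ℂ] H} (h : a ≤ b) (ξ : H) :
    (⟪ξ, a ξ⟫_ℂ).re ≤ (⟪ξ, b ξ⟫_ℂ).re := by
  have h1 := ((ContinuousLinearMap.le_def a b).mp h).re_inner_nonneg_right ξ
  rw [ContinuousLinearMap.sub_apply, inner_sub_right, map_sub] at h1
  exact sub_nonneg.mp h1

theorem proj_apply_le {q : H →L[ℂ] H} (hq : IsStarProjection q) (ξ : H) : ‖q ξ‖ ≤ ‖ξ‖ :=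
  (q.le_opNorm ξ).trans (mul_le_of_le_one_left (norm_nonneg _) hq.norm_le)

end NEColA

open NEColA in
theorem colour (hA : Masa M A) {x q : H →L[ℂ] H} (hn : ‖x‖ ≤ 1) (hq : IsStarProjection q)
    (P : Part A) {δ : ℝ} (hP : ‖EP P q‖ ≤ δ) (F : Finset H) {r : ℕ} (hr : 0 < r) :
    ∃ p : Fin r → H →L[ℂ] H, IsPartOf A 1 p ∧
      ∑ ξ ∈ F, ‖q ((pin p x - (r : ℝ)⁻¹ • x - (1 - (r : ℝ)⁻¹) • EP P x) ξ)‖ ^ 2 ≤
        2 * δ * ∑ ξ ∈ F, ‖ξ‖ ^ 2 := by
  classical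
  have hg := P.isPartOf
  set g : P.cells → H →L[ℂ] H := fun p => (p : H →L[ℂ] H) with hgdef
  have hδ : 0 ≤ δ := (norm_nonneg _).trans hP
  haveI : Nonempty (Fin r) := ⟨⟨0, hr⟩⟩
  have hq2 : star q * q = q := by rw [hq.isSelfAdjoint.star_eq, hq.isIdempotentElem.eq]
  have hv : ∀ ξ : H, ∑ a : P.cells × P.cells, ‖q (g a.1 (x (g a.2 ξ)))‖ ^ 2 ≤ δ * ‖ξ‖ ^ 2 := by
    intro ξ
    rw [Fintype.sum_prod_type_right]
    have h1 : ∀ f : P.cells, ∑ e : P.cells, ‖q (g e (x (g f ξ)))‖ ^ 2 ≤ δ * ‖x (g f ξ)‖ ^ 2 := by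
      intro f
      refine (hg.sum_norm_sq_le q _).trans (mul_le_mul_of_nonneg_right ?_ (sq_nonneg _))
      rw [hq2, ← EP_eq_pin]
      exact hP
    refine (Finset.sum_le_sum fun f _ => h1 f).trans ?_
    rw [← Finset.mul_sum]
    refine mul_le_mul_of_nonneg_left ((hg.sum_norm_sq_le x ξ).trans ?_) hδ
    refine mul_le_of_le_one_left (sq_nonneg _) ((hg.pin_norm_le _).trans ?_)
    refine (norm_mul_le _ _).trans ?_
    rw [norm_star]
    exact mul_le_one₀ hn (norm_nonneg _) hn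
  have key : ∑ c : P.cells → Fin r, ∑ ξ ∈ F,
      ‖q ((pin (mrg g c) x - (r : ℝ)⁻¹ • x - (1 - (r : ℝ)⁻¹) • EP P x) ξ)‖ ^ 2
      ≤ ∑ _c : P.cells → Fin r, 2 * δ * ∑ ξ ∈ F, ‖ξ‖ ^ 2 := by
    rw [Finset.sum_comm, Finset.sum_const, Finset.card_univ, nsmul_eq_mul, Finset.mul_sum,
      Finset.mul_sum]
    refine Finset.sum_le_sum fun ξ _ => ?_
    have e1 : ∀ c : P.cells → Fin r,
        q ((pin (mrg g c) x - (r : ℝ)⁻¹ • x - (1 - (r : ℝ)⁻¹) • EP P x) ξ)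
          = ∑ a : P.cells × P.cells, chi c a • q (g a.1 (x (g a.2 ξ))) := by
      intro c
      rw [EP_eq_pin, decomp hg c x, ContinuousLinearMap.sum_apply, map_sum]
      refine Finset.sum_congr rfl fun a _ => ?_
      rw [ContinuousLinearMap.smul_apply, ContinuousLinearMap.map_smul_of_tower]
      rfl
    simp only [e1]
    refine (sum_sq hr _).trans (mul_le_mul_of_nonneg_left ?_ (Nat.cast_nonneg _))
    have := hv ξ
    linarith
  obtain ⟨c, -, hc⟩ := Finset.exists_le_of_sum_le Finset.univ_nonempty key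
  exact ⟨mrg g c, mrg_part hg c, hc⟩

open NEColA in
theorem crit {w q₀ : H →L[ℂ] H} (hw : w ∈ M) (hs : IsSelfAdjoint w) (hq : q₀ ∈ M)
    (hp : IsStarProjection q₀) {η : ℝ} (hη : 0 < η) :
    ∃ q ∈ M, IsStarProjection q ∧ ‖q * w * q‖ ≤ η ∧
      ∀ ξ, ‖(1 - q) ξ‖ ≤ ‖(1 - q₀) ξ‖ + (‖q₀ (w ξ)‖ + ‖w‖ * ‖(1 - q₀) ξ‖) / η := by
  have hqq : q₀ * q₀ = q₀ := hp.isIdempotentElem.eq
  have hs' : IsSelfAdjoint (q₀ * w * q₀) := by
    have := hs.conjugate q₀
    rwa [hp.isSelfAdjoint.star_eq] at this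
  have hw' : q₀ * w * q₀ ∈ M := mul_mem (mul_mem hq hw) hq
  obtain ⟨g, hg, hc, hn, hl⟩ := spec_cut hs' hη
  have hgM : g ∈ M := mem_of_comm hw' hc
  have hcq : q₀ * g = g * q₀ := hc q₀ (by
    rw [← mul_assoc, ← mul_assoc, hqq, mul_assoc (q₀ * w), hqq])
  refine ⟨q₀ * g, mul_mem hq hgM, hp.mul hg hcq, ?_, fun ξ => ?_⟩
  · have e : q₀ * g * w * (q₀ * g) = g * (q₀ * w * q₀ * g) := by
      rw [hcq]; simp only [mul_assoc]; rw [hcq]
    rw [e]
    exact (norm_mul_le _ _).trans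
      ((mul_le_of_le_one_left (norm_nonneg _) hg.norm_le).trans hn)
  · have e1 : (1 - q₀ * g) ξ = (1 - q₀) ξ + q₀ ((1 - g) ξ) := by
      simp
    have h1 : ‖q₀ ((1 - g) ξ)‖ ≤ ‖(1 - g) ξ‖ := proj_apply_le hp _
    have h2 : η ^ 2 * ‖(1 - g) ξ‖ ^ 2 ≤ ‖(q₀ * w * q₀) ξ‖ ^ 2 := by
      have h3 := re_inner_mono (hl 0) ξ
      have h4 : star (1 - g) * (1 - g) = 1 - g := by
        rw [hg.one_sub.isSelfAdjoint.star_eq, hg.one_sub.isIdempotentElem.eq]
      rw [norm_sq_eq, norm_sq_eq, h4]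
      rw [ContinuousLinearMap.smul_apply, ← Complex.coe_smul, inner_smul_right,
        Complex.re_ofReal_mul, zero_add, pow_one] at h3
      exact h3
    have h5 : η * ‖(1 - g) ξ‖ ≤ ‖(q₀ * w * q₀) ξ‖ := by
      rw [← mul_pow] at h2
      exact (pow_le_pow_iff_left₀ (by positivity) (norm_nonneg _) two_ne_zero).mp h2
    have h6 : ‖(q₀ * w * q₀) ξ‖ ≤ ‖q₀ (w ξ)‖ + ‖w‖ * ‖(1 - q₀) ξ‖ := by
      have e2 : (q₀ * w * q₀) ξ = q₀ (w ξ) - q₀ (w ((1 - q₀) ξ)) := by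
        simp
      rw [e2]
      exact (norm_sub_le _ _).trans
        (add_le_add le_rfl ((proj_apply_le hp _).trans (w.le_opNorm _)))
    have h7 : ‖(1 - g) ξ‖ ≤ (‖q₀ (w ξ)‖ + ‖w‖ * ‖(1 - q₀) ξ‖) / η := by
      rw [le_div_iff₀ hη]; linarith
    rw [e1]
    exact (norm_add_le _ _).trans (add_le_add le_rfl (h1.trans h7))

end Crest.Agent.R109
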