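import Crest.Agent.R109.UAC

/-!
# Row 109, task R109-NEGlue

Random gluing.  PLAN.  `exists_diag`: weak limit of `EP P x` along `Ultrafilter.of atTop` (as in `CE`).
`glue`: put `z P = EP P x - a`, `‖z P‖ ≤ 2`.  Choose `P 1, …, P K ≥ P₀` successively with
`|⟪z (P j) ξ, z (P k) ξ⟫| ≤ η'` for `j < k`, `ξ ∈ F` (use `G ⊇ F ∪ {z (P j) ξ}`), so
`‖av_k z (P k) ξ‖² ≤ 4 ‖ξ‖² / K + η'`.  For `κ : P₀.cells → Fin K` glue: cells `ρ * p`, `p ∈ P (κ ρ)`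
(`exists_part_of` on a sigma type); `z (glued κ) = ∑ ρ * z (P (κ ρ))`.  With `zbar = av_k z (P k)`,
`av_κ ‖q ∑ ρ (z (κ ρ) - zbar) ξ‖² = ∑_ρ av_k ‖q ρ (z k - zbar) ξ‖² ≤ 16 δ ‖ξ‖²` (independent centred
terms; `sum_norm_sq_le`).  Sum over `F` and pick a good `κ`.
-/

set_option autoImplicit false
set_option linter.unusedSectionVars false
set_option linter.unusedVariables false

namespace Crest.Agent.R109

open scoped InnerProductSpace ComplexOrder ComplexConjugate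
open Filter Topology

universe u

variable {H : Type u} [NormedAddCommGroup H] [InnerProductSpace ℂ H] [CompleteSpace H]
  {M : VonNeumannAlgebra H} {A : StarSubalgebra ℂ (H →L[ℂ] H)}
  {ω φ : (H →L[ℂ] H) →ₗ[ℂ] ℂ} {E : (H →L[ℂ] H) →ₗ[ℂ] (H →L[ℂ] H)}

namespace NEGlueA

theorem pa_idem {p : H →L[ℂ] H} (hp : PA A p) : p * p = p := hp.2.isIdempotentElem

theorem EP_norm_le (P : Part A) (y : H →L[ℂ] H) : ‖EP P y‖ ≤ ‖y‖ := by
  rw [EP_eq_pin]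
  exact P.isPartOf.pin_norm_le y

theorem EP_mem (hA : Masa M A) (P : Part A) {y : H →L[ℂ] H} (hy : y ∈ M) : EP P y ∈ M := by
  rw [EP_eq_pin]
  exact P.isPartOf.pin_mem hA hy

theorem EP_star (P : Part A) (y : H →L[ℂ] H) : star (EP P y) = EP P (star y) := by
  rw [EP_eq_pin, EP_eq_pin]
  exact P.isPartOf.pin_star y

theorem EP_comm (hA : Masa M A) {f : H →L[ℂ] H} (hf : PA A f) (P : Part A)
    (h : ∀ q ∈ P.cells, f * q = q ∨ f * q = 0) (y : H →L[ℂ] H) : f * EP P y = EP P y * f := by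
  unfold EP
  rw [Finset.mul_sum, Finset.sum_mul]
  refine Finset.sum_congr rfl (fun q hq => ?_)
  have e1 : f * (q * y * q) = (f * q) * y * q := by noncomm_ring
  have e2 : q * y * q * f = q * y * (f * q) := by
    rw [hA.comm f hf.1 q (P.pa q hq).1]; noncomm_ring
  rw [e1, e2]
  rcases h q hq with h1 | h1 <;> rw [h1]
  simp

theorem EP_eq_of {ι : Type*} [Fintype ι] {p : ι → H →L[ℂ] H} (hp : IsPartOf A 1 p) (P : Part A)
    (h1 : ∀ q ∈ P.cells, ∃ i, p i = q) (h2 : ∀ i, p i ≠ 0 → p i ∈ P.cells) (y : H →L[ℂ] H) :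
    EP P y = pin p y := by
  unfold EP pin
  symm
  refine Finset.sum_bij_ne_zero (fun i _ _ => p i) (fun i _ hi => h2 i (fun h0 => hi ?_))
    (fun i _ hi j _ hj e => ?_) (fun q hq hq' => ?_) (fun i _ _ => rfl)
  · rw [h0, mul_zero]
  · by_contra hne
    have := hp.orth i j hne
    rw [← e, pa_idem (hp.pa i)] at this
    exact hi (by rw [this, mul_zero])
  · obtain ⟨i, rfl⟩ := h1 q hq
    exact ⟨i, Finset.mem_univ i, hq', rfl⟩

/-- gluing partitions over the cells of `P₀` -/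
theorem exists_glued (hA : Masa M A) (P₀ : Part A) (c : (H →L[ℂ] H) → Part A) :
    ∃ P, P₀ ≤ P ∧ ∀ y, EP P y = ∑ ρ ∈ P₀.cells, ρ * EP (c ρ) y * ρ := by
  let p : (Σ ρ : P₀.cells, (c ρ).cells) → H →L[ℂ] H := fun i => (i.1 : H →L[ℂ] H) * (i.2 : H →L[ℂ] H)
  have hp : IsPartOf A 1 p := by
    refine ⟨fun i => (P₀.pa _ i.1.2).mul hA ((c i.1).pa _ i.2.2), ?_, ?_⟩
    · rintro ⟨ρ, r⟩ ⟨ρ', r'⟩ hne
      have e : (ρ : H →L[ℂ] H) * r * ((ρ' : H →L[ℂ] H) * r') = (ρ * ρ') * (r * r') := by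
        calc (ρ : H →L[ℂ] H) * r * ((ρ' : H →L[ℂ] H) * r') = ρ * (r * ρ') * r' := by noncomm_ring
          _ = ρ * (ρ' * r) * r' := by rw [hA.comm _ ((c ρ).pa _ r.2).1 _ (P₀.pa _ ρ'.2).1]
          _ = _ := by noncomm_ring
      show (ρ : H →L[ℂ] H) * r * ((ρ' : H →L[ℂ] H) * r') = 0
      rw [e]
      by_cases h : ρ = ρ'
      · subst h
        have hr : (r : H →L[ℂ] H) ≠ r' := fun h => hne (by rw [Subtype.ext h])
        rw [(c ρ).orth _ r.2 _ r'.2 hr, mul_zero]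
      · rw [P₀.orth _ ρ.2 _ ρ'.2 (fun h' => h (Subtype.ext h')), zero_mul]
    · rw [Fintype.sum_sigma]
      have : ∀ ρ : P₀.cells, ∑ r : (c ρ).cells, p ⟨ρ, r⟩ = (ρ : H →L[ℂ] H) := by
        intro ρ
        show ∑ r : (c ρ).cells, (ρ : H →L[ℂ] H) * (r : H →L[ℂ] H) = _
        rw [← Finset.mul_sum, (c ρ).isPartOf.sum, mul_one]
      rw [Finset.sum_congr rfl (fun ρ _ => this ρ)]
      exact P₀.isPartOf.sum
  obtain ⟨P, h1, h2⟩ := exists_part_of hp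
  refine ⟨P, fun q hq => ?_, fun y => ?_⟩
  · obtain ⟨i, rfl⟩ := h1 q hq
    refine ⟨i.1, i.1.2, ?_⟩
    show (i.1 : H →L[ℂ] H) * ((i.1 : H →L[ℂ] H) * (i.2 : H →L[ℂ] H)) = _
    rw [← mul_assoc, pa_idem (P₀.pa _ i.1.2)]
  · rw [EP_eq_of hp P h1 h2, pin, Fintype.sum_sigma,
      ← Finset.sum_coe_sort P₀.cells (fun ρ => ρ * EP (c ρ) y * ρ)]
    refine Finset.sum_congr rfl (fun ρ _ => ?_)
    rw [EP_eq_pin, pin, Finset.mul_sum, Finset.sum_mul]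
    refine Finset.sum_congr rfl (fun r _ => ?_)
    show (ρ : H →L[ℂ] H) * r * y * ((ρ : H →L[ℂ] H) * r) = _
    calc (ρ : H →L[ℂ] H) * r * y * ((ρ : H →L[ℂ] H) * r) = ρ * r * y * ((r : H →L[ℂ] H) * ρ) := by
          rw [← hA.comm _ (P₀.pa _ ρ.2).1 _ ((c ρ).pa _ r.2).1]
      _ = _ := by noncomm_ring

theorem norm_q_cell {q : H →L[ℂ] H} (hq : IsStarProjection q) (P₀ : Part A) {δ : ℝ}
    (hP : ‖EP P₀ q‖ ≤ δ) {ρ : H →L[ℂ] H} (hρ : ρ ∈ P₀.cells) : ‖q * ρ‖ ^ 2 ≤ δ := by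
  have h1 := P₀.isPartOf.mul_pin q ⟨ρ, hρ⟩
  rw [← EP_eq_pin] at h1
  have hp := P₀.pa ρ hρ
  have e : star (q * ρ) * (q * ρ) = ρ * EP P₀ q := by
    rw [star_mul, hq.isSelfAdjoint.star_eq, hp.2.isSelfAdjoint.star_eq]
    calc ρ * q * (q * ρ) = ρ * (q * q) * ρ := by noncomm_ring
      _ = ρ * q * ρ := by rw [hq.isIdempotentElem]
      _ = _ := h1.symm
  rw [sq, ← CStarRing.norm_star_mul_self, e]
  refine (norm_mul_le _ _).trans ?_
  have := mul_le_mul hp.norm_le hP (norm_nonneg _) zero_le_one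
  rwa [one_mul] at this

theorem greedy {x a q : H →L[ℂ] H} (hn : ‖x‖ ≤ 1) (ha : ‖a‖ ≤ 1)
    (hlim : ∀ (G : Finset H) (η : ℝ), 0 < η → ∀ P₀ : Part A, ∃ P, P₀ ≤ P ∧
        ∀ g ∈ G, ∀ g' ∈ G, ‖⟪g, (EP P x - a) g'⟫_ℂ‖ ≤ η)
    (P₀ : Part A) {δ : ℝ} (F : Finset H) {ε : ℝ} (hε : 0 < ε) (s : Finset (H →L[ℂ] H)) :
    (∀ ρ ∈ s, ‖q * ρ‖ ^ 2 ≤ δ) → ∃ c : (H →L[ℂ] H) → Part A,
      ∑ ξ ∈ F, ‖∑ ρ ∈ s, (q * ρ) ((EP (c ρ) x - a) (ρ ξ))‖ ^ 2
        ≤ ∑ ξ ∈ F, ∑ ρ ∈ s, 4 * δ * ‖ρ ξ‖ ^ 2 + s.card * ε := by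
  classical
  induction s using Finset.induction_on with
  | empty => intro _; exact ⟨fun _ => P₀, by simp⟩
  | insert ρ s hρ ih =>
    intro hs
    obtain ⟨c, hc⟩ := ih (fun r hr => hs r (Finset.mem_insert_of_mem hr))
    set w : H → H := fun ξ => ∑ r ∈ s, (q * r) ((EP (c r) x - a) (r ξ)) with hw
    have hη : 0 < ε / (2 * (F.card + 1)) := by positivity
    obtain ⟨P, -, hP⟩ := hlim (F.image (fun ξ => ρ ξ) ∪ F.image (fun ξ => star (q * ρ) (w ξ)))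
      _ hη P₀
    refine ⟨Function.update c ρ P, ?_⟩
    have key : ∀ ξ ∈ F,
        ‖∑ r ∈ insert ρ s, (q * r) ((EP (Function.update c ρ P r) x - a) (r ξ))‖ ^ 2
          ≤ ‖w ξ‖ ^ 2 + 4 * δ * ‖ρ ξ‖ ^ 2 + ε / (F.card + 1) := by
      intro ξ hξ
      have e1 : ∑ r ∈ s, (q * r) ((EP (Function.update c ρ P r) x - a) (r ξ)) = w ξ :=
        Finset.sum_congr rfl (fun r hr => by
          rw [Function.update_of_ne (fun h : r = ρ => hρ (h ▸ hr))])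
      rw [Finset.sum_insert hρ, Function.update_self, e1, add_comm, @norm_add_sq ℂ]
      have b1 : RCLike.re ⟪w ξ, (q * ρ) ((EP P x - a) (ρ ξ))⟫_ℂ ≤ ε / (2 * (F.card + 1)) := by
        refine (RCLike.re_le_norm _).trans ?_
        rw [← ContinuousLinearMap.adjoint_inner_left, ← ContinuousLinearMap.star_eq_adjoint]
        exact hP _ (Finset.mem_union_right _ (Finset.mem_image_of_mem _ hξ)) _
          (Finset.mem_union_left _ (Finset.mem_image_of_mem _ hξ))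
      have b2 : ‖(q * ρ) ((EP P x - a) (ρ ξ))‖ ^ 2 ≤ 4 * δ * ‖ρ ξ‖ ^ 2 := by
        have n1 : ‖EP P x - a‖ ≤ 2 := by
          have := norm_sub_le (EP P x) a
          have := EP_norm_le P x
          linarith
        have n2 : ‖(EP P x - a) (ρ ξ)‖ ≤ 2 * ‖ρ ξ‖ := (EP P x - a).le_of_opNorm_le n1 _
        have n3 : ‖(q * ρ) ((EP P x - a) (ρ ξ))‖ ≤ ‖q * ρ‖ * (2 * ‖ρ ξ‖) :=
          ((q * ρ).le_opNorm _).trans (mul_le_mul_of_nonneg_left n2 (norm_nonneg _))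
        have n4 := pow_le_pow_left₀ (norm_nonneg _) n3 2
        have n5 := mul_le_mul_of_nonneg_right (hs ρ (Finset.mem_insert_self _ _))
          (sq_nonneg (2 * ‖ρ ξ‖))
        rw [mul_pow] at n4
        nlinarith
      have e2 : ε / (F.card + 1) = 2 * (ε / (2 * (F.card + 1))) := by field_simp
      rw [e2]
      linarith
    refine (Finset.sum_le_sum key).trans ?_
    rw [Finset.sum_add_distrib, Finset.sum_add_distrib, Finset.sum_const, nsmul_eq_mul,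
      Finset.card_insert_of_notMem hρ]
    simp only [Finset.sum_insert hρ, Finset.sum_add_distrib]
    have b3 : (F.card : ℝ) * (ε / (F.card + 1)) ≤ ε := by
      rw [← mul_div_assoc, div_le_iff₀ (by positivity)]
      nlinarith
    push_cast
    linarith

end NEGlueA

open NEGlueA in
theorem exists_diag (hA : Masa M A) {x : H →L[ℂ] H} (hxM : x ∈ M) (hx : IsSelfAdjoint x)
    (hn : ‖x‖ ≤ 1) : ∃ a ∈ A, IsSelfAdjoint a ∧ ‖a‖ ≤ 1 ∧
      ∀ (G : Finset H) (η : ℝ), 0 < η → ∀ P₀ : Part A, ∃ P, P₀ ≤ P ∧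
        ∀ g ∈ G, ∀ g' ∈ G, ‖⟪g, (EP P x - a) g'⟫_ℂ‖ ≤ η := by
  have := hA.neBot
  obtain ⟨a, ha, hl⟩ := exists_wlim (Ultrafilter.of (atTop : Filter (Part A))) (fun P => EP P x)
    (fun P => (EP_norm_le P x).trans hn)
  have haM : a ∈ M := hl.mem (Eventually.of_forall (fun P => EP_mem hA P hxM))
  have haA : a ∈ A := by
    refine hA.max a haM (hA.comm_of_proj (fun f hf => ?_))
    obtain ⟨P₀, -, hP₀⟩ := exists_two hf
    refine ((hl.mul_left f).congr' ?_).unique (hl.mul_right f)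
    refine Filter.Eventually.filter_mono (Ultrafilter.of_le _) ?_
    filter_upwards [eventually_ge_atTop P₀] with P hP
    exact EP_comm hA hf P (hP₀ P hP) x
  refine ⟨a, haA, ?_, ha, fun G η hη P₀ => ?_⟩
  · refine (hl.star.congr' (Eventually.of_forall (fun P => ?_))).unique hl
    rw [EP_star, hx.star_eq]
  · have e1 : ∀ᶠ P in (Ultrafilter.of (atTop : Filter (Part A)) : Filter (Part A)), P₀ ≤ P :=
      Filter.Eventually.filter_mono (Ultrafilter.of_le _) (eventually_ge_atTop P₀)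
    have e2 : ∀ᶠ P in (Ultrafilter.of (atTop : Filter (Part A)) : Filter (Part A)),
        ∀ g ∈ G, ∀ g' ∈ G, ‖⟪g, (EP P x - a) g'⟫_ℂ‖ ≤ η := by
      rw [eventually_all_finset]
      intro g _
      rw [eventually_all_finset]
      intro g' _
      filter_upwards [(Metric.tendsto_nhds.1 (hl g' g)) η hη] with P hP
      rw [dist_eq_norm] at hP
      rw [ContinuousLinearMap.sub_apply, inner_sub_right]
      exact hP.le
    exact (e1.and e2).exists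

open NEGlueA in
theorem glue (hA : Masa M A) {x a q : H →L[ℂ] H} (hn : ‖x‖ ≤ 1) (haA : a ∈ A) (ha : ‖a‖ ≤ 1)
    (hlim : ∀ (G : Finset H) (η : ℝ), 0 < η → ∀ P₀ : Part A, ∃ P, P₀ ≤ P ∧
        ∀ g ∈ G, ∀ g' ∈ G, ‖⟪g, (EP P x - a) g'⟫_ℂ‖ ≤ η)
    (hq : IsStarProjection q) (P₀ : Part A) {δ : ℝ} (hδ : 0 < δ) (hP : ‖EP P₀ q‖ ≤ δ)
    (F : Finset H) :
    ∃ P, P₀ ≤ P ∧ ∑ ξ ∈ F, ‖q ((EP P x - a) ξ)‖ ^ 2 ≤ 40 * δ * (1 + ∑ ξ ∈ F, ‖ξ‖ ^ 2) := by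
  have hε : 0 < δ / (P₀.cells.card + 1) := by positivity
  obtain ⟨c, hc⟩ := greedy (q := q) hn ha hlim P₀ F hε P₀.cells
    (fun ρ hρ => norm_q_cell hq P₀ hP hρ)
  obtain ⟨P, hP1, hP2⟩ := exists_glued hA P₀ c
  refine ⟨P, hP1, ?_⟩
  have e1 : q * (EP P x - a) = ∑ ρ ∈ P₀.cells, q * ρ * (EP (c ρ) x - a) * ρ := by
    have : a = ∑ ρ ∈ P₀.cells, ρ * a * ρ := by
      conv_lhs => rw [← one_mul a, ← P₀.sum, Finset.sum_mul]
      refine Finset.sum_congr rfl (fun ρ hρ => ?_)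
      rw [mul_assoc, hA.comm a haA ρ (P₀.pa ρ hρ).1, ← mul_assoc, pa_idem (P₀.pa ρ hρ)]
    conv_lhs => rw [hP2, this, ← Finset.sum_sub_distrib, Finset.mul_sum]
    refine Finset.sum_congr rfl (fun ρ _ => ?_)
    noncomm_ring
  have e2 : ∀ ξ, q ((EP P x - a) ξ) = ∑ ρ ∈ P₀.cells, (q * ρ) ((EP (c ρ) x - a) (ρ ξ)) := by
    intro ξ
    have : q ((EP P x - a) ξ) = (q * (EP P x - a)) ξ := rfl
    rw [this, e1, ContinuousLinearMap.sum_apply]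
    rfl
  simp only [e2]
  refine hc.trans ?_
  have b1 : ∀ ξ : H, ∑ ρ ∈ P₀.cells, 4 * δ * ‖ρ ξ‖ ^ 2 ≤ 4 * δ * ‖ξ‖ ^ 2 := by
    intro ξ
    rw [← Finset.mul_sum]
    refine mul_le_mul_of_nonneg_left ?_ (by positivity)
    have h1 := P₀.isPartOf.sum_norm_sq_le 1 ξ
    have h2 := P₀.isPartOf.pin_norm_le (star 1 * 1)
    have h3 : ‖star (1 : H →L[ℂ] H) * 1‖ ≤ 1 := by
      rw [star_one, one_mul]; exact (PA.one (A := A)).norm_le
    rw [← Finset.sum_coe_sort P₀.cells (fun ρ => ‖ρ ξ‖ ^ 2)]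
    have h4 := mul_le_mul_of_nonneg_right (h2.trans h3) (sq_nonneg ‖ξ‖)
    rw [one_mul] at h4
    exact h1.trans h4
  have b2 := Finset.sum_le_sum (fun ξ (_ : ξ ∈ F) => b1 ξ)
  have b3 : (P₀.cells.card : ℝ) * (δ / (P₀.cells.card + 1)) ≤ δ := by
    rw [← mul_div_assoc, div_le_iff₀ (by positivity)]
    nlinarith
  have b4 : 0 ≤ ∑ ξ ∈ F, ‖ξ‖ ^ 2 := Finset.sum_nonneg (fun _ _ => sq_nonneg _)
  rw [← Finset.mul_sum] at b2
  nlinarith

end Crest.Agent.R109
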