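import Crest.Agent.R109.MinMax
import Crest.Agent.R109.NEGlue
import Crest.Agent.R109.NECol

/-!
# Row 109, task R109-NE

The case without normal central functionals.  PLAN.  `a` from `exists_diag`, `q₀, P₀` from `lemmaS` with a
tiny `δ'`, `P` from `glue` (`norm_EP_anti`), `p` from `colour`, `a' = (1 - 1/r) a`,
`w = pin p x - a' - x / r` (`‖w‖ ≤ 3`), `q` from `crit` with `η = ε / 2`; `1 / r ≤ ε / 4`.
-/

set_option autoImplicit false
set_option linter.unusedSectionVars false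
set_option linter.unusedVariables false

namespace Crest.Agent.R109

open scoped InnerProductSpace ComplexOrder ComplexConjugate
open Filter Topology

universe u

variable {H : Type u} [NormedAddCommGroup H] [InnerProductSpace ℂ H] [CompleteSpace H]
  {M : VonNeumannAlgebra H} {A : StarSubalgebra ℂ (H →L[ℂ] H)}
  {ω φ : (H →L[ℂ] H) →ₗ[ℂ] ℂ} {E : (H →L[ℂ] H) →ₗ[ℂ] (H →L[ℂ] H)}

theorem ne_main {r : ℕ} {ε : ℝ} (hε : 0 < ε) (hr : 4 / ε ≤ r) (hA : Masa M A) (hN : NoC M A) :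
    PavC M A 1 r ε := by
  intro x hxM hx hn F δ hδ
  have rs : ∀ (c : ℝ) {y : H →L[ℂ] H}, y ∈ M → c • y ∈ M := fun c y hy => by
    have := M.toStarSubalgebra.smul_mem hy (c : ℂ)
    rw [Complex.coe_smul] at this
    exact this
  have hr0 : (0 : ℝ) < r := lt_of_lt_of_le (by positivity) hr
  have hr0' : 0 < r := by exact_mod_cast hr0
  have hr1 : (1 : ℝ) ≤ r := by exact_mod_cast hr0'
  set ρ : ℝ := (r : ℝ)⁻¹ with hρ
  have hρ0 : 0 < ρ := inv_pos.mpr hr0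
  have hρ1 : ρ ≤ 1 := inv_le_one_of_one_le₀ hr1
  have hρε : ρ ≤ ε / 4 := by
    rw [hρ, inv_le_comm₀ hr0 (by positivity), inv_div]
    exact hr
  set N : ℝ := 1 + ∑ ξ ∈ F, ‖ξ‖ ^ 2 with hNdef
  have hS : 0 ≤ ∑ ξ ∈ F, ‖ξ‖ ^ 2 := Finset.sum_nonneg fun _ _ => sq_nonneg _
  have hN1 : 1 ≤ N := by linarith
  set L : ℝ := 1 + (9 * N + 3) / (ε / 2) with hL
  have hL0 : 0 < L := by positivity
  set t : ℝ := min 1 (δ / (2 * L)) with ht
  have ht0 : 0 < t := lt_min one_pos (by positivity)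
  have ht1 : t ≤ 1 := min_le_left _ _
  have htL : t * L < δ := by
    have h1 : t ≤ δ / (2 * L) := min_le_right _ _
    rw [le_div_iff₀ (by positivity)] at h1
    nlinarith [mul_pos ht0 hL0]
  obtain ⟨a, haA, has, han, hlim⟩ := exists_diag hA hxM hx hn
  obtain ⟨q₀, hq₀M, hq₀, hq₀F, P₀, hP₀⟩ := lemmaS hA hN F (δ := t ^ 2) (by positivity)
  obtain ⟨P, hP, hgl⟩ := glue hA hn haA han hlim hq₀ P₀ (by positivity) hP₀ F
  obtain ⟨p, hp, hcol⟩ := colour hA hn hq₀ P ((norm_EP_anti hP q₀).trans hP₀) F hr0'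
  set a' : H →L[ℂ] H := (1 - ρ) • a with ha'
  have ha'A : a' ∈ A := by
    have := A.smul_mem haA ((1 - ρ : ℝ) : ℂ)
    rw [Complex.coe_smul] at this
    exact this
  have ha's : IsSelfAdjoint a' := (IsSelfAdjoint.all (1 - ρ)).smul has
  have ha'n : ‖a'‖ ≤ 1 := by
    rw [ha', norm_smul, Real.norm_eq_abs, abs_of_nonneg (by linarith)]
    nlinarith [norm_nonneg a]
  set w : H →L[ℂ] H := pin p x - a' - ρ • x with hw
  have hwM : w ∈ M := sub_mem (sub_mem (hp.pin_mem hA hxM) (hA.le _ ha'A)) (rs _ hxM)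
  have hps : IsSelfAdjoint (pin p x) := by
    rw [IsSelfAdjoint, hp.pin_star, hx.star_eq]
  have hws : IsSelfAdjoint w := (hps.sub ha's).sub ((IsSelfAdjoint.all ρ).smul hx)
  have hρx : ‖ρ • x‖ ≤ ρ := by
    rw [norm_smul, Real.norm_eq_abs, abs_of_pos hρ0]
    nlinarith
  have hwn : ‖w‖ ≤ 3 := by
    have h1 := norm_sub_le (pin p x - a') (ρ • x)
    have h2 := norm_sub_le (pin p x) a'
    have h3 := hp.pin_norm_le x
    linarith
  obtain ⟨q, hqM, hq, hqw, hqF⟩ := crit hwM hws hq₀M hq₀ (η := ε / 2) (by positivity)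
  refine ⟨p, hp, a', ha'A, ha's, ha'n, one_mul _, q, hqM, hq, one_mul _, fun ξ hξ => ?_, ?_⟩
  · have b1 : ‖q₀ ((EP P x - a) ξ)‖ ≤ 7 * (t * N) := by
      refine (pow_le_pow_iff_left₀ (norm_nonneg _) (by positivity) two_ne_zero).mp ?_
      have h1 := Finset.single_le_sum (f := fun ξ => ‖q₀ ((EP P x - a) ξ)‖ ^ 2)
        (fun _ _ => sq_nonneg _) hξ
      have h2 : t ^ 2 * N ≤ t ^ 2 * N ^ 2 := mul_le_mul_of_nonneg_left (by nlinarith) (sq_nonneg t)
      have h3 : 0 ≤ t ^ 2 * N := by positivity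
      nlinarith
    have b2 : ‖q₀ ((pin p x - ρ • x - (1 - ρ) • EP P x) ξ)‖ ≤ 2 * (t * N) := by
      refine (pow_le_pow_iff_left₀ (norm_nonneg _) (by positivity) two_ne_zero).mp ?_
      have h1 := Finset.single_le_sum
        (f := fun ξ => ‖q₀ ((pin p x - ρ • x - (1 - ρ) • EP P x) ξ)‖ ^ 2) (fun _ _ => sq_nonneg _) hξ
      have h2 : t ^ 2 * N ≤ t ^ 2 * N ^ 2 := mul_le_mul_of_nonneg_left (by nlinarith) (sq_nonneg t)
      have h3 : 0 ≤ t ^ 2 * N := by positivity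
      have h4 : t ^ 2 * ∑ ξ ∈ F, ‖ξ‖ ^ 2 ≤ t ^ 2 * N :=
        mul_le_mul_of_nonneg_left (by linarith) (sq_nonneg t)
      nlinarith
    have e1 : w = (pin p x - ρ • x - (1 - ρ) • EP P x) + (1 - ρ) • (EP P x - a) := by
      rw [hw, ha', smul_sub]
      abel
    have b3 : ‖q₀ (w ξ)‖ ≤ 9 * (t * N) := by
      rw [e1, ContinuousLinearMap.add_apply, map_add, ContinuousLinearMap.smul_apply,
        ContinuousLinearMap.map_smul_of_tower]
      refine (norm_add_le _ _).trans ?_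
      rw [norm_smul, Real.norm_eq_abs, abs_of_nonneg (by linarith)]
      nlinarith [norm_nonneg (q₀ ((EP P x - a) ξ))]
    have b4 : ‖(1 - q₀) ξ‖ ≤ t := (hq₀F ξ hξ).trans (by nlinarith)
    have b5 : ‖w‖ * ‖(1 - q₀) ξ‖ ≤ 3 * t := mul_le_mul hwn b4 (norm_nonneg _) (by norm_num)
    have b6 : (‖q₀ (w ξ)‖ + ‖w‖ * ‖(1 - q₀) ξ‖) / (ε / 2) ≤ (9 * (t * N) + 3 * t) / (ε / 2) :=
      div_le_div_of_nonneg_right (by linarith) (by positivity)
    have e2 : t * L = t + (9 * (t * N) + 3 * t) / (ε / 2) := by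
      rw [hL]
      ring
    have := hqF ξ
    linarith
  · have e1 : q * (pin p x - a') * q = q * w * q + q * (ρ • x) * q := by
      rw [hw, ← add_mul, ← mul_add, sub_add_cancel]
    have hq1 : ‖q‖ ≤ 1 := hq.norm_le
    have b1 : ‖q * (ρ • x) * q‖ ≤ ρ := by
      calc ‖q * (ρ • x) * q‖ ≤ ‖q‖ * ‖ρ • x‖ * ‖q‖ :=
            (norm_mul_le _ _).trans (mul_le_mul_of_nonneg_right (norm_mul_le _ _) (norm_nonneg _))
        _ ≤ 1 * ρ * 1 := by gcongr
        _ = ρ := by ring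
    rw [e1]
    refine (norm_add_le _ _).trans ?_
    linarith

end Crest.Agent.R109
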