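import Crest.Agent.R109.WLim
import Crest.Agent.R109.Omega

/-!
# Row 109, task R109-NormW

Normal functionals are weakly continuous on bounded parts of `M`.  PLAN.  Subtract `z`.  For `η > 0` take
`ξ : Fin m → H` from `nrm`; Cauchy–Schwarz gives `‖φ y‖ ≤ c (‖(y ξ i)_i‖ + √η ‖y‖)` on `M`.
Route 1 (Mazur): if `re (θ φ (y i)) ≥ ε` frequently (pass to a finer filter / ultrafilter), the vector `0` of
`PiLp 2 (Fin m → H)` is in the weak closure of `{(y i ξ)}`, hence in the norm closure of its convex hull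
(projection on a closed convex set or `geometric_hahn_banach_closed_point`); a convex combination `y'` has
`‖y'‖ ≤ C'`, `re (θ φ y') ≥ ε` and small `(y' ξ)`: contradiction.  Route 2: Hahn–Banach on the graph
`{((y ξ i)_i, √η y)}` in a product space splits `φ = φ₁ + φ₂`, `φ₁` a sum of vector functionals and
`‖φ₂‖ ≤ c √η`.
`NPos.tendsto_sot`-type facts follow since strong convergence implies weak convergence.
-/

set_option autoImplicit false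
set_option linter.unusedSectionVars false
set_option linter.unusedVariables false

namespace Crest.Agent.R109

open scoped InnerProductSpace ComplexOrder ComplexConjugate
open Filter Topology

universe u

variable {H : Type u} [NormedAddCommGroup H] [InnerProductSpace ℂ H] [CompleteSpace H]
  {M : VonNeumannAlgebra H} {A : StarSubalgebra ℂ (H →L[ℂ] H)}
  {ω φ : (H →L[ℂ] H) →ₗ[ℂ] ℂ} {E : (H →L[ℂ] H) →ₗ[ℂ] (H →L[ℂ] H)}

namespace NormWA

/-- Hahn–Banach splitting -/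
theorem split {m : ℕ} (ξ : Fin m → H) {δ : ℝ} (hδ : 0 ≤ δ)
    (hb : ∀ y ∈ M, ‖φ y‖ ≤ δ * max ‖fun i => y (ξ i)‖ ‖y‖) :
    ∃ ζ : Fin m → H, ∀ y ∈ M, ‖φ y - ∑ i, ⟪ζ i, y (ξ i)⟫_ℂ‖ ≤ δ * ‖y‖ := by
  let p : Submodule ℂ ((Fin m → H) × (H →L[ℂ] H)) :=
    { carrier := {x | x.2 ∈ M ∧ x.1 = fun i => x.2 (ξ i)}
      add_mem' := by
        rintro a b ⟨ha, ha'⟩ ⟨hb, hb'⟩
        refine ⟨add_mem ha hb, ?_⟩
        funext i
        simp [ha', hb']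
      zero_mem' := ⟨zero_mem _, by funext i; simp⟩
      smul_mem' := by
        rintro c a ⟨ha, ha'⟩
        refine ⟨M.toStarSubalgebra.smul_mem ha c, ?_⟩
        funext i
        simp [ha'] }
  let L : p →ₗ[ℂ] ℂ := (φ ∘ₗ LinearMap.snd ℂ (Fin m → H) (H →L[ℂ] H)).domRestrict p
  have hL : ∀ x : p, ‖L x‖ ≤ δ * ‖x‖ := by
    rintro ⟨⟨u, y⟩, hy, hu⟩
    have hu' : u = fun i => y (ξ i) := hu
    subst hu'
    exact hb y hy
  obtain ⟨g, hg, hgn⟩ := exists_extension_norm_eq p (L.mkContinuous δ hL)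
  have hgδ : ‖g‖ ≤ δ := hgn ▸ L.mkContinuous_norm_le hδ hL
  let gi : Fin m → (H →L[ℂ] ℂ) := fun i =>
    g ∘L (ContinuousLinearMap.inl ℂ (Fin m → H) (H →L[ℂ] H)) ∘L
      (ContinuousLinearMap.single ℂ (fun _ : Fin m => H) i)
  refine ⟨fun i => (InnerProductSpace.toDual ℂ H).symm (gi i), fun y hy => ?_⟩
  have e1 : φ y = g (fun i => y (ξ i), y) := (hg ⟨(fun i => y (ξ i), y), hy, rfl⟩).symm
  have e2 : ∑ i, ⟪(InnerProductSpace.toDual ℂ H).symm (gi i), y (ξ i)⟫_ℂ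
      = g (fun i => y (ξ i), 0) := by
    simp only [InnerProductSpace.toDual_symm_apply]
    have : ((fun i => y (ξ i)), (0 : H →L[ℂ] H))
        = ∑ i, ((Pi.single i (y (ξ i)) : Fin m → H), (0 : H →L[ℂ] H)) := by
      ext1
      · rw [Prod.fst_sum]
        exact (Finset.univ_sum_single _).symm
      · rw [Prod.snd_sum]
        simp
    rw [this, map_sum]
    rfl
  rw [e1, e2, ← map_sub]
  refine (g.le_opNorm _).trans ?_
  have : ‖((fun i => y (ξ i)), y) - ((fun i => y (ξ i)), (0 : H →L[ℂ] H))‖ = ‖y‖ := by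
    simp
  rw [this]
  exact mul_le_mul_of_nonneg_right hgδ (norm_nonneg _)

theorem approx (h : NPos M φ) {δ : ℝ} (hδ : 0 < δ) :
    ∃ (m : ℕ) (ξ ζ : Fin m → H), ∀ y ∈ M, ‖φ y - ∑ i, ⟪ζ i, y (ξ i)⟫_ℂ‖ ≤ δ * ‖y‖ := by
  set c := n2 φ 1 with hc
  have hc0 : 0 ≤ c := n2_nonneg _
  set s : ℝ := δ / (2 * (c + 1)) with hs
  have hs0 : 0 < s := by positivity
  obtain ⟨m, ξ, hξ⟩ := h.nrm (s ^ 2) (by positivity)
  set t : ℝ := (m + 1) / s with ht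
  have ht0 : 0 < t := by positivity
  refine ⟨m, fun i => (t : ℂ) • ξ i, split _ hδ.le fun y hy => ?_⟩
  set N := max ‖fun i => y ((t : ℂ) • ξ i)‖ ‖y‖ with hN
  have hN0 : 0 ≤ N := le_max_of_le_right (norm_nonneg _)
  have a1 : ‖φ y‖ ≤ c * n2 φ y := by
    have := h.pos.cs (one_mem M) hy
    rwa [star_one, one_mul] at this
  have a2 : ∀ i, ‖y (ξ i)‖ ≤ N / t := by
    intro i
    rw [le_div_iff₀ ht0]
    have b1 : ‖y ((t : ℂ) • ξ i)‖ ≤ N :=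
      (norm_le_pi_norm (fun i => y ((t : ℂ) • ξ i)) i).trans (le_max_left _ _)
    rw [map_smul, norm_smul, Complex.norm_real, Real.norm_eq_abs, abs_of_pos ht0] at b1
    linarith
  have a3 : ∑ i, ‖y (ξ i)‖ ^ 2 ≤ (s * N) ^ 2 := by
    have b1 : ∑ i, ‖y (ξ i)‖ ^ 2 ≤ ∑ _i : Fin m, (N / t) ^ 2 :=
      Finset.sum_le_sum fun i _ => pow_le_pow_left₀ (norm_nonneg _) (a2 i) 2
    rw [Finset.sum_const, Finset.card_univ, Fintype.card_fin, nsmul_eq_mul] at b1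
    have b2 : N / t = s * N / (m + 1) := by
      rw [ht]
      field_simp
    rw [b2, div_pow, ← mul_div_assoc] at b1
    refine b1.trans ?_
    rw [div_le_iff₀ (by positivity)]
    have b3 : (m : ℝ) ≤ (m + 1) ^ 2 := by nlinarith [Nat.cast_nonneg (α := ℝ) m]
    nlinarith [sq_nonneg (s * N)]
  have a4 : s ^ 2 * ‖y‖ ^ 2 ≤ (s * N) ^ 2 := by
    rw [mul_pow]
    exact mul_le_mul_of_nonneg_left
      (pow_le_pow_left₀ (norm_nonneg _) (le_max_right _ _) 2) (sq_nonneg _)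
  have a5 : n2 φ y ≤ 2 * (s * N) := by
    unfold n2
    refine Real.sqrt_le_iff.mpr ⟨by positivity, ?_⟩
    nlinarith [hξ y hy, sq_nonneg (s * N)]
  have a6 : c * (2 * s) ≤ δ := by
    have : (c + 1) * (2 * s) = δ := by
      rw [hs]
      field_simp
    nlinarith
  calc ‖φ y‖ ≤ c * (2 * (s * N)) := a1.trans (mul_le_mul_of_nonneg_left a5 hc0)
    _ = c * (2 * s) * N := by ring
    _ ≤ δ * N := mul_le_mul_of_nonneg_right a6 hN0

end NormWA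

theorem NPos.tendsto (h : NPos M φ) {ι : Type*} {l : Filter ι} {y : ι → H →L[ℂ] H} {z : H →L[ℂ] H}
    {C : ℝ} (hy : ∀ᶠ i in l, y i ∈ M ∧ ‖y i‖ ≤ C) (hz : z ∈ M) (hl : WLim l y z) :
    Tendsto (fun i => φ (y i)) l (𝓝 (φ z)) := by
  rw [Metric.tendsto_nhds]
  intro ε hε
  set K : ℝ := |C| + ‖z‖ + 1 with hK
  have hK0 : 0 < K := by positivity
  obtain ⟨m, ξ, ζ, hap⟩ := NormWA.approx h (δ := ε / (2 * K)) (by positivity)
  have t1 : Tendsto (fun i => ∑ j, ⟪ζ j, y i (ξ j)⟫_ℂ) l (𝓝 (∑ j, ⟪ζ j, z (ξ j)⟫_ℂ)) :=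
    tendsto_finset_sum _ fun j _ => hl (ξ j) (ζ j)
  have t2 := Metric.tendsto_nhds.mp t1 (ε / 2) (by positivity)
  filter_upwards [hy, t2] with i hi hi2
  rw [dist_eq_norm] at hi2 ⊢
  have a1 := hap (y i) hi.1
  have a2 := hap z hz
  have e : φ (y i) - φ z = (φ (y i) - ∑ j, ⟪ζ j, y i (ξ j)⟫_ℂ) - (φ z - ∑ j, ⟪ζ j, z (ξ j)⟫_ℂ)
      + (∑ j, ⟪ζ j, y i (ξ j)⟫_ℂ - ∑ j, ⟪ζ j, z (ξ j)⟫_ℂ) := by ring
  rw [e]
  have a3 := norm_add_le ((φ (y i) - ∑ j, ⟪ζ j, y i (ξ j)⟫_ℂ) - (φ z - ∑ j, ⟪ζ j, z (ξ j)⟫_ℂ))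
    (∑ j, ⟪ζ j, y i (ξ j)⟫_ℂ - ∑ j, ⟪ζ j, z (ξ j)⟫_ℂ)
  have a4 := norm_sub_le (φ (y i) - ∑ j, ⟪ζ j, y i (ξ j)⟫_ℂ) (φ z - ∑ j, ⟪ζ j, z (ξ j)⟫_ℂ)
  have a5 : ε / (2 * K) * (‖y i‖ + ‖z‖) ≤ ε / (2 * K) * K := by
    refine mul_le_mul_of_nonneg_left ?_ (by positivity)
    have := le_abs_self C
    linarith [hi.2]
  have a6 : ε / (2 * K) * K = ε / 2 := by field_simp
  nlinarith

/-- `y ↦ φ (a⋆ y a)` is normal -/
theorem NPos.conj (h : NPos M φ) {a : H →L[ℂ] H} (ha : a ∈ M) :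
    NPos M (φ ∘ₗ (LinearMap.mulLeft ℂ (star a) ∘ₗ LinearMap.mulRight ℂ a)) := by
  have e : ∀ y : H →L[ℂ] H,
      (φ ∘ₗ (LinearMap.mulLeft ℂ (star a) ∘ₗ LinearMap.mulRight ℂ a)) (star y * y)
        = φ (star (y * a) * (y * a)) := by
    intro y
    simp only [LinearMap.comp_apply, LinearMap.mulLeft_apply, LinearMap.mulRight_apply, star_mul,
      mul_assoc]
  refine ⟨fun y hy => ?_, fun η hη => ?_⟩
  · rw [e]
    exact h.pos _ (mul_mem hy ha)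
  · obtain ⟨m, ξ, hξ⟩ := h.nrm (η / (‖a‖ ^ 2 + 1)) (by positivity)
    refine ⟨m, fun i => a (ξ i), fun y hy => ?_⟩
    rw [e]
    refine (hξ _ (mul_mem hy ha)).trans (add_le_add le_rfl ?_)
    have a1 : ‖y * a‖ ^ 2 ≤ (‖y‖ * ‖a‖) ^ 2 :=
      pow_le_pow_left₀ (norm_nonneg _) (norm_mul_le _ _) 2
    have a2 : η / (‖a‖ ^ 2 + 1) * ‖y * a‖ ^ 2 ≤ η / (‖a‖ ^ 2 + 1) * (‖y‖ ^ 2 * (‖a‖ ^ 2 + 1)) := by
      refine mul_le_mul_of_nonneg_left ?_ (by positivity)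
      nlinarith [sq_nonneg ‖y‖]
    have a3 : η / (‖a‖ ^ 2 + 1) * (‖y‖ ^ 2 * (‖a‖ ^ 2 + 1)) = η * ‖y‖ ^ 2 := by field_simp
    linarith

theorem NPos.add {ψ : (H →L[ℂ] H) →ₗ[ℂ] ℂ} (h : NPos M φ) (h' : NPos M ψ) : NPos M (φ + ψ) := by
  refine ⟨fun y hy => ?_, fun η hη => ?_⟩
  · rw [LinearMap.add_apply]
    exact add_nonneg (h.pos y hy) (h'.pos y hy)
  · obtain ⟨m, ξ, hξ⟩ := h.nrm (η / 2) (by positivity)
    obtain ⟨m', ξ', hξ'⟩ := h'.nrm (η / 2) (by positivity)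
    refine ⟨m + m', Fin.append ξ ξ', fun y hy => ?_⟩
    rw [Fin.sum_univ_add, LinearMap.add_apply, Complex.add_re]
    simp only [Fin.append_left, Fin.append_right]
    linarith [hξ y hy, hξ' y hy]

theorem NPos.smul (h : NPos M φ) {c : ℝ} (hc : 0 ≤ c) : NPos M ((c : ℂ) • φ) := by
  refine ⟨fun y hy => ?_, fun η hη => ?_⟩
  · rw [LinearMap.smul_apply, smul_eq_mul]
    exact mul_nonneg (by exact_mod_cast hc) (h.pos y hy)
  · obtain ⟨m, ξ, hξ⟩ := h.nrm (η / (c + 1)) (by positivity)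
    refine ⟨m, fun i => ((√c : ℝ) : ℂ) • ξ i, fun y hy => ?_⟩
    rw [LinearMap.smul_apply, smul_eq_mul, Complex.re_ofReal_mul]
    have a1 := mul_le_mul_of_nonneg_left (hξ y hy) hc
    have a2 : ∑ i, ‖y (((√c : ℝ) : ℂ) • ξ i)‖ ^ 2 = c * ∑ i, ‖y (ξ i)‖ ^ 2 := by
      rw [Finset.mul_sum]
      refine Finset.sum_congr rfl fun i _ => ?_
      rw [map_smul, norm_smul, mul_pow, Complex.norm_real, Real.norm_eq_abs, sq_abs,
        Real.sq_sqrt hc]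
    have a3 : c * (η / (c + 1)) ≤ η := by
      rw [← mul_div_assoc, div_le_iff₀ (by positivity)]
      nlinarith
    have a4 := mul_le_mul_of_nonneg_right a3 (sq_nonneg ‖y‖)
    rw [a2]
    nlinarith

end Crest.Agent.R109
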