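import Crest.Agent.R109.FDefs

/-!
# Row 109, task R109-PAff

Multi-affine structure of `pp`.  PLAN.  `mat_det_update`: the row `v` of `mat S e Y (update z v ζ)` is
`ζ • e_v + (row v of mat S e Y (update z v 0))` (`det_updateRow_add`, `det_updateRow_smul`), and replacing row
`v` by `e_v` gives the determinant of `mat (S.erase v)` (column operations, or `det_apply` with the terms
`π v ≠ v` vanishing).  `pp_update_avg`: bijection `piFinset (update φ v Φ) ≃ Σ S ∈ Φ, piFinset (update φ v {S})`
(`Finset.sum_fiberwise`/`sum_biUnion`, or `Fintype.piFinset_update…`).  For `f v = S`: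
`pf (update z v ζ) f = (∏_{k ∉ S} d k) ∏_{k ∈ S} (ζ d k + c k)`, `d k` the determinant without `v`; the
coefficients and the derivative of `∏ (C (d k) * X + C (c k))` follow by induction on `S`.
-/

set_option autoImplicit false
set_option linter.unusedSectionVars false
set_option linter.unusedVariables false

namespace Crest.Agent.R109

open Matrix Finset Function Polynomial
open scoped ComplexConjugate Real

variable {V K : Type*} [Fintype V] [DecidableEq V] [Fintype K] [DecidableEq K]
  {sg : K → ℂ} {Y : Matrix V V ℂ} {φ : V → Finset (Finset K)} {z : V → ℂ}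

theorem mat_det_update (S : Finset V) (e : ℂ) (Y : Matrix V V ℂ) (z : V → ℂ) {v : V} (hv : v ∈ S)
    (ζ : ℂ) : (mat S e Y (update z v ζ)).det =
      ζ * (mat (S.erase v) e Y z).det + (mat S e Y (update z v 0)).det := by
  set M0 := mat S e Y (update z v 0) with hM0
  have h1 : mat S e Y (update z v ζ) = M0.updateRow v (ζ • (Pi.single v 1 : V → ℂ) + M0 v) := by
    ext i j
    by_cases hi : i = v
    · subst hi
      by_cases hj : i = j
      · subst hj
        simp [hM0, mat, hv]
      · simp [hM0, mat, hj, Pi.single_apply, Ne.symm hj]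
    · by_cases hj : i = j
      · subst hj
        simp [hM0, mat, hi, Matrix.updateRow_ne hi]
      · simp [hM0, mat, hj, Matrix.updateRow_ne hi]
  have h2 : (M0.updateRow v (Pi.single v 1 : V → ℂ)).det = (mat (S.erase v) e Y z).det := by
    refine Matrix.det_eq_of_forall_row_eq_smul_add_const
      (fun i => if i = v then 0 else M0 i v) v (by simp) ?_
    intro i j
    by_cases hi : i = v
    · subst hi
      by_cases hj : i = j
      · subst hj
        simp [mat]
      · simp [mat, hj, Pi.single_apply, Ne.symm hj]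
    · rw [Matrix.updateRow_ne hi]
      by_cases hj : j = v
      · subst hj
        simp [hM0, mat, hi]
      · by_cases hij : i = j
        · subst hij
          simp [hM0, mat, hi, Ne.symm hi]
        · simp [hM0, mat, hi, hj, hij, Ne.symm hj]
  rw [h1, Matrix.det_updateRow_add, Matrix.det_updateRow_smul, h2, Matrix.updateRow_eq_self]

theorem mat_congr {S : Finset V} {e : ℂ} {z z' : V → ℂ} (h : ∀ v ∈ S, z v = z' v) :
    mat S e Y z = mat S e Y z' := by
  ext i j
  by_cases hij : i = j
  · subst hij
    by_cases hi : i ∈ S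
    · simp [mat, hi, h i hi]
    · simp [mat, hi]
  · simp [mat, hij]

theorem pp_congr_z {z' : V → ℂ} (h : ∀ v, φ v ≠ {∅} → z v = z' v) : pp sg Y φ z = pp sg Y φ z' := by
  unfold pp
  congr 1
  refine Finset.sum_congr rfl fun f hf => ?_
  unfold pf
  refine Finset.prod_congr rfl fun k _ => ?_
  rw [mat_congr]
  intro v hv
  apply h
  intro hφ
  have h1 := Fintype.mem_piFinset.1 hf v
  rw [hφ, Finset.mem_singleton] at h1
  simp [h1] at hv

theorem pp_single (f : V → Finset K) : pp sg Y (fun v => {f v}) z = pf sg Y z f := by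
  unfold pp
  rw [Fintype.piFinset_singleton]
  simp

theorem pp_del : pp sg Y (fun _ => ({∅} : Finset (Finset K))) z = 1 := by
  have h := pp_single (sg := sg) (Y := Y) (z := z) (fun _ : V => (∅ : Finset K))
  rw [h]
  unfold pf
  refine Finset.prod_eq_one fun k _ => ?_
  have : mat (univ.filter fun v : V => k ∈ (∅ : Finset K)) (sg k) Y z = 1 := by
    ext i j
    by_cases hij : i = j
    · subst hij
      simp [mat]
    · simp [mat, hij]
  rw [this, Matrix.det_one]

namespace PAffA

theorem prod_card (φ : V → Finset (Finset K)) (v : V) (Φ : Finset (Finset K)) :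
    ∏ w, (((update φ v Φ) w).card : ℂ) = (Φ.card : ℂ) * ∏ w ∈ univ.erase v, ((φ w).card : ℂ) := by
  rw [← Finset.mul_prod_erase univ _ (Finset.mem_univ v)]
  congr 1
  · simp
  · refine Finset.prod_congr rfl fun w hw => ?_
    rw [update_of_ne (Finset.ne_of_mem_erase hw)]

theorem sum_fib (φ : V → Finset (Finset K)) (v : V) (Φ : Finset (Finset K)) (g : (V → Finset K) → ℂ) :
    ∑ f ∈ Fintype.piFinset (update φ v Φ), g f =
      ∑ S ∈ Φ, ∑ f ∈ Fintype.piFinset (update φ v {S}), g f := by
  rw [← Finset.sum_fiberwise_of_maps_to (s := Fintype.piFinset (update φ v Φ)) (t := Φ)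
    (g := fun f => f v)]
  · refine Finset.sum_congr rfl fun S hS => ?_
    refine Finset.sum_congr ?_ fun _ _ => rfl
    ext f
    simp only [Finset.mem_filter, Fintype.mem_piFinset]
    constructor
    · rintro ⟨h1, h2⟩ w
      by_cases hw : w = v
      · subst hw
        simp [h2]
      · have := h1 w
        rwa [update_of_ne hw] at this ⊢
    · intro h
      have hv := h v
      simp only [update_self, Finset.mem_singleton] at hv
      refine ⟨fun w => ?_, hv⟩
      by_cases hw : w = v
      · subst hw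
        simp [hv, hS]
      · have := h w
        rwa [update_of_ne hw] at this ⊢
  · intro f hf
    have := Fintype.mem_piFinset.1 hf v
    simpa using this

theorem sum_shift (φ : V → Finset (Finset K)) (v : V) (S : Finset K) (g : (V → Finset K) → ℂ) :
    ∑ f ∈ Fintype.piFinset (update φ v {S}), g f =
      ∑ f ∈ Fintype.piFinset (update φ v {∅}), g (update f v S) := by
  symm
  refine Finset.sum_nbij' (fun f => update f v S) (fun f => update f v ∅) ?_ ?_ ?_ ?_ ?_
  · intro f hf
    refine Fintype.mem_piFinset.2 fun w => ?_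
    by_cases hw : w = v
    · subst hw
      simp
    · have := Fintype.mem_piFinset.1 hf w
      rw [update_of_ne hw] at this
      rwa [update_of_ne hw, update_of_ne hw]
  · intro f hf
    refine Fintype.mem_piFinset.2 fun w => ?_
    by_cases hw : w = v
    · subst hw
      simp
    · have := Fintype.mem_piFinset.1 hf w
      rw [update_of_ne hw] at this
      rwa [update_of_ne hw, update_of_ne hw]
  · intro f hf
    have := Fintype.mem_piFinset.1 hf v
    simp only [update_self, Finset.mem_singleton] at this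
    rw [update_idem, ← this, update_eq_self]
  · intro f hf
    have := Fintype.mem_piFinset.1 hf v
    simp only [update_self, Finset.mem_singleton] at this
    rw [update_idem, ← this, update_eq_self]
  · intro f hf
    rfl

/-- the vertices of the copy `k` other than `v` -/
def T0 (f : V → Finset K) (v : V) (k : K) : Finset V := (univ.filter fun w => k ∈ f w).erase v

/-- determinant without `v` -/
noncomputable def dd (sg : K → ℂ) (Y : Matrix V V ℂ) (z : V → ℂ) (f : V → Finset K) (v : V) (k : K) : ℂ :=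
  (mat (T0 f v k) (sg k) Y z).det

/-- determinant with `v` at height `0` -/
noncomputable def cc (sg : K → ℂ) (Y : Matrix V V ℂ) (z : V → ℂ) (f : V → Finset K) (v : V) (k : K) : ℂ :=
  (mat (insert v (T0 f v k)) (sg k) Y (update z v 0)).det

/-- the product form -/
noncomputable def AA (d c : K → ℂ) (S : Finset K) (ζ : ℂ) : ℂ :=
  ∏ k, if k ∈ S then ζ * d k + c k else d k

theorem pf_update (sg : K → ℂ) (Y : Matrix V V ℂ) (z : V → ℂ) (f : V → Finset K) (v : V)
    (S : Finset K) (ζ : ℂ) :
    pf sg Y (update z v ζ) (update f v S) = AA (dd sg Y z f v) (cc sg Y z f v) S ζ := by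
  unfold pf AA
  refine Finset.prod_congr rfl fun k _ => ?_
  have hv0 : v ∉ T0 f v k := by simp [T0]
  by_cases hk : k ∈ S
  · have h1 : (univ.filter fun w => k ∈ update f v S w) = insert v (T0 f v k) := by
      ext w
      by_cases hw : w = v
      · subst hw
        simp [hk]
      · simp [T0, hw, update_of_ne hw]
    rw [if_pos hk, h1, mat_det_update _ _ _ _ (Finset.mem_insert_self _ _), Finset.erase_insert hv0]
    rfl
  · have h1 : (univ.filter fun w => k ∈ update f v S w) = T0 f v k := by
      ext w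
      by_cases hw : w = v
      · subst hw
        simp [hk, T0]
      · simp [T0, hw, update_of_ne hw]
    rw [if_neg hk, h1]
    unfold dd
    rw [mat_congr]
    intro w hw
    have : w ≠ v := fun h => hv0 (h ▸ hw)
    rw [update_of_ne this]

theorem pp_form (sg : K → ℂ) (Y : Matrix V V ℂ) (φ : V → Finset (Finset K)) (z : V → ℂ) (v : V)
    (S : Finset K) (ζ : ℂ) :
    pp sg Y (update φ v {S}) (update z v ζ) = (∏ w ∈ univ.erase v, ((φ w).card : ℂ))⁻¹ *
      ∑ f ∈ Fintype.piFinset (update φ v {∅}), AA (dd sg Y z f v) (cc sg Y z f v) S ζ := by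
  unfold pp
  rw [prod_card, sum_shift]
  simp only [Finset.card_singleton, Nat.cast_one, one_mul, pf_update]

theorem pp_form0 (sg : K → ℂ) (Y : Matrix V V ℂ) (φ : V → Finset (Finset K)) (z : V → ℂ) (v : V) :
    pp sg Y (update φ v {∅}) z = (∏ w ∈ univ.erase v, ((φ w).card : ℂ))⁻¹ *
      ∑ f ∈ Fintype.piFinset (update φ v {∅}), ∏ k, dd sg Y z f v k := by
  have h := pp_form sg Y φ z v ∅ (z v)
  rw [update_eq_self] at h
  rw [h]
  simp [AA]

theorem AA_single (d c : K → ℂ) (k : K) (ζ : ℂ) : AA d c {k} ζ = ζ * ∏ j, d j + AA d c {k} 0 := by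
  unfold AA
  rw [← Finset.mul_prod_erase univ _ (Finset.mem_univ k), ← Finset.mul_prod_erase univ d (Finset.mem_univ k),
    ← Finset.mul_prod_erase univ (fun j => if j ∈ ({k} : Finset K) then 0 * d j + c j else d j)
      (Finset.mem_univ k)]
  have h1 : ∀ ξ : ℂ, ∏ j ∈ univ.erase k, (if j ∈ ({k} : Finset K) then ξ * d j + c j else d j) =
      ∏ j ∈ univ.erase k, d j := fun ξ => Finset.prod_congr rfl fun j hj => by
    rw [if_neg (by simpa using Finset.ne_of_mem_erase hj)]
  rw [h1, h1]
  simp only [Finset.mem_singleton, if_true]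
  ring

/-- the product of the affine factors -/
noncomputable def RR (d c : K → ℂ) (S : Finset K) : ℂ[X] := ∏ k ∈ S, (C (d k) * X + C (c k))

theorem RR_facts (d c : K → ℂ) (S : Finset K) :
    (RR d c S).natDegree ≤ S.card ∧ (RR d c S).coeff S.card = ∏ k ∈ S, d k ∧
      (X * RR d c S).coeff S.card = ∑ k ∈ S, c k * ∏ j ∈ S.erase k, d j := by
  induction S using Finset.induction_on with
  | empty => simp [RR]
  | insert a S ha ih =>
    obtain ⟨h1, h2, h3⟩ := ih
    have hR : RR d c (insert a S) = (C (d a) * X + C (c a)) * RR d c S := by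
      unfold RR
      rw [Finset.prod_insert ha]
    have hz : (RR d c S).coeff (S.card + 1) = 0 :=
      Polynomial.coeff_eq_zero_of_natDegree_lt (by omega)
    rw [hR, Finset.card_insert_of_notMem ha]
    refine ⟨?_, ?_, ?_⟩
    · refine Polynomial.natDegree_mul_le.trans ?_
      have : (C (d a) * X + C (c a) : ℂ[X]).natDegree ≤ 1 := Polynomial.natDegree_linear_le
      omega
    · rw [add_mul, Polynomial.coeff_add, mul_assoc, Polynomial.coeff_C_mul, Polynomial.coeff_C_mul,
        Polynomial.coeff_X_mul, h2, hz, Finset.prod_insert ha]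
      ring
    · rw [Polynomial.coeff_X_mul, add_mul, Polynomial.coeff_add, mul_assoc, Polynomial.coeff_C_mul,
        Polynomial.coeff_C_mul, h2, h3, Finset.sum_insert ha, Finset.erase_insert ha, Finset.mul_sum,
        add_comm]
      congr 1
      refine Finset.sum_congr rfl fun k hk => ?_
      have hka : a ≠ k := fun h => ha (h ▸ hk)
      rw [Finset.erase_insert_of_ne hka, Finset.prod_insert (fun h => ha (Finset.mem_of_mem_erase h))]
      ring

/-- the polynomial of one choice -/
noncomputable def QQ (d c : K → ℂ) (S : Finset K) : ℂ[X] := C (∏ k ∈ Sᶜ, d k) * RR d c S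

theorem AA_eq (d c : K → ℂ) (S : Finset K) (ζ : ℂ) :
    AA d c S ζ = (∏ k ∈ Sᶜ, d k) * ∏ k ∈ S, (ζ * d k + c k) := by
  unfold AA
  rw [← Finset.prod_mul_prod_compl S, mul_comm]
  congr 1
  · exact Finset.prod_congr rfl fun k hk => if_neg (Finset.mem_compl.1 hk)
  · exact Finset.prod_congr rfl fun k hk => if_pos hk

theorem QQ_eval (d c : K → ℂ) (S : Finset K) (ζ : ℂ) : (QQ d c S).eval ζ = AA d c S ζ := by
  rw [AA_eq]
  unfold QQ RR
  rw [Polynomial.eval_mul, Polynomial.eval_C, Polynomial.eval_prod]
  congr 1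
  refine Finset.prod_congr rfl fun k _ => ?_
  rw [Polynomial.eval_add, Polynomial.eval_mul, Polynomial.eval_C, Polynomial.eval_C,
    Polynomial.eval_X, mul_comm]

theorem QQ_deg (d c : K → ℂ) (S : Finset K) : (QQ d c S).natDegree ≤ S.card :=
  (Polynomial.natDegree_C_mul_le _ _).trans (RR_facts d c S).1

theorem QQ_top (d c : K → ℂ) (S : Finset K) : (QQ d c S).coeff S.card = ∏ k, d k := by
  unfold QQ
  rw [Polynomial.coeff_C_mul, (RR_facts d c S).2.1, mul_comm, Finset.prod_mul_prod_compl]

theorem compl_erase_prod (d : K → ℂ) {S : Finset K} {k : K} (hk : k ∈ S) :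
    ∏ j ∈ (S.erase k)ᶜ, d j = d k * ∏ j ∈ Sᶜ, d j := by
  rw [Finset.compl_erase, Finset.prod_insert (by simpa using hk)]

theorem QQ_sub (d c : K → ℂ) {S : Finset K} (hS : S.Nonempty) :
    (QQ d c S).coeff (S.card - 1) = ∑ k ∈ S, AA d c {k} 0 := by
  have h3 := (RR_facts d c S).2.2
  obtain ⟨n, hn⟩ : ∃ n, S.card = n + 1 := ⟨S.card - 1, by have := hS.card_pos; omega⟩
  rw [hn, Polynomial.coeff_X_mul] at h3
  unfold QQ
  rw [Polynomial.coeff_C_mul, hn, Nat.add_sub_cancel, h3, Finset.mul_sum]
  refine Finset.sum_congr rfl fun k hk => ?_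
  rw [AA_eq, Finset.prod_singleton]
  have h1 : ∏ j ∈ ({k} : Finset K)ᶜ, d j = (∏ j ∈ Sᶜ, d j) * ∏ j ∈ S.erase k, d j := by
    rw [← Finset.prod_union]
    · refine Finset.prod_congr ?_ fun _ _ => rfl
      ext j
      by_cases hj : j = k
      · subst hj
        simp [hk]
      · by_cases hjS : j ∈ S <;> simp [hj, hjS]
    · exact Finset.disjoint_left.2 fun j h1 h2 => Finset.mem_compl.1 h1 (Finset.mem_of_mem_erase h2)
  rw [h1]
  ring

theorem QQ_der (d c : K → ℂ) (S : Finset K) (ζ : ℂ) :
    (QQ d c S).derivative.eval ζ = ∑ k ∈ S, AA d c (S.erase k) ζ := by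
  unfold QQ RR
  rw [Polynomial.derivative_C_mul, Polynomial.eval_mul, Polynomial.eval_C,
    Polynomial.derivative_prod_finset, Polynomial.eval_finset_sum, Finset.mul_sum]
  refine Finset.sum_congr rfl fun k hk => ?_
  rw [AA_eq, compl_erase_prod d hk, Polynomial.eval_mul, Polynomial.eval_prod]
  have h1 : ∏ j ∈ S.erase k, (C (d j) * X + C (c j) : ℂ[X]).eval ζ =
      ∏ j ∈ S.erase k, (ζ * d j + c j) := Finset.prod_congr rfl fun j _ => by
    rw [Polynomial.eval_add, Polynomial.eval_mul, Polynomial.eval_C, Polynomial.eval_C,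
      Polynomial.eval_X, mul_comm]
  have h2 : (Polynomial.derivative (C (d k) * X + C (c k) : ℂ[X])).eval ζ = d k := by
    rw [Polynomial.derivative_add, Polynomial.derivative_C, add_zero, Polynomial.derivative_C_mul,
      Polynomial.derivative_X, mul_one, Polynomial.eval_C]
  rw [h1, h2]
  ring

end PAffA

open PAffA

theorem pp_update_avg (v : V) (Φ : Finset (Finset K)) :
    pp sg Y (update φ v Φ) z = (Φ.card : ℂ)⁻¹ * ∑ S ∈ Φ, pp sg Y (update φ v {S}) z := by
  unfold pp
  simp only [prod_card, Finset.card_singleton, Nat.cast_one, one_mul]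
  rw [sum_fib, mul_inv, mul_assoc, ← Finset.mul_sum]

theorem pp_sing_affine (v : V) {Φ : Finset (Finset K)} (hΦ : Sing Φ) (ζ : ℂ) :
    pp sg Y (update φ v Φ) (update z v ζ) =
      ζ * pp sg Y (update φ v {∅}) z + pp sg Y (update φ v Φ) (update z v 0) := by
  have h1 : ∀ S ∈ Φ, pp sg Y (update φ v {S}) (update z v ζ) =
      ζ * pp sg Y (update φ v {∅}) z + pp sg Y (update φ v {S}) (update z v 0) := by
    intro S hS
    obtain ⟨k, rfl⟩ := Finset.card_eq_one.1 (hΦ.2 S hS)
    rw [pp_form, pp_form, pp_form0, Finset.sum_congr rfl fun f _ => AA_single _ _ k ζ,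
      Finset.sum_add_distrib, ← Finset.mul_sum]
    ring
  have hc : (Φ.card : ℂ) ≠ 0 := by exact_mod_cast hΦ.1.card_pos.ne'
  rw [pp_update_avg v Φ, pp_update_avg (z := update z v 0) v Φ, Finset.sum_congr rfl h1,
    Finset.sum_add_distrib, Finset.sum_const, nsmul_eq_mul, mul_add, ← mul_assoc, inv_mul_cancel₀ hc,
    one_mul]

theorem pp_poly (v : V) (S : Finset K) :
    ∃ q : ℂ[X], (∀ ζ, pp sg Y (update φ v {S}) (update z v ζ) = q.eval ζ) ∧ q.natDegree ≤ S.card ∧
      q.coeff S.card = pp sg Y (update φ v {∅}) z ∧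
      (S.Nonempty → q.coeff (S.card - 1) = ∑ k ∈ S, pp sg Y (update φ v {{k}}) (update z v 0)) ∧
      ∀ ζ, q.derivative.eval ζ = ∑ k ∈ S, pp sg Y (update φ v {S.erase k}) (update z v ζ) := by
  refine ⟨C (∏ w ∈ univ.erase v, ((φ w).card : ℂ))⁻¹ *
    ∑ f ∈ Fintype.piFinset (update φ v {∅}), QQ (dd sg Y z f v) (cc sg Y z f v) S, ?_, ?_, ?_, ?_, ?_⟩
  · intro ζ
    rw [pp_form, Polynomial.eval_mul, Polynomial.eval_C, Polynomial.eval_finset_sum]
    simp only [QQ_eval]
  · refine (Polynomial.natDegree_C_mul_le _ _).trans ?_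
    exact Polynomial.natDegree_sum_le_of_forall_le _ _ fun f _ => QQ_deg _ _ _
  · rw [Polynomial.coeff_C_mul, Polynomial.finset_sum_coeff, pp_form0]
    simp only [QQ_top]
  · intro hS
    rw [Polynomial.coeff_C_mul, Polynomial.finset_sum_coeff]
    simp only [QQ_sub _ _ hS, pp_form]
    rw [← Finset.mul_sum, Finset.sum_comm]
  · intro ζ
    rw [Polynomial.derivative_C_mul, Polynomial.eval_mul, Polynomial.eval_C, Polynomial.derivative_sum,
      Polynomial.eval_finset_sum]
    simp only [QQ_der, pp_form]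
    rw [← Finset.mul_sum, Finset.sum_comm]

theorem sing_uncF [Nonempty K] : Sing (uncF K) := by
  refine ⟨Finset.univ_nonempty.image _, fun S hS => ?_⟩
  obtain ⟨k, -, rfl⟩ := Finset.mem_image.1 hS
  simp

theorem card_uncF : (uncF K).card = Fintype.card K := by
  unfold uncF
  rw [Finset.card_image_of_injective _ Finset.singleton_injective, Finset.card_univ]

theorem sum_uncF {β : Type*} [AddCommMonoid β] (g : Finset K → β) :
    ∑ S ∈ uncF K, g S = ∑ k, g {k} := by
  unfold uncF
  rw [Finset.sum_image fun a _ b _ h => Finset.singleton_injective h]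

theorem fam_del_or_sing {r : ℕ} (hr : 0 < r) (s : Stt r) :
    (s = .del ∧ fam s = {∅}) ∨ (s ≠ .del ∧ fam s ≠ {∅} ∧ Sing (fam s)) := by
  have key : ∀ Φ : Finset (Finset (Fin r × Bool)), Sing Φ → Φ ≠ {∅} := by
    intro Φ h h0
    have := h.2 ∅ (by simp [h0])
    simp at this
  have : Nonempty (Fin r × Bool) := ⟨(⟨0, hr⟩, true)⟩
  cases s with
  | del => exact Or.inl ⟨rfl, rfl⟩
  | unc => exact Or.inr ⟨by simp, key _ sing_uncF, sing_uncF⟩
  | col c =>
    have h : Sing (fam (Stt.col c)) := by
      refine ⟨by simp [fam], fun S hS => ?_⟩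
      simp only [fam, Finset.mem_insert, Finset.mem_singleton] at hS
      rcases hS with rfl | rfl <;> simp
    exact Or.inr ⟨by simp, key _ h, h⟩
  | one c s =>
    have h : Sing (fam (Stt.one c s)) := by
      refine ⟨by simp [fam], fun S hS => ?_⟩
      simp only [fam, Finset.mem_singleton] at hS
      simp [hS]
    exact Or.inr ⟨by simp, key _ h, h⟩

theorem one_le_slope {r : ℕ} (s : Stt r) : 1 ≤ slope s ∧ slope s ≤ 320 := by
  cases s <;> simp only [slope] <;> norm_num

end Crest.Agent.R109
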