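import Crest.Agent.R109.PRep

/-!
# Row 109, task R109-PCong

Invariance and continuity of `Pu`.  PLAN.  `Pu_contour`: `Gf_rep` and `circle_exp` (points of the circle are not
roots: non-real points by `pS_roots`).  `Pu_congr`: `pS β σ Y' ℓ' (t + c) = pS β σ Y ℓ t` (`pp_gauge`, `pp_congr_z`), the
same for the deleted state, so the representation of `Gf_rep` shifts; use `Pu_eq_of_rep` (roots are inside
by `pS_ne`).  `Pu_continuous`: unfold `circleIntegral`; the integrand is jointly continuous in `(χ, θ)`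
(`pp_continuous`, `pS_ne`); `intervalIntegral.continuous_parametric_intervalIntegral_of_continuous'`.
-/

set_option autoImplicit false
set_option linter.unusedSectionVars false
set_option linter.unusedVariables false

namespace Crest.Agent.R109

open Matrix Finset Function
open scoped ComplexConjugate Real

variable {V : Type*} [Fintype V] [DecidableEq V] {r : ℕ} {β : ℝ} {σ : V → Stt r} {Y : Matrix V V ℂ}
  {ℓ : V → ℝ}

theorem Pu_contour (hr : 0 < r) (hβ : 0 < β) (hY : Y.IsHermitian) (u : V) (c R : ℝ) (hR : 0 < R)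
    (h : ∀ t : ℝ, pS β σ Y ℓ t = 0 → |t - c| < R) :
    (Pu β σ Y ℓ u : ℂ) =
      (2 * π * Complex.I)⁻¹ * ∮ t in C((c : ℂ), R), Complex.exp t * Gf β σ Y ℓ u t := by
  obtain ⟨n, lam, α, -, h0, hG, hP⟩ := Gf_rep (σ := σ) (ℓ := ℓ) hr hβ hY u
  obtain ⟨m, μ, c₀, hc₀, hμ⟩ := pS_roots (σ := σ) (ℓ := ℓ) hr hβ hY
  rw [circle_exp (fun i => (α i : ℂ)) lam c R hR (fun i => h _ (h0 i)) (fun t ht => hG t ?_), hP]
  · push_cast
    rfl
  · intro hz
    have hz' := hz
    rw [hμ] at hz'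
    obtain ⟨i, -, hi⟩ := Finset.prod_eq_zero_iff.1 ((mul_eq_zero.1 hz').resolve_left hc₀)
    have e : t = (μ i : ℂ) := sub_eq_zero.1 hi
    subst e
    have := h _ hz
    rw [← Complex.ofReal_sub, Complex.norm_real, Real.norm_eq_abs] at ht
    exact absurd ht this.ne

namespace PCongA

theorem pS_shift {Y' : Matrix V V ℂ} {ℓ' : V → ℝ} (g : V → ℂ) (hg : ∀ v, ‖g v‖ = 1)
    (h : ∀ u v, σ u ≠ .del → σ v ≠ .del → u ≠ v → Y' u v = conj (g u) * Y u v * g v) (c : ℝ)
    (hℓ : ∀ v, σ v ≠ .del → ℓ' v = ℓ v + c) (t : ℂ) :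
    pS β σ Y' ℓ' t = pS β σ Y ℓ (t - c) := by
  have hd : ∀ v, fam (σ v) ≠ {∅} → σ v ≠ .del := fun v hv e => hv (by rw [e]; rfl)
  unfold pS
  rw [pp_gauge (Y := Y) g hg (fun u v hu hv => h u v (hd u hu) (hd v hv))]
  refine pp_congr_z (fun v hv => ?_)
  unfold hts
  rw [hℓ v (hd v hv)]
  push_cast
  ring

theorem Gf_shift {Y' : Matrix V V ℂ} {ℓ' : V → ℝ} (g : V → ℂ) (hg : ∀ v, ‖g v‖ = 1)
    (h : ∀ u v, σ u ≠ .del → σ v ≠ .del → u ≠ v → Y' u v = conj (g u) * Y u v * g v) (c : ℝ)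
    (hℓ : ∀ v, σ v ≠ .del → ℓ' v = ℓ v + c) (u : V) (t : ℂ) :
    Gf β σ Y' ℓ' u t = Gf β σ Y ℓ u (t - c) := by
  have hd : ∀ v, update σ u .del v ≠ .del → σ v ≠ .del := by
    intro v hv
    by_cases e : v = u
    · subst e
      exact absurd (update_self _ _ _) hv
    · rwa [update_of_ne e] at hv
  unfold Gf
  rw [pS_shift g hg h c hℓ, pS_shift (σ := update σ u .del) (Y := Y) (ℓ := ℓ) g hg
    (fun a b ha hb => h a b (hd a ha) (hd b hb)) c (fun v hv => hℓ v (hd v hv))]

theorem pS_continuous {X : Type*} [TopologicalSpace X] {Yt : X → Matrix V V ℂ} {ℓt : X → V → ℝ}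
    {t : X → ℂ} (hY : ∀ u v, Continuous fun χ => Yt χ u v) (hℓ : ∀ v, Continuous fun χ => ℓt χ v)
    (ht : Continuous t) (σ : V → Stt r) : Continuous fun χ => pS β σ (Yt χ) (ℓt χ) (t χ) := by
  unfold pS
  refine pp_continuous hY (fun v => ?_)
  unfold hts
  have := hℓ v
  fun_prop

theorem rad_continuous {X : Type*} [TopologicalSpace X] {Yt : X → Matrix V V ℂ} {ℓt : X → V → ℝ}
    (hY : ∀ u v, Continuous fun χ => Yt χ u v) (hℓ : ∀ v, Continuous fun χ => ℓt χ v) :
    Continuous fun χ => rad r β (Yt χ) (ℓt χ) := by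
  unfold rad
  refine Continuous.add (Continuous.div_const ?_ _)
    (continuous_finset_sum _ (fun v _ => (hℓ v).abs))
  refine Continuous.add (Continuous.add ?_ continuous_const) continuous_const
  exact continuous_finset_sum _ (fun u _ => continuous_finset_sum _ (fun v _ => (hY u v).norm))

end PCongA

open PCongA in
theorem Pu_congr (hr : 0 < r) (hβ : 0 < β) (hY : Y.IsHermitian) {Y' : Matrix V V ℂ} {ℓ' : V → ℝ}
    (g : V → ℂ) (hg : ∀ v, ‖g v‖ = 1)
    (h : ∀ u v, σ u ≠ .del → σ v ≠ .del → u ≠ v → Y' u v = conj (g u) * Y u v * g v) (c : ℝ)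
    (hℓ : ∀ v, σ v ≠ .del → ℓ' v = ℓ v + c) (u : V) :
    Pu β σ Y' ℓ' u = Real.exp c * Pu β σ Y ℓ u := by
  obtain ⟨n, lam, α, -, h0, hG, hP⟩ := Gf_rep (σ := σ) (ℓ := ℓ) hr hβ hY u
  rw [Pu_eq_of_rep (Y := Y') (ℓ := ℓ') hβ u α (fun i => lam i + c) (fun i => ?_) (fun t ht => ?_), hP,
    Finset.mul_sum]
  · refine Finset.sum_congr rfl (fun i _ => ?_)
    rw [Real.exp_add]; ring
  · by_contra hc
    have h1 : rad r β Y' ℓ' ≤ ‖((lam i + c : ℝ) : ℂ)‖ := by
      rw [Complex.norm_real, Real.norm_eq_abs]; exact not_lt.1 hc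
    refine pS_ne (σ := σ) hr hβ h1 ?_
    rw [pS_shift g hg h c hℓ]
    push_cast
    rw [add_sub_cancel_right]
    exact h0 i
  · have h1 := pS_ne (σ := σ) hr hβ ht.ge
    rw [pS_shift g hg h c hℓ] at h1
    rw [Gf_shift g hg h c hℓ, hG _ h1]
    refine Finset.sum_congr rfl (fun i _ => ?_)
    push_cast
    congr 1
    ring

open PCongA in
theorem Pu_continuous (hr : 0 < r) (hβ : 0 < β) {X : Type*} [TopologicalSpace X]
    {Yt : X → Matrix V V ℂ} {ℓt : X → V → ℝ} (hY : ∀ u v, Continuous fun χ => Yt χ u v)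
    (hℓ : ∀ v, Continuous fun χ => ℓt χ v) (σ : V → Stt r) (u : V) :
    Continuous fun χ => Pu β σ (Yt χ) (ℓt χ) u := by
  unfold Pu
  refine Complex.continuous_re.comp (continuous_const.mul ?_)
  unfold circleIntegral
  refine intervalIntegral.continuous_parametric_intervalIntegral_of_continuous' ?_ _ _
  have hc : Continuous fun x : X × ℝ => circleMap 0 (rad r β (Yt x.1) (ℓt x.1)) x.2 := by
    unfold circleMap
    have := (rad_continuous (r := r) (β := β) hY hℓ).comp (continuous_fst (X := X) (Y := ℝ))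
    exact continuous_const.add ((Complex.continuous_ofReal.comp this).mul (by fun_prop))
  have hY' : ∀ a b, Continuous fun x : X × ℝ => Yt x.1 a b := fun a b => (hY a b).comp continuous_fst
  have hℓ' : ∀ a, Continuous fun x : X × ℝ => ℓt x.1 a := fun a => (hℓ a).comp continuous_fst
  have hG : Continuous fun x : X × ℝ =>
      Gf β σ (Yt x.1) (ℓt x.1) u (circleMap 0 (rad r β (Yt x.1) (ℓt x.1)) x.2) := by
    unfold Gf
    by_cases hu : σ u = .del
    · simp only [hu, if_true]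
      exact continuous_const
    · simp only [hu, if_false]
      refine Continuous.div (continuous_const.mul (pS_continuous hY' hℓ' hc _))
        (pS_continuous hY' hℓ' hc _) (fun x => pS_ne hr hβ ?_)
      rw [norm_circleMap_zero]
      exact le_abs_self _
  have e : (uncurry fun (χ : X) (θ : ℝ) => deriv (circleMap 0 (rad r β (Yt χ) (ℓt χ))) θ •
      (Complex.exp (circleMap 0 (rad r β (Yt χ) (ℓt χ)) θ) *
        Gf β σ (Yt χ) (ℓt χ) u (circleMap 0 (rad r β (Yt χ) (ℓt χ)) θ)))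
      = fun x : X × ℝ => (circleMap 0 (rad r β (Yt x.1) (ℓt x.1)) x.2 * Complex.I) *
        (Complex.exp (circleMap 0 (rad r β (Yt x.1) (ℓt x.1)) x.2) *
          Gf β σ (Yt x.1) (ℓt x.1) u (circleMap 0 (rad r β (Yt x.1) (ℓt x.1)) x.2)) := by
    funext x
    simp only [uncurry, deriv_circleMap, smul_eq_mul]
  rw [e]
  exact (hc.mul continuous_const).mul ((Complex.continuous_exp.comp hc).mul hG)

end Crest.Agent.R109
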