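import Crest.Agent.R109.PSym

/-!
# Row 109, task R109-PLine

`pp` along a line `t ↦ z₀ + t a`.  PLAN.  `pp_hasDerivAt`: chain rule for the differentiable function
`z ↦ pp sg Y φ z` on `V → ℂ` (its partial derivatives are given by `pp_sing_affine`, `pp_congr_z`), or induction on
the set of moving coordinates.  Degrees: induction on the finite set `T` of vertices whose height moves,
using `pp_sing_affine` (`pp = (z₀ v + t a v) * pp (v deleted) + pp (height of v frozen at 0)`): the degree is at most the number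
of moving non-deleted vertices with the stated top coefficient `(∏ a) * pp (all moving vertices deleted)`.  For
`pp_line0` that top coefficient is `pp` of the single vertex `v` at height `0`, which vanishes.
-/

set_option autoImplicit false
set_option linter.unusedSectionVars false
set_option linter.unusedVariables false

namespace Crest.Agent.R109

open Matrix Finset Function Polynomial
open scoped ComplexConjugate Real

variable {V K : Type*} [Fintype V] [DecidableEq V] [Fintype K] [DecidableEq K]
  {sg : K → ℂ} {Y : Matrix V V ℂ} {φ : V → Finset (Finset K)} {z : V → ℂ}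

namespace PLineA

theorem affine {v : V} (hv : Sing (φ v)) (z : V → ℂ) (ζ : ℂ) :
    pp sg Y φ (update z v ζ) = ζ * pp sg Y (update φ v {∅}) z + pp sg Y φ (update z v 0) := by
  have := pp_sing_affine (sg := sg) (Y := Y) (φ := φ) (z := z) v hv ζ
  rwa [update_eq_self] at this

/-- heights moving on `T` only -/
def zT (T : Finset V) (z₀ a : V → ℂ) (t : ℂ) : V → ℂ :=
  fun u => if u ∈ T then z₀ u + t * a u else z₀ u

theorem zT_empty (z₀ a : V → ℂ) (t : ℂ) : zT ∅ z₀ a t = z₀ := by
  funext u; simp [zT]

theorem zT_insert {T : Finset V} {v : V} (z₀ a : V → ℂ) (t : ℂ) :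
    zT (insert v T) z₀ a t = update (zT T z₀ a t) v (z₀ v + t * a v) := by
  funext u
  by_cases h : u = v
  · subst h; simp [zT]
  · simp [zT, h]

theorem zT_update {T : Finset V} {v : V} (hv : v ∉ T) (z₀ a : V → ℂ) (t : ℂ) :
    update (zT T z₀ a t) v 0 = zT T (update z₀ v 0) a t := by
  funext u
  by_cases h : u = v
  · subst h; simp [zT, hv]
  · simp [zT, h]

theorem sing_update {T : Finset V} {v : V} (hv : v ∉ T) (h : ∀ u ∈ T, Sing (φ u))
    (Φ : Finset (Finset K)) : ∀ u ∈ T, Sing (update φ v Φ u) := by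
  intro u hu
  have : u ≠ v := fun e => hv (e ▸ hu)
  rw [update_of_ne this]
  exact h u hu

theorem deriv (a : V → ℂ) (t : ℂ) (T : Finset V) :
    ∀ (φ : V → Finset (Finset K)) (z₀ : V → ℂ), (∀ u ∈ T, Sing (φ u)) →
      HasDerivAt (fun t => pp sg Y φ (zT T z₀ a t))
        (∑ u ∈ T, a u * pp sg Y (update φ u {∅}) (zT T z₀ a t)) t := by
  induction T using Finset.induction_on with
  | empty =>
    intro φ z₀ _
    simp only [zT_empty, Finset.sum_empty]
    exact hasDerivAt_const _ _
  | insert v T hv ih =>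
    intro φ z₀ h
    have hT : ∀ u ∈ T, Sing (φ u) := fun u hu => h u (Finset.mem_insert_of_mem hu)
    have hvS : Sing (φ v) := h v (Finset.mem_insert_self _ _)
    have e : (fun t => pp sg Y φ (zT (insert v T) z₀ a t))
        = fun t => (z₀ v + t * a v) * pp sg Y (update φ v {∅}) (zT T z₀ a t)
          + pp sg Y φ (zT T (update z₀ v 0) a t) := by
      funext t
      rw [zT_insert, affine hvS, zT_update hv]
    have h1 := ih (update φ v {∅}) z₀ (sing_update hv hT _)
    have h2 := ih φ (update z₀ v 0) hT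
    have h0 : HasDerivAt (fun t : ℂ => z₀ v + t * a v) (a v) t := by
      simpa using ((hasDerivAt_id t).mul_const (a v)).const_add (z₀ v)
    have h3 := (h0.mul h1).add h2
    rw [e]
    refine HasDerivAt.congr_deriv h3 (Eq.symm ?_)
    rw [Finset.sum_insert hv, Finset.mul_sum, add_assoc, ← Finset.sum_add_distrib]
    congr 1
    · congr 1
      apply pp_congr_z
      intro u hu
      have : u ≠ v := by
        rintro rfl
        exact hu (update_self _ _ _)
      rw [zT_insert, update_of_ne this]
    · apply Finset.sum_congr rfl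
      intro u hu
      have huv : u ≠ v := fun e => hv (e ▸ hu)
      have hS : Sing (update φ u {∅} v) := by rw [update_of_ne huv.symm]; exact hvS
      rw [zT_insert, affine hS, zT_update hv, update_comm huv]
      ring

theorem poly (a : V → ℂ) (T : Finset V) :
    ∀ (φ : V → Finset (Finset K)) (z₀ : V → ℂ), (∀ u ∈ T, Sing (φ u)) →
      ∃ q : ℂ[X], (∀ t, pp sg Y φ (zT T z₀ a t) = q.eval t) ∧ q.natDegree ≤ T.card ∧
        q.coeff T.card = (∏ v ∈ T, a v) * pp sg Y (fun v => if v ∈ T then {∅} else φ v) z₀ := by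
  induction T using Finset.induction_on with
  | empty =>
    intro φ z₀ _
    refine ⟨C (pp sg Y φ z₀), fun t => by rw [zT_empty, eval_C], by simp, by simp⟩
  | insert v T hv ih =>
    intro φ z₀ h
    have hT : ∀ u ∈ T, Sing (φ u) := fun u hu => h u (Finset.mem_insert_of_mem hu)
    have hvS : Sing (φ v) := h v (Finset.mem_insert_self _ _)
    obtain ⟨q₁, e₁, d₁, c₁⟩ := ih (update φ v {∅}) z₀ (sing_update hv hT _)
    obtain ⟨q₂, e₂, d₂, -⟩ := ih φ (update z₀ v 0) hT
    refine ⟨C (z₀ v) * q₁ + C (a v) * (X * q₁) + q₂, fun t => ?_, ?_, ?_⟩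
    · rw [zT_insert, affine hvS, zT_update hv, e₁, e₂]
      simp only [eval_add, eval_mul, eval_C, eval_X]
      ring
    · rw [Finset.card_insert_of_notMem hv]
      refine natDegree_add_le_of_degree_le (natDegree_add_le_of_degree_le ?_ ?_) (d₂.trans (Nat.le_succ _))
      · exact (natDegree_C_mul_le _ _).trans (d₁.trans (Nat.le_succ _))
      · refine (natDegree_C_mul_le _ _).trans (natDegree_mul_le.trans ?_)
        have := natDegree_X_le (R := ℂ)
        omega
    · rw [Finset.card_insert_of_notMem hv, coeff_add, coeff_add, coeff_C_mul, coeff_C_mul, coeff_X_mul,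
        coeff_eq_zero_of_natDegree_lt (Nat.lt_succ_of_le d₁),
        coeff_eq_zero_of_natDegree_lt (Nat.lt_succ_of_le d₂), c₁, Finset.prod_insert hv]
      have : (fun u => if u ∈ T then ({∅} : Finset (Finset K)) else update φ v {∅} u)
          = fun u => if u ∈ insert v T then {∅} else φ u := by
        funext u
        by_cases h : u = v
        · subst h; simp
        · simp [h]
      rw [this]
      ring

theorem sing_of_mem (hφ : ∀ v, φ v = {∅} ∨ Sing (φ v)) :
    ∀ u ∈ univ.filter fun v => φ v ≠ {∅}, Sing (φ u) := by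
  intro u hu
  exact (hφ u).resolve_left (Finset.mem_filter.mp hu).2

theorem pp_zT (φ' : V → Finset (Finset K)) (hφ' : ∀ v, φ' v ≠ {∅} → φ v ≠ {∅}) (z₀ a : V → ℂ) (t : ℂ) :
    (pp sg Y φ' fun v => z₀ v + t * a v)
      = pp sg Y φ' (zT (univ.filter fun v => φ v ≠ {∅}) z₀ a t) := by
  apply pp_congr_z
  intro v hv
  simp [zT, hφ' v hv]

end PLineA

theorem pp_hasDerivAt (hφ : ∀ v, φ v = {∅} ∨ Sing (φ v)) (z₀ a : V → ℂ) (t : ℂ) :
    HasDerivAt (fun t => pp sg Y φ fun v => z₀ v + t * a v)
      (∑ u, if φ u = {∅} then 0 else a u * pp sg Y (update φ u {∅}) fun v => z₀ v + t * a v) t := by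
  have h := PLineA.deriv (sg := sg) (Y := Y) a t _ φ z₀ (PLineA.sing_of_mem hφ)
  have e : (fun t => pp sg Y φ fun v => z₀ v + t * a v)
      = fun t => pp sg Y φ (PLineA.zT (univ.filter fun v => φ v ≠ {∅}) z₀ a t) := by
    funext t
    exact PLineA.pp_zT φ (fun _ h => h) z₀ a t
  rw [e]
  convert h using 1
  rw [Finset.sum_filter]
  apply Finset.sum_congr rfl
  intro u _
  by_cases hu : φ u = {∅}
  · simp [hu]
  · rw [if_neg hu, if_pos hu]
    congr 1
    apply PLineA.pp_zT
    intro v hv
    by_cases hvu : v = u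
    · rw [hvu]; exact hu
    · rwa [update_of_ne hvu] at hv

theorem pp_line (hφ : ∀ v, φ v = {∅} ∨ Sing (φ v)) (z₀ a : V → ℂ) :
    ∃ q : ℂ[X], (∀ t, (pp sg Y φ fun v => z₀ v + t * a v) = q.eval t) ∧
      q.natDegree ≤ (univ.filter fun v => φ v ≠ {∅}).card ∧
      q.coeff (univ.filter fun v => φ v ≠ {∅}).card = ∏ v ∈ univ.filter fun v => φ v ≠ {∅}, a v := by
  obtain ⟨q, e, d, c⟩ := PLineA.poly (sg := sg) (Y := Y) a _ φ z₀ (PLineA.sing_of_mem hφ)
  refine ⟨q, fun t => ?_, d, ?_⟩
  · rw [← e]; exact PLineA.pp_zT φ (fun _ h => h) z₀ a t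
  · have : (fun v => if v ∈ univ.filter (fun v => φ v ≠ {∅}) then ({∅} : Finset (Finset K)) else φ v)
        = fun _ => {∅} := by
      funext v
      by_cases hv : φ v = {∅}
      · simp [hv]
      · simp [hv]
    rw [c, this, pp_del, mul_one]

theorem pp_line0 (hφ : ∀ v, φ v = {∅} ∨ Sing (φ v)) (z₀ a : V → ℂ) {u : V} (hu : φ u = {∅}) (k : K) :
    ∃ q : ℂ[X], (∀ t, pp sg Y (update φ u {{k}}) (update (fun v => z₀ v + t * a v) u 0) = q.eval t) ∧
      q.natDegree ≤ (univ.filter fun v => φ v ≠ {∅}).card ∧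
      q.coeff (univ.filter fun v => φ v ≠ {∅}).card = 0 := by
  have huT : u ∉ univ.filter fun v => φ v ≠ {∅} := by simp [hu]
  obtain ⟨q, e, d, c⟩ := PLineA.poly (sg := sg) (Y := Y) a _ (update φ u {{k}}) (update z₀ u 0)
    (PLineA.sing_update huT (PLineA.sing_of_mem hφ) _)
  refine ⟨q, fun t => ?_, d, ?_⟩
  · rw [← e, ← PLineA.zT_update huT]
    apply pp_congr_z
    intro v hv
    by_cases hvu : v = u
    · subst hvu; simp
    · rw [update_of_ne hvu] at hv
      rw [update_of_ne hvu, update_of_ne hvu]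
      simp [PLineA.zT, hv]
  · have : (fun v => if v ∈ univ.filter (fun v => φ v ≠ {∅}) then ({∅} : Finset (Finset K))
        else update φ u {{k}} v) = fun v => {update (fun _ => (∅ : Finset K)) u {k} v} := by
      funext v
      by_cases hvu : v = u
      · subst hvu; simp [hu]
      · by_cases hv : φ v = {∅}
        · simp [hv, hvu]
        · simp [hv, hvu]
    rw [c, this, pp_single]
    apply mul_eq_zero_of_right
    unfold pf
    apply Finset.prod_eq_zero (Finset.mem_univ k)
    apply Matrix.det_eq_zero_of_row_eq_zero u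
    intro w
    by_cases hw : u = w
    · subst hw; simp [mat]
    · have hw' : w ≠ u := fun e => hw e.symm
      simp [mat, hw, hw']

end Crest.Agent.R109
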