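import Crest.Agent.R109.ZFree
import Crest.Agent.R109.PLine
import Crest.Agent.R109.Herg

/-!
# Row 109, task R109-PRep

Representation of the potential.  PLAN.  `hts β σ ℓ t v = z₀ v + t * a v` with `a v = slope * β > 0`, so
`im (hts t v)` has the sign of `im t`.  `pS_roots`: `pp_line`, `stab_up/down`, `real_roots`.  `pS_ne`: `ext_ne` with
`K₀ = ∑ ∑ ‖Y‖`.  `Pu_eq_of_rep`: `circleIntegral` of `exp t / (t - λ)` is `2 π i exp λ`
(`Complex.circleIntegral_sub_inv_smul_of_differentiable_on…`/`DiffContOnCl.circleIntegral_sub_inv_smul`).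
`Gf_rep`: `1 / Gf = (z u - X)/(slope β)` has positive imaginary part (`pp_sing_affine`, `root_im_le`), so `Gf` is
Herglotz; `herglotz_rep` (numerator of degree `≤ n - 1`).  `Pot_roots`: `∑ Gf = pS'/pS = ∑ 1/(t - λ)`
(`pp_hasDerivAt`, `logDeriv_prod` or `HasDerivAt.finset_prod`).  `vertex_rep`: `herglotz_rep` for
`- pp (… height 0) / c` (`pp_line0`, `root_im_le/ge`).
-/

set_option autoImplicit false
set_option linter.unusedSectionVars false
set_option linter.unusedVariables false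

namespace Crest.Agent.R109

open Matrix Finset Function
open scoped ComplexConjugate Real

variable {V : Type*} [Fintype V] [DecidableEq V] {r : ℕ} {β : ℝ} {σ : V → Stt r} {Y : Matrix V V ℂ}
  {ℓ : V → ℝ}

namespace PRepA

theorem sgn_sgn : Sgn (sgn : Fin r × Bool → ℂ) := by
  rintro ⟨c, b⟩
  cases b <;> simp [sgn, bsg]

theorem fam_ok (hr : 0 < r) (σ : V → Stt r) (v : V) : fam (σ v) = {∅} ∨ Sing (fam (σ v)) := by
  rcases fam_del_or_sing hr (σ v) with h | h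
  · exact Or.inl h.2
  · exact Or.inr h.2.2

theorem adm_of {K : Type*} [DecidableEq K] {Φ : Finset (Finset K)} (h : Φ = {∅} ∨ Sing Φ) :
    Adm Φ := by
  rcases h with h | h
  · left; rw [h, card_singleton]
  · exact Or.inr h

theorem ok_update {K : Type*} [DecidableEq K] {φ : V → Finset (Finset K)}
    (h : ∀ v, φ v = {∅} ∨ Sing (φ v)) (u : V) :
    ∀ v, update φ u {∅} v = {∅} ∨ Sing (update φ u {∅} v) := by
  intro v
  by_cases e : v = u
  · subst e; left; simp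
  · rw [update_of_ne e]; exact h v

/-- base point of the line -/
noncomputable def z0 (β : ℝ) (σ : V → Stt r) (ℓ : V → ℝ) : V → ℂ :=
  fun v => (slope (σ v) : ℂ) * ((bar r : ℂ) - (β : ℂ) * (ℓ v : ℂ))

/-- direction of the line -/
noncomputable def aa (β : ℝ) (σ : V → Stt r) : V → ℂ := fun v => (slope (σ v) : ℂ) * (β : ℂ)

theorem hts_eq (t : ℂ) : hts β σ ℓ t = fun v => z0 β σ ℓ v + t * aa β σ v := by
  funext v
  simp only [hts, z0, aa]
  ring

theorem slope_pos (s : Stt r) : 0 < slope s := lt_of_lt_of_le one_pos (one_le_slope s).1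

theorem aa_ne (hβ : 0 < β) (v : V) : aa β σ v ≠ 0 :=
  mul_ne_zero (Complex.ofReal_ne_zero.2 (slope_pos _).ne') (Complex.ofReal_ne_zero.2 hβ.ne')

theorem hts_im (t : ℂ) (v : V) : (hts β σ ℓ t v).im = slope (σ v) * β * t.im := by
  simp [hts]
  ring

theorem hts_up (hβ : 0 < β) {t : ℂ} (ht : 0 < t.im) (v : V) : 0 < (hts β σ ℓ t v).im := by
  rw [hts_im]
  have := slope_pos (σ v)
  positivity

theorem hts_down (hβ : 0 < β) {t : ℂ} (ht : t.im < 0) (v : V) : (hts β σ ℓ t v).im < 0 := by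
  rw [hts_im]
  exact mul_neg_of_pos_of_neg (mul_pos (slope_pos _) hβ) ht

theorem fam_update (u : V) :
    (fun v => fam (update σ u .del v)) = update (fun v => fam (σ v)) u {∅} := by
  funext v
  by_cases e : v = u
  · subst e; simp [fam]
  · simp [update_of_ne e]

theorem pS_del (u : V) (t : ℂ) : pS β (update σ u .del) Y ℓ t =
    pp sgn Y (update (fun v => fam (σ v)) u {∅}) (hts β σ ℓ t) := by
  unfold pS
  rw [fam_update]
  refine pp_congr_z fun v hv => ?_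
  have e : v ≠ u := by
    rintro rfl
    simp at hv
  simp only [hts, update_of_ne e]

theorem line_roots (hβ : 0 < β) (hY : Y.IsHermitian) {φ : V → Finset (Finset (Fin r × Bool))}
    (hφ : ∀ v, φ v = {∅} ∨ Sing (φ v)) :
    ∃ (τ : Fin (univ.filter fun v => φ v ≠ {∅}).card → ℝ) (c : ℂ), c ≠ 0 ∧
      ∀ t, pp sgn Y φ (hts β σ ℓ t) = c * ∏ j, (t - (τ j : ℂ)) := by
  obtain ⟨q, h1, h2, h3⟩ := pp_line (sg := sgn) (Y := Y) hφ (z0 β σ ℓ) (aa β σ)
  have hc : q.coeff (univ.filter fun v => φ v ≠ {∅}).card ≠ 0 := by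
    rw [h3]
    exact prod_ne_zero_iff.2 fun v _ => aa_ne hβ v
  obtain ⟨τ, hτ⟩ := real_roots q h2 hc fun ζ hζ => by
    rw [← h1, ← hts_eq]
    rcases lt_or_gt_of_ne hζ with h | h
    · exact stab_down sgn_sgn hY (fun v => adm_of (hφ v)) fun v _ => hts_down hβ h v
    · exact stab_up sgn_sgn hY (fun v => adm_of (hφ v)) fun v _ => hts_up hβ h v
  exact ⟨τ, _, hc, fun t => by rw [hts_eq, h1, hτ]⟩

theorem bar_nonneg (r : ℕ) : 0 ≤ bar r := by unfold bar; positivity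

theorem pS_cont : Continuous fun t => pS β σ Y ℓ t := by
  unfold pS
  refine pp_continuous (Yt := fun _ => Y) (fun _ _ => continuous_const) fun v => ?_
  unfold hts
  fun_prop

theorem im_div {a : ℝ} (ha : 0 ≤ a) {w : ℂ} (hw : 0 ≤ w.im) : ((a : ℂ) / w).im ≤ 0 := by
  rw [Complex.div_im]
  simp only [Complex.ofReal_im, Complex.ofReal_re, zero_mul, zero_div, zero_sub, Left.neg_nonpos_iff]
  exact div_nonneg (mul_nonneg ha hw) (Complex.normSq_nonneg _)

theorem im_div' {a : ℝ} (ha : 0 ≤ a) {w : ℂ} (hw : w.im ≤ 0) : 0 ≤ ((a : ℂ) / w).im := by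
  have := im_div ha (w := -w) (by simpa using hw)
  rw [div_neg, Complex.neg_im] at this
  linarith

theorem Pu_del {u : V} (hu : σ u = .del) : Pu β σ Y ℓ u = 0 := by
  simp [Pu, Gf, hu, circleIntegral]

theorem lt_rad (hne : ∀ t : ℂ, rad r β Y ℓ ≤ ‖t‖ → pS β σ Y ℓ t ≠ 0) {x : ℝ}
    (hx : pS β σ Y ℓ x = 0) : |x| < rad r β Y ℓ := by
  by_contra h
  refine hne x ?_ hx
  rw [Complex.norm_real, Real.norm_eq_abs]
  exact not_lt.1 h

end PRepA

theorem pS_roots (hr : 0 < r) (hβ : 0 < β) (hY : Y.IsHermitian) :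
    ∃ (n : ℕ) (lam : Fin n → ℝ) (c : ℂ), c ≠ 0 ∧ ∀ t, pS β σ Y ℓ t = c * ∏ i, (t - (lam i : ℂ)) := by
  obtain ⟨τ, c, hc, h⟩ := PRepA.line_roots (σ := σ) (ℓ := ℓ) hβ hY (PRepA.fam_ok hr σ)
  exact ⟨_, τ, c, hc, h⟩

theorem pS_ne (hr : 0 < r) (hβ : 0 < β) {t : ℂ} (ht : rad r β Y ℓ ≤ ‖t‖) : pS β σ Y ℓ t ≠ 0 := by
  refine ext_ne PRepA.sgn_sgn (K₀ := ∑ u, ∑ v, ‖Y u v‖) (fun u => ?_)
    (fun v => PRepA.adm_of (PRepA.fam_ok hr σ v)) fun v _ => ?_
  · exact single_le_sum (f := fun u => ∑ v, ‖Y u v‖)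
      (fun _ _ => sum_nonneg fun _ _ => norm_nonneg _) (mem_univ u)
  · have hb := PRepA.bar_nonneg r
    have h1 : |ℓ v| ≤ ∑ v, |ℓ v| :=
      single_le_sum (f := fun v => |ℓ v|) (fun _ _ => abs_nonneg _) (mem_univ v)
    have h2 : ‖t‖ - |ℓ v| ≤ ‖t - (ℓ v : ℂ)‖ := by
      have := norm_sub_norm_le t (ℓ v : ℂ)
      rwa [Complex.norm_real, Real.norm_eq_abs] at this
    have h3 : β * ‖t - (ℓ v : ℂ)‖ - bar r ≤ ‖(bar r : ℂ) + (β : ℂ) * (t - (ℓ v : ℂ))‖ := by
      have := norm_sub_norm_le ((β : ℂ) * (t - (ℓ v : ℂ))) (-(bar r : ℂ))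
      rwa [norm_mul, norm_neg, Complex.norm_real, Complex.norm_real, Real.norm_of_nonneg hβ.le,
        Real.norm_of_nonneg hb, sub_neg_eq_add, add_comm] at this
    have h4 : (∑ u, ∑ v, ‖Y u v‖ + bar r + 1) / β ≤ ‖t - (ℓ v : ℂ)‖ := by
      unfold rad at ht
      linarith
    rw [div_le_iff₀ hβ] at h4
    have h5 := (one_le_slope (σ v)).1
    unfold hts
    rw [norm_mul, Complex.norm_real, Real.norm_of_nonneg (by linarith)]
    have h6 := norm_nonneg ((bar r : ℂ) + (β : ℂ) * (t - (ℓ v : ℂ)))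
    nlinarith

theorem rad_pos (hβ : 0 < β) : 0 < rad r β Y ℓ := by
  have hb := PRepA.bar_nonneg r
  unfold rad
  positivity

theorem circle_exp {I : Type*} [Fintype I] (α : I → ℂ) (lam : I → ℝ) (c R : ℝ) (hR : 0 < R)
    (h : ∀ i, |lam i - c| < R) {G : ℂ → ℂ}
    (hG : ∀ t : ℂ, ‖t - c‖ = R → G t = ∑ i, α i / (t - (lam i : ℂ))) :
    (2 * π * Complex.I)⁻¹ * (∮ t in C((c : ℂ), R), Complex.exp t * G t) =
      ∑ i, α i * (Real.exp (lam i) : ℂ) := by
  have hm : ∀ i, (lam i : ℂ) ∈ Metric.ball (c : ℂ) R := fun i => by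
    rw [Metric.mem_ball, dist_eq_norm, ← Complex.ofReal_sub, Complex.norm_real, Real.norm_eq_abs]
    exact h i
  have e1 : (∮ t in C((c : ℂ), R), Complex.exp t * G t) =
      ∮ t in C((c : ℂ), R), ∑ i, α i * ((t - (lam i : ℂ))⁻¹ • Complex.exp t) := by
    refine circleIntegral.integral_congr hR.le fun t ht => ?_
    rw [hG t (mem_sphere_iff_norm.1 ht), mul_sum]
    refine sum_congr rfl fun i _ => ?_
    rw [smul_eq_mul, div_eq_mul_inv]
    ring
  rw [e1, circleIntegral.integral_fun_sum, mul_sum]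
  · refine sum_congr rfl fun i _ => ?_
    rw [circleIntegral.integral_const_mul,
      Complex.differentiable_exp.diffContOnCl.circleIntegral_sub_inv_smul (hm i), smul_eq_mul,
      Complex.ofReal_exp]
    have : (2 * π * Complex.I : ℂ) ≠ 0 := by simp [Real.pi_ne_zero]
    field_simp
  · intro i _
    refine ContinuousOn.circleIntegrable hR.le ?_
    refine continuousOn_const.mul (ContinuousOn.fun_smul (ContinuousOn.inv₀
      (continuous_id.sub continuous_const).continuousOn ?_) Complex.continuous_exp.continuousOn)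
    intro t ht e
    have h1 := hm i
    have e' : t = (lam i : ℂ) := sub_eq_zero.1 e
    rw [← e', Metric.mem_ball, Metric.mem_sphere.1 ht] at h1
    exact lt_irrefl _ h1

theorem Pu_eq_of_rep {I : Type*} [Fintype I] (hβ : 0 < β) (u : V) (α lam : I → ℝ)
    (h : ∀ i, |lam i| < rad r β Y ℓ)
    (hG : ∀ t : ℂ, ‖t‖ = rad r β Y ℓ → Gf β σ Y ℓ u t = ∑ i, (α i : ℂ) / (t - (lam i : ℂ))) :
    Pu β σ Y ℓ u = ∑ i, α i * Real.exp (lam i) := by
  have := circle_exp (fun i => (α i : ℂ)) lam 0 (rad r β Y ℓ) (rad_pos hβ) (by simpa using h)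
    (G := Gf β σ Y ℓ u) (by simpa using hG)
  unfold Pu
  rw [Complex.ofReal_zero] at this
  rw [this, Complex.re_sum]
  refine sum_congr rfl fun i _ => ?_
  rw [← Complex.ofReal_mul, Complex.ofReal_re]

theorem Gf_rep (hr : 0 < r) (hβ : 0 < β) (hY : Y.IsHermitian) (u : V) :
    ∃ (n : ℕ) (lam α : Fin n → ℝ), (∀ i, 0 ≤ α i) ∧ (∀ i, pS β σ Y ℓ (lam i) = 0) ∧
      (∀ t : ℂ, pS β σ Y ℓ t ≠ 0 → Gf β σ Y ℓ u t = ∑ i, (α i : ℂ) / (t - (lam i : ℂ))) ∧
      Pu β σ Y ℓ u = ∑ i, α i * Real.exp (lam i) := by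
  by_cases hu : σ u = .del
  · refine ⟨0, fun i => i.elim0, fun i => i.elim0, fun i => i.elim0, fun i => i.elim0, ?_, ?_⟩
    · intro t _
      simp [Gf, hu]
    · simp [PRepA.Pu_del hu]
  have hφ := PRepA.fam_ok hr σ
  have hadm : ∀ v, Adm (fam (σ v)) := fun v => PRepA.adm_of (hφ v)
  obtain ⟨hne, hsing⟩ : fam (σ u) ≠ {∅} ∧ Sing (fam (σ u)) := by
    rcases fam_del_or_sing hr (σ u) with h | h
    · exact absurd h.1 hu
    · exact h.2
  obtain ⟨lam, c, hc, hP⟩ := PRepA.line_roots (σ := σ) (ℓ := ℓ) hβ hY hφ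
  obtain ⟨q, q1, q2, -⟩ := pp_line (sg := sgn) (Y := Y) (PRepA.ok_update hφ u)
    (PRepA.z0 β σ ℓ) (PRepA.aa β σ)
  have hlt : (univ.filter fun v => update (fun v => fam (σ v)) u {∅} v ≠ {∅}).card <
      (univ.filter fun v => fam (σ v) ≠ {∅}).card := by
    refine card_lt_card ⟨fun v hv => ?_, fun h => ?_⟩
    · rw [mem_filter] at hv ⊢
      refine ⟨hv.1, ?_⟩
      by_cases e : v = u
      · rw [e]; exact hne
      · simpa [update_of_ne e] using hv.2
    · have := h (mem_filter.2 ⟨mem_univ u, hne⟩)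
      simp at this
  have hdeg : (Polynomial.C (PRepA.aa β σ u / c) * q).natDegree <
      (univ.filter fun v => fam (σ v) ≠ {∅}).card :=
    lt_of_le_of_lt ((Polynomial.natDegree_C_mul_le _ _).trans q2) hlt
  have hG : ∀ t, (Polynomial.C (PRepA.aa β σ u / c) * q).eval t / ∏ j, (t - (lam j : ℂ)) =
      Gf β σ Y ℓ u t := by
    intro t
    unfold Gf
    rw [if_neg hu, PRepA.pS_del, pS, hP, Polynomial.eval_mul, Polynomial.eval_C, ← q1,
      ← PRepA.hts_eq, PRepA.aa, div_mul_eq_mul_div, div_div]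
  have hG2 : ∀ t, pp sgn Y (update (fun v => fam (σ v)) u {∅}) (hts β σ ℓ t) ≠ 0 →
      Gf β σ Y ℓ u t = ((slope (σ u) * β : ℝ) : ℂ) / (hts β σ ℓ t u -
        -pp sgn Y (update (fun v => fam (σ v)) u (fam (σ u))) (update (hts β σ ℓ t) u 0) /
          pp sgn Y (update (fun v => fam (σ v)) u {∅}) (hts β σ ℓ t)) := by
    intro t hD
    have e := pp_sing_affine (sg := sgn) (Y := Y) (φ := fun v => fam (σ v)) (z := hts β σ ℓ t) u
      hsing (hts β σ ℓ t u)
    rw [update_eq_self u (hts β σ ℓ t)] at e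
    have e2 : pS β σ Y ℓ t =
        pp sgn Y (update (fun v => fam (σ v)) u (fam (σ u))) (hts β σ ℓ t) := by
      rw [update_eq_self u (fun v => fam (σ v))]
      rfl
    unfold Gf
    rw [if_neg hu, PRepA.pS_del, e2, e, neg_div, sub_neg_eq_add, add_div' _ _ _ hD, div_div_eq_mul_div,
      Complex.ofReal_mul]
  have ha : 0 ≤ slope (σ u) * β := (mul_pos (PRepA.slope_pos _) hβ).le
  have hadm' : ∀ v, Adm (update (fun v => fam (σ v)) u {∅} v) := fun v =>
    PRepA.adm_of (PRepA.ok_update hφ u v)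
  obtain ⟨κ, k1, -, k2, -⟩ := herglotz_rep lam _ hdeg.le
    (fun t ht => by
      rw [hG, hG2 t (stab_up PRepA.sgn_sgn hY hadm' fun v _ => PRepA.hts_up hβ ht v)]
      refine PRepA.im_div ha ?_
      have h1 := root_im_le (z := hts β σ ℓ t) PRepA.sgn_sgn hY hadm (u := u)
        (fun v _ _ => PRepA.hts_up hβ ht v) hsing
      have h2 := PRepA.hts_up (σ := σ) (ℓ := ℓ) hβ ht u
      rw [Complex.sub_im]
      linarith)
    (fun t ht => by
      rw [hG, hG2 t (stab_down PRepA.sgn_sgn hY hadm' fun v _ => PRepA.hts_down hβ ht v)]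
      refine PRepA.im_div' ha ?_
      have h1 := root_im_ge (z := hts β σ ℓ t) PRepA.sgn_sgn hY hadm (u := u)
        (fun v _ _ => PRepA.hts_down hβ ht v) hsing
      have h2 := PRepA.hts_down (σ := σ) (ℓ := ℓ) hβ ht u
      rw [Complex.sub_im]
      linarith)
  have r0 : ∀ i, pS β σ Y ℓ (lam i) = 0 := fun i => by
    rw [pS, hP, prod_eq_zero (mem_univ i) (sub_self _), mul_zero]
  have r1 : ∀ t : ℂ, pS β σ Y ℓ t ≠ 0 → Gf β σ Y ℓ u t = ∑ i, (κ i : ℂ) / (t - (lam i : ℂ)) := by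
    intro t ht
    rw [← hG, k2 t fun j e => ht (by rw [e, r0]), Polynomial.coeff_eq_zero_of_natDegree_lt hdeg,
      zero_add]
  refine ⟨_, lam, κ, k1, r0, r1, Pu_eq_of_rep hβ u κ lam
    (fun i => PRepA.lt_rad (fun t ht => pS_ne hr hβ ht) (r0 i)) fun t ht => r1 t ?_⟩
  exact pS_ne hr hβ ht.ge

theorem Pu_nonneg (hr : 0 < r) (hβ : 0 < β) (hY : Y.IsHermitian) (u : V) : 0 ≤ Pu β σ Y ℓ u := by
  obtain ⟨n, lam, α, h1, -, -, h2⟩ := Gf_rep (σ := σ) (ℓ := ℓ) hr hβ hY u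
  rw [h2]
  exact sum_nonneg fun i _ => mul_nonneg (h1 i) (Real.exp_pos _).le

theorem Pu_del {u : V} (hu : σ u = .del) : Pu β σ Y ℓ u = 0 := by
  exact PRepA.Pu_del hu

theorem Pot_roots (hr : 0 < r) (hβ : 0 < β) {I : Type*} [Fintype I] (lam : I → ℝ) {c : ℂ} (hc : c ≠ 0)
    (h : ∀ t, pS β σ Y ℓ t = c * ∏ i, (t - (lam i : ℂ))) : Pot β σ Y ℓ = ∑ i, Real.exp (lam i) := by
  classical
  have hR : 0 < rad r β Y ℓ := rad_pos hβ
  have r0 : ∀ i, pS β σ Y ℓ (lam i) = 0 := fun i => by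
    rw [h, prod_eq_zero (mem_univ i) (sub_self _), mul_zero]
  have key : ∀ t : ℂ, ‖t‖ = rad r β Y ℓ →
      ∑ u, Gf β σ Y ℓ u t = ∑ i, (1 : ℂ) / (t - (lam i : ℂ)) := by
    intro t ht
    have hne := pS_ne (σ := σ) hr hβ ht.ge
    have d1 := pp_hasDerivAt (sg := sgn) (Y := Y) (PRepA.fam_ok hr σ) (PRepA.z0 β σ ℓ)
      (PRepA.aa β σ) t
    have d2 : HasDerivAt (fun t : ℂ => c * ∏ i, (t - (lam i : ℂ)))
        (c * ∑ i, (∏ j ∈ univ.erase i, (t - (lam j : ℂ))) • (1 : ℂ)) t :=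
      (HasDerivAt.fun_finsetProd (f := fun i (t : ℂ) => t - (lam i : ℂ))
        fun i _ => (hasDerivAt_id' t).sub_const _).const_mul c
    have e0 : (fun t => pp sgn Y (fun v => fam (σ v))
        fun v => PRepA.z0 β σ ℓ v + t * PRepA.aa β σ v) = fun t : ℂ => c * ∏ i, (t - (lam i : ℂ)) := by
      funext t
      rw [← PRepA.hts_eq, ← h]
      rfl
    rw [e0] at d1
    have e1 := d1.unique d2
    have e2 : ∑ u, Gf β σ Y ℓ u t = (∑ u, if fam (σ u) = {∅} then 0 else PRepA.aa β σ u *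
        pp sgn Y (update (fun v => fam (σ v)) u {∅})
          fun v => PRepA.z0 β σ ℓ v + t * PRepA.aa β σ v) / pS β σ Y ℓ t := by
      rw [sum_div]
      refine sum_congr rfl fun u _ => ?_
      unfold Gf
      rcases fam_del_or_sing hr (σ u) with hu | hu
      · rw [if_pos hu.1, if_pos hu.2, zero_div]
      · rw [if_neg hu.1, if_neg hu.2.1, PRepA.pS_del, ← PRepA.hts_eq, PRepA.aa]
    rw [e2, e1, h, mul_div_mul_left _ _ hc, sum_div]
    refine sum_congr rfl fun i _ => ?_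
    rw [h] at hne
    have hne' := right_ne_zero_of_mul hne
    rw [← mul_prod_erase univ _ (mem_univ i)] at hne' ⊢
    have a1 := left_ne_zero_of_mul hne'
    have a2 := right_ne_zero_of_mul hne'
    rw [smul_eq_mul]
    field_simp
  have h1 := circle_exp (fun _ => (1 : ℂ)) lam 0 (rad r β Y ℓ) hR
    (fun i => by simpa using PRepA.lt_rad (fun t ht => pS_ne hr hβ ht) (r0 i))
    (G := fun t => ∑ u, Gf β σ Y ℓ u t) (by simpa using key)
  rw [Complex.ofReal_zero] at h1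
  simp only [mul_sum, one_mul] at h1
  rw [circleIntegral.integral_fun_sum, mul_sum] at h1
  · unfold Pot Pu
    rw [← Complex.re_sum, h1, Complex.re_sum]
    simp only [Complex.ofReal_re]
  · intro u _
    refine ContinuousOn.circleIntegrable hR.le (Complex.continuous_exp.continuousOn.mul ?_)
    unfold Gf
    split_ifs
    · exact continuousOn_const
    · refine ContinuousOn.div (continuous_const.mul PRepA.pS_cont).continuousOn
        PRepA.pS_cont.continuousOn fun t ht => pS_ne hr hβ ?_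
      rw [mem_sphere_zero_iff_norm.1 ht]

theorem vertex_rep (hr : 0 < r) (hβ : 0 < β) (hY : Y.IsHermitian) (v : V) :
    ∃ (n : ℕ) (τ : Fin n → ℝ) (c : ℂ) (κ : Fin r × Bool → Fin n → ℝ), c ≠ 0 ∧ (∀ k j, 0 ≤ κ k j) ∧
      (∀ t, pS β (update σ v .del) Y ℓ t = c * ∏ j, (t - (τ j : ℂ))) ∧
      ∀ k (ζ t : ℂ), (∀ j, t ≠ (τ j : ℂ)) →
        pp sgn Y (update (fun w => fam (σ w)) v {{k}}) (update (hts β σ ℓ t) v ζ) =
          (c * ∏ j, (t - (τ j : ℂ))) * (ζ - ∑ j, (κ k j : ℂ) / (t - (τ j : ℂ))) := by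
  have hφ := PRepA.fam_ok hr σ
  have hadm : ∀ v, Adm (fam (σ v)) := fun v => PRepA.adm_of (hφ v)
  have hφ' := PRepA.ok_update hφ v
  obtain ⟨τ, c, hc, hP⟩ := PRepA.line_roots (σ := σ) (ℓ := ℓ) hβ hY hφ'
  have hs : ∀ k : Fin r × Bool, Sing ({{k}} : Finset (Finset (Fin r × Bool))) := fun k =>
    ⟨singleton_nonempty _, fun S hS => by rw [mem_singleton.1 hS, card_singleton]⟩
  have main : ∀ k : Fin r × Bool, ∃ κ : _ → ℝ, (∀ j, 0 ≤ κ j) ∧ ∀ t : ℂ, (∀ j, t ≠ (τ j : ℂ)) →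
      -pp sgn Y (update (fun w => fam (σ w)) v {{k}}) (update (hts β σ ℓ t) v 0) /
        pp sgn Y (update (fun w => fam (σ w)) v {∅}) (hts β σ ℓ t) =
          ∑ j, (κ j : ℂ) / (t - (τ j : ℂ)) := by
    intro k
    obtain ⟨q, q1, q2, q3⟩ := pp_line0 (sg := sgn) (Y := Y) hφ' (PRepA.z0 β σ ℓ) (PRepA.aa β σ)
      (u := v) (update_self _ _ _) k
    have hG : ∀ t, (Polynomial.C (-c⁻¹) * q).eval t / ∏ j, (t - (τ j : ℂ)) =
        -pp sgn Y (update (fun w => fam (σ w)) v {{k}}) (update (hts β σ ℓ t) v 0) /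
          pp sgn Y (update (fun w => fam (σ w)) v {∅}) (hts β σ ℓ t) := by
      intro t
      rw [hP, Polynomial.eval_mul, Polynomial.eval_C, ← q1, ← PRepA.hts_eq, update_idem, ← div_div]
      congr 1
      rw [div_eq_mul_inv]
      ring
    obtain ⟨κ, k1, -, k2, -⟩ := herglotz_rep τ (Polynomial.C (-c⁻¹) * q)
      ((Polynomial.natDegree_C_mul_le _ _).trans q2)
      (fun t ht => by
        rw [hG]
        exact root_im_le PRepA.sgn_sgn hY hadm (fun w _ _ => PRepA.hts_up hβ ht w) (hs k))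
      (fun t ht => by
        rw [hG]
        exact root_im_ge PRepA.sgn_sgn hY hadm (fun w _ _ => PRepA.hts_down hβ ht w) (hs k))
    refine ⟨κ, k1, fun t ht => ?_⟩
    rw [← hG, k2 t ht, Polynomial.coeff_C_mul, q3, mul_zero, zero_add]
  choose κ k1 k2 using main
  refine ⟨_, τ, c, κ, hc, k1, fun t => by rw [PRepA.pS_del, hP], fun k ζ t ht => ?_⟩
  have hD : c * ∏ j, (t - (τ j : ℂ)) ≠ 0 :=
    mul_ne_zero hc (prod_ne_zero_iff.2 fun j _ => sub_ne_zero.2 (ht j))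
  rw [pp_sing_affine v (hs k), ← k2 k t ht, hP, mul_sub, mul_div_cancel₀ _ hD]
  ring

end Crest.Agent.R109
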