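import Crest.Agent.R109.PAff

/-!
# Row 109, task R109-PSym

Symmetries, factorisation, regularity of `pp`.  PLAN.  `pp_conj`: `(mat S e Y z)ᴴ = mat S e Y (conj ∘ z)`.
`pp_gauge`: `mat S e Y' z = diagonal (conj g) * mat S e Y z * diagonal g` for `S` inside the non-deleted set.
`pp_split`: `mat S = mat (S ∩ T) * mat (S \\ T)` (check entries, or `det_fromBlocks`/`twoBlockTriangular_det`);
the index set `piFinset φ` is the product of the two restricted ones (`f ↦ (f on T, f off T)`).
Regularity: `det_apply` is a finite sum of finite products.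
-/

set_option autoImplicit false
set_option linter.unusedSectionVars false
set_option linter.unusedVariables false

namespace Crest.Agent.R109

open Matrix Finset Function Polynomial
open scoped ComplexConjugate Real

variable {V K : Type*} [Fintype V] [DecidableEq V] [Fintype K] [DecidableEq K]
  {sg : K → ℂ} {Y : Matrix V V ℂ} {φ : V → Finset (Finset K)} {z : V → ℂ}

namespace PSymA

theorem mat_conj (S : Finset V) {e : ℂ} (he : conj e = e) (hY : Y.IsHermitian) :
    (mat S e Y z)ᴴ = mat S e Y fun v => conj (z v) := by
  ext u v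
  simp only [conjTranspose_apply, mat, of_apply]
  by_cases h : u = v
  · subst h
    simp only [if_true]
    split_ifs <;> simp
  · have h' : ¬ v = u := fun e => h e.symm
    simp only [h, h', if_false]
    have hy : star (Y v u) = Y u v := hY.apply u v
    by_cases h1 : u ∈ S <;> by_cases h2 : v ∈ S <;> simp [h1, h2, he, ← hy]

theorem mat_gauge {Y' : Matrix V V ℂ} (S : Finset V) (e : ℂ) (g : V → ℂ) (hg : ∀ v, ‖g v‖ = 1)
    (h : ∀ u ∈ S, ∀ v ∈ S, u ≠ v → Y' u v = conj (g u) * Y u v * g v) :
    (mat S e Y' z).det = (mat S e Y z).det := by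
  have hg' : ∀ v, conj (g v) * g v = 1 := fun v => by
    rw [mul_comm, Complex.mul_conj, Complex.normSq_eq_norm_sq, hg]; simp
  have e1 : mat S e Y' z = diagonal (fun v => conj (g v)) * mat S e Y z * diagonal g := by
    ext u v
    rw [mul_diagonal, diagonal_mul]
    simp only [mat, of_apply]
    by_cases huv : u = v
    · subst huv
      simp only [if_true]
      rw [mul_right_comm, hg', one_mul]
    · simp only [huv, if_false]
      split_ifs with h1
      · rw [h u h1.1 v h1.2 huv]; ring
      · simp
  rw [e1, det_mul, det_mul, det_diagonal, det_diagonal, mul_right_comm, ← prod_mul_distrib]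
  simp [hg']

theorem mat_split (S₁ S₂ S : Finset V) (e : ℂ) (hS : ∀ v, v ∈ S ↔ v ∈ S₁ ∨ v ∈ S₂)
    (hd : ∀ v ∈ S₁, v ∉ S₂) (h : ∀ u ∈ S₁, ∀ v ∈ S₂, Y u v = 0 ∧ Y v u = 0) :
    mat S e Y z = mat S₁ e Y z * mat S₂ e Y z := by
  ext u v
  rw [mul_apply]
  by_cases hu : u ∈ S₁
  · have h1 : ∑ w, mat S₁ e Y z u w * mat S₂ e Y z w v = mat S₁ e Y z u v := by
      rw [sum_congr rfl (g := fun w => if w = v then mat S₁ e Y z u w else 0)]
      · simp
      · intro w _
        by_cases hw : w ∈ S₁
        · have := hd w hw
          by_cases hwv : w = v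
          · subst hwv; simp [mat, this]
          · simp [mat, this, hwv]
        · have hwu : u ≠ w := fun e => hw (e ▸ hu)
          simp [mat, hw, hwu]
    rw [h1]
    have huS : u ∈ S := (hS u).mpr (Or.inl hu)
    simp only [mat, of_apply, hu, huS, true_and, if_true]
    by_cases huv : u = v
    · simp [huv]
    · simp only [huv, if_false]
      by_cases hv : v ∈ S₁
      · simp [hv, (hS v).mpr (Or.inl hv)]
      · by_cases hv2 : v ∈ S₂
        · simp [hv, (h u hu v hv2).1]
        · have : v ∉ S := fun hh => ((hS v).mp hh).elim hv hv2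
          simp [hv, this]
  · have h1 : ∑ w, mat S₁ e Y z u w * mat S₂ e Y z w v = mat S₂ e Y z u v := by
      rw [sum_congr rfl (g := fun w => if u = w then mat S₂ e Y z w v else 0)]
      · simp
      · intro w _
        by_cases huw : u = w
        · subst huw; simp [mat, hu]
        · simp [mat, hu, huw]
    rw [h1]
    have huS : u ∈ S ↔ u ∈ S₂ := by rw [hS]; tauto
    simp only [mat, of_apply, huS]
    by_cases huv : u = v
    · simp [huv]
    · simp only [huv, if_false]
      by_cases hu2 : u ∈ S₂
      · by_cases hv2 : v ∈ S₂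
        · simp [hu2, hv2, (hS v).mpr (Or.inr hv2)]
        · by_cases hv : v ∈ S₁
          · simp [hv2, (h v hv u hu2).2]
          · have : v ∉ S := fun hh => ((hS v).mp hh).elim hv hv2
            simp [hv2, this]
      · simp [hu2]

end PSymA

theorem pp_conj (hs : Sgn sg) (hY : Y.IsHermitian) :
    conj (pp sg Y φ z) = pp sg Y φ fun v => conj (z v) := by
  simp only [pp, pf, map_mul, map_inv₀, map_prod, map_sum, map_natCast]
  congr 1
  refine sum_congr rfl fun f _ => prod_congr rfl fun k _ => ?_
  rw [← PSymA.mat_conj _ (by rcases hs k with h | h <;> simp [h]) hY, det_conjTranspose]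
  rfl

theorem pp_gauge {Y' : Matrix V V ℂ} (g : V → ℂ) (hg : ∀ v, ‖g v‖ = 1)
    (h : ∀ u v, φ u ≠ {∅} → φ v ≠ {∅} → u ≠ v → Y' u v = conj (g u) * Y u v * g v) :
    pp sg Y' φ z = pp sg Y φ z := by
  simp only [pp, pf]
  congr 1
  refine sum_congr rfl fun f hf => prod_congr rfl fun k _ => ?_
  have key : ∀ u, u ∈ (univ.filter fun v => k ∈ f v) → φ u ≠ {∅} := by
    intro u hu e
    have h1 := Fintype.mem_piFinset.mp hf u
    rw [e, mem_singleton] at h1
    rw [mem_filter, h1] at hu
    exact notMem_empty _ hu.2
  exact PSymA.mat_gauge _ _ g hg fun u hu v hv huv => h u v (key u hu) (key v hv) huv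

theorem pp_split (T : Finset V) (h : ∀ u ∈ T, ∀ v ∉ T, Y u v = 0 ∧ Y v u = 0) :
    pp sg Y φ z = pp sg Y (fun v => if v ∈ T then φ v else {∅}) z *
      pp sg Y (fun v => if v ∈ T then {∅} else φ v) z := by
  simp only [pp]
  rw [mul_mul_mul_comm, ← mul_inv, ← prod_mul_distrib, sum_mul_sum, ← sum_product']
  congr 1
  · congr 1
    refine prod_congr rfl fun v _ => ?_
    split_ifs <;> simp
  · refine sum_nbij' (fun f => (fun v => if v ∈ T then f v else ∅, fun v => if v ∈ T then ∅ else f v))
      (fun q v => if v ∈ T then q.1 v else q.2 v) ?_ ?_ ?_ ?_ ?_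
    · intro f hf
      rw [Fintype.mem_piFinset] at hf
      simp only [mem_product, Fintype.mem_piFinset]
      constructor <;> intro v <;> split_ifs <;> simp [hf v]
    · intro q hq
      simp only [mem_product, Fintype.mem_piFinset] at hq ⊢
      intro v
      have h1 := hq.1 v
      have h2 := hq.2 v
      split_ifs at h1 h2 ⊢ <;> assumption
    · intro f _
      funext v
      by_cases hv : v ∈ T <;> simp [hv]
    · intro q hq
      simp only [mem_product, Fintype.mem_piFinset] at hq
      refine Prod.ext (funext fun v => ?_) (funext fun v => ?_)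
      · have h1 := hq.1 v
        by_cases hv : v ∈ T
        · simp [hv]
        · simp only [hv, if_false, mem_singleton] at h1 ⊢
          exact h1.symm
      · have h2 := hq.2 v
        by_cases hv : v ∈ T
        · simp only [hv, if_true, mem_singleton] at h2 ⊢
          exact h2.symm
        · simp [hv]
    · intro f _
      simp only [pf]
      rw [← prod_mul_distrib]
      refine prod_congr rfl fun k _ => ?_
      rw [← det_mul]
      congr 1
      refine PSymA.mat_split _ _ _ _ ?_ ?_ ?_
      · intro v
        by_cases hv : v ∈ T <;> simp [hv]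
      · intro v
        by_cases hv : v ∈ T <;> simp [hv]
      · intro u hu v hv
        refine h u ?_ v ?_
        · by_contra hT; simp [hT] at hu
        · intro hT; simp [hT] at hv

theorem pp_differentiable {Yt : ℂ → Matrix V V ℂ} {zt : ℂ → V → ℂ}
    (hY : ∀ u v, Differentiable ℂ fun t => Yt t u v) (hz : ∀ v, Differentiable ℂ fun t => zt t v) :
    Differentiable ℂ fun t => pp sg (Yt t) φ (zt t) := by
  simp only [pp, pf, det_apply']
  refine Differentiable.const_mul (Differentiable.fun_sum fun f _ => ?_) _
  refine Differentiable.fun_finset_prod fun k _ => Differentiable.fun_sum fun σ _ => ?_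
  refine Differentiable.const_mul (Differentiable.fun_finset_prod fun i _ => ?_) _
  simp only [mat, of_apply]
  split_ifs
  · exact hz _
  · exact differentiable_const _
  · exact ((hY _ _).const_mul _).neg
  · exact differentiable_const _

theorem pp_continuous {X : Type*} [TopologicalSpace X] {Yt : X → Matrix V V ℂ} {zt : X → V → ℂ}
    (hY : ∀ u v, Continuous fun t => Yt t u v) (hz : ∀ v, Continuous fun t => zt t v) :
    Continuous fun t => pp sg (Yt t) φ (zt t) := by
  simp only [pp, pf, det_apply']
  refine continuous_const.mul (continuous_finset_sum _ fun f _ => ?_)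
  refine continuous_finset_prod _ fun k _ => continuous_finset_sum _ fun σ _ => ?_
  refine continuous_const.mul (continuous_finset_prod _ fun i _ => ?_)
  simp only [mat, of_apply]
  split_ifs
  · exact hz _
  · exact continuous_const
  · exact (continuous_const.mul (hY _ _)).neg
  · exact continuous_const

end Crest.Agent.R109
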