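import Crest.Agent.R109.Exp
import Crest.Agent.R109.NE
import Crest.Agent.R109.Split
import Crest.Agent.R109.Corner
import Crest.Agent.R109.Glue3

/-!
# Row 109, task R109-Top

Assembly.  PLAN.  `x = 0`: trivial (`p = single 0 1`, `a = 0`, `q = 1`).  Otherwise apply `glue3` to
`x / ‖x‖` with `s` from `split` (`δ/3`), `t = 1 - e`, and rescale `a`.
-/

set_option autoImplicit false
set_option linter.unusedSectionVars false
set_option linter.unusedVariables false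

namespace Crest.Agent.R109

open scoped InnerProductSpace ComplexOrder ComplexConjugate
open Filter Topology

universe u

variable {H : Type u} [NormedAddCommGroup H] [InnerProductSpace ℂ H] [CompleteSpace H]
  {M : VonNeumannAlgebra H} {A : StarSubalgebra ℂ (H →L[ℂ] H)}
  {ω φ : (H →L[ℂ] H) →ₗ[ℂ] ℂ} {E : (H →L[ℂ] H) →ₗ[ℂ] (H →L[ℂ] H)}

theorem top (ε : ℝ) (hε : 0 < ε) (hε1 : ε < 1) (hA : Masa M A) (x : H →L[ℂ] H) (hxM : x ∈ M)
    (hx : IsSelfAdjoint x) (F : Finset H) (δ : ℝ) (hδ : 0 < δ) :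
    ∃ p : Fin (Nat.ceil (400000000 / ε ^ 2) + Nat.ceil (4 / ε) + 1) → (H →L[ℂ] H),
      IsPartOf A 1 p ∧ ∃ a ∈ A, IsSelfAdjoint a ∧ ‖a‖ ≤ ‖x‖ ∧
        ∃ q ∈ M, IsStarProjection q ∧ (∀ ξ ∈ F, ‖(1 - q) ξ‖ < δ) ∧
          ‖q * (pin p x - a) * q‖ ≤ ε * ‖x‖ := by
  obtain ⟨e, he, he0, hsp⟩ := split hA
  obtain ⟨s, hs, hes, hF, hs'⟩ := hsp F (δ / 3) (by positivity)
  have ht : PA A (1 - e) := ⟨sub_mem (one_mem A) he.1, he.2.one_sub⟩
  have hst : s * (1 - e) = 0 := by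
    rw [mul_sub, mul_one, hA.comm s hs.1 e he.1, hes, sub_self]
  have h₁ : PavC M A s (Nat.ceil (400000000 / ε ^ 2)) ε := by
    rcases hs' with rfl | ⟨φ, hφ, hc, h1, hf⟩
    · exact pavC_zero hA _ hε.le
    · exact pavC_exp (fun K _ _ _ M' A' ω' h => exp_main hε hε1 (Nat.le_ceil _) h) hA hs hφ hc h1 hf
  have h₂ : PavC M A (1 - e) (Nat.ceil (4 / ε)) ε :=
    pavC_ne (fun K _ _ _ M' A' h hN => ne_main hε (Nat.le_ceil _) h hN) hA ht he0
  set x' : H →L[ℂ] H := (‖x‖⁻¹ : ℝ) • x with hx'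
  have hxx : x = (‖x‖ : ℝ) • x' := by
    by_cases h0 : x = 0
    · rw [hx', h0]
      simp
    · rw [hx', smul_smul, mul_inv_cancel₀ (norm_ne_zero_iff.mpr h0), one_smul]
  have hx'M : x' ∈ M := by
    have := M.toStarSubalgebra.smul_mem hxM ((‖x‖⁻¹ : ℝ) : ℂ)
    rwa [Complex.coe_smul] at this
  have hx'sa : IsSelfAdjoint x' := (IsSelfAdjoint.all _).smul hx
  have hx'n : ‖x'‖ ≤ 1 := by
    rw [hx', norm_smul, norm_inv, norm_norm]
    exact inv_mul_le_one_of_le₀ le_rfl (norm_nonneg _)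
  have hF' : ∀ ξ ∈ F, ‖(1 - s - (1 - e)) ξ‖ < δ / 3 := by
    intro ξ hξ
    have : 1 - s - (1 - e) = e - s := by abel
    rw [this]
    exact hF ξ hξ
  obtain ⟨p, hp, a, ha, hasa, han, q, hq, hqp, hqF, hb⟩ :=
    glue3 hA hs ht hst h₁ h₂ hx'M hx'sa hx'n F hδ hF'
  refine ⟨p, hp, (‖x‖ : ℝ) • a, ?_, (IsSelfAdjoint.all _).smul hasa, ?_, q, hq, hqp, hqF, ?_⟩
  · have := A.smul_mem ha ((‖x‖ : ℝ) : ℂ)
    rwa [Complex.coe_smul] at this
  · rw [norm_smul, norm_norm]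
    exact mul_le_of_le_one_right (norm_nonneg _) han
  · have e1 : q * (pin p x - (‖x‖ : ℝ) • a) * q = (‖x‖ : ℝ) • (q * (pin p x' - a) * q) := by
      have e2 : pin p x = (‖x‖ : ℝ) • pin p x' := by
        rw [← pin_rsmul, ← hxx]
      rw [e2, ← smul_sub, mul_smul_comm, smul_mul_assoc]
    rw [e1, norm_smul, norm_norm, mul_comm]
    exact mul_le_mul_of_nonneg_right hb (norm_nonneg _)

end Crest.Agent.R109
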