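import Crest.Agent.R109.TransA

/-!
# Row 109, task R109-Trans

The transport lemma.  PLAN.  Continuity: if `s : X → (Fin J → Stt r)` and `u : X → Fin J` are locally constant then
`χ ↦ Pu β (s χ) (Y χ) (ℓ χ) (u χ)` is continuous (near `χ₀` it agrees with the function for the fixed state,
`Pu_continuous`); `lst`, `hyb` are locally constant.  Let `G j z = if d z j ≤ ρ then Pu (hyb z (cl z) true) j -
Pu (hyb z (cl z) false) j else 0`.  By `dens_telescope`, `far_y`, `near`, `count`: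
`dens σ₁ y - dens σ₀ y ≤ ∑_{j,k} [cl y = j ∧ d y k ≤ R] exp (ℓ y k) G j (pt y k) + 4 D^R η` (`d_symm`, `cl_pt`).  By `transport` the
integral of the sum is `∫ ∑_j [d z j ≤ R] G j z ≤ c + D^R exp (Λ R) η` (`Step`, `far_z`, `Pu_del` for absent `j`).
-/

set_option autoImplicit false
set_option linter.unusedSectionVars false
set_option linter.unusedVariables false

namespace Crest.Agent.R109

open scoped ComplexConjugate
open MeasureTheory Finset Function

universe u

variable {X : Type u} [TopologicalSpace X] [CompactSpace X] [MeasurableSpace X] [BorelSpace X]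
  {μ : Measure X} [IsProbabilityMeasure μ] {J R : ℕ} {K₀ Λ : ℝ} {D r : ℕ}

namespace TransB

theorem cont_ite {p : X → Prop} [DecidablePred p] (hp : ∀ x, ∀ᶠ y in nhds x, (p y ↔ p x))
    {f : X → ℝ} (hf : Continuous f) : Continuous fun x => if p x then f x else 0 := by
  refine continuous_iff_continuousAt.2 fun x => ?_
  by_cases h : p x
  · refine hf.continuousAt.congr ?_
    filter_upwards [hp x] with y hy
    rw [if_pos (hy.2 h)]
  · refine (continuousAt_const (y := (0 : ℝ))).congr ?_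
    filter_upwards [hp x] with y hy
    rw [if_neg (fun h' => h (hy.1 h'))]

theorem integ {f : X → ℝ} (hf : Continuous f) : Integrable f μ :=
  hf.integrable_of_hasCompactSupport (HasCompactSupport.of_compactSpace f)

theorem ev_clopen {S : Set X} (hS : IsClopen S) (x : X) : ∀ᶠ y in nhds x, (y ∈ S ↔ x ∈ S) := by
  by_cases h : x ∈ S
  · filter_upwards [hS.isOpen.mem_nhds h] with y hy
    exact ⟨fun _ => h, fun _ => hy⟩
  · filter_upwards [hS.compl.isOpen.mem_nhds h] with y hy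
    exact ⟨fun h' => absurd h' hy, fun h' => absurd h' h⟩

theorem ev_d (am : AM X μ J R K₀ Λ D) (x : X) : ∀ᶠ y in nhds x, ∀ k, am.d y k = am.d x k :=
  Filter.eventually_all.2 fun k => (am.d_lc k).eventually_eq x

theorem ev_σ (am : AM X μ J R K₀ Λ D) {σ : X → Stt r} (hσ : IsLocallyConstant σ) (x : X) :
    ∀ᶠ y in nhds x, ∀ k, σ (am.pt y k) = σ (am.pt x k) :=
  Filter.eventually_all.2 fun k => (hσ.comp_continuous (am.pt_cont k)).eventually_eq x

theorem hyb_lc (am : AM X μ J R K₀ Λ D) {σ₀ σ₁ : X → Stt r} (h₀ : IsLocallyConstant σ₀)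
    (h₁ : IsLocallyConstant σ₁) {lt : X → Fin J → Fin J → Prop} (ho : am.Ord lt) (b : Bool) :
    IsLocallyConstant fun χ => am.hyb σ₀ σ₁ lt χ (am.cl χ) b := by
  refine (IsLocallyConstant.iff_eventually_eq _).2 fun x => ?_
  have hl : ∀ᶠ y in nhds x, ∀ k l, (lt y k l ↔ lt x k l) :=
    Filter.eventually_all.2 fun k => Filter.eventually_all.2 fun l => ev_clopen (ho.lc k l) x
  filter_upwards [ev_d am x, ev_σ am h₀ x, ev_σ am h₁ x, hl, am.cl_lc.eventually_eq x]
    with y hd e₀ e₁ hl hc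
  have hl' : lt y = lt x := funext fun k => funext fun l => propext (hl k l)
  funext k
  unfold AM.hyb
  rw [hd, e₀, e₁, hl', hc]

end TransB

open TransB

theorem Pu_cont_lc (am : AM X μ J R K₀ Λ D) (hr : 0 < r) {β : ℝ} (hβ : 0 < β)
    {s : X → Fin J → Stt r} (hs : IsLocallyConstant s) {u : X → Fin J} (hu : IsLocallyConstant u) :
    Continuous fun χ => Pu β (s χ) (am.Y χ) (am.ℓ χ) (u χ) := by
  refine continuous_iff_continuousAt.2 fun x => ?_
  refine (Pu_continuous hr hβ am.Y_cont am.ℓ_cont (s x) (u x)).continuousAt.congr ?_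
  filter_upwards [hs.eventually_eq x, hu.eventually_eq x] with y h1 h2
  rw [h1, h2]

theorem lst_lc (am : AM X μ J R K₀ Λ D) {σ : X → Stt r} (hσ : IsLocallyConstant σ) :
    IsLocallyConstant (am.lst σ) := by
  refine (IsLocallyConstant.iff_eventually_eq _).2 fun x => ?_
  filter_upwards [ev_d am x, ev_σ am hσ x] with y hd e
  funext k
  simp only [AM.lst, hd, e]

theorem dens_continuous (am : AM X μ J R K₀ Λ D) (hr : 0 < r) {β : ℝ} (hβ : 0 < β) {σ : X → Stt r}
    (hσ : IsLocallyConstant σ) : Continuous (am.dens β σ) :=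
  Pu_cont_lc am hr hβ (lst_lc am hσ) am.cl_lc

namespace TransB

variable {ρ : ℕ} (am : AM X μ J (2 * ρ) K₀ Λ D) (β : ℝ) (σ₀ σ₁ : X → Stt r)
  (lt : X → Fin J → Fin J → Prop)

/-- the change of the share of `j` under the move at the base point -/
noncomputable def dl (j : Fin J) (z : X) : ℝ :=
  Pu β (am.hyb σ₀ σ₁ lt z (am.cl z) true) (am.Y z) (am.ℓ z) j -
    Pu β (am.hyb σ₀ σ₁ lt z (am.cl z) false) (am.Y z) (am.ℓ z) j

/-- its near part -/
noncomputable def GG (j : Fin J) (z : X) : ℝ := if am.d z j ≤ ρ then dl am β σ₀ σ₁ lt j z else 0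

variable {β σ₀ σ₁ lt} {T : ℝ}

theorem GG_cont (hr : 0 < r) (hβ : 0 < β) (h₀ : IsLocallyConstant σ₀) (h₁ : IsLocallyConstant σ₁)
    (ho : am.Ord lt) (j : Fin J) : Continuous (GG am β σ₀ σ₁ lt j) := by
  refine cont_ite (p := fun z => am.d z j ≤ ρ) (fun x => ?_) ?_
  · filter_upwards [ev_d am x] with y hy
    rw [hy]
  · exact (Pu_cont_lc am hr hβ (hyb_lc am h₀ h₁ ho true) (IsLocallyConstant.const j)).sub
      (Pu_cont_lc am hr hβ (hyb_lc am h₀ h₁ ho false) (IsLocallyConstant.const j))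

theorem up (hr : 0 < r) (hβ : 0 < β) (hΛ : 0 ≤ Λ) (hK : 0 ≤ K₀) (hT : 1 ≤ T) (ho : am.Ord lt) (y : X) :
    am.dens β σ₁ y ≤ am.dens β σ₀ y + ∑ j, ∑ k, (if am.cl y = j ∧ am.d y k ≤ 2 * ρ then
      Real.exp (am.ℓ y k) * GG am β σ₀ σ₁ lt j (am.pt y k) else 0) +
      4 * (D : ℝ) ^ (2 * ρ) * err r β K₀ T (2 * Λ * (2 * ρ : ℕ)) ρ := by
  set η := err r β K₀ T (2 * Λ * (2 * ρ : ℕ)) ρ with hη
  have hη0 : 0 ≤ η := err_nonneg hβ hK hT (by positivity) ρ
  have e1 : ∑ j, ∑ k, (if am.cl y = j ∧ am.d y k ≤ 2 * ρ then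
      Real.exp (am.ℓ y k) * GG am β σ₀ σ₁ lt j (am.pt y k) else 0) =
      ∑ k ∈ univ.filter fun k => am.d y k ≤ 2 * ρ,
        Real.exp (am.ℓ y k) * GG am β σ₀ σ₁ lt (am.cl y) (am.pt y k) := by
    rw [Finset.sum_eq_single (am.cl y), Finset.sum_filter]
    · refine Finset.sum_congr rfl fun k _ => ?_
      simp
    · intro j _ hj
      refine Finset.sum_eq_zero fun k _ => ?_
      rw [if_neg (fun h => hj h.1.symm)]
    · intro h
      exact absurd (Finset.mem_univ _) h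
  have e2 := dens_telescope am (β := β) (σ₀ := σ₀) (σ₁ := σ₁) ho y
  have e3 : ∑ k ∈ univ.filter fun k => am.d y k ≤ 2 * ρ,
      (Pu β (am.hyb σ₀ σ₁ lt y k true) (am.Y y) (am.ℓ y) (am.cl y) -
        Pu β (am.hyb σ₀ σ₁ lt y k false) (am.Y y) (am.ℓ y) (am.cl y)) ≤
      ∑ k ∈ univ.filter fun k => am.d y k ≤ 2 * ρ,
        (Real.exp (am.ℓ y k) * GG am β σ₀ σ₁ lt (am.cl y) (am.pt y k) + 4 * η) := by
    refine Finset.sum_le_sum fun k hk => ?_
    have hkR : am.d y k ≤ 2 * ρ := by simpa using hk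
    unfold GG
    rw [am.d_symm y k hkR]
    by_cases h : am.d y k ≤ ρ
    · rw [if_pos h]
      unfold dl
      rw [am.cl_pt y k hkR, mul_sub]
      have a1 := abs_le.1 (near am (σ₀ := σ₀) (σ₁ := σ₁) hr hβ hΛ hT ho y h true)
      have a2 := abs_le.1 (near am (σ₀ := σ₀) (σ₁ := σ₁) hr hβ hΛ hT ho y h false)
      rw [← hη] at a1 a2
      linarith [a1.2, a2.1]
    · rw [if_neg h]
      have a := abs_le.1 (far_y am (σ₀ := σ₀) (σ₁ := σ₁) (lt := lt) hr hβ hΛ hT y (not_le.1 h))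
      rw [← hη] at a
      linarith [a.2]
  rw [Finset.sum_add_distrib, Finset.sum_const, nsmul_eq_mul] at e3
  have e4 : ((univ.filter fun k => am.d y k ≤ 2 * ρ).card : ℝ) ≤ (D : ℝ) ^ (2 * ρ) := by
    exact_mod_cast am.count y
  have e5 := mul_le_mul_of_nonneg_right e4 (by positivity : 0 ≤ 4 * η)
  rw [e1]
  linarith

theorem down (hr : 0 < r) (hβ : 0 < β) (hΛ : 0 ≤ Λ) (hK : 0 ≤ K₀) (hT : 1 ≤ T) {c : ℝ}
    (hs : am.Step β σ₀ σ₁ lt c) (z : X) :
    ∑ j, ∑ k, (if am.cl z = k ∧ am.d z j ≤ 2 * ρ then GG am β σ₀ σ₁ lt j z else 0) ≤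
      c + (D : ℝ) ^ (2 * ρ) * (Real.exp (Λ * (2 * ρ : ℕ)) * err r β K₀ T (2 * Λ * (2 * ρ : ℕ)) ρ) := by
  set η := Real.exp (Λ * (2 * ρ : ℕ)) * err r β K₀ T (2 * Λ * (2 * ρ : ℕ)) ρ with hη
  have hη0 : 0 ≤ η := mul_nonneg (Real.exp_pos _).le (err_nonneg hβ hK hT (by positivity) ρ)
  have e1 : ∑ j, ∑ k, (if am.cl z = k ∧ am.d z j ≤ 2 * ρ then GG am β σ₀ σ₁ lt j z else 0) ≤
      ∑ j, (dl am β σ₀ σ₁ lt j z + if am.d z j ≤ 2 * ρ then η else 0) := by
    refine Finset.sum_le_sum fun j _ => ?_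
    rw [Finset.sum_eq_single (am.cl z)]
    · by_cases h : am.d z j ≤ 2 * ρ
      · rw [if_pos ⟨rfl, h⟩, if_pos h]
        unfold GG
        by_cases h' : am.d z j ≤ ρ
        · rw [if_pos h']
          linarith
        · rw [if_neg h']
          have a := abs_le.1 (far_z am (σ₀ := σ₀) (σ₁ := σ₁) (lt := lt) hr hβ hΛ hT z (not_le.1 h') h)
          rw [← hη] at a
          unfold dl
          linarith [a.1]
      · rw [if_neg (fun h' => h h'.2), if_neg h]
        unfold dl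
        rw [Pu_del (by simp [AM.hyb, h]), Pu_del (by simp [AM.hyb, h])]
        simp
    · intro k _ hk
      rw [if_neg (fun h => hk h.1.symm)]
    · intro h
      exact absurd (Finset.mem_univ _) h
  have e2 : ∑ j, dl am β σ₀ σ₁ lt j z ≤ c := by
    have := hs z
    unfold Pot at this
    unfold dl
    rw [Finset.sum_sub_distrib]
    linarith
  rw [Finset.sum_add_distrib, ← Finset.sum_filter, Finset.sum_const, nsmul_eq_mul] at e1
  have e4 : ((univ.filter fun k => am.d z k ≤ 2 * ρ).card : ℝ) ≤ (D : ℝ) ^ (2 * ρ) := by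
    exact_mod_cast am.count z
  have e5 := mul_le_mul_of_nonneg_right e4 hη0
  linarith

end TransB

theorem transport_main {ρ : ℕ} (am : AM X μ J (2 * ρ) K₀ Λ D) (hr : 0 < r) {β T : ℝ} (hβ : 0 < β)
    (hΛ : 0 ≤ Λ) (hK : 0 ≤ K₀) (hT : 1 ≤ T) {σ₀ σ₁ : X → Stt r} (h₀ : IsLocallyConstant σ₀)
    (h₁ : IsLocallyConstant σ₁) {lt : X → Fin J → Fin J → Prop} (ho : am.Ord lt) {c : ℝ}
    (hs : am.Step β σ₀ σ₁ lt c) :
    ∫ χ, am.dens β σ₁ χ ∂μ ≤ ∫ χ, am.dens β σ₀ χ ∂μ + c +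
      5 * (D : ℝ) ^ (2 * ρ) * Real.exp (Λ * (2 * ρ : ℕ)) * err r β K₀ T (2 * Λ * (2 * ρ : ℕ)) ρ := by
  set η := err r β K₀ T (2 * Λ * (2 * ρ : ℕ)) ρ with hη
  have hη0 : 0 ≤ η := err_nonneg hβ hK hT (by positivity) ρ
  have hG := GG_cont am hr hβ h₀ h₁ ho
  have c1 : ∀ j k, Continuous fun y => if am.cl y = j ∧ am.d y k ≤ 2 * ρ then
      Real.exp (am.ℓ y k) * GG am β σ₀ σ₁ lt j (am.pt y k) else 0 := fun j k => by
    refine cont_ite (p := fun y => am.cl y = j ∧ am.d y k ≤ 2 * ρ) (fun x => ?_) ?_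
    · filter_upwards [ev_d am x, am.cl_lc.eventually_eq x] with y hy hc
      rw [hy, hc]
    · exact (Real.continuous_exp.comp (am.ℓ_cont k)).mul ((hG j).comp (am.pt_cont k))
  have c2 : ∀ j k, Continuous fun z => if am.cl z = k ∧ am.d z j ≤ 2 * ρ then
      GG am β σ₀ σ₁ lt j z else 0 := fun j k => by
    refine cont_ite (p := fun y => am.cl y = k ∧ am.d y j ≤ 2 * ρ) (fun x => ?_) (hG j)
    filter_upwards [ev_d am x, am.cl_lc.eventually_eq x] with y hy hc
    rw [hy, hc]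
  have s1 : Continuous fun y => ∑ j, ∑ k, (if am.cl y = j ∧ am.d y k ≤ 2 * ρ then
      Real.exp (am.ℓ y k) * GG am β σ₀ σ₁ lt j (am.pt y k) else 0) :=
    continuous_finset_sum _ fun j _ => continuous_finset_sum _ fun k _ => c1 j k
  have s2 : Continuous fun z => ∑ j, ∑ k, (if am.cl z = k ∧ am.d z j ≤ 2 * ρ then
      GG am β σ₀ σ₁ lt j z else 0) :=
    continuous_finset_sum _ fun j _ => continuous_finset_sum _ fun k _ => c2 j k
  have d0 := dens_continuous am hr hβ h₀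
  have d1 := dens_continuous am hr hβ h₁
  have i1 := integral_mono (μ := μ) (integ d1) (integ ((d0.add s1).add continuous_const))
    (up am (σ₀ := σ₀) (σ₁ := σ₁) hr hβ hΛ hK hT ho)
  rw [integral_add' (integ (d0.add s1)) (integrable_const _), integral_add' (integ d0) (integ s1),
    integral_const, probReal_univ, one_smul] at i1
  have i2 := integral_mono (μ := μ) (integ s2) (integrable_const _) (down am hr hβ hΛ hK hT hs)
  rw [integral_const, probReal_univ, one_smul] at i2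
  have i3 : ∫ y, ∑ j, ∑ k, (if am.cl y = j ∧ am.d y k ≤ 2 * ρ then
      Real.exp (am.ℓ y k) * GG am β σ₀ σ₁ lt j (am.pt y k) else 0) ∂μ =
      ∫ z, ∑ j, ∑ k, (if am.cl z = k ∧ am.d z j ≤ 2 * ρ then GG am β σ₀ σ₁ lt j z else 0) ∂μ := by
    rw [integral_finset_sum _ fun j _ => integ (continuous_finset_sum _ fun k _ => c1 j k),
      integral_finset_sum _ fun j _ => integ (continuous_finset_sum _ fun k _ => c2 j k)]
    refine Finset.sum_congr rfl fun j _ => ?_
    rw [integral_finset_sum _ fun k _ => integ (c1 j k), integral_finset_sum _ fun k _ => integ (c2 j k)]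
    exact Finset.sum_congr rfl fun k _ => am.transport j k _ (hG j)
  have h1 : 1 ≤ Real.exp (Λ * (2 * ρ : ℕ)) := Real.one_le_exp (by positivity)
  have h2 : 0 ≤ (D : ℝ) ^ (2 * ρ) * η := by positivity
  have h3 := mul_le_mul_of_nonneg_left h1 h2
  rw [← hη] at i1 i2
  rw [i3] at i1
  nlinarith

end Crest.Agent.R109
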