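import Crest.Agent.R109.ADefs
import Crest.Agent.R109.Loc

/-!
# Row 109, task R109-TransA

Pointwise estimates for the transport lemma; `R = 2 ρ`, `η = err r β K₀ T (2 Λ R) ρ`,
`Q y k b = Pu β (hyb y k b) (Y y) (ℓ y) (cl y)`.
PLAN.  `telescope`: for a strict total order on `Fin J` and `F : Finset (Fin J) → ℝ`,
`∑ z, (F {k ≤ z} - F {k < z}) = F univ - F ∅` (sort the type / induction removing the maximum).
`far_y`: `loc` with `dist = d y`, (`adj` with `k = cl y`, `pt_self`), the two hybrids differ only at `k`.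
`far_z`: `loc` in the coordinates of `z` with `dist = d (pt z j)`; `d (pt z j) (cl z) = d z j > ρ`.
`near`: let `z = pt y k`, `j = cl y` (`pt z j = y`), `res` = `hyb y k b` with the vertices `d y v > ρ` deleted.  `loc` (coordinates
`y`) compares `hyb y k b` with `res`; `Pu_congr` with `gauge`, `ℓ_pt` (`c = - ℓ y k`; non-deleted `v` are present at `z` by
`tri` applied at `z`) moves `res` to the coordinates of `z`; `loc` (coordinates `z`, `dist = d y`) compares `res` with
`hyb z k b` (`pt_pt`, `Ord.cons`); `ℓ z j = - ℓ y k`.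
-/

set_option autoImplicit false
set_option linter.unusedSectionVars false
set_option linter.unusedVariables false

namespace Crest.Agent.R109

open scoped ComplexConjugate
open MeasureTheory Finset Function

universe u

variable {X : Type u} [TopologicalSpace X] [CompactSpace X] [MeasurableSpace X] [BorelSpace X]
  {μ : Measure X} [IsProbabilityMeasure μ] {J R : ℕ} {K₀ Λ : ℝ} {D r : ℕ}

theorem telescope {lt : Fin J → Fin J → Prop} [DecidableRel lt] (hi : ∀ k, ¬ lt k k)
    (ht : ∀ k l m, lt k l → lt l m → lt k m) (hto : ∀ k l, k ≠ l → lt k l ∨ lt l k)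
    (F : Finset (Fin J) → ℝ) :
    ∑ z, (F (univ.filter fun k => lt k z ∨ k = z) - F (univ.filter fun k => lt k z)) =
      F univ - F ∅ := by
  have hrk : ∀ k l, lt k l → (univ.filter fun m => lt m k).card < (univ.filter fun m => lt m l).card := by
    intro k l h
    refine Finset.card_lt_card ⟨fun m hm => ?_, fun hs => ?_⟩
    · simp only [Finset.mem_filter, Finset.mem_univ, true_and] at hm ⊢
      exact ht _ _ _ hm h
    · have : k ∈ univ.filter fun m => lt m k := hs (by simpa using h)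
      exact hi k (by simpa using this)
  have key : ∀ S : Finset (Fin J), ∑ z ∈ S, (F (S.filter fun k => lt k z ∨ k = z) -
      F (S.filter fun k => lt k z)) = F S - F ∅ := by
    intro S
    refine Finset.induction_on_max_value (fun z => (univ.filter fun m => lt m z).card) S (by simp) ?_
    intro a S ha hmax ih
    have hlt : ∀ x ∈ S, lt x a := fun x hx => by
      rcases hto x a (fun e => ha (e ▸ hx)) with h | h
      · exact h
      · exact absurd (hrk _ _ h) (not_lt.2 (hmax x hx))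
    have hn : ∀ x ∈ S, ¬ lt a x := fun x hx h => hi _ (ht _ _ _ h (hlt x hx))
    rw [Finset.sum_insert ha]
    have e1 : (insert a S).filter (fun k => lt k a ∨ k = a) = insert a S := by
      refine Finset.filter_true_of_mem fun x hx => ?_
      rcases Finset.mem_insert.1 hx with h | h
      · exact Or.inr h
      · exact Or.inl (hlt x h)
    have e2 : (insert a S).filter (fun k => lt k a) = S := by
      rw [Finset.filter_insert, if_neg (hi a)]
      exact Finset.filter_true_of_mem hlt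
    have e3 : ∑ z ∈ S, (F ((insert a S).filter fun k => lt k z ∨ k = z) -
        F ((insert a S).filter fun k => lt k z)) = F S - F ∅ := by
      rw [← ih]
      refine Finset.sum_congr rfl fun z hz => ?_
      rw [Finset.filter_insert, Finset.filter_insert, if_neg (hn z hz),
        if_neg (fun h => h.elim (hn z hz) fun e => ha (e ▸ hz))]
    rw [e1, e2, e3]
    ring
  exact key univ

theorem err_nonneg {β T Rl : ℝ} (hβ : 0 < β) (hK : 0 ≤ K₀) (hT : 1 ≤ T) (hRl : 0 ≤ Rl) (ρ : ℕ) :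
    0 ≤ err r β K₀ T Rl ρ := by
  have hb : 0 ≤ bar r := by unfold bar; positivity
  have hT0 : 0 ≤ T := by linarith
  unfold err
  positivity

variable {ρ : ℕ} (am : AM X μ J (2 * ρ) K₀ Λ D) {β T : ℝ} {σ₀ σ₁ : X → Stt r}
  {lt : X → Fin J → Fin J → Prop}

namespace TransAA

theorem hyb_ne {y : X} {z v : Fin J} {b : Bool} (h : am.hyb σ₀ σ₁ lt y z b v ≠ .del) :
    am.d y v ≤ 2 * ρ := by
  by_contra h'
  exact h (by simp [AM.hyb, h'])

theorem hyb_eq {y : X} {z v : Fin J} (h : v ≠ z) :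
    am.hyb σ₀ σ₁ lt y z true v = am.hyb σ₀ σ₁ lt y z false v := by
  unfold AM.hyb
  have e : (lt y v z ∨ (true = true ∧ v = z)) ↔ (lt y v z ∨ (false = true ∧ v = z)) := by simp [h]
  by_cases h1 : lt y v z ∨ (true = true ∧ v = z)
  · rw [if_pos h1, if_pos (e.1 h1)]
  · rw [if_neg h1, if_neg (fun h2 => h1 (e.2 h2))]

theorem ell1 (hΛ : 0 ≤ Λ) (y : X) {v : Fin J} (hv : am.d y v ≤ 2 * ρ) :
    |am.ℓ y v| ≤ Λ * (2 * ρ : ℕ) :=
  (am.ℓ_le y v hv).trans (mul_le_mul_of_nonneg_left (by exact_mod_cast hv) hΛ)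

theorem ell (hΛ : 0 ≤ Λ) (y : X) {v u : Fin J} (hv : am.d y v ≤ 2 * ρ) (hu : am.d y u ≤ 2 * ρ) :
    |am.ℓ y v - am.ℓ y u| ≤ 2 * Λ * (2 * ρ : ℕ) := by
  have h1 := ell1 am hΛ y hv
  have h2 := ell1 am hΛ y hu
  have h3 := abs_sub (am.ℓ y v) (am.ℓ y u)
  linarith

theorem lip (z : X) (j : Fin J) (hj : am.d z j ≤ 2 * ρ) {y : X} (hy : am.pt z j = y) :
    ∀ v w, am.Y z v w ≠ 0 → am.d y v < ρ → am.d y w ≤ am.d y v + 1 := by
  intro v w h hv
  subst hy
  exact am.adj z j v w hj h (by omega)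

include am in
theorem K_nonneg (z : X) : 0 ≤ K₀ :=
  (Finset.sum_nonneg fun _ _ => norm_nonneg _).trans (am.rows z (am.cl z))

end TransAA

open TransAA

theorem dens_telescope (ho : am.Ord lt) (y : X) :
    am.dens β σ₁ y - am.dens β σ₀ y = ∑ k ∈ univ.filter fun k => am.d y k ≤ 2 * ρ,
      (Pu β (am.hyb σ₀ σ₁ lt y k true) (am.Y y) (am.ℓ y) (am.cl y) -
        Pu β (am.hyb σ₀ σ₁ lt y k false) (am.Y y) (am.ℓ y) (am.cl y)) := by
  classical
  set G : Finset (Fin J) → ℝ := fun S => Pu β (fun k => if am.d y k ≤ 2 * ρ then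
    (if k ∈ S then σ₁ (am.pt y k) else σ₀ (am.pt y k)) else .del) (am.Y y) (am.ℓ y) (am.cl y) with hG
  have h := telescope (lt := lt y) (ho.irrefl y) (ho.trans y) (ho.total y) G
  have e1 : G univ = am.dens β σ₁ y := by
    simp only [hG, Finset.mem_univ, if_true]; rfl
  have e0 : G ∅ = am.dens β σ₀ y := by
    simp only [hG, Finset.notMem_empty, if_false]; rfl
  have et : ∀ z, G (univ.filter fun k => lt y k z ∨ k = z) =
      Pu β (am.hyb σ₀ σ₁ lt y z true) (am.Y y) (am.ℓ y) (am.cl y) := fun z => by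
    simp only [hG]
    congr 1
    funext k
    simp [AM.hyb]
  have ef : ∀ z, G (univ.filter fun k => lt y k z) =
      Pu β (am.hyb σ₀ σ₁ lt y z false) (am.Y y) (am.ℓ y) (am.cl y) := fun z => by
    simp only [hG]
    congr 1
    funext k
    simp [AM.hyb]
  rw [← e1, ← e0, ← h, Finset.sum_filter]
  refine Finset.sum_congr rfl fun z _ => ?_
  rw [et, ef]
  split_ifs with hz
  · rfl
  · have : am.hyb σ₀ σ₁ lt y z true = am.hyb σ₀ σ₁ lt y z false := by
      funext k
      by_cases hk : k = z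
      · subst hk; simp [AM.hyb, hz]
      · simp [AM.hyb, hk]
    rw [this, sub_self]

theorem far_y (hr : 0 < r) (hβ : 0 < β) (hΛ : 0 ≤ Λ) (hT : 1 ≤ T) (y : X) {k : Fin J}
    (hk : ρ < am.d y k) :
    |Pu β (am.hyb σ₀ σ₁ lt y k true) (am.Y y) (am.ℓ y) (am.cl y) -
      Pu β (am.hyb σ₀ σ₁ lt y k false) (am.Y y) (am.ℓ y) (am.cl y)| ≤
      err r β K₀ T (2 * Λ * (2 * ρ : ℕ)) ρ := by
  have h := loc hr hβ (am.herm y) (am.rows y) hT (Rl := 2 * Λ * (2 * ρ : ℕ)) (ℓ := am.ℓ y)
    (by positivity) (am.hyb σ₀ σ₁ lt y k true) (am.hyb σ₀ σ₁ lt y k false) (am.cl y) (am.d y)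
    (am.d_self y) ρ (lip am y (am.cl y) (by rw [am.d_self]; exact Nat.zero_le _) (am.pt_self y))
    (fun v hv => by
      have : v ≠ k := fun e => by rw [e] at hv; omega
      exact hyb_eq am this)
    (fun v hv => ell am hΛ y (hv.elim (hyb_ne am) (hyb_ne am))
      (by rw [am.d_self]; exact Nat.zero_le _))
  rwa [am.ℓ_self, Real.exp_zero, one_mul] at h

theorem far_z (hr : 0 < r) (hβ : 0 < β) (hΛ : 0 ≤ Λ) (hT : 1 ≤ T) (z : X) {j : Fin J}
    (hj : ρ < am.d z j) (hj' : am.d z j ≤ 2 * ρ) :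
    |Pu β (am.hyb σ₀ σ₁ lt z (am.cl z) true) (am.Y z) (am.ℓ z) j -
      Pu β (am.hyb σ₀ σ₁ lt z (am.cl z) false) (am.Y z) (am.ℓ z) j| ≤
      Real.exp (Λ * (2 * ρ : ℕ)) * err r β K₀ T (2 * Λ * (2 * ρ : ℕ)) ρ := by
  have h0 : am.d (am.pt z j) j = 0 := by
    have := am.d_self (am.pt z j)
    rwa [am.cl_pt z j hj'] at this
  have h := loc hr hβ (am.herm z) (am.rows z) hT (Rl := 2 * Λ * (2 * ρ : ℕ)) (ℓ := am.ℓ z)
    (by positivity) (am.hyb σ₀ σ₁ lt z (am.cl z) true) (am.hyb σ₀ σ₁ lt z (am.cl z) false) j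
    (am.d (am.pt z j)) h0 ρ (lip am z j hj' rfl)
    (fun v hv => by
      have : v ≠ am.cl z := fun e => by rw [e, am.d_symm z j hj'] at hv; omega
      exact hyb_eq am this)
    (fun v hv => ell am hΛ z (hv.elim (hyb_ne am) (hyb_ne am)) hj')
  refine h.trans (mul_le_mul_of_nonneg_right (Real.exp_le_exp.2 ?_)
    (err_nonneg hβ (K_nonneg am z) hT (by positivity) ρ))
  exact (le_abs_self _).trans (ell1 am hΛ z hj')

theorem near (hr : 0 < r) (hβ : 0 < β) (hΛ : 0 ≤ Λ) (hT : 1 ≤ T) (ho : am.Ord lt) (y : X) {k : Fin J}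
    (hk : am.d y k ≤ ρ) (b : Bool) :
    |Pu β (am.hyb σ₀ σ₁ lt y k b) (am.Y y) (am.ℓ y) (am.cl y) - Real.exp (am.ℓ y k) *
      Pu β (am.hyb σ₀ σ₁ lt (am.pt y k) k b) (am.Y (am.pt y k)) (am.ℓ (am.pt y k)) (am.cl y)| ≤
      2 * err r β K₀ T (2 * Λ * (2 * ρ : ℕ)) ρ := by
  classical
  have hkR : am.d y k ≤ 2 * ρ := by omega
  set z := am.pt y k with hz
  set j := am.cl y with hj
  have hzj : am.d z j = am.d y k := am.d_symm y k hkR
  have hzjR : am.d z j ≤ 2 * ρ := by omega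
  have hpt : am.pt z j = y := am.pt_symm y k hkR
  have hyj : am.d y j = 0 := am.d_self y
  have hzk : am.d z k = 0 := by
    have := am.d_self z
    rwa [hz, am.cl_pt y k hkR] at this
  have htri : ∀ v, am.d y v ≤ ρ → am.d z v ≤ 2 * ρ := fun v hv => by
    have := am.tri z j v hzjR (by rw [hpt]; omega)
    rw [hpt] at this
    omega
  set res : Fin J → Stt r := fun v => if am.d y v ≤ ρ then am.hyb σ₀ σ₁ lt y k b v else .del with hres
  have hres_ne : ∀ v, res v ≠ .del → am.d y v ≤ ρ := fun v hv => by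
    by_contra h
    exact hv (by simp [hres, h])
  have h1 := loc hr hβ (am.herm y) (am.rows y) hT (Rl := 2 * Λ * (2 * ρ : ℕ)) (ℓ := am.ℓ y)
    (by positivity) (am.hyb σ₀ σ₁ lt y k b) res j (am.d y)
    hyj ρ (lip am y j (by omega) (am.pt_self y))
    (fun v hv => by simp [hres, hv.le])
    (fun v hv => ell am hΛ y (hv.elim (hyb_ne am) fun h => by have := hres_ne v h; omega) (by omega))
  rw [hj, am.ℓ_self, Real.exp_zero, one_mul, ← hj] at h1
  obtain ⟨g, hg, hgY⟩ := am.gauge y k hkR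
  have h2 := Pu_congr (σ := res) hr hβ (am.herm y) (Y' := am.Y z) (ℓ := am.ℓ y) (ℓ' := am.ℓ z) g hg
    (fun u v hu hv _ => by
      have a := hres_ne u hu
      have a' := hres_ne v hv
      exact hgY u v (by omega) (by omega) (htri u a) (htri v a'))
    (-am.ℓ y k) (fun v hv => by
      have a := hres_ne v hv
      rw [hz, am.ℓ_pt y k v hkR (by omega) (htri v a)]; ring) j
  have h3 := loc hr hβ (am.herm z) (am.rows z) hT (Rl := 2 * Λ * (2 * ρ : ℕ)) (ℓ := am.ℓ z)
    (by positivity) res (am.hyb σ₀ σ₁ lt z k b) j (am.d y)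
    hyj ρ (lip am z j hzjR hpt)
    (fun v hv => by
      have a : am.d y v ≤ 2 * ρ := by omega
      have a' := htri v hv.le
      have e1 := ho.cons y k v k hkR a hkR a' (by rw [← hz]; omega)
      have e2 := am.pt_pt y k v hkR a a'
      rw [← hz] at e1 e2
      simp only [hres, AM.hyb, if_pos hv.le, if_pos a, if_pos a', e1, e2])
    (fun v hv => ell am hΛ z (hv.elim (fun h => htri v (hres_ne v h)) (hyb_ne am)) hzjR)
  have hl : am.ℓ z j = -am.ℓ y k := by
    rw [hz, am.ℓ_pt y k j hkR (by omega) hzjR, hj, am.ℓ_self]; ring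
  rw [hl, h2] at h3
  have e : Real.exp (am.ℓ y k) * Real.exp (-am.ℓ y k) = 1 := by rw [← Real.exp_add]; simp
  have h4 := mul_le_mul_of_nonneg_left h3 (Real.exp_pos (am.ℓ y k)).le
  rw [← mul_assoc, e, one_mul, ← abs_of_pos (Real.exp_pos (am.ℓ y k)), ← abs_mul, mul_sub,
    ← mul_assoc, e, one_mul] at h4
  have h5 := abs_sub_le (Pu β (am.hyb σ₀ σ₁ lt y k b) (am.Y y) (am.ℓ y) j)
    (Pu β res (am.Y y) (am.ℓ y) j)
    (Real.exp (am.ℓ y k) * Pu β (am.hyb σ₀ σ₁ lt z k b) (am.Y z) (am.ℓ z) j)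
  linarith

end Crest.Agent.R109
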