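import Crest.Agent.R109.Defs

/-!
# Row 109, task R109-WLim

Weak operator limits.  PLAN.  `exists_wlim`: the bounded scalars `⟪η, y i ξ⟫` converge along the
ultrafilter; the limit is a bounded sesquilinear form (`InnerProductSpace.continuousLinearMapOfBilin`
or Riesz `InnerProductSpace.toDual` pointwise + `LinearMap.mkContinuous`).  `mem`: `M = M''`
(`VonNeumannAlgebra.commutant_commutant`, `mem_commutant_iff`); commutation passes to weak limits.
`nonneg`: `ContinuousLinearMap.nonneg_iff_isPositive`.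
-/

set_option autoImplicit false
set_option linter.unusedSectionVars false
set_option linter.unusedVariables false

namespace Crest.Agent.R109

open scoped InnerProductSpace ComplexOrder ComplexConjugate
open Filter Topology

universe u

variable {H : Type u} [NormedAddCommGroup H] [InnerProductSpace ℂ H] [CompleteSpace H]
  {M : VonNeumannAlgebra H} {A : StarSubalgebra ℂ (H →L[ℂ] H)}
  {ω φ : (H →L[ℂ] H) →ₗ[ℂ] ℂ} {E : (H →L[ℂ] H) →ₗ[ℂ] (H →L[ℂ] H)}

namespace WLimA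

theorem norm_le_of_inner {z : H →L[ℂ] H} {C : ℝ} (hC : 0 ≤ C)
    (h : ∀ ξ η : H, ‖⟪η, z ξ⟫_ℂ‖ ≤ C * ‖ξ‖ * ‖η‖) : ‖z‖ ≤ C := by
  refine z.opNorm_le_bound hC fun ξ => ?_
  have h1 := h ξ (z ξ)
  rw [inner_self_eq_norm_sq_to_K, norm_pow, RCLike.norm_ofReal, abs_norm] at h1
  rcases (norm_nonneg (z ξ)).eq_or_lt with h0 | h0
  · rw [← h0]; positivity
  · nlinarith

theorem inner_bound {y : H →L[ℂ] H} {C : ℝ} (hC : ‖y‖ ≤ C) (ξ η : H) :
    ‖⟪η, y ξ⟫_ℂ‖ ≤ C * ‖ξ‖ * ‖η‖ := by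
  calc ‖⟪η, y ξ⟫_ℂ‖ ≤ ‖η‖ * ‖y ξ‖ := norm_inner_le_norm _ _
    _ ≤ ‖η‖ * (C * ‖ξ‖) := by
        gcongr
        exact (y.le_opNorm ξ).trans (by gcongr)
    _ = C * ‖ξ‖ * ‖η‖ := by ring

theorem exists_lim {ι : Type*} (U : Ultrafilter ι) (f : ι → ℂ) {R : ℝ} (hR : ∀ i, ‖f i‖ ≤ R) :
    ∃ c : ℂ, ‖c‖ ≤ R ∧ Tendsto f (U : Filter ι) (𝓝 c) := by
  have hc : IsCompact (Metric.closedBall (0 : ℂ) R) := isCompact_closedBall _ _
  obtain ⟨c, hc1, hc2⟩ := hc.ultrafilter_le_nhds (U.map f) (by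
    rw [Ultrafilter.coe_map, le_principal_iff, mem_map]
    exact Eventually.of_forall fun i => by simpa using hR i)
  exact ⟨c, by simpa using hc1, hc2⟩

end WLimA

theorem exists_wlim {ι : Type*} (U : Ultrafilter ι) (y : ι → H →L[ℂ] H) {C : ℝ}
    (hC : ∀ i, ‖y i‖ ≤ C) : ∃ z, ‖z‖ ≤ C ∧ WLim (U : Filter ι) y z := by
  have hC0 : 0 ≤ C := by
    obtain ⟨i⟩ : Nonempty ι := U.neBot.nonempty
    exact (norm_nonneg _).trans (hC i)
  choose L hL1 hL2 using fun ξ η : H =>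
    WLimA.exists_lim U (fun i => ⟪η, y i ξ⟫_ℂ) (fun i => WLimA.inner_bound (hC i) ξ η)
  have hadd1 : ∀ ξ ξ' η, L (ξ + ξ') η = L ξ η + L ξ' η := fun ξ ξ' η => by
    refine tendsto_nhds_unique (hL2 _ _) ?_
    simpa [map_add, inner_add_right] using (hL2 ξ η).add (hL2 ξ' η)
  have hsm1 : ∀ (c : ℂ) ξ η, L (c • ξ) η = c * L ξ η := fun c ξ η => by
    refine tendsto_nhds_unique (hL2 _ _) ?_
    simpa [map_smul, inner_smul_right] using (hL2 ξ η).const_mul c
  have hadd2 : ∀ ξ η η', L ξ (η + η') = L ξ η + L ξ η' := fun ξ η η' => by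
    refine tendsto_nhds_unique (hL2 _ _) ?_
    simpa [inner_add_left] using (hL2 ξ η).add (hL2 ξ η')
  have hsm2 : ∀ (c : ℂ) ξ η, L ξ (c • η) = conj c * L ξ η := fun c ξ η => by
    refine tendsto_nhds_unique (hL2 _ _) ?_
    simpa only [inner_smul_left] using (hL2 ξ η).const_mul (conj c)
  -- Riesz representation, pointwise
  have hR : ∀ ξ, ∃ v : H, ∀ η, ⟪η, v⟫_ℂ = L ξ η := fun ξ => by
    let f : H →ₗ[ℂ] ℂ :=
      { toFun := fun η => conj (L ξ η)
        map_add' := fun η η' => by rw [hadd2, map_add]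
        map_smul' := fun c η => by simp [hsm2] }
    let g : H →L[ℂ] ℂ := f.mkContinuous (C * ‖ξ‖) fun η => by
      simpa [f] using hL1 ξ η
    refine ⟨(InnerProductSpace.toDual ℂ H).symm g, fun η => ?_⟩
    rw [← inner_conj_symm, InnerProductSpace.toDual_symm_apply]
    simp [g, f]
  choose v hv using hR
  let z0 : H →ₗ[ℂ] H :=
    { toFun := v
      map_add' := fun ξ ξ' => ext_inner_left ℂ fun η => by
        rw [inner_add_right, hv, hv, hv, hadd1]
      map_smul' := fun c ξ => ext_inner_left ℂ fun η => by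
        rw [RingHom.id_apply, inner_smul_right, hv, hv, hsm1] }
  have hb : ∀ ξ, ‖z0 ξ‖ ≤ C * ‖ξ‖ := fun ξ => by
    have h1 := hL1 ξ (v ξ)
    rw [← hv, inner_self_eq_norm_sq_to_K, norm_pow, RCLike.norm_ofReal, abs_norm] at h1
    change ‖v ξ‖ ≤ _
    rcases (norm_nonneg (v ξ)).eq_or_lt with h0 | h0
    · rw [← h0]; positivity
    · nlinarith
  refine ⟨z0.mkContinuous C hb, z0.mkContinuous_norm_le hC0 hb, fun ξ η => ?_⟩
  change Tendsto _ _ (𝓝 ⟪η, v ξ⟫_ℂ)
  rw [hv]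
  exact hL2 ξ η

namespace WLim

variable {ι : Type*} {l : Filter ι} {y y' : ι → H →L[ℂ] H} {z z' : H →L[ℂ] H}

theorem unique [l.NeBot] (h : WLim l y z) (h' : WLim l y z') : z = z' := by
  ext ξ
  exact ext_inner_left ℂ fun η => tendsto_nhds_unique (h ξ η) (h' ξ η)

theorem const (z : H →L[ℂ] H) : WLim l (fun _ => z) z := by
  exact fun ξ η => tendsto_const_nhds

theorem congr' (h : WLim l y z) (e : ∀ᶠ i in l, y i = y' i) : WLim l y' z := by
  exact fun ξ η => (h ξ η).congr' (e.mono fun i hi => by simp only [hi])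

theorem add (h : WLim l y z) (h' : WLim l y' z') : WLim l (fun i => y i + y' i) (z + z') := by
  intro ξ η
  simpa [inner_add_right] using (h ξ η).add (h' ξ η)

theorem sub (h : WLim l y z) (h' : WLim l y' z') : WLim l (fun i => y i - y' i) (z - z') := by
  intro ξ η
  simpa [inner_sub_right] using (h ξ η).sub (h' ξ η)

theorem smul (h : WLim l y z) (c : ℂ) : WLim l (fun i => c • y i) (c • z) := by
  intro ξ η
  simpa [inner_smul_right] using (h ξ η).const_mul c

theorem mul_left (h : WLim l y z) (a : H →L[ℂ] H) : WLim l (fun i => a * y i) (a * z) := by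
  intro ξ η
  simpa [ContinuousLinearMap.adjoint_inner_left] using
    h ξ (ContinuousLinearMap.adjoint a η)

theorem mul_right (h : WLim l y z) (a : H →L[ℂ] H) : WLim l (fun i => y i * a) (z * a) := by
  intro ξ η
  simpa using h (a ξ) η

theorem star (h : WLim l y z) : WLim l (fun i => star (y i)) (star z) := by
  intro ξ η
  have h1 := (Complex.continuous_conj.tendsto _).comp (h η ξ)
  simp only [ContinuousLinearMap.star_eq_adjoint, ContinuousLinearMap.adjoint_inner_right]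
  refine (h1.congr fun i => ?_).trans ?_
  · simp [Function.comp, inner_conj_symm]
  · rw [inner_conj_symm]

theorem norm_le [l.NeBot] (h : WLim l y z) {C : ℝ} (hC : ∀ᶠ i in l, ‖y i‖ ≤ C) : ‖z‖ ≤ C := by
  have hC0 : 0 ≤ C := by
    obtain ⟨i, hi⟩ := hC.exists
    exact (norm_nonneg _).trans hi
  refine WLimA.norm_le_of_inner hC0 fun ξ η => ?_
  exact le_of_tendsto (h ξ η).norm (hC.mono fun i hi => WLimA.inner_bound hi ξ η)

theorem nonneg [l.NeBot] (h : WLim l y z) (h0 : ∀ᶠ i in l, 0 ≤ y i) : 0 ≤ z := by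
  rw [ContinuousLinearMap.nonneg_iff_isPositive, ContinuousLinearMap.isPositive_iff_complex]
  intro ξ
  have h1 : 0 ≤ ⟪ξ, z ξ⟫_ℂ := by
    refine ge_of_tendsto (h ξ ξ) (h0.mono fun i hi => ?_)
    rw [ContinuousLinearMap.nonneg_iff_isPositive] at hi
    exact hi.inner_nonneg_right ξ
  have h2 : 0 ≤ ⟪z ξ, ξ⟫_ℂ := by
    rw [← inner_conj_symm]
    obtain ⟨ha, hb⟩ := Complex.nonneg_iff.mp h1
    refine Complex.nonneg_iff.mpr ⟨?_, ?_⟩
    · rw [Complex.conj_re]; exact ha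
    · rw [Complex.conj_im, ← hb, neg_zero]
  obtain ⟨ha, hb⟩ := Complex.nonneg_iff.mp h2
  refine ⟨?_, ha⟩
  apply Complex.ext <;> simp [← hb]

theorem mem [l.NeBot] (h : WLim l y z) (hM : ∀ᶠ i in l, y i ∈ M) : z ∈ M := by
  rw [← VonNeumannAlgebra.commutant_commutant M, VonNeumannAlgebra.mem_commutant_iff]
  intro g hg
  rw [VonNeumannAlgebra.mem_commutant_iff] at hg
  refine unique (h.mul_left g) ((h.mul_right g).congr' (hM.mono fun i hi => ?_))
  exact hg _ hi

theorem memA [l.NeBot] (hA : Masa M A) (h : WLim l y z) (hM : ∀ᶠ i in l, y i ∈ A) : z ∈ A := by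
  refine hA.max z (h.mem (hM.mono fun i hi => hA.le _ hi)) fun a ha => ?_
  refine unique (h.mul_left a) ((h.mul_right a).congr' (hM.mono fun i hi => ?_))
  exact hA.comm _ hi _ ha

end WLim

end Crest.Agent.R109
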