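import Crest.Agent.R109.PSym

/-!
# Row 109, task R109-ZFree

Zero-free regions.  PLAN.  `zero_free`: induction on the number of vertices with `(φ v).card ≠ 1`.  If all
cards are `1`, `pp = pf` is a product of determinants (`pp_single`; change the heights outside `S` by
`mat_congr` — so state the base hypothesis for heights outside `C` on `S` only).  Otherwise pick such a `v`
(`Sing (φ v)`): `D = pp (v deleted) ≠ 0`, for each `S ∈ φ v` the affine function `ζ ↦ ζ D + c S` has no zero outside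
`C`, so `- c S / D ∈ C`; by convexity the average is in `C`.  `root_mem`: immediate from `zero_free` and
`pp_sing_affine`.  Base cases: if `mat x = 0` then `0 = im (x⋆ mat x) = ∑_{S} im (z v) |x v|²` and `x v = 0` off `S`
(`Matrix.exists_mulVec_eq_zero_iff`); Gershgorin (`det_ne_zero_of_sum_row_lt_diag`).
-/

set_option autoImplicit false
set_option linter.unusedSectionVars false
set_option linter.unusedVariables false

namespace Crest.Agent.R109

open Matrix Finset Function Polynomial
open scoped ComplexConjugate Real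

variable {V K : Type*} [Fintype V] [DecidableEq V] [Fintype K] [DecidableEq K]
  {sg : K → ℂ} {Y : Matrix V V ℂ} {φ : V → Finset (Finset K)} {z : V → ℂ}

namespace ZFreeA

lemma adm_single (S : Finset K) : Adm ({S} : Finset (Finset K)) := Or.inl (card_singleton _)

lemma adm_update (hφ : ∀ v, Adm (φ v)) (u : V) {Φ : Finset (Finset K)} (hΦ : Adm Φ) :
    ∀ v, Adm (update φ u Φ v) := by
  intro v
  by_cases h : v = u
  · subst h; rwa [update_self]
  · rw [update_of_ne h]; exact hφ v

lemma sing_ne {Φ : Finset (Finset K)} (hΦ : Sing Φ) : Φ ≠ {∅} := by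
  intro h
  have := hΦ.2 ∅ (by rw [h]; exact mem_singleton_self _)
  simp at this

lemma zf_aux {C : Set ℂ} (hC : Convex ℝ C)
    (hb : ∀ (S : Finset V) (k : K) (z : V → ℂ), (∀ v ∈ S, z v ∉ C) → (mat S (sg k) Y z).det ≠ 0)
    (n : ℕ) : ∀ (φ : V → Finset (Finset K)) (z : V → ℂ),
      (univ.filter fun v => (φ v).card ≠ 1).card = n → (∀ v, Adm (φ v)) →
      (∀ v, φ v ≠ {∅} → z v ∉ C) → pp sg Y φ z ≠ 0 := by
  induction n with
  | zero =>
    intro φ z hn hφ hz
    have h1 : ∀ v, ∃ a, φ v = {a} := by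
      intro v
      rw [← card_eq_one]
      by_contra h
      have : v ∈ univ.filter fun v => (φ v).card ≠ 1 := by simp [h]
      rw [card_eq_zero.1 hn] at this
      simp at this
    choose f hf using h1
    have hφf : φ = fun v => {f v} := funext hf
    rw [hφf, pp_single]
    unfold pf
    refine prod_ne_zero_iff.2 fun k _ => hb _ k z fun v hv => hz v ?_
    rw [hf v]
    intro h
    have h2 : f v = ∅ := singleton_injective h
    have h3 : k ∈ f v := (mem_filter.1 hv).2
    rw [h2] at h3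
    simp at h3
  | succ n ih =>
    intro φ z hn hφ hz
    obtain ⟨v, hv⟩ : (univ.filter fun v => (φ v).card ≠ 1).Nonempty := by
      rw [← card_pos, hn]; omega
    have hv1 : (φ v).card ≠ 1 := (mem_filter.1 hv).2
    have hS : Sing (φ v) := (hφ v).resolve_left hv1
    have hcard : ∀ S : Finset K,
        (univ.filter fun w => (update φ v {S} w).card ≠ 1).card = n := by
      intro S
      have : (univ.filter fun w => (update φ v {S} w).card ≠ 1) =
          (univ.filter fun w => (φ w).card ≠ 1).erase v := by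
        ext w
        by_cases h : w = v
        · subst h; simp
        · simp [h]
      rw [this, card_erase_of_mem hv, hn]; rfl
    have hD : pp sg Y (update φ v {∅}) z ≠ 0 := by
      refine ih _ _ (hcard _) (adm_update hφ v (adm_single _)) fun w hw => ?_
      by_cases h : w = v
      · subst h; simp at hw
      · rw [update_of_ne h] at hw; exact hz w hw
    have hroot : ∀ S ∈ φ v,
        -pp sg Y (update φ v {S}) (update z v 0) / pp sg Y (update φ v {∅}) z ∈ C := by
      intro S hSm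
      by_contra hn'
      have hS1 : Sing ({S} : Finset (Finset K)) :=
        ⟨singleton_nonempty _, fun T hT => by rw [mem_singleton.1 hT]; exact hS.2 S hSm⟩
      have h2 := ih (update φ v {S})
        (update z v (-pp sg Y (update φ v {S}) (update z v 0) / pp sg Y (update φ v {∅}) z))
        (hcard _) (adm_update hφ v (adm_single _)) (fun w hw => by
          by_cases h : w = v
          · subst h; rwa [update_self]
          · rw [update_of_ne h] at hw ⊢; exact hz w hw)
      apply h2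
      rw [pp_sing_affine v hS1]
      field_simp
      ring
    intro h0
    have h1 := pp_sing_affine (sg := sg) (Y := Y) (φ := φ) (z := z) v hS (z v)
    rw [update_eq_self, update_eq_self, h0] at h1
    have h2 := pp_update_avg (sg := sg) (Y := Y) (φ := φ) (z := update z v 0) v (φ v)
    rw [update_eq_self] at h2
    have hc0 : ((φ v).card : ℝ) ≠ 0 := by
      have := hS.1.card_pos
      exact_mod_cast this.ne'
    have hmem := hC.sum_mem (t := φ v) (w := fun _ => ((φ v).card : ℝ)⁻¹)
      (z := fun S => -pp sg Y (update φ v {S}) (update z v 0) / pp sg Y (update φ v {∅}) z)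
      (fun _ _ => inv_nonneg.2 (Nat.cast_nonneg _)) (by rw [sum_const, nsmul_eq_mul, mul_inv_cancel₀ hc0]) hroot
    apply hz v (sing_ne hS)
    convert hmem using 1
    rw [← smul_sum, ← sum_div, sum_neg_distrib, Complex.real_smul]
    push_cast
    rw [h2] at h1
    rw [mul_div_assoc', eq_div_iff hD]
    linear_combination -h1

/-- the off-diagonal part -/
def off (S : Finset V) (e : ℂ) (Y : Matrix V V ℂ) : Matrix V V ℂ :=
  Matrix.of fun u v => if u = v then 0 else (if u ∈ S ∧ v ∈ S then -(e * Y u v) else 0)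

lemma mat_eq (S : Finset V) (e : ℂ) :
    mat S e Y z = diagonal (fun u => if u ∈ S then z u else 1) + off S e Y := by
  ext u v
  by_cases h : u = v
  · subst h; simp [mat, off]
  · simp [mat, off, h]

lemma off_herm (hY : Y.IsHermitian) (S : Finset V) {e : ℂ} (he : e = 1 ∨ e = -1) :
    (off S e Y).IsHermitian := by
  ext u v
  have hYa : star (Y v u) = Y u v := hY.apply u v
  have hes : star e = e := by rcases he with rfl | rfl <;> simp
  by_cases h : u = v
  · subst h; simp [off, conjTranspose_apply]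
  · have h' : ¬ v = u := fun h' => h h'.symm
    simp only [off, conjTranspose_apply, of_apply, h, h', if_false]
    by_cases h2 : u ∈ S ∧ v ∈ S
    · rw [if_pos h2, if_pos h2.symm, star_neg, star_mul', hes, hYa]
    · rw [if_neg h2, if_neg fun h3 => h2 h3.symm, star_zero]

lemma key (hY : Y.IsHermitian) (S : Finset V) {e : ℂ} (he : e = 1 ∨ e = -1)
    (h0 : (mat S e Y z).det = 0) :
    ∃ x : V → ℂ, (∃ v ∈ S, x v ≠ 0) ∧ ∑ v ∈ S, (z v).im * Complex.normSq (x v) = 0 := by
  obtain ⟨x, hx0, hx⟩ := Matrix.exists_mulVec_eq_zero_iff.2 h0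
  have hoff : ∀ v, v ∉ S → x v = 0 := by
    intro v hv
    have h1 := congrFun hx v
    rw [mat_eq, add_mulVec, Pi.add_apply, mulVec_diagonal, if_neg hv, one_mul] at h1
    have h2 : (off S e Y *ᵥ x) v = 0 := by
      simp only [mulVec, dotProduct, off, of_apply]
      refine sum_eq_zero fun w _ => ?_
      by_cases h : v = w
      · simp [h]
      · simp [h, hv]
    rw [h2, add_zero] at h1
    exact h1
  refine ⟨x, ?_, ?_⟩
  · by_contra hne
    push Not at hne
    apply hx0
    funext v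
    by_cases hv : v ∈ S
    · exact hne v hv
    · exact hoff v hv
  · have h1 : star x ⬝ᵥ (mat S e Y z *ᵥ x) = 0 := by rw [hx, dotProduct_zero]
    rw [mat_eq, add_mulVec, dotProduct_add] at h1
    have h2 := (off_herm hY S he).im_star_dotProduct_mulVec_self x
    have h3 := congrArg Complex.im h1
    rw [Complex.add_im] at h3
    have h2' : (star x ⬝ᵥ (off S e Y *ᵥ x)).im = 0 := h2
    rw [h2', add_zero, Complex.zero_im] at h3
    rw [← h3]
    simp only [dotProduct, mulVec_diagonal, Complex.im_sum]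
    rw [← sum_subset (subset_univ S)]
    · refine sum_congr rfl fun v hv => ?_
      rw [if_pos hv]
      simp only [Pi.star_apply, Complex.star_def, Complex.mul_im, Complex.mul_re, Complex.conj_re,
        Complex.conj_im, Complex.normSq_apply]
      ring
    · intro v _ hv
      rw [hoff v hv]
      simp

end ZFreeA

open ZFreeA

theorem zero_free {C : Set ℂ} (hC : Convex ℝ C)
    (hb : ∀ (S : Finset V) (k : K) (z : V → ℂ), (∀ v ∈ S, z v ∉ C) → (mat S (sg k) Y z).det ≠ 0)
    (hφ : ∀ v, Adm (φ v)) (hz : ∀ v, φ v ≠ {∅} → z v ∉ C) : pp sg Y φ z ≠ 0 :=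
  zf_aux hC hb _ φ z rfl hφ hz

theorem root_mem {C : Set ℂ} (hC : Convex ℝ C)
    (hb : ∀ (S : Finset V) (k : K) (z : V → ℂ), (∀ v ∈ S, z v ∉ C) → (mat S (sg k) Y z).det ≠ 0)
    (hφ : ∀ v, Adm (φ v)) {u : V} (hz : ∀ v, v ≠ u → φ v ≠ {∅} → z v ∉ C) {Φ : Finset (Finset K)}
    (hΦ : Sing Φ) :
    -pp sg Y (update φ u Φ) (update z u 0) / pp sg Y (update φ u {∅}) z ∈ C := by
  have hD : pp sg Y (update φ u {∅}) z ≠ 0 := by
    refine zero_free hC hb (adm_update hφ u (adm_single _)) fun w hw => ?_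
    by_cases h : w = u
    · subst h; simp at hw
    · rw [update_of_ne h] at hw; exact hz w h hw
  by_contra hn
  have h2 := zero_free (φ := update φ u Φ)
    (z := update z u (-pp sg Y (update φ u Φ) (update z u 0) / pp sg Y (update φ u {∅}) z))
    hC hb (adm_update hφ u (Or.inr hΦ)) (fun w hw => by
      by_cases h : w = u
      · subst h; rwa [update_self]
      · rw [update_of_ne h] at hw ⊢; exact hz w h hw)
  apply h2
  rw [pp_sing_affine u hΦ]
  field_simp
  ring

theorem det_up (hY : Y.IsHermitian) (S : Finset V) {e : ℂ} (he : e = 1 ∨ e = -1)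
    (hz : ∀ v ∈ S, 0 < (z v).im) : (mat S e Y z).det ≠ 0 := by
  intro h0
  obtain ⟨x, ⟨v, hv, hxv⟩, hs⟩ := key hY S he h0
  have : 0 < ∑ v ∈ S, (z v).im * Complex.normSq (x v) :=
    sum_pos' (fun w hw => mul_nonneg (hz w hw).le (Complex.normSq_nonneg _))
      ⟨v, hv, mul_pos (hz v hv) (Complex.normSq_pos.2 hxv)⟩
  linarith

theorem det_down (hY : Y.IsHermitian) (S : Finset V) {e : ℂ} (he : e = 1 ∨ e = -1)
    (hz : ∀ v ∈ S, (z v).im < 0) : (mat S e Y z).det ≠ 0 := by
  intro h0
  obtain ⟨x, ⟨v, hv, hxv⟩, hs⟩ := key hY S he h0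
  have : 0 < ∑ v ∈ S, (-(z v).im) * Complex.normSq (x v) :=
    sum_pos' (fun w hw => mul_nonneg (neg_pos.2 (hz w hw)).le (Complex.normSq_nonneg _))
      ⟨v, hv, mul_pos (neg_pos.2 (hz v hv)) (Complex.normSq_pos.2 hxv)⟩
  simp only [neg_mul, sum_neg_distrib] at this
  linarith

theorem det_ext {K₀ : ℝ} (hK : Rows Y K₀) (S : Finset V) {e : ℂ} (he : e = 1 ∨ e = -1)
    (hz : ∀ v ∈ S, K₀ < ‖z v‖) : (mat S e Y z).det ≠ 0 := by
  have hen : ‖e‖ = 1 := by rcases he with rfl | rfl <;> simp
  refine det_ne_zero_of_sum_row_lt_diag fun k => ?_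
  by_cases hk : k ∈ S
  · have h1 : ‖mat S e Y z k k‖ = ‖z k‖ := by simp [mat, hk]
    rw [h1]
    refine lt_of_le_of_lt ?_ (hz k hk)
    refine le_trans ?_ (hK k)
    refine le_trans (sum_le_sum fun j hj => ?_)
      (sum_le_sum_of_subset_of_nonneg (erase_subset k univ) fun j _ _ => norm_nonneg (Y k j))
    have hj' : ¬ k = j := fun h => (mem_erase.1 hj).1 h.symm
    simp only [mat, of_apply, hj', if_false]
    split_ifs
    · rw [norm_neg, norm_mul, hen, one_mul]
    · simp
  · have h1 : ‖mat S e Y z k k‖ = 1 := by simp [mat, hk]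
    rw [h1, sum_eq_zero]
    · exact one_pos
    · intro j hj
      have hj' : ¬ k = j := fun h => (mem_erase.1 hj).1 h.symm
      simp [mat, hj', hk]

namespace ZFreeA

lemma hb_up (hs : Sgn sg) (hY : Y.IsHermitian) : ∀ (S : Finset V) (k : K) (z : V → ℂ),
    (∀ v ∈ S, z v ∉ {c : ℂ | c.im ≤ 0}) → (mat S (sg k) Y z).det ≠ 0 :=
  fun S k _ h => det_up hY S (hs k) fun v hv => not_le.1 (h v hv)

lemma hb_down (hs : Sgn sg) (hY : Y.IsHermitian) : ∀ (S : Finset V) (k : K) (z : V → ℂ),
    (∀ v ∈ S, z v ∉ {c : ℂ | 0 ≤ c.im}) → (mat S (sg k) Y z).det ≠ 0 :=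
  fun S k _ h => det_down hY S (hs k) fun v hv => not_le.1 (h v hv)

lemma hb_ext (hs : Sgn sg) {K₀ : ℝ} (hK : Rows Y K₀) : ∀ (S : Finset V) (k : K) (z : V → ℂ),
    (∀ v ∈ S, z v ∉ Metric.closedBall (0 : ℂ) K₀) → (mat S (sg k) Y z).det ≠ 0 :=
  fun S k _ h => det_ext hK S (hs k) fun v hv => by
    have := h v hv
    rwa [mem_closedBall_zero_iff, not_le] at this

end ZFreeA

theorem stab_up (hs : Sgn sg) (hY : Y.IsHermitian) (hφ : ∀ v, Adm (φ v))
    (hz : ∀ v, φ v ≠ {∅} → 0 < (z v).im) : pp sg Y φ z ≠ 0 :=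
  zero_free (convex_halfSpace_im_le 0) (hb_up hs hY) hφ fun v hv => not_le.2 (hz v hv)

theorem stab_down (hs : Sgn sg) (hY : Y.IsHermitian) (hφ : ∀ v, Adm (φ v))
    (hz : ∀ v, φ v ≠ {∅} → (z v).im < 0) : pp sg Y φ z ≠ 0 :=
  zero_free (convex_halfSpace_im_ge 0) (hb_down hs hY) hφ fun v hv => not_le.2 (hz v hv)

theorem ext_ne (hs : Sgn sg) {K₀ : ℝ} (hK : Rows Y K₀) (hφ : ∀ v, Adm (φ v))
    (hz : ∀ v, φ v ≠ {∅} → K₀ < ‖z v‖) : pp sg Y φ z ≠ 0 :=
  zero_free (convex_closedBall (0 : ℂ) K₀) (hb_ext hs hK) hφ fun v hv => by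
    rw [mem_closedBall_zero_iff, not_le]; exact hz v hv

theorem ext_bound (hs : Sgn sg) {K₀ : ℝ} (hK : Rows Y K₀) (hφ : ∀ v, Adm (φ v)) {u : V}
    (hu : Sing (φ u)) (hz : ∀ v, φ v ≠ {∅} → K₀ + 1 ≤ ‖z v‖) :
    ‖pp sg Y (update φ u {∅}) z / pp sg Y φ z‖ ≤ 1 := by
  have hr := root_mem (z := z) (u := u) (convex_closedBall (0 : ℂ) K₀) (hb_ext hs hK) hφ
    (fun v _ hv => by
      rw [mem_closedBall_zero_iff, not_le]; linarith [hz v hv]) hu
  rw [mem_closedBall_zero_iff] at hr
  have h1 := pp_sing_affine (sg := sg) (Y := Y) (φ := φ) (z := z) u hu (z u)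
  rw [update_eq_self, update_eq_self] at h1
  rw [update_eq_self] at hr
  have hzu := hz u (sing_ne hu)
  set D := pp sg Y (update φ u {∅}) z with hDdef
  set c := pp sg Y φ (update z u 0) with hc
  by_cases hD : D = 0
  · rw [hD]; simp
  have h2 : pp sg Y φ z = D * (z u - -c / D) := by
    rw [h1]; field_simp; ring
  have h3 : 1 ≤ ‖z u - -c / D‖ := by
    have := norm_sub_norm_le (z u) (-c / D)
    linarith
  rw [h2, div_mul_cancel_left₀ hD, norm_inv]
  exact inv_le_one_of_one_le₀ h3

theorem root_im_le (hs : Sgn sg) (hY : Y.IsHermitian) (hφ : ∀ v, Adm (φ v)) {u : V}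
    (hz : ∀ v, v ≠ u → φ v ≠ {∅} → 0 < (z v).im) {Φ : Finset (Finset K)} (hΦ : Sing Φ) :
    (-pp sg Y (update φ u Φ) (update z u 0) / pp sg Y (update φ u {∅}) z).im ≤ 0 :=
  root_mem (convex_halfSpace_im_le 0) (hb_up hs hY) hφ (fun v h hv => not_le.2 (hz v h hv)) hΦ

theorem root_im_ge (hs : Sgn sg) (hY : Y.IsHermitian) (hφ : ∀ v, Adm (φ v)) {u : V}
    (hz : ∀ v, v ≠ u → φ v ≠ {∅} → (z v).im < 0) {Φ : Finset (Finset K)} (hΦ : Sing Φ) :
    0 ≤ (-pp sg Y (update φ u Φ) (update z u 0) / pp sg Y (update φ u {∅}) z).im :=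
  root_mem (convex_halfSpace_im_ge 0) (hb_down hs hY) hφ (fun v h hv => not_le.2 (hz v h hv)) hΦ

end Crest.Agent.R109
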